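import Vale.Agent.P048.CE

namespace Vale.Agent.P048

open Finset

variable {V : Type*} [DecidableEq V]

def Conn (G : SimpleGraph V) (D : Finset V) : Prop :=
  ∀ A, A ⊆ D → A.Nonempty → (∀ x ∈ A, ∀ y ∈ D, G.Adj x y → y ∈ A) → A = D

theorem exists_comp {G : SimpleGraph V} {X : Finset V} {d : V} (hd : d ∈ X) :
    ∃ D, D ⊆ X ∧ d ∈ D ∧ (∀ x ∈ D, ∀ y ∈ X, G.Adj x y → y ∈ D) ∧ Conn G D := by
  classical
  obtain ⟨D, hD, hmin⟩ := exists_min_image
    (X.powerset.filter (fun D => d ∈ D ∧ ∀ x ∈ D, ∀ y ∈ X, G.Adj x y → y ∈ D)) card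
    ⟨X, by
      rw [mem_filter, mem_powerset]
      exact ⟨Subset.refl _, hd, fun x _ y hy _ => hy⟩⟩
  rw [mem_filter, mem_powerset] at hD
  obtain ⟨hDX, hdD, hcl⟩ := hD
  refine ⟨D, hDX, hdD, hcl, ?_⟩
  intro A hAD hAne hA
  by_contra hne
  by_cases hdA : d ∈ A
  · have h1 := hmin A (by
      rw [mem_filter, mem_powerset]
      refine ⟨hAD.trans hDX, hdA, ?_⟩
      intro x hx y hy hxy
      exact hA x hx y (hcl x (hAD hx) y hy hxy) hxy)
    exact hne (eq_of_subset_of_card_le hAD h1)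
  · have h1 := hmin (D \ A) (by
      rw [mem_filter, mem_powerset]
      refine ⟨sdiff_subset.trans hDX, by rw [mem_sdiff]; exact ⟨hdD, hdA⟩, ?_⟩
      intro x hx y hy hxy
      rw [mem_sdiff] at hx ⊢
      refine ⟨hcl x hx.1 y hy hxy, ?_⟩
      intro hyA
      exact hx.2 (hA y hyA x hx.1 hxy.symm))
    have h2 : (D \ A).card = D.card - A.card := card_sdiff_of_subset hAD
    have h3 := hAne.card_pos
    have h4 := card_le_card hAD
    omega

theorem conn_chain {G : SimpleGraph V} {D : Finset V} {u v : V} (h : Conn G D) (hu : u ∈ D)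
    (hv : v ∈ D) : ∃ q : List V, q.IsChain G.Adj ∧ (∀ x ∈ q, x ∈ D) ∧ q.head? = some u ∧
      q.getLast? = some v := by
  classical
  have hA := h (D.filter (fun v => ∃ q : List V, q.IsChain G.Adj ∧ (∀ x ∈ q, x ∈ D) ∧
    q.head? = some u ∧ q.getLast? = some v)) (filter_subset _ _)
    ⟨u, by
      rw [mem_filter]
      exact ⟨hu, [u], by simp, by simpa using hu, rfl, rfl⟩⟩
    (by
      intro x hx y hy hxy
      rw [mem_filter] at hx ⊢
      obtain ⟨hxD, q, h1, h2, h3, h4⟩ := hx
      refine ⟨hy, q ++ [y], ?_, ?_, ?_, ?_⟩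
      · rw [List.isChain_append]
        refine ⟨h1, by simp, ?_⟩
        intro a ha b hb
        rw [h4] at ha
        simp only [Option.mem_def, Option.some.injEq, List.head?_cons] at ha hb
        rw [← ha, ← hb]; exact hxy
      · intro z hz
        rw [List.mem_append, List.mem_singleton] at hz
        rcases hz with hz | rfl
        · exact h2 z hz
        · exact hy
      · rw [List.head?_append, h3]; rfl
      · simp)
  have hv' : v ∈ D.filter (fun v => ∃ q : List V, q.IsChain G.Adj ∧ (∀ x ∈ q, x ∈ D) ∧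
    q.head? = some u ∧ q.getLast? = some v) := by rw [hA]; exact hv
  exact (mem_filter.1 hv').2

theorem conn_bridge {G : SimpleGraph V} {D : Finset V} {u v : V} (h : Conn G D)
    (hu : Att G D u) (hv : Att G D v) : ∃ q, Bridge G D u v q := by
  obtain ⟨x, hx, hux⟩ := hu
  obtain ⟨y, hy, hvy⟩ := hv
  obtain ⟨q, h1, h2, h3, h4⟩ := conn_chain h hx hy
  refine ⟨q, ?_, h1, h2, ?_, ?_⟩
  · rintro rfl
    simp at h3
  · intro z hz
    rw [h3] at hz
    simp only [Option.mem_def, Option.some.injEq] at hz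
    rw [← hz]; exact hux
  · intro z hz
    rw [h4] at hz
    simp only [Option.mem_def, Option.some.injEq] at hz
    rw [← hz]; exact hvy.symm

end Vale.Agent.P048
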