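import Vale.Agent.P048.Clique
import Vale.Agent.P048.Conn

namespace Vale.Agent.P048

open Finset

variable {V : Type*} [DecidableEq V]

open Classical in
noncomputable def alpha (G : SimpleGraph V) (X : Finset V) : ℕ :=
  (X.powerset.filter (fun s => Ind G s)).sup card

omit [DecidableEq V] in
theorem alphaLe_alpha (G : SimpleGraph V) (X : Finset V) : AlphaLe G X (alpha G X) := by
  classical
  intro s hs hi
  unfold alpha
  apply le_sup (f := card)
  rw [mem_filter, mem_powerset]
  exact ⟨hs, hi⟩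

omit [DecidableEq V] in
theorem alpha_le {G : SimpleGraph V} {X : Finset V} {b : ℕ} (h : AlphaLe G X b) :
    alpha G X ≤ b := by
  classical
  unfold alpha
  apply Finset.sup_le
  intro s hs
  rw [mem_filter, mem_powerset] at hs
  exact h s hs.1 hs.2

theorem exists_ind_alpha (G : SimpleGraph V) (X : Finset V) :
    ∃ I, I ⊆ X ∧ Ind G I ∧ I.card = alpha G X := by
  obtain ⟨I, h1, h2, h3⟩ := exists_alpha (G := G) X
  exact ⟨I, h1, h2, le_antisymm (alphaLe_alpha G X I h1 h2) (alpha_le h3)⟩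

theorem alpha_mono {G : SimpleGraph V} {X Y : Finset V} (h : X ⊆ Y) : alpha G X ≤ alpha G Y :=
  alpha_le ((alphaLe_alpha G Y).mono h le_rfl)

theorem ind_union {G : SimpleGraph V} {I J : Finset V} (hI : Ind G I) (hJ : Ind G J)
    (h : ∀ x ∈ I, ∀ y ∈ J, ¬ G.Adj x y) : Ind G (I ∪ J) := by
  intro x hx y hy
  rw [mem_union] at hx hy
  rcases hx with hx | hx
  · rcases hy with hy | hy
    · exact hI x hx y hy
    · exact h x hx y hy
  · rcases hy with hy | hy
    · exact fun h' => h y hy x hx h'.symm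
    · exact hJ x hx y hy

theorem alpha_add_le {G : SimpleGraph V} {W X Y : Finset V} {b : ℕ} (hW : AlphaLe G W b)
    (hX : X ⊆ W) (hY : Y ⊆ W) (hd : Disjoint X Y) (h : ∀ x ∈ X, ∀ y ∈ Y, ¬ G.Adj x y) :
    alpha G X + alpha G Y ≤ b := by
  obtain ⟨I, hI1, hI2, hI3⟩ := exists_ind_alpha G X
  obtain ⟨J, hJ1, hJ2, hJ3⟩ := exists_ind_alpha G Y
  have := hW (I ∪ J) (union_subset (hI1.trans hX) (hJ1.trans hY))
    (ind_union hI2 hJ2 (fun x hx y hy => h x (hI1 hx) y (hJ1 hy)))
  rw [card_union_of_disjoint (disjoint_of_subset_left hI1 (disjoint_of_subset_right hJ1 hd)),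
    hI3, hJ3] at this
  exact this

omit [DecidableEq V] in
theorem ind_singleton (G : SimpleGraph V) (x : V) : Ind G {x} := by
  intro u hu v hv
  rw [mem_singleton] at hu hv
  rw [hu, hv]; exact G.loopless.irrefl _

theorem alpha_pos {G : SimpleGraph V} {X : Finset V} (h : X.Nonempty) : 1 ≤ alpha G X := by
  obtain ⟨x, hx⟩ := h
  have := alphaLe_alpha G X {x} (singleton_subset_iff.2 hx) (ind_singleton G x)
  rwa [card_singleton] at this

theorem alpha_insert {G : SimpleGraph V} {X Y : Finset V} {y : V} (hXY : X ⊆ Y) (hy : y ∈ Y)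
    (hyX : y ∉ X) (h : ∀ x ∈ X, ¬ G.Adj x y) : alpha G X + 1 ≤ alpha G Y := by
  have := alpha_add_le (X := X) (Y := {y}) (alphaLe_alpha G Y) hXY (singleton_subset_iff.2 hy)
    (by rw [disjoint_singleton_right]; exact hyX)
    (by
      intro x hx z hz
      rw [mem_singleton] at hz
      rw [hz]; exact h x hx)
  have h1 := alpha_pos (G := G) (X := {y}) ⟨y, mem_singleton_self y⟩
  omega

structure TMin (G : SimpleGraph V) (W : Finset V) (T : ℕ → ℕ) (b : ℕ) : Prop where
  al : AlphaLe G W b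
  card : T b ≤ W.card
  small : ∀ c, c < b → ∀ X, X ⊆ W → AlphaLe G X c → X.card < T c

open Classical in
noncomputable def bd (G : SimpleGraph V) (W X : Finset V) : Finset V :=
  W.filter (fun y => y ∉ X ∧ ∃ x ∈ X, G.Adj x y)

theorem mem_bd {G : SimpleGraph V} {W X : Finset V} {y : V} :
    y ∈ bd G W X ↔ y ∈ W ∧ y ∉ X ∧ ∃ x ∈ X, G.Adj x y := by
  classical
  unfold bd
  rw [mem_filter]

theorem tmin_nbr {G : SimpleGraph V} {W X : Finset V} {T : ℕ → ℕ} {b x : ℕ}
    (h : TMin G W T b) (hT : Monotone T) (hX : X ⊆ W) (hne : X.Nonempty)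
    (hx : x ≤ alpha G X) : T b + 1 ≤ X.card + (bd G W X).card + T (b - x) := by
  classical
  set F := W \ (X ∪ bd G W X) with hF
  have hFX : ∀ x ∈ X, ∀ y ∈ F, ¬ G.Adj x y := by
    intro x hx y hy hadj
    rw [hF, mem_sdiff, mem_union, mem_bd] at hy
    apply hy.2
    by_cases hyX : y ∈ X
    · exact Or.inl hyX
    · exact Or.inr ⟨hy.1, hyX, x, hx, hadj⟩
  have hFW : F ⊆ W := sdiff_subset
  have hdisj : Disjoint X F := by
    rw [disjoint_left]
    intro x hx hx'
    rw [hF, mem_sdiff, mem_union] at hx'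
    exact hx'.2 (Or.inl hx)
  have h1 := alpha_add_le h.al hX hFW hdisj hFX
  have h2 := alpha_pos (G := G) hne
  have h3 := h.small (alpha G F) (by omega) F hFW (alphaLe_alpha G F)
  have h4 : T (alpha G F) ≤ T (b - x) := hT (by omega)
  have h5 : W.card ≤ X.card + (bd G W X).card + F.card := by
    have : W ⊆ (X ∪ bd G W X) ∪ F := by
      intro w hw
      by_cases hw' : w ∈ X ∪ bd G W X
      · exact mem_union_left _ hw'
      · apply mem_union_right
        rw [hF, mem_sdiff]
        exact ⟨hw, hw'⟩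
    have h6 := (card_le_card this).trans (card_union_le _ _)
    have h7 := card_union_le X (bd G W X)
    omega
  have := h.card
  omega

theorem tmin_full {G : SimpleGraph V} {W X : Finset V} {T : ℕ → ℕ} {b : ℕ}
    (h : TMin G W T b) (hX : X ⊆ W) (hx : alpha G X = b) {w : V} (hw : w ∈ W) (hwX : w ∉ X) :
    ∃ x ∈ X, G.Adj x w := by
  by_contra hcon
  push Not at hcon
  have := alpha_insert (Y := W) hX hw hwX hcon
  have h2 := alpha_le h.al
  omega

end Vale.Agent.P048
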