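import Vale.Agent.P048.Basic

namespace Vale.Agent.P048

open Finset

variable {V : Type*} [DecidableEq V]

def NotCol (G : SimpleGraph V) (S : Finset V) (a : ℕ) : Prop :=
  ∀ (I : Finset V) (f : V → V), I.card = a → (∀ v ∈ S, f v ∈ I) →
    ∃ u ∈ S, ∃ v ∈ S, G.Adj u v ∧ f u = f v

omit [DecidableEq V] in
theorem NotCol.mono {G : SimpleGraph V} {S T : Finset V} {a : ℕ} (h : NotCol G S a)
    (hST : S ⊆ T) : NotCol G T a := by
  intro I f hI hf
  obtain ⟨u, hu, v, hv, h1, h2⟩ := h I f hI (fun v hv => hf v (hST hv))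
  exact ⟨u, hST hu, v, hST hv, h1, h2⟩

theorem notCol_of_clique {G : SimpleGraph V} {S : Finset V} {a : ℕ}
    (h : ∀ x ∈ S, ∀ y ∈ S, x ≠ y → G.Adj x y) (hc : a < S.card) : NotCol G S a := by
  intro I f hI hf
  obtain ⟨u, hu, v, hv, huv, h2⟩ := exists_ne_map_eq_of_card_lt_of_maps_to
    (s := S) (t := I) (by rw [hI]; exact hc) (f := f) (fun x hx => hf x hx)
  exact ⟨u, hu, v, hv, h u hu v hv huv, h2⟩

theorem notCol_of_alpha {G : SimpleGraph V} {S : Finset V} {a b : ℕ}
    (h : AlphaLe G S b) (hc : a * b < S.card) : NotCol G S a := by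
  intro I f hI hf
  by_contra hcon
  push Not at hcon
  have h1 : S.card ≤ b * I.card := by
    apply card_le_mul_card_image_of_maps_to (f := f) (fun x hx => hf x hx)
    intro i _
    apply h
    · exact filter_subset _ _
    · intro x hx y hy hxy
      rw [mem_filter] at hx hy
      exact hcon x hx.1 y hy.1 hxy (hx.2.trans hy.2.symm)
  rw [hI, mul_comm] at h1
  omega

omit [DecidableEq V] in
theorem rot_cyc {G : SimpleGraph V} {L1 L2 : List V} {x pv pu u v : V}
    (hc : Cyc G (L1 ++ L2)) (hu : u ∈ L1.head?) (hpv : pv ∈ L1.getLast?)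
    (hv : v ∈ L2.head?) (hpu : pu ∈ L2.getLast?) (hx : x ∉ L1 ++ L2)
    (h1 : G.Adj x pv) (h2 : G.Adj x pu) (huv : G.Adj u v) :
    Cyc G (x :: (L1.reverse ++ L2)) := by
  obtain ⟨hn, hch, _⟩ := hc
  rw [List.isChain_append] at hch
  have hu' : L1.head? = some u := hu
  have hpv' : L1.getLast? = some pv := hpv
  have hv' : L2.head? = some v := hv
  have hpu' : L2.getLast? = some pu := hpu
  refine ⟨?_, ?_, ?_⟩
  · rw [List.nodup_cons]
    constructor
    · simpa using hx
    · rw [List.nodup_append] at hn ⊢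
      refine ⟨List.nodup_reverse.2 hn.1, hn.2.1, ?_⟩
      intro a ha b hb
      exact hn.2.2 a (List.mem_reverse.1 ha) b hb
  · rw [List.isChain_cons]
    constructor
    · intro y hy
      rw [List.head?_append, List.head?_reverse, hpv'] at hy
      simp only [Option.some_or, Option.mem_def, Option.some.injEq] at hy
      rw [← hy]; exact h1
    · rw [List.isChain_append]
      refine ⟨chain_symm hch.1, hch.2.1, ?_⟩
      intro a ha b hb
      rw [List.getLast?_reverse, hu'] at ha
      rw [hv'] at hb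
      simp only [Option.mem_def, Option.some.injEq] at ha hb
      rw [← ha, ← hb]; exact huv
  · intro a ha b hb
    have ha' : a = pu := by
      rw [List.getLast?_cons] at ha
      rw [List.getLast?_append, hpu'] at ha
      simpa using ha.symm
    simp only [List.head?_cons, Option.mem_def, Option.some.injEq] at hb
    rw [ha', ← hb]; exact h2.symm

omit [DecidableEq V] in
theorem last_of_ne_nil {l : List V} (h : l ≠ []) : ∃ a, l.getLast? = some a := by
  exact ⟨l.getLast h, List.getLast?_eq_some_getLast h⟩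

theorem cyc_extend_aux {G : SimpleGraph V} {A B C : List V} {u v x : V}
    (hc : Cyc G (A ++ u :: (B ++ v :: C))) (hx : x ∉ A ++ u :: (B ++ v :: C))
    (hpv : ∀ q ∈ (A ++ u :: B).getLast?, G.Adj x q)
    (hpu : ∀ q ∈ (A.getLast?).or ((u :: (B ++ v :: C)).getLast?), G.Adj x q)
    (huv : G.Adj u v) :
    ∃ l' : List V, l'.length = (A ++ u :: (B ++ v :: C)).length ∧
      (∀ y, y ∈ l' ↔ y ∈ A ++ u :: (B ++ v :: C)) ∧ Cyc G (x :: l') := by
  have hc' : Cyc G ((u :: B) ++ ((v :: C) ++ A)) := by
    have h1 : Cyc G (A ++ (u :: (B ++ v :: C))) := hc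
    have h2 := h1.rotate
    simpa using h2
  have e1 : (u :: B) ≠ [] := by simp
  have e2 : ((v :: C) ++ A) ≠ [] := by simp
  obtain ⟨pv, hpv'⟩ := last_of_ne_nil e1
  obtain ⟨pu, hpu'⟩ := last_of_ne_nil e2
  refine ⟨(u :: B).reverse ++ ((v :: C) ++ A), ?_, ?_, ?_⟩
  · simp only [List.length_append, List.length_reverse, List.length_cons]
    omega
  · intro y
    simp only [List.mem_append, List.mem_reverse, List.mem_cons]
    tauto
  · apply rot_cyc hc' (u := u) (v := v) (pv := pv) (pu := pu)
    · simp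
    · exact hpv'
    · simp
    · exact hpu'
    · intro hmem
      apply hx
      simp only [List.mem_append, List.mem_cons] at hmem ⊢
      tauto
    · apply hpv
      rw [List.getLast?_append, hpv']
      rfl
    · apply hpu
      rw [List.getLast?_append] at hpu'
      rcases hA : A.getLast? with _ | q
      · rw [hA] at hpu'
        simp only [Option.none_or] at hpu' ⊢
        rw [List.getLast?_cons, List.getLast?_append, hpu']
        simp
      · rw [hA] at hpu'
        simpa using hpu'
    · exact huv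

theorem cyc_extend {G : SimpleGraph V} {l : List V} (hc : Cyc G l) {I : Finset V}
    (hI : ∀ x ∈ I, x ∉ l) (hdom : ∀ v ∈ l, ∃ x ∈ I, G.Adj x v)
    (hcol : NotCol G l.toFinset I.card) :
    ∃ x ∈ I, ∃ l' : List V, l'.length = l.length ∧ (∀ y, y ∈ l' ↔ y ∈ l) ∧ Cyc G (x :: l') := by
  classical
  have hn := hc.1
  have hdec : ∀ v, ∃ x, v ∈ l → (x ∈ I ∧ ∀ A B, l = A ++ v :: B →
      ∀ q ∈ (A.getLast?).or ((v :: B).getLast?), G.Adj x q) := by
    intro v
    by_cases hv : v ∈ l
    · obtain ⟨A, B, hAB⟩ := List.append_of_mem hv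
      obtain ⟨r, hr⟩ : ∃ r, (A.getLast?).or ((v :: B).getLast?) = some r := by
        rcases hA : A.getLast? with _ | q
        · obtain ⟨r, hr⟩ := last_of_ne_nil (l := v :: B) (by simp)
          exact ⟨r, by simpa using hr⟩
        · exact ⟨q, by simp⟩
      have hrl : r ∈ l := by
        rw [Option.or_eq_some_iff] at hr
        rw [hAB, List.mem_append]
        rcases hr with hr | ⟨_, hr⟩
        · exact Or.inl (List.mem_of_getLast? hr)
        · exact Or.inr (List.mem_of_getLast? hr)
      obtain ⟨x, hx, hadj⟩ := hdom r hrl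
      refine ⟨x, fun _ => ⟨hx, ?_⟩⟩
      intro A' B' hAB' q hq
      have hnot : v ∉ A' ∧ v ∉ B' := by
        rw [hAB', List.nodup_append, List.nodup_cons] at hn
        refine ⟨fun hm => hn.2.2 v hm v (by simp) rfl, hn.2.1.1⟩
      have heq : A ++ v :: B = A' ++ v :: B' := hAB.symm.trans hAB'
      have hnot' : v ∉ A ∧ v ∉ B := by
        rw [hAB, List.nodup_append, List.nodup_cons] at hn
        refine ⟨fun hm => hn.2.2 v hm v (by simp) rfl, hn.2.1.1⟩
      rw [List.append_cons_inj_of_notMem hnot'.1 hnot'.2] at heq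
      obtain ⟨rfl, _, rfl⟩ := heq
      rw [hr] at hq
      simp only [Option.mem_def, Option.some.injEq] at hq
      rw [← hq]; exact hadj
    · exact ⟨v, fun h => absurd h hv⟩
  choose f hf using hdec
  obtain ⟨u, hu, v, hv, huv, hfuv⟩ := hcol I f rfl
    (fun v hv => (hf v (List.mem_toFinset.1 hv)).1)
  rw [List.mem_toFinset] at hu hv
  have hne : u ≠ v := G.ne_of_adj huv
  obtain ⟨A, B, hAB⟩ := List.append_of_mem hu
  have hv' := hv
  rw [hAB, List.mem_append, List.mem_cons] at hv'
  rcases hv' with hv' | hv' | hv'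
  · obtain ⟨A1, A2, hA⟩ := List.append_of_mem hv'
    have hl : l = A1 ++ v :: (A2 ++ u :: B) := by rw [hAB, hA]; simp
    have h1 := (hf u hu).2 (A1 ++ v :: A2) B (by rw [hl]; simp)
    have h2 := (hf v hv).2 A1 (A2 ++ u :: B) hl
    have hfI := (hf u hu).1
    refine ⟨f u, hfI, ?_⟩
    have hxn : f u ∉ A1 ++ v :: (A2 ++ u :: B) := by
      rw [← hl]; exact hI _ hfI
    obtain ⟨l', e1, e2, e3⟩ := cyc_extend_aux (A := A1) (B := A2) (C := B) (u := v) (v := u)
      (x := f u) (by rw [← hl]; exact hc) hxn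
      (by
        intro q hq
        apply h1
        have hq' : (A1 ++ v :: A2).getLast? = some q := hq
        rw [hq']; rfl)
      (by
        intro q hq
        rw [hfuv]
        exact h2 q hq)
      huv.symm
    exact ⟨l', by rw [hl]; exact e1, by rw [hl]; exact e2, e3⟩
  · exact absurd hv'.symm hne
  · obtain ⟨B1, B2, hB⟩ := List.append_of_mem hv'
    have hl : l = A ++ u :: (B1 ++ v :: B2) := by rw [hAB, hB]
    have h1 := (hf u hu).2 A (B1 ++ v :: B2) hl
    have h2 := (hf v hv).2 (A ++ u :: B1) B2 (by rw [hl]; simp)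
    have hfI := (hf u hu).1
    refine ⟨f u, hfI, ?_⟩
    have hxn : f u ∉ A ++ u :: (B1 ++ v :: B2) := by
      rw [← hl]; exact hI _ hfI
    obtain ⟨l', e1, e2, e3⟩ := cyc_extend_aux (A := A) (B := B1) (C := B2) (u := u) (v := v)
      (x := f u) (by rw [← hl]; exact hc) hxn
      (by
        intro q hq
        rw [hfuv]
        apply h2
        have hq' : (A ++ u :: B1).getLast? = some q := hq
        rw [hq']; rfl)
      (by
        intro q hq
        exact h1 q hq)
      huv
    exact ⟨l', by rw [hl]; exact e1, by rw [hl]; exact e2, e3⟩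

theorem kt {G : SimpleGraph V} {W : Finset V} {a m : ℕ} (ha : AlphaLe G W a)
    (hkl : ∀ F, F ⊆ W → F.card + 1 ≤ m → ∃ I, I ⊆ W \ F ∧ Ind G I ∧ I.card = a) :
    ∀ (j : ℕ) (l : List V), l.length + j = m → Cyc G l → (∀ x ∈ l, x ∈ W) →
      NotCol G l.toFinset a → HasCyc G W m := by
  intro j
  induction j with
  | zero =>
    intro l hl hc hW _
    exact ⟨l, by omega, hc, hW⟩
  | succ j ih =>
    intro l hl hc hW hcol
    have hcard : l.toFinset.card = l.length := List.toFinset_card_of_nodup hc.1
    have hsub : l.toFinset ⊆ W := by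
      intro x hx
      exact hW x (List.mem_toFinset.1 hx)
    obtain ⟨I, hI1, hI2, hI3⟩ := hkl l.toFinset hsub (by omega)
    have hIl : ∀ x ∈ I, x ∉ l := by
      intro x hx hxl
      have := hI1 hx
      rw [mem_sdiff] at this
      exact this.2 (List.mem_toFinset.2 hxl)
    have hdom : ∀ v ∈ l, ∃ x ∈ I, G.Adj x v := by
      intro v hv
      by_contra hcon
      push Not at hcon
      have hvI : v ∉ I := fun h => hIl v h hv
      have hins := ha (insert v I) (insert_subset (hW v hv) (hI1.trans sdiff_subset))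
        (ind_insert hI2 (fun y hy h => hcon y hy h.symm))
      rw [card_insert_of_notMem hvI] at hins
      omega
    obtain ⟨x, hx, l', e1, e2, e3⟩ := cyc_extend hc hIl hdom (by rw [hI3]; exact hcol)
    apply ih (x :: l') (by simp only [List.length_cons]; omega) e3
    · intro y hy
      rw [List.mem_cons] at hy
      rcases hy with rfl | hy
      · exact (mem_sdiff.1 (hI1 hx)).1
      · exact hW y ((e2 y).1 hy)
    · apply hcol.mono
      intro y hy
      rw [List.mem_toFinset] at hy ⊢
      exact List.mem_cons_of_mem _ ((e2 y).2 hy)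

end Vale.Agent.P048
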