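import Vale.Agent.P048.Path
import Vale.Agent.P048.KT

namespace Vale.Agent.P048

open Finset

variable {V : Type*} [DecidableEq V]

theorem cyc_of_two {G : SimpleGraph V} {W Z : Finset V} {s t : V} {l p : List V}
    (hZW : Z ⊆ W) (hst : s ≠ t) (hl : STP G (W \ (Z \ {s, t})) s t l) (hp : Pth G p)
    (hph : p.head? = some t) (hpl : p.getLast? = some s) (hpZ : ∀ x ∈ p, x ∈ Z) :
    ∃ c, Cyc G c ∧ c.length + 2 = l.length + p.length ∧ (∀ x ∈ c, x ∈ W) := by
  obtain ⟨t', p', rfl⟩ : ∃ t' p', p = t' :: p' := by
    rcases p with _ | ⟨t', p'⟩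
    · simp at hph
    · exact ⟨t', p', rfl⟩
  have htt : t' = t := by simpa using hph
  subst htt
  have hp' : p' ≠ [] := by
    rintro rfl
    simp at hpl
    exact hst hpl.symm
  obtain ⟨mid, s', rfl⟩ : ∃ mid s', p' = mid ++ [s'] :=
    ⟨p'.dropLast, p'.getLast hp', (List.dropLast_append_getLast hp').symm⟩
  have hss : s' = s := by
    rw [← List.cons_append, List.getLast?_append] at hpl
    simpa using hpl
  subst hss
  obtain ⟨hpn, hpc⟩ := hp
  rw [List.nodup_cons, List.nodup_append] at hpn
  obtain ⟨htm, hmn, _, hms⟩ := hpn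
  rw [List.isChain_cons, List.isChain_append] at hpc
  obtain ⟨hct, hcm, _, hcs⟩ := hpc
  refine ⟨l ++ mid, ⟨?_, ?_, ?_⟩, ?_, ?_⟩
  · rw [List.nodup_append]
    refine ⟨hl.pth.1, hmn, ?_⟩
    intro a ha b hb hab
    subst hab
    have h1 := hl.mem a ha
    rw [mem_sdiff, mem_sdiff, mem_insert, mem_singleton] at h1
    apply h1.2
    refine ⟨hpZ a (by simp [hb]), ?_⟩
    rintro (h | h)
    · exact hms a hb s' (by simp) h
    · rw [← h] at htm
      exact htm (by simp [hb])
  · rw [List.isChain_append]
    refine ⟨hl.pth.2, hcm, ?_⟩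
    intro x hx y hy
    rw [hl.lt] at hx
    simp only [Option.mem_def, Option.some.injEq] at hx
    rw [← hx]
    apply hct
    rw [List.head?_append]
    have : mid.head? = some y := hy
    rw [this]; rfl
  · intro x hx y hy
    rw [List.head?_append, hl.hd] at hy
    simp only [Option.some_or, Option.mem_def, Option.some.injEq] at hy
    rw [← hy]
    rw [List.getLast?_append] at hx
    rcases hmid : mid.getLast? with _ | r
    · rw [hmid, hl.lt] at hx
      simp only [Option.none_or, Option.mem_def, Option.some.injEq] at hx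
      rw [← hx]
      apply hct
      rw [List.getLast?_eq_none_iff] at hmid
      rw [hmid]; rfl
    · rw [hmid] at hx
      simp only [Option.some_or, Option.mem_def, Option.some.injEq] at hx
      rw [← hx]
      exact hcs r hmid s' (by simp)
  · simp only [List.length_append, List.length_cons, List.length_nil]
    omega
  · intro x hx
    rw [List.mem_append] at hx
    rcases hx with hx | hx
    · exact (mem_sdiff.1 (hl.mem x hx)).1
    · exact hZW (hpZ x (by simp [hx]))

end Vale.Agent.P048
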