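import Vale.Agent.P048.Link

namespace Vale.Agent.P048

open Finset

variable {V : Type*} [DecidableEq V]

/-- Close a path with both ends in a clique through unused vertices of the clique. -/
theorem bc_fill {G : SimpleGraph V} {W K : Finset V} {m : ℕ} {Q : List V}
    (hcl : ∀ x ∈ K, ∀ y ∈ K, x ≠ y → G.Adj x y) (hKW : K ⊆ W)
    (hp : Pth G Q) (hQW : ∀ x ∈ Q, x ∈ W) (hhd : ∀ x ∈ Q.head?, x ∈ K)
    (hlt : ∀ x ∈ Q.getLast?, x ∈ K) (h2 : 2 ≤ Q.length) (h1 : Q.length ≤ m)
    (h3 : m ≤ Q.length + (K \ Q.toFinset).card) : HasCyc G W m := by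
  obtain ⟨S, hS1, hS2⟩ := exists_subset_card_eq (show m - Q.length ≤ (K \ Q.toFinset).card by omega)
  have hSK : ∀ x ∈ S, x ∈ K := fun x hx => (mem_sdiff.1 (hS1 hx)).1
  have hSQ : ∀ x ∈ S, x ∉ Q := fun x hx h => (mem_sdiff.1 (hS1 hx)).2 (List.mem_toFinset.2 h)
  refine ⟨Q ++ S.toList, ?_, ⟨?_, ?_, ?_⟩, ?_⟩
  · rw [List.length_append, length_toList]; omega
  · rw [List.nodup_append]
    refine ⟨hp.1, S.nodup_toList, ?_⟩
    intro a ha b hb hab
    subst hab
    exact hSQ a (mem_toList.1 hb) ha
  · rw [List.isChain_append]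
    refine ⟨hp.2, L.chain_of_clique hcl (fun x hx => hSK x hx), ?_⟩
    intro a ha b hb
    have hbS := mem_toList.1 (List.mem_of_mem_head? hb)
    apply hcl a (hlt a ha) b (hSK b hbS)
    rintro rfl
    exact hSQ _ hbS (List.mem_of_getLast? ha)
  · intro a ha b hb
    obtain ⟨q0, hq0⟩ : ∃ q0, Q.head? = some q0 := by
      rcases Q with _ | ⟨x, t⟩
      · simp at h2
      · exact ⟨x, rfl⟩
    have hbq : b = q0 := by
      rw [List.head?_append, hq0] at hb
      simpa using hb.symm
    subst hbq
    have hbK := hhd b hq0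
    have hbQ : b ∈ Q := List.mem_of_mem_head? hq0
    rw [List.getLast?_append] at ha
    rcases hS : S.toList.getLast? with _ | y
    · rw [hS] at ha
      have ha' : Q.getLast? = some a := by simpa using ha
      apply hcl a (hlt a ha') b hbK
      rintro rfl
      rcases Q with _ | ⟨x, _ | ⟨y, t⟩⟩
      · simp at h2
      · simp at h2
      · have hxa : x = a := by simpa using hq0
        subst hxa
        rw [List.getLast?_cons_cons] at ha'
        have := List.mem_of_getLast? ha'
        exact (List.nodup_cons.1 hp.1).1 this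
    · rw [hS] at ha
      have hay : a = y := by simpa using ha.symm
      subst hay
      have haS := mem_toList.1 (List.mem_of_getLast? hS)
      apply hcl a (hSK a haS) b hbK
      rintro rfl
      exact hSQ _ haS hbQ
  · intro x hx
    rw [List.mem_append, mem_toList] at hx
    rcases hx with hx | hx
    · exact hQW x hx
    · exact hKW (hSK x hx)

/-- Degree bound: closed neighbourhoods have at least `m` elements. -/
theorem bc_deg {G : SimpleGraph V} {W : Finset V} {a m : ℕ} (ha : 1 ≤ a) (hm : 1 ≤ m)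
    (hW : AlphaLe G W a) (hcard : (m - 1) * a + 1 ≤ W.card)
    (hmin : ∀ c, c < a → ∀ W', W' ⊆ W → AlphaLe G W' c → W'.card ≤ (m - 1) * c)
    {x : V} (hx : x ∈ W) {S : Finset V} (hxS : x ∈ S) (hS : ∀ y ∈ W, G.Adj x y → y ∈ S) :
    m ≤ S.card := by
  have h1 : (W \ S).card ≤ (m - 1) * (a - 1) := by
    apply hmin (a - 1) (by omega) _ sdiff_subset
    intro s hs hi
    have hxs : x ∉ s := fun h => (mem_sdiff.1 (hs h)).2 hxS
    have h2 := hW (insert x s) (insert_subset hx (hs.trans sdiff_subset)) (ind_insert hi (by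
      intro y hy hxy
      have := mem_sdiff.1 (hs hy)
      exact this.2 (hS y this.1 hxy)))
    rw [card_insert_of_notMem hxs] at h2
    omega
  have h2 : W.card ≤ (W \ S).card + S.card := by
    have := le_card_sdiff S W
    omega
  obtain ⟨a', rfl⟩ : ∃ a', a = a' + 1 := ⟨a - 1, by omega⟩
  have h3 : (m - 1) * (a' + 1) = (m - 1) * a' + (m - 1) := by ring
  simp only [Nat.add_sub_cancel] at h1
  omega

/-- A minimal counterexample is 2-connected. -/
theorem bc_nocut {G : SimpleGraph V} {W : Finset V} {a m : ℕ}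
    (hW : AlphaLe G W a) (hcard : (m - 1) * a + 1 ≤ W.card)
    (hmin : ∀ c, c < a → ∀ W', W' ⊆ W → AlphaLe G W' c → W'.card ≤ (m - 1) * c)
    {v : V} {A B : Finset V} (hA : A ⊆ W) (hB : B ⊆ W) (hAne : A.Nonempty) (hBne : B.Nonempty)
    (hd : Disjoint A B) (hvA : v ∉ A) (hvB : v ∉ B) (hcov : ∀ x ∈ W, x = v ∨ x ∈ A ∨ x ∈ B)
    (hn : ∀ x ∈ A, ∀ y ∈ B, ¬ G.Adj x y) : False := by
  obtain ⟨c, d, hc, hd', hcd, hAc, hBd⟩ := alpha_split hW hA hB hAne hBne hd hn
  have hAcard := hmin c (by omega) A hA hAc
  have hBcard := hmin d (by omega) B hB hBd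
  have hcov' : W ⊆ insert v (A ∪ B) := by
    intro x hx
    rw [mem_insert, mem_union]
    exact hcov x hx
  have h1 : W.card ≤ A.card + B.card + 1 := by
    have := card_le_card hcov'
    have h2 := card_insert_le v (A ∪ B)
    have h3 := card_union_le A B
    omega
  have h4 : (m - 1) * a = (m - 1) * c + (m - 1) * d := by rw [← hcd]; ring
  have hvW : v ∈ W := by
    by_contra hvW
    have h5 : W ⊆ A ∪ B := by
      intro x hx
      rw [mem_union]
      rcases hcov x hx with rfl | h
      · exact absurd hx hvW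
      · exact h
    have := card_le_card h5
    have h3 := card_union_le A B
    omega
  have hIA : ∃ I, I ⊆ insert v A ∧ Ind G I ∧ I.card = c + 1 := by
    apply exists_ind_of_not_alphaLe
    intro h
    have := hmin c (by omega) (insert v A) (insert_subset hvW hA) h
    rw [card_insert_of_notMem hvA] at this
    omega
  have hIB : ∃ I, I ⊆ insert v B ∧ Ind G I ∧ I.card = d + 1 := by
    apply exists_ind_of_not_alphaLe
    intro h
    have := hmin d (by omega) (insert v B) (insert_subset hvW hB) h
    rw [card_insert_of_notMem hvB] at this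
    omega
  obtain ⟨I, hI1, hI2, hI3⟩ := hIA
  obtain ⟨J, hJ1, hJ2, hJ3⟩ := hIB
  have hvI : v ∈ I := by
    by_contra h
    have := hAc I (fun x hx => (mem_insert.1 (hI1 hx)).resolve_left (by rintro rfl; exact h hx)) hI2
    omega
  have hvJ : v ∈ J := by
    by_contra h
    have := hBd J (fun x hx => (mem_insert.1 (hJ1 hx)).resolve_left (by rintro rfl; exact h hx)) hJ2
    omega
  have hind : Ind G (I ∪ J) := by
    have key : ∀ x ∈ I, ∀ y ∈ J, ¬ G.Adj x y := by
      intro x hx y hy
      rcases mem_insert.1 (hI1 hx) with rfl | hxA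
      · exact hJ2 _ hvJ y hy
      · rcases mem_insert.1 (hJ1 hy) with rfl | hyB
        · exact hI2 x hx _ hvI
        · exact hn x hxA y hyB
    intro x hx y hy
    rw [mem_union] at hx hy
    rcases hx with hx | hx <;> rcases hy with hy | hy
    · exact hI2 x hx y hy
    · exact key x hx y hy
    · exact fun h => key y hy x hx h.symm
    · exact hJ2 x hx y hy
  have h6 := hW (I ∪ J) (union_subset (hI1.trans (insert_subset hvW hA))
    (hJ1.trans (insert_subset hvW hB))) hind
  have h7 : (I ∩ J).card ≤ 1 := by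
    rw [card_le_one]
    have : ∀ x ∈ I ∩ J, x = v := by
      intro x hx
      rw [mem_inter] at hx
      rcases mem_insert.1 (hI1 hx.1) with h | hxA
      · exact h
      · rcases mem_insert.1 (hJ1 hx.2) with h | hxB
        · exact h
        · exact absurd hxB (disjoint_left.1 hd hxA)
    intro x hx y hy
    rw [this x hx, this y hy]
  have h8 := card_union_add_card_inter I J
  omega

/-- Two disjoint edges leaving `D`. -/
theorem bc_edges {G : SimpleGraph V} {W : Finset V} {a m : ℕ}
    (hW : AlphaLe G W a) (hcard : (m - 1) * a + 1 ≤ W.card)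
    (hmin : ∀ c, c < a → ∀ W', W' ⊆ W → AlphaLe G W' c → W'.card ≤ (m - 1) * c)
    {D : Finset V} (hD : D ⊆ W) (hD2 : 2 ≤ D.card) (hE2 : 2 ≤ (W \ D).card) :
    ∃ d ∈ D, ∃ d' ∈ D, ∃ c ∈ W \ D, ∃ c' ∈ W \ D, d ≠ d' ∧ c ≠ c' ∧ G.Adj d c ∧ G.Adj d' c' := by
  have step : ∀ v : V, ∃ x ∈ D, ∃ y ∈ W \ D, x ≠ v ∧ y ≠ v ∧ G.Adj x y := by
    intro v
    by_contra hcon
    push Not at hcon
    apply bc_nocut (v := v) (A := D.erase v) (B := (W \ D).erase v) hW hcard hmin
      ((erase_subset _ _).trans hD) ((erase_subset _ _).trans sdiff_subset)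
    · rw [← card_pos]
      have := pred_card_le_card_erase (s := D) (a := v)
      omega
    · rw [← card_pos]
      have := pred_card_le_card_erase (s := W \ D) (a := v)
      omega
    · rw [disjoint_left]
      intro x hx hx'
      exact (mem_sdiff.1 (mem_of_mem_erase hx')).2 (mem_of_mem_erase hx)
    · exact notMem_erase v D
    · exact notMem_erase v (W \ D)
    · intro x hx
      by_cases hxv : x = v
      · exact Or.inl hxv
      · right
        by_cases hxD : x ∈ D
        · exact Or.inl (mem_erase.2 ⟨hxv, hxD⟩)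
        · exact Or.inr (mem_erase.2 ⟨hxv, mem_sdiff.2 ⟨hx, hxD⟩⟩)
    · intro x hx y hy
      rw [mem_erase] at hx hy
      exact hcon x hx.2 y hy.2 hx.1 hy.1
  obtain ⟨d0, hd0⟩ := card_pos.1 (show 0 < D.card by omega)
  obtain ⟨d, hd, c, hc, -, -, h1⟩ := step d0
  obtain ⟨d', hd', c', hc', -, hcc', h2⟩ := step c
  by_cases hdd : d = d'
  · subst hdd
    obtain ⟨e, he, f, hf, hed, -, h3⟩ := step d
    by_cases hfc : f = c
    · exact ⟨d, hd, e, he, c', hc', f, hf, hed.symm, by rw [hfc]; exact hcc', h2, h3⟩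
    · exact ⟨d, hd, e, he, c, hc, f, hf, hed.symm, fun h => hfc h.symm, h1, h3⟩
  · exact ⟨d, hd, d', hd', c, hc, c', hc', hdd, fun h => hcc' h.symm, h1, h2⟩

/-- `P` is a path inside `C` from `c` to its only vertex in `K`. -/
def bcExit (G : SimpleGraph V) (C K : Finset V) (c : V) (P : List V) : Prop :=
  Pth G P ∧ (∀ x ∈ P, x ∈ C) ∧ P.head? = some c ∧ (∃ b ∈ K, P.getLast? = some b) ∧
    ∀ x ∈ P, x ∈ K → P.getLast? = some x

omit [DecidableEq V] in
theorem bc_first {K : Finset V} : ∀ (l : List V), (∃ x ∈ l, x ∈ K) →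
    ∃ B k B', l = B ++ k :: B' ∧ k ∈ K ∧ ∀ x ∈ B, x ∉ K := by
  classical
  intro l
  induction l with
  | nil => rintro ⟨x, hx, _⟩; simp at hx
  | cons a l ih =>
    rintro ⟨x, hx, hxK⟩
    by_cases ha : a ∈ K
    · exact ⟨[], a, l, rfl, ha, by simp⟩
    · have hx' : x ∈ l := by
        rcases List.mem_cons.1 hx with rfl | h
        · exact absurd hxK ha
        · exact h
      obtain ⟨B, k, B', h1, h2, h3⟩ := ih ⟨x, hx', hxK⟩
      refine ⟨a :: B, k, B', by rw [h1]; rfl, h2, ?_⟩
      intro y hy
      rcases List.mem_cons.1 hy with rfl | h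
      · exact ha
      · exact h3 y h

omit [DecidableEq V] in
theorem bc_exit {G : SimpleGraph V} {C K : Finset V} {c : V} {l : List V}
    (hp : Pth G (c :: l)) (hC : ∀ x ∈ c :: l, x ∈ C) (hcK : c ∉ K) (h : ∃ x ∈ l, x ∈ K) :
    ∃ P, bcExit G C K c P ∧ ∀ x ∈ P, x ∈ c :: l := by
  obtain ⟨B, k, B', h1, h2, h3⟩ := bc_first l h
  have e : c :: l = (c :: (B ++ [k])) ++ B' := by rw [h1]; simp
  have hsub : ∀ x ∈ c :: (B ++ [k]), x ∈ c :: l := by
    intro x hx
    rw [e, List.mem_append]
    exact Or.inl hx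
  have hl : (c :: (B ++ [k])).getLast? = some k := by
    rw [← List.cons_append, List.getLast?_append]; rfl
  rw [e] at hp
  refine ⟨c :: (B ++ [k]), ⟨⟨(List.nodup_append.1 hp.1).1, (List.isChain_append.1 hp.2).1⟩,
    fun x hx => hC x (hsub x hx), rfl, ⟨k, h2, hl⟩, ?_⟩, hsub⟩
  intro x hx hxK
  rw [hl]
  simp only [List.mem_cons, List.mem_append, List.not_mem_nil, or_false] at hx
  rcases hx with rfl | hx | rfl
  · exact absurd hxK hcK
  · exact absurd hxK (h3 x hx)
  · rfl

omit [DecidableEq V] in
theorem bcExit_single {G : SimpleGraph V} {C K : Finset V} {c : V} (hc : c ∈ C) (hcK : c ∈ K) :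
    bcExit G C K c [c] := by
  refine ⟨⟨by simp, by simp⟩, ?_, rfl, ⟨c, hcK, rfl⟩, ?_⟩
  · intro x hx
    rw [List.mem_singleton] at hx
    rw [hx]; exact hc
  · intro x hx _
    rw [List.mem_singleton] at hx
    rw [hx]; rfl

/-- Two disjoint exits. -/
theorem bc_exits {G : SimpleGraph V} {K : Finset V} {Q : List V} (hp : Pth G Q)
    (hhd : ∀ x ∈ Q.head?, x ∈ K) (hlt : ∀ x ∈ Q.getLast?, x ∈ K) {c c' : V}
    (hc : c ∈ K ∪ Q.toFinset) (hc' : c' ∈ K ∪ Q.toFinset) (hcc : c ≠ c') :
    ∃ P P', bcExit G (K ∪ Q.toFinset) K c P ∧ bcExit G (K ∪ Q.toFinset) K c' P' ∧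
      ∀ x ∈ P, x ∉ P' := by
  have hQC : ∀ x ∈ Q, x ∈ K ∪ Q.toFinset := fun x hx => by
    rw [mem_union, List.mem_toFinset]; exact Or.inr hx
  have fwd : ∀ (x : V) (A B : List V), Q = A ++ x :: B → x ∉ K →
      ∃ P, bcExit G (K ∪ Q.toFinset) K x P ∧ ∀ y ∈ P, y ∈ x :: B := by
    intro x A B e hxK
    have hp' : Pth G (x :: B) := by
      rw [e] at hp
      exact ⟨(List.nodup_append.1 hp.1).2.1, (List.isChain_append.1 hp.2).2.1⟩
    apply bc_exit hp' (fun y hy => hQC y (by rw [e, List.mem_append]; exact Or.inr hy)) hxK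
    rcases B.eq_nil_or_concat with rfl | ⟨B', b, rfl⟩
    · exact absurd (hlt x (by rw [e]; simp)) hxK
    · refine ⟨b, by simp, hlt b ?_⟩
      have h1 : (x :: (B' ++ [b])).getLast? = some b := by
        rw [← List.cons_append, List.getLast?_append]; rfl
      rw [e, List.getLast?_append, List.concat_eq_append, h1]
      rfl
  have bwd : ∀ (x : V) (A B : List V), Q = A ++ x :: B → x ∉ K →
      ∃ P, bcExit G (K ∪ Q.toFinset) K x P ∧ ∀ y ∈ P, y ∈ x :: A.reverse := by
    intro x A B e hxK
    have hp' : Pth G (x :: A.reverse) := by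
      have e2 : Q = (A ++ [x]) ++ B := by rw [e]; simp
      rw [e2] at hp
      have h3 : Pth G (A ++ [x]) := ⟨(List.nodup_append.1 hp.1).1, (List.isChain_append.1 hp.2).1⟩
      have h4 := h3.reverse
      simpa using h4
    apply bc_exit hp' (fun y hy => hQC y (by
      rw [e, List.mem_append, List.mem_cons]
      rw [List.mem_cons, List.mem_reverse] at hy
      rcases hy with h | h
      · exact Or.inr (Or.inl h)
      · exact Or.inl h)) hxK
    rcases A with _ | ⟨b, A'⟩
    · exact absurd (hhd x (by rw [e]; simp)) hxK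
    · exact ⟨b, by simp, hhd b (by rw [e]; simp)⟩
  -- one in `K`, the other on the path
  have mixed : ∀ x y : V, x ∈ K → y ∉ K → y ∈ Q → x ≠ y →
      ∃ P', bcExit G (K ∪ Q.toFinset) K y P' ∧ x ∉ P' := by
    intro x y hx hy hyQ hxy
    obtain ⟨A, B, e⟩ := List.append_of_mem hyQ
    by_cases hxB : x ∈ B
    · obtain ⟨P, h1, h2⟩ := bwd y A B e hy
      refine ⟨P, h1, fun hxP => ?_⟩
      have h3 := h2 x hxP
      rw [List.mem_cons, List.mem_reverse] at h3
      rcases h3 with h3 | h3
      · exact hxy h3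
      · have hn := hp.1
        rw [e, List.nodup_append] at hn
        exact hn.2.2 x h3 x (by simp [hxB]) rfl
    · obtain ⟨P, h1, h2⟩ := fwd y A B e hy
      refine ⟨P, h1, fun hxP => ?_⟩
      have h3 := h2 x hxP
      rw [List.mem_cons] at h3
      rcases h3 with h3 | h3
      · exact hxy h3
      · exact hxB h3
  have both : ∀ (x y : V) (A B D : List V), Q = A ++ x :: (B ++ y :: D) → x ∉ K → y ∉ K →
      ∃ P P', bcExit G (K ∪ Q.toFinset) K x P ∧ bcExit G (K ∪ Q.toFinset) K y P' ∧
        ∀ z ∈ P, z ∉ P' := by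
    intro x y A B D e hx hy
    have e' : Q = (A ++ x :: B) ++ y :: D := by rw [e]; simp
    obtain ⟨P, h1, h2⟩ := bwd x A _ e hx
    obtain ⟨P', h3, h4⟩ := fwd y _ D e' hy
    refine ⟨P, P', h1, h3, fun z hz hz' => ?_⟩
    have h5 := h2 z hz
    have h6 := h4 z hz'
    rw [List.mem_cons, List.mem_reverse] at h5
    have hn := hp.1
    rw [e', List.nodup_append] at hn
    apply hn.2.2 z _ z h6 rfl
    rw [List.mem_append, List.mem_cons]
    rcases h5 with h5 | h5
    · exact Or.inr (Or.inl h5)
    · exact Or.inl h5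
  by_cases hcK : c ∈ K
  · by_cases hcK' : c' ∈ K
    · refine ⟨[c], [c'], bcExit_single hc hcK, bcExit_single hc' hcK', ?_⟩
      intro x hx hx'
      rw [List.mem_singleton] at hx hx'
      exact hcc (hx.symm.trans hx')
    · have hcQ' : c' ∈ Q := List.mem_toFinset.1 ((mem_union.1 hc').resolve_left hcK')
      obtain ⟨P', h1, h2⟩ := mixed c c' hcK hcK' hcQ' hcc
      refine ⟨[c], P', bcExit_single hc hcK, h1, ?_⟩
      intro x hx
      rw [List.mem_singleton] at hx
      rw [hx]; exact h2
  · have hcQ : c ∈ Q := List.mem_toFinset.1 ((mem_union.1 hc).resolve_left hcK)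
    by_cases hcK' : c' ∈ K
    · obtain ⟨P', h1, h2⟩ := mixed c' c hcK' hcK hcQ hcc.symm
      refine ⟨P', [c'], h1, bcExit_single hc' hcK', ?_⟩
      intro x hx hx'
      rw [List.mem_singleton] at hx'
      rw [hx'] at hx
      exact h2 hx
    · have hcQ' : c' ∈ Q := List.mem_toFinset.1 ((mem_union.1 hc').resolve_left hcK')
      obtain ⟨A, B, e⟩ := List.append_of_mem hcQ
      have hmem := hcQ'
      rw [e, List.mem_append, List.mem_cons] at hmem
      rcases hmem with h | h | h
      · obtain ⟨A1, A2, e2⟩ := List.append_of_mem h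
        have e3 : Q = A1 ++ c' :: (A2 ++ c :: B) := by rw [e, e2]; simp
        obtain ⟨P, P', h1, h2, h3⟩ := both c' c A1 A2 B e3 hcK' hcK
        exact ⟨P', P, h2, h1, fun x hx hx' => h3 x hx' hx⟩
      · exact absurd h.symm hcc
      · obtain ⟨B1, B2, e2⟩ := List.append_of_mem h
        rw [e2] at e
        exact both c c' A B1 B2 e hcK hcK'

/-- Closing two disjoint paths between two cliques into a cycle of length `m`. -/
theorem bc_link {G : SimpleGraph V} {W K1 K2 : Finset V} {m : ℕ} {P P' : List V}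
    (hK1 : ∀ x ∈ K1, ∀ y ∈ K1, x ≠ y → G.Adj x y) (hK2 : ∀ x ∈ K2, ∀ y ∈ K2, x ≠ y → G.Adj x y)
    (hd : Disjoint K1 K2) (hK1W : K1 ⊆ W) (hK2W : K2 ⊆ W)
    (hmt : m ≤ K1.card + K2.card)
    (hP : L.Chn G W K1 K2 P) (hPn : P.Nodup) (hPh : ∀ x ∈ P, x ∈ K1 → P.head? = some x)
    (hPl : ∀ x ∈ P, x ∈ K2 → P.getLast? = some x)
    (hP' : L.Chn G W K1 K2 P') (hPn' : P'.Nodup) (hPh' : ∀ x ∈ P', x ∈ K1 → P'.head? = some x)
    (hPl' : ∀ x ∈ P', x ∈ K2 → P'.getLast? = some x)
    (hdis : ∀ x ∈ P, x ∉ P') (hlen : P.length + P'.length ≤ m) : HasCyc G W m := by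
  obtain ⟨hPc, hPW, ⟨p0, hp0, hp0'⟩, ⟨p1, hp1, hp1'⟩⟩ := hP
  obtain ⟨hQc, hQW, ⟨q0, hq0, hq0'⟩, ⟨q1, hq1, hq1'⟩⟩ := hP'
  have mp0 : p0 ∈ P := List.mem_of_mem_head? (by rw [hp0']; rfl)
  have mp1 : p1 ∈ P := List.mem_of_getLast? hp1'
  have mq0 : q0 ∈ P' := List.mem_of_mem_head? (by rw [hq0']; rfl)
  have mq1 : q1 ∈ P' := List.mem_of_getLast? hq1'
  have hpq0 : p0 ≠ q0 := by
    rintro rfl; exact hdis _ mp0 mq0
  have hpq1 : p1 ≠ q1 := by
    rintro rfl; exact hdis _ mp1 mq1
  have hdd : ∀ x ∈ K1, x ∉ K2 := fun x hx hx' => (disjoint_left.1 hd) hx hx'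
  have h2P : ∀ (L : List V) (a b : V), L.head? = some a → L.getLast? = some b → a ≠ b →
      2 ≤ L.length := by
    intro L a b ha hb hab
    rcases L with _ | ⟨x, _ | ⟨y, L⟩⟩
    · simp at ha
    · simp at ha hb
      exact absurd (ha.symm.trans hb) hab
    · simp
  have hlP := h2P P p0 p1 hp0' hp1' (by rintro rfl; exact hdd _ hp0 hp1)
  have hlP' := h2P P' q0 q1 hq0' hq1' (by rintro rfl; exact hdd _ hq0 hq1)
  have h1K1 : 1 ≤ (K1.erase p0).card := card_pos.2 ⟨q0, mem_erase.2 ⟨hpq0.symm, hq0⟩⟩
  have h1K2 : 1 ≤ (K2.erase p1).card := card_pos.2 ⟨q1, mem_erase.2 ⟨hpq1.symm, hq1⟩⟩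
  have e1' := card_erase_of_mem hp0
  have e2' := card_erase_of_mem hp1
  have hc1 : ((K1.erase p0).erase q0).card = K1.card - 2 := by
    rw [card_erase_of_mem (mem_erase.2 ⟨hpq0.symm, hq0⟩), card_erase_of_mem hp0]
    omega
  have hc2 : ((K2.erase p1).erase q1).card = K2.card - 2 := by
    rw [card_erase_of_mem (mem_erase.2 ⟨hpq1.symm, hq1⟩), card_erase_of_mem hp1]
    omega
  obtain ⟨s1, s2, hs1, hs2, hs⟩ : ∃ s1 s2, s1 ≤ K1.card - 2 ∧ s2 ≤ K2.card - 2 ∧
      s1 + s2 + (P.length + P'.length) = m := by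
    rcases Nat.lt_or_ge (K1.card - 2) (m - (P.length + P'.length)) with h | h
    · exact ⟨K1.card - 2, m - (P.length + P'.length) - (K1.card - 2), by omega, by omega, by omega⟩
    · exact ⟨m - (P.length + P'.length), 0, by omega, by omega, by omega⟩
  obtain ⟨S1, hS1, hS1c⟩ := exists_subset_card_eq (hs1.trans hc1.ge)
  obtain ⟨S2, hS2, hS2c⟩ := exists_subset_card_eq (hs2.trans hc2.ge)
  have e1 : ∀ x ∈ S1, x ∈ K1 ∧ x ≠ p0 ∧ x ≠ q0 := by
    intro x hx
    have := hS1 hx
    rw [mem_erase, mem_erase] at this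
    exact ⟨this.2.2, this.2.1, this.1⟩
  have e2 : ∀ x ∈ S2, x ∈ K2 ∧ x ≠ p1 ∧ x ≠ q1 := by
    intro x hx
    have := hS2 hx
    rw [mem_erase, mem_erase] at this
    exact ⟨this.2.2, this.2.1, this.1⟩
  have hj1 : ∀ x ∈ (S1.toList).head?, x ∈ K1 ∧ x ≠ q0 := by
    intro x hx
    have := e1 x (mem_toList.1 (List.mem_of_mem_head? hx))
    exact ⟨this.1, this.2.2⟩
  have hc3 : (P'.reverse ++ S1.toList).IsChain G.Adj := by
    rw [List.isChain_append]
    refine ⟨chain_symm hQc, L.chain_of_clique hK1 (fun x hx => (e1 x hx).1), ?_⟩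
    intro a ha b hb
    rw [List.getLast?_reverse, hq0'] at ha
    simp only [Option.mem_def, Option.some.injEq] at ha
    rw [← ha]
    exact hK1 _ hq0 _ (hj1 b hb).1 (hj1 b hb).2.symm
  have hh3 : (P'.reverse ++ S1.toList).head? = some q1 := by
    rw [List.head?_append, List.head?_reverse, hq1']; rfl
  have hc4 : (S2.toList ++ (P'.reverse ++ S1.toList)).IsChain G.Adj := by
    rw [List.isChain_append]
    refine ⟨L.chain_of_clique hK2 (fun x hx => (e2 x hx).1), hc3, ?_⟩
    intro a ha b hb
    rw [hh3] at hb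
    simp only [Option.mem_def, Option.some.injEq] at hb
    rw [← hb]
    have := e2 a (mem_toList.1 (List.mem_of_getLast? ha))
    exact hK2 _ this.1 _ hq1 this.2.2
  have hh4 : ∀ x ∈ (S2.toList ++ (P'.reverse ++ S1.toList)).head?, x ∈ K2 ∧ x ≠ p1 := by
    intro x hx
    rw [List.head?_append, hh3] at hx
    rcases hS : S2.toList.head? with _ | y
    · rw [hS] at hx
      simp only [Option.none_or, Option.mem_def, Option.some.injEq] at hx
      rw [← hx]
      exact ⟨hq1, hpq1.symm⟩
    · rw [hS] at hx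
      simp only [Option.some_or, Option.mem_def, Option.some.injEq] at hx
      rw [← hx]
      have := e2 y (mem_toList.1 (List.mem_of_mem_head? (by rw [hS]; rfl)))
      exact ⟨this.1, this.2.1⟩
  refine ⟨P ++ (S2.toList ++ (P'.reverse ++ S1.toList)), ?_, ⟨?_, ?_, ?_⟩, ?_⟩
  · simp only [List.length_append, length_toList, List.length_reverse]
    omega
  · rw [List.nodup_append, List.nodup_append, List.nodup_append]
    refine ⟨hPn, ⟨S2.nodup_toList, ⟨List.nodup_reverse.2 hPn', S1.nodup_toList, ?_⟩, ?_⟩, ?_⟩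
    · intro a ha b hb hab
      subst hab
      rw [List.mem_reverse] at ha
      rw [mem_toList] at hb
      have h1 := hPh' a ha (e1 a hb).1
      rw [hq0'] at h1
      exact (e1 a hb).2.2 (Option.some.inj h1).symm
    · intro a ha b hb hab
      subst hab
      rw [mem_toList] at ha
      rw [List.mem_append, List.mem_reverse, mem_toList] at hb
      rcases hb with hb | hb
      · have h1 := hPl' a hb (e2 a ha).1
        rw [hq1'] at h1
        exact (e2 a ha).2.2 (Option.some.inj h1).symm
      · exact hdd a (e1 a hb).1 (e2 a ha).1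
    · intro a ha b hb hab
      subst hab
      rw [List.mem_append, List.mem_append, List.mem_reverse, mem_toList, mem_toList] at hb
      rcases hb with hb | hb | hb
      · have h1 := hPl a ha (e2 a hb).1
        rw [hp1'] at h1
        exact (e2 a hb).2.1 (Option.some.inj h1).symm
      · exact hdis a ha hb
      · have h1 := hPh a ha (e1 a hb).1
        rw [hp0'] at h1
        exact (e1 a hb).2.1 (Option.some.inj h1).symm
  · rw [List.isChain_append]
    refine ⟨hPc, hc4, ?_⟩
    intro a ha b hb
    rw [hp1'] at ha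
    simp only [Option.mem_def, Option.some.injEq] at ha
    rw [← ha]
    exact hK2 _ hp1 _ (hh4 b hb).1 (hh4 b hb).2.symm
  · intro a ha b hb
    rw [List.head?_append, hp0'] at hb
    simp only [Option.some_or, Option.mem_def, Option.some.injEq] at hb
    rw [← hb]
    rw [List.getLast?_append, List.getLast?_append, List.getLast?_append, List.getLast?_reverse,
      hq0'] at ha
    rcases hS : S1.toList.getLast? with _ | y
    · rw [hS] at ha
      simp only [Option.none_or, Option.some_or, Option.mem_def, Option.some.injEq] at ha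
      rw [← ha]
      exact hK1 _ hq0 _ hp0 hpq0.symm
    · rw [hS] at ha
      simp only [Option.some_or, Option.mem_def, Option.some.injEq] at ha
      rw [← ha]
      have := e1 y (mem_toList.1 (List.mem_of_getLast? hS))
      exact hK1 _ this.1 _ hp0 this.2.1
  · intro x hx
    rw [List.mem_append, List.mem_append, List.mem_append, List.mem_reverse, mem_toList,
      mem_toList] at hx
    rcases hx with hx | hx | hx | hx
    · exact hPW x hx
    · exact hK2W (e2 x hx).1
    · exact hQW x hx
    · exact hK1W (e1 x hx).1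

/-- Core of the big clique lemma. `C = K ∪ Q`, `R` the set of representatives. -/
theorem bc_core {G : SimpleGraph V} {W : Finset V} {a m : ℕ} (ha : 1 ≤ a)
    (hW : AlphaLe G W a) (hcard : (m - 1) * a + 1 ≤ W.card)
    (hmin : ∀ c, c < a → ∀ W', W' ⊆ W → AlphaLe G W' c → W'.card ≤ (m - 1) * c)
    {K C R : Finset V} (hCW : C ⊆ W) (hKC : K ⊆ C) (hRK : R ⊆ K)
    (hcl : ∀ x ∈ K, ∀ y ∈ K, x ≠ y → G.Adj x y) (hC : C.card + 1 ≤ m) (hR : a + 1 ≤ 2 * R.card)
    (hno : ∀ u ∈ R, ∀ v ∈ R, u ≠ v → ∀ q, Bridge G (W \ C) u v q → q.Nodup → q.length ≤ 6 → False)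
    (hexit : ∀ c ∈ C, ∀ c' ∈ C, c ≠ c' → ∃ P P', bcExit G C K c P ∧ bcExit G C K c' P' ∧
      ∀ x ∈ P, x ∉ P')
    (hnum : (C \ R).card + 1 ≤ K.card) (hnum2 : (C \ R).card + 3 ≤ m)
    (hnum3 : (C \ K).card + 4 ≤ m) (hK2 : 2 ≤ K.card) : HasCyc G W m := by
  classical
  set H := W \ C with hH
  have hHW : H ⊆ W := sdiff_subset
  -- outside neighbours
  have hx : ∀ u : V, ∃ x : V, u ∈ R → x ∈ H ∧ G.Adj u x := by
    intro u
    by_cases hu : u ∈ R
    · have huC := hKC (hRK hu)
      by_contra hcon
      push Not at hcon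
      have h1 := bc_deg ha (by omega) hW hcard hmin (hCW huC) huC (by
        intro y hy huy
        by_contra hyC
        exact (hcon y).2 (mem_sdiff.2 ⟨hy, hyC⟩) huy)
      omega
    · exact ⟨u, fun h => absurd h hu⟩
  choose x hxx using hx
  set D : V → Finset V := fun u => L.ball G H (x u) 2 with hDdef
  have hDH : ∀ u ∈ R, D u ⊆ H := fun u hu => L.ball_subset (hxx u hu).1 2
  have hfar : ∀ u ∈ R, ∀ v ∈ R, u ≠ v → ∀ p ∈ D u, ∀ q ∈ D v, p ≠ q ∧ ¬ G.Adj p q := by
    intro u hu v hv huv p hp q hq
    obtain ⟨P, p1, p2, p3, p4, p5⟩ := L.ball_chain 2 p hp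
    obtain ⟨Q, q1, q2, q3, q4, q5⟩ := L.ball_chain 2 q hq
    have hPH : ∀ y ∈ P, y ∈ H := fun y hy => hDH u hu (p2 y hy)
    have hQH : ∀ y ∈ Q, y ∈ H := fun y hy => hDH v hv (q2 y hy)
    have hbr : ∀ q0 : List V, (∀ y ∈ q0, y ∈ H) → q0.IsChain G.Adj → q0.head? = some (x u) →
        q0.getLast? = some (x v) → q0.length ≤ 6 → False := by
      intro q0 h1 h2 h3 h4 h5
      obtain ⟨q', hq', hn', hl'⟩ := L.bridge_nodup (G := G) (O := H) (u := u) (u' := v) (n := 6)
        ⟨q0, ⟨by rintro rfl; simp at h3, h2, h1, by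
          intro h hh
          rw [h3] at hh
          simp only [Option.mem_def, Option.some.injEq] at hh
          rw [← hh]; exact (hxx u hu).2, by
          intro e he
          rw [h4] at he
          simp only [Option.mem_def, Option.some.injEq] at he
          rw [← he]; exact (hxx v hv).2.symm⟩, h5⟩
      exact hno u hu v hv huv q' hq' hn' hl'
    constructor
    · rintro rfl
      -- drop the last vertex of `Q`
      obtain ⟨Q', rfl⟩ : ∃ Q', Q = Q' ++ [p] := by
        rcases Q.eq_nil_or_concat with rfl | ⟨Q', b, rfl⟩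
        · simp at q4
        · rw [List.concat_eq_append] at q4 ⊢
          rw [List.getLast?_append] at q4
          have : b = p := by simpa using q4
          exact ⟨Q', by rw [this]⟩
      apply hbr (P ++ Q'.reverse)
      · intro y hy
        rw [List.mem_append, List.mem_reverse] at hy
        rcases hy with hy | hy
        · exact hPH y hy
        · exact hQH y (by rw [List.mem_append]; exact Or.inl hy)
      · rw [List.isChain_append]
        have h1 := chain_symm q1
        rw [List.reverse_append] at h1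
        simp only [List.reverse_cons, List.reverse_nil, List.nil_append, List.cons_append] at h1
        rw [List.isChain_cons] at h1
        refine ⟨p1, h1.2, ?_⟩
        intro c hc d hd
        rw [p4] at hc
        simp only [Option.mem_def, Option.some.injEq] at hc
        rw [← hc]
        exact h1.1 d hd
      · rw [List.head?_append, p3]; rfl
      · rcases Q' with _ | ⟨b, Q''⟩
        · simp only [List.nil_append, List.head?_cons, Option.some.injEq] at q3
          simp only [List.reverse_nil, List.append_nil]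
          rw [p4, q3]
        · simp only [List.cons_append, List.head?_cons, Option.some.injEq] at q3
          rw [List.getLast?_append, List.getLast?_reverse, List.head?_cons, q3]; rfl
      · rw [List.length_append] at q5 ⊢
        rw [List.length_reverse]
        simp only [List.length_cons, List.length_nil] at q5
        omega
    · intro hpq
      apply hbr (P ++ Q.reverse)
      · intro y hy
        rw [List.mem_append, List.mem_reverse] at hy
        rcases hy with hy | hy
        · exact hPH y hy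
        · exact hQH y hy
      · rw [List.isChain_append]
        refine ⟨p1, chain_symm q1, ?_⟩
        intro c hc d hd
        rw [p4] at hc
        rw [List.head?_reverse, q4] at hd
        simp only [Option.mem_def, Option.some.injEq] at hc hd
        rw [← hc, ← hd]
        exact hpq
      · rw [List.head?_append, p3]; rfl
      · rw [List.getLast?_append, List.getLast?_reverse, q3]; rfl
      · rw [List.length_append, List.length_reverse]
        omega
  -- some ball is a clique
  obtain ⟨u, hu, hclD⟩ : ∃ u ∈ R, ∀ p ∈ D u, ∀ q ∈ D u, p ≠ q → G.Adj p q := by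
    by_contra hcon
    push Not at hcon
    have hch : ∀ u : V, ∃ p q : V, u ∈ R → p ∈ D u ∧ q ∈ D u ∧ p ≠ q ∧ ¬ G.Adj p q := by
      intro u
      by_cases hu : u ∈ R
      · obtain ⟨p, hp, q, hq, h1, h2⟩ := hcon u hu
        exact ⟨p, q, fun _ => ⟨hp, hq, h1, h2⟩⟩
      · exact ⟨u, u, fun h => absurd h hu⟩
    choose p q hpq using hch
    have hmem : ∀ u ∈ R, ∀ y ∈ ({p u, q u} : Finset V), y ∈ D u := by
      intro u hu y hy
      rw [mem_insert, mem_singleton] at hy
      rcases hy with rfl | rfl
      · exact (hpq u hu).1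
      · exact (hpq u hu).2.1
    have h1 : (R.biUnion fun u => ({p u, q u} : Finset V)).card = 2 * R.card := by
      rw [card_biUnion, sum_congr rfl (fun u hu => card_pair (hpq u hu).2.2.1), sum_const,
        smul_eq_mul, mul_comm]
      intro u hu v hv huv
      rw [Function.onFun, disjoint_left]
      intro y hy hy'
      exact (hfar u hu v hv huv y (hmem u hu y hy) y (hmem v hv y hy')).1 rfl
    have h2 := hW (R.biUnion fun u => ({p u, q u} : Finset V)) (by
      intro y hy
      rw [mem_biUnion] at hy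
      obtain ⟨u, hu, hy⟩ := hy
      exact hHW (hDH u hu (hmem u hu y hy))) (by
      intro y hy z hz
      rw [mem_biUnion] at hy hz
      obtain ⟨u, hu, hy⟩ := hy
      obtain ⟨v, hv, hz⟩ := hz
      by_cases huv : u = v
      · subst huv
        rw [mem_insert, mem_singleton] at hy hz
        rcases hy with rfl | rfl <;> rcases hz with rfl | rfl
        · exact G.loopless.irrefl _
        · exact (hpq u hu).2.2.2
        · exact fun h => (hpq u hu).2.2.2 h.symm
        · exact G.loopless.irrefl _
      · exact (hfar u hu v hv huv y (hmem u hu y hy) z (hmem v hv z hz)).2)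
    omega
  have hxD : x u ∈ D u := L.ball_mono (Nat.zero_le 2) (mem_singleton_self _)
  have hDHu := hDH u hu
  have hDW : D u ⊆ W := hDHu.trans hHW
  have hball1 : ∀ y ∈ D u, y ∈ L.ball G H (x u) 1 := by
    intro y hy
    by_cases hyx : y = x u
    · rw [hyx]
      exact L.ball_mono (Nat.zero_le 1) (mem_singleton_self _)
    · exact L.mem_ball_succ (hDHu hy) ⟨x u, mem_singleton_self _, hclD y hy _ hxD hyx⟩
  have hclosed : ∀ y ∈ D u, ∀ z ∈ H, G.Adj y z → z ∈ D u := by
    intro y hy z hz hyz
    exact L.mem_ball_succ hz ⟨y, hball1 y hy, hyz.symm⟩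
  have honly : ∀ y ∈ D u, ∀ v ∈ R, G.Adj y v → v = u := by
    intro y hy v hv hyv
    by_contra hvu
    by_cases hyx : y = x u
    · subst hyx
      exact hno u hu v hv (fun h => hvu h.symm) [x u] ⟨by simp, by simp, by
        intro z hz
        rw [List.mem_singleton] at hz
        rw [hz]; exact (hxx u hu).1, by simpa using (hxx u hu).2, by simpa using hyv⟩
        (by simp) (by simp)
    · exact hno u hu v hv (fun h => hvu h.symm) [x u, y] ⟨by simp, by
        simpa using hclD _ hxD y hy (fun h => hyx h.symm), by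
        intro z hz
        simp only [List.mem_cons, List.not_mem_nil, or_false] at hz
        rcases hz with rfl | rfl
        · exact (hxx u hu).1
        · exact hDHu hy, by simpa using (hxx u hu).2, by simpa using hyv⟩
        (by simpa using fun h => hyx h.symm) (by simp)
  have hDdisj : ∀ y ∈ D u, y ∉ C := fun y hy => (mem_sdiff.1 (hDHu hy)).2
  have hDcard : m ≤ (D u).card + (C \ R).card + 1 := by
    have h1 := bc_deg ha (by omega) hW hcard hmin (hDW hxD)
      (S := insert u (D u ∪ (C \ R))) (by rw [mem_insert, mem_union]; exact Or.inr (Or.inl hxD)) (by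
        intro y hy hxy
        rw [mem_insert, mem_union, mem_sdiff]
        by_cases hyC : y ∈ C
        · by_cases hyR : y ∈ R
          · exact Or.inl (honly _ hxD y hyR hxy)
          · exact Or.inr (Or.inr ⟨hyC, hyR⟩)
        · exact Or.inr (Or.inl (hclosed _ hxD y (mem_sdiff.2 ⟨hy, hyC⟩) hxy)))
    have h2 := card_insert_le u (D u ∪ (C \ R))
    have h3 := card_union_le (D u) (C \ R)
    omega
  have hDK : Disjoint (D u) K := by
    rw [disjoint_left]
    exact fun y hy hyK => hDdisj y hy (hKC hyK)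
  have hout : 2 ≤ (W \ D u).card := by
    refine hK2.trans (card_le_card ?_)
    intro y hy
    rw [mem_sdiff]
    exact ⟨hCW (hKC hy), fun h => hDdisj y h (hKC hy)⟩
  obtain ⟨d, hd, d', hd', c, hc, c', hc', hdd, hcc, hadj, hadj'⟩ :=
    bc_edges hW hcard hmin hDW (by omega) hout
  have hcC : ∀ y ∈ D u, ∀ z ∈ W \ D u, G.Adj y z → z ∈ C := by
    intro y hy z hz hyz
    rw [mem_sdiff] at hz
    by_contra hzC
    exact hz.2 (hclosed y hy z (mem_sdiff.2 ⟨hz.1, hzC⟩) hyz)
  obtain ⟨P, P', ⟨hP1, hP2, hP3, ⟨b, hbK, hb⟩, hP5⟩, ⟨hQ1, hQ2, hQ3, ⟨b', hbK', hb'⟩, hQ5⟩, hPP⟩ :=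
    hexit c (hcC d hd c hc hadj) c' (hcC d' hd' c' hc' hadj') hcc
  have hmk : ∀ (d c b : V) (P : List V), d ∈ D u → G.Adj d c → Pth G P → (∀ x ∈ P, x ∈ C) →
      P.head? = some c → b ∈ K → P.getLast? = some b → L.Chn G W (D u) K (d :: P) ∧
        (d :: P).Nodup ∧ (∀ x ∈ d :: P, x ∈ D u → (d :: P).head? = some x) := by
    intro d c b P hd hadj hp hPC hh hbK hb
    have hdP : d ∉ P := fun h => hDdisj d hd (hPC d h)
    refine ⟨⟨?_, ?_, ⟨d, hd, rfl⟩, ⟨b, hbK, ?_⟩⟩, List.nodup_cons.2 ⟨hdP, hp.1⟩, ?_⟩
    · rw [List.isChain_cons]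
      refine ⟨?_, hp.2⟩
      intro y hy
      rw [hh] at hy
      simp only [Option.mem_def, Option.some.injEq] at hy
      rw [← hy]; exact hadj
    · intro y hy
      rcases List.mem_cons.1 hy with rfl | hy
      · exact hDW hd
      · exact hCW (hPC y hy)
    · rcases P with _ | ⟨z, t⟩
      · simp at hb
      · rw [List.getLast?_cons_cons]; exact hb
    · intro y hy hyD
      rcases List.mem_cons.1 hy with rfl | hy
      · rfl
      · exact absurd (hPC y hy) (hDdisj y hyD)
  have hlastK : ∀ (d b : V) (P : List V), d ∈ D u → P.getLast? = some b →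
      (∀ x ∈ P, x ∈ K → P.getLast? = some x) →
      ∀ x ∈ d :: P, x ∈ K → (d :: P).getLast? = some x := by
    intro d b P hd hb h y hy hyK
    rcases List.mem_cons.1 hy with rfl | hy
    · exact absurd (hKC hyK) (hDdisj _ hd)
    · rcases P with _ | ⟨z, t⟩
      · simp at hb
      · rw [List.getLast?_cons_cons]; exact h y hy hyK
  obtain ⟨a1, a2, a3⟩ := hmk d c b P hd hadj hP1 hP2 hP3 hbK hb
  obtain ⟨b1, b2, b3⟩ := hmk d' c' b' P' hd' hadj' hQ1 hQ2 hQ3 hbK' hb'
  apply bc_link hclD hcl hDK hDW (hKC.trans hCW) (by omega) a1 a2 a3 (hlastK d b P hd hb hP5)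
    b1 b2 b3 (hlastK d' b' P' hd' hb' hQ5)
  · intro y hy hy'
    rcases List.mem_cons.1 hy with rfl | hy
    · rcases List.mem_cons.1 hy' with h | hy'
      · exact hdd h
      · exact hDdisj _ hd (hQ2 _ hy')
    · rcases List.mem_cons.1 hy' with rfl | hy'
      · exact hDdisj _ hd' (hP2 _ hy)
      · exact hPP y hy hy'
  · -- lengths
    have h1 : ((P ++ P').toFinset).card = P.length + P'.length := by
      rw [List.toFinset_card_of_nodup, List.length_append]
      rw [List.nodup_append]
      refine ⟨hP1.1, hQ1.1, ?_⟩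
      intro y hy z hz hyz
      subst hyz
      exact hPP y hy hz
    have h2 : (P ++ P').toFinset ⊆ insert b (insert b' (C \ K)) := by
      intro y hy
      rw [List.mem_toFinset, List.mem_append] at hy
      rw [mem_insert, mem_insert, mem_sdiff]
      by_cases hyK : y ∈ K
      · rcases hy with hy | hy
        · left
          have := hP5 y hy hyK
          rw [hb] at this
          exact (Option.some.inj this).symm
        · right; left
          have := hQ5 y hy hyK
          rw [hb'] at this
          exact (Option.some.inj this).symm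
      · right; right
        rcases hy with hy | hy
        · exact ⟨hP2 y hy, hyK⟩
        · exact ⟨hQ2 y hy, hyK⟩
    have h3 := card_le_card h2
    have h4 := card_insert_le b (insert b' (C \ K))
    have h5 := card_insert_le b' (C \ K)
    simp only [List.length_cons]
    omega

/-- Number of vertices of `Q` outside `K`. -/
def bcS (K : Finset V) (Q : List V) : ℕ := Q.countP (fun x => decide (x ∉ K))

/-- Number of vertices of `Q` in `K`. -/
def bcT (K : Finset V) (Q : List V) : ℕ := Q.countP (fun x => decide (x ∈ K))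

theorem bc_length (K : Finset V) (Q : List V) : Q.length = bcT K Q + bcS K Q := by
  induction Q with
  | nil => rfl
  | cons x Q ih =>
    unfold bcT bcS at ih ⊢
    rw [List.length_cons, List.countP_cons, List.countP_cons]
    by_cases h : x ∈ K
    · simp only [h, decide_true, if_true, not_true_eq_false, decide_false]
      simp only [Bool.false_eq_true, if_false]
      omega
    · simp only [h, decide_false, not_false_eq_true, decide_true, if_true]
      simp only [Bool.false_eq_true, if_false]
      omega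

theorem bcS_append (K : Finset V) (P Q : List V) : bcS K (P ++ Q) = bcS K P + bcS K Q :=
  List.countP_append

theorem bcT_append (K : Finset V) (P Q : List V) : bcT K (P ++ Q) = bcT K P + bcT K Q :=
  List.countP_append

theorem bcS_perm (K : Finset V) {P Q : List V} (h : P.Perm Q) : bcS K P = bcS K Q := h.countP_eq _

theorem bcT_perm (K : Finset V) {P Q : List V} (h : P.Perm Q) : bcT K P = bcT K Q := h.countP_eq _

theorem bcT_zero {K : Finset V} {q : List V} (h : ∀ x ∈ q, x ∉ K) : bcT K q = 0 := by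
  unfold bcT
  rw [List.countP_eq_zero]
  intro x hx
  simpa using h x hx

theorem bcS_zero {K : Finset V} {q : List V} (h : ∀ x ∈ q, x ∈ K) : bcS K q = 0 := by
  unfold bcS
  rw [List.countP_eq_zero]
  intro x hx
  simpa using h x hx

theorem bc_K_card (K : Finset V) (Q : List V) : K.card ≤ (K \ Q.toFinset).card + bcT K Q := by
  have h1 : K ⊆ (K \ Q.toFinset) ∪ (Q.filter (fun x => decide (x ∈ K))).toFinset := by
    intro x hx
    rw [mem_union, mem_sdiff, List.mem_toFinset, List.mem_toFinset, List.mem_filter]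
    by_cases h : x ∈ Q
    · exact Or.inr ⟨h, by simpa using hx⟩
    · exact Or.inl ⟨hx, h⟩
  have h2 := card_le_card h1
  have h3 := card_union_le (K \ Q.toFinset) (Q.filter (fun x => decide (x ∈ K))).toFinset
  have h4 := List.toFinset_card_le (Q.filter (fun x => decide (x ∈ K)))
  have h5 : bcT K Q = (Q.filter (fun x => decide (x ∈ K))).length := List.countP_eq_length_filter
  omega

theorem bc_out_card (K : Finset V) (Q : List V) : ((K ∪ Q.toFinset) \ K).card ≤ bcS K Q := by
  have h1 : (K ∪ Q.toFinset) \ K ⊆ (Q.filter (fun x => decide (x ∉ K))).toFinset := by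
    intro x hx
    rw [mem_sdiff, mem_union, List.mem_toFinset] at hx
    rw [List.mem_toFinset, List.mem_filter]
    exact ⟨hx.1.resolve_left hx.2, by simpa using hx.2⟩
  have h2 := card_le_card h1
  have h4 := List.toFinset_card_le (Q.filter (fun x => decide (x ∉ K)))
  have h5 : bcS K Q = (Q.filter (fun x => decide (x ∉ K))).length := List.countP_eq_length_filter
  omega

/-- A path with both ends in `K` and few vertices in `K`. -/
structure BcQ (G : SimpleGraph V) (W K : Finset V) (Q : List V) : Prop where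
  pth : Pth G Q
  mem : ∀ x ∈ Q, x ∈ W
  hd : ∀ x ∈ Q.head?, x ∈ K
  lt : ∀ x ∈ Q.getLast?, x ∈ K
  few : bcT K Q ≤ 2 * bcS K Q

theorem bc_max {G : SimpleGraph V} {W K : Finset V} {g : ℕ} (hg : 1 ≤ g) :
    ∃ Q, BcQ G W K Q ∧ bcS K Q + 1 ≤ g ∧
      ∀ Q', BcQ G W K Q' → bcS K Q' + 1 ≤ g → bcS K Q' ≤ bcS K Q := by
  classical
  have h0 : ∃ Q, BcQ G W K Q ∧ bcS K Q = 0 :=
    ⟨[], ⟨⟨by simp, by simp⟩, by simp, by simp, by simp, by simp [bcT]⟩, by simp [bcS]⟩
  have hP : ∃ Q, BcQ G W K Q ∧ bcS K Q = 0 := h0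
  have hspec := Nat.findGreatest_spec (P := fun n => ∃ Q, BcQ G W K Q ∧ bcS K Q = n)
    (Nat.zero_le (g - 1)) hP
  have hle := Nat.findGreatest_le (P := fun n => ∃ Q, BcQ G W K Q ∧ bcS K Q = n) (g - 1)
  obtain ⟨Q, hQ, hn⟩ := hspec
  refine ⟨Q, hQ, by omega, ?_⟩
  intro Q' hQ' hg'
  have := Nat.le_findGreatest (P := fun n => ∃ Q, BcQ G W K Q ∧ bcS K Q = n)
    (show bcS K Q' ≤ g - 1 by omega) ⟨Q', hQ', rfl⟩
  omega

theorem bc_aug {G : SimpleGraph V} {W K : Finset V} {m g : ℕ} {Q Q' : List V}
    (hcl : ∀ x ∈ K, ∀ y ∈ K, x ≠ y → G.Adj x y) (hKW : K ⊆ W) (hKg : m ≤ K.card + g)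
    (hmax : ∀ Q', BcQ G W K Q' → bcS K Q' + 1 ≤ g → bcS K Q' ≤ bcS K Q)
    (hQ' : BcQ G W K Q') (hlt : bcS K Q < bcS K Q') (h2 : 2 ≤ Q'.length) (hm : Q'.length ≤ m) :
    HasCyc G W m := by
  by_cases h : bcS K Q' + 1 ≤ g
  · exact absurd (hmax Q' hQ' h) (by omega)
  · apply bc_fill hcl hKW hQ'.pth hQ'.mem hQ'.hd hQ'.lt h2 hm
    have h1 := bc_K_card K Q'
    have h3 := bc_length K Q'
    omega

omit [DecidableEq V] in
theorem bridge_rev {G : SimpleGraph V} {O : Finset V} {u v : V} {q : List V}
    (h : Bridge G O u v q) : Bridge G O v u q.reverse := by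
  obtain ⟨h1, h2, h3, h4, h5⟩ := h
  refine ⟨by simpa using h1, chain_symm h2, fun x hx => h3 x (by simpa using hx), ?_, ?_⟩
  · intro x hx
    rw [List.head?_reverse] at hx
    exact (h5 x hx).symm
  · intro x hx
    rw [List.getLast?_reverse] at hx
    exact (h4 x hx).symm

omit [DecidableEq V] in
/-- chain built as `A, u, q, v, B`. -/
theorem bc_chain {G : SimpleGraph V} {O : Finset V} {u v : V} {q A B : List V}
    (hA : (A ++ [u]).IsChain G.Adj) (hq : Bridge G O u v q) (hB : (v :: B).IsChain G.Adj) :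
    (A ++ u :: (q ++ v :: B)).IsChain G.Adj := by
  obtain ⟨h1, h2, h3, h4, h5⟩ := hq
  have e : A ++ u :: (q ++ v :: B) = (A ++ [u]) ++ (q ++ v :: B) := by simp
  rw [e, List.isChain_append]
  refine ⟨hA, ?_, ?_⟩
  · rw [List.isChain_append]
    refine ⟨h2, hB, ?_⟩
    intro x hx y hy
    simp only [List.head?_cons, Option.mem_def, Option.some.injEq] at hy
    rw [← hy]; exact h5 x hx
  · intro x hx y hy
    have hx' : x = u := by
      rw [List.getLast?_append] at hx
      simpa using hx.symm
    rw [hx']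
    apply h4
    rcases q with _ | ⟨z, t⟩
    · exact absurd rfl h1
    · simpa using hy

/-- Making the augmented list from a permutation. -/
theorem bc_mk {G : SimpleGraph V} {W K : Finset V} {Q Q' q E : List V} (hQ : BcQ G W K Q)
    (hperm : Q'.Perm (Q ++ (q ++ E))) (hch : Q'.IsChain G.Adj) (hqn : q.Nodup) (hEn : E.Nodup)
    (hq0 : q ≠ []) (hqO : ∀ x ∈ q, x ∈ W \ (K ∪ Q.toFinset)) (hEK : ∀ x ∈ E, x ∈ K)
    (hEQ : ∀ x ∈ E, x ∉ Q) (hKW : K ⊆ W) (hE2 : E.length ≤ 2)
    (hhd : ∀ x ∈ Q'.head?, x ∈ K) (hlt : ∀ x ∈ Q'.getLast?, x ∈ K) :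
    BcQ G W K Q' ∧ bcS K Q < bcS K Q' ∧ Q'.length ≤ 3 * bcS K Q + 2 + q.length := by
  have hqK : ∀ x ∈ q, x ∉ K := fun x hx h => (mem_sdiff.1 (hqO x hx)).2 (mem_union_left _ h)
  have hqQ : ∀ x ∈ q, x ∉ Q := fun x hx h => (mem_sdiff.1 (hqO x hx)).2
    (mem_union_right _ (List.mem_toFinset.2 h))
  have hS : bcS K Q' = bcS K Q + q.length := by
    rw [bcS_perm K hperm, bcS_append, bcS_append, bcS_zero hEK]
    have h1 := bc_length K q
    rw [bcT_zero hqK] at h1
    omega
  have hT : bcT K Q' = bcT K Q + E.length := by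
    rw [bcT_perm K hperm, bcT_append, bcT_append, bcT_zero hqK]
    have h1 := bc_length K E
    rw [bcS_zero hEK] at h1
    omega
  have hql : 1 ≤ q.length := List.length_pos_iff.2 hq0
  have hfew := hQ.few
  refine ⟨⟨⟨?_, hch⟩, ?_, hhd, hlt, by omega⟩, by omega, ?_⟩
  · rw [hperm.nodup_iff, List.nodup_append, List.nodup_append]
    refine ⟨hQ.pth.1, ⟨hqn, hEn, ?_⟩, ?_⟩
    · intro x hx y hy hxy
      subst hxy
      exact hqK x hx (hEK x hy)
    · intro x hx y hy hxy
      subst hxy
      rw [List.mem_append] at hy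
      rcases hy with hy | hy
      · exact hqQ x hy hx
      · exact hEQ x hy hx
  · intro x hx
    rw [hperm.mem_iff, List.mem_append, List.mem_append] at hx
    rcases hx with hx | hx | hx
    · exact hQ.mem x hx
    · exact (mem_sdiff.1 (hqO x hx)).1
    · exact hKW (hEK x hx)
  · have h1 := bc_length K Q'
    omega

/-- `u` is unused, or its successor on `Q` is in `K` (or it is the last vertex). -/
def bcRep (K : Finset V) (Q : List V) (u : V) : Prop :=
  u ∉ Q ∨ ∃ A B, Q = A ++ u :: B ∧ ∀ x ∈ B.head?, x ∈ K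

theorem bc_noshort {G : SimpleGraph V} {W K : Finset V} {m g : ℕ} {Q : List V}
    (hcl : ∀ x ∈ K, ∀ y ∈ K, x ≠ y → G.Adj x y) (hKW : K ⊆ W) (hKg : m ≤ K.card + g)
    (hgm : 3 * g + 5 ≤ m) (hQ : BcQ G W K Q) (hQg : bcS K Q + 1 ≤ g)
    (hmax : ∀ Q', BcQ G W K Q' → bcS K Q' + 1 ≤ g → bcS K Q' ≤ bcS K Q)
    (hno : ¬ HasCyc G W m) {u v : V} (hu : u ∈ K) (hv : v ∈ K) (huR : bcRep K Q u)
    (hvR : bcRep K Q v) (huv : u ≠ v) {q : List V}
    (hq : Bridge G (W \ (K ∪ Q.toFinset)) u v q) (hqn : q.Nodup) (hq6 : q.length ≤ 6) : False := by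
  have fin : ∀ Q' E : List V, Q'.Perm (Q ++ (q ++ E)) → Q'.IsChain G.Adj → E.Nodup →
      (∀ x ∈ E, x ∈ K) → (∀ x ∈ E, x ∉ Q) → E.length ≤ 2 → (∀ x ∈ Q'.head?, x ∈ K) →
      (∀ x ∈ Q'.getLast?, x ∈ K) → 2 ≤ Q'.length → False := by
    intro Q' E h1 h2 h3 h4 h5 h6 h7 h8 h9
    obtain ⟨a1, a2, a3⟩ := bc_mk hQ h1 h2 hqn h3 hq.1 hq.2.2.1 h4 h5 hKW h6 h7 h8
    exact hno (bc_aug hcl hKW hKg hmax a1 a2 h9 (by omega))
  -- `u` on the path, `v` unused
  have mixed : ∀ (u v : V) (q' : List V), u ∈ K → v ∈ K → q'.Perm q → u ≠ v →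
      Bridge G (W \ (K ∪ Q.toFinset)) u v q' → v ∉ Q →
      (∃ A B, Q = A ++ u :: B ∧ ∀ x ∈ B.head?, x ∈ K) → False := by
    intro u v q' hu hv hqq huv hq' hvQ ⟨A, B, e, hB⟩
    have hQc := hQ.pth.2
    have e1 : Q = (A ++ [u]) ++ B := by rw [e]; simp
    rw [e1, List.isChain_append] at hQc
    apply fin (A ++ u :: (q' ++ v :: B)) [v]
    · have p1 : (A ++ u :: (q' ++ v :: B)).Perm (A ++ u :: (B ++ (q' ++ [v]))) := by
        apply List.Perm.append_left
        apply List.Perm.cons
        have e2 : q' ++ v :: B = (q' ++ [v]) ++ B := by simp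
        rw [e2]
        exact List.perm_append_comm
      refine p1.trans ?_
      rw [e]
      have e3 : A ++ u :: (B ++ (q' ++ [v])) = (A ++ u :: B) ++ (q' ++ [v]) := by simp
      rw [e3]
      exact List.Perm.append_left _ (List.Perm.append_right _ hqq)
    · apply bc_chain hQc.1 hq'
      rw [List.isChain_cons]
      refine ⟨?_, hQc.2.1⟩
      intro y hy
      apply hcl v hv y (hB y hy)
      rintro rfl
      apply hvQ
      rw [e, List.mem_append, List.mem_cons]
      exact Or.inr (Or.inr (List.mem_of_mem_head? hy))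
    · simp
    · intro x hx
      rw [List.mem_singleton] at hx
      rw [hx]; exact hv
    · intro x hx
      rw [List.mem_singleton] at hx
      rw [hx]; exact hvQ
    · simp
    · intro x hx
      apply hQ.hd
      rw [e]
      rcases A with _ | ⟨z, A⟩
      · simpa using hx
      · simpa using hx
    · intro x hx
      rcases B.eq_nil_or_concat with rfl | ⟨B', b, rfl⟩
      · have : x = v := by
          have e4 : A ++ u :: (q' ++ [v]) = (A ++ u :: q') ++ [v] := by simp
          rw [e4, List.getLast?_append] at hx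
          simpa using hx.symm
        rw [this]; exact hv
      · apply hQ.lt
        have e4 : A ++ u :: (q' ++ v :: B'.concat b) = (A ++ u :: (q' ++ v :: B')) ++ [b] := by
          simp
        rw [e4, List.getLast?_append] at hx
        have e5 : A ++ u :: B'.concat b = (A ++ u :: B') ++ [b] := by simp
        rw [e, e5, List.getLast?_append]
        exact hx
    · simp only [List.length_append, List.length_cons]
      omega
  -- both on the path, `u` first
  have both : ∀ (u v : V) (q' : List V) (A B C : List V), u ∈ K → v ∈ K → q'.Perm q →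
      Bridge G (W \ (K ∪ Q.toFinset)) u v q' → Q = A ++ u :: (B ++ v :: C) →
      (∀ x ∈ (B ++ v :: C).head?, x ∈ K) → (∀ x ∈ C.head?, x ∈ K) → False := by
    intro u v q' A B C hu hv hqq hq' e hB hC
    have hQc := hQ.pth.2
    have hQn := hQ.pth.1
    have e1 : Q = (A ++ [u]) ++ (B ++ v :: C) := by rw [e]; simp
    have e1' : Q = (A ++ u :: B) ++ (v :: C) := by rw [e]; simp
    rw [e1, List.isChain_append] at hQc
    have hBv := hQc.2.1
    rw [List.isChain_append] at hBv
    apply fin (A ++ u :: (q' ++ v :: (B.reverse ++ C))) []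
    · have p1 : (q' ++ v :: (B.reverse ++ C)).Perm ((B ++ v :: C) ++ q') := by
        refine List.perm_append_comm.trans ?_
        apply List.Perm.append_right
        have p2 : (v :: (B.reverse ++ C)).Perm (v :: (B ++ C)) :=
          List.Perm.cons _ (List.Perm.append_right _ (List.reverse_perm B))
        exact p2.trans List.perm_middle.symm
      have p2 : (A ++ u :: (q' ++ v :: (B.reverse ++ C))).Perm (A ++ u :: ((B ++ v :: C) ++ q')) :=
        List.Perm.append_left _ (List.Perm.cons _ p1)
      refine p2.trans ?_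
      rw [e]
      have e3 : A ++ u :: ((B ++ v :: C) ++ q') = (A ++ u :: (B ++ v :: C)) ++ (q' ++ []) := by simp
      rw [e3]
      exact List.Perm.append_left _ (List.Perm.append_right _ hqq)
    · apply bc_chain hQc.1 hq'
      rw [List.isChain_cons]
      constructor
      · intro y hy
        rw [List.head?_append, List.head?_reverse] at hy
        rcases hBl : B.getLast? with _ | z
        · rw [hBl] at hy
          have hy' : y ∈ C.head? := by simpa using hy
          have h1 := hBv.2.1
          rw [List.isChain_cons] at h1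
          exact h1.1 y hy'
        · rw [hBl] at hy
          have hyz : y = z := by simpa using hy.symm
          rw [hyz]
          exact (hBv.2.2 z hBl v (by simp)).symm
      · rw [List.isChain_append]
        refine ⟨chain_symm hBv.1, ?_, ?_⟩
        · have h1 := hBv.2.1
          rw [List.isChain_cons] at h1
          exact h1.2
        · intro x hx y hy
          rw [List.getLast?_reverse] at hx
          have hxK : x ∈ K := hB x (by
            rw [List.head?_append]
            have hx' : B.head? = some x := hx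
            rw [hx']; rfl)
          apply hcl x hxK y (hC y hy)
          rintro rfl
          rw [e1', List.nodup_append] at hQn
          exact hQn.2.2 x (by simp [List.mem_of_mem_head? hx]) x
            (by simp [List.mem_of_mem_head? hy]) rfl
    · simp
    · simp
    · simp
    · simp
    · intro x hx
      apply hQ.hd
      rw [e]
      rcases A with _ | ⟨z, A⟩
      · simpa using hx
      · simpa using hx
    · intro x hx
      rcases C.eq_nil_or_concat with rfl | ⟨C', b, rfl⟩
      · rcases B with _ | ⟨z, B'⟩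
        · have : x = v := by
            have e4 : A ++ u :: (q' ++ v :: (([] : List V).reverse ++ [])) =
              (A ++ u :: q') ++ [v] := by simp
            rw [e4, List.getLast?_append] at hx
            simpa using hx.symm
          rw [this]; exact hv
        · have : x = z := by
            have e4 : A ++ u :: (q' ++ v :: ((z :: B').reverse ++ [])) =
              (A ++ u :: (q' ++ v :: B'.reverse)) ++ [z] := by simp
            rw [e4, List.getLast?_append] at hx
            simpa using hx.symm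
          rw [this]
          exact hB z (by simp)
      · apply hQ.lt
        have e4 : A ++ u :: (q' ++ v :: (B.reverse ++ C'.concat b)) =
          (A ++ u :: (q' ++ v :: (B.reverse ++ C'))) ++ [b] := by simp
        rw [e4, List.getLast?_append] at hx
        have e5 : A ++ u :: (B ++ v :: C'.concat b) = (A ++ u :: (B ++ v :: C')) ++ [b] := by simp
        rw [e, e5, List.getLast?_append]
        exact hx
    · simp only [List.length_append, List.length_cons]
      omega
  rcases huR with huQ | ⟨A, B, e, hB⟩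
  · rcases hvR with hvQ | hvR
    · -- both unused
      have hQc := hQ.pth.2
      apply fin (Q ++ u :: (q ++ [v])) [u, v]
      · have p1 : (u :: (q ++ [v])).Perm (q ++ [u, v]) := by
          have : (q ++ [u, v]) = q ++ u :: [v] := rfl
          rw [this]
          exact List.perm_middle.symm
        exact List.Perm.append_left _ p1
      · apply bc_chain _ hq (by simp)
        rw [List.isChain_append]
        refine ⟨hQc, by simp, ?_⟩
        intro x hx y hy
        simp only [List.head?_cons, Option.mem_def, Option.some.injEq] at hy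
        rw [← hy]
        apply hcl x (hQ.lt x hx) u hu
        rintro rfl
        exact huQ (List.mem_of_getLast? hx)
      · simpa using huv
      · intro x hx
        simp only [List.mem_cons, List.not_mem_nil, or_false] at hx
        rcases hx with rfl | rfl
        · exact hu
        · exact hv
      · intro x hx
        simp only [List.mem_cons, List.not_mem_nil, or_false] at hx
        rcases hx with rfl | rfl
        · exact huQ
        · exact hvQ
      · simp
      · intro x hx
        rcases Q with _ | ⟨z, Q0⟩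
        · have : x = u := by simpa using hx.symm
          rw [this]; exact hu
        · exact hQ.hd x (by simpa using hx)
      · intro x hx
        have : x = v := by
          have e4 : Q ++ u :: (q ++ [v]) = (Q ++ u :: q) ++ [v] := by simp
          rw [e4, List.getLast?_append] at hx
          simpa using hx.symm
        rw [this]; exact hv
      · simp only [List.length_append, List.length_cons]
        omega
    · exact mixed v u q.reverse hv hu (List.reverse_perm q) huv.symm (bridge_rev hq) huQ hvR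
  · rcases hvR with hvQ | ⟨A', B', e', hB'⟩
    · exact mixed u v q hu hv (List.Perm.refl _) huv hq hvQ ⟨A, B, e, hB⟩
    · have hvQ : v ∈ Q := by rw [e']; simp
      have hvm := hvQ
      rw [e, List.mem_append, List.mem_cons] at hvm
      rcases hvm with h | h | h
      · -- `v` before `u`
        obtain ⟨A1, A2, e2⟩ := List.append_of_mem h
        have e3 : Q = A1 ++ v :: (A2 ++ u :: B) := by rw [e, e2]; simp
        obtain ⟨-, e4⟩ := split_unique hQ.pth.1 e' e3
        rw [e4] at hB'
        exact both v u q.reverse A1 A2 B hv hu (List.reverse_perm q) (bridge_rev hq) e3 hB' hB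
      · exact huv h.symm
      · obtain ⟨B1, B2, e2⟩ := List.append_of_mem h
        have e3 : Q = (A ++ u :: B1) ++ v :: B2 := by rw [e, e2]; simp
        obtain ⟨-, e4⟩ := split_unique hQ.pth.1 e' e3
        rw [e4] at hB'
        rw [e2] at e hB
        exact both u v q A B1 B2 hu hv (List.Perm.refl _) hq e hB hB'

theorem bc_nonrep {K : Finset V} {Q : List V} (hn : Q.Nodup) {R : Finset V}
    (hR : ∀ u ∈ K, u ∉ R → ¬ bcRep K Q u) : (K \ R).card ≤ bcS K Q := by
  classical
  have h5 : bcS K Q = (Q.filter (fun x => decide (x ∉ K))).length := List.countP_eq_length_filter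
  have hf : ∀ u : V, ∃ x : V, u ∈ K \ R → x ∉ K ∧ ∃ A B, Q = A ++ u :: x :: B := by
    intro u
    by_cases hu : u ∈ K \ R
    · rw [mem_sdiff] at hu
      have h1 := hR u hu.1 hu.2
      unfold bcRep at h1
      push Not at h1
      obtain ⟨A, B, e⟩ := List.append_of_mem h1.1
      obtain ⟨x, hx, hxK⟩ := h1.2 A B e
      rcases B with _ | ⟨y, B⟩
      · simp at hx
      · have : y = x := by simpa using hx
        subst this
        exact ⟨y, fun _ => ⟨hxK, A, B, e⟩⟩
    · exact ⟨u, fun h => absurd h hu⟩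
  choose f hf using hf
  have h1 : (K \ R).card ≤ (Q.filter (fun x => decide (x ∉ K))).toFinset.card := by
    apply card_le_card_of_injOn f
    · intro u hu
      obtain ⟨h1, A, B, e⟩ := hf u hu
      rw [mem_coe, List.mem_toFinset, List.mem_filter]
      refine ⟨?_, by simpa using h1⟩
      rw [e]; simp
    · intro u hu v hv huv
      obtain ⟨h1, A, B, e⟩ := hf u hu
      obtain ⟨h2, A', B', e'⟩ := hf v hv
      rw [huv] at e
      have e1 : Q = (A ++ [u]) ++ f v :: B := by rw [e]; simp
      have e2 : Q = (A' ++ [v]) ++ f v :: B' := by rw [e']; simp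
      obtain ⟨e3, -⟩ := split_unique hn e1 e2
      have e4 := congrArg List.getLast? e3
      rw [List.getLast?_append, List.getLast?_append] at e4
      simpa using e4
  have h2 := List.toFinset_card_le (Q.filter (fun x => decide (x ∉ K)))
  omega

/-- The big clique lemma: a clique of size `m - g` with `4 g ≤ m` gives a cycle of length `m`. -/
theorem big_clique_strong {G : SimpleGraph V} {W : Finset V} {a m g : ℕ} (ha : 1 ≤ a)
    (ham : a + 1 ≤ m) (hW : AlphaLe G W a) (hcard : (m - 1) * a + 1 ≤ W.card)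
    (hmin : ∀ c, c < a → ∀ W', W' ⊆ W → AlphaLe G W' c → W'.card ≤ (m - 1) * c)
    {K : Finset V} (hK : K ⊆ W) (hcl : ∀ x ∈ K, ∀ y ∈ K, x ≠ y → G.Adj x y)
    (hm3 : 3 ≤ m) (hKg : m ≤ K.card + g) (hg4 : 4 * g ≤ m) (hg3 : 3 * g + 5 ≤ m) :
    HasCyc G W m := by
  classical
  rcases Nat.lt_or_ge K.card m with hKm | hKm
  swap
  · obtain ⟨S, hS1, hS2⟩ := exists_subset_card_eq hKm
    exact ⟨S.toList, by rw [length_toList, hS2],
      clique_cyc (fun x hx y hy => hcl x (hS1 hx) y (hS1 hy)) (by omega),
      fun x hx => hK (hS1 (mem_toList.1 hx))⟩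
  by_contra hno
  -- work with the exact value of `g`
  obtain ⟨g', hg', hgg⟩ : ∃ g', K.card + g' = m ∧ g' ≤ g := ⟨m - K.card, by omega, by omega⟩
  obtain ⟨Q, hQ, hQg, hmax⟩ := bc_max (G := G) (W := W) (K := K) (g := g') (by omega)
  apply hno
  set C := K ∪ Q.toFinset with hC
  set R := K.filter (fun u => bcRep K Q u) with hR
  have hRK : R ⊆ K := filter_subset _ _
  have hCW : C ⊆ W := by
    intro x hx
    rw [hC, mem_union, List.mem_toFinset] at hx
    rcases hx with hx | hx
    · exact hK hx
    · exact hQ.mem x hx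
  have h1 : (C \ K).card ≤ bcS K Q := bc_out_card K Q
  have h2 : (K \ R).card ≤ bcS K Q := by
    apply bc_nonrep hQ.pth.1
    intro u hu huR h
    exact huR (mem_filter.2 ⟨hu, h⟩)
  have h3 : (C \ R).card ≤ 2 * bcS K Q := by
    have h4 : C \ R ⊆ (C \ K) ∪ (K \ R) := by
      intro x hx
      rw [mem_sdiff] at hx
      rw [mem_union, mem_sdiff, mem_sdiff]
      by_cases hxK : x ∈ K
      · exact Or.inr ⟨hxK, hx.2⟩
      · exact Or.inl ⟨hx.1, hxK⟩
    have h5 := card_le_card h4
    have h6 := card_union_le (C \ K) (K \ R)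
    omega
  have h4 : C.card = K.card + (C \ K).card := by
    have := card_sdiff_add_card_eq_card (show K ⊆ C from subset_union_left)
    omega
  have h5 : K.card = R.card + (K \ R).card := by
    have := card_sdiff_add_card_eq_card hRK
    omega
  apply bc_core ha hW hcard hmin hCW subset_union_left hRK hcl (by omega) (by omega)
  · intro u hu v hv huv q hq hqn hq6
    rw [hR, mem_filter] at hu hv
    exact bc_noshort hcl hK (by omega) (by omega) hQ hQg hmax hno hu.1 hv.1 hu.2 hv.2 huv hq hqn hq6
  · intro c hc c' hc' hcc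
    exact bc_exits hQ.pth hQ.hd hQ.lt hc hc' hcc
  · omega
  · omega
  · omega
  · omega

theorem big_clique {G : SimpleGraph V} {W : Finset V} {a m : ℕ} (hm : 12 ≤ m) (ha : 1 ≤ a)
    (ham : a + 1 ≤ m) (hW : AlphaLe G W a) (hcard : (m - 1) * a + 1 ≤ W.card)
    (hmin : ∀ c, c < a → ∀ W', W' ⊆ W → AlphaLe G W' c → W'.card ≤ (m - 1) * c)
    {K : Finset V} (hK : K ⊆ W) (hcl : ∀ x ∈ K, ∀ y ∈ K, x ≠ y → G.Adj x y)
    (hk : 5 * m ≤ 6 * K.card) : HasCyc G W m :=
  big_clique_strong (g := m - K.card) ha ham hW hcard hmin hK hcl (by omega) (by omega) (by omega)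
    (by omega)

end Vale.Agent.P048
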