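import Vale.Agent.P048.MaxSys
import Vale.Agent.P048.BigClique

namespace Vale.Agent.P048.L

open Finset

variable {V : Type*} [DecidableEq V] {G : SimpleGraph V} {W K : Finset V} {a m g : ℕ}

/-- a minimal counterexample -/
structure Env0 (G : SimpleGraph V) (W : Finset V) (a m : ℕ) : Prop where
  hW : AlphaLe G W a
  hcard : (m - 1) * a + 1 ≤ W.card
  hmin : ∀ c, c < a → ∀ W', W' ⊆ W → AlphaLe G W' c → W'.card ≤ (m - 1) * c
  hno : ¬ HasCyc G W m

theorem nbhd_att (E : Env0 G W a m) {F : Finset V} {u : V} {r : ℕ} (hu : u ∈ W \ F)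
    {J : Finset V} (hJ : J ⊆ ball G (W \ F) u r) (hJi : Ind G J) (hJ1 : 1 ≤ J.card)
    [DecidablePred (Att G (ball G (W \ F) u r))] :
    (m - 1) * J.card + 1 ≤ (ball G (W \ F) u (r + 1)).card +
      (F.filter (Att G (ball G (W \ F) u r))).card := by
  set F' := F.filter (Att G (ball G (W \ F) u r)) with hF'
  set Y := W \ (ball G (W \ F) u (r + 1) ∪ F') with hY
  have hJW : J ⊆ W := hJ.trans ((ball_subset hu r).trans sdiff_subset)
  have hYn : ∀ y ∈ Y, ∀ x ∈ ball G (W \ F) u r, ¬ G.Adj y x := by
    intro y hy x hx hadj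
    rw [hY, mem_sdiff, mem_union] at hy
    by_cases hyF : y ∈ F
    · exact hy.2 (Or.inr (mem_filter.2 ⟨hyF, x, hx, hadj⟩))
    · exact hy.2 (Or.inl (mem_ball_succ (mem_sdiff.2 ⟨hy.1, hyF⟩) ⟨x, hx, hadj⟩))
  have hJa := E.hW J hJW hJi
  have hYa : AlphaLe G Y (a - J.card) := by
    intro S hS hSi
    have hd : Disjoint S J := by
      rw [disjoint_left]
      intro x hxS hxJ
      have := hS hxS
      rw [hY, mem_sdiff, mem_union] at this
      exact this.2 (Or.inl (ball_subset_succ r (hJ hxJ)))
    have hi : Ind G (S ∪ J) := by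
      intro x hx y hy
      rw [mem_union] at hx hy
      rcases hx with hx | hx
      · rcases hy with hy | hy
        · exact hSi x hx y hy
        · exact hYn x (hS hx) y (hJ hy)
      · rcases hy with hy | hy
        · exact fun h => hYn y (hS hy) x (hJ hx) h.symm
        · exact hJi x hx y hy
    have h1 := E.hW (S ∪ J) (union_subset (hS.trans sdiff_subset) hJW) hi
    rw [card_union_of_disjoint hd] at h1
    omega
  have hYc := E.hmin (a - J.card) (by omega) Y sdiff_subset hYa
  have h2 : W.card ≤ (ball G (W \ F) u (r + 1) ∪ F').card + Y.card := by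
    have h3 : W ⊆ Y ∪ (ball G (W \ F) u (r + 1) ∪ F') := by
      intro w hw
      rw [mem_union, hY, mem_sdiff]
      by_cases h : w ∈ ball G (W \ F) u (r + 1) ∪ F'
      · exact Or.inr h
      · exact Or.inl ⟨hw, h⟩
    have h4 := (card_le_card h3).trans (card_union_le _ _)
    omega
  have h5 := card_union_le (ball G (W \ F) u (r + 1)) F'
  have h6 := E.hcard
  obtain ⟨k, hk⟩ := Nat.exists_eq_add_of_le hJa
  rw [hk, Nat.add_sub_cancel_left] at hYc
  rw [hk] at h6
  have e : (m - 1) * (J.card + k) = (m - 1) * J.card + (m - 1) * k := by ring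
  omega

/-- the vertex set of the system -/
def Zs (S : List (List V)) : Finset V := S.flatten.toFinset

theorem mem_Zs {S : List (List V)} {x : V} : x ∈ Zs S ↔ x ∈ S.flatten := List.mem_toFinset

theorem exists_out (E : Env0 G W a m) (ha : 1 ≤ a) (hm : 1 ≤ m) {S : List (List V)}
    (hS : MaxSys G W K m S) {p : V} (hp : p ∈ S.flatten) (hpW : p ∈ W) :
    ∃ x ∈ W \ Zs S, G.Adj p x := by
  by_contra hcon
  push Not at hcon
  have := bc_deg ha hm E.hW E.hcard E.hmin hpW (S := Zs S) (mem_Zs.2 hp) (by
    intro y hy hadj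
    by_contra hyZ
    exact hcon y (mem_sdiff.2 ⟨hy, hyZ⟩) hadj)
  have h2 := List.toFinset_card_le S.flatten
  have h3 := hS.lt
  rw [Zs] at this
  omega

/-- no outside path joins the ends of two different pieces -/
theorem no_join {S : List (List V)} (hS : MaxSys G W K m S) {e e' : List V} {T : List (List V)}
    (hp : S.Perm (e :: e' :: T)) {p q : V} (hpe : p ∈ e.head?) (hq : q ∈ e'.head? ∨ q ∈ e'.getLast?)
    {O : Finset V} (hO : O ⊆ W \ Zs S) {n : ℕ} (hn : n + 1 ≤ K.card) (x : List V)
    (hx : Bridge G O p q x) (hxn : x.length ≤ n) : False := by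
  obtain ⟨x', hx', hxn', hxl⟩ := bridge_nodup ⟨x, hx, hxn⟩
  have h1 := (hS.sys.perm hp).rev
  have hfl : ∀ y, y ∈ S.flatten ↔ y ∈ e ∨ y ∈ e' ∨ y ∈ T.flatten := by
    intro y
    rw [hp.flatten.mem_iff, List.flatten_cons, List.flatten_cons, List.mem_append, List.mem_append]
  have hlen := hp.flatten.length_eq
  rw [List.flatten_cons, List.flatten_cons, List.length_append, List.length_append] at hlen
  have hOy : ∀ y ∈ O, y ∈ W ∧ ¬ (y ∈ e ∨ y ∈ e' ∨ y ∈ T.flatten) := by
    intro y hy
    have := mem_sdiff.1 (hO hy)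
    rw [mem_Zs, hfl] at this
    exact this
  have hx1 : 1 ≤ x'.length := List.length_pos_iff.2 hx'.1
  have hlt := hS.lt
  -- the two cases for q
  have key : ∀ B : List V, (∀ y, y ∈ B ↔ y ∈ e') → B.length = e'.length →
      Sys G W K (e.reverse :: B :: T) → q ∈ B.head? → False := by
    intro B hB hBl hsys hqB
    have h2 := hsys.join (a := p) (b := q) (by rw [List.getLast?_reverse]; exact hpe) hqB hx' hxn'
      (by
        intro y hy
        rw [List.flatten_cons, List.flatten_cons, List.mem_append, List.mem_append,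
          List.mem_reverse, hB]
        exact hOy y hy)
    refine hS.max _ h2 ?_ ?_ ?_
    · intro y hy
      have := (hfl y).1 (hS.full y hy)
      rw [List.flatten_cons, List.mem_append, List.mem_append, List.mem_append, List.mem_reverse,
        hB]
      tauto
    · simp only [List.flatten_cons, List.length_append, List.length_reverse]
      omega
    · simp only [List.flatten_cons, List.length_append, List.length_reverse]
      omega
  rcases hq with hq | hq
  · exact key e' (fun _ => Iff.rfl) rfl h1 hq
  · refine key e'.reverse (fun _ => List.mem_reverse) List.length_reverse ?_ (by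
      rw [List.head?_reverse]; exact hq)
    have h2 : Sys G W K (e' :: e.reverse :: T) := h1.perm (List.Perm.swap _ _ _)
    exact h2.rev.perm (List.Perm.swap _ _ _)

/-- no outside path joins two consecutive vertices of a piece -/
theorem no_ins {S : List (List V)} (hS : MaxSys G W K m S) {e : List V} (he : e ∈ S)
    {A B : List V} (hAB : e = A ++ B) {p q : V} (hpA : p ∈ A.getLast?) (hqB : q ∈ B.head?)
    {O : Finset V} (hO : O ⊆ W \ Zs S) {n : ℕ} (hn : n + 1 ≤ K.card) (x : List V)
    (hx : Bridge G O p q x) (hxn : x.length ≤ n) : False := by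
  obtain ⟨x', hx', hxn', hxl⟩ := bridge_nodup ⟨x, hx, hxn⟩
  obtain ⟨S1, S2, rfl⟩ := List.append_of_mem he
  subst hAB
  have hp : (S1 ++ (A ++ B) :: S2).Perm ((A ++ B) :: (S1 ++ S2)) := List.perm_middle
  generalize S1 ++ S2 = T at hp
  have hfl : ∀ y, y ∈ (S1 ++ (A ++ B) :: S2).flatten ↔ (y ∈ A ∨ y ∈ B) ∨ y ∈ T.flatten := by
    intro y
    rw [hp.flatten.mem_iff, List.flatten_cons, List.mem_append, List.mem_append]
  have hlen := hp.flatten.length_eq
  rw [List.flatten_cons, List.length_append, List.length_append] at hlen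
  have hx1 : 1 ≤ x'.length := List.length_pos_iff.2 hx'.1
  have hlt := hS.lt
  have h2 := (hS.sys.perm hp).ins hpA hqB hx' hxn' (by
    intro y hy
    have := mem_sdiff.1 (hO hy)
    rw [mem_Zs, hfl] at this
    rw [List.flatten_cons, List.mem_append, List.mem_append]
    exact this)
  refine hS.max _ h2 ?_ ?_ ?_
  · intro y hy
    have := (hfl y).1 (hS.full y hy)
    rw [List.flatten_cons, List.mem_append, List.mem_append, List.mem_append]
    tauto
  · simp only [List.flatten_cons, List.length_append]
    omega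
  · simp only [List.flatten_cons, List.length_append]
    omega

theorem piece_len {S : List (List V)} (hS : MaxSys G W K m S) {e : List V} (he : e ∈ S) :
    2 * kc K e ≤ e.length + 1 := by
  have hp := hS.sys.piece e he
  have := gap_count (o := 0) _ e le_rfl hp.ne hp.hd hp.lt (hS.nogap e he)
  omega

theorem sum_att (P : V → Prop) [DecidablePred P] : ∀ (T : List (List V)),
    (∀ e ∈ T, 2 * e.countP (fun x => decide (P x)) + 1 ≤ e.length) →
    (∀ e ∈ T, 2 * kc K e ≤ e.length + 1) →
    T.flatten.countP (fun x => decide (P x)) + kc K T.flatten ≤ T.flatten.length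
  | [], _, _ => by simp [kc]
  | e :: T, h1, h2 => by
    have ih := sum_att P T (fun e he => h1 e (List.mem_cons_of_mem _ he))
      (fun e he => h2 e (List.mem_cons_of_mem _ he))
    have h3 := h1 e (List.mem_cons_self)
    have h4 := h2 e (List.mem_cons_self)
    rw [List.flatten_cons, List.countP_append, kc_append, List.length_append]
    omega

/-- Attachment bound: a small ball around an outside neighbour of an end of a piece is attached to
at most `σ + 1` vertices of the system. -/
theorem att_le {S : List (List V)} (hS : MaxSys G W K m S) {e : List V} (he : e ∈ S) {p x : V}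
    (hp : p ∈ e.head?) (hx : x ∈ W \ Zs S) (hpx : G.Adj p x) {r : ℕ} (hr : 2 * r + 2 ≤ K.card)
    {D : Finset V} (hD : D = ball G (W \ Zs S) x r) [DecidablePred (Att G D)] :
    ((Zs S).filter (Att G D)).card + K.card ≤ S.flatten.length + 1 := by
  have hDO : D ⊆ W \ Zs S := hD ▸ ball_subset hx r
  have hc : ((Zs S).filter (Att G D)).card = S.flatten.countP (fun y => decide (Att G D y)) := by
    rw [List.countP_eq_length_filter, ← List.toFinset_card_of_nodup (hS.sys.nodup.filter _)]
    congr 1
    ext y
    rw [mem_filter, List.mem_toFinset, List.mem_filter, mem_Zs]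
    simp
  have hcons : ∀ e' ∈ S, ∀ A B a b, e' = A ++ B → a ∈ A.getLast? → b ∈ B.head? →
      ¬ (Att G D a ∧ Att G D b) := by
    intro e' he' A B a b hAB ha hb hab
    rw [hD] at hab
    obtain ⟨q, hq1, _, hq3⟩ := ball_bridge hab.1 hab.2
    exact no_ins hS he' hAB ha hb (ball_subset hx r) (n := 2 * r + 1) (by omega) q hq1 hq3
  obtain ⟨S1, S2, hSeq⟩ := List.append_of_mem he
  have hperm : S.Perm (e :: (S1 ++ S2)) := by rw [hSeq]; exact List.perm_middle
  generalize S1 ++ S2 = T at hperm
  have hbr : ∀ w, Att G D w → ∃ q, Bridge G D p w q ∧ q.length ≤ r + 1 := by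
    rintro w ⟨z, hz, hwz⟩
    rw [hD] at hz
    obtain ⟨q, q1, q2, q3, q4, q5⟩ := ball_chain r z hz
    rw [← hD] at q2
    refine ⟨q, ⟨?_, q1, q2, ?_, ?_⟩, q5⟩
    · rintro rfl; simp at q3
    · intro h hh
      rw [q3] at hh
      rw [← Option.some.inj hh]
      exact hpx
    · intro h hh
      rw [q4] at hh
      rw [← Option.some.inj hh]
      exact hwz.symm
  have hends : ∀ e' ∈ T, (∀ a ∈ e'.head?, ¬ Att G D a) ∧ (∀ a ∈ e'.getLast?, ¬ Att G D a) := by
    intro e' he'
    obtain ⟨T1, T2, hTeq⟩ := List.append_of_mem he'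
    have hp2 : S.Perm (e :: e' :: (T1 ++ T2)) := by
      refine hperm.trans ?_
      rw [hTeq]
      exact List.Perm.cons _ List.perm_middle
    constructor
    · intro w hw hatt
      obtain ⟨q, hq1, hq2⟩ := hbr w hatt
      exact no_join hS hp2 hp (Or.inl hw) hDO (n := r + 1) (by omega) q hq1 hq2
    · intro w hw hatt
      obtain ⟨q, hq1, hq2⟩ := hbr w hatt
      exact no_join hS hp2 hp (Or.inr hw) hDO (n := r + 1) (by omega) q hq1 hq2
  have hkc := kc_full hS.sys.nodup hS.full
  rw [hc, ← hkc]
  have e1 : S.flatten.countP (fun y => decide (Att G D y)) =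
      e.countP (fun y => decide (Att G D y)) + T.flatten.countP (fun y => decide (Att G D y)) := by
    rw [hperm.flatten.countP_eq, List.flatten_cons, List.countP_append]
  have e2 : kc K S.flatten = kc K e + kc K T.flatten := by
    rw [kc, hperm.flatten.countP_eq, List.flatten_cons]
    exact kc_append _ _
  have e3 : S.flatten.length = e.length + T.flatten.length := by
    rw [hperm.flatten.length_eq, List.flatten_cons, List.length_append]
  have hT : ∀ e' ∈ T, e' ∈ S := fun e' he' => hperm.mem_iff.2 (List.mem_cons_of_mem _ he')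
  have h1 := sum_att (K := K) (Att G D) T (by
    intro e' he'
    exact (cons_count (Att G D) e' (hcons e' (hT e' he'))).2.2.2 (hends e' he').1 (hends e' he').2
      (hS.sys.piece e' (hT e' he')).ne) (fun e' he' => piece_len hS (hT e' he'))
  have h2 := (cons_count (Att G D) e (hcons e he)).1
  have h3 := piece_len hS he
  omega

end Vale.Agent.P048.L
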