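import Vale.Agent.P048.KT

namespace Vale.Agent.P048

open Finset

variable {V : Type*} [DecidableEq V]

omit [DecidableEq V] in
theorem pairwise_adj {G : SimpleGraph V} {S : Finset V}
    (h : ∀ x ∈ S, ∀ y ∈ S, x ≠ y → G.Adj x y) : S.toList.Pairwise G.Adj := by
  have h1 : S.toList.Pairwise (· ≠ ·) := S.nodup_toList
  apply h1.imp_of_mem
  intro a b ha hb hab
  exact h a (mem_toList.1 ha) b (mem_toList.1 hb) hab

omit [DecidableEq V] in
theorem clique_cyc {G : SimpleGraph V} {S : Finset V}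
    (h : ∀ x ∈ S, ∀ y ∈ S, x ≠ y → G.Adj x y) (h2 : 2 ≤ S.card) :
    Cyc G S.toList := by
  refine ⟨S.nodup_toList, (pairwise_adj h).isChain, ?_⟩
  intro a ha b hb
  have hn := S.nodup_toList
  have hl : S.toList.length = S.card := length_toList S
  have ham : a ∈ S := mem_toList.1 (List.mem_of_getLast? ha)
  have hbm : b ∈ S := mem_toList.1 (List.mem_of_mem_head? hb)
  apply h a ham b hbm
  rintro rfl
  rcases hS : S.toList with _ | ⟨x, _ | ⟨y, t⟩⟩
  · rw [hS] at hb; simp at hb
  · rw [hS] at hl; simp at hl; omega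
  · rw [hS] at hn ha hb
    simp only [List.head?_cons, Option.mem_def, Option.some.injEq] at hb
    subst hb
    rw [List.getLast?_cons_cons] at ha
    have := List.mem_of_getLast? ha
    rw [List.nodup_cons] at hn
    exact hn.1 this

theorem alpha_one {G : SimpleGraph V} {W : Finset V} (h : AlphaLe G W 1) :
    ∀ x ∈ W, ∀ y ∈ W, x ≠ y → G.Adj x y := by
  intro x hx y hy hxy
  by_contra hcon
  have h1 := h {x, y} (by
    intro z hz
    rw [mem_insert, mem_singleton] at hz
    rcases hz with rfl | rfl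
    · exact hx
    · exact hy) (by
    intro u hu v hv
    rw [mem_insert, mem_singleton] at hu hv
    rcases hu with rfl | rfl
    · rcases hv with rfl | rfl
      · exact G.loopless.irrefl _
      · exact hcon
    · rcases hv with rfl | rfl
      · exact fun h => hcon h.symm
      · exact G.loopless.irrefl _)
  rw [card_pair hxy] at h1
  omega

omit [DecidableEq V] in
theorem exists_ind_of_not_alphaLe {G : SimpleGraph V} {W : Finset V} {a : ℕ}
    (h : ¬ AlphaLe G W a) : ∃ I, I ⊆ W ∧ Ind G I ∧ I.card = a + 1 := by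
  unfold AlphaLe at h
  push Not at h
  obtain ⟨s, h1, h2, h3⟩ := h
  obtain ⟨I, hI, hIc⟩ := exists_subset_card_eq (show a + 1 ≤ s.card by omega)
  exact ⟨I, hI.trans h1, h2.mono hI, hIc⟩

theorem exists_alpha {G : SimpleGraph V} (A : Finset V) :
    ∃ I, I ⊆ A ∧ Ind G I ∧ AlphaLe G A I.card := by
  classical
  obtain ⟨I, hI, hmax⟩ := exists_max_image (A.powerset.filter (fun s => Ind G s)) card
    ⟨∅, by
      rw [mem_filter, mem_powerset]
      exact ⟨empty_subset _, fun x hx => absurd hx (notMem_empty x)⟩⟩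
  rw [mem_filter, mem_powerset] at hI
  refine ⟨I, hI.1, hI.2, ?_⟩
  intro s hs hi
  exact hmax s (by rw [mem_filter, mem_powerset]; exact ⟨hs, hi⟩)

theorem alpha_split {G : SimpleGraph V} {W A B : Finset V} {b : ℕ} (hW : AlphaLe G W b)
    (hA : A ⊆ W) (hB : B ⊆ W) (hAne : A.Nonempty) (hBne : B.Nonempty) (hd : Disjoint A B)
    (hn : ∀ x ∈ A, ∀ y ∈ B, ¬ G.Adj x y) :
    ∃ c d, 1 ≤ c ∧ 1 ≤ d ∧ c + d = b ∧ AlphaLe G A c ∧ AlphaLe G B d := by
  obtain ⟨I, hI1, hI2, hI3⟩ := exists_alpha (G := G) A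
  obtain ⟨J, hJ1, hJ2, hJ3⟩ := exists_alpha (G := G) B
  have hIJ : (I ∪ J).card ≤ b := by
    apply hW _ (union_subset (hI1.trans hA) (hJ1.trans hB))
    intro x hx y hy
    rw [mem_union] at hx hy
    rcases hx with hx | hx
    · rcases hy with hy | hy
      · exact hI2 x hx y hy
      · exact hn x (hI1 hx) y (hJ1 hy)
    · rcases hy with hy | hy
      · exact fun h => hn y (hI1 hy) x (hJ1 hx) h.symm
      · exact hJ2 x hx y hy
  rw [card_union_of_disjoint (disjoint_of_subset_left hI1 (disjoint_of_subset_right hJ1 hd))]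
    at hIJ
  have hsing : ∀ x : V, Ind G {x} := by
    intro x u hu v hv
    rw [mem_singleton] at hu hv
    rw [hu, hv]; exact G.loopless.irrefl _
  obtain ⟨x, hx⟩ := hAne
  obtain ⟨y, hy⟩ := hBne
  have hI0 := hI3 {x} (singleton_subset_iff.2 hx) (hsing x)
  have hJ0 := hJ3 {y} (singleton_subset_iff.2 hy) (hsing y)
  rw [card_singleton] at hI0 hJ0
  exact ⟨I.card, b - I.card, hI0, by omega, by omega, hI3, hJ3.mono (Subset.refl _) (by omega)⟩

end Vale.Agent.P048
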