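import Vale.Agent.P048.Path
import Vale.Agent.P048.Clique

namespace Vale.Agent.P048.L

open Finset

variable {V : Type*} [DecidableEq V]

open Classical in
noncomputable def ball (G : SimpleGraph V) (D : Finset V) (x0 : V) : ℕ → Finset V
  | 0 => {x0}
  | r + 1 => ball G D x0 r ∪ D.filter (Att G (ball G D x0 r))

theorem ball_subset {G : SimpleGraph V} {D : Finset V} {x0 : V} (hx : x0 ∈ D) :
    ∀ r, ball G D x0 r ⊆ D
  | 0 => singleton_subset_iff.2 hx
  | r + 1 => by
    classical
    exact union_subset (ball_subset hx r) (filter_subset _ _)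

theorem ball_subset_succ {G : SimpleGraph V} {D : Finset V} {x0 : V} (r : ℕ) :
    ball G D x0 r ⊆ ball G D x0 (r + 1) := by
  classical
  exact subset_union_left

theorem ball_mono {G : SimpleGraph V} {D : Finset V} {x0 : V} {r r' : ℕ} (h : r ≤ r') :
    ball G D x0 r ⊆ ball G D x0 r' := by
  induction h with
  | refl => exact Subset.refl _
  | step _ ih => exact ih.trans (ball_subset_succ _)

theorem mem_ball_succ {G : SimpleGraph V} {D : Finset V} {x0 : V} {r : ℕ} {y : V} (hy : y ∈ D)
    (h : Att G (ball G D x0 r) y) : y ∈ ball G D x0 (r + 1) := by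
  classical
  show y ∈ ball G D x0 r ∪ D.filter (Att G (ball G D x0 r))
  rw [mem_union, mem_filter]
  exact Or.inr ⟨hy, h⟩

theorem ball_chain {G : SimpleGraph V} {D : Finset V} {x0 : V} : ∀ (r : ℕ) (x : V),
    x ∈ ball G D x0 r → ∃ q : List V, q.IsChain G.Adj ∧ (∀ y ∈ q, y ∈ ball G D x0 r) ∧
      q.head? = some x0 ∧ q.getLast? = some x ∧ q.length ≤ r + 1
  | 0, x, hx => by
    have hx' : x = x0 := mem_singleton.1 hx
    subst hx'
    exact ⟨[x], by simp, by
      intro y hy
      rw [List.mem_singleton] at hy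
      rw [hy]; exact hx, rfl, rfl, by simp⟩
  | r + 1, x, hx => by
    classical
    have hx' : x ∈ ball G D x0 r ∪ D.filter (Att G (ball G D x0 r)) := hx
    rw [mem_union, mem_filter] at hx'
    rcases hx' with h | ⟨hxD, y, hy, hadj⟩
    · obtain ⟨q, h1, h2, h3, h4, h5⟩ := ball_chain r x h
      exact ⟨q, h1, fun y hy => ball_subset_succ r (h2 y hy), h3, h4, by omega⟩
    · obtain ⟨q, h1, h2, h3, h4, h5⟩ := ball_chain r y hy
      refine ⟨q ++ [x], ?_, ?_, ?_, ?_, ?_⟩
      · rw [List.isChain_append]
        refine ⟨h1, by simp, ?_⟩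
        intro a ha c hc
        rw [h4] at ha
        simp only [Option.mem_def, Option.some.injEq, List.head?_cons] at ha hc
        rw [← ha, ← hc]
        exact hadj.symm
      · intro z hz
        rw [List.mem_append, List.mem_singleton] at hz
        rcases hz with hz | rfl
        · exact ball_subset_succ r (h2 z hz)
        · exact hx
      · rw [List.head?_append, h3]; rfl
      · simp
      · rw [List.length_append]
        simp only [List.length_cons, List.length_nil]
        omega

theorem bridge_nodup {G : SimpleGraph V} {O : Finset V} {u u' : V} {n : ℕ}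
    (h : ∃ q, Bridge G O u u' q ∧ q.length ≤ n) :
    ∃ q, Bridge G O u u' q ∧ q.Nodup ∧ q.length ≤ n := by
  obtain ⟨q0, hq0, hn⟩ := h
  obtain ⟨q, hq, hmin⟩ := exists_min_bridge ⟨q0, hq0⟩
  refine ⟨q, hq, ?_, (hmin q0 hq0).trans hn⟩
  rw [List.nodup_iff_getElem?_ne_getElem?]
  intro i j hij hj heq
  rw [List.getElem?_eq_getElem (by omega), List.getElem?_eq_getElem hj, Option.some.injEq] at heq
  have hs := split_two q hij hj
  rw [heq] at hs
  have hq' := hq
  rw [hs] at hq'
  have := hmin _ (bridge_loop hq')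
  simp only [List.length_append, List.length_cons, List.length_take, List.length_drop] at this
  omega

theorem ball_bridge {G : SimpleGraph V} {D : Finset V} {x0 : V} {r : ℕ} {u u' : V}
    (hu : Att G (ball G D x0 r) u) (hu' : Att G (ball G D x0 r) u') :
    ∃ q, Bridge G (ball G D x0 r) u u' q ∧ q.Nodup ∧ q.length ≤ 2 * r + 1 := by
  apply bridge_nodup
  obtain ⟨x, hx, hux⟩ := hu
  obtain ⟨y, hy, huy⟩ := hu'
  obtain ⟨p, p1, p2, p3, p4, p5⟩ := ball_chain r x hx
  obtain ⟨q, q1, q2, q3, q4, q5⟩ := ball_chain r y hy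
  obtain ⟨c, q', rfl⟩ : ∃ c q', q = c :: q' := by
    rcases q with _ | ⟨c, q'⟩
    · simp at q3
    · exact ⟨c, q', rfl⟩
  have hc : c = x0 := by simpa using q3
  subst hc
  refine ⟨p.reverse ++ q', ⟨?_, ?_, ?_, ?_, ?_⟩, ?_⟩
  · intro h0
    rw [List.append_eq_nil_iff, List.reverse_eq_nil_iff] at h0
    rw [h0.1] at p3
    simp at p3
  · rw [List.isChain_append]
    rw [List.isChain_cons] at q1
    refine ⟨chain_symm p1, q1.2, ?_⟩
    intro a ha b hb
    rw [List.getLast?_reverse, p3] at ha
    simp only [Option.mem_def, Option.some.injEq] at ha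
    rw [← ha]
    exact q1.1 b hb
  · intro z hz
    rw [List.mem_append, List.mem_reverse] at hz
    rcases hz with hz | hz
    · exact p2 z hz
    · exact q2 z (by simp [hz])
  · intro z hz
    rw [List.head?_append, List.head?_reverse, p4] at hz
    simp only [Option.some_or, Option.mem_def, Option.some.injEq] at hz
    rw [← hz]
    exact hux
  · intro z hz
    rw [List.getLast?_append, List.getLast?_reverse, p3] at hz
    rw [← List.singleton_append, List.getLast?_append] at q4
    have e : (q'.getLast?.or (some c)) = some y := by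
      simpa using q4
    rw [e] at hz
    simp only [Option.mem_def, Option.some.injEq] at hz
    rw [← hz]
    exact huy.symm
  · rw [List.length_append, List.length_reverse]
    simp only [List.length_cons] at q5
    omega

theorem ball_closed {G : SimpleGraph V} {D : Finset V} {x0 : V} (hx : x0 ∈ D) (hconn : Conn G D)
    {r : ℕ} (h : ball G D x0 (r + 1) = ball G D x0 r) : ball G D x0 r = D := by
  apply hconn _ (ball_subset hx r)
  · exact ⟨x0, ball_mono (Nat.zero_le r) (mem_singleton_self x0)⟩
  · intro x hx' y hy hxy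
    rw [← h]
    exact mem_ball_succ hy ⟨x, hx', hxy.symm⟩

theorem ball_stable {G : SimpleGraph V} {D : Finset V} {x0 : V} (hx : x0 ∈ D) {r r' : ℕ}
    (hrr : r ≤ r') (h : ball G D x0 r = D) : ball G D x0 r' = D := by
  apply Subset.antisymm (ball_subset hx r')
  have h1 := ball_mono (G := G) (D := D) (x0 := x0) hrr
  rwa [h] at h1

theorem ball_alpha {G : SimpleGraph V} {D : Finset V} {x0 : V} (hx : x0 ∈ D)
    (hconn : Conn G D) : ∀ j : ℕ, ball G D x0 (2 * j) = D ∨
      ∃ I, I ⊆ ball G D x0 (2 * j) ∧ Ind G I ∧ I.card = j + 1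
  | 0 => by
    right
    refine ⟨{x0}, Subset.refl _, ?_, card_singleton _⟩
    intro u hu v hv
    rw [mem_singleton] at hu hv
    rw [hu, hv]; exact G.loopless.irrefl _
  | j + 1 => by
    by_cases h1 : ball G D x0 (2 * j + 1) = D
    · exact Or.inl (ball_stable hx (by omega) h1)
    rcases ball_alpha hx hconn j with h | ⟨I, hI1, hI2, hI3⟩
    · exact Or.inl (ball_stable hx (by omega) h)
    right
    have hne : ball G D x0 (2 * j + 1 + 1) ≠ ball G D x0 (2 * j + 1) :=
      fun h => h1 (ball_closed hx hconn h)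
    obtain ⟨y, hy, hy'⟩ : ∃ y ∈ ball G D x0 (2 * j + 1 + 1), y ∉ ball G D x0 (2 * j + 1) := by
      by_contra hcon
      push Not at hcon
      exact hne (Subset.antisymm (fun y hy => hcon y hy) (ball_subset_succ _))
    have hyD := ball_subset hx _ hy
    refine ⟨insert y I, ?_, ?_, ?_⟩
    · apply insert_subset
      · exact hy
      · exact hI1.trans (ball_mono (by omega))
    · apply ind_insert hI2
      intro z hz hadj
      exact hy' (mem_ball_succ hyD ⟨z, hI1 hz, hadj⟩)
    · rw [card_insert_of_notMem, hI3]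
      intro hyI
      exact hy' (ball_subset_succ _ (hI1 hyI))

end Vale.Agent.P048.L
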