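import Mathlib.Data.List.Chain
import Mathlib.Data.Finset.Card
import Mathlib.Data.Fintype.Card
import Mathlib.Combinatorics.SimpleGraph.Basic
import Mathlib.Tactic

namespace Vale.Agent.P048

open Finset

variable {V : Type*} [DecidableEq V]

def Ind (G : SimpleGraph V) (s : Finset V) : Prop :=
  ∀ x ∈ s, ∀ y ∈ s, ¬ G.Adj x y

def AlphaLe (G : SimpleGraph V) (W : Finset V) (b : ℕ) : Prop :=
  ∀ s, s ⊆ W → Ind G s → s.card ≤ b

def Pth (G : SimpleGraph V) (l : List V) : Prop :=
  l.Nodup ∧ l.IsChain G.Adj

def Cyc (G : SimpleGraph V) (l : List V) : Prop :=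
  l.Nodup ∧ l.IsChain G.Adj ∧ ∀ a ∈ l.getLast?, ∀ b ∈ l.head?, G.Adj a b

def HasCyc (G : SimpleGraph V) (W : Finset V) (k : ℕ) : Prop :=
  ∃ l : List V, l.length = k ∧ Cyc G l ∧ ∀ x ∈ l, x ∈ W

omit [DecidableEq V] in
theorem Ind.mono {G : SimpleGraph V} {s t : Finset V} (h : Ind G t) (hst : s ⊆ t) : Ind G s :=
  fun x hx y hy => h x (hst hx) y (hst hy)

omit [DecidableEq V] in
theorem AlphaLe.mono {G : SimpleGraph V} {W W' : Finset V} {b b' : ℕ}
    (h : AlphaLe G W b) (hW : W' ⊆ W) (hb : b ≤ b') : AlphaLe G W' b' :=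
  fun s hs hi => (h s (hs.trans hW) hi).trans hb

theorem ind_insert {G : SimpleGraph V} {s : Finset V} {x : V} (h : Ind G s)
    (hx : ∀ y ∈ s, ¬ G.Adj x y) : Ind G (insert x s) := by
  intro u hu v hv
  rw [mem_insert] at hu hv
  rcases hu with rfl | hu
  · rcases hv with rfl | hv
    · exact G.loopless.irrefl _
    · exact hx v hv
  · rcases hv with rfl | hv
    · exact fun h' => hx u hu h'.symm
    · exact h u hu v hv

omit [DecidableEq V] in
theorem HasCyc.mono {G : SimpleGraph V} {W W' : Finset V} {k : ℕ} (h : HasCyc G W k)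
    (hW : W ⊆ W') : HasCyc G W' k := by
  obtain ⟨l, h1, h2, h3⟩ := h
  exact ⟨l, h1, h2, fun x hx => hW (h3 x hx)⟩

omit [DecidableEq V] in
theorem chain_symm {G : SimpleGraph V} {l : List V} (h : l.IsChain G.Adj) :
    l.reverse.IsChain G.Adj := by
  rw [List.isChain_reverse]
  exact h.imp (fun a b hab => hab.symm)

omit [DecidableEq V] in
theorem Pth.reverse {G : SimpleGraph V} {l : List V} (h : Pth G l) : Pth G l.reverse :=
  ⟨List.nodup_reverse.2 h.1, chain_symm h.2⟩

omit [DecidableEq V] in
theorem Cyc.rotate {G : SimpleGraph V} {A B : List V} (h : Cyc G (A ++ B)) : Cyc G (B ++ A) := by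
  obtain ⟨h1, h2, h3⟩ := h
  refine ⟨List.nodup_append_comm.1 h1, ?_, ?_⟩
  · rw [List.isChain_append] at h2 ⊢
    obtain ⟨hA, hB, hAB⟩ := h2
    refine ⟨hB, hA, ?_⟩
    intro x hx y hy
    apply h3 x _ y _
    · rw [List.getLast?_append]
      have : B.getLast? = some x := hx
      rw [this]; rfl
    · rw [List.head?_append]
      have : A.head? = some y := hy
      rw [this]; rfl
  · intro x hx y hy
    rw [List.isChain_append] at h2
    obtain ⟨hA, hB, hAB⟩ := h2
    rw [List.getLast?_append] at hx
    rw [List.head?_append] at hy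
    rcases A.eq_nil_or_concat with rfl | ⟨A', a, rfl⟩
    · simp only [List.getLast?_nil, Option.none_or, List.head?_nil, Option.or_none] at hx hy
      apply h3 x _ y _
      · simpa using hx
      · simpa using hy
    · rcases B with _ | ⟨b, B'⟩
      · simp only [List.getLast?_nil, Option.or_none, List.head?_nil, Option.none_or] at hx hy
        apply h3 x _ y _
        · simpa using hx
        · simpa using hy
      · apply hAB x _ y _
        · simpa using hx
        · simpa using hy

theorem path_of_alpha {G : SimpleGraph V} {b : ℕ} :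
    ∀ (k : ℕ) (X : Finset V), AlphaLe G X b → k * b + 1 ≤ X.card →
      ∃ l : List V, l.length = k + 1 ∧ Pth G l ∧ ∀ x ∈ l, x ∈ X := by
  classical
  intro k
  induction k with
  | zero =>
    intro X _ hc
    have : 0 < X.card := by omega
    obtain ⟨x, hx⟩ := card_pos.1 this
    refine ⟨[x], rfl, ⟨by simp, by simp⟩, ?_⟩
    intro y hy
    simp only [List.mem_singleton] at hy
    rw [hy]; exact hx
  | succ k ih =>
    intro X hX hc
    obtain ⟨I, hI, hmax⟩ := exists_max_image (X.powerset.filter (fun s => Ind G s)) card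
      ⟨∅, by
        rw [mem_filter, mem_powerset]
        exact ⟨empty_subset _, fun x hx => absurd hx (notMem_empty x)⟩⟩
    rw [mem_filter, mem_powerset] at hI
    have hIb : I.card ≤ b := hX I hI.1 hI.2
    have hXI : k * b + 1 ≤ (X \ I).card := by
      have h1 : (X \ I).card = X.card - I.card := card_sdiff_of_subset hI.1
      rw [h1]
      have : (k + 1) * b = k * b + b := by ring
      omega
    obtain ⟨l, hl1, hl2, hl3⟩ := ih (X \ I) (hX.mono sdiff_subset le_rfl) hXI
    rcases l with _ | ⟨h, t⟩
    · simp at hl1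
    · have hh := hl3 h (by simp)
      rw [mem_sdiff] at hh
      have : ∃ i ∈ I, G.Adj h i := by
        by_contra hcon
        push Not at hcon
        have hins : insert h I ∈ X.powerset.filter (fun s => Ind G s) := by
          rw [mem_filter, mem_powerset]
          exact ⟨insert_subset hh.1 hI.1, ind_insert hI.2 hcon⟩
        have := hmax _ hins
        rw [card_insert_of_notMem hh.2] at this
        omega
      obtain ⟨i, hi, hadj⟩ := this
      refine ⟨i :: h :: t, by simp only [List.length_cons] at hl1 ⊢; omega, ⟨?_, ?_⟩, ?_⟩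
      · rw [List.nodup_cons]
        refine ⟨?_, hl2.1⟩
        intro hmem
        have := hl3 i hmem
        rw [mem_sdiff] at this
        exact this.2 hi
      · rw [List.isChain_cons_cons]
        exact ⟨hadj.symm, hl2.2⟩
      · intro x hx
        rw [List.mem_cons] at hx
        rcases hx with rfl | hx
        · exact hI.1 hi
        · have := hl3 x hx
          rw [mem_sdiff] at this
          exact this.1

end Vale.Agent.P048
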