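import Vale.Agent.P048.Link

namespace Vale.Agent.P048.L

open Finset

variable {V : Type*} [DecidableEq V]

def IsClq (G : SimpleGraph V) (K : Finset V) : Prop := ∀ x ∈ K, ∀ y ∈ K, x ≠ y → G.Adj x y

/-- The situation of a minimal counterexample `W`. -/
structure Env (G : SimpleGraph V) (W : Finset V) (a m t : ℕ) (T : ℕ → ℕ) : Prop where
  hW : AlphaLe G W a
  hcard : (m - 1) * a + 1 ≤ W.card
  hmin : ∀ c, c < a → ∀ W', W' ⊆ W → AlphaLe G W' c → W'.card ≤ (m - 1) * c
  hno : ¬ HasCyc G W m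
  hbig : ∀ K, K ⊆ W → IsClq G K → 6 * K.card < 5 * m
  hcl : ∀ c, 1 ≤ c → c ≤ a → ∀ Y, Y ⊆ W → AlphaLe G Y c → T c ≤ Y.card →
    ∃ K, K ⊆ Y ∧ K.card = t ∧ IsClq G K
  ht : 2 ≤ t
  hmt : m ≤ 2 * t

def GrowOK (m t : ℕ) (T : ℕ → ℕ) (x r1 s : ℕ) : Prop :=
  ∀ f : ℕ → ℕ, 1 ≤ f 0 → 2 ≤ f 1 → (∀ r, f r ≤ f (r + 1)) →
    (∀ r, r < r1 → (m - 1) * f r + 2 ≤ x + t + T (f (r + 1))) → s < f r1

variable {G : SimpleGraph V} {W : Finset V} {a m t : ℕ} {T : ℕ → ℕ}

theorem ball_sub {D D' : Finset V} {x0 x : V} {r : ℕ} (hD : D' ⊆ D) (hx : x ∈ ball G D x0 r) :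
    ∀ s, ball G D' x s ⊆ ball G D x0 (r + s)
  | 0 => singleton_subset_iff.2 hx
  | s + 1 => by
    classical
    have ih := ball_sub hD hx s
    intro y hy
    have hy' : y ∈ ball G D' x s ∪ D'.filter (Att G (ball G D' x s)) := hy
    rw [mem_union, mem_filter] at hy'
    rcases hy' with h | ⟨h, z, hz, hyz⟩
    · exact ball_subset_succ _ (ih h)
    · exact mem_ball_succ (hD h) ⟨z, ih hz, hyz⟩

theorem self_mem_ball {D : Finset V} {x : V} (r : ℕ) : x ∈ ball G D x r :=
  ball_mono (Nat.zero_le r) (mem_singleton_self x)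

theorem nbhd_card (E : Env G W a m t T) {F : Finset V} {u : V} {r : ℕ} (hu : u ∈ W \ F)
    {J : Finset V} (hJ : J ⊆ ball G (W \ F) u r) (hJi : Ind G J) (hJ1 : 1 ≤ J.card) :
    (m - 1) * J.card + 1 ≤ (ball G (W \ F) u (r + 1)).card + F.card := by
  set Y := W \ (ball G (W \ F) u (r + 1) ∪ F) with hY
  have hJW : J ⊆ W := hJ.trans ((ball_subset hu r).trans sdiff_subset)
  have hYn : ∀ y ∈ Y, ∀ x ∈ ball G (W \ F) u r, ¬ G.Adj y x := by
    intro y hy x hx hadj
    rw [hY, mem_sdiff, mem_union] at hy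
    exact hy.2 (Or.inl (mem_ball_succ (mem_sdiff.2 ⟨hy.1, fun h => hy.2 (Or.inr h)⟩)
      ⟨x, hx, hadj⟩))
  have hJa := E.hW J hJW hJi
  have hYa : AlphaLe G Y (a - J.card) := by
    intro S hS hSi
    have hd : Disjoint S J := by
      rw [disjoint_left]
      intro x hxS hxJ
      have := hS hxS
      rw [hY, mem_sdiff, mem_union] at this
      exact this.2 (Or.inl (ball_subset_succ r (hJ hxJ)))
    have hi : Ind G (S ∪ J) := by
      intro x hx y hy
      rw [mem_union] at hx hy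
      rcases hx with hx | hx
      · rcases hy with hy | hy
        · exact hSi x hx y hy
        · exact hYn x (hS hx) y (hJ hy)
      · rcases hy with hy | hy
        · exact fun h => hYn y (hS hy) x (hJ hx) h.symm
        · exact hJi x hx y hy
    have h1 := E.hW (S ∪ J) (union_subset (hS.trans sdiff_subset) hJW) hi
    rw [card_union_of_disjoint hd] at h1
    omega
  have hYc := E.hmin (a - J.card) (by omega) Y sdiff_subset hYa
  have h2 : W.card ≤ (ball G (W \ F) u (r + 1) ∪ F).card + Y.card := by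
    have h3 : W ⊆ Y ∪ (ball G (W \ F) u (r + 1) ∪ F) := by
      intro w hw
      rw [mem_union, hY, mem_sdiff]
      by_cases h : w ∈ ball G (W \ F) u (r + 1) ∪ F
      · exact Or.inr h
      · exact Or.inl ⟨hw, h⟩
    have h4 := (card_le_card h3).trans (card_union_le _ _)
    omega
  have h5 := card_union_le (ball G (W \ F) u (r + 1)) F
  have h6 := E.hcard
  obtain ⟨k, hk⟩ := Nat.exists_eq_add_of_le hJa
  rw [hk, Nat.add_sub_cancel_left] at hYc
  rw [hk] at h6
  have e : (m - 1) * (J.card + k) = (m - 1) * J.card + (m - 1) * k := by ring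
  omega

theorem near_clique (E : Env G W a m t T) {F Q : Finset V} {u : V} {r1 s : ℕ} (hu : u ∈ W \ F)
    (hF : 6 * F.card ≤ m) (hQ : Q.card ≤ t) (hα : AlphaLe G (ball G (W \ F) u r1) s)
    (hg : GrowOK m t T F.card r1 s) :
    ∃ K, K ⊆ ball G (W \ F) u r1 \ Q ∧ K.card = t ∧ IsClq G K := by
  classical
  have hex := fun r => exists_alpha (G := G) (ball G (W \ F) u r)
  choose I hI1 hI2 hI3 using hex
  have hballW : ∀ r, ball G (W \ F) u r ⊆ W := fun r => (ball_subset hu r).trans sdiff_subset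
  have hone : ∀ r, 1 ≤ (I r).card := by
    intro r
    have := hI3 r {u} (singleton_subset_iff.2 (self_mem_ball r)) (by
        intro u hu v hv
        rw [mem_singleton] at hu hv
        rw [hu, hv]; exact G.loopless.irrefl _)
    rwa [card_singleton] at this
  by_contra hcon
  have hlt : s < (I r1).card := by
    apply hg (fun r => (I r).card) (hone 0)
    · by_contra h2
      push Not at h2
      have h3 : IsClq G (ball G (W \ F) u 1) := alpha_one ((hI3 1).mono (Subset.refl _) (by omega))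
      have h4 := E.hbig _ (hballW 1) h3
      have h5 := nbhd_card E (r := 0) hu (hI1 0) (hI2 0) (hone 0)
      rw [Nat.zero_add] at h5
      have h6 : (m - 1) * 1 ≤ (m - 1) * (I 0).card := Nat.mul_le_mul_left _ (hone 0)
      have h7 := E.hmt
      omega
    · intro r
      exact hI3 (r + 1) (I r) ((hI1 r).trans (ball_subset_succ r)) (hI2 r)
    · intro r hr
      show (m - 1) * (I r).card + 2 ≤ F.card + t + T (I (r + 1)).card
      have h1 := nbhd_card E hu (hI1 r) (hI2 r) (hone r)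
      have h2 : (ball G (W \ F) u (r + 1) \ Q).card < T (I (r + 1)).card := by
        by_contra h3
        push Not at h3
        obtain ⟨K, hK1, hK2, hK3⟩ := E.hcl (I (r + 1)).card (hone _)
          (E.hW _ ((hI1 _).trans (hballW _)) (hI2 _)) _ (sdiff_subset.trans (hballW _))
          ((hI3 (r + 1)).mono sdiff_subset le_rfl) h3
        exact hcon ⟨K, hK1.trans (sdiff_subset_sdiff (ball_mono (by omega)) (Subset.refl _)),
          hK2, hK3⟩
      have h3 : (ball G (W \ F) u (r + 1)).card ≤ (ball G (W \ F) u (r + 1) \ Q).card + Q.card := by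
        have h4 : ball G (W \ F) u (r + 1) ⊆ (ball G (W \ F) u (r + 1) \ Q) ∪ Q := by
          intro x hx
          rw [mem_union, mem_sdiff]
          tauto
        exact (card_le_card h4).trans (card_union_le _ _)
      omega
  have := hα (I r1) (hI1 r1) (hI2 r1)
  omega

/-- no vertex of `X` equals or is adjacent to a vertex of `Y` -/
def Far (G : SimpleGraph V) (X Y : Finset V) : Prop := ∀ x ∈ X, ∀ y ∈ Y, x ≠ y ∧ ¬ G.Adj x y

theorem Far.split {X Y : Finset V} (h : Far G X Y) {U : Finset V} {c s : ℕ} (hX : X ⊆ U)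
    (hY : Y ⊆ U) (hU : AlphaLe G U c) (hc : c ≤ 2 * s + 1) : AlphaLe G X s ∨ AlphaLe G Y s := by
  by_contra hcon
  push Not at hcon
  obtain ⟨h1, h2⟩ := hcon
  simp only [AlphaLe, not_forall] at h1 h2
  obtain ⟨I, hI1, hI2, hI3⟩ := h1
  obtain ⟨J, hJ1, hJ2, hJ3⟩ := h2
  have hd : Disjoint I J := by
    rw [disjoint_left]
    intro x hx hx'
    exact (h x (hI1 hx) x (hJ1 hx')).1 rfl
  have hi : Ind G (I ∪ J) := by
    intro x hx y hy
    rw [mem_union] at hx hy
    rcases hx with hx | hx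
    · rcases hy with hy | hy
      · exact hI2 x hx y hy
      · exact (h x (hI1 hx) y (hJ1 hy)).2
    · rcases hy with hy | hy
      · exact fun h' => (h y (hI1 hy) x (hJ1 hx)).2 h'.symm
      · exact hJ2 x hx y hy
  have := hU (I ∪ J) (union_subset (hI1.trans hX) (hJ1.trans hY)) hi
  rw [card_union_of_disjoint hd] at this
  omega

theorem touch_chain {D A B : Finset V} {u1 u2 : V} {ρ : ℕ} (hu1 : u1 ∈ D) (hu2 : u2 ∈ D)
    (hA : u1 ∈ A) (hB : u2 ∈ B) (h : ¬ Far G (ball G D u1 ρ) (ball G D u2 ρ)) :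
    ∃ q, Chn G D A B q ∧ q.length ≤ 2 * ρ + 2 := by
  simp only [Far, not_forall] at h
  obtain ⟨x, hx, y, hy, hxy⟩ := h
  obtain ⟨p, p1, p2, p3, p4, p5⟩ := ball_chain ρ x hx
  obtain ⟨q, q1, q2, q3, q4, q5⟩ := ball_chain ρ y hy
  by_cases hxy' : x = y
  · subst hxy'
    obtain ⟨q', rfl⟩ : ∃ q', q = q' ++ [x] := by
      rcases q.eq_nil_or_concat with rfl | ⟨q', b, rfl⟩
      · simp at q4
      · rw [List.concat_eq_append, List.getLast?_append] at q4
        simp only [List.getLast?_singleton, Option.some_or, Option.some.injEq] at q4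
        exact ⟨q', by rw [List.concat_eq_append, q4]⟩
    refine ⟨p ++ q'.reverse, ⟨?_, ?_, ⟨u1, hA, ?_⟩, ⟨u2, hB, ?_⟩⟩, ?_⟩
    · rw [List.isChain_append]
      rw [List.isChain_append] at q1
      refine ⟨p1, chain_symm q1.1, ?_⟩
      intro a ha b hb
      rw [p4] at ha
      rw [List.head?_reverse] at hb
      simp only [Option.mem_def, Option.some.injEq] at ha
      rw [← ha]
      exact (q1.2.2 b hb x (by simp)).symm
    · intro z hz
      rw [List.mem_append, List.mem_reverse] at hz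
      rcases hz with hz | hz
      · exact ball_subset hu1 ρ (p2 z hz)
      · exact ball_subset hu2 ρ (q2 z (by simp [hz]))
    · rw [List.head?_append, p3]; rfl
    · rw [List.getLast?_append, List.getLast?_reverse]
      rw [List.head?_append] at q3
      rcases hq : q'.head? with _ | z
      · rw [hq] at q3
        simp only [List.head?_cons, Option.none_or, Option.some.injEq] at q3
        rw [p4, q3]; rfl
      · rw [hq] at q3
        simp only [Option.some_or, Option.some.injEq] at q3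
        rw [q3]; rfl
    · rw [List.length_append, List.length_singleton] at q5
      rw [List.length_append, List.length_reverse]
      omega
  · have hadj : G.Adj x y := by
      by_contra hn
      exact hxy ⟨hxy', hn⟩
    refine ⟨p ++ q.reverse, ⟨?_, ?_, ⟨u1, hA, ?_⟩, ⟨u2, hB, ?_⟩⟩, ?_⟩
    · rw [List.isChain_append]
      refine ⟨p1, chain_symm q1, ?_⟩
      intro a ha b hb
      rw [p4] at ha
      rw [List.head?_reverse, q4] at hb
      simp only [Option.mem_def, Option.some.injEq] at ha hb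
      rw [← ha, ← hb]
      exact hadj
    · intro z hz
      rw [List.mem_append, List.mem_reverse] at hz
      rcases hz with hz | hz
      · exact ball_subset hu1 ρ (p2 z hz)
      · exact ball_subset hu2 ρ (q2 z hz)
    · rw [List.head?_append, p3]; rfl
    · rw [List.getLast?_append, List.getLast?_reverse, q3]; rfl
    · rw [List.length_append, List.length_reverse]
      omega

theorem Chn.mono {O O' A B : Finset V} {q : List V} (h : Chn G O A B q) (hO : O ⊆ O') :
    Chn G O' A B q :=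
  ⟨h.1, fun x hx => hO (h.2.1 x hx), h.2.2.1, h.2.2.2⟩

theorem link_step (E : Env G W a m t T) {F K1 K2 : Finset V} {n1 ρ : ℕ} (hK1 : K1 ⊆ W \ F)
    (hK2 : K2 ⊆ W \ F) (hc1 : IsClq G K1) (hc2 : IsClq G K2) (ht1 : K1.card = t)
    (ht2 : K2.card = t) (hd : Disjoint K1 K2)
    (hpath : ∃ q, Chn G (W \ F) K1 K2 q ∧ q.length ≤ n1) (hlen : n1 + (2 * ρ + 2) ≤ m) :
    ∃ F' u1 u2, F ⊆ F' ∧ F'.card ≤ F.card + n1 ∧ u1 ∈ K1 ∧ u2 ∈ K2 ∧ u1 ∈ W \ F' ∧
      u2 ∈ W \ F' ∧ Far G (ball G (W \ F') u1 ρ) (ball G (W \ F') u2 ρ) := by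
  obtain ⟨P, hP, hPn, hPl, hPh, hPt⟩ := short_path hpath
  have ht := E.ht
  obtain ⟨p0, hp0, hp0'⟩ := hP.2.2.1
  obtain ⟨p1, hp1, hp1'⟩ := hP.2.2.2
  obtain ⟨u1, hu1⟩ : (K1.erase p0).Nonempty := by
    rw [← card_pos, card_erase_of_mem hp0]; omega
  obtain ⟨u2, hu2⟩ : (K2.erase p1).Nonempty := by
    rw [← card_pos, card_erase_of_mem hp1]; omega
  rw [mem_erase] at hu1 hu2
  have hu1P : u1 ∉ P := by
    intro h
    have := hPh u1 h hu1.2
    rw [hp0'] at this
    exact hu1.1 (Option.some.inj this).symm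
  have hu2P : u2 ∉ P := by
    intro h
    have := hPt u2 h hu2.2
    rw [hp1'] at this
    exact hu2.1 (Option.some.inj this).symm
  have m1 : u1 ∈ W \ (F ∪ P.toFinset) := by
    have := hK1 hu1.2
    rw [mem_sdiff] at this ⊢
    rw [mem_union, List.mem_toFinset]
    exact ⟨this.1, fun h => h.elim this.2 hu1P⟩
  have m2 : u2 ∈ W \ (F ∪ P.toFinset) := by
    have := hK2 hu2.2
    rw [mem_sdiff] at this ⊢
    rw [mem_union, List.mem_toFinset]
    exact ⟨this.1, fun h => h.elim this.2 hu2P⟩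
  refine ⟨F ∪ P.toFinset, u1, u2, subset_union_left, ?_, hu1.2, hu2.2, m1, m2, ?_⟩
  · have h1 := card_union_le F P.toFinset
    have h2 := List.toFinset_card_le P
    omega
  · by_contra hfar
    obtain ⟨P', hP', hPn', hPl', hPh', hPt'⟩ := short_path (touch_chain m1 m2 hu1.2 hu2.2 hfar)
    apply E.hno
    refine link_cycle (t := t) hc1 hc2 hd (hK1.trans sdiff_subset) (hK2.trans sdiff_subset) ht1.ge
      ht2.ge E.hmt E.ht (hP.mono sdiff_subset) hPn hPh hPt (hP'.mono sdiff_subset) hPn' hPh' hPt'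
      ?_ (by omega)
    intro x hx hx'
    have := hP'.2.1 x hx'
    rw [mem_sdiff, mem_union, List.mem_toFinset] at this
    exact this.2 (Or.inr hx)

theorem halve (E : Env G W a m t T) {R Φ r1 s : ℕ → ℕ} {K : ℕ} (hR0 : 1 ≤ R 0) (hs0 : s 0 ≤ 1)
    (hR : ∀ k, k < K → R k + 2 * r1 k ≤ R (k + 1))
    (hΦ : ∀ k, k < K → Φ k + (r1 k + 1) ≤ Φ (k + 1))
    (hs : ∀ k, k < K → s (k + 1) ≤ 2 * s k + 1)
    (hlen : ∀ k, k < K → (r1 k + 1) + (2 * R k + 2) ≤ m)
    (hg : ∀ k, k < K → ∀ x, 6 * x ≤ m → GrowOK m t T x (r1 k) (s (k + 1))) :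
    ∀ k, k ≤ K → ∀ (F : Finset V) (u : V), 6 * (F.card + Φ k) ≤ m → u ∈ W \ F →
      AlphaLe G (ball G (W \ F) u (R k)) (s k) → False := by
  intro k
  induction k with
  | zero =>
    intro _ F u hF hu hα
    have h1 : AlphaLe G (ball G (W \ F) u 1) 1 := hα.mono (ball_mono hR0) hs0
    have h2 := E.hbig _ ((ball_subset hu 1).trans sdiff_subset) (alpha_one h1)
    have h3 := nbhd_card E (r := 0) (J := {u}) hu (singleton_subset_iff.2 (self_mem_ball 0)) (by
        intro u hu v hv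
        rw [mem_singleton] at hu hv
        rw [hu, hv]; exact G.loopless.irrefl _) (by rw [card_singleton])
    rw [card_singleton, Nat.zero_add] at h3
    have h4 := E.hmt
    have h5 := E.ht
    omega
  | succ k ih =>
    intro hk F u hF hu hα
    have hRk := hR k (by omega)
    have hΦk := hΦ k (by omega)
    have ht := E.ht
    obtain ⟨K1, hK1, ht1, hc1⟩ := near_clique E (Q := ∅) hu (by omega) (by simp)
      (hα.mono (ball_mono (by omega)) le_rfl) (hg k (by omega) F.card (by omega))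
    rw [sdiff_empty] at hK1
    obtain ⟨v, hv⟩ : K1.Nonempty := by
      rw [← card_pos]; omega
    have hvD := ball_subset hu _ (hK1 hv)
    have hsub : ball G (W \ F) v (r1 k) ⊆ ball G (W \ F) u (r1 k + r1 k) :=
      ball_sub (Subset.refl _) (hK1 hv) _
    obtain ⟨K2, hK2, ht2, hc2⟩ := near_clique E (Q := K1) hvD (by omega) ht1.le
      (hα.mono (hsub.trans (ball_mono (by omega))) le_rfl) (hg k (by omega) F.card (by omega))
    obtain ⟨w, hw⟩ : K2.Nonempty := by
      rw [← card_pos]; omega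
    have hK2' : K2 ⊆ ball G (W \ F) v (r1 k) := hK2.trans sdiff_subset
    have hd : Disjoint K1 K2 := by
      rw [disjoint_left]
      intro x hx hx'
      exact (mem_sdiff.1 (hK2 hx')).2 hx
    obtain ⟨q, q1, q2, q3, q4, q5⟩ := ball_chain _ w (hK2' hw)
    obtain ⟨F', u1, u2, hFF', hF'c, hu1, hu2, hu1', hu2', hfar⟩ := link_step E (ρ := R k)
      (n1 := r1 k + 1) (hK1.trans (ball_subset hu _)) (hK2'.trans (ball_subset hvD _)) hc1 hc2 ht1
      ht2 hd ⟨q, ⟨q1, fun x hx => ball_subset hvD _ (q2 x hx), ⟨v, hv, q3⟩, ⟨w, hw, q4⟩⟩, q5⟩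
      (hlen k (by omega))
    have hX1 : ball G (W \ F') u1 (R k) ⊆ ball G (W \ F) u (R (k + 1)) :=
      (ball_sub (sdiff_subset_sdiff (Subset.refl _) hFF') (hK1 hu1) _).trans
        (ball_mono (by omega))
    have hX2 : ball G (W \ F') u2 (R k) ⊆ ball G (W \ F) u (R (k + 1)) :=
      (ball_sub (sdiff_subset_sdiff (Subset.refl _) hFF') (hsub (hK2' hu2)) _).trans
        (ball_mono (by omega))
    rcases hfar.split hX1 hX2 hα (hs k (by omega)) with h | h
    · exact ih (by omega) F' u1 (by omega) hu1' h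
    · exact ih (by omega) F' u2 (by omega) hu2' h

theorem top (E : Env G W a m t T) {R Φ r1 s : ℕ → ℕ} {K rt : ℕ} (ha : 1 ≤ a) (hR0 : 1 ≤ R 0)
    (hs0 : s 0 ≤ 1)
    (hR : ∀ k, k < K → R k + 2 * r1 k ≤ R (k + 1))
    (hΦ : ∀ k, k < K → Φ k + (r1 k + 1) ≤ Φ (k + 1))
    (hs : ∀ k, k < K → s (k + 1) ≤ 2 * s k + 1)
    (hlen : ∀ k, k < K → (r1 k + 1) + (2 * R k + 2) ≤ m)
    (hg : ∀ k, k < K → ∀ x, 6 * x ≤ m → GrowOK m t T x (r1 k) (s (k + 1)))
    (hsa : a ≤ 2 * s K + 1) (hgt : GrowOK m t T 0 rt (s K))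
    (hlent : (2 * rt + 2) + (2 * R K + 2) ≤ m) (hΦt : 6 * (2 * rt + 2 + Φ K) ≤ m)
    (hTa : T a + t ≤ (m - 1) * a + 1) : False := by
  have ht := E.ht
  have hWe : W \ ∅ = W := sdiff_empty
  obtain ⟨K1, hK1, ht1, hc1⟩ := E.hcl a ha le_rfl W (Subset.refl _) E.hW (by
    have := E.hcard
    omega)
  obtain ⟨K2, hK2, ht2, hc2⟩ := E.hcl a ha le_rfl (W \ K1) sdiff_subset
    (E.hW.mono sdiff_subset le_rfl) (by
      rw [card_sdiff_of_subset hK1]
      have := E.hcard
      omega)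
  obtain ⟨u1, hu1⟩ : K1.Nonempty := by rw [← card_pos]; omega
  obtain ⟨u2, hu2⟩ : K2.Nonempty := by rw [← card_pos]; omega
  have hu1W : u1 ∈ W \ (∅ : Finset V) := by rw [hWe]; exact hK1 hu1
  have hu2W : u2 ∈ W \ (∅ : Finset V) := by rw [hWe]; exact (mem_sdiff.1 (hK2 hu2)).1
  have hd : Disjoint K1 K2 := by
    rw [disjoint_left]
    intro x hx hx'
    exact (mem_sdiff.1 (hK2 hx')).2 hx
  -- a close pair
  have near : ∀ (L : Finset V) (v : V), L ⊆ W → L.card = t → IsClq G L → v ∈ L →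
      AlphaLe G (ball G (W \ ∅) v rt) (s K) → ∃ L1 L2 : Finset V, L1 ⊆ W \ ∅ ∧ L2 ⊆ W \ ∅ ∧
        IsClq G L1 ∧ IsClq G L2 ∧ L1.card = t ∧ L2.card = t ∧ Disjoint L1 L2 ∧
        ∃ q, Chn G (W \ ∅) L1 L2 q ∧ q.length ≤ 2 * rt + 2 := by
    intro L v hL hLt hLc hv hα
    have hvW : v ∈ W \ (∅ : Finset V) := by rw [hWe]; exact hL hv
    obtain ⟨K', hK', ht', hc'⟩ := near_clique E (Q := L) hvW (by simp) hLt.le hα
      (by rw [card_empty]; exact hgt)
    obtain ⟨w, hw⟩ : K'.Nonempty := by rw [← card_pos]; omega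
    have hK'' : K' ⊆ ball G (W \ ∅) v rt := hK'.trans sdiff_subset
    obtain ⟨q, q1, q2, q3, q4, q5⟩ := ball_chain _ w (hK'' hw)
    refine ⟨L, K', by rw [hWe]; exact hL, hK''.trans (ball_subset hvW _), hLc, hc', hLt, ht', ?_,
      q, ⟨q1, fun x hx => ball_subset hvW _ (q2 x hx), ⟨v, hv, q3⟩, ⟨w, hw, q4⟩⟩, by omega⟩
    rw [disjoint_left]
    intro x hx hx'
    exact (mem_sdiff.1 (hK' hx')).2 hx
  obtain ⟨L1, L2, hL1, hL2, hLc1, hLc2, hLt1, hLt2, hLd, hLq⟩ : ∃ L1 L2 : Finset V,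
      L1 ⊆ W \ ∅ ∧ L2 ⊆ W \ ∅ ∧ IsClq G L1 ∧ IsClq G L2 ∧ L1.card = t ∧ L2.card = t ∧
      Disjoint L1 L2 ∧ ∃ q, Chn G (W \ ∅) L1 L2 q ∧ q.length ≤ 2 * rt + 2 := by
    by_cases hfar : Far G (ball G (W \ ∅) u1 rt) (ball G (W \ ∅) u2 rt)
    · rcases hfar.split ((ball_subset hu1W _).trans sdiff_subset)
        ((ball_subset hu2W _).trans sdiff_subset) E.hW hsa with h | h
      · exact near K1 u1 hK1 ht1 hc1 hu1 h
      · exact near K2 u2 (hK2.trans sdiff_subset) ht2 hc2 hu2 h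
    · exact ⟨K1, K2, by rw [hWe]; exact hK1, by rw [hWe]; exact hK2.trans sdiff_subset, hc1, hc2,
        ht1, ht2, hd, touch_chain hu1W hu2W hu1 hu2 hfar⟩
  obtain ⟨F', v1, v2, _, hF'c, _, _, hv1', hv2', hfar⟩ := link_step E (ρ := R K)
    (n1 := 2 * rt + 2) hL1 hL2 hLc1 hLc2 hLt1 hLt2 hLd hLq hlent
  rw [card_empty] at hF'c
  have hH := halve E hR0 hs0 hR hΦ hs hlen hg K le_rfl
  rcases hfar.split ((ball_subset hv1' _).trans sdiff_subset)
    ((ball_subset hv2' _).trans sdiff_subset) E.hW hsa with h | h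
  · exact hH F' v1 (by omega) hv1' h
  · exact hH F' v2 (by omega) hv2' h

end Vale.Agent.P048.L
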