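import Vale.Agent.P048.Closed
import Vale.Agent.P048.Halve

namespace Vale.Agent.P048.L

open Finset

variable {V : Type*} [DecidableEq V] {G : SimpleGraph V} {W K : Finset V} {a m g : ℕ}

theorem ind_singleton (x : V) : Ind G ({x} : Finset V) := by
  intro u hu v hv
  rw [mem_singleton] at hu hv
  rw [hu, hv]; exact G.loopless.irrefl _

/-- many pairwise far sets with large independent sets -/
theorem far_sum {ι : Type*} {U : Finset V} {c : ℕ} : ∀ (L : List ι) (D I : ι → Finset V),
    L.Pairwise (fun i j => Far G (D i) (D j)) → (∀ i ∈ L, I i ⊆ D i ∧ D i ⊆ U ∧ Ind G (I i) ∧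
      c ≤ (I i).card) → ∃ J, J ⊆ U ∧ Ind G J ∧ L.length * c ≤ J.card ∧
      ∀ y ∈ J, ∃ i ∈ L, y ∈ I i
  | [], _, _, _, _ => ⟨∅, empty_subset _, fun x hx => absurd hx (notMem_empty x), by simp,
      fun x hx => absurd hx (notMem_empty x)⟩
  | i :: L, D, I, hp, h => by
    rw [List.pairwise_cons] at hp
    obtain ⟨J, hJ1, hJ2, hJ3, hJ4⟩ := far_sum L D I hp.2 (fun i hi => h i (List.mem_cons_of_mem _ hi))
    obtain ⟨h1, h2, h3, h4⟩ := h i (List.mem_cons_self)
    have hfar : ∀ x ∈ I i, ∀ y ∈ J, x ≠ y ∧ ¬ G.Adj x y := by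
      intro x hx y hy
      obtain ⟨j, hj, hyj⟩ := hJ4 y hy
      exact hp.1 j hj x (h1 hx) y ((h j (List.mem_cons_of_mem _ hj)).1 hyj)
    refine ⟨I i ∪ J, union_subset (h1.trans h2) hJ1, ?_, ?_, ?_⟩
    · intro x hx y hy
      rw [mem_union] at hx hy
      rcases hx with hx | hx
      · rcases hy with hy | hy
        · exact h3 x hx y hy
        · exact (hfar x hx y hy).2
      · rcases hy with hy | hy
        · exact fun h' => (hfar y hy x hx).2 h'.symm
        · exact hJ2 x hx y hy
    · have hd : Disjoint (I i) J := by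
        rw [disjoint_left]
        intro x hx hx'
        exact (hfar x hx x hx').1 rfl
      rw [card_union_of_disjoint hd, List.length_cons]
      have e : (L.length + 1) * c = L.length * c + c := by ring
      omega
    · intro y hy
      rw [mem_union] at hy
      rcases hy with hy | hy
      · exact ⟨i, List.mem_cons_self, hy⟩
      · obtain ⟨j, hj, hyj⟩ := hJ4 y hy
        exact ⟨j, List.mem_cons_of_mem _ hj, hyj⟩

/-- A clique on `m - g` vertices with `2 g + 2 ≤ m` is impossible in a minimal counterexample. -/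
theorem big_clique' (E : Env0 G W a m) (ha : 1 ≤ a) (hK : IsClq G K) (hKW : K ⊆ W)
    (hm : K.card + g = m) (hg1 : 1 ≤ g) (hkg : g + 2 ≤ K.card) {T : ℕ → ℕ} {ρ : ℕ}
    (hT : ∀ c, 1 ≤ c → c ≤ a → ∀ Y, Y ⊆ W → AlphaLe G Y c → Y.card < T c)
    (hρ : 2 * ρ + 3 ≤ K.card)
    (hnum : ∀ σ, σ + 1 ≤ g → ∀ f : ℕ → ℕ, 1 ≤ f 0 → 2 ≤ f 2 → (∀ r, f r ≤ f (r + 1)) →
      (∀ r, r < ρ → (m - 1) * f r + 1 ≤ σ + T (f (r + 1))) → a < (K.card - σ) * f ρ) : False := by
  classical
  obtain ⟨S, hS⟩ := exists_max hKW hK hkg hg1 hm E.hno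
  have hkc := kc_full hS.sys.nodup hS.full
  have hkle := kc_le (K := K) S.flatten
  have hlt := hS.lt
  have hsum := (sum_count (o := 0) (K := K) (G := G) (W := W) (S := S) (fun e he =>
    ⟨hS.sys.piece e he, by have := piece_len hS he; omega⟩)).1
  obtain ⟨σ, hσ⟩ : ∃ σ, S.flatten.length = K.card + σ := ⟨S.flatten.length - K.card, by omega⟩
  have hSl : K.card - σ ≤ S.length := by omega
  -- the outside neighbours
  have hout : ∀ e : List V, ∃ x, e ∈ S → x ∈ W \ Zs S ∧ ∃ p ∈ e.head?, G.Adj p x := by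
    intro e
    by_cases he : e ∈ S
    · have hp := hS.sys.piece e he
      obtain ⟨p, hpe⟩ : ∃ p, p ∈ e.head? := by
        rcases e with _ | ⟨p, e'⟩
        · exact absurd rfl hp.ne
        · exact ⟨p, rfl⟩
      have hpm : p ∈ e := List.mem_of_mem_head? hpe
      have hpf : p ∈ S.flatten := by
        rw [List.mem_flatten]
        exact ⟨e, he, hpm⟩
      obtain ⟨x, hx, hpx⟩ := exists_out E ha (by omega) hS hpf (hp.mem p hpm)
      exact ⟨x, fun _ => ⟨hx, p, hpe, hpx⟩⟩
    · obtain ⟨x, _⟩ : K.Nonempty := by rw [← card_pos]; omega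
      exact ⟨x, fun h => absurd h he⟩
  choose X hX using hout
  have hex := fun (e : List V) (r : ℕ) => exists_alpha (G := G) (ball G (W \ Zs S) (X e) r)
  choose I hI1 hI2 hI3 using hex
  have hone : ∀ e r, 1 ≤ (I e r).card := by
    intro e r
    have := hI3 e r {X e} (singleton_subset_iff.2 (self_mem_ball r)) (ind_singleton _)
    rwa [card_singleton] at this
  have hbW : ∀ e ∈ S, ∀ r, ball G (W \ Zs S) (X e) r ⊆ W \ Zs S := fun e he r =>
    ball_subset (hX e he).1 r
  have hgrow : ∀ e ∈ S, ∀ r, 2 * r + 2 ≤ K.card →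
      (m - 1) * (I e r).card + 1 ≤ (ball G (W \ Zs S) (X e) (r + 1)).card + (σ + 1) := by
    intro e he r hr
    obtain ⟨hx, p, hpe, hpx⟩ := hX e he
    have h1 := nbhd_att E hx (hI1 e r) (hI2 e r) (hone e r)
    have h2 := att_le hS he hpe hx hpx hr rfl
    omega
  have hbig : ∀ e ∈ S, a < (K.card - σ) * (I e ρ).card := by
    intro e he
    obtain ⟨hx, p, hpe, hpx⟩ := hX e he
    apply hnum σ (by omega) (fun r => (I e r).card) (hone e 0)
    · -- the clique component
      show 2 ≤ (I e 2).card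
      by_contra hcon
      push Not at hcon
      have hcl : IsClq G (ball G (W \ Zs S) (X e) 2) :=
        alpha_one ((hI3 e 2).mono (Subset.refl _) (by omega))
      have h1 := hgrow e he 0 (by omega)
      have h2 := hone e 0
      have h3 : (m - 1) * 1 ≤ (m - 1) * (I e 0).card := Nat.mul_le_mul_left _ h2
      rw [Nat.zero_add] at h1
      refine closed_clique E hK hKW hkg hg1 hm hS (hbW e he 1)
        (fun x hx y hy hxy => hcl x (ball_mono (by omega) hx) y (ball_mono (by omega) hy) hxy)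
        ?_ (by omega)
      intro y hy z hz hyz
      have hz2 : z ∈ ball G (W \ Zs S) (X e) 2 := mem_ball_succ hz ⟨y, hy, hyz.symm⟩
      by_cases hzX : z = X e
      · rw [hzX]
        exact self_mem_ball 1
      · exact mem_ball_succ hz ⟨X e, self_mem_ball 0, hcl z hz2 (X e) (self_mem_ball 2) hzX⟩
    · intro r
      exact hI3 e (r + 1) (I e r) ((hI1 e r).trans (ball_subset_succ r)) (hI2 e r)
    · intro r hr
      show (m - 1) * (I e r).card + 1 ≤ σ + T (I e (r + 1)).card
      have h1 := hgrow e he r (by omega)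
      have h2 := hT (I e (r + 1)).card (hone e _) (E.hW _ ((hI1 e _).trans
        ((hbW e he _).trans sdiff_subset)) (hI2 e _)) _ ((hbW e he (r + 1)).trans sdiff_subset)
        (hI3 e (r + 1))
      omega
  -- pairwise far
  have hSn : S.Nodup := by
    have hfn := hS.sys.nodup
    rw [List.nodup_flatten] at hfn
    refine List.Pairwise.imp_of_mem ?_ hfn.2
    rintro e e' he he' hd rfl
    have hp := hS.sys.piece e he
    obtain ⟨p, hpe⟩ : ∃ p, p ∈ e := by
      rcases e with _ | ⟨p, e'⟩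
      · exact absurd rfl hp.ne
      · exact ⟨p, by simp⟩
    exact hd hpe hpe
  have hfar : S.Pairwise (fun e e' => Far G (ball G (W \ Zs S) (X e) ρ)
      (ball G (W \ Zs S) (X e') ρ)) := by
    refine List.Pairwise.imp_of_mem ?_ hSn
    intro e e' he he' hne
    by_contra hnf
    obtain ⟨hx, p, hpe, hpx⟩ := hX e he
    obtain ⟨hx', p', hpe', hpx'⟩ := hX e' he'
    obtain ⟨q, hq, hql⟩ := touch_chain (A := {X e}) (B := {X e'}) hx hx' (mem_singleton_self _)
      (mem_singleton_self _) hnf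
    obtain ⟨S1, S2, hSeq⟩ := List.append_of_mem he
    have hp1 : S.Perm (e :: (S1 ++ S2)) := by rw [hSeq]; exact List.perm_middle
    have he2' : e' ∈ S1 ++ S2 := by
      have := hp1.mem_iff.1 he'
      rw [List.mem_cons] at this
      exact this.resolve_left (fun h => hne h.symm)
    obtain ⟨T1, T2, hTeq⟩ := List.append_of_mem he2'
    have hp2 : S.Perm (e :: e' :: (T1 ++ T2)) := by
      refine hp1.trans ?_
      rw [hTeq]
      exact List.Perm.cons _ List.perm_middle
    refine no_join hS hp2 hpe (Or.inl hpe') (Subset.refl (W \ Zs S)) (n := 2 * ρ + 2) (by omega) q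
      ⟨?_, hq.1, hq.2.1, ?_, ?_⟩ hql
    · rintro rfl
      obtain ⟨_, _, _, h⟩ := hq
      simp at h
    · intro h hh
      obtain ⟨z, hz, hzq⟩ := hq.2.2.1
      rw [mem_singleton] at hz
      rw [hzq] at hh
      rw [← Option.some.inj hh, hz]
      exact hpx
    · intro h hh
      obtain ⟨z, hz, hzq⟩ := hq.2.2.2
      rw [mem_singleton] at hz
      rw [hzq] at hh
      rw [← Option.some.inj hh, hz]
      exact hpx'.symm
  -- conclusion
  obtain ⟨e0, he0⟩ : ∃ e0, e0 ∈ S := by
    rcases hS0 : S with _ | ⟨e0, S'⟩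
    · rw [hS0] at hσ
      simp at hσ
      omega
    · exact ⟨e0, by simp⟩
  have hkσ : 1 ≤ K.card - σ := by omega
  obtain ⟨J, hJ1, hJ2, hJ3, _⟩ := far_sum (U := W) (c := a / (K.card - σ) + 1) S _
    (fun e => I e ρ) hfar (by
      intro e he
      refine ⟨hI1 e ρ, (hbW e he ρ).trans sdiff_subset, hI2 e ρ, ?_⟩
      have := hbig e he
      rw [Nat.mul_comm] at this
      exact (Nat.div_lt_iff_lt_mul (by omega)).2 this)
  have h1 := E.hW J hJ1 hJ2
  have h2 : (K.card - σ) * (a / (K.card - σ) + 1) ≤ S.length * (a / (K.card - σ) + 1) :=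
    Nat.mul_le_mul_right _ hSl
  have h3 : a < (K.card - σ) * (a / (K.card - σ) + 1) := Nat.lt_mul_div_succ a (by omega)
  omega

end Vale.Agent.P048.L
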