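import Vale.Agent.P048.Grow3

namespace Vale.Agent.P048.L

open Finset

variable {V : Type*} [DecidableEq V] {G : SimpleGraph V} {O W K : Finset V} {a m g : ℕ}

theorem grown_one {B : Finset V} {y : V} (hy : y ∈ O) {J : Finset V} (hJ : J ⊆ O) (hJB : J ⊆ B)
    (hJi : Ind G J) (hadj : ∀ w ∈ J, G.Adj w y) : Grown G O B 1 J.card (1 + J.card) := by
  classical
  have T0 : Tree G O 0 (fun _ => {y}) (fun w => w) := by
    refine ⟨?_, ?_, ?_, ?_⟩
    · intro u hu v hv
      rw [mem_singleton] at hu hv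
      rw [hu, hv]
    · intro i _
      exact singleton_subset_iff.2 hy
    · intro i hi
      omega
    · intro i j hi hj _ _ _
      omega
  obtain ⟨Lev, par, T, e1, e2⟩ := T0.ext (X := J) (by
    intro w hw
    rw [mem_sdiff, mem_cn, mem_tv]
    refine ⟨⟨hJ hw, Or.inr ⟨y, mem_singleton_self y, hadj w hw⟩⟩, ?_⟩
    rintro ⟨i, _, hi⟩
    rw [mem_singleton] at hi
    have := hadj w hw
    rw [hi] at this
    exact G.loopless.irrefl _ this)
  refine ⟨Lev, par, T, ?_, ?_, ?_, ?_⟩
  · rw [e1]; exact hJi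
  · rw [e1]
  · rw [e2]
    have h1 := card_union_le (tv 0 (fun _ => ({y} : Finset V))) J
    have h2 : tv 0 (fun _ => ({y} : Finset V)) = {y} := by
      ext z
      rw [mem_tv]
      constructor
      · rintro ⟨i, _, hy⟩; exact hy
      · intro hy; exact ⟨0, le_rfl, hy⟩
    rw [h2, card_singleton] at h1
    rw [h2]
    exact h1
  · rw [e1]; exact hJB

/-- in a closed ball growth, two independent neighbours appear at distance at most two -/
theorem start_two {x : V} (hx : x ∈ O)
    (hcl : ¬ (IsClq G (ball G O x 1) ∧ ∀ u ∈ ball G O x 1, ∀ v ∈ O, G.Adj u v → v ∈ ball G O x 1)) :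
    ∃ y ∈ ball G O x 1, ∃ J, J ⊆ O ∧ J ⊆ ball G O x 2 ∧ Ind G J ∧ J.card = 2 ∧
      ∀ w ∈ J, G.Adj w y := by
  classical
  have hpair : ∀ y p q, y ∈ ball G O x 1 → p ∈ O → q ∈ O → p ≠ q → ¬ G.Adj p q → G.Adj p y →
      G.Adj q y → ∃ y ∈ ball G O x 1, ∃ J, J ⊆ O ∧ J ⊆ ball G O x 2 ∧ Ind G J ∧ J.card = 2 ∧
      ∀ w ∈ J, G.Adj w y := by
    intro y p q hy hp hq hne hnadj hpy hqy
    refine ⟨y, hy, {p, q}, ?_, ?_, ?_, card_pair hne, ?_⟩
    · intro z hz
      rw [mem_insert, mem_singleton] at hz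
      rcases hz with rfl | rfl
      · exact hp
      · exact hq
    · intro z hz
      rw [mem_insert, mem_singleton] at hz
      rcases hz with rfl | rfl
      · exact mem_ball_succ hp ⟨y, hy, hpy⟩
      · exact mem_ball_succ hq ⟨y, hy, hqy⟩
    · intro u hu v hv
      rw [mem_insert, mem_singleton] at hu hv
      rcases hu with rfl | rfl <;> rcases hv with rfl | rfl
      · exact G.loopless.irrefl _
      · exact hnadj
      · exact fun h => hnadj h.symm
      · exact G.loopless.irrefl _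
    · intro z hz
      rw [mem_insert, mem_singleton] at hz
      rcases hz with rfl | rfl
      · exact hpy
      · exact hqy
  have hb1 : ∀ u ∈ ball G O x 1, u = x ∨ (u ∈ O ∧ G.Adj u x) := by
    intro u hu
    have hu' : u ∈ ball G O x 0 ∪ O.filter (Att G (ball G O x 0)) := hu
    rw [mem_union, mem_filter] at hu'
    rcases hu' with h | ⟨h, z, hz, huz⟩
    · exact Or.inl (mem_singleton.1 h)
    · rw [show ball G O x 0 = {x} from rfl, mem_singleton] at hz
      rw [hz] at huz
      exact Or.inr ⟨h, huz⟩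
  by_cases hc : IsClq G (ball G O x 1)
  · have h2 : ¬ ∀ u ∈ ball G O x 1, ∀ v ∈ O, G.Adj u v → v ∈ ball G O x 1 := fun h => hcl ⟨hc, h⟩
    push Not at h2
    obtain ⟨u, hu, v, hv, huv, hvb⟩ := h2
    have hvx : ¬ G.Adj v x := by
      intro h
      exact hvb (mem_ball_succ hv ⟨x, self_mem_ball 0, h⟩)
    have hvnx : v ≠ x := by
      rintro rfl
      exact hvb (self_mem_ball 1)
    have hux : u ≠ x := by
      rintro rfl
      exact hvx huv.symm
    exact hpair u v x hu hv hx hvnx hvx huv.symm (hc x (self_mem_ball 1) u hu (Ne.symm hux))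
  · unfold IsClq at hc
    push Not at hc
    obtain ⟨p, hp, q, hq, hpq, hnadj⟩ := hc
    rcases hb1 p hp with rfl | ⟨hpO, hpx⟩
    · rcases hb1 q hq with rfl | ⟨_, hqx⟩
      · exact absurd rfl hpq
      · exact absurd hqx.symm hnadj
    · rcases hb1 q hq with rfl | ⟨hqO, hqx⟩
      · exact absurd hpx hnadj
      · exact hpair x p q (self_mem_ball 1) hpO hqO hpq hnadj hpx hqx

/-- A clique on `m - g` vertices with `2 g + 2 ≤ m` is impossible in a minimal counterexample. -/
theorem big3 (E : Env0 G W a m) (ha : 1 ≤ a) (hK : IsClq G K) (hKW : K ⊆ W)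
    (hm : K.card + g = m) (hg1 : 1 ≤ g) (hkg : g + 2 ≤ K.card) {A H : ℕ} (haA : a ≤ A)
    (hR : ∀ O', O' ⊆ W → ∀ h Lev par, 2 * h < m → Tree G O' h Lev par → Bdd G K.card (Lev h))
    (hH : 2 * H + 5 ≤ K.card) (hH1 : 1 ≤ H)
    (hchk : grw (m - 1) K.card g (fun _ j => Nat.ble (A + 1) ((2 * K.card + 1 - m) * j))
      (H - 1) 1 2 3 = true) : False := by
  classical
  obtain ⟨S, hS⟩ := exists_max hKW hK hkg hg1 hm E.hno
  have hkc := kc_full hS.sys.nodup hS.full
  have hkle := kc_le (K := K) S.flatten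
  have hlt := hS.lt
  have hsum := (sum_count (o := 0) (K := K) (G := G) (W := W) (S := S) (fun e he =>
    ⟨hS.sys.piece e he, by have := piece_len hS he; omega⟩)).1
  obtain ⟨σ, hσ⟩ : ∃ σ, S.flatten.length = K.card + σ := ⟨S.flatten.length - K.card, by omega⟩
  have hSl : K.card - σ ≤ S.length := by omega
  -- the outside neighbours
  have hout : ∀ e : List V, ∃ x, e ∈ S → x ∈ W \ Zs S ∧ ∃ p ∈ e.head?, G.Adj p x := by
    intro e
    by_cases he : e ∈ S
    · have hp := hS.sys.piece e he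
      obtain ⟨p, hpe⟩ : ∃ p, p ∈ e.head? := by
        rcases e with _ | ⟨p, e'⟩
        · exact absurd rfl hp.ne
        · exact ⟨p, rfl⟩
      have hpm : p ∈ e := List.mem_of_mem_head? hpe
      have hpf : p ∈ S.flatten := by
        rw [List.mem_flatten]
        exact ⟨e, he, hpm⟩
      obtain ⟨x, hx, hpx⟩ := exists_out E ha (by omega) hS hpf (hp.mem p hpm)
      exact ⟨x, fun _ => ⟨hx, p, hpe, hpx⟩⟩
    · obtain ⟨x, _⟩ : K.Nonempty := by rw [← card_pos]; omega
      exact ⟨x, fun h => absurd h he⟩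
  choose X hX using hout
  have hbW : ∀ e ∈ S, ∀ r, ball G (W \ Zs S) (X e) r ⊆ W \ Zs S := fun e he r =>
    ball_subset (hX e he).1 r
  have hbig : ∀ e, ∃ I, e ∈ S → I ⊆ ball G (W \ Zs S) (X e) (H + 1) ∧ Ind G I ∧
      A < (2 * K.card + 1 - m) * I.card := by
    intro e
    by_cases he : e ∈ S
    swap
    · exact ⟨∅, fun h => absurd h he⟩
    obtain ⟨hx, p, hpe, hpx⟩ := hX e he
    obtain ⟨y, hy, J, hJ1, hJ2, hJ3, hJ4, hJ5⟩ := start_two hx (by
      rintro ⟨hcl, hcl2⟩
      have h1 := nbhd_att E (r := 0) hx (J := {X e}) (singleton_subset_iff.2 (self_mem_ball 0))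
        (ind_singleton _) (by rw [card_singleton])
      have h2 := att_le hS he hpe hx hpx (r := 0) (by omega) rfl
      rw [card_singleton, Nat.zero_add] at h1
      exact closed_clique E hK hKW hkg hg1 hm hS (hbW e he 1) hcl hcl2 (by omega))
    have hG1 := grown_one (O := W \ Zs S) (B := ball G (W \ Zs S) (X e) 2) (hbW e he 1 hy) hJ1
      hJ2 hJ3 hJ5
    rw [hJ4] at hG1
    obtain ⟨h', j', s', h1, _, h3, Lev, par, T, hI, hc, _, hB⟩ :=
      grw_sound (O := W \ Zs S) (B := fun h => ball G (W \ Zs S) (X e) (h + 1)) (k := K.card)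
        (τ := g) (m := m) (by omega) (H := H)
        (fun h w hw z hz hwz => mem_ball_succ hz ⟨w, hw, hwz.symm⟩)
        (by
          intro h hh J hJb hJO hJi hJ1
          have h5 := exp_main E (F := Zs S) (J := J) hJO hJi hJ1
          have h6 := att_le hS he hpe hx hpx (r := h + 1) (by omega) rfl
          have h7 : ((Zs S).filter (Att G J)).card ≤
              ((Zs S).filter (Att G (ball G (W \ Zs S) (X e) (h + 1)))).card := by
            apply card_le_card
            intro z hz
            rw [mem_filter] at hz ⊢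
            obtain ⟨hz1, w, hw, hzw⟩ := hz
            exact ⟨hz1, w, hJb hw, hzw⟩
          omega)
        (fun h hh Lev par T => hR _ sdiff_subset (h + 1) Lev par (by omega) T)
        (H - 1) 1 2 3 (by omega) (by omega) hchk hG1
    refine ⟨Lev h', fun _ => ⟨hB.trans (ball_mono (by omega)), hI, ?_⟩⟩
    rw [Nat.ble_eq] at h3
    rw [hc]
    exact h3
  choose I hI using hbig
  -- pairwise far
  have hSn : S.Nodup := by
    have hfn := hS.sys.nodup
    rw [List.nodup_flatten] at hfn
    refine List.Pairwise.imp_of_mem ?_ hfn.2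
    rintro e e' he he' hd rfl
    have hp := hS.sys.piece e he
    obtain ⟨p, hpe⟩ : ∃ p, p ∈ e := by
      rcases e with _ | ⟨p, e'⟩
      · exact absurd rfl hp.ne
      · exact ⟨p, by simp⟩
    exact hd hpe hpe
  have hfar : S.Pairwise (fun e e' => Far G (ball G (W \ Zs S) (X e) (H + 1))
      (ball G (W \ Zs S) (X e') (H + 1))) := by
    refine List.Pairwise.imp_of_mem ?_ hSn
    intro e e' he he' hne
    by_contra hnf
    obtain ⟨hx, p, hpe, hpx⟩ := hX e he
    obtain ⟨hx', p', hpe', hpx'⟩ := hX e' he'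
    obtain ⟨q, hq, hql⟩ := touch_chain (A := {X e}) (B := {X e'}) hx hx' (mem_singleton_self _)
      (mem_singleton_self _) hnf
    obtain ⟨S1, S2, hSeq⟩ := List.append_of_mem he
    have hp1 : S.Perm (e :: (S1 ++ S2)) := by rw [hSeq]; exact List.perm_middle
    have he2' : e' ∈ S1 ++ S2 := by
      have := hp1.mem_iff.1 he'
      rw [List.mem_cons] at this
      exact this.resolve_left (fun h => hne h.symm)
    obtain ⟨T1, T2, hTeq⟩ := List.append_of_mem he2'
    have hp2 : S.Perm (e :: e' :: (T1 ++ T2)) := by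
      refine hp1.trans ?_
      rw [hTeq]
      exact List.Perm.cons _ List.perm_middle
    refine no_join hS hp2 hpe (Or.inl hpe') (Subset.refl (W \ Zs S)) (n := 2 * (H + 1) + 2)
      (by omega) q ⟨?_, hq.1, hq.2.1, ?_, ?_⟩ hql
    · rintro rfl
      obtain ⟨_, _, _, h⟩ := hq
      simp at h
    · intro h hh
      obtain ⟨z, hz, hzq⟩ := hq.2.2.1
      rw [mem_singleton] at hz
      rw [hzq] at hh
      rw [← Option.some.inj hh, hz]
      exact hpx
    · intro h hh
      obtain ⟨z, hz, hzq⟩ := hq.2.2.2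
      rw [mem_singleton] at hz
      rw [hzq] at hh
      rw [← Option.some.inj hh, hz]
      exact hpx'.symm
  -- conclusion
  have hkσ : 1 ≤ K.card - σ := by omega
  obtain ⟨J, hJ1, hJ2, hJ3, _⟩ := far_sum (U := W) (c := A / (K.card - σ) + 1) S _ I hfar (by
      intro e he
      obtain ⟨h1, h2, h3⟩ := hI e he
      refine ⟨h1, (hbW e he _).trans sdiff_subset, h2, ?_⟩
      have h4 : (2 * K.card + 1 - m) * (I e).card ≤ (K.card - σ) * (I e).card :=
        Nat.mul_le_mul_right _ (by omega)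
      have h5 : A < (I e).card * (K.card - σ) := by
        rw [Nat.mul_comm]
        omega
      exact (Nat.div_lt_iff_lt_mul (by omega)).2 h5)
  have h1 := E.hW J hJ1 hJ2
  have h2 : (K.card - σ) * (A / (K.card - σ) + 1) ≤ S.length * (A / (K.card - σ) + 1) :=
    Nat.mul_le_mul_right _ hSl
  have h3 : A < (K.card - σ) * (A / (K.card - σ) + 1) := Nat.lt_mul_div_succ A (by omega)
  omega

end Vale.Agent.P048.L
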