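import Vale.Agent.P048.Stage

namespace Vale.Agent.P048

open Finset

variable {V : Type*} [DecidableEq V]

noncomputable def runGB (N t b c bb v : ℕ) (n : ℕ) : ℕ → ℕ → ℕ → Bool :=
  Nat.rec (fun _ _ _ => false)
    (fun _ ih r p x => cond (Nat.beq r (Nat.div v 2))
      (Nat.ble (Nat.succ bb) (cond (Nat.beq (Nat.mod v 2) 1) (Nat.add x x) (Nat.add p x)))
      (ih (Nat.succ r) x (nxtR N t b
        (Nat.add (Nat.mod (Nat.shiftRight N (Nat.mul 20 (Nat.sub b x))) 1048576) c)
        (Nat.add (Nat.add (Nat.mod (Nat.shiftRight N (Nat.mul 20 b)) 1048576) 2)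
          (Nat.succ (Nat.div (Nat.sub v r) 2))) p x))) n

noncomputable def runHB (N t b z bb u : ℕ) (n : ℕ) : ℕ → ℕ → ℕ → Bool :=
  Nat.rec (fun _ _ _ => false)
    (fun _ ih r p x => cond (Nat.ble (Nat.succ bb) (Nat.add p x))
      (Nat.ble (Nat.add (Nat.add r r) z) (Nat.succ u))
      (cond (Nat.ble (Nat.succ bb) (Nat.add x x)) (Nat.ble (Nat.add (Nat.add r r) z) u)
      (ih (Nat.succ r) x (nxtR N t b
        (Nat.add (Nat.mod (Nat.shiftRight N (Nat.mul 20 (Nat.sub b x))) 1048576) z)
        (Nat.add (Nat.mod (Nat.shiftRight N (Nat.mul 20 b)) 1048576) 3) p x)))) n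

theorem runGB_succ (N t b c bb v n r p x : ℕ) : runGB N t b c bb v (n + 1) r p x =
    cond (Nat.beq r (v / 2))
      (Nat.ble (bb + 1) (cond (Nat.beq (v % 2) 1) (x + x) (p + x)))
      (runGB N t b c bb v n (r + 1) x
        (nxt (dg N 20) t b (dg N 20 (b - x) + c) (dg N 20 b + 2 + ((v - r) / 2 + 1)) p x)) := by
  show cond _ _ (runGB N t b c bb v n _ _ _) = _
  rw [nxtR_eq]
  rfl

theorem runHB_succ (N t b z bb u n r p x : ℕ) : runHB N t b z bb u (n + 1) r p x =
    cond (Nat.ble (bb + 1) (p + x)) (Nat.ble (r + r + z) (u + 1))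
      (cond (Nat.ble (bb + 1) (x + x)) (Nat.ble (r + r + z) u)
      (runHB N t b z bb u n (r + 1) x
        (nxt (dg N 20) t b (dg N 20 (b - x) + z) (dg N 20 b + 3) p x))) := by
  show cond _ _ (cond _ _ (runHB N t b z bb u n _ _ _)) = _
  rw [nxtR_eq]
  rfl

theorem runGB_sound {N t b c bb v : ℕ} : ∀ (n r p x : ℕ),
    runGB N t b c bb v n r p x = true → r ≤ v / 2 →
    Inv (dg N 20) t b c (fun r => dg N 20 b + 2 + ((v - r) / 2 + 1)) r p x →
    ∃ p' x', Inv (dg N 20) t b c (fun r => dg N 20 b + 2 + ((v - r) / 2 + 1)) (v / 2) p' x' ∧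
      (v % 2 = 1 ∧ bb < x' + x' ∨ v % 2 ≠ 1 ∧ bb < p' + x')
  | 0, r, p, x => by
    intro h
    exact absurd h (by simp [runGB])
  | n + 1, r, p, x => by
    intro h hr hI
    rw [runGB_succ] at h
    rcases hc : Nat.beq r (v / 2) with _ | _
    · rw [hc, cond_false] at h
      have hne : r ≠ v / 2 := Nat.ne_of_beq_eq_false hc
      exact runGB_sound n _ _ _ h (by omega) (inv_step hI rfl rfl)
    · rw [hc, cond_true] at h
      have he : r = v / 2 := Nat.eq_of_beq_eq_true hc
      rw [he] at hI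
      refine ⟨p, x, hI, ?_⟩
      rw [Nat.ble_eq] at h
      rcases hd : Nat.beq (v % 2) 1 with _ | _
      · rw [hd, cond_false] at h
        exact Or.inr ⟨Nat.ne_of_beq_eq_false hd, h⟩
      · rw [hd, cond_true] at h
        exact Or.inl ⟨Nat.eq_of_beq_eq_true hd, h⟩

theorem runHB_sound {N t b z bb u : ℕ} (hb : 1 ≤ b) : ∀ (n r p x : ℕ),
    runHB N t b z bb u n r p x = true →
    Inv (dg N 20) t b z (fun _ => dg N 20 b + 3) r p x →
    ∃ r' p' x', Inv (dg N 20) t b z (fun _ => dg N 20 b + 3) r' p' x' ∧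
      (r' + r' + z ≤ u + 1 ∧ bb < p' + x' ∨ r' + r' + z ≤ u ∧ bb < x' + x')
  | 0, r, p, x => by
    intro h
    exact absurd h (by simp [runHB])
  | n + 1, r, p, x => by
    intro h hI
    rw [runHB_succ] at h
    rcases hc : Nat.ble (bb + 1) (p + x) with _ | _
    · rw [hc, cond_false] at h
      rcases hd : Nat.ble (bb + 1) (x + x) with _ | _
      · rw [hd, cond_false] at h
        exact runHB_sound hb n _ _ _ h (inv_step hI rfl rfl)
      · rw [hd, cond_true] at h
        rw [Nat.ble_eq] at h hd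
        exact ⟨r, p, x, hI, Or.inr ⟨h, hd⟩⟩
    · rw [hc, cond_true] at h
      rw [Nat.ble_eq] at h hc
      exact ⟨r, p, x, hI, Or.inl ⟨h, hc⟩⟩

noncomputable def chkBl (N t2 mlo mhi b1 b2 v x0 z : ℕ) : Bool :=
  and (Nat.ble 1 v) (and (Nat.ble 1 z) (and (Nat.ble z mlo) (and (Nat.ble 1 x0)
  (and (Nat.ble x0 b1) (and (Nat.ble b1 b2)
  (and (or (and (Nat.beq x0 b1) (Nat.beq b1 b2))
    (and (Nat.ble (x0 + 1) b1)
    (and (Nat.ble (dg N 20 x0 + dg N 20 (b1 - x0) + (b2 + z)) (dg N 20 b1 + x0 + 2))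
      (Nat.ble (dg N 20 (b1 - 1) + z) (dg N 20 b1 + 1)))))
  (and (Nat.ble (dg N 20 (b1 - 1) + z) (dg N 20 b1 + 3))
  (and (or (Nat.beq x0 1) (Nat.ble (dg N 20 (x0 - 1) * b1 + (mhi - 1) * (x0 - 1) + 1)
    (dg N 20 b1 * (x0 - 1) + b1)))
  (and (runGB N t2 b1 (b2 + z) b2 v (v + 1) 0 0 1)
  (runHB N t2 b1 z b2 (mlo + v) (b1 + 2) 0 0 1))))))))))

theorem Tab.diff {E : ℕ → ℕ} {A x b1 b : ℕ} (h : Tab E A) (hx : x < b1) (hb1 : b1 ≤ b)
    (hb : b ≤ A) : E (b - x) + E b1 ≤ E b + E (b1 - x) := by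
  induction hb1 with
  | refl => omega
  | @step b hb1 ih =>
    have hb1' : b1 ≤ b := hb1
    have h1 := ih (by omega)
    have h2 := h.dmono (x := b - x) (y := b) (by omega) (by omega) hb
    have h3 := h.mono b (by omega) (by omega)
    have h4 := h.mono (b - x) (by omega) (by omega)
    have e1 : b.succ - x = b - x + 1 := by omega
    have e2 : b.succ = b + 1 := rfl
    rw [e1, e2]
    omega

theorem numOK_of_chkBl {N A t2 t mlo mhi m b1 b2 b v x0 z : ℕ} {T : ℕ → ℕ}
    (hE : Tab (dg N 20) A) (hb2' : 2 ≤ b1) (hb1 : b1 ≤ b) (hb2 : b ≤ b2) (hbA : b2 ≤ A)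
    (ht2 : t ≤ t2) (hm0 : 1 ≤ m) (hm1 : mlo ≤ m) (hm2 : m ≤ mhi) (hmT : m ≤ T b)
    (hT : ∀ x, 1 ≤ x → x ≤ A → T x = t * x + dg N 20 x)
    (h : chkBl N t2 mlo mhi b1 b2 v x0 z = true) :
    (∃ g k : ℕ → ℕ, NumOK T m b z v x0 g k) ∧ 1 ≤ z := by
  unfold chkBl at h
  simp only [Bool.and_eq_true, Bool.or_eq_true, Nat.ble_eq, Nat.beq_eq] at h
  obtain ⟨h1, h2, h3, h4, h5, h0, h6, h7, h8, h9, h10⟩ := h
  generalize hEE : dg N 20 = E at *
  obtain ⟨pg, xg, ⟨g, hg1, hg2, hg3, hg4, hg5⟩, hgf⟩ :=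
    runGB_sound _ _ _ _ h9 (Nat.zero_le _) (inv_zero (by omega))
  obtain ⟨rh, ph, xh, ⟨k, hk1, hk2, hk3, hk4, hk5⟩, hkf⟩ :=
    runHB_sound (by omega) _ _ _ _ h10 (inv_zero (by omega))
  rw [hEE] at hg3 hk3
  have hTb : T b = t * b + E b := hT b (by omega) (by omega)
  have hK : E (b - 1) + E b1 ≤ E b + E (b1 - 1) := hE.diff (by omega) hb1 (by omega)
  refine ⟨⟨g, k, ⟨h1, h3.trans hm1, fun r => (hg1 r).2.trans hb1, fun r => (hk1 r).2.trans hb1,
    ?_, ?_, by omega, hg2.le, ?_, ?_, hk2.le, ?_, ?_, ?_⟩⟩, h2⟩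
  · intro x hx hxb
    have key : E x0 + E (b - x0) + (b + z) ≤ E b + x0 + 2 ∧
        E (b - 1) + (b + z) ≤ E b + b + 1 := by
      rcases h6 with ⟨h6a, h6b⟩ | ⟨h6a, h6b, h6c⟩
      · omega
      · have h11 := hE.diff (show x0 < b1 by omega) hb1 (by omega : b ≤ A)
        exact ⟨by omega, by omega⟩
    have := hE.n2 (by omega : b ≤ A) h4 key.1 key.2 hx hxb
    rw [hT x (by omega) (by omega), hT (b - x) (by omega) (by omega), hTb]
    have e : t * b = t * x + t * (b - x) := by
      rw [← Nat.mul_add]; congr 1; omega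
    rw [e]
    omega
  · intro x hx hxx
    have h8' := h8.resolve_left (by omega)
    obtain ⟨X, hX⟩ : ∃ X, x0 = X + 1 := ⟨x0 - 1, by omega⟩
    subst hX
    rw [Nat.add_sub_cancel] at h8'
    have hst := hE.star hx (show x ≤ X by omega) (by omega)
    have hTx : T x = t * x + E x := hT x hx (by omega)
    have h8b : E X * b + (mhi - 1) * X + 1 ≤ E b * X + b := by
      have h20 : ∀ d, b1 + d ≤ A → E X * (b1 + d) + (mhi - 1) * X + 1 ≤
          E (b1 + d) * X + (b1 + d) := by
        intro d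
        induction d with
        | zero => intro _; exact h8'
        | succ d ih =>
          intro hd
          have h21 := ih (by omega)
          have h22 := hE.le_mul (x := X) (y := b1 + d) (by omega) (by omega) (by omega)
          have h23 := hE.mono (b1 + d) (by omega) (by omega)
          obtain ⟨q, hq⟩ := Nat.exists_eq_add_of_le h23
          have e1 : b1 + (d + 1) = b1 + d + 1 := by ring
          rw [e1, hq]
          rw [hq, Nat.add_sub_cancel_left] at h22
          have e2 : E X * (b1 + d + 1) = E X * (b1 + d) + E X := by ring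
          have e3 : (E (b1 + d) + q) * X = E (b1 + d) * X + X * q := by ring
          rw [e2, e3]
          omega
      have h24 := h20 (b - b1) (by omega)
      have e : b1 + (b - b1) = b := by omega
      rw [e] at h24
      exact h24
    have h8m : E X * b + (m - 1) * X + 1 ≤ E b * X + b := by
      have : (m - 1) * X ≤ (mhi - 1) * X := Nat.mul_le_mul_right _ (by omega)
      omega
    obtain ⟨M, hM⟩ : ∃ M, m = M + 1 := ⟨m - 1, by omega⟩
    subst hM
    rw [Nat.add_sub_cancel] at h8m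
    have e1 : T b + 1 - (M + 1) = T b - M := by omega
    rw [e1]
    have hkey : E x * b + M * x + 1 ≤ E b * x + b := by
      zify at *
      have hX0 : (0 : ℤ) < X := by omega
      have hx0 : (1 : ℤ) ≤ x := by exact_mod_cast hx
      have hxX : (x : ℤ) ≤ X := by omega
      have hb0 : (0 : ℤ) ≤ b := by positivity
      have a1 : (E x : ℤ) * X * b ≤ E X * x * b := mul_le_mul_of_nonneg_right hst hb0
      have a2 : (x : ℤ) * (E X * b + M * X + 1) ≤ x * (E b * X + b) :=
        mul_le_mul_of_nonneg_left h8m (by linarith)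
      have a3 : (x : ℤ) * b ≤ X * b := mul_le_mul_of_nonneg_right hxX hb0
      have a4 : (X : ℤ) * (E x * b + M * x) < X * (E b * x + b) := by
        nlinarith
      have a5 := lt_of_mul_lt_mul_left a4 hX0.le
      linarith
    have hgoal : (T x - 1) * b + M * x < T b * x := by
      rw [hTb, hTx]
      rcases Nat.eq_zero_or_pos (t * x + E x) with h0 | h0
      · rw [h0]
        have ht0 : t * x = 0 := by omega
        have hex0 : E x = 0 := by omega
        rw [hex0] at hkey
        have hmb : (M + 1) * x ≤ (t * b + E b) * x := by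
          rw [hTb] at hmT
          exact Nat.mul_le_mul_right _ hmT
        have : (M + 1) * x = M * x + x := by ring
        simp only [Nat.zero_sub, Nat.zero_mul]
        omega
      · obtain ⟨q, hq⟩ : ∃ q, t * x + E x = q + 1 := ⟨t * x + E x - 1, by omega⟩
        have e2 : t * x + E x - 1 = q := by omega
        rw [e2]
        have e3 : (q + 1) * b = (t * x + E x) * b := by rw [hq]
        have e4 : (q + 1) * b = q * b + b := by ring
        have e5 : (t * x + E x) * b = t * b * x + E x * b := by ring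
        have e6 : (t * b + E b) * x = t * b * x + E b * x := by ring
        rw [e6]
        omega
    have e7 : (T b - M) * x = T b * x - M * x := Nat.sub_mul _ _ _
    rw [e7]
    omega
  · intro r hr
    rcases Nat.lt_or_ge r (v / 2) with hrv | hrv
    · rcases hg3 r hrv with h12 | h12 | ⟨h12, h13⟩
      · exact Or.inl h12
      · exact Or.inr (Or.inl h12)
      · right; right
        have hgb := (hg1 (r + 1)).2
        have hgr := (hg1 r).1
        have hdf := hE.diff (show g r < b1 by omega) hb1 (by omega : b ≤ A)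
        refine ⟨by omega, ?_⟩
        rw [hT (g (r + 1) - 1) (by omega) (by omega), hT (b - g r) (by omega) (by omega), hTb]
        have a1 : t * (g (r + 1) - 1 - g r) ≤ t2 * (g (r + 1) - 1 - g r) :=
          Nat.mul_le_mul_right _ ht2
        have a2 : t * (g (r + 1) - 1) + t * (b - g r) = t * (g (r + 1) - 1 - g r) + t * b := by
          rw [← Nat.mul_add, ← Nat.mul_add]; congr 1; omega
        simp only [] at h13
        omega
    · left
      rw [hg4 _ (by omega), hg4 r hrv]
  · rcases hgf with ⟨h12, h13⟩ | ⟨h12, h13⟩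
    · refine ⟨v / 2, by omega, ?_⟩
      have e : v - 1 - v / 2 = v / 2 := by omega
      rw [e, hg4 _ le_rfl]
      omega
    · refine ⟨v / 2 - 1, by omega, ?_⟩
      have e : v - 1 - (v / 2 - 1) = v / 2 := by omega
      rw [e, hg4 _ le_rfl]
      rcases hg5 with ⟨h14, _⟩ | ⟨_, h14⟩
      · omega
      · rw [h14]
        omega
  · intro r
    rcases Nat.lt_or_ge r rh with hrv | hrv
    · rcases hk3 r hrv with h12 | h12 | ⟨h12, h13⟩
      · exact Or.inl h12
      · exact Or.inr (Or.inl h12)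
      · right; right
        have hgb := (hk1 (r + 1)).2
        have hgr := (hk1 r).1
        have hdf := hE.diff (show k r < b1 by omega) hb1 (by omega : b ≤ A)
        rw [hT (k (r + 1) - 1) (by omega) (by omega), hT (b - k r) (by omega) (by omega), hTb]
        have a1 : t * (k (r + 1) - 1 - k r) ≤ t2 * (k (r + 1) - 1 - k r) :=
          Nat.mul_le_mul_right _ ht2
        have a2 : t * (k (r + 1) - 1) + t * (b - k r) = t * (k (r + 1) - 1 - k r) + t * b := by
          rw [← Nat.mul_add, ← Nat.mul_add]; congr 1; omega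
        simp only [] at h13
        omega
    · left
      rw [hk4 _ (by omega), hk4 r hrv]
  · rcases hkf with ⟨h12, h13⟩ | ⟨h12, h13⟩
    · rcases hk5 with ⟨h14, h15⟩ | ⟨h14, h15⟩
      · exfalso
        have h16 := hk4 0 (by omega)
        omega
      · refine ⟨rh - 1, rh, ?_, by omega⟩
        rw [h15, hk4 _ le_rfl]
        omega
    · refine ⟨rh, rh, ?_, by omega⟩
      rw [hk4 _ le_rfl]
      omega
  · intro x hx hxb
    have := hE.n6 (by omega : b ≤ A) (by omega : E (b - 1) + z ≤ E b + 3) hx hxb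
    rw [hT x (by omega) (by omega), hT (b - x) (by omega) (by omega), hTb]
    have e : t * b = t * x + t * (b - x) := by
      rw [← Nat.mul_add]; congr 1; omega
    rw [e]
    omega

end Vale.Agent.P048
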