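import Vale.Agent.P048.C1
import Vale.Agent.P048.C2
import Vale.Agent.P048.C3
import Vale.Agent.P048.C4
import Vale.Agent.P048.C5
import Vale.Agent.P048.C6
import Vale.Agent.P048.C7
import Vale.Agent.P048.C8

namespace Vale.Agent.P048

open Finset

variable {V : Type*} [DecidableEq V]

theorem upper_nearC {G : SimpleGraph V} {m a : ℕ} (h1 : 17 ≤ m) (h2 : m ≤ 167) (ha : a + 1 ≤ m)
    (h3 : 35 ≤ m ∨ a + 11 ≤ m ∨ 2 * a + 2 ≤ m) (W : Finset V) (hW : AlphaLe G W a)
    (hc : (m - 1) * a + 1 ≤ W.card) : HasCyc G W m := by
  rcases Nat.lt_or_ge 17 m with g17 | g17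
  swap
  · obtain rfl : m = 17 := by omega
    exact c_17 a (by omega) W hW hc
  rcases Nat.lt_or_ge 18 m with g18 | g18
  swap
  · obtain rfl : m = 18 := by omega
    exact c_18 a (by omega) W hW hc
  rcases Nat.lt_or_ge 19 m with g19 | g19
  swap
  · obtain rfl : m = 19 := by omega
    exact c_19 a (by omega) W hW hc
  rcases Nat.lt_or_ge 20 m with g20 | g20
  swap
  · obtain rfl : m = 20 := by omega
    exact c_20 a (by omega) W hW hc
  rcases Nat.lt_or_ge 21 m with g21 | g21
  swap
  · obtain rfl : m = 21 := by omega
    exact c_21 a (by omega) W hW hc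
  rcases Nat.lt_or_ge 22 m with g22 | g22
  swap
  · obtain rfl : m = 22 := by omega
    exact c_22 a (by omega) W hW hc
  rcases Nat.lt_or_ge 23 m with g23 | g23
  swap
  · obtain rfl : m = 23 := by omega
    exact c_23 a (by omega) W hW hc
  rcases Nat.lt_or_ge 24 m with g24 | g24
  swap
  · obtain rfl : m = 24 := by omega
    exact c_24 a (by omega) W hW hc
  rcases Nat.lt_or_ge 25 m with g25 | g25
  swap
  · obtain rfl : m = 25 := by omega
    exact c_25 a (by omega) W hW hc
  rcases Nat.lt_or_ge 26 m with g26 | g26
  swap
  · obtain rfl : m = 26 := by omega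
    exact c_26 a (by omega) W hW hc
  rcases Nat.lt_or_ge 27 m with g27 | g27
  swap
  · obtain rfl : m = 27 := by omega
    exact c_27 a (by omega) W hW hc
  rcases Nat.lt_or_ge 28 m with g28 | g28
  swap
  · obtain rfl : m = 28 := by omega
    exact c_28 a (by omega) W hW hc
  rcases Nat.lt_or_ge 29 m with g29 | g29
  swap
  · obtain rfl : m = 29 := by omega
    exact c_29 a (by omega) W hW hc
  rcases Nat.lt_or_ge 30 m with g30 | g30
  swap
  · obtain rfl : m = 30 := by omega
    exact c_30 a (by omega) W hW hc
  rcases Nat.lt_or_ge 31 m with g31 | g31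
  swap
  · obtain rfl : m = 31 := by omega
    exact c_31 a (by omega) W hW hc
  rcases Nat.lt_or_ge 32 m with g32 | g32
  swap
  · obtain rfl : m = 32 := by omega
    exact c_32 a (by omega) W hW hc
  rcases Nat.lt_or_ge 33 m with g33 | g33
  swap
  · obtain rfl : m = 33 := by omega
    exact c_33 a (by omega) W hW hc
  rcases Nat.lt_or_ge 34 m with g34 | g34
  swap
  · obtain rfl : m = 34 := by omega
    exact c_34 a (by omega) W hW hc
  rcases Nat.lt_or_ge 35 m with g35 | g35
  swap
  · obtain rfl : m = 35 := by omega
    exact c_35 a (by omega) W hW hc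
  rcases Nat.lt_or_ge 36 m with g36 | g36
  swap
  · obtain rfl : m = 36 := by omega
    exact c_36 a (by omega) W hW hc
  rcases Nat.lt_or_ge 37 m with g37 | g37
  swap
  · obtain rfl : m = 37 := by omega
    exact c_37 a (by omega) W hW hc
  rcases Nat.lt_or_ge 38 m with g38 | g38
  swap
  · obtain rfl : m = 38 := by omega
    exact c_38 a (by omega) W hW hc
  rcases Nat.lt_or_ge 39 m with g39 | g39
  swap
  · obtain rfl : m = 39 := by omega
    exact c_39 a (by omega) W hW hc
  rcases Nat.lt_or_ge 40 m with g40 | g40
  swap
  · obtain rfl : m = 40 := by omega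
    exact c_40 a (by omega) W hW hc
  rcases Nat.lt_or_ge 41 m with g41 | g41
  swap
  · obtain rfl : m = 41 := by omega
    exact c_41 a (by omega) W hW hc
  rcases Nat.lt_or_ge 42 m with g42 | g42
  swap
  · obtain rfl : m = 42 := by omega
    exact c_42 a (by omega) W hW hc
  rcases Nat.lt_or_ge 43 m with g43 | g43
  swap
  · obtain rfl : m = 43 := by omega
    exact c_43 a (by omega) W hW hc
  rcases Nat.lt_or_ge 44 m with g44 | g44
  swap
  · obtain rfl : m = 44 := by omega
    exact c_44 a (by omega) W hW hc
  rcases Nat.lt_or_ge 45 m with g45 | g45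
  swap
  · obtain rfl : m = 45 := by omega
    exact c_45 a (by omega) W hW hc
  rcases Nat.lt_or_ge 46 m with g46 | g46
  swap
  · obtain rfl : m = 46 := by omega
    exact c_46 a (by omega) W hW hc
  rcases Nat.lt_or_ge 47 m with g47 | g47
  swap
  · obtain rfl : m = 47 := by omega
    exact c_47 a (by omega) W hW hc
  rcases Nat.lt_or_ge 48 m with g48 | g48
  swap
  · obtain rfl : m = 48 := by omega
    exact c_48 a (by omega) W hW hc
  rcases Nat.lt_or_ge 49 m with g49 | g49
  swap
  · obtain rfl : m = 49 := by omega
    exact c_49 a (by omega) W hW hc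
  rcases Nat.lt_or_ge 50 m with g50 | g50
  swap
  · obtain rfl : m = 50 := by omega
    exact c_50 a (by omega) W hW hc
  rcases Nat.lt_or_ge 51 m with g51 | g51
  swap
  · obtain rfl : m = 51 := by omega
    exact c_51 a (by omega) W hW hc
  rcases Nat.lt_or_ge 52 m with g52 | g52
  swap
  · obtain rfl : m = 52 := by omega
    exact c_52 a (by omega) W hW hc
  rcases Nat.lt_or_ge 53 m with g53 | g53
  swap
  · obtain rfl : m = 53 := by omega
    exact c_53 a (by omega) W hW hc
  rcases Nat.lt_or_ge 54 m with g54 | g54
  swap
  · obtain rfl : m = 54 := by omega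
    exact c_54 a (by omega) W hW hc
  rcases Nat.lt_or_ge 55 m with g55 | g55
  swap
  · obtain rfl : m = 55 := by omega
    exact c_55 a (by omega) W hW hc
  rcases Nat.lt_or_ge 56 m with g56 | g56
  swap
  · obtain rfl : m = 56 := by omega
    exact c_56 a (by omega) W hW hc
  rcases Nat.lt_or_ge 57 m with g57 | g57
  swap
  · obtain rfl : m = 57 := by omega
    exact c_57 a (by omega) W hW hc
  rcases Nat.lt_or_ge 58 m with g58 | g58
  swap
  · obtain rfl : m = 58 := by omega
    exact c_58 a (by omega) W hW hc
  rcases Nat.lt_or_ge 59 m with g59 | g59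
  swap
  · obtain rfl : m = 59 := by omega
    exact c_59 a (by omega) W hW hc
  rcases Nat.lt_or_ge 60 m with g60 | g60
  swap
  · obtain rfl : m = 60 := by omega
    exact c_60 a (by omega) W hW hc
  rcases Nat.lt_or_ge 61 m with g61 | g61
  swap
  · obtain rfl : m = 61 := by omega
    exact c_61 a (by omega) W hW hc
  rcases Nat.lt_or_ge 62 m with g62 | g62
  swap
  · obtain rfl : m = 62 := by omega
    exact c_62 a (by omega) W hW hc
  rcases Nat.lt_or_ge 63 m with g63 | g63
  swap
  · obtain rfl : m = 63 := by omega
    exact c_63 a (by omega) W hW hc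
  rcases Nat.lt_or_ge 64 m with g64 | g64
  swap
  · obtain rfl : m = 64 := by omega
    exact c_64 a (by omega) W hW hc
  rcases Nat.lt_or_ge 65 m with g65 | g65
  swap
  · obtain rfl : m = 65 := by omega
    exact c_65 a (by omega) W hW hc
  rcases Nat.lt_or_ge 66 m with g66 | g66
  swap
  · obtain rfl : m = 66 := by omega
    exact c_66 a (by omega) W hW hc
  rcases Nat.lt_or_ge 67 m with g67 | g67
  swap
  · obtain rfl : m = 67 := by omega
    exact c_67 a (by omega) W hW hc
  rcases Nat.lt_or_ge 68 m with g68 | g68
  swap
  · obtain rfl : m = 68 := by omega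
    exact c_68 a (by omega) W hW hc
  rcases Nat.lt_or_ge 69 m with g69 | g69
  swap
  · obtain rfl : m = 69 := by omega
    exact c_69 a (by omega) W hW hc
  rcases Nat.lt_or_ge 70 m with g70 | g70
  swap
  · obtain rfl : m = 70 := by omega
    exact c_70 a (by omega) W hW hc
  rcases Nat.lt_or_ge 71 m with g71 | g71
  swap
  · obtain rfl : m = 71 := by omega
    exact c_71 a (by omega) W hW hc
  rcases Nat.lt_or_ge 72 m with g72 | g72
  swap
  · obtain rfl : m = 72 := by omega
    exact c_72 a (by omega) W hW hc
  rcases Nat.lt_or_ge 73 m with g73 | g73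
  swap
  · obtain rfl : m = 73 := by omega
    exact c_73 a (by omega) W hW hc
  rcases Nat.lt_or_ge 74 m with g74 | g74
  swap
  · obtain rfl : m = 74 := by omega
    exact c_74 a (by omega) W hW hc
  rcases Nat.lt_or_ge 75 m with g75 | g75
  swap
  · obtain rfl : m = 75 := by omega
    exact c_75 a (by omega) W hW hc
  rcases Nat.lt_or_ge 76 m with g76 | g76
  swap
  · obtain rfl : m = 76 := by omega
    exact c_76 a (by omega) W hW hc
  rcases Nat.lt_or_ge 77 m with g77 | g77
  swap
  · obtain rfl : m = 77 := by omega
    exact c_77 a (by omega) W hW hc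
  rcases Nat.lt_or_ge 78 m with g78 | g78
  swap
  · obtain rfl : m = 78 := by omega
    exact c_78 a (by omega) W hW hc
  rcases Nat.lt_or_ge 79 m with g79 | g79
  swap
  · obtain rfl : m = 79 := by omega
    exact c_79 a (by omega) W hW hc
  rcases Nat.lt_or_ge 80 m with g80 | g80
  swap
  · obtain rfl : m = 80 := by omega
    exact c_80 a (by omega) W hW hc
  rcases Nat.lt_or_ge 81 m with g81 | g81
  swap
  · obtain rfl : m = 81 := by omega
    exact c_81 a (by omega) W hW hc
  rcases Nat.lt_or_ge 82 m with g82 | g82
  swap
  · obtain rfl : m = 82 := by omega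
    exact c_82 a (by omega) W hW hc
  rcases Nat.lt_or_ge 83 m with g83 | g83
  swap
  · obtain rfl : m = 83 := by omega
    exact c_83 a (by omega) W hW hc
  rcases Nat.lt_or_ge 84 m with g84 | g84
  swap
  · obtain rfl : m = 84 := by omega
    exact c_84 a (by omega) W hW hc
  rcases Nat.lt_or_ge 85 m with g85 | g85
  swap
  · obtain rfl : m = 85 := by omega
    exact c_85 a (by omega) W hW hc
  rcases Nat.lt_or_ge 86 m with g86 | g86
  swap
  · obtain rfl : m = 86 := by omega
    exact c_86 a (by omega) W hW hc
  rcases Nat.lt_or_ge 87 m with g87 | g87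
  swap
  · obtain rfl : m = 87 := by omega
    exact c_87 a (by omega) W hW hc
  rcases Nat.lt_or_ge 88 m with g88 | g88
  swap
  · obtain rfl : m = 88 := by omega
    exact c_88 a (by omega) W hW hc
  rcases Nat.lt_or_ge 89 m with g89 | g89
  swap
  · obtain rfl : m = 89 := by omega
    exact c_89 a (by omega) W hW hc
  rcases Nat.lt_or_ge 90 m with g90 | g90
  swap
  · obtain rfl : m = 90 := by omega
    exact c_90 a (by omega) W hW hc
  rcases Nat.lt_or_ge 91 m with g91 | g91
  swap
  · obtain rfl : m = 91 := by omega
    exact c_91 a (by omega) W hW hc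
  rcases Nat.lt_or_ge 92 m with g92 | g92
  swap
  · obtain rfl : m = 92 := by omega
    exact c_92 a (by omega) W hW hc
  rcases Nat.lt_or_ge 93 m with g93 | g93
  swap
  · obtain rfl : m = 93 := by omega
    exact c_93 a (by omega) W hW hc
  rcases Nat.lt_or_ge 94 m with g94 | g94
  swap
  · obtain rfl : m = 94 := by omega
    exact c_94 a (by omega) W hW hc
  rcases Nat.lt_or_ge 95 m with g95 | g95
  swap
  · obtain rfl : m = 95 := by omega
    exact c_95 a (by omega) W hW hc
  rcases Nat.lt_or_ge 96 m with g96 | g96
  swap
  · obtain rfl : m = 96 := by omega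
    exact c_96 a (by omega) W hW hc
  rcases Nat.lt_or_ge 97 m with g97 | g97
  swap
  · obtain rfl : m = 97 := by omega
    exact c_97 a (by omega) W hW hc
  rcases Nat.lt_or_ge 98 m with g98 | g98
  swap
  · obtain rfl : m = 98 := by omega
    exact c_98 a (by omega) W hW hc
  rcases Nat.lt_or_ge 99 m with g99 | g99
  swap
  · obtain rfl : m = 99 := by omega
    exact c_99 a (by omega) W hW hc
  rcases Nat.lt_or_ge 100 m with g100 | g100
  swap
  · obtain rfl : m = 100 := by omega
    exact c_100 a (by omega) W hW hc
  rcases Nat.lt_or_ge 101 m with g101 | g101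
  swap
  · obtain rfl : m = 101 := by omega
    exact c_101 a (by omega) W hW hc
  rcases Nat.lt_or_ge 102 m with g102 | g102
  swap
  · obtain rfl : m = 102 := by omega
    exact c_102 a (by omega) W hW hc
  rcases Nat.lt_or_ge 103 m with g103 | g103
  swap
  · obtain rfl : m = 103 := by omega
    exact c_103 a (by omega) W hW hc
  rcases Nat.lt_or_ge 104 m with g104 | g104
  swap
  · obtain rfl : m = 104 := by omega
    exact c_104 a (by omega) W hW hc
  rcases Nat.lt_or_ge 105 m with g105 | g105
  swap
  · obtain rfl : m = 105 := by omega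
    exact c_105 a (by omega) W hW hc
  rcases Nat.lt_or_ge 106 m with g106 | g106
  swap
  · obtain rfl : m = 106 := by omega
    exact c_106 a (by omega) W hW hc
  rcases Nat.lt_or_ge 107 m with g107 | g107
  swap
  · obtain rfl : m = 107 := by omega
    exact c_107 a (by omega) W hW hc
  rcases Nat.lt_or_ge 108 m with g108 | g108
  swap
  · obtain rfl : m = 108 := by omega
    exact c_108 a (by omega) W hW hc
  rcases Nat.lt_or_ge 109 m with g109 | g109
  swap
  · obtain rfl : m = 109 := by omega
    exact c_109 a (by omega) W hW hc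
  rcases Nat.lt_or_ge 110 m with g110 | g110
  swap
  · obtain rfl : m = 110 := by omega
    exact c_110 a (by omega) W hW hc
  rcases Nat.lt_or_ge 111 m with g111 | g111
  swap
  · obtain rfl : m = 111 := by omega
    exact c_111 a (by omega) W hW hc
  rcases Nat.lt_or_ge 112 m with g112 | g112
  swap
  · obtain rfl : m = 112 := by omega
    exact c_112 a (by omega) W hW hc
  rcases Nat.lt_or_ge 113 m with g113 | g113
  swap
  · obtain rfl : m = 113 := by omega
    exact c_113 a (by omega) W hW hc
  rcases Nat.lt_or_ge 114 m with g114 | g114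
  swap
  · obtain rfl : m = 114 := by omega
    exact c_114 a (by omega) W hW hc
  rcases Nat.lt_or_ge 115 m with g115 | g115
  swap
  · obtain rfl : m = 115 := by omega
    exact c_115 a (by omega) W hW hc
  rcases Nat.lt_or_ge 116 m with g116 | g116
  swap
  · obtain rfl : m = 116 := by omega
    exact c_116 a (by omega) W hW hc
  rcases Nat.lt_or_ge 117 m with g117 | g117
  swap
  · obtain rfl : m = 117 := by omega
    exact c_117 a (by omega) W hW hc
  rcases Nat.lt_or_ge 118 m with g118 | g118
  swap
  · obtain rfl : m = 118 := by omega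
    exact c_118 a (by omega) W hW hc
  rcases Nat.lt_or_ge 119 m with g119 | g119
  swap
  · obtain rfl : m = 119 := by omega
    exact c_119 a (by omega) W hW hc
  rcases Nat.lt_or_ge 120 m with g120 | g120
  swap
  · obtain rfl : m = 120 := by omega
    exact c_120 a (by omega) W hW hc
  rcases Nat.lt_or_ge 121 m with g121 | g121
  swap
  · obtain rfl : m = 121 := by omega
    exact c_121 a (by omega) W hW hc
  rcases Nat.lt_or_ge 122 m with g122 | g122
  swap
  · obtain rfl : m = 122 := by omega
    exact c_122 a (by omega) W hW hc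
  rcases Nat.lt_or_ge 123 m with g123 | g123
  swap
  · obtain rfl : m = 123 := by omega
    exact c_123 a (by omega) W hW hc
  rcases Nat.lt_or_ge 124 m with g124 | g124
  swap
  · obtain rfl : m = 124 := by omega
    exact c_124 a (by omega) W hW hc
  rcases Nat.lt_or_ge 125 m with g125 | g125
  swap
  · obtain rfl : m = 125 := by omega
    exact c_125 a (by omega) W hW hc
  rcases Nat.lt_or_ge 126 m with g126 | g126
  swap
  · obtain rfl : m = 126 := by omega
    exact c_126 a (by omega) W hW hc
  rcases Nat.lt_or_ge 127 m with g127 | g127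
  swap
  · obtain rfl : m = 127 := by omega
    exact c_127 a (by omega) W hW hc
  rcases Nat.lt_or_ge 128 m with g128 | g128
  swap
  · obtain rfl : m = 128 := by omega
    exact c_128 a (by omega) W hW hc
  rcases Nat.lt_or_ge 129 m with g129 | g129
  swap
  · obtain rfl : m = 129 := by omega
    exact c_129 a (by omega) W hW hc
  rcases Nat.lt_or_ge 130 m with g130 | g130
  swap
  · obtain rfl : m = 130 := by omega
    exact c_130 a (by omega) W hW hc
  rcases Nat.lt_or_ge 131 m with g131 | g131
  swap
  · obtain rfl : m = 131 := by omega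
    exact c_131 a (by omega) W hW hc
  rcases Nat.lt_or_ge 132 m with g132 | g132
  swap
  · obtain rfl : m = 132 := by omega
    exact c_132 a (by omega) W hW hc
  rcases Nat.lt_or_ge 133 m with g133 | g133
  swap
  · obtain rfl : m = 133 := by omega
    exact c_133 a (by omega) W hW hc
  rcases Nat.lt_or_ge 134 m with g134 | g134
  swap
  · obtain rfl : m = 134 := by omega
    exact c_134 a (by omega) W hW hc
  rcases Nat.lt_or_ge 135 m with g135 | g135
  swap
  · obtain rfl : m = 135 := by omega
    exact c_135 a (by omega) W hW hc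
  rcases Nat.lt_or_ge 136 m with g136 | g136
  swap
  · obtain rfl : m = 136 := by omega
    exact c_136 a (by omega) W hW hc
  rcases Nat.lt_or_ge 137 m with g137 | g137
  swap
  · obtain rfl : m = 137 := by omega
    exact c_137 a (by omega) W hW hc
  rcases Nat.lt_or_ge 138 m with g138 | g138
  swap
  · obtain rfl : m = 138 := by omega
    exact c_138 a (by omega) W hW hc
  rcases Nat.lt_or_ge 139 m with g139 | g139
  swap
  · obtain rfl : m = 139 := by omega
    exact c_139 a (by omega) W hW hc
  rcases Nat.lt_or_ge 140 m with g140 | g140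
  swap
  · obtain rfl : m = 140 := by omega
    exact c_140 a (by omega) W hW hc
  rcases Nat.lt_or_ge 141 m with g141 | g141
  swap
  · obtain rfl : m = 141 := by omega
    exact c_141 a (by omega) W hW hc
  rcases Nat.lt_or_ge 142 m with g142 | g142
  swap
  · obtain rfl : m = 142 := by omega
    exact c_142 a (by omega) W hW hc
  rcases Nat.lt_or_ge 143 m with g143 | g143
  swap
  · obtain rfl : m = 143 := by omega
    exact c_143 a (by omega) W hW hc
  rcases Nat.lt_or_ge 144 m with g144 | g144
  swap
  · obtain rfl : m = 144 := by omega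
    exact c_144 a (by omega) W hW hc
  rcases Nat.lt_or_ge 145 m with g145 | g145
  swap
  · obtain rfl : m = 145 := by omega
    exact c_145 a (by omega) W hW hc
  rcases Nat.lt_or_ge 146 m with g146 | g146
  swap
  · obtain rfl : m = 146 := by omega
    exact c_146 a (by omega) W hW hc
  rcases Nat.lt_or_ge 147 m with g147 | g147
  swap
  · obtain rfl : m = 147 := by omega
    exact c_147 a (by omega) W hW hc
  rcases Nat.lt_or_ge 148 m with g148 | g148
  swap
  · obtain rfl : m = 148 := by omega
    exact c_148 a (by omega) W hW hc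
  rcases Nat.lt_or_ge 149 m with g149 | g149
  swap
  · obtain rfl : m = 149 := by omega
    exact c_149 a (by omega) W hW hc
  rcases Nat.lt_or_ge 150 m with g150 | g150
  swap
  · obtain rfl : m = 150 := by omega
    exact c_150 a (by omega) W hW hc
  rcases Nat.lt_or_ge 151 m with g151 | g151
  swap
  · obtain rfl : m = 151 := by omega
    exact c_151 a (by omega) W hW hc
  rcases Nat.lt_or_ge 152 m with g152 | g152
  swap
  · obtain rfl : m = 152 := by omega
    exact c_152 a (by omega) W hW hc
  rcases Nat.lt_or_ge 153 m with g153 | g153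
  swap
  · obtain rfl : m = 153 := by omega
    exact c_153 a (by omega) W hW hc
  rcases Nat.lt_or_ge 154 m with g154 | g154
  swap
  · obtain rfl : m = 154 := by omega
    exact c_154 a (by omega) W hW hc
  rcases Nat.lt_or_ge 155 m with g155 | g155
  swap
  · obtain rfl : m = 155 := by omega
    exact c_155 a (by omega) W hW hc
  rcases Nat.lt_or_ge 156 m with g156 | g156
  swap
  · obtain rfl : m = 156 := by omega
    exact c_156 a (by omega) W hW hc
  rcases Nat.lt_or_ge 157 m with g157 | g157
  swap
  · obtain rfl : m = 157 := by omega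
    exact c_157 a (by omega) W hW hc
  rcases Nat.lt_or_ge 158 m with g158 | g158
  swap
  · obtain rfl : m = 158 := by omega
    exact c_158 a (by omega) W hW hc
  rcases Nat.lt_or_ge 159 m with g159 | g159
  swap
  · obtain rfl : m = 159 := by omega
    exact c_159 a (by omega) W hW hc
  rcases Nat.lt_or_ge 160 m with g160 | g160
  swap
  · obtain rfl : m = 160 := by omega
    exact c_160 a (by omega) W hW hc
  rcases Nat.lt_or_ge 161 m with g161 | g161
  swap
  · obtain rfl : m = 161 := by omega
    exact c_161 a (by omega) W hW hc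
  rcases Nat.lt_or_ge 162 m with g162 | g162
  swap
  · obtain rfl : m = 162 := by omega
    exact c_162 a (by omega) W hW hc
  rcases Nat.lt_or_ge 163 m with g163 | g163
  swap
  · obtain rfl : m = 163 := by omega
    exact c_163 a (by omega) W hW hc
  rcases Nat.lt_or_ge 164 m with g164 | g164
  swap
  · obtain rfl : m = 164 := by omega
    exact c_164 a (by omega) W hW hc
  rcases Nat.lt_or_ge 165 m with g165 | g165
  swap
  · obtain rfl : m = 165 := by omega
    exact c_165 a (by omega) W hW hc
  rcases Nat.lt_or_ge 166 m with g166 | g166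
  swap
  · obtain rfl : m = 166 := by omega
    exact c_166 a (by omega) W hW hc
  obtain rfl : m = 167 := by omega
  exact c_167 a (by omega) W hW hc

end Vale.Agent.P048
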