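import Vale.Agent.P048.Gap

namespace Vale.Agent.P048

open Finset

variable {V : Type*} [DecidableEq V]

structure STP (G : SimpleGraph V) (U : Finset V) (s t : V) (l : List V) : Prop where
  pth : Pth G l
  hd : l.head? = some s
  lt : l.getLast? = some t
  mem : ∀ x ∈ l, x ∈ U

def Stuck (G : SimpleGraph V) (U : Finset V) (s t : V) (l : List V) (N : ℕ) : Prop :=
  ∀ l', STP G U s t l' → l.length < l'.length → l.length + N < l'.length

omit [DecidableEq V] in
theorem stp_insert {G : SimpleGraph V} {U O : Finset V} {s t v w : V} {A B q : List V}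
    (h : STP G U s t (A ++ v :: w :: B)) (hq : Bridge G O v w q) (hqn : q.Nodup)
    (hOU : O ⊆ U) (hOl : ∀ x ∈ A ++ v :: w :: B, x ∉ O) :
    STP G U s t (A ++ v :: (q ++ w :: B)) := by
  obtain ⟨⟨hn, hc⟩, hhd, hlt, hmem⟩ := h
  obtain ⟨hq0, hqc, hqO, hqh, hql⟩ := hq
  have hdq : ∀ x ∈ q, x ∉ A ++ v :: w :: B := fun x hx hx' => hOl x hx' (hqO x hx)
  refine ⟨⟨?_, ?_⟩, ?_, ?_, ?_⟩
  · rw [List.nodup_append, List.nodup_cons] at hn ⊢
    obtain ⟨hnA, ⟨hvw, hwB⟩, hAB⟩ := hn
    refine ⟨hnA, ⟨?_, ?_⟩, ?_⟩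
    · rw [List.mem_append]
      rintro (hm | hm)
      · exact hdq v hm (by simp)
      · exact hvw hm
    · rw [List.nodup_append]
      refine ⟨hqn, hwB, ?_⟩
      intro a ha b hb hab
      subst hab
      apply hdq a ha
      simp only [List.mem_append, List.mem_cons] at hb ⊢
      tauto
    · intro a ha b hb hab
      subst hab
      simp only [List.mem_append, List.mem_cons] at hb
      rcases hb with rfl | hb | hb
      · exact hAB a ha a (by simp) rfl
      · exact hdq a hb (by simp only [List.mem_append]; exact Or.inl ha)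
      · exact hAB a ha a (by simp only [List.mem_cons]; tauto) rfl
  · rw [List.isChain_append] at hc ⊢
    obtain ⟨hcA, hcB, hcAB⟩ := hc
    refine ⟨hcA, ?_, by simpa using hcAB⟩
    rw [List.isChain_cons_cons] at hcB
    rw [List.isChain_cons]
    constructor
    · intro y hy
      rw [List.head?_append] at hy
      rcases q with _ | ⟨q0, qt⟩
      · exact absurd rfl hq0
      · apply hqh
        simpa using hy
    · rw [List.isChain_append]
      refine ⟨hqc, hcB.2, ?_⟩
      intro x hx y hy
      simp only [List.head?_cons, Option.mem_def, Option.some.injEq] at hy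
      rw [← hy]; exact hql x hx
  · rw [List.head?_append] at hhd ⊢
    simpa using hhd
  · rw [List.getLast?_append] at hlt ⊢
    have e1 : (v :: (q ++ w :: B)).getLast? = (w :: B).getLast? := by
      rw [← List.cons_append, List.getLast?_append]
      obtain ⟨r, hr⟩ : ∃ r, (w :: B).getLast? = some r :=
        ⟨_, List.getLast?_eq_some_getLast (by simp)⟩
      rw [hr]; rfl
    rw [List.getLast?_cons_cons] at hlt
    rw [e1]; exact hlt
  · intro x hx
    simp only [List.mem_append, List.mem_cons] at hx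
    rcases hx with hx | rfl | hx | rfl | hx
    · exact hmem x (by simp [hx])
    · exact hmem x (by simp)
    · exact hOU (hqO x hx)
    · exact hmem x (by simp)
    · exact hmem x (by simp [hx])

omit [DecidableEq V] in
theorem stp_rotate {G : SimpleGraph V} {U O : Finset V} {s t v v2 w1 w : V} {A M D q : List V}
    (h : STP G U s t (A ++ v :: (M ++ w :: D))) (hM1 : M.head? = some w1)
    (hM2 : M.getLast? = some v2) (hw : G.Adj w1 w)
    (hq : Bridge G O v v2 q) (hqn : q.Nodup)
    (hOU : O ⊆ U) (hOl : ∀ x ∈ A ++ v :: (M ++ w :: D), x ∉ O) :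
    STP G U s t (A ++ v :: (q ++ (M.reverse ++ w :: D))) := by
  obtain ⟨⟨hn, hc⟩, hhd, hlt, hmem⟩ := h
  obtain ⟨hq0, hqc, hqO, hqh, hql⟩ := hq
  have hdq : ∀ x ∈ q, x ∉ A ++ v :: (M ++ w :: D) := fun x hx hx' => hOl x hx' (hqO x hx)
  refine ⟨⟨?_, ?_⟩, ?_, ?_, ?_⟩
  · rw [List.nodup_append, List.nodup_cons, List.nodup_append] at hn
    obtain ⟨hnA, ⟨hvw, hM, hwD, hMD⟩, hAB⟩ := hn
    rw [List.nodup_append, List.nodup_cons, List.nodup_append, List.nodup_append]
    refine ⟨hnA, ⟨?_, hqn, ⟨List.nodup_reverse.2 hM, hwD, ?_⟩, ?_⟩, ?_⟩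
    · simp only [List.mem_append, List.mem_reverse]
      rintro (hm | hm)
      · exact hdq v hm (by simp)
      · exact hvw (by simpa using hm)
    · intro a ha b hb
      exact hMD a (List.mem_reverse.1 ha) b hb
    · intro a ha b hb hab
      subst hab
      apply hdq a ha
      simp only [List.mem_append, List.mem_reverse, List.mem_cons] at hb ⊢
      tauto
    · intro a ha b hb hab
      subst hab
      simp only [List.mem_append, List.mem_reverse, List.mem_cons] at hb
      rcases hb with rfl | hb | hb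
      · exact hAB a ha a (by simp) rfl
      · exact hdq a hb (by simp only [List.mem_append]; exact Or.inl ha)
      · exact hAB a ha a (by simp only [List.mem_cons, List.mem_append]; tauto) rfl
  · rw [List.isChain_append, List.isChain_cons, List.isChain_append] at hc
    obtain ⟨hcA, ⟨hvM, hcM, hcD, hMD⟩, hcAB⟩ := hc
    rw [List.isChain_append, List.isChain_cons, List.isChain_append, List.isChain_append]
    refine ⟨hcA, ⟨?_, hqc, ⟨chain_symm hcM, hcD, ?_⟩, ?_⟩, by simpa using hcAB⟩
    · intro y hy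
      rw [List.head?_append] at hy
      rcases q with _ | ⟨q0, qt⟩
      · exact absurd rfl hq0
      · apply hqh
        simpa using hy
    · intro x hx y hy
      rw [List.getLast?_reverse, hM1] at hx
      simp only [List.head?_cons, Option.mem_def, Option.some.injEq] at hx hy
      rw [← hx, ← hy]; exact hw
    · intro x hx y hy
      rw [List.head?_append, List.head?_reverse, hM2] at hy
      simp only [Option.some_or, Option.mem_def, Option.some.injEq] at hy
      rw [← hy]; exact hql x hx
  · rw [List.head?_append] at hhd ⊢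
    simpa using hhd
  · rw [List.getLast?_append] at hlt ⊢
    obtain ⟨r, hr⟩ : ∃ r, (w :: D).getLast? = some r :=
        ⟨_, List.getLast?_eq_some_getLast (by simp)⟩
    have e1 : (v :: (q ++ (M.reverse ++ w :: D))).getLast? = (w :: D).getLast? := by
      rw [← List.cons_append, List.getLast?_append, List.getLast?_append, hr]; rfl
    have e2 : (v :: (M ++ w :: D)).getLast? = (w :: D).getLast? := by
      rw [← List.cons_append, List.getLast?_append, hr]; rfl
    rw [e1]
    rw [e2] at hlt
    exact hlt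
  · intro x hx
    simp only [List.mem_append, List.mem_cons, List.mem_reverse] at hx
    rcases hx with hx | rfl | hx | hx | rfl | hx
    · exact hmem x (by simp [hx])
    · exact hmem x (by simp)
    · exact hOU (hqO x hx)
    · exact hmem x (by simp [hx])
    · exact hmem x (by simp)
    · exact hmem x (by simp [hx])

theorem succ_exists (P : V → Prop) [DecidablePred P] :
    ∀ (l : List V), l.Nodup → ∃ S : Finset V, (∀ w ∈ S, ∃ A v B, l = A ++ v :: w :: B ∧ P v) ∧
      (l.dropLast.toFinset.filter P).card ≤ S.card := by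
  intro l
  induction l with
  | nil => intro _; exact ⟨∅, by simp, by simp⟩
  | cons a l ih =>
    intro hn
    rcases l with _ | ⟨b, t⟩
    · exact ⟨∅, by simp, by simp⟩
    · obtain ⟨S, hS1, hS2⟩ := ih (List.nodup_cons.1 hn).2
      have hlift : ∀ w ∈ S, ∃ A v B, a :: b :: t = A ++ v :: w :: B ∧ P v := by
        intro w hw
        obtain ⟨A, v, B, e, hv⟩ := hS1 w hw
        exact ⟨a :: A, v, B, by rw [e]; rfl, hv⟩
      have hbS : b ∉ S := by
        intro hb
        obtain ⟨A, v, B, e, _⟩ := hS1 b hb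
        have hnb := (List.nodup_cons.1 (List.nodup_cons.1 hn).2).1
        apply hnb
        rcases A with _ | ⟨a', A'⟩
        · simp only [List.nil_append, List.cons.injEq] at e
          rw [e.2]; simp
        · simp only [List.cons_append, List.cons.injEq] at e
          rw [e.2]; simp
      have hdl : (a :: b :: t).dropLast = a :: (b :: t).dropLast := rfl
      by_cases hPa : P a
      · refine ⟨insert b S, ?_, ?_⟩
        · intro w hw
          rw [mem_insert] at hw
          rcases hw with rfl | hw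
          · exact ⟨[], a, t, rfl, hPa⟩
          · exact hlift w hw
        · rw [card_insert_of_notMem hbS, hdl, List.toFinset_cons, filter_insert, if_pos hPa]
          exact (card_insert_le _ _).trans (by omega)
      · refine ⟨S, hlift, ?_⟩
        rw [hdl, List.toFinset_cons, filter_insert, if_neg hPa]
        exact hS2

omit [DecidableEq V] in
theorem split_unique {l A B A' B' : List V} {v : V} (hn : l.Nodup) (h1 : l = A ++ v :: B)
    (h2 : l = A' ++ v :: B') : A = A' ∧ B = B' := by
  have hnot : v ∉ A ∧ v ∉ B := by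
    rw [h1, List.nodup_append, List.nodup_cons] at hn
    exact ⟨fun hm => hn.2.2 v hm v (by simp) rfl, hn.2.1.1⟩
  have heq : A ++ v :: B = A' ++ v :: B' := h1.symm.trans h2
  rw [List.append_cons_inj_of_notMem] at heq
  · exact ⟨heq.1, heq.2.2⟩
  · exact hnot.1
  · exact hnot.2

theorem ce_rot {G : SimpleGraph V} {U O : Finset V} {s t v1 v2 w1 w2 : V} {l A1 B1 A2 B2 : List V}
    {N : ℕ} (h : STP G U s t l) (hstuck : Stuck G U s t l N)
    (hOU : O ⊆ U) (hOl : ∀ x ∈ l, x ∉ O)
    (h1 : l = A1 ++ v1 :: w1 :: B1) (h2 : l = A2 ++ v2 :: w2 :: B2) (hw2 : w2 ∈ B1)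
    (hadj : G.Adj w1 w2)
    (hbr : ∃ q, Bridge G O v1 v2 q ∧ q.Nodup ∧ q.length ≤ N) : False := by
  obtain ⟨C, D, hCD⟩ := List.append_of_mem hw2
  have e1 : l = (A1 ++ v1 :: (w1 :: C)) ++ w2 :: D := by rw [h1, hCD]; simp
  have e2 : l = (A2 ++ [v2]) ++ w2 :: B2 := by rw [h2]; simp
  obtain ⟨e3, e4⟩ := split_unique h.pth.1 e1 e2
  have hM2 : (w1 :: C).getLast? = some v2 := by
    have : (A1 ++ v1 :: (w1 :: C)).getLast? = some v2 := by rw [e3]; simp
    rw [List.getLast?_append, List.getLast?_cons_cons] at this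
    obtain ⟨r, hr⟩ : ∃ r, (w1 :: C).getLast? = some r :=
        ⟨_, List.getLast?_eq_some_getLast (by simp)⟩
    rw [hr] at this ⊢
    simpa using this
  have e5 : l = A1 ++ v1 :: ((w1 :: C) ++ w2 :: D) := by rw [e1]; simp
  obtain ⟨q, hq1, hq2, hq3⟩ := hbr
  have hnew := stp_rotate (A := A1) (M := w1 :: C) (D := D) (by rw [← e5]; exact h) rfl hM2 hadj
    hq1 hq2 hOU (by rw [← e5]; exact hOl)
  have hq0 : 0 < q.length := List.length_pos_iff.2 hq1.1
  have := hstuck _ hnew (by
    rw [e5]
    simp only [List.length_append, List.length_cons, List.length_reverse]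
    omega)
  rw [e5] at this
  simp only [List.length_append, List.length_cons, List.length_reverse] at this
  omega

theorem ce_ins {G : SimpleGraph V} {U O : Finset V} {s t v w : V} {l A B : List V}
    {N : ℕ} (h : STP G U s t l) (hstuck : Stuck G U s t l N)
    (hOU : O ⊆ U) (hOl : ∀ x ∈ l, x ∉ O)
    (h1 : l = A ++ v :: w :: B)
    (hbr : ∃ q, Bridge G O v w q ∧ q.Nodup ∧ q.length ≤ N) : False := by
  obtain ⟨q, hq1, hq2, hq3⟩ := hbr
  have hnew := stp_insert (A := A) (B := B) (by rw [← h1]; exact h) hq1 hq2 hOU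
    (by rw [← h1]; exact hOl)
  have hq0 : 0 < q.length := List.length_pos_iff.2 hq1.1
  have := hstuck _ hnew (by
    rw [h1]
    simp only [List.length_append, List.length_cons]
    omega)
  rw [h1] at this
  simp only [List.length_append, List.length_cons] at this
  omega

def Att (G : SimpleGraph V) (X : Finset V) (v : V) : Prop := ∃ x ∈ X, G.Adj v x

theorem ce_main {G : SimpleGraph V} {W U O X J : Finset V} {b N : ℕ} {s t : V} {l : List V}
    (hW : AlphaLe G W b) (hUW : U ⊆ W) (h : STP G U s t l) (hstuck : Stuck G U s t l N)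
    (hOU : O ⊆ U) (hOl : ∀ x ∈ l, x ∉ O) (hXO : X ⊆ O)
    (hbr : ∀ u ∈ l, ∀ u' ∈ l, u ≠ u' → Att G X u → Att G X u' →
      ∃ q, Bridge G O u u' q ∧ q.Nodup ∧ q.length ≤ N)
    (hJX : J ⊆ X) (hJ : Ind G J) [DecidablePred (Att G X)] :
    (l.dropLast.toFinset.filter (Att G X)).card + J.card ≤ b := by
  obtain ⟨S, hS1, hS2⟩ := succ_exists (Att G X) l h.pth.1
  have hSl : ∀ w ∈ S, w ∈ l := by
    intro w hw
    obtain ⟨A, v, B, e, _⟩ := hS1 w hw
    rw [e]; simp
  have hdisj : Disjoint S J := by
    rw [disjoint_left]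
    intro x hx hxJ
    exact hOl x (hSl x hx) (hXO (hJX hxJ))
  have hSS : ∀ w1 ∈ S, ∀ w2 ∈ S, ¬ G.Adj w1 w2 := by
    intro w1 hw1 w2 hw2 hadj
    obtain ⟨A1, v1, B1, e1, hv1⟩ := hS1 w1 hw1
    obtain ⟨A2, v2, B2, e2, hv2⟩ := hS1 w2 hw2
    have hne : w1 ≠ w2 := G.ne_of_adj hadj
    have hv12 : v1 ≠ v2 := by
      rintro rfl
      obtain ⟨_, e4⟩ := split_unique h.pth.1 e1 e2
      simp only [List.cons.injEq] at e4
      exact hne e4.1
    have hv1l : v1 ∈ l := by rw [e1]; simp
    have hv2l : v2 ∈ l := by rw [e2]; simp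
    have hw2l := hSl w2 hw2
    rw [e1, List.mem_append, List.mem_cons, List.mem_cons] at hw2l
    rcases hw2l with hw | hw | hw | hw
    · obtain ⟨C, D, hCD⟩ := List.append_of_mem hw
      have e3 : l = C ++ w2 :: (D ++ v1 :: w1 :: B1) := by rw [e1, hCD]; simp
      have e4 : l = (A2 ++ [v2]) ++ w2 :: B2 := by rw [e2]; simp
      obtain ⟨_, e6⟩ := split_unique h.pth.1 e3 e4
      have hw1B2 : w1 ∈ B2 := by rw [← e6]; simp
      exact ce_rot h hstuck hOU hOl e2 e1 hw1B2 hadj.symm
        (hbr v2 hv2l v1 hv1l hv12.symm hv2 hv1)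
    · have e3 : l = A1 ++ w2 :: (w1 :: B1) := by rw [e1, hw]
      have e4 : l = (A2 ++ [v2]) ++ w2 :: B2 := by rw [e2]; simp
      obtain ⟨_, e6⟩ := split_unique h.pth.1 e3 e4
      have hw1B2 : w1 ∈ B2 := by rw [← e6]; simp
      exact ce_rot h hstuck hOU hOl e2 e1 hw1B2 hadj.symm
        (hbr v2 hv2l v1 hv1l hv12.symm hv2 hv1)
    · exact hne hw.symm
    · exact ce_rot h hstuck hOU hOl e1 e2 hw hadj
        (hbr v1 hv1l v2 hv2l hv12 hv1 hv2)
  have hSJ : ∀ w ∈ S, ∀ j ∈ J, ¬ G.Adj w j := by
    intro w hw j hj hadj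
    obtain ⟨A, v, B, e, hv⟩ := hS1 w hw
    have hvl : v ∈ l := by rw [e]; simp
    have hvw : v ≠ w := by
      rintro rfl
      have := h.pth.1
      rw [e, List.nodup_append, List.nodup_cons] at this
      exact this.2.1.1 (by simp)
    exact ce_ins h hstuck hOU hOl e
      (hbr v hvl w (hSl w hw) hvw hv ⟨j, hJX hj, hadj⟩)
  have hind : Ind G (S ∪ J) := by
    intro x hx y hy
    rw [mem_union] at hx hy
    rcases hx with hx | hx
    · rcases hy with hy | hy
      · exact hSS x hx y hy
      · exact hSJ x hx y hy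
    · rcases hy with hy | hy
      · exact fun h => hSJ y hy x hx h.symm
      · exact hJ x hx y hy
  have hsub : S ∪ J ⊆ W := by
    apply union_subset
    · intro x hx
      exact hUW (h.mem x (hSl x hx))
    · exact (hJX.trans (hXO.trans hOU)).trans hUW
  have := hW _ hsub hind
  rw [card_union_of_disjoint hdisj] at this
  omega

end Vale.Agent.P048
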