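import Vale.Agent.P048.EStep

namespace Vale.Agent.P048

open Finset

variable {V : Type*} [DecidableEq V]

structure NumOK (T : ℕ → ℕ) (m b z v x0 : ℕ) (g h : ℕ → ℕ) : Prop where
  hv : 1 ≤ v
  hzm : z ≤ m
  gb : ∀ r, g r ≤ b
  hb : ∀ r, h r ≤ b
  n2 : ∀ x, x0 ≤ x → x < b → T x + T (b - x) + b + z ≤ T b + x + 2
  n3 : ∀ x, 1 ≤ x → x < x0 → (T x - 1) * b < (T b + 1 - m) * x
  x0b : x0 ≤ b
  g0 : g 0 ≤ 1
  gs : ∀ r, r < v → g (r + 1) ≤ g r ∨ (1 ≤ r ∧ g (r + 1) ≤ g (r - 1) + 1) ∨
    (2 * r ≤ v ∧ T (g (r + 1) - 1) + T (b - g r) + b + z ≤ T b + 2 + ((v - r) / 2 + 1))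
  gf : ∃ i, i < v ∧ b < g i + g (v - 1 - i)
  h0 : h 0 ≤ 1
  hs : ∀ r, h (r + 1) ≤ h r ∨ (1 ≤ r ∧ h (r + 1) ≤ h (r - 1) + 1) ∨
    T (h (r + 1) - 1) + T (b - h r) + z ≤ T b + 3
  hf : ∃ i j, b < h i + h j ∧ i + j + z ≤ m + v
  n6 : ∀ x, 1 ≤ x → x < b → T x + T (b - x) + z ≤ T b + 3

theorem stuck_false {G : SimpleGraph V} {W Z : Finset V} {T : ℕ → ℕ} {m b z v x0 : ℕ}
    {g h : ℕ → ℕ} {s t : V} {l : List V} (hm : m ≤ T b) (hT : Monotone T)
    (H : TMin G W T b) (N : NumOK T m b z v x0 g h) (hZW : Z ⊆ W) (hF : Flex G Z t s z v)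
    (hst : s ≠ t) (hl : STP G (W \ (Z \ {s, t})) s t l) (hlen : l.length + z < m + 2)
    (hstuck : Stuck G (W \ (Z \ {s, t})) s t l (v + 1)) : False := by
  classical
  have hlsub : l.toFinset ⊆ W \ (Z \ {s, t}) := by
    intro x hx
    exact hl.mem x (List.mem_toFinset.1 hx)
  have hlcard : l.toFinset.card = l.length := List.toFinset_card_of_nodup hl.pth.1
  have hsl : s ∈ l := List.mem_of_mem_head? (by rw [hl.hd]; rfl)
  have htl : t ∈ l := List.mem_of_getLast? hl.lt
  set C := Z ∪ l.toFinset with hC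
  have hCW : C ⊆ W := union_subset hZW (hlsub.trans sdiff_subset)
  have hCcard : C.card + 2 ≤ z + l.length := by
    have h1 : C ⊆ Z ∪ (l.toFinset \ {s, t}) := by
      intro x hx
      rw [hC, mem_union] at hx
      rw [mem_union, mem_sdiff, mem_insert, mem_singleton]
      by_cases hxs : x = s
      · left; rw [hxs]; exact hF.hs
      · by_cases hxt : x = t
        · left; rw [hxt]; exact hF.ht
        · rcases hx with hx | hx
          · exact Or.inl hx
          · exact Or.inr ⟨hx, by tauto⟩
    have h2 := (card_le_card h1).trans (card_union_le _ _)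
    have hsub : ({s, t} : Finset V) ⊆ l.toFinset := by
      intro x hx
      rw [mem_insert, mem_singleton] at hx
      rw [List.mem_toFinset]
      rcases hx with rfl | rfl
      · exact hsl
      · exact htl
    have h3 : (l.toFinset \ {s, t}).card = l.toFinset.card - 2 := by
      rw [card_sdiff_of_subset hsub, card_pair hst]
    have h4 : 2 ≤ l.toFinset.card := by
      have := card_le_card hsub
      rwa [card_pair hst] at this
    rw [hF.card] at h2
    omega
  have hYcard : T b + 1 ≤ (W \ C).card + m := by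
    have h1 : (W \ C).card + C.card = W.card := card_sdiff_add_card_eq_card hCW
    have h2 := H.card
    omega
  have hYne : (W \ C).Nonempty := by
    rw [← card_pos]; omega
  obtain ⟨D, hDY, hDne, hcl, hconn, hdens⟩ := exists_dense_comp (G := G) _ (W \ C) rfl hYne
  have hDW : D ⊆ W := hDY.trans sdiff_subset
  have hDC : ∀ x ∈ D, x ∉ C := fun x hx => (mem_sdiff.1 (hDY hx)).2
  have hDl : ∀ x ∈ l, x ∉ D := by
    intro x hx hxD
    exact hDC x hxD (by rw [hC, mem_union]; exact Or.inr (List.mem_toFinset.2 hx))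
  have hDU : D ⊆ W \ (Z \ {s, t}) := by
    intro x hx
    rw [mem_sdiff, mem_sdiff]
    exact ⟨hDW hx, fun h => hDC x hx (by rw [hC, mem_union]; exact Or.inl h.1)⟩
  have hxpos := alpha_pos (G := G) hDne
  have hxb : alpha G D ≤ b := alpha_le (H.al.mono hDW le_rfl)
  have hYb : alpha G (W \ C) ≤ b := alpha_le (H.al.mono sdiff_subset le_rfl)
  have hx0 : x0 ≤ alpha G D := by
    by_contra hcon
    push Not at hcon
    have h1 := N.n3 (alpha G D) hxpos hcon
    have hxlt : alpha G D < b := lt_of_lt_of_le hcon N.x0b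
    have h2 := H.small (alpha G D) hxlt D hDW (alphaLe_alpha G D)
    have h3 : D.card ≤ T (alpha G D) - 1 := by omega
    have h4 : (T b + 1 - m) * alpha G D ≤ (T (alpha G D) - 1) * b := by
      calc (T b + 1 - m) * alpha G D ≤ (W \ C).card * alpha G D :=
            Nat.mul_le_mul_right _ (by omega)
        _ ≤ D.card * alpha G (W \ C) := hdens
        _ ≤ D.card * b := Nat.mul_le_mul_left _ hYb
        _ ≤ (T (alpha G D) - 1) * b := Nat.mul_le_mul_right _ h3
    omega
  have hatt0 : ∀ X X' : Finset V, X ⊆ X' → X' ⊆ D → (∀ x ∈ X, ∀ y ∈ X', y ∈ ball G D x v) →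
      (l.dropLast.toFinset.filter (Att G X)).card + alpha G X' ≤ b := by
    intro X X' hXX hXD hP
    obtain ⟨J, hJ1, hJ2, hJ3⟩ := exists_ind_alpha G X'
    rw [← hJ3]
    apply ce_main2 H.al sdiff_subset hl hstuck hDU hDl hXX hXD _ hJ1 hJ2
    intro w hw w' hw' _ ha ha'
    obtain ⟨x, hx, hwx⟩ := ha
    obtain ⟨y, hy, hwy⟩ := ha'
    obtain ⟨q, h1, h2, h3, h4, h5⟩ := ball_chain (hXD (hXX hx)) v y (hP x hx y hy)
    exact bridge_of_chain h1 h2 h3 h4 h5 hwx hwy
  have hatt : ∀ X X' : Finset V, X ⊆ X' → X' ⊆ D → (∀ x ∈ X, ∀ y ∈ X', y ∈ ball G D x v) →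
      (C.filter (Att G X)).card + alpha G X' + 1 ≤ b + z := by
    intro X X' hXX hXD hP
    have h0 := hatt0 X X' hXX hXD hP
    have h2 : C.filter (Att G X) ⊆ (Z.erase s) ∪ (l.dropLast.toFinset.filter (Att G X)) := by
      intro x hx
      rw [mem_filter, hC, mem_union] at hx
      rw [mem_union, mem_erase, mem_filter, List.mem_toFinset]
      by_cases hxt : x = t
      · left
        rw [hxt]
        exact ⟨hst.symm, hF.ht⟩
      · by_cases hxl : x ∈ l
        · right
          refine ⟨?_, hx.2⟩
          have h3 : l = l.dropLast ++ [t] := (List.dropLast_append_getLast? t hl.lt).symm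
          rw [h3, List.mem_append, List.mem_singleton] at hxl
          exact hxl.resolve_right hxt
        · left
          refine ⟨?_, hx.1.resolve_right (fun h => hxl (List.mem_toFinset.1 h))⟩
          rintro rfl
          exact hxl hsl
    have h3 := (card_le_card h2).trans (card_union_le _ _)
    rw [card_erase_of_mem hF.hs, hF.card] at h3
    have hz1 : 1 ≤ z := by
      rw [← hF.card]; exact card_pos.2 ⟨s, hF.hs⟩
    omega
  by_cases hdiam : ∀ x ∈ D, ∀ y ∈ D, y ∈ ball G D x v
  · rcases Nat.lt_or_ge (alpha G D) b with hlt | hge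
    · have h1 := hatt D D (Subset.refl _) (Subset.refl _) hdiam
      have h2 := tmin_nbr H hT hDW hDne le_rfl
      have h3 := bd_comp (W := W) (C := C) hcl
      have h4 := H.small (alpha G D) hlt D hDW (alphaLe_alpha G D)
      have h5 := N.n2 (alpha G D) hx0 hlt
      omega
    · have hEq : alpha G D = b := le_antisymm hxb hge
      have h1 := hatt0 D D (Subset.refl _) (Subset.refl _) hdiam
      have hsD : s ∉ D := hDl s hsl
      obtain ⟨x, hx, hxs⟩ := tmin_full H hDW hEq (hZW hF.hs) hsD
      have h2 : s ∈ l.dropLast.toFinset.filter (Att G D) := by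
        rw [mem_filter, List.mem_toFinset]
        refine ⟨?_, x, hx, hxs.symm⟩
        obtain ⟨w, B, hlB⟩ := stp_form hl hst
        rw [hlB]
        simp [List.dropLast]
      have h3 := card_pos.2 ⟨s, h2⟩
      omega
  · push Not at hdiam
    obtain ⟨u, hu, w, hw, huw⟩ := hdiam
    have hwu : u ∉ ball G D w v := fun h => huw (ball_symm hw v u h)
    have hclaim : ∀ u' ∈ D, ∀ w' ∈ D, w' ∉ ball G D u' v → ∀ r, r ≤ v →
        g r ≤ alpha G (ball G D u' r) := by
      intro u' hu' w' hw' hfar r
      have hfar' : ∀ k, k ≤ v → w' ∉ ball G D u' k := fun k hk h => hfar (ball_mono hk h)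
      induction r using Nat.strong_induction_on with
      | _ r ih =>
        intro hr
        rcases r with _ | r
        · have := alpha_pos (G := G) (X := ball G D u' 0) ⟨u', ball_self 0⟩
          have := N.g0
          omega
        · rcases N.gs r (by omega) with h1 | ⟨h1, h2⟩ | ⟨h1, h2⟩
          · have h3 := ih r (by omega) (by omega)
            have h4 := alpha_mono (G := G) (ball_mono (G := G) (D := D) (u := u') (Nat.le_succ r))
            exact h1.trans (h3.trans h4)
          · obtain ⟨r', rfl⟩ : ∃ r', r = r' + 1 := ⟨r - 1, by omega⟩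
            have h3 := ih r' (by omega) (by omega)
            have h4 := alpha_ball_grow hconn hu' hw' (hfar' (r' + 1) (by omega))
            have h5 : r' + 1 - 1 = r' := by omega
            rw [h5] at h2
            have h6 : r' + 1 + 1 = r' + 2 := rfl
            rw [h6] at *
            omega
          · rcases Nat.eq_zero_or_pos (g (r + 1)) with h0 | hpos
            · omega
            · have h3 := ih r (by omega) (by omega)
              have h4 : ball G D u' r ⊆ ball G D u' (v - r) := ball_mono (by omega)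
              have h5 := hatt (ball G D u' r) (ball G D u' (v - r)) h4 (ball_sub hu' _) (by
                intro x hx y hy
                have h6 := ball_symm hu' r x hx
                have h7 := ball_trans h6 (v - r) y hy
                have h8 : r + (v - r) = v := by omega
                rwa [h8] at h7)
              have h6 := alpha_ball_trivial hconn hu' hw' (v - r)
                (fun k hk => hfar' k (by omega))
              have h7 := ball_step H hT hDY hu' hcl (r := r) le_rfl h3
              apply alpha_ge H ((ball_sub hu' _).trans hDW) hpos (N.gb _)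
              omega
    obtain ⟨i, hi, hbi⟩ := N.gf
    obtain ⟨h1, h2⟩ := ball_far (i := i) (j := v - 1 - i) hu hw (by omega) huw
    have h3 := alpha_add_le H.al ((ball_sub hu i).trans hDW)
      ((ball_sub hw (v - 1 - i)).trans hDW) h1 h2
    have h4 := hclaim u hu w hw huw i (by omega)
    have h5 := hclaim w hw u hu hwu (v - 1 - i) (by omega)
    omega

theorem init_path {G : SimpleGraph V} {W Z : Finset V} {T : ℕ → ℕ} {m b z v x0 : ℕ}
    {g h : ℕ → ℕ} {s t : V} (hT : Monotone T)
    (H : TMin G W T b) (N : NumOK T m b z v x0 g h) (hZW : Z ⊆ W) (hF : Flex G Z t s z v)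
    (hst : s ≠ t) : ∃ l, STP G (W \ (Z \ {s, t})) s t l ∧ l.length + z ≤ m + 2 + v := by
  classical
  set C := Z \ {s, t} with hC
  set U := W \ C with hU
  have hstZ : ({s, t} : Finset V) ⊆ Z := by
    intro x hx
    rw [mem_insert, mem_singleton] at hx
    rcases hx with rfl | rfl
    · exact hF.hs
    · exact hF.ht
  have hCcard : C.card + 2 = z := by
    have h1 : C.card + ({s, t} : Finset V).card = Z.card := card_sdiff_add_card_eq_card hstZ
    rw [card_pair hst, hF.card] at h1
    exact h1
  have hsU : s ∈ U := by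
    rw [hU, mem_sdiff, hC, mem_sdiff]
    exact ⟨hZW hF.hs, fun h => h.2 (by simp)⟩
  have htU : t ∈ U := by
    rw [hU, mem_sdiff, hC, mem_sdiff]
    exact ⟨hZW hF.ht, fun h => h.2 (by simp)⟩
  have hUW : U ⊆ W := sdiff_subset
  have hcl : ∀ x ∈ U, ∀ y ∈ W \ C, G.Adj x y → y ∈ U := fun x _ y hy _ => hy
  have hconn : Conn G U := by
    intro A hA hAne hAcl
    by_contra hne
    have hbd : (bd G W A).card ≤ C.card := by
      apply card_le_card
      intro y hy
      rw [mem_bd] at hy
      obtain ⟨hyW, hyA, x, hx, hxy⟩ := hy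
      by_contra hyC
      exact hyA (hAcl x hx y (by rw [hU, mem_sdiff]; exact ⟨hyW, hyC⟩) hxy)
    have hAb : alpha G A ≤ b := alpha_le (H.al.mono (hA.trans hUW) le_rfl)
    have hApos := alpha_pos (G := G) hAne
    rcases Nat.lt_or_ge (alpha G A) b with hlt | hge
    · have h1 := tmin_nbr H hT (hA.trans hUW) hAne le_rfl
      have h2 := H.small (alpha G A) hlt A (hA.trans hUW) (alphaLe_alpha G A)
      have h3 := N.n6 (alpha G A) hApos hlt
      omega
    · have hex : ∃ w ∈ U, w ∉ A := by
        by_contra hcon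
        push Not at hcon
        exact hne (Subset.antisymm hA hcon)
      obtain ⟨w, hw, hwA⟩ := hex
      obtain ⟨x, hx, hxw⟩ := tmin_full H (hA.trans hUW) (le_antisymm hAb hge) (hUW hw) hwA
      exact hwA (hAcl x hx w hw hxw)
  have hclaim : ∀ u' ∈ U, ∀ w' ∈ U, ∀ r, (∀ k, k + 1 ≤ r → w' ∉ ball G U u' k) →
      h r ≤ alpha G (ball G U u' r) := by
    intro u' hu' w' hw' r
    induction r using Nat.strong_induction_on with
    | _ r ih =>
      intro hr
      rcases r with _ | r
      · have := alpha_pos (G := G) (X := ball G U u' 0) ⟨u', ball_self 0⟩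
        have := N.h0
        omega
      · rcases N.hs r with h1 | ⟨h1, h2⟩ | h2
        · have h3 := ih r (by omega) (fun k hk => hr k (by omega))
          have h4 := alpha_mono (G := G) (ball_mono (G := G) (D := U) (u := u') (Nat.le_succ r))
          exact h1.trans (h3.trans h4)
        · obtain ⟨r', rfl⟩ : ∃ r', r = r' + 1 := ⟨r - 1, by omega⟩
          have h3 := ih r' (by omega) (fun k hk => hr k (by omega))
          have h4 := alpha_ball_grow hconn hu' hw' (hr (r' + 1) (by omega))
          have h5 : r' + 1 - 1 = r' := by omega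
          rw [h5] at h2
          have h6 : r' + 1 + 1 = r' + 2 := rfl
          rw [h6] at *
          omega
        · rcases Nat.eq_zero_or_pos (h (r + 1)) with h0 | hpos
          · omega
          · have h3 := ih r (by omega) (fun k hk => hr k (by omega))
            have h7 := ball_step (D := U) (c := C.card) H hT (Subset.refl U) hu' hcl (r := r)
              (card_le_card (filter_subset _ _)) h3
            apply alpha_ge H ((ball_sub hu' _).trans hUW) hpos (N.hb _)
            omega
  obtain ⟨i, j, hij, hijz⟩ := N.hf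
  by_cases hfar : t ∈ ball G U s (i + j + 1)
  · obtain ⟨l, hl, hlen⟩ := stp_of_ball hsU hfar
    exact ⟨l, hl, by omega⟩
  · exfalso
    have hfar2 : s ∉ ball G U t (i + j + 1) := fun h' => hfar (ball_symm htU _ s h')
    obtain ⟨h1, h2⟩ := ball_far (i := i) (j := j) hsU htU le_rfl hfar
    have h3 := alpha_add_le H.al ((ball_sub hsU i).trans hUW) ((ball_sub htU j).trans hUW) h1 h2
    have h4 := hclaim s hsU t htU i (fun k hk h' => hfar (ball_mono (by omega) h'))
    have h5 := hclaim t htU s hsU j (fun k hk h' => hfar2 (ball_mono (by omega) h'))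
    omega

omit [DecidableEq V] in
theorem gap_of' {G : SimpleGraph V} {U : Finset V} {s t : V} {L v : ℕ}
    (hinit : ∃ l, STP G U s t l ∧ l.length ≤ L + v)
    (hns : ∀ l, STP G U s t l → l.length < L → Stuck G U s t l (v + 1) → False) :
    ∃ l, STP G U s t l ∧ L ≤ l.length ∧ l.length ≤ L + v := by
  classical
  obtain ⟨l0, hl0, hl0'⟩ := hinit
  have hP : ∃ l, STP G U s t l ∧ l.length = l0.length := ⟨l0, hl0, rfl⟩
  have hspec := Nat.findGreatest_spec (P := fun n => ∃ l, STP G U s t l ∧ l.length = n) hl0' hP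
  have hle := Nat.findGreatest_le (P := fun n => ∃ l, STP G U s t l ∧ l.length = n) (L + v)
  obtain ⟨l, hl, hln⟩ := hspec
  refine ⟨l, hl, ?_, by omega⟩
  by_contra hcon
  apply hns l hl (by omega)
  intro l' hl' hlt
  by_contra hcon'
  exact Nat.findGreatest_is_greatest (P := fun n => ∃ l, STP G U s t l ∧ l.length = n)
    (n := L + v) (k := l'.length) (by omega) (by omega) ⟨l', hl', rfl⟩

theorem chainNum_le {b e z v : ℕ} (h : ChainNum b e z v) : v + 1 ≤ z := by
  induction h with
  | start => omega
  | step k _ _ ih => omega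

theorem engine {G : SimpleGraph V} {W : Finset V} {T : ℕ → ℕ} {m b z v x0 : ℕ}
    {g h : ℕ → ℕ} (hm : m ≤ T b) (hT : Monotone T) (H : TMin G W T b)
    (N : NumOK T m b z v x0 g h) (hch : ChainNum b (T b - T (b - 1)) z v) :
    ∃ c, Cyc G c ∧ c.length = m ∧ ∀ x ∈ c, x ∈ W := by
  have hzv := chainNum_le hch
  have hv := N.hv
  have hzm := N.hzm
  have hWne : W.Nonempty := by
    rw [← card_pos]
    have := H.card
    omega
  obtain ⟨t, ht⟩ := hWne
  have hdeg : ∀ s ∈ W, T b - T (b - 1) ≤ (bd G W {s}).card := by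
    intro s hs
    have h1 := alpha_pos (G := G) (X := {s}) ⟨s, mem_singleton_self s⟩
    have h2 := tmin_nbr H hT (singleton_subset_iff.2 hs) ⟨s, mem_singleton_self s⟩ h1
    rw [card_singleton] at h2
    omega
  obtain ⟨Z, s, hZW, hF⟩ := flex_num H.al ht hdeg hch
  have hst := flex_ne hF (by omega)
  obtain ⟨l0, hl0, hl0'⟩ := init_path hT H N hZW hF hst
  obtain ⟨l, hl, h1, h2⟩ := gap_of' (L := m + 2 - z) (v := v) ⟨l0, hl0, by omega⟩
    (fun l hl h1 h2 => stuck_false hm hT H N hZW hF hst hl (by omega) h2)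
  obtain ⟨p, hp1, hp2, hp3, hp4, hp5⟩ := hF.path (l.length - (m + 2 - z)) (by omega)
  obtain ⟨c, hc1, hc2, hc3⟩ := cyc_of_two hZW hst hl hp1 hp2 hp3 hp4
  exact ⟨c, hc1, by omega, hc3⟩

end Vale.Agent.P048
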