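import Vale.Agent.P048.Two
import Vale.Agent.P048.Engine

namespace Vale.Agent.P048

open Finset

variable {V : Type*} [DecidableEq V]

def LevOK (T : ℕ → ℕ) (m b : ℕ) : Prop :=
  ∃ (z v x0 : ℕ) (g h : ℕ → ℕ), NumOK T m b z v x0 g h ∧ ChainNum b (T b - T (b - 1)) z v ∧
    m ≤ T b

omit [DecidableEq V] in
theorem card_zero_of_alphaLe {G : SimpleGraph V} {X : Finset V} (h : AlphaLe G X 0) :
    X.card = 0 := by
  rw [card_eq_zero, ← not_nonempty_iff_eq_empty]
  rintro ⟨x, hx⟩
  have := h {x} (singleton_subset_iff.2 hx) (ind_singleton G x)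
  rw [card_singleton] at this
  omega

theorem upper_T {G : SimpleGraph V} {T : ℕ → ℕ} {t A m : ℕ} (ht : 3 ≤ t) (hm1 : 2 * t ≤ m)
    (hT : Monotone T) (hT0 : T 0 = 1) (hT1 : T 1 = t) (hT2 : T 2 = 2 * t)
    (hAt : A < t) (hTa : ∀ a, 1 ≤ a → a ≤ A → T a ≤ (m - 1) * a + 1)
    (hnum : ∀ b, 3 ≤ b → b ≤ A → LevOK T m b) :
    ∀ a, a ≤ A → ∀ W : Finset V, AlphaLe G W a → (m - 1) * a + 1 ≤ W.card → HasCyc G W m := by
  classical
  intro a
  induction a with
  | zero =>
    intro _ W hW hc
    have := card_zero_of_alphaLe hW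
    omega
  | succ a ih =>
    intro haA W hW hc
    by_contra hno
    have hkl : ∀ F, F ⊆ W → F.card + 1 ≤ m → ∃ I, I ⊆ W \ F ∧ Ind G I ∧ I.card = a + 1 := by
      intro F hF hFc
      apply exists_ind_of_not_alphaLe
      intro hcon
      apply hno
      refine (ih (by omega) (W \ F) hcon ?_).mono sdiff_subset
      rw [card_sdiff_of_subset hF]
      have e : (m - 1) * (a + 1) = (m - 1) * a + (m - 1) := by ring
      omega
    have hkt := kt (m := m) hW hkl
    have hP : ∃ b, 1 ≤ b ∧ ∃ W', W' ⊆ W ∧ AlphaLe G W' b ∧ T b ≤ W'.card :=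
      ⟨a + 1, by omega, W, Subset.refl _, hW, (hTa (a + 1) (by omega) haA).trans hc⟩
    obtain ⟨hb1, W', hW'W, hW'a, hW'c⟩ := Nat.find_spec hP
    have hmin := fun c => @Nat.find_min _ _ hP c
    have hble : Nat.find hP ≤ a + 1 := Nat.find_min' hP
      ⟨by omega, W, Subset.refl _, hW, (hTa (a + 1) (by omega) haA).trans hc⟩
    set b := Nat.find hP with hbdef
    have hsmall : ∀ c, c < b → ∀ X, X ⊆ W' → AlphaLe G X c → X.card < T c := by
      intro c hcb X hX hXc
      rcases Nat.eq_zero_or_pos c with rfl | hcpos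
      · have := card_zero_of_alphaLe hXc
        omega
      · by_contra hcon
        exact hmin c hcb ⟨hcpos, X, hX.trans hW'W, hXc, by omega⟩
    rcases Nat.lt_or_ge b 3 with hb3 | hb3
    · rcases Nat.lt_or_ge b 2 with hb2 | hb2
      · have hb : b = 1 := by omega
        rw [hb] at hW'a hW'c
        rw [hT1] at hW'c
        obtain ⟨S, hS1, hS2⟩ := exists_subset_card_eq hW'c
        have hcl := alpha_one (hW'a.mono hS1 le_rfl)
        apply hno
        apply hkt (m - t) S.toList
        · rw [length_toList, hS2]; omega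
        · exact clique_cyc hcl (by omega)
        · intro x hx
          exact hW'W (hS1 (mem_toList.1 hx))
        · rw [toList_toFinset]
          exact notCol_of_clique hcl (by omega)
      · have hb : b = 2 := by omega
        rw [hb] at hW'a hW'c hsmall
        rw [hT2] at hW'c
        rcases le_total m W'.card with hmW | hmW
        · obtain ⟨S, hS1, hS2⟩ := exists_subset_card_eq hmW
          obtain ⟨c, hc1, hc2, hc3⟩ := two_ham ht (hW'a.mono hS1 le_rfl) (by omega) (by
            intro X hX hX1
            have := hsmall 1 (by omega) X (hX.trans hS1) hX1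
            rwa [hT1] at this)
          exact hno ⟨c, by omega, hc1, fun x hx => hW'W (hS1 (hc3 x hx))⟩
        · obtain ⟨c, hc1, hc2, hc3⟩ := two_ham ht hW'a hW'c (by
            intro X hX hX1
            have := hsmall 1 (by omega) X hX hX1
            rwa [hT1] at this)
          apply hno
          apply hkt (m - W'.card) c (by omega) hc1 (fun x hx => hW'W (hc3 x hx))
          have hcW : c.toFinset = W' := by
            apply eq_of_subset_of_card_le
            · intro x hx
              exact hc3 x (List.mem_toFinset.1 hx)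
            · rw [List.toFinset_card_of_nodup hc1.1, hc2]
          rw [hcW]
          apply notCol_of_alpha hW'a
          omega
    · obtain ⟨z, v, x0, g, h, h1, h2, h3⟩ := hnum b hb3 (by omega)
      obtain ⟨c, hc1, hc2, hc3⟩ := engine h3 hT ⟨hW'a, hW'c, hsmall⟩ h1 h2
      exact hno ⟨c, hc2, hc1, fun x hx => hW'W (hc3 x hx)⟩

end Vale.Agent.P048
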