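import Vale.Agent.P048.Tab
import Vale.Agent.P048.UpperT

namespace Vale.Agent.P048

noncomputable def chainZ (b e : ℕ) (n : ℕ) : ℕ → ℕ → ℕ :=
  Nat.rec (fun _ _ => 0)
    (fun _ ih w z => cond (Nat.beq w 0) z (cond (Nat.ble (b + z) e)
      (ih (w - min ((e - z) / b) w) (z + (min ((e - z) / b) w + 1))) 0)) n

theorem chainZ_succ (b e n w z : ℕ) : chainZ b e (n + 1) w z =
    cond (Nat.beq w 0) z (cond (Nat.ble (b + z) e)
      (chainZ b e n (w - min ((e - z) / b) w) (z + (min ((e - z) / b) w + 1))) 0) := rfl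

noncomputable def srch (P : ℕ → Bool) (n : ℕ) : ℕ → ℕ :=
  Nat.rec (fun y => y) (fun _ ih y => cond (P y) (ih (y + 1)) y) n

theorem srch_succ (P : ℕ → Bool) (n y : ℕ) : srch P (n + 1) y =
    cond (P y) (srch P n (y + 1)) y := rfl

theorem srch_spec (P : ℕ → Bool) : ∀ (n y : ℕ), srch P n y = y ∨
    (y < srch P n y ∧ P (srch P n y - 1) = true)
  | 0, y => Or.inl rfl
  | n + 1, y => by
    rw [srch_succ]
    rcases hP : P y with _ | _
    · exact Or.inl rfl
    · right
      rw [cond_true]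
      rcases srch_spec P n (y + 1) with h | ⟨h1, h2⟩
      · rw [h]
        exact ⟨by omega, hP⟩
      · exact ⟨by omega, h2⟩

noncomputable def nxt (E : ℕ → ℕ) (t b c1 c2 p x : ℕ) : ℕ :=
  cond (Nat.ble (p + 2) x && (Nat.ble (x + (x - p)) b &&
    Nat.ble (t * (x + (x - p) - 1 - x) + E (x + (x - p) - 1) + c1) c2))
    (srch (fun y => Nat.ble (y + 1) b && Nat.ble (t * (y - x) + E y + c1) c2) b
      (x + (x - p)))
    (srch (fun y => Nat.ble (y + 1) b && Nat.ble (t * (y - x) + E y + c1) c2) b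
      (min (max x (p + 1)) b))

theorem nxt_spec {E : ℕ → ℕ} {t b c1 c2 p x : ℕ} (hx : x ≤ b) :
    nxt E t b c1 c2 p x ≤ b ∧ x ≤ nxt E t b c1 c2 p x ∧
    (nxt E t b c1 c2 p x ≤ x ∨ nxt E t b c1 c2 p x ≤ p + 1 ∨
      (x < nxt E t b c1 c2 p x ∧ t * (nxt E t b c1 c2 p x - 1 - x) +
        E (nxt E t b c1 c2 p x - 1) + c1 ≤ c2)) := by
  unfold nxt
  set P : ℕ → Bool := fun y => Nat.ble (y + 1) b && Nat.ble (t * (y - x) + E y + c1) c2 with hP
  rcases hc : (Nat.ble (p + 2) x && (Nat.ble (x + (x - p)) b &&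
    Nat.ble (t * (x + (x - p) - 1 - x) + E (x + (x - p) - 1) + c1) c2)) with _ | _
  · rw [cond_false]
    set y := srch P b (min (max x (p + 1)) b) with hy
    rcases srch_spec P b (min (max x (p + 1)) b) with h | ⟨h1, h2⟩
    · rw [← hy] at h
      rw [h]
      refine ⟨min_le_right _ _, by omega, ?_⟩
      rcases le_total x (p + 1) with h1 | h1
      · right; left
        rw [max_eq_right h1]
        exact min_le_left _ _
      · left
        rw [max_eq_left h1]
        exact min_le_left _ _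
    · rw [← hy] at h1 h2
      rw [hP] at h2
      simp only [Bool.and_eq_true, Nat.ble_eq] at h2
      have h3 : x < y := by omega
      exact ⟨by omega, h3.le, Or.inr (Or.inr ⟨h3, h2.2⟩)⟩
  · rw [cond_true]
    simp only [Bool.and_eq_true, Nat.ble_eq] at hc
    obtain ⟨hc1, hc2, hc3⟩ := hc
    set y := srch P b (x + (x - p)) with hy
    rcases srch_spec P b (x + (x - p)) with h | ⟨h1, h2⟩
    · rw [← hy] at h
      rw [h]
      exact ⟨hc2, by omega, Or.inr (Or.inr ⟨by omega, hc3⟩)⟩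
    · rw [← hy] at h1 h2
      rw [hP] at h2
      simp only [Bool.and_eq_true, Nat.ble_eq] at h2
      have h3 : x < y := by omega
      exact ⟨by omega, h3.le, Or.inr (Or.inr ⟨h3, h2.2⟩)⟩

noncomputable def runG (E : ℕ → ℕ) (t b z v : ℕ) (n : ℕ) : ℕ → ℕ → ℕ → Bool :=
  Nat.rec (fun _ _ _ => false)
    (fun _ ih r p x => cond (Nat.beq r (v / 2))
      (Nat.ble (b + 1) (cond (Nat.beq (v % 2) 1) (x + x) (p + x)))
      (ih (r + 1) x (nxt E t b (E (b - x) + b + z) (E b + 2 + ((v - r) / 2 + 1)) p x))) n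

theorem runG_succ (E : ℕ → ℕ) (t b z v n r p x : ℕ) : runG E t b z v (n + 1) r p x =
    cond (Nat.beq r (v / 2))
      (Nat.ble (b + 1) (cond (Nat.beq (v % 2) 1) (x + x) (p + x)))
      (runG E t b z v n (r + 1) x
        (nxt E t b (E (b - x) + b + z) (E b + 2 + ((v - r) / 2 + 1)) p x)) := rfl

noncomputable def runH (E : ℕ → ℕ) (t b z u : ℕ) (n : ℕ) : ℕ → ℕ → ℕ → Bool :=
  Nat.rec (fun _ _ _ => false)
    (fun _ ih r p x => cond (Nat.ble (b + 1) (p + x)) (Nat.ble (r + r + z) (u + 1))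
      (cond (Nat.ble (b + 1) (x + x)) (Nat.ble (r + r + z) u)
      (ih (r + 1) x (nxt E t b (E (b - x) + z) (E b + 3) p x)))) n

theorem runH_succ (E : ℕ → ℕ) (t b z u n r p x : ℕ) : runH E t b z u (n + 1) r p x =
    cond (Nat.ble (b + 1) (p + x)) (Nat.ble (r + r + z) (u + 1))
      (cond (Nat.ble (b + 1) (x + x)) (Nat.ble (r + r + z) u)
      (runH E t b z u n (r + 1) x (nxt E t b (E (b - x) + z) (E b + 3) p x))) := rfl

def StepG (E : ℕ → ℕ) (t b c : ℕ) (lim : ℕ → ℕ) (g : ℕ → ℕ) (r : ℕ) : Prop :=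
  g (r + 1) ≤ g r ∨ (1 ≤ r ∧ g (r + 1) ≤ g (r - 1) + 1) ∨
    (g r < g (r + 1) ∧ t * (g (r + 1) - 1 - g r) + E (g (r + 1) - 1) + (E (b - g r) + c) ≤ lim r)

def Inv (E : ℕ → ℕ) (t b c : ℕ) (lim : ℕ → ℕ) (r p x : ℕ) : Prop :=
  ∃ g : ℕ → ℕ, (∀ i, 1 ≤ g i ∧ g i ≤ b) ∧ g 0 = 1 ∧ (∀ i, i < r → StepG E t b c lim g i) ∧
    (∀ i, r ≤ i → g i = x) ∧ (r = 0 ∧ p = 0 ∨ 1 ≤ r ∧ g (r - 1) = p)

theorem inv_zero {E : ℕ → ℕ} {t b c : ℕ} {lim : ℕ → ℕ} (hb : 1 ≤ b) : Inv E t b c lim 0 0 1 :=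
  ⟨fun _ => 1, fun _ => ⟨le_rfl, hb⟩, rfl, fun i hi => absurd hi (Nat.not_lt_zero i),
    fun _ _ => rfl, Or.inl ⟨rfl, rfl⟩⟩

theorem inv_step {E : ℕ → ℕ} {t b c r p x c1 c2 : ℕ} {lim : ℕ → ℕ} (h : Inv E t b c lim r p x)
    (h1 : c1 = E (b - x) + c) (h2 : c2 = lim r) :
    Inv E t b c lim (r + 1) x (nxt E t b c1 c2 p x) := by
  obtain ⟨g, hg1, hg2, hg3, hg4, hg5⟩ := h
  have hgr : g r = x := hg4 r le_rfl
  have hx1 : 1 ≤ x := by rw [← hgr]; exact (hg1 r).1
  have hxb : x ≤ b := by rw [← hgr]; exact (hg1 r).2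
  obtain ⟨hn1, hn2, hn3⟩ := nxt_spec (E := E) (t := t) (c1 := c1) (c2 := c2) (p := p) hxb
  set y := nxt E t b c1 c2 p x with hy
  refine ⟨fun i => if i ≤ r then g i else y, ?_, ?_, ?_, ?_, ?_⟩
  · intro i
    by_cases hi : i ≤ r
    · simp only [hi, if_true]; exact hg1 i
    · simp only [hi, if_false]; exact ⟨by omega, hn1⟩
  · simp only [Nat.zero_le, if_true]; exact hg2
  · intro i hi
    rcases Nat.lt_or_ge i r with hir | hir
    · have := hg3 i hir
      unfold StepG at this ⊢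
      have e1 : i + 1 ≤ r := hir
      have e2 : i ≤ r := by omega
      have e3 : i - 1 ≤ r := by omega
      simp only [e1, e2, e3, if_true]
      exact this
    · have hir' : i = r := by omega
      subst hir'
      unfold StepG
      have e1 : ¬ (i + 1 ≤ i) := by omega
      have e3 : i - 1 ≤ i := by omega
      simp only [e1, e3, if_true, if_false, le_refl]
      rw [hgr]
      rcases hn3 with h3 | h3 | ⟨h3, h4⟩
      · exact Or.inl h3
      · rcases hg5 with ⟨h5, h6⟩ | ⟨h5, h6⟩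
        · left
          rw [h6] at h3
          omega
        · right; left
          rw [h6]
          exact ⟨h5, h3⟩
      · right; right
        rw [← h1, ← h2]
        exact ⟨h3, h4⟩
  · intro i hi
    have e1 : ¬ (i ≤ r) := by omega
    simp only [e1, if_false]
  · right
    refine ⟨by omega, ?_⟩
    have e : r + 1 - 1 = r := by omega
    rw [e]
    simp only [le_refl, if_true]
    exact hgr

theorem runG_sound {E : ℕ → ℕ} {t b z v : ℕ} : ∀ (n r p x : ℕ),
    runG E t b z v n r p x = true → r ≤ v / 2 →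
    Inv E t b (b + z) (fun r => E b + 2 + ((v - r) / 2 + 1)) r p x →
    ∃ p' x', Inv E t b (b + z) (fun r => E b + 2 + ((v - r) / 2 + 1)) (v / 2) p' x' ∧
      (v % 2 = 1 ∧ b < x' + x' ∨ v % 2 ≠ 1 ∧ b < p' + x')
  | 0, r, p, x => by
    intro h
    exact absurd h (by simp [runG])
  | n + 1, r, p, x => by
    intro h hr hI
    rw [runG_succ] at h
    rcases hc : Nat.beq r (v / 2) with _ | _
    · rw [hc, cond_false] at h
      have hne : r ≠ v / 2 := Nat.ne_of_beq_eq_false hc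
      exact runG_sound n _ _ _ h (by omega) (inv_step hI (by ring) rfl)
    · rw [hc, cond_true] at h
      have he : r = v / 2 := Nat.eq_of_beq_eq_true hc
      rw [he] at hI
      refine ⟨p, x, hI, ?_⟩
      rw [Nat.ble_eq] at h
      rcases hd : Nat.beq (v % 2) 1 with _ | _
      · rw [hd, cond_false] at h
        exact Or.inr ⟨Nat.ne_of_beq_eq_false hd, h⟩
      · rw [hd, cond_true] at h
        exact Or.inl ⟨Nat.eq_of_beq_eq_true hd, h⟩

theorem runH_sound {E : ℕ → ℕ} {t b z u : ℕ} (hb : 1 ≤ b) : ∀ (n r p x : ℕ),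
    runH E t b z u n r p x = true →
    Inv E t b z (fun _ => E b + 3) r p x →
    ∃ r' p' x', Inv E t b z (fun _ => E b + 3) r' p' x' ∧
      (r' + r' + z ≤ u + 1 ∧ b < p' + x' ∨ r' + r' + z ≤ u ∧ b < x' + x')
  | 0, r, p, x => by
    intro h
    exact absurd h (by simp [runH])
  | n + 1, r, p, x => by
    intro h hI
    rw [runH_succ] at h
    rcases hc : Nat.ble (b + 1) (p + x) with _ | _
    · rw [hc, cond_false] at h
      rcases hd : Nat.ble (b + 1) (x + x) with _ | _
      · rw [hd, cond_false] at h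
        exact runH_sound hb n _ _ _ h (inv_step hI rfl rfl)
      · rw [hd, cond_true] at h
        rw [Nat.ble_eq] at h hd
        exact ⟨r, p, x, hI, Or.inr ⟨h, hd⟩⟩
    · rw [hc, cond_true] at h
      rw [Nat.ble_eq] at h hc
      exact ⟨r, p, x, hI, Or.inl ⟨h, hc⟩⟩

theorem chainZ_sound {b e : ℕ} : ∀ (n w z u : ℕ), 1 ≤ chainZ b e n w z →
    ChainNum b e z u → ChainNum b e (chainZ b e n w z) (u + w)
  | 0, w, z, u => by
    intro h
    exact absurd h (by simp [chainZ])
  | n + 1, w, z, u => by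
    intro h1 h
    rw [chainZ_succ] at h1 ⊢
    rcases hw : Nat.beq w 0 with _ | _
    · rw [hw, cond_false] at h1
      rw [cond_false]
      rcases hc : Nat.ble (b + z) e with _ | _
      · rw [hc, cond_false] at h1
        omega
      · rw [hc, cond_true] at h1
        rw [cond_true]
        have h2 : min ((e - z) / b) w * b + z ≤ e := by
          have h3 : min ((e - z) / b) w * b ≤ (e - z) / b * b :=
            Nat.mul_le_mul_right _ (min_le_left _ _)
          have h4 : (e - z) / b * b ≤ e - z := Nat.div_mul_le_self _ _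
          rw [Nat.ble_eq] at hc
          omega
        have h5 := chainZ_sound n _ _ _ h1 (h.step (min ((e - z) / b) w) h2)
        have h6 : min ((e - z) / b) w ≤ w := min_le_right _ _
        have e1 : u + w = u + min ((e - z) / b) w + (w - min ((e - z) / b) w) := by omega
        rw [e1]
        exact h5
    · rw [cond_true]
      have e1 : w = 0 := Nat.eq_of_beq_eq_true hw
      rw [e1]
      exact h

theorem ChainNum.mono {b e e' z v : ℕ} (h : ChainNum b e z v) (he : e ≤ e') :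
    ChainNum b e' z v := by
  induction h with
  | start => exact ChainNum.start
  | step k _ hk ih => exact ih.step k (hk.trans he)

noncomputable def chkZ (E : ℕ → ℕ) (t1 t2 mlo mhi b v x0 z : ℕ) : Bool :=
  Nat.ble 1 v && (Nat.ble 1 z && (Nat.ble z mlo && (Nat.ble 1 x0 && (Nat.ble x0 b &&
  ((Nat.beq x0 b || (Nat.ble (E x0 + E (b - x0) + (b + z)) (E b + x0 + 2) &&
    Nat.ble (E (b - 1) + (b + z)) (E b + b + 1))) &&
  (Nat.ble (E (b - 1) + z) (E b + 3) &&
  ((Nat.beq x0 1 || Nat.ble (E (x0 - 1) * b + (mhi - 1) * (x0 - 1) + 1)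
    (E b * (x0 - 1) + b)) &&
  (runG E t2 b z v (v + 1) 0 0 1 &&
  (runH E t2 b z (mlo + v) (b + 2) 0 0 1 &&
  Nat.ble 1 (E b))))))))))

noncomputable def chkB (E : ℕ → ℕ) (t1 t2 mlo mhi b v x0 : ℕ) : Bool :=
  chkZ E t1 t2 mlo mhi b v x0 (chainZ b (t1 + (E b - E (b - 1))) (v + 1) v 1)

theorem chain_of_chk {E T : ℕ → ℕ} {A t1 t b v : ℕ} (hE : Tab E A)
    (hb : 2 ≤ b) (hbA : b ≤ A) (ht1 : t1 ≤ t) (hT : ∀ x, 1 ≤ x → x ≤ A → T x = t * x + E x)
    (h2 : 1 ≤ chainZ b (t1 + (E b - E (b - 1))) (v + 1) v 1) :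
    ChainNum b (T b - T (b - 1)) (chainZ b (t1 + (E b - E (b - 1))) (v + 1) v 1) v := by
  have hTb : T b = t * b + E b := hT b (by omega) hbA
  have hTb1 : T (b - 1) = t * (b - 1) + E (b - 1) := hT (b - 1) (by omega) (by omega)
  have hc := chainZ_sound (b := b) (e := t1 + (E b - E (b - 1))) (v + 1) v 1 0 h2
    ChainNum.start
  rw [Nat.zero_add] at hc
  refine hc.mono ?_
  rw [hTb, hTb1]
  have hmono := hE.mono (b - 1) (by omega) (by omega)
  have e : b - 1 + 1 = b := by omega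
  rw [e] at hmono
  have e2 : t * b = t * (b - 1) + t := by
    obtain ⟨c, rfl⟩ : ∃ c, b = c + 1 := ⟨b - 1, by omega⟩
    rw [Nat.add_sub_cancel]; ring
  rw [e2]
  omega

theorem numOK_of_chkZ {E T : ℕ → ℕ} {A t1 t2 t mlo mhi m b v x0 z : ℕ} (hE : Tab E A)
    (hb : 2 ≤ b) (hbA : b ≤ A) (ht2 : t ≤ t2) (hm0 : 1 ≤ m) (hm1 : mlo ≤ m)
    (hm2 : m ≤ mhi) (hmT : m ≤ T b) (hT : ∀ x, 1 ≤ x → x ≤ A → T x = t * x + E x)
    (h : chkZ E t1 t2 mlo mhi b v x0 z = true) :
    (∃ g k : ℕ → ℕ, NumOK T m b z v x0 g k) ∧ 1 ≤ z ∧ 1 ≤ E b := by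
  unfold chkZ at h
  simp only [Bool.and_eq_true, Bool.or_eq_true, Nat.ble_eq, Nat.beq_eq] at h
  obtain ⟨h1, h2, h3, h4, h5, h6, h7, h8, h9, h10, h11⟩ := h
  obtain ⟨pg, xg, ⟨g, hg1, hg2, hg3, hg4, hg5⟩, hgf⟩ :=
    runG_sound _ _ _ _ h9 (Nat.zero_le _) (inv_zero (by omega))
  obtain ⟨rh, ph, xh, ⟨k, hk1, hk2, hk3, hk4, hk5⟩, hkf⟩ :=
    runH_sound (by omega) _ _ _ _ h10 (inv_zero (by omega))
  have hTb : T b = t * b + E b := hT b (by omega) hbA
  have hTb1 : T (b - 1) = t * (b - 1) + E (b - 1) := hT (b - 1) (by omega) (by omega)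
  refine ⟨⟨g, k, ⟨h1, h3.trans hm1, fun r => (hg1 r).2, fun r => (hk1 r).2,
    ?_, ?_, h5, hg2.le, ?_, ?_, hk2.le, ?_, ?_, ?_⟩⟩, h2, h11⟩
  · intro x hx hxb
    have hxb' : x0 ≠ b := by omega
    have h6' := h6.resolve_left hxb'
    have := hE.n2 hbA h4 h6'.1 h6'.2 hx hxb
    rw [hT x (by omega) (by omega), hT (b - x) (by omega) (by omega), hTb]
    have e : t * b = t * x + t * (b - x) := by
      rw [← Nat.mul_add]; congr 1; omega
    rw [e]
    omega
  · intro x hx hxx
    have h8' := h8.resolve_left (by omega)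
    obtain ⟨X, hX⟩ : ∃ X, x0 = X + 1 := ⟨x0 - 1, by omega⟩
    subst hX
    rw [Nat.add_sub_cancel] at h8'
    have hst := hE.star hx (show x ≤ X by omega) (by omega)
    have hTx : T x = t * x + E x := hT x hx (by omega)
    have h8m : E X * b + (m - 1) * X + 1 ≤ E b * X + b := by
      have : (m - 1) * X ≤ (mhi - 1) * X := Nat.mul_le_mul_right _ (by omega)
      omega
    obtain ⟨M, hM⟩ : ∃ M, m = M + 1 := ⟨m - 1, by omega⟩
    subst hM
    rw [Nat.add_sub_cancel] at h8m
    have e1 : T b + 1 - (M + 1) = T b - M := by omega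
    rw [e1]
    have hTx1 : 1 ≤ T x ∨ T x = 0 := by omega
    have hkey : E x * b + M * x + 1 ≤ E b * x + b := by
      zify at *
      have hX0 : (0 : ℤ) < X := by omega
      have hx0 : (1 : ℤ) ≤ x := by exact_mod_cast hx
      have hxX : (x : ℤ) ≤ X := by omega
      have hb0 : (0 : ℤ) ≤ b := by positivity
      have a1 : (E x : ℤ) * X * b ≤ E X * x * b := mul_le_mul_of_nonneg_right hst hb0
      have a2 : (x : ℤ) * (E X * b + M * X + 1) ≤ x * (E b * X + b) :=
        mul_le_mul_of_nonneg_left h8m (by linarith)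
      have a3 : (x : ℤ) * b ≤ X * b := mul_le_mul_of_nonneg_right hxX hb0
      have a4 : (X : ℤ) * (E x * b + M * x) < X * (E b * x + b) := by
        nlinarith
      have a5 := lt_of_mul_lt_mul_left a4 hX0.le
      linarith
    have hgoal : (T x - 1) * b + M * x < T b * x := by
      rw [hTb, hTx]
      rcases Nat.eq_zero_or_pos (t * x + E x) with h0 | h0
      · rw [h0]
        have ht0 : t * x = 0 := by omega
        have hex0 : E x = 0 := by omega
        rw [hex0] at hkey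
        have hmb : (M + 1) * x ≤ (t * b + E b) * x := by
          rw [hTb] at hmT
          exact Nat.mul_le_mul_right _ hmT
        have : (M + 1) * x = M * x + x := by ring
        simp only [Nat.zero_sub, Nat.zero_mul]
        omega
      · obtain ⟨q, hq⟩ : ∃ q, t * x + E x = q + 1 := ⟨t * x + E x - 1, by omega⟩
        have e2 : t * x + E x - 1 = q := by omega
        rw [e2]
        have e3 : (q + 1) * b = (t * x + E x) * b := by rw [hq]
        have e4 : (q + 1) * b = q * b + b := by ring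
        have e5 : (t * x + E x) * b = t * b * x + E x * b := by ring
        have e6 : (t * b + E b) * x = t * b * x + E b * x := by ring
        rw [e6]
        omega
    have e7 : (T b - M) * x = T b * x - M * x := Nat.sub_mul _ _ _
    rw [e7]
    omega
  · intro r hr
    rcases Nat.lt_or_ge r (v / 2) with hrv | hrv
    · rcases hg3 r hrv with h12 | h12 | ⟨h12, h13⟩
      · exact Or.inl h12
      · exact Or.inr (Or.inl h12)
      · right; right
        have hgb := (hg1 (r + 1)).2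
        have hgr := (hg1 r).1
        refine ⟨by omega, ?_⟩
        rw [hT (g (r + 1) - 1) (by omega) (by omega), hT (b - g r) (by omega) (by omega), hTb]
        have a1 : t * (g (r + 1) - 1 - g r) ≤ t2 * (g (r + 1) - 1 - g r) :=
          Nat.mul_le_mul_right _ ht2
        have a2 : t * (g (r + 1) - 1) + t * (b - g r) = t * (g (r + 1) - 1 - g r) + t * b := by
          rw [← Nat.mul_add, ← Nat.mul_add]; congr 1; omega
        simp only [] at h13
        omega
    · left
      rw [hg4 _ (by omega), hg4 r hrv]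
  · rcases hgf with ⟨h12, h13⟩ | ⟨h12, h13⟩
    · refine ⟨v / 2, by omega, ?_⟩
      have e : v - 1 - v / 2 = v / 2 := by omega
      rw [e, hg4 _ le_rfl]
      exact h13
    · refine ⟨v / 2 - 1, by omega, ?_⟩
      have e : v - 1 - (v / 2 - 1) = v / 2 := by omega
      rw [e, hg4 _ le_rfl]
      rcases hg5 with ⟨h14, _⟩ | ⟨_, h14⟩
      · omega
      · rw [h14]
        exact h13
  · intro r
    rcases Nat.lt_or_ge r rh with hrv | hrv
    · rcases hk3 r hrv with h12 | h12 | ⟨h12, h13⟩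
      · exact Or.inl h12
      · exact Or.inr (Or.inl h12)
      · right; right
        have hgb := (hk1 (r + 1)).2
        have hgr := (hk1 r).1
        rw [hT (k (r + 1) - 1) (by omega) (by omega), hT (b - k r) (by omega) (by omega), hTb]
        have a1 : t * (k (r + 1) - 1 - k r) ≤ t2 * (k (r + 1) - 1 - k r) :=
          Nat.mul_le_mul_right _ ht2
        have a2 : t * (k (r + 1) - 1) + t * (b - k r) = t * (k (r + 1) - 1 - k r) + t * b := by
          rw [← Nat.mul_add, ← Nat.mul_add]; congr 1; omega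
        simp only [] at h13
        omega
    · left
      rw [hk4 _ (by omega), hk4 r hrv]
  · rcases hkf with ⟨h12, h13⟩ | ⟨h12, h13⟩
    · rcases hk5 with ⟨h14, h15⟩ | ⟨h14, h15⟩
      · exfalso
        have h16 := hk4 0 (by omega)
        omega
      · refine ⟨rh - 1, rh, ?_, by omega⟩
        rw [h15, hk4 _ le_rfl]
        exact h13
    · refine ⟨rh, rh, ?_, by omega⟩
      rw [hk4 _ le_rfl]
      exact h13
  · intro x hx hxb
    have := hE.n6 hbA h7 hx hxb
    rw [hT x (by omega) (by omega), hT (b - x) (by omega) (by omega), hTb]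
    have e : t * b = t * x + t * (b - x) := by
      rw [← Nat.mul_add]; congr 1; omega
    rw [e]
    omega

theorem lev_of_chkB {E T : ℕ → ℕ} {A t1 t2 t mlo mhi m b v x0 : ℕ} (hE : Tab E A)
    (hb : 2 ≤ b) (hbA : b ≤ A) (ht1 : t1 ≤ t) (ht2 : t ≤ t2) (hm0 : 1 ≤ m) (hm1 : mlo ≤ m)
    (hm2 : m ≤ mhi) (hmt : m ≤ 2 * t + 1) (hT : ∀ x, 1 ≤ x → x ≤ A → T x = t * x + E x)
    (h : chkB E t1 t2 mlo mhi b v x0 = true) : LevOK T m b := by
  unfold chkB at h
  have hmT : m ≤ T b := by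
    rw [hT b (by omega) hbA]
    have h1 : 1 ≤ E b := by
      unfold chkZ at h
      simp only [Bool.and_eq_true, Nat.ble_eq] at h
      exact h.2.2.2.2.2.2.2.2.2.2
    have : t * 2 ≤ t * b := Nat.mul_le_mul_left _ hb
    omega
  obtain ⟨⟨g, k, hN⟩, hz1, _⟩ := numOK_of_chkZ hE hb hbA ht2 hm0 hm1 hm2 hmT hT h
  refine ⟨_, v, x0, g, k, hN, ?_, hmT⟩
  exact chain_of_chk hE hb hbA ht1 hT hz1

end Vale.Agent.P048
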