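import Vale.Agent.P048.UpperE

namespace Vale.Agent.P048

noncomputable def chainR (b e : ℕ) (n : ℕ) : ℕ → ℕ → ℕ :=
  Nat.rec (fun _ _ => 0)
    (fun _ ih w z => cond (Nat.beq w 0) z (cond (Nat.ble (Nat.add b z) e)
      (ih (Nat.sub w (cond (Nat.ble (Nat.div (Nat.sub e z) b) w) (Nat.div (Nat.sub e z) b) w))
        (Nat.add z (Nat.add
          (cond (Nat.ble (Nat.div (Nat.sub e z) b) w) (Nat.div (Nat.sub e z) b) w) 1))) 0)) n

noncomputable def srchR (N t b c1 c2 x n : ℕ) : ℕ → ℕ :=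
  Nat.rec (fun y => y) (fun _ ih y => cond (and (Nat.ble (Nat.succ y) b)
    (Nat.ble (Nat.add (Nat.add (Nat.mul t (Nat.sub y x))
      (Nat.mod (Nat.shiftRight N (Nat.mul 20 y)) 1048576)) c1) c2)) (ih (Nat.succ y)) y) n

noncomputable def nxtR (N t b c1 c2 p x : ℕ) : ℕ :=
  cond (and (Nat.ble (Nat.add p 2) x) (and (Nat.ble (Nat.add x (Nat.sub x p)) b)
    (Nat.ble (Nat.add (Nat.add (Nat.mul t (Nat.sub (Nat.sub (Nat.add x (Nat.sub x p)) 1) x))
      (Nat.mod (Nat.shiftRight N (Nat.mul 20 (Nat.sub (Nat.add x (Nat.sub x p)) 1))) 1048576))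
        c1) c2)))
    (srchR N t b c1 c2 x b (Nat.add x (Nat.sub x p)))
    (srchR N t b c1 c2 x b (cond (Nat.ble (cond (Nat.ble x (Nat.succ p)) (Nat.succ p) x) b)
      (cond (Nat.ble x (Nat.succ p)) (Nat.succ p) x) b))

noncomputable def runGR (N t b z v : ℕ) (n : ℕ) : ℕ → ℕ → ℕ → Bool :=
  Nat.rec (fun _ _ _ => false)
    (fun _ ih r p x => cond (Nat.beq r (Nat.div v 2))
      (Nat.ble (Nat.succ b) (cond (Nat.beq (Nat.mod v 2) 1) (Nat.add x x) (Nat.add p x)))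
      (ih (Nat.succ r) x (nxtR N t b
        (Nat.add (Nat.add (Nat.mod (Nat.shiftRight N (Nat.mul 20 (Nat.sub b x))) 1048576) b) z)
        (Nat.add (Nat.add (Nat.mod (Nat.shiftRight N (Nat.mul 20 b)) 1048576) 2)
          (Nat.succ (Nat.div (Nat.sub v r) 2))) p x))) n

noncomputable def runHR (N t b z u : ℕ) (n : ℕ) : ℕ → ℕ → ℕ → Bool :=
  Nat.rec (fun _ _ _ => false)
    (fun _ ih r p x => cond (Nat.ble (Nat.succ b) (Nat.add p x))
      (Nat.ble (Nat.add (Nat.add r r) z) (Nat.succ u))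
      (cond (Nat.ble (Nat.succ b) (Nat.add x x)) (Nat.ble (Nat.add (Nat.add r r) z) u)
      (ih (Nat.succ r) x (nxtR N t b
        (Nat.add (Nat.mod (Nat.shiftRight N (Nat.mul 20 (Nat.sub b x))) 1048576) z)
        (Nat.add (Nat.mod (Nat.shiftRight N (Nat.mul 20 b)) 1048576) 3) p x)))) n

theorem min_cond (a b : ℕ) : min a b = cond (Nat.ble a b) a b := by
  rcases h : Nat.ble a b with _ | _
  · rw [cond_false]
    have : ¬ (a ≤ b) := by
      intro h2
      rw [← Nat.ble_eq, h] at h2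
      exact absurd h2 (by decide)
    omega
  · rw [cond_true]
    rw [Nat.ble_eq] at h
    exact min_eq_left h

theorem max_cond (a b : ℕ) : max a b = cond (Nat.ble a b) b a := by
  rcases h : Nat.ble a b with _ | _
  · rw [cond_false]
    have : ¬ (a ≤ b) := by
      intro h2
      rw [← Nat.ble_eq, h] at h2
      exact absurd h2 (by decide)
    omega
  · rw [cond_true]
    rw [Nat.ble_eq] at h
    exact max_eq_right h

theorem chainR_eq {b e : ℕ} : ∀ (n w z : ℕ), chainR b e n w z = chainZ b e n w z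
  | 0, _, _ => rfl
  | n + 1, w, z => by
    rw [chainZ_succ, min_cond]
    show cond (Nat.beq w 0) z (cond (Nat.ble (Nat.add b z) e) (chainR b e n _ _) 0) = _
    rw [chainR_eq n]
    rfl

theorem srchR_eq {N t b c1 c2 x : ℕ} : ∀ (n y : ℕ), srchR N t b c1 c2 x n y =
    srch (fun y => Nat.ble (y + 1) b && Nat.ble (t * (y - x) + dg N 20 y + c1) c2) n y
  | 0, _ => rfl
  | n + 1, y => by
    rw [srch_succ]
    show cond _ (srchR N t b c1 c2 x n (Nat.succ y)) y = _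
    rw [srchR_eq n]
    rfl

theorem nxtR_eq {N t b c1 c2 p x : ℕ} : nxtR N t b c1 c2 p x =
    nxt (dg N 20) t b c1 c2 p x := by
  unfold nxtR nxt
  rw [srchR_eq, srchR_eq, min_cond, max_cond]
  rfl

theorem runGR_eq {N t b z v : ℕ} : ∀ (n r p x : ℕ), runGR N t b z v n r p x =
    runG (dg N 20) t b z v n r p x
  | 0, _, _, _ => rfl
  | n + 1, r, p, x => by
    rw [runG_succ]
    show cond _ _ (runGR N t b z v n _ _ _) = _
    rw [runGR_eq n, nxtR_eq]
    rfl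

theorem runHR_eq {N t b z u : ℕ} : ∀ (n r p x : ℕ), runHR N t b z u n r p x =
    runH (dg N 20) t b z u n r p x
  | 0, _, _, _ => rfl
  | n + 1, r, p, x => by
    rw [runH_succ]
    show cond _ _ (cond _ _ (runHR N t b z u n _ _ _)) = _
    rw [runHR_eq n, nxtR_eq]
    rfl

noncomputable def chkZR (N t1 t2 mlo mhi b v x0 z : ℕ) : Bool :=
  and (Nat.ble 1 v) (and (Nat.ble 1 z) (and (Nat.ble z mlo) (and (Nat.ble 1 x0)
  (and (Nat.ble x0 b)
  (and (or (Nat.beq x0 b) (and (Nat.ble (dg N 20 x0 + dg N 20 (b - x0) + (b + z))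
    (dg N 20 b + x0 + 2)) (Nat.ble (dg N 20 (b - 1) + (b + z)) (dg N 20 b + b + 1))))
  (and (Nat.ble (dg N 20 (b - 1) + z) (dg N 20 b + 3))
  (and (or (Nat.beq x0 1) (Nat.ble (dg N 20 (x0 - 1) * b + (mhi - 1) * (x0 - 1) + 1)
    (dg N 20 b * (x0 - 1) + b)))
  (and (runGR N t2 b z v (v + 1) 0 0 1)
  (and (runHR N t2 b z (mlo + v) (b + 2) 0 0 1)
  (Nat.ble 1 (dg N 20 b)))))))))))

theorem chkZR_eq {N t1 t2 mlo mhi b v x0 z : ℕ} : chkZR N t1 t2 mlo mhi b v x0 z =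
    chkZ (dg N 20) t1 t2 mlo mhi b v x0 z := by
  unfold chkZR chkZ
  rw [runGR_eq, runHR_eq]

noncomputable def chkBR (N t1 t2 mlo mhi b v x0 : ℕ) : Bool :=
  chkZR N t1 t2 mlo mhi b v x0
    (chainR b (t1 + (dg N 20 b - dg N 20 (b - 1))) (v + 1) v 1)

theorem chkBR_eq {N t1 t2 mlo mhi b v x0 : ℕ} : chkBR N t1 t2 mlo mhi b v x0 =
    chkB (dg N 20) t1 t2 mlo mhi b v x0 := by
  unfold chkBR chkB
  rw [chkZR_eq, chainR_eq]

noncomputable def chkTR (N H A t1 t2 mlo mhi : ℕ) : Bool :=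
  and (Nat.beq (dg N 20 1) 0) (and (allb (fun i => and (Nat.ble (dg N 20 (i + 1))
    (dg N 20 (i + 2))) (or (Nat.beq (i + 2) A) (Nat.ble (dg N 20 (i + 2) + dg N 20 (i + 2))
      (dg N 20 (i + 1) + dg N 20 (i + 3))))) (A - 1))
  (allb (fun i => or (Nat.ble i 1)
    (chkBR N t1 t2 mlo mhi i (dg H 8 i % 64) (dg H 8 i / 64))) (A + 1)))

theorem chkTR_eq {N H A t1 t2 mlo mhi : ℕ} : chkTR N H A t1 t2 mlo mhi =
    chkT N H A t1 t2 mlo mhi := by
  unfold chkTR chkT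
  have : (fun i => or (Nat.ble i 1)
      (chkBR N t1 t2 mlo mhi i (dg H 8 i % 64) (dg H 8 i / 64))) =
      (fun i => or (Nat.ble i 1)
      (chkB (dg N 20) t1 t2 mlo mhi i (dg H 8 i % 64) (dg H 8 i / 64))) := by
    funext i
    rw [chkBR_eq]
  rw [this]

theorem upS_of {V : Type*} [DecidableEq V] {G : SimpleGraph V} {N H A t1 t2 mlo mhi s : ℕ}
    (h : chkT N H A t1 t2 mlo mhi = true)
    (hE : allb (fun i => Nat.ble (dg N 20 (i + s)) ((i + s) * (i + s) + 1)) (t2 - t1 + 1) = true)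
    (hs : 2 ≤ s ∧ s + 1 = t1 ∧ mlo = 2 * t1 ∧ mhi = 2 * t2 + 1) (hA : t2 ≤ A + 1)
    {t m : ℕ} (h1 : t1 ≤ t) (h2 : t ≤ t2) (h3 : 2 * t ≤ m) (h4 : m ≤ 2 * t + 1) :
    ∀ a, a < t → ∀ W : Finset V, AlphaLe G W a →
    (m - 1) * a + 1 ≤ W.card → HasCyc G W m := by
  apply upper_chk h (by omega) h1 h2 (by omega) (by omega) h4 (by omega) (by omega)
  have h5 := allb_spec hE (t - t1) (by omega)
  rw [Nat.ble_eq] at h5
  have e1 : t - t1 + s = t - 1 := by omega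
  rw [e1] at h5
  refine h5.trans ?_
  have h6 : t - 1 ≤ m - 1 - t := by omega
  have := Nat.mul_le_mul_right (t - 1) h6
  omega

end Vale.Agent.P048
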