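import Vale.Agent.P048.Lev3
import Vale.Agent.P048.Raw

namespace Vale.Agent.P048

open Finset

noncomputable def d8 (N i : ℕ) : ℕ := Nat.mod (Nat.shiftRight N (Nat.mul 8 i)) 256

noncomputable def d16 (N i : ℕ) : ℕ := Nat.mod (Nat.shiftRight N (Nat.mul 16 i)) 65536

theorem ndiv (a b : ℕ) : Nat.div a b = a / b := rfl

noncomputable def stepB (T L g : ℕ → ℕ) (m b z v r : ℕ) : Bool :=
  or (Nat.ble (g (Nat.succ r)) (g r))
    (or (and (Nat.ble 1 r) (Nat.ble (g (Nat.succ r)) (Nat.succ (g (Nat.sub r 1)))))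
    (or (Nat.ble (g (Nat.succ r)) (L (Nat.succ r)))
    (and (Nat.ble (Nat.mul 2 r) v)
      (or (Nat.ble (Nat.add (Nat.add (Nat.add (T (Nat.sub (g (Nat.succ r)) 1))
            (T (Nat.sub b (g r)))) b) z) (Nat.add (Nat.add (T b) 2) (L (Nat.sub v r))))
          (Nat.ble (Nat.add (Nat.add (Nat.add (T (Nat.sub (g (Nat.succ r)) 1))
            (T (Nat.sub b (g r)))) b) z)
            (Nat.add (Nat.add (T b) 2) (Nat.sub b (Nat.div (Nat.succ (Nat.sub m z)) 2))))))))

theorem stepB_sound {T L g : ℕ → ℕ} {m b z v r : ℕ} (h : stepB T L g m b z v r = true) :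
    StepP T m b z v L g r := by
  unfold stepB at h
  simp only [Bool.or_eq_true, Bool.and_eq_true, Nat.ble_eq, Nat.succ_eq_add_one, Nat.add_eq,
    Nat.sub_eq, Nat.mul_eq, ndiv] at h
  rcases h with h | ⟨h1, h2⟩ | h | ⟨h1, h2⟩
  · exact Or.inl h
  · exact Or.inr (Or.inl ⟨h1, h2⟩)
  · exact Or.inr (Or.inr (Or.inl h))
  · refine Or.inr (Or.inr (Or.inr ⟨h1, ?_⟩))
    have h3 := le_max_left (L (v - r)) (b - (m - z + 1) / 2)
    have h4 := le_max_right (L (v - r)) (b - (m - z + 1) / 2)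
    rcases h2 with h2 | h2 <;> omega

noncomputable def passB (T L g : ℕ → ℕ) (m b z v c : ℕ) : Bool :=
  and (Nat.ble (g 0) 1) (and (allb (fun r => Nat.ble (g r) b) (Nat.succ c))
    (allb (fun r => stepB T L g m b z v r) c))

theorem passB_sound {T L L' g : ℕ → ℕ} {m b z v c : ℕ} (hL : Pass T m b z v L')
    (hLL : ∀ i, i ≤ v → L i ≤ L' i) (h : passB T L g m b z v c = true) :
    Pass T m b z v (fun r => g (min r c)) := by
  unfold passB at h
  rw [Bool.and_eq_true, Bool.and_eq_true, Nat.ble_eq] at h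
  obtain ⟨h1, h2, h3⟩ := h
  refine Pass.step hL ?_ ?_ ?_
  · show g (min 0 c) ≤ 1
    rw [Nat.zero_min]; exact h1
  · intro r
    have := allb_spec h2 (min r c) (by
      have := min_le_right r c
      show min r c < c + 1
      omega)
    rw [Nat.ble_eq] at this
    exact this
  · intro r hr
    rcases Nat.lt_or_ge r c with hrc | hrc
    · have h4 := stepB_sound (allb_spec h3 r hrc)
      have e1 : min (r + 1) c = r + 1 := min_eq_left hrc
      have e2 : min r c = r := min_eq_left hrc.le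
      have e3 : min (r - 1) c = r - 1 := min_eq_left (by omega)
      unfold StepP at h4 ⊢
      simp only [e1, e2, e3]
      rcases h4 with h4 | h4 | h4 | ⟨h4, h5⟩
      · exact Or.inl h4
      · exact Or.inr (Or.inl h4)
      · exact Or.inr (Or.inr (Or.inl (h4.trans (hLL _ (by omega)))))
      · refine Or.inr (Or.inr (Or.inr ⟨h4, h5.trans ?_⟩))
        have h6 := hLL (v - r) (Nat.sub_le _ _)
        have h7 : max (L (v - r)) (b - (m - z + 1) / 2) ≤
          max (L' (v - r)) (b - (m - z + 1) / 2) := max_le_max_right _ h6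
        omega
    · left
      simp only []
      rw [min_eq_right hrc, min_eq_right (by omega)]

noncomputable def hB (T h : ℕ → ℕ) (b z u : ℕ) : Bool :=
  and (Nat.ble (h 0) 1) (and (allb (fun r => Nat.ble (h r) b) (Nat.succ u))
    (allb (fun r => or (Nat.ble (h (Nat.succ r)) (h r))
      (or (and (Nat.ble 1 r) (Nat.ble (h (Nat.succ r)) (Nat.succ (h (Nat.sub r 1)))))
        (Nat.ble (Nat.add (Nat.add (T (Nat.sub (h (Nat.succ r)) 1)) (T (Nat.sub b (h r)))) z)
          (Nat.add (T b) 3)))) u))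

noncomputable def hfB (h : ℕ → ℕ) (m b z v u : ℕ) : Bool :=
  or (and (Nat.ble (Nat.succ b) (Nat.add (h u) (h u)))
      (Nat.ble (Nat.add (Nat.add u u) z) (Nat.add m v)))
    (and (Nat.ble (Nat.succ b) (Nat.add (h (Nat.sub u 1)) (h u)))
      (Nat.ble (Nat.add (Nat.add (Nat.sub u 1) u) z) (Nat.add m v)))

theorem hB_sound {T h : ℕ → ℕ} {m b z v u : ℕ} (h1 : hB T h b z u = true)
    (h2 : hfB h m b z v u = true) : ∃ k : ℕ → ℕ, (∀ r, k r ≤ b) ∧ k 0 ≤ 1 ∧
    (∀ r, k (r + 1) ≤ k r ∨ (1 ≤ r ∧ k (r + 1) ≤ k (r - 1) + 1) ∨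
      T (k (r + 1) - 1) + T (b - k r) + z ≤ T b + 3) ∧
    ∃ i j, b < k i + k j ∧ i + j + z ≤ m + v := by
  unfold hB at h1
  unfold hfB at h2
  rw [Bool.and_eq_true, Bool.and_eq_true, Nat.ble_eq] at h1
  obtain ⟨h3, h4, h5⟩ := h1
  refine ⟨fun r => h (min r u), ?_, ?_, ?_, ?_⟩
  · intro r
    have := allb_spec h4 (min r u) (by
      have := min_le_right r u
      show min r u < u + 1
      omega)
    rw [Nat.ble_eq] at this
    exact this
  · show h (min 0 u) ≤ 1
    rw [Nat.zero_min]; exact h3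
  · intro r
    rcases Nat.lt_or_ge r u with hru | hru
    · have h6 := allb_spec h5 r hru
      have e1 : min (r + 1) u = r + 1 := min_eq_left hru
      have e2 : min r u = r := min_eq_left hru.le
      have e3 : min (r - 1) u = r - 1 := min_eq_left (by omega)
      simp only [e1, e2, e3]
      simp only [Bool.or_eq_true, Bool.and_eq_true, Nat.ble_eq, Nat.succ_eq_add_one, Nat.add_eq,
        Nat.sub_eq] at h6
      exact h6
    · left
      simp only []
      rw [min_eq_right hru, min_eq_right (by omega)]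
  · simp only [Bool.or_eq_true, Bool.and_eq_true, Nat.ble_eq, Nat.succ_eq_add_one, Nat.add_eq,
      Nat.sub_eq] at h2
    rcases h2 with ⟨h6, h7⟩ | ⟨h6, h7⟩
    · refine ⟨u, u, ?_, h7⟩
      simp only [min_self]
      omega
    · refine ⟨u - 1, u, ?_, h7⟩
      have e3 : min (u - 1) u = u - 1 := min_eq_left (by omega)
      simp only [min_self, e3]
      omega

noncomputable def xB (T : ℕ → ℕ) (m b z x0 i : ℕ) : Bool :=
  cond (Nat.beq i 0) true
    (and (Nat.ble (Nat.add (Nat.add (T i) (T (Nat.sub b i))) z) (Nat.add (T b) 3))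
    (cond (Nat.ble x0 i)
      (or (Nat.ble (Nat.add (Nat.add (Nat.add (T i) (T (Nat.sub b i))) b) z)
          (Nat.add (Nat.add (T b) i) 2))
        (Nat.ble (Nat.add (Nat.add (Nat.add (T i) (T (Nat.sub b i))) b) z)
          (Nat.add (Nat.add (T b) (Nat.sub b (Nat.div (Nat.succ (Nat.sub m z)) 2))) 2)))
      (Nat.ble (Nat.succ (Nat.mul (Nat.sub (T i) 1) b))
        (Nat.mul (Nat.sub (Nat.succ (T b)) m) i))))

theorem xB_n6 {T : ℕ → ℕ} {m b z x0 x : ℕ} (h : allb (xB T m b z x0) b = true) (hx : 1 ≤ x)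
    (hxb : x < b) : T x + T (b - x) + z ≤ T b + 3 := by
  have h1 := allb_spec h x hxb
  unfold xB at h1
  have h2 : Nat.beq x 0 = false := by
    rcases hb : Nat.beq x 0 with _ | _
    · rfl
    · have := Nat.eq_of_beq_eq_true hb
      omega
  rw [h2, cond_false, Bool.and_eq_true, Nat.ble_eq] at h1
  exact h1.1

theorem xB_n2 {T : ℕ → ℕ} {m b z x0 x : ℕ} (h : allb (xB T m b z x0) b = true) (hx : 1 ≤ x)
    (hx0 : x0 ≤ x) (hxb : x < b) :
    T x + T (b - x) + b + z ≤ T b + max x (b - (m - z + 1) / 2) + 2 := by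
  have h1 := allb_spec h x hxb
  unfold xB at h1
  have h2 : Nat.beq x 0 = false := by
    rcases hb : Nat.beq x 0 with _ | _
    · rfl
    · have := Nat.eq_of_beq_eq_true hb
      omega
  have h3 : Nat.ble x0 x = true := by rw [Nat.ble_eq]; exact hx0
  rw [h2, cond_false, Bool.and_eq_true, h3, cond_true] at h1
  simp only [Bool.or_eq_true, Nat.ble_eq, Nat.succ_eq_add_one, Nat.add_eq,
    Nat.sub_eq, ndiv] at h1
  have h4 := le_max_left x (b - (m - z + 1) / 2)
  have h5 := le_max_right x (b - (m - z + 1) / 2)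
  rcases h1.2 with h6 | h6 <;> omega

theorem xB_n3 {T : ℕ → ℕ} {m b z x0 x : ℕ} (h : allb (xB T m b z x0) b = true) (hx : 1 ≤ x)
    (hx0 : x < x0) (hxb : x < b) : (T x - 1) * b < (T b + 1 - m) * x := by
  have h1 := allb_spec h x hxb
  unfold xB at h1
  have h2 : Nat.beq x 0 = false := by
    rcases hb : Nat.beq x 0 with _ | _
    · rfl
    · have := Nat.eq_of_beq_eq_true hb
      omega
  have h3 : Nat.ble x0 x = false := by
    rcases hb : Nat.ble x0 x with _ | _
    · rfl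
    · rw [Nat.ble_eq] at hb
      omega
  rw [h2, cond_false, Bool.and_eq_true, h3, cond_false] at h1
  simp only [Nat.ble_eq, Nat.succ_eq_add_one, Nat.sub_eq, Nat.mul_eq] at h1
  exact h1.2

noncomputable def flexB (T : ℕ → ℕ) (b z v w : ℕ) : Bool :=
  or (and (Nat.ble (Nat.add v 2) z) (Nat.ble (Nat.add v 2) w))
    (or (and (Nat.ble (Nat.succ (Nat.mul 2 v)) z)
        (Nat.ble (Nat.succ (Nat.add b v)) (Nat.sub (T b) (T (Nat.sub b 1)))))
      (and (Nat.ble 1 (chainR b (Nat.sub (T b) (T (Nat.sub b 1))) (Nat.succ v) v 1))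
        (Nat.ble (chainR b (Nat.sub (T b) (T (Nat.sub b 1))) (Nat.succ v) v 1) z)))

theorem flexB_sound {T : ℕ → ℕ} {b z v w : ℕ} (h : flexB T b z v w = true) :
    ((∃ z0, z0 ≤ z ∧ ChainNum b (T b - T (b - 1)) z0 v) ∨ (v + 2 ≤ z ∧ v + 2 ≤ w) ∨
      (2 * v + 1 ≤ z ∧ b + v + 1 ≤ T b - T (b - 1))) := by
  unfold flexB at h
  simp only [Bool.or_eq_true, Bool.and_eq_true, Nat.ble_eq, Nat.succ_eq_add_one, Nat.add_eq,
    Nat.sub_eq, Nat.mul_eq] at h
  rcases h with h | h | ⟨h1, h2⟩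
  · exact Or.inr (Or.inl h)
  · exact Or.inr (Or.inr h)
  · left
    rw [chainR_eq] at h1 h2
    have hc := chainZ_sound (v + 1) v 1 0 h1 ChainNum.start
    rw [Nat.zero_add] at hc
    exact ⟨_, h2, hc⟩

noncomputable def lvB (T : ℕ → ℕ) (m b w v x0 z u P Gb : ℕ) : Bool :=
  and (Nat.ble 1 v) (and (Nat.ble z m) (and (Nat.ble x0 b) (and (Nat.ble 1 x0)
  (and (Nat.ble m (T b)) (and (flexB T b z v w) (and (allb (xB T m b z x0) b)
  (cond (Nat.beq P 1)
    (and (passB T (fun r => Nat.succ (Nat.div r 2)) (fun r => d8 Gb r) m b z v (Nat.div v 2))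
    (and (Nat.ble (Nat.succ b) (Nat.add (d8 Gb (Nat.div v 2))
      (d8 Gb (Nat.sub (Nat.sub v 1) (Nat.div v 2)))))
    (and (hB T (fun r => d8 Gb (Nat.add (Nat.succ (Nat.div v 2)) r)) b z u)
      (hfB (fun r => d8 Gb (Nat.add (Nat.succ (Nat.div v 2)) r)) m b z v u))))
    (and (passB T (fun r => Nat.succ (Nat.div r 2)) (fun r => d8 Gb r) m b z v v)
    (and (passB T (fun r => d8 Gb r) (fun r => d8 Gb (Nat.add (Nat.succ v) r)) m b z v
      (Nat.div v 2))
    (and (Nat.ble (Nat.succ b) (Nat.add (d8 Gb (Nat.add (Nat.succ v) (Nat.div v 2)))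
      (d8 Gb (Nat.add (Nat.succ v) (Nat.sub (Nat.sub v 1) (Nat.div v 2))))))
    (and (hB T (fun r => d8 Gb (Nat.add (Nat.add (Nat.succ v) (Nat.succ (Nat.div v 2))) r)) b z u)
      (hfB (fun r => d8 Gb (Nat.add (Nat.add (Nat.succ v) (Nat.succ (Nat.div v 2))) r))
        m b z v u))))))))))))

theorem lev3_of {T g h : ℕ → ℕ} {m b w v x0 z u : ℕ} (h1 : 1 ≤ v) (h2 : z ≤ m) (h3 : x0 ≤ b)
    (h4 : 1 ≤ x0) (h5 : m ≤ T b) (h6 : flexB T b z v w = true)
    (h7 : allb (xB T m b z x0) b = true) (hg : Pass T m b z v (fun r => g (min r (v / 2))))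
    (hgf : b < g (v / 2) + g (v - 1 - v / 2)) (hh : hB T h b z u = true)
    (hhf : hfB h m b z v u = true) : Lev3 T m b w := by
  obtain ⟨k, k1, k2, k3, k4⟩ := hB_sound hh hhf
  refine ⟨z, v, x0, _, k, ⟨h1, h2, k1, ?_, ?_, h3, hg, ?_, k2, k3, k4, ?_⟩, h5, flexB_sound h6⟩
  · intro x hx hxb
    exact xB_n2 h7 (by omega) hx hxb
  · intro x hx hxx
    exact xB_n3 h7 hx hxx (by omega)
  · refine ⟨v / 2, by omega, ?_⟩
    simp only [min_self]
    rw [min_eq_left (show v - 1 - v / 2 ≤ v / 2 by omega)]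
    exact hgf
  · intro x hx hxb
    exact xB_n6 h7 hx hxb

theorem lvB_sound {T : ℕ → ℕ} {m b w v x0 z u P Gb : ℕ}
    (h : lvB T m b w v x0 z u P Gb = true) : Lev3 T m b w := by
  unfold lvB at h
  rw [Bool.and_eq_true, Bool.and_eq_true, Bool.and_eq_true, Bool.and_eq_true, Bool.and_eq_true,
    Bool.and_eq_true, Bool.and_eq_true] at h
  obtain ⟨h1, h2, h3, h4, h5, h6, h7, h8⟩ := h
  rw [Nat.ble_eq] at h1 h2 h3 h4 h5
  have hbase : Pass T m b z v (fun r => r / 2 + 1) := Pass.base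
  rcases hP : Nat.beq P 1 with _ | _
  · rw [hP, cond_false, Bool.and_eq_true, Bool.and_eq_true, Bool.and_eq_true,
      Bool.and_eq_true] at h8
    obtain ⟨a1, a2, a3, a4, a5⟩ := h8
    have p1 := passB_sound hbase (fun i _ => le_rfl) a1
    have p2 := passB_sound (c := v / 2) p1 (L := fun r => d8 Gb r) (by
      intro i hi
      simp only [min_eq_left hi]
      exact le_rfl) a2
    rw [Nat.ble_eq] at a3
    exact lev3_of (g := fun r => d8 Gb (Nat.add (Nat.succ v) r)) h1 h2 h3 h4 h5 h6 h7 p2 a3 a4 a5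
  · rw [hP, cond_true, Bool.and_eq_true, Bool.and_eq_true, Bool.and_eq_true] at h8
    obtain ⟨a1, a3, a4, a5⟩ := h8
    have p1 := passB_sound (c := v / 2) hbase (L := fun r => Nat.succ (Nat.div r 2))
      (fun i _ => le_rfl) a1
    rw [Nat.ble_eq] at a3
    exact lev3_of (g := fun r => d8 Gb r) h1 h2 h3 h4 h5 h6 h7 p1 a3 a4 a5

noncomputable def Tt (N A : ℕ) : ℕ → ℕ := fun b => d16 N (min b A)

noncomputable def chkS3 (N G H BW A m t : ℕ) (wf : ℕ → ℕ) : Bool :=
  and (Nat.beq (d16 N 0) 1) (and (Nat.beq (d16 N 1) t)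
  (and (allb (fun i => Nat.ble (d16 N i) (d16 N (Nat.succ i))) A)
  (allb (fun b => or (Nat.ble b 1)
    (lvB (fun x => d16 N x) m b (wf b) (d8 H (Nat.mul 5 b)) (d8 H (Nat.add (Nat.mul 5 b) 1))
      (d8 H (Nat.add (Nat.mul 5 b) 2)) (d8 H (Nat.add (Nat.mul 5 b) 3))
      (d8 H (Nat.add (Nat.mul 5 b) 4)) (Nat.mod (Nat.shiftRight G (Nat.mul BW b)) (Nat.pow 2 BW))))
    (Nat.succ A))))

theorem Tt_mono {N A : ℕ} (h : allb (fun i => Nat.ble (d16 N i) (d16 N (Nat.succ i))) A = true) :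
    Monotone (Tt N A) := by
  have h1 : ∀ i j, i ≤ j → j ≤ A → d16 N i ≤ d16 N j := by
    intro i j hij
    induction hij with
    | refl => intro _; exact le_rfl
    | @step j hij ih =>
      intro hj
      have := allb_spec h j (by omega)
      rw [Nat.ble_eq] at this
      exact (ih (by omega)).trans this
  intro x y hxy
  exact h1 _ _ (min_le_min_right _ hxy) (min_le_right _ _)

theorem Tt_val {N A x : ℕ} (hx : x ≤ A) : Tt N A x = d16 N x := by
  unfold Tt
  rw [min_eq_left hx]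

theorem lev3_congr {T T' : ℕ → ℕ} {m b w : ℕ} (h : Lev3 T m b w) (hb : 1 ≤ b)
    (hT : ∀ x, x ≤ b → T x = T' x) : Lev3 T' m b w := by
  obtain ⟨z, v, x0, g, k, hN, h2, h3⟩ := h
  have hP : ∀ g : ℕ → ℕ, Pass T m b z v g → Pass T' m b z v g := by
    intro g hg
    induction hg with
    | base => exact Pass.base
    | @step L g hL h0 hb hs ih =>
      refine Pass.step ih h0 hb ?_
      intro r hr
      rcases hs r hr with h4 | h4 | h4 | ⟨h4, h5⟩
      · exact Or.inl h4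
      · exact Or.inr (Or.inl h4)
      · exact Or.inr (Or.inr (Or.inl h4))
      · refine Or.inr (Or.inr (Or.inr ⟨h4, ?_⟩))
        rw [← hT _ (show g (r + 1) - 1 ≤ b by have := hb (r + 1); omega),
          ← hT _ (show b - g r ≤ b by omega), ← hT b le_rfl]
        exact h5
  have hTb := hT b le_rfl
  have hTb1 := hT (b - 1) (Nat.sub_le _ _)
  refine ⟨z, v, x0, g, k, ⟨hN.hv, hN.hzm, hN.hb, ?_, ?_, hN.x0b, hP g hN.gp, hN.gf, hN.h0,
    ?_, hN.hf, ?_⟩, by rw [← hTb]; exact h2, by rw [← hTb, ← hTb1]; exact h3⟩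
  · intro x h4 h5
    rw [← hT x h5.le, ← hT (b - x) (Nat.sub_le _ _), ← hTb]
    exact hN.n2 x h4 h5
  · intro x h4 h5
    rw [← hT x (by have := hN.x0b; omega), ← hTb]
    exact hN.n3 x h4 h5
  · intro r
    rcases hN.hs r with h4 | h4 | h4
    · exact Or.inl h4
    · exact Or.inr (Or.inl h4)
    · refine Or.inr (Or.inr ?_)
      rw [← hT _ (show k (r + 1) - 1 ≤ b by have := hN.hb (r + 1); omega),
        ← hT _ (show b - k r ≤ b by omega), ← hTb]
      exact h4
  · intro x h4 h5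
    rw [← hT x h5.le, ← hT (b - x) (Nat.sub_le _ _), ← hTb]
    exact hN.n6 x h4 h5

variable {V : Type*} [DecidableEq V]

theorem stage3 {G : SimpleGraph V} {W : Finset V} {N Gc H BW A m t : ℕ} {wr wf : ℕ → ℕ}
    (h : chkS3 N Gc H BW A m t wr = true) (hA : 1 ≤ A) (hm : 1 ≤ m) (hno : ¬ HasCyc G W m)
    (hwf : ∀ b, 2 ≤ b → b ≤ A → wr b = wf b) (hP : CliqueW G W A (Tt N A) wf) :
    CliqueOK G W A (Tt N A) t := by
  unfold chkS3 at h
  rw [Bool.and_eq_true, Bool.and_eq_true, Bool.and_eq_true] at h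
  obtain ⟨h1, h2, h3, h4⟩ := h
  apply clique_step3 hm hno (Tt_mono h3) _ _ hP
  · intro b hb1 hb2
    have h5 := allb_spec h4 b (by
      show b < A + 1
      omega)
    rw [Bool.or_eq_true, Nat.ble_eq] at h5
    have h6 := lvB_sound (h5.resolve_left (by omega))
    rw [hwf b hb1 hb2] at h6
    exact lev3_congr h6 (by omega) (fun x hx => (Tt_val (hx.trans hb2)).symm)
  · rw [Tt_val (Nat.zero_le _)]
    exact Nat.eq_of_beq_eq_true h1
  · rw [Tt_val hA]
    exact Nat.eq_of_beq_eq_true h2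

end Vale.Agent.P048
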