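import Vale.Agent.P048.Att

namespace Vale.Agent.P048.L

open Finset

variable {V : Type*} [DecidableEq V] {G : SimpleGraph V} {W K : Finset V} {a m g : ℕ}

theorem chain_of_mem {D : Finset V} (hD : IsClq G D) {L : List V} (hn : L.Nodup)
    (hL : ∀ x ∈ L, x ∈ D) : L.IsChain G.Adj := by
  apply List.Pairwise.isChain
  exact List.Pairwise.imp_of_mem (fun ha hb hab => hD _ (hL _ ha) _ (hL _ hb) hab) hn

theorem dclose (hK : IsClq G K) (hKW : K ⊆ W) {D : Finset V} (hDc : IsClq G D) (hDW : D ⊆ W)
    (hDK : ∀ x ∈ D, x ∉ K) {d d' : V} (hd : d ∈ D) (hd' : d' ∈ D) (hdd : d ≠ d')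
    {X Y : List V} (hX : X.IsChain G.Adj) (hY : Y.IsChain G.Adj) (hn : (X ++ Y).Nodup)
    (hXY : ∀ x ∈ X ++ Y, x ∈ W ∧ x ∉ D) (hXh : ∀ x ∈ X.head?, x ∈ K)
    (hYl : ∀ x ∈ Y.getLast?, x ∈ K) (hXl : ∀ x ∈ X.getLast?, G.Adj x d)
    (hYh : ∀ x ∈ Y.head?, G.Adj d' x) (hXne : X ≠ []) (hYne : Y ≠ [])
    (hlen : X.length + Y.length + 2 ≤ m) (hg : K.card + g = m) (hDg : g + 2 ≤ D.card) :
    HasCyc G W m := by
  classical
  -- the number of vertices of `D` we use
  obtain ⟨j, hj2, hjg, hjl⟩ : ∃ j, 2 ≤ j ∧ j ≤ g + 2 ∧ (g + kc K (X ++ Y) ≤ j + (X ++ Y).length ∧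
      j + (X ++ Y).length ≤ m) := by
    have h1 := kc_le (K := K) (X ++ Y)
    have h2 : kc K (X ++ Y) ≤ K.card := by
      rw [kc, List.countP_eq_length_filter, ← List.toFinset_card_of_nodup (hn.filter _)]
      apply card_le_card
      intro x hx
      rw [List.mem_toFinset, List.mem_filter] at hx
      simpa using hx.2
    rw [List.length_append] at h1 ⊢
    rcases Nat.lt_or_ge (g + kc K (X ++ Y)) (2 + (X.length + Y.length)) with h | h
    · exact ⟨2, le_rfl, by omega, by omega, by omega⟩
    · exact ⟨g + kc K (X ++ Y) - (X.length + Y.length), by omega, by omega, by omega, by omega⟩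
  have hc : j - 2 ≤ ((D.erase d).erase d').card := by
    rw [card_erase_of_mem (mem_erase.2 ⟨hdd.symm, hd'⟩), card_erase_of_mem hd]
    omega
  obtain ⟨S0, hS0, hS0c⟩ := exists_subset_card_eq hc
  have e0 : ∀ x ∈ S0, x ∈ D ∧ x ≠ d ∧ x ≠ d' := by
    intro x hx
    have := hS0 hx
    rw [mem_erase, mem_erase] at this
    exact ⟨this.2.2, this.2.1, this.1⟩
  obtain ⟨L, hL⟩ : ∃ L, L = d :: (S0.toList ++ [d']) := ⟨_, rfl⟩
  have hLn : L.Nodup := by
    rw [hL, List.nodup_cons, List.nodup_append]
    refine ⟨?_, S0.nodup_toList, by simp, ?_⟩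
    · rw [List.mem_append, mem_toList, List.mem_singleton]
      rintro (h | h)
      · exact (e0 d h).2.1 rfl
      · exact hdd h
    · intro x hx y hy hxy
      rw [List.mem_singleton] at hy
      rw [mem_toList] at hx
      exact (e0 x hx).2.2 (hxy.trans hy)
  have hLD : ∀ x ∈ L, x ∈ D := by
    intro x hx
    rw [hL, List.mem_cons, List.mem_append, mem_toList, List.mem_singleton] at hx
    rcases hx with rfl | hx | rfl
    · exact hd
    · exact (e0 x hx).1
    · exact hd'
  have hLc := chain_of_mem hDc hLn hLD
  have hLlen : L.length = j := by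
    rw [hL, List.length_cons, List.length_append, length_toList, List.length_singleton]
    omega
  have hLne : L ≠ [] := by rw [hL]; simp
  have hLh : L.head? = some d := by rw [hL]; rfl
  have hLl : L.getLast? = some d' := by
    rw [hL, ← List.singleton_append, ← List.append_assoc, getLast?_append_cons' _ (by simp)]
    rfl
  rw [List.nodup_append] at hn
  have hXY' : ∀ x, (x ∈ X ∨ x ∈ Y) → x ∈ W ∧ x ∉ D := fun x hx => hXY x (by
    rw [List.mem_append]; exact hx)
  have hQn : (X ++ L ++ Y).Nodup := by
    rw [List.nodup_append, List.nodup_append]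
    refine ⟨⟨hn.1, hLn, ?_⟩, hn.2.1, ?_⟩
    · rintro x hx y hy rfl
      exact (hXY' x (Or.inl hx)).2 (hLD x hy)
    · rintro x hx y hy rfl
      rw [List.mem_append] at hx
      rcases hx with hx | hx
      · exact hn.2.2 x hx x hy rfl
      · exact (hXY' x (Or.inr hy)).2 (hLD x hx)
  have hkQ : kc K (X ++ L ++ Y) = kc K (X ++ Y) := by
    rw [kc_append, kc_append, kc_append, kc_zero (fun x hx => hDK x (hLD x hx))]
    omega
  apply bc_fill (Q := X ++ L ++ Y) hK hKW
  · refine ⟨hQn, ?_⟩
    rw [List.isChain_append, List.isChain_append]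
    refine ⟨⟨hX, hLc, ?_⟩, hY, ?_⟩
    · intro u hu v hv
      rw [hLh] at hv
      rw [← Option.some.inj hv]
      exact hXl u hu
    · intro u hu v hv
      rw [getLast?_append_cons' _ hLne, hLl] at hu
      rw [← Option.some.inj hu]
      exact hYh v hv
  · intro x hx
    rw [List.mem_append, List.mem_append] at hx
    rcases hx with (hx | hx) | hx
    · exact (hXY' x (Or.inl hx)).1
    · exact hDW (hLD x hx)
    · exact (hXY' x (Or.inr hx)).1
  · intro x hx
    rw [List.append_assoc, head?_append_of_ne _ hXne] at hx
    exact hXh x hx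
  · intro x hx
    rw [getLast?_append_cons' _ hYne] at hx
    exact hYl x hx
  · rw [List.length_append, List.length_append]
    omega
  · rw [List.length_append] at hjl
    rw [List.length_append, List.length_append]
    omega
  · have h1 : (K \ (X ++ L ++ Y).toFinset).card + kc K (X ++ L ++ Y) = K.card := by
      have h2 : kc K (X ++ L ++ Y) = (K ∩ (X ++ L ++ Y).toFinset).card := by
        rw [kc, List.countP_eq_length_filter, ← List.toFinset_card_of_nodup (hQn.filter _)]
        congr 1
        ext x
        rw [List.mem_toFinset, List.mem_filter, mem_inter, List.mem_toFinset]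
        constructor
        · intro h; exact ⟨by simpa using h.2, h.1⟩
        · intro h; exact ⟨h.2, by simpa using h.1⟩
      rw [h2]
      exact card_sdiff_add_card_inter K _
    rw [hkQ] at h1
    rw [List.length_append] at hjl
    rw [List.length_append, List.length_append]
    omega

theorem closed_clique (E : Env0 G W a m) (hK : IsClq G K) (hKW : K ⊆ W) (hkg : g + 2 ≤ K.card)
    (hg1 : 1 ≤ g) (hm : K.card + g = m) {S : List (List V)} (hS : MaxSys G W K m S) {D : Finset V}
    (hD : D ⊆ W \ Zs S) (hDc : IsClq G D) (hcl : ∀ x ∈ D, ∀ y ∈ W \ Zs S, G.Adj x y → y ∈ D)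
    (hDg : g + 2 ≤ D.card) : False := by
  have hDW : D ⊆ W := hD.trans sdiff_subset
  have hKZ : ∀ x ∈ K, x ∈ Zs S := fun x hx => mem_Zs.2 (hS.full x hx)
  have hDZ : ∀ x ∈ D, x ∉ Zs S := fun x hx => (mem_sdiff.1 (hD hx)).2
  have hDK : ∀ x ∈ D, x ∉ K := fun x hx hxK => hDZ x hx (hKZ x hxK)
  have hZlen : (Zs S).card = S.flatten.length := List.toFinset_card_of_nodup hS.sys.nodup
  have hlt := hS.lt
  have h2 : 2 ≤ (W \ D).card := by
    have h3 : K ⊆ W \ D := fun x hx => mem_sdiff.2 ⟨hKW hx, fun h => hDK x h hx⟩
    have := card_le_card h3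
    omega
  obtain ⟨d, hd, d', hd', c, hc, c', hc', hdd, hcc, hdc, hdc'⟩ :=
    bc_edges E.hW E.hcard E.hmin hDW (by omega) h2
  have hcZ : ∀ x ∈ D, ∀ y ∈ W \ D, G.Adj x y → y ∈ S.flatten := by
    intro x hx y hy hadj
    rw [mem_sdiff] at hy
    by_contra hyS
    exact hy.2 (hcl x hx y (mem_sdiff.2 ⟨hy.1, fun h => hyS (mem_Zs.1 h)⟩) hadj)
  have hcS := hcZ d hd c hc hdc
  have hcS' := hcZ d' hd' c' hc' hdc'
  rw [List.mem_flatten] at hcS hcS'
  obtain ⟨e1, he1, hce1⟩ := hcS
  obtain ⟨e2, he2, hce2⟩ := hcS'
  -- the path of length 2 in D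
  have hbr : ∀ {u v x y : V}, x ∈ D → y ∈ D → x ≠ y → G.Adj x u → G.Adj y v →
      Bridge G D u v [x, y] := by
    intro u v x y hx hy hxy hxu hyv
    refine ⟨by simp, ?_, ?_, ?_, ?_⟩
    · simp only [List.isChain_cons_cons, List.isChain_singleton, and_true]
      exact hDc x hx y hy hxy
    · intro z hz
      simp only [List.mem_cons, List.not_mem_nil, or_false] at hz
      rcases hz with rfl | rfl
      · exact hx
      · exact hy
    · intro z hz
      simp only [List.head?_cons, Option.mem_def, Option.some.injEq] at hz
      rw [← hz]; exact hxu.symm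
    · intro z hz
      simp only [List.getLast?_cons_cons, List.getLast?_singleton, Option.mem_def,
        Option.some.injEq] at hz
      rw [← hz]; exact hyv
  have hZmem : ∀ e ∈ S, ∀ x ∈ e, x ∈ W ∧ x ∉ D := by
    intro e he x hx
    refine ⟨(hS.sys.piece e he).mem x hx, fun h => hDZ x h (mem_Zs.2 ?_)⟩
    rw [List.mem_flatten]
    exact ⟨e, he, hx⟩
  by_cases hee : e1 = e2
  · subst hee
    -- symmetric statement for the order in the piece
    have key : ∀ (u v x y : V) (A M B : List V), x ∈ D → y ∈ D → x ≠ y → G.Adj x u → G.Adj y v →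
        e1 = A ++ u :: (M ++ v :: B) → False := by
      intro u v x y A M B hx hy hxy hxu hyv heq
      have hp1 := hS.sys.piece e1 he1
      have hMne : M ≠ [] := by
        rintro rfl
        exact no_ins hS he1 (A := A ++ [u]) (B := v :: B) (by rw [heq]; simp) (by simp)
          (by simp) hD (n := 2) (by omega) [x, y] (hbr hx hy hxy hxu hyv) (by simp)
      have hMl : 1 ≤ M.length := List.length_pos_iff.2 hMne
      have hnod : e1.Nodup := by
        have := hS.sys.nodup
        rw [List.nodup_flatten] at this
        exact this.1 e1 he1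
      have hlen1 : e1.length ≤ S.flatten.length := by
        have : e1.Sublist S.flatten := List.sublist_flatten_of_mem he1
        exact this.length_le
      have hch := hp1.chain
      have heq2 : e1 = (A ++ [u]) ++ (M ++ (v :: B)) := by rw [heq]; simp
      rw [heq2] at hch
      have hchX := (List.isChain_append.1 hch).1
      have hchY := (List.isChain_append.1 (List.isChain_append.1 hch).2.1).2.1
      apply E.hno
      apply dclose (X := A ++ [u]) (Y := v :: B) hK hKW hDc hDW hDK hx hy hxy hchX
        hchY _ _ _ _ _ _ (by simp) (by simp) _ hm hDg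
      · refine List.Nodup.sublist ?_ hnod
        rw [heq2]
        exact List.Sublist.append (List.Sublist.refl _) (List.sublist_append_right _ _)
      · intro z hz
        apply hZmem e1 he1
        rw [heq2]
        simp only [List.mem_append, List.mem_cons] at hz ⊢
        tauto
      · intro z hz
        apply hp1.hd
        rw [heq2, head?_append_of_ne _ (by simp)]
        exact hz
      · intro z hz
        apply hp1.lt
        rw [heq2, ← List.append_assoc, getLast?_append_cons' _ (by simp)]
        exact hz
      · intro z hz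
        rw [getLast?_append_cons' _ (by simp)] at hz
        simp only [List.getLast?_singleton, Option.mem_def, Option.some.injEq] at hz
        rw [← hz]; exact hxu.symm
      · intro z hz
        simp only [List.head?_cons, Option.mem_def, Option.some.injEq] at hz
        rw [← hz]; exact hyv
      · have : e1.length = A.length + 1 + (M.length + (B.length + 1)) := by
          rw [heq2]
          simp only [List.length_append, List.length_cons, List.length_nil]
        simp only [List.length_append, List.length_cons, List.length_nil]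
        omega
    obtain ⟨A, B, hAB⟩ := List.append_of_mem hce1
    rw [hAB, List.mem_append, List.mem_cons] at hce2
    rcases hce2 with h | h | h
    · obtain ⟨A1, A2, hA⟩ := List.append_of_mem h
      exact key c' c d' d A1 A2 B hd' hd hdd.symm hdc' hdc (hAB.trans (by rw [hA]; simp))
    · exact hcc h.symm
    · obtain ⟨B1, B2, hB⟩ := List.append_of_mem h
      exact key c c' d d' A B1 B2 hd hd' hdd hdc hdc' (hAB.trans (by rw [hB]))
  · -- different pieces
    obtain ⟨S1, S2, hSeq⟩ := List.append_of_mem he1
    have hp1 : S.Perm (e1 :: (S1 ++ S2)) := by rw [hSeq]; exact List.perm_middle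
    have he2' : e2 ∈ S1 ++ S2 := by
      have := hp1.mem_iff.1 he2
      rw [List.mem_cons] at this
      exact this.resolve_left (fun h => hee h.symm)
    obtain ⟨T1, T2, hTeq⟩ := List.append_of_mem he2'
    have hp2 : S.Perm (e1 :: e2 :: (T1 ++ T2)) := by
      refine hp1.trans ?_
      rw [hTeq]
      exact List.Perm.cons _ List.perm_middle
    generalize T1 ++ T2 = T at hp2
    have hsys := hS.sys.perm hp2
    have hlen := hp2.flatten.length_eq
    rw [List.flatten_cons, List.flatten_cons, List.length_append, List.length_append] at hlen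
    have hn := hsys.nodup
    rw [List.flatten_cons, List.flatten_cons, List.nodup_append, List.nodup_append] at hn
    obtain ⟨A1, B1, hAB1⟩ := List.append_of_mem hce1
    obtain ⟨A2, B2, hAB2⟩ := List.append_of_mem hce2
    have hA12 : A1 ≠ [] ∨ A2 ≠ [] := by
      by_contra hcon
      push Not at hcon
      rw [hcon.1] at hAB1
      rw [hcon.2] at hAB2
      exact no_join hS hp2 (p := c) (q := c') (by rw [hAB1]; simp) (Or.inl (by rw [hAB2]; simp))
        hD (n := 2) (by omega) [d, d'] (hbr hd hd' hdd hdc hdc') (by simp)
    have hA12' : 1 ≤ A1.length + A2.length := by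
      rcases hA12 with h | h
      · have := List.length_pos_iff.2 h
        omega
      · have := List.length_pos_iff.2 h
        omega
    have hq1 := hS.sys.piece e1 he1
    have hq2 := hS.sys.piece e2 he2
    have hch1 := hq1.chain
    have hch2 := hq2.chain
    rw [hAB1, List.isChain_append] at hch1
    rw [hAB2, List.isChain_append] at hch2
    apply E.hno
    apply dclose (X := (c :: B1).reverse) (Y := c' :: B2) hK hKW hDc hDW hDK hd hd' hdd
      (chain_symm hch1.2.1) hch2.2.1 _ _ _ _ _ _ (by simp) (by simp) _ hm hDg
    · rw [List.nodup_append]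
      refine ⟨?_, ?_, ?_⟩
      · rw [List.nodup_reverse]
        refine List.Nodup.sublist ?_ hn.1
        rw [hAB1]
        exact List.sublist_append_right _ _
      · refine List.Nodup.sublist ?_ hn.2.1.1
        rw [hAB2]
        exact List.sublist_append_right _ _
      · intro u hu v hv
        rw [List.mem_reverse] at hu
        apply hn.2.2 u (by rw [hAB1, List.mem_append]; exact Or.inr hu) v
        rw [List.mem_append, hAB2, List.mem_append]
        exact Or.inl (Or.inr hv)
    · intro z hz
      rw [List.mem_append, List.mem_reverse] at hz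
      rcases hz with hz | hz
      · exact hZmem e1 he1 z (by rw [hAB1, List.mem_append]; exact Or.inr hz)
      · exact hZmem e2 he2 z (by rw [hAB2, List.mem_append]; exact Or.inr hz)
    · intro z hz
      rw [List.head?_reverse] at hz
      apply hq1.lt
      rw [hAB1, getLast?_append_cons' _ (by simp)]
      exact hz
    · intro z hz
      apply hq2.lt
      rw [hAB2, getLast?_append_cons' _ (by simp)]
      exact hz
    · intro z hz
      rw [List.getLast?_reverse] at hz
      simp only [List.head?_cons, Option.mem_def, Option.some.injEq] at hz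
      rw [← hz]; exact hdc.symm
    · intro z hz
      simp only [List.head?_cons, Option.mem_def, Option.some.injEq] at hz
      rw [← hz]; exact hdc'
    · have l1 : e1.length = A1.length + (B1.length + 1) := by rw [hAB1]; simp
      have l2 : e2.length = A2.length + (B2.length + 1) := by rw [hAB2]; simp
      simp only [List.length_reverse, List.length_cons]
      omega

end Vale.Agent.P048.L
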