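import Vale.Agent.P048.Basic

namespace Vale.Agent.P048

open Finset

variable {V : Type*} [DecidableEq V]

structure Flex (G : SimpleGraph V) (Z : Finset V) (t s : V) (z v : ℕ) : Prop where
  card : Z.card = z
  ht : t ∈ Z
  hs : s ∈ Z
  path : ∀ j, j ≤ v → ∃ l, Pth G l ∧ l.head? = some t ∧ l.getLast? = some s ∧
    (∀ x ∈ l, x ∈ Z) ∧ l.length + j = z

omit [DecidableEq V] in
theorem flex_zero {G : SimpleGraph V} (t : V) : Flex G {t} t t 1 0 := by
  refine ⟨by simp, by simp, by simp, ?_⟩
  intro j hj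
  exact ⟨[t], ⟨by simp, by simp⟩, rfl, rfl, by simp, by simp; omega⟩

theorem flex_extend {G : SimpleGraph V} {Z : Finset V} {t s e : V} {z v k : ℕ} {p : List V}
    (h : Flex G Z t s z v) (hp : Pth G p) (hl : p.length = k + 1) (he : p.getLast? = some e)
    (hd : ∀ x ∈ p, x ∉ Z) (ha : ∀ x ∈ p, G.Adj s x) :
    Flex G (Z ∪ p.toFinset) t e (z + (k + 1)) (v + k) := by
  refine ⟨?_, ?_, ?_, ?_⟩
  · rw [card_union_of_disjoint, h.card, List.toFinset_card_of_nodup hp.1, hl]
    rw [disjoint_left]
    intro x hx hx'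
    exact hd x (List.mem_toFinset.1 hx') hx
  · exact mem_union_left _ h.ht
  · exact mem_union_right _ (List.mem_toFinset.2 (List.mem_of_getLast? he))
  · intro j hj
    obtain ⟨j1, j2, hj1, hj2, hjj⟩ : ∃ j1 j2, j1 ≤ v ∧ j2 ≤ k ∧ j1 + j2 = j := by
      rcases le_total j k with h | h
      · exact ⟨0, j, by omega, h, by omega⟩
      · exact ⟨j - k, k, by omega, le_rfl, by omega⟩
    obtain ⟨l, h1, h2, h3, h4, h5⟩ := h.path j1 hj1
    have hne : p.drop j2 ≠ [] := by
      intro h0
      have := congrArg List.length h0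
      rw [List.length_drop, List.length_nil] at this
      omega
    refine ⟨l ++ p.drop j2, ⟨?_, ?_⟩, ?_, ?_, ?_, ?_⟩
    · rw [List.nodup_append]
      refine ⟨h1.1, hp.1.sublist (List.drop_sublist _ _), ?_⟩
      intro a ha' b hb hab
      subst hab
      exact hd a (List.mem_of_mem_drop hb) (h4 a ha')
    · rw [List.isChain_append]
      refine ⟨h1.2, hp.2.drop _, ?_⟩
      intro x hx y hy
      rw [h3] at hx
      simp only [Option.mem_def, Option.some.injEq] at hx
      rw [← hx]
      exact ha y (List.mem_of_mem_drop (List.mem_of_mem_head? hy))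
    · rw [List.head?_append, h2]; rfl
    · rw [List.getLast?_append, List.getLast?_drop, if_neg (by omega), he]; rfl
    · intro x hx
      rw [List.mem_append] at hx
      rw [mem_union]
      rcases hx with hx | hx
      · exact Or.inl (h4 x hx)
      · exact Or.inr (List.mem_toFinset.2 (List.mem_of_mem_drop hx))
    · rw [List.length_append, List.length_drop]
      omega

theorem flex_chain {G : SimpleGraph V} {W : Finset V} {b k : ℕ} {t : V} (hW : AlphaLe G W b)
    (htW : t ∈ W) : ∀ r : ℕ,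
    (∀ Z, Z ⊆ W → Z.card + k ≤ r * (k + 1) → ∀ s ∈ Z,
      ∃ X, X ⊆ W \ Z ∧ (∀ x ∈ X, G.Adj s x) ∧ k * b + 1 ≤ X.card) →
    ∃ Z s, Z ⊆ W ∧ Flex G Z t s (1 + r * (k + 1)) (r * k) := by
  intro r
  induction r with
  | zero =>
    intro _
    refine ⟨{t}, t, singleton_subset_iff.2 htW, ?_⟩
    have := flex_zero (G := G) t
    simpa using this
  | succ r ih =>
    intro hdeg
    have hmul : (r + 1) * (k + 1) = r * (k + 1) + (k + 1) := by ring
    obtain ⟨Z, s, hZW, hF⟩ := ih (fun Z h1 h2 => hdeg Z h1 (by omega))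
    obtain ⟨X, hX1, hX2, hX3⟩ := hdeg Z hZW (by rw [hF.card]; omega) s hF.hs
    obtain ⟨p, hp1, hp2, hp3⟩ := path_of_alpha k X (hW.mono (hX1.trans sdiff_subset) le_rfl) hX3
    have hpne : p ≠ [] := by
      rintro rfl
      simp at hp1
    have he : p.getLast? = some (p.getLast hpne) := List.getLast?_eq_some_getLast hpne
    refine ⟨Z ∪ p.toFinset, p.getLast hpne, ?_, ?_⟩
    · apply union_subset hZW
      intro x hx
      exact (mem_sdiff.1 (hX1 (hp3 x (List.mem_toFinset.1 hx)))).1
    · have := flex_extend hF hp2 hp1 he (fun x hx => (mem_sdiff.1 (hX1 (hp3 x hx))).2)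
        (fun x hx => hX2 x (hp3 x hx))
      have e1 : 1 + (r + 1) * (k + 1) = 1 + r * (k + 1) + (k + 1) := by ring
      have e2 : (r + 1) * k = r * k + k := by ring
      rw [e1, e2]
      exact this

end Vale.Agent.P048
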