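import Vale.Agent.P048.Assemble
import Vale.Agent.P048.Clique
import Vale.Agent.P048.Flex

namespace Vale.Agent.P048

open Finset

variable {V : Type*} [DecidableEq V]

def thr (a b : ℕ) : ℕ := 2 * (b * (b - 1)) + a * b + 1

theorem thr_one (a : ℕ) : thr a 1 = a + 1 := by simp [thr]

theorem thr_split {a c d b : ℕ} (hc : 1 ≤ c) (hd : 1 ≤ d) (h : c + d = b) :
    thr a c + thr a d + (4 * b - 3) ≤ thr a b + 2 := by
  subst h
  obtain ⟨c, rfl⟩ := Nat.exists_eq_add_of_le' hc
  obtain ⟨d, rfl⟩ := Nat.exists_eq_add_of_le' hd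
  have e1 : c + 1 + (d + 1) - 1 = c + d + 1 := by omega
  have e2 : 4 * (c + 1 + (d + 1)) - 3 = 4 * c + 4 * d + 5 := by omega
  simp only [thr, Nat.add_sub_cancel, e1, e2]
  nlinarith [Nat.zero_le (c * d)]

theorem thr_step {a b : ℕ} (hb : 2 ≤ b) : thr a (b - 1) + (4 * b + a - 4) = thr a b := by
  obtain ⟨b, rfl⟩ := Nat.exists_eq_add_of_le' hb
  have e1 : b + 2 - 1 = b + 1 := by omega
  have e2 : b + 1 - 1 = b := by omega
  have e3 : 4 * (b + 2) + a - 4 = 4 * b + 4 + a := by omega
  simp only [thr, e1, e2, e3]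
  ring

theorem nbr_large {G : SimpleGraph V} {W : Finset V} {a b : ℕ} (hb : 2 ≤ b)
    (hW : AlphaLe G W b) (hcard : thr a b ≤ W.card)
    (hmin : ∀ c, 1 ≤ c → c < b → ∀ W', W' ⊆ W → AlphaLe G W' c → W'.card < thr a c)
    {x : V} (hx : x ∈ W) [DecidablePred (G.Adj x)] :
    4 * b + a - 4 ≤ (W.filter (G.Adj x)).card := by
  set M := (W.filter (fun y => ¬ G.Adj x y)).erase x with hM
  have hMa : AlphaLe G M (b - 1) := by
    intro s hs hi
    have hxs : x ∉ s := by
      intro h
      have := hs h
      rw [hM, mem_erase] at this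
      exact this.1 rfl
    have h1 := hW (insert x s) (insert_subset hx (by
      intro y hy
      have := hs hy
      rw [hM, mem_erase, mem_filter] at this
      exact this.2.1)) (ind_insert hi (by
      intro y hy
      have := hs hy
      rw [hM, mem_erase, mem_filter] at this
      exact this.2.2))
    rw [card_insert_of_notMem hxs] at h1
    omega
  have h2 := hmin (b - 1) (by omega) (by omega) M (by
    intro y hy
    rw [hM, mem_erase, mem_filter] at hy
    exact hy.2.1) hMa
  have h3 : (W.filter (fun y => ¬ G.Adj x y)).card = M.card + 1 := by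
    rw [hM, card_erase_of_mem]
    · have : 0 < (W.filter (fun y => ¬ G.Adj x y)).card := by
        rw [card_pos]
        exact ⟨x, by rw [mem_filter]; exact ⟨hx, G.loopless.irrefl _⟩⟩
      omega
    · rw [mem_filter]; exact ⟨hx, G.loopless.irrefl _⟩
  have h4 := card_filter_add_card_filter_not (s := W) (G.Adj x)
  have h5 := thr_step (a := a) hb
  omega

theorem long_cycle {G : SimpleGraph V} {W : Finset V} {a b m : ℕ} (hb : 2 ≤ b) (hba : b ≤ a)
    (hm : 3 * a ≤ m + 1)
    (hW : AlphaLe G W b) (hcard : thr a b ≤ W.card)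
    (hmin : ∀ c, 1 ≤ c → c < b → ∀ W', W' ⊆ W → AlphaLe G W' c → W'.card < thr a c) :
    ∃ c, Cyc G c ∧ c.length = min m W.card ∧ ∀ x ∈ c, x ∈ W := by
  classical
  have hthr : 3 * b - 1 ≤ thr a b := by
    obtain ⟨b, rfl⟩ := Nat.exists_eq_add_of_le' hb
    have e1 : b + 2 - 1 = b + 1 := by omega
    have e3 : 3 * (b + 2) - 1 = 3 * b + 5 := by omega
    simp only [thr, e1, e3]
    nlinarith [Nat.zero_le (a * b)]
  have hsep : Sep G W (4 * b - 3) := by
    intro A B hA hB hAne hBne hd hn
    obtain ⟨c, d, hc, hd', hcd, hAc, hBd⟩ := alpha_split hW hA hB hAne hBne hd hn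
    have h1 := hmin c hc (by omega) A hA hAc
    have h2 := hmin d hd' (by omega) B hB hBd
    have h3 := thr_split (a := a) hc hd' hcd
    have h4 : (W \ (A ∪ B)).card = W.card - (A ∪ B).card :=
      card_sdiff_of_subset (union_subset hA hB)
    have h5 := card_union_le A B
    omega
  have hdeg : ∀ x ∈ W, 4 * b + a - 4 ≤ (W.filter (G.Adj x)).card :=
    fun x hx => nbr_large hb hW hcard hmin hx
  have hWne : W.Nonempty := by
    rw [← card_pos]; omega
  obtain ⟨t, ht⟩ := hWne
  have hext : ∀ Z, Z ⊆ W → ∀ s ∈ Z, 4 * b + a - 4 ≤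
      ((W \ Z).filter (G.Adj s)).card + (Z.card - 1) := by
    intro Z hZW s hs
    refine (hdeg s (hZW hs)).trans ?_
    have h1 : W.filter (G.Adj s) ⊆ ((W \ Z).filter (G.Adj s)) ∪ (Z.erase s) := by
      intro x hx
      rw [mem_filter] at hx
      rw [mem_union, mem_filter, mem_sdiff, mem_erase]
      by_cases hxZ : x ∈ Z
      · right
        exact ⟨fun h => G.loopless.irrefl s (by rw [h] at hx; exact hx.2), hxZ⟩
      · left
        exact ⟨⟨hx.1, hxZ⟩, hx.2⟩
    have h2 := (card_le_card h1).trans (card_union_le _ _)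
    rwa [card_erase_of_mem hs] at h2
  obtain ⟨Z, s, hZW, hF⟩ := flex_chain (k := 2) hW ht (b - 1) (by
    intro Z hZW hZc s hs
    refine ⟨(W \ Z).filter (G.Adj s), filter_subset _ _, ?_, ?_⟩
    · intro x hx
      exact (mem_filter.1 hx).2
    · have := hext Z hZW s hs
      omega)
  have hz : Z.card = 3 * b - 2 := by
    rw [hF.card]; omega
  have hst : s ≠ t := by
    rintro rfl
    obtain ⟨l, h1, h2, h3, h4, h5⟩ := hF.path 0 (Nat.zero_le _)
    rcases l with _ | ⟨x, _ | ⟨y, l⟩⟩
    · simp at h2
    · simp at h5; omega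
    · simp only [List.head?_cons, Option.some.injEq] at h2
      subst h2
      rw [List.getLast?_cons_cons] at h3
      have := List.mem_of_getLast? h3
      exact (List.nodup_cons.1 h1.1).1 this
  have hmin3 : 3 * b - 1 ≤ min m W.card := by
    rw [le_min_iff]
    constructor <;> omega
  have hminW : min m W.card ≤ W.card := min_le_right _ _
  obtain ⟨l, hl, hl1, hl2⟩ := gap (L := min m W.card + 2 - Z.card) hb hW hZW hF.hs hF.ht hst hz hsep
    (by
      intro x hx
      have hne : ((W \ Z).filter (G.Adj x)).Nonempty := by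
        rw [← card_pos]
        by_cases hxZ : x ∈ Z
        · have := hext Z hZW x hxZ
          omega
        · have h1 := hdeg x hx
          have h2 : W.filter (G.Adj x) ⊆ ((W \ Z).filter (G.Adj x)) ∪ Z := by
            intro y hy
            rw [mem_filter] at hy
            rw [mem_union, mem_filter, mem_sdiff]
            by_cases hyZ : y ∈ Z
            · exact Or.inr hyZ
            · exact Or.inl ⟨⟨hy.1, hyZ⟩, hy.2⟩
          have h3 := (card_le_card h2).trans (card_union_le _ _)
          omega
      obtain ⟨y, hy⟩ := hne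
      rw [mem_filter] at hy
      exact ⟨y, hy.1, hy.2⟩)
    (by omega) (by omega)
  obtain ⟨p, hp1, hp2, hp3, hp4, hp5⟩ := hF.path (l.length - (min m W.card + 2 - Z.card)) (by omega)
  obtain ⟨c, hc1, hc2, hc3⟩ := cyc_of_two hZW hst hl hp1 hp2 hp3 hp4
  refine ⟨c, hc1, ?_, hc3⟩
  have := hF.card
  omega

theorem upper {G : SimpleGraph V} {m : ℕ} (hm : 3 ≤ m) : ∀ (a : ℕ), 3 * a ≤ m + 1 →
    ∀ W : Finset V, AlphaLe G W a → (m - 1) * a + 1 ≤ W.card → HasCyc G W m := by
  classical
  intro a
  induction a with
  | zero =>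
    intro _ W hW hc
    have : W.Nonempty := by rw [← card_pos]; omega
    obtain ⟨x, hx⟩ := this
    have := hW {x} (singleton_subset_iff.2 hx) (by
      intro u hu v hv
      rw [mem_singleton] at hu hv
      rw [hu, hv]; exact G.loopless.irrefl _)
    rw [card_singleton] at this
    omega
  | succ a ih =>
    intro ham W hW hc
    by_contra hno
    rcases Nat.eq_zero_or_pos a with rfl | hapos
    · obtain ⟨S, hS1, hS2⟩ := exists_subset_card_eq (show m ≤ W.card by omega)
      have hcl := alpha_one (hW.mono hS1 (by omega))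
      exact hno ⟨S.toList, by rw [length_toList, hS2], clique_cyc hcl (by omega),
        fun x hx => hS1 (mem_toList.1 hx)⟩
    · have hkl : ∀ F, F ⊆ W → F.card + 1 ≤ m → ∃ I, I ⊆ W \ F ∧ Ind G I ∧ I.card = a + 1 := by
        intro F hF hFc
        apply exists_ind_of_not_alphaLe
        intro hcon
        apply hno
        refine (ih (by omega) (W \ F) hcon ?_).mono sdiff_subset
        rw [card_sdiff_of_subset hF]
        have e : (m - 1) * (a + 1) = (m - 1) * a + (m - 1) := by ring
        omega
      have hkt := kt (m := m) hW hkl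
      have hP : ∃ b, 1 ≤ b ∧ ∃ W', W' ⊆ W ∧ AlphaLe G W' b ∧ thr (a + 1) b ≤ W'.card := by
        refine ⟨a + 1, by omega, W, Subset.refl _, hW, le_trans ?_ hc⟩
        obtain ⟨k, rfl⟩ := Nat.exists_eq_add_of_le (show 3 * (a + 1) - 1 ≤ m by omega)
        have e1 : 3 * (a + 1) - 1 + k - 1 = 3 * a + 1 + k := by omega
        simp only [thr, Nat.add_sub_cancel, e1]
        nlinarith [Nat.zero_le (k * (a + 1))]
      obtain ⟨hb1, W', hW'W, hW'a, hW'c⟩ := Nat.find_spec hP
      have hmin := fun c => @Nat.find_min _ _ hP c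
      have hble : Nat.find hP ≤ a + 1 := Nat.find_min' hP ⟨by omega, W, Subset.refl _, hW, by
        refine le_trans ?_ hc
        obtain ⟨k, rfl⟩ := Nat.exists_eq_add_of_le (show 3 * (a + 1) - 1 ≤ m by omega)
        have e1 : 3 * (a + 1) - 1 + k - 1 = 3 * a + 1 + k := by omega
        simp only [thr, Nat.add_sub_cancel, e1]
        nlinarith [Nat.zero_le (k * (a + 1))]⟩
      set b := Nat.find hP with hbdef
      rcases Nat.lt_or_ge b 2 with hb2 | hb2
      · have hb : b = 1 := by omega
        rw [hb] at hW'a hW'c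
        rw [thr_one] at hW'c
        obtain ⟨S, hS1, hS2⟩ := exists_subset_card_eq hW'c
        have hcl := alpha_one (hW'a.mono hS1 le_rfl)
        apply hno
        apply hkt (m - (a + 1 + 1)) S.toList
        · rw [length_toList, hS2]; omega
        · exact clique_cyc hcl (by omega)
        · intro x hx
          exact hW'W (hS1 (mem_toList.1 hx))
        · rw [toList_toFinset]
          exact notCol_of_clique hcl (by omega)
      · obtain ⟨c, hc1, hc2, hc3⟩ := long_cycle (m := m) hb2 hble (by omega) hW'a hW'c (by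
          intro c hc1 hcb W'' hW'' hα
          by_contra hcon
          exact hmin c hcb ⟨hc1, W'', hW''.trans hW'W, hα, by omega⟩)
        rcases le_total m W'.card with hmW | hmW
        · rw [min_eq_left hmW] at hc2
          exact hno ⟨c, hc2, hc1, fun x hx => hW'W (hc3 x hx)⟩
        · rw [min_eq_right hmW] at hc2
          apply hno
          apply hkt (m - W'.card) c (by omega) hc1 (fun x hx => hW'W (hc3 x hx))
          have hcW : c.toFinset = W' := by
            apply eq_of_subset_of_card_le
            · intro x hx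
              exact hc3 x (List.mem_toFinset.1 hx)
            · rw [List.toFinset_card_of_nodup hc1.1, hc2]
          rw [hcW]
          apply notCol_of_alpha hW'a
          refine lt_of_lt_of_le ?_ hW'c
          simp only [thr]
          have := Nat.zero_le (b * (b - 1))
          omega

end Vale.Agent.P048
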