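import Vale.Agent.P048.Numeric

namespace Vale.Agent.P048.L

theorem phase {f : ℕ → ℕ} {A B b r0 R r k x δ M C : ℕ} (hA : 1 ≤ A)
    (hmono : ∀ i, f i ≤ f (i + 1))
    (G : ∀ r, r0 ≤ r → r < R → A * f r + 2 * (min (min (f r) (b - f r)) B * (B + 1)) + 3 ≤
      A * f (r + 1) + (b - f r) + 4 * B)
    (hr : r0 ≤ r) (hrk : r + k ≤ R) (hx : x ≤ f r) (hMx : M ≤ x) (hMB : M ≤ B)
    (hMy : x + δ + M ≤ b + 1) (hC : b + 4 * B ≤ x + C + 3)
    (hk : A * δ + k * C ≤ k * (2 * (M * (B + 1)))) : x + δ ≤ f (r + k) := by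
  rcases Nat.eq_zero_or_pos k with rfl | hkpos
  · have : δ = 0 := by
      rcases Nat.eq_zero_or_pos δ with h | h
      · exact h
      · have : 0 < A * δ := Nat.mul_pos hA h
        omega
    subst this
    exact hx
  have hCM : C ≤ 2 * (M * (B + 1)) := by
    by_contra hcon
    push Not at hcon
    have := Nat.mul_lt_mul_of_pos_left hcon hkpos
    omega
  obtain ⟨P, hP⟩ := Nat.exists_eq_add_of_le hCM
  apply climb (A := A) (P := P) (x := x) hA hmono _ hx
  · rw [hP] at hk
    have e1 : A * (x + δ) = A * x + A * δ := by ring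
    have e2 : k * (C + P) = k * C + k * P := by ring
    omega
  · intro i hi1 hi2 hi3 hi4
    have h1 := G i (by omega) (by omega)
    have h2 : M ≤ min (min (f i) (b - f i)) B := by
      rw [le_min_iff, le_min_iff]
      omega
    have h3 : M * (B + 1) ≤ min (min (f i) (b - f i)) B * (B + 1) := Nat.mul_le_mul_right _ h2
    omega

/-- the general arithmetic estimate behind all phases: `s * δ ≤ B + e`, `B + 1 ≤ s * h` -/
theorem num {A B h δ s e k C : ℕ} (hs : 1 ≤ s) (hA : A ≤ 10 * B + 5) (ha : B + 1 ≤ s * h)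
    (hd : s * δ ≤ B + e)
    (hk : (10 * B + 5) * (B + e) + s * (k * C) ≤ k * (2 * ((B + 1) * (B + 1)))) :
    A * δ + k * C ≤ k * (2 * (h * (B + 1))) := by
  have h1 : A * (s * δ) ≤ (10 * B + 5) * (B + e) := Nat.mul_le_mul hA hd
  have h2 : (B + 1) * (B + 1) ≤ s * h * (B + 1) := Nat.mul_le_mul_right _ ha
  have h3 : k * (2 * ((B + 1) * (B + 1))) ≤ k * (2 * (s * h * (B + 1))) :=
    Nat.mul_le_mul_left _ (Nat.mul_le_mul_left _ h2)
  have h4 : s * (A * δ + k * C) ≤ s * (k * (2 * (h * (B + 1)))) := by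
    have e1 : s * (A * δ + k * C) = A * (s * δ) + s * (k * C) := by ring
    have e2 : s * (k * (2 * (h * (B + 1)))) = k * (2 * (s * h * (B + 1))) := by ring
    rw [e1, e2]
    omega
  exact Nat.le_of_mul_le_mul_left h4 hs

theorem num1 {B : ℕ} (hB : 166 ≤ B) :
    (10 * B + 5) * (B + 7) + 8 * (9 * (16 * B + 7)) ≤ 9 * (2 * ((B + 1) * (B + 1))) := by
  nlinarith

theorem num2 {B : ℕ} (hB : 166 ≤ B) :
    (10 * B + 5) * (B + 3) + 4 * (7 * (16 * B + 7)) ≤ 7 * (2 * ((B + 1) * (B + 1))) := by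
  nlinarith

theorem num3 {B : ℕ} (hB : 166 ≤ B) :
    (10 * B + 5) * (B + 0) + 2 * (6 * (16 * B + 7)) ≤ 6 * (2 * ((B + 1) * (B + 1))) := by
  nlinarith

theorem num4 {B : ℕ} (hB : 166 ≤ B) :
    (10 * B + 5) * (10 * B + 10) + 54 * (16 * B + 7) ≤ 54 * (2 * (B * (B + 1))) := by
  nlinarith

theorem num5 {B : ℕ} (hB : 166 ≤ B) :
    (10 * B + 5) * (B + 0) + 2 * (6 * (5 * B)) ≤ 6 * (2 * ((B + 1) * (B + 1))) := by
  nlinarith

theorem num6 {B : ℕ} (hB : 166 ≤ B) :
    (10 * B + 5) * (B + 3) + 4 * (6 * (5 * B)) ≤ 6 * (2 * ((B + 1) * (B + 1))) := by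
  nlinarith

theorem num7 {B : ℕ} (hB : 166 ≤ B) :
    (10 * B + 5) * (B + 7) + 8 * (6 * (5 * B)) ≤ 6 * (2 * ((B + 1) * (B + 1))) := by
  nlinarith

theorem num8 {B : ℕ} (hB : 166 ≤ B) :
    (10 * B + 5) * (B + B) + 2 * (11 * (16 * B + 7)) ≤ 11 * (2 * ((B + 1) * (B + 1))) := by
  nlinarith

section

variable {A B b : ℕ} {f : ℕ → ℕ} (hB : 166 ≤ B) (hA : 1 ≤ A) (hA' : A ≤ 10 * B + 5)
    (hb : B + 2 ≤ b) (hb' : b ≤ 12 * B + 10) (hmono : ∀ r, f r ≤ f (r + 1))
    (G : ∀ r, 14 ≤ r → r < B - 1 → A * f r + 2 * (min (min (f r) (b - f r)) B * (B + 1)) + 3 ≤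
      A * f (r + 1) + (b - f r) + 4 * B)

include hB hA hA' hb hb' hmono G

theorem phases1 (h8 : 8 ≤ f 14) : B / 2 + 1 ≤ f (B / 8 + 23) := by
  have p1 : B / 8 + 1 ≤ f (14 + (B / 8 - 7)) := by
    have := climb (f := f) (A := 1) (P := 1) (x := 8) (y := B / 8 + 1) (k := B / 8 - 7) (r := 14)
      le_rfl hmono
      (by
        intro i hi1 hi2 hi3 hi4
        have g := G i hi1 (by omega)
        have h2 : 8 ≤ min (min (f i) (b - f i)) B := by
          rw [le_min_iff, le_min_iff]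
          omega
        have h3 : 8 * (B + 1) ≤ min (min (f i) (b - f i)) B * (B + 1) := Nat.mul_le_mul_right _ h2
        have h4 : A * f i < A * f (i + 1) := by omega
        have h5 := Nat.lt_of_mul_lt_mul_left h4
        omega) h8 (by omega)
    exact this
  have p2 : (B / 8 + 1) + (B / 4 - B / 8) ≤ f (14 + (B / 8 - 7) + 9) :=
    phase (M := B / 8 + 1) (C := 16 * B + 7) hA hmono G (by omega) (by omega) p1 le_rfl
      (by omega) (by omega) (by omega)
      (num (s := 8) (e := 7) (by omega) hA' (by omega) (by omega) (num1 hB))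
  have p3 : (B / 4 + 1) + (B / 2 - B / 4) ≤ f (14 + (B / 8 - 7) + 9 + 7) :=
    phase (M := B / 4 + 1) (C := 16 * B + 7) hA hmono G (by omega) (by omega)
      (le_trans (by omega) p2) le_rfl (by omega) (by omega) (by omega)
      (num (s := 4) (e := 3) (by omega) hA' (by omega) (by omega) (num2 hB))
  have e : 14 + (B / 8 - 7) + 9 + 7 = B / 8 + 23 := by omega
  rw [e] at p3
  omega

theorem phases2 {r : ℕ} (hr : 14 ≤ r) (hrB : r + 66 ≤ B - 1) (h : B / 2 + 1 ≤ f r) :
    b - (B / 2 + 1) ≤ f (r + 66) := by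
  have hmono' : ∀ i j, i ≤ j → f i ≤ f j := fun i j h => monotone_nat_of_le_succ hmono h
  rcases Nat.lt_or_ge b (2 * B) with hbB | hbB
  · have h : (B / 2 + 1) + (b - (B / 2 + 1) - (B / 2 + 1)) ≤ f (r + 11) :=
      phase (M := B / 2 + 1) (C := 16 * B + 7) hA hmono G (by omega) (by omega)
        h le_rfl (by omega) (by omega) (by omega)
        (num (s := 2) (e := B) (by omega) hA' (by omega) (by omega) (num8 hB))
    exact le_trans (by omega) (h.trans (hmono' _ _ (by omega)))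
  · have q1 : (B / 2 + 1) + (B - (B / 2 + 1)) ≤ f (r + 6) :=
      phase (M := B / 2 + 1) (C := 16 * B + 7) hA hmono G (by omega) (by omega)
        h le_rfl (by omega) (by omega) (by omega)
        (num (s := 2) (e := 0) (by omega) hA' (by omega) (by omega) (num3 hB))
    have q2 : B + (b - B - B) ≤ f (r + 6 + 54) :=
      phase (M := B) (C := 16 * B + 7) hA hmono G (by omega) (by omega)
        (le_trans (by omega) q1) le_rfl le_rfl (by omega) (by omega)
        (le_trans (Nat.add_le_add_right (Nat.mul_le_mul hA' (by omega : b - B - B ≤ 10 * B + 10)) _)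
          (num4 hB))
    have q3 : (b - B) + (B - (B / 2 + 1)) ≤ f (r + 6 + 54 + 6) :=
      phase (M := B / 2 + 1) (C := 5 * B) hA hmono G (by omega) (by omega)
        (le_trans (by omega) q2) (by omega) (by omega) (by omega) (by omega)
        (num (s := 2) (e := 0) (by omega) hA' (by omega) (by omega) (num5 hB))
    exact le_trans (by omega) q3

theorem phases3 {r : ℕ} (hr : 14 ≤ r) (hrB : r + 12 + B / 8 ≤ B - 1)
    (h : b - (B / 2 + 1) ≤ f r) : b - 1 ≤ f (r + 12 + B / 8) := by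
  have p5 : (b - (B / 2 + 1)) + (B / 2 - B / 4) ≤ f (r + 6) :=
    phase (M := B / 4 + 1) (C := 5 * B) hA hmono G (by omega) (by omega)
      h (by omega) (by omega) (by omega) (by omega)
      (num (s := 4) (e := 3) (by omega) hA' (by omega) (by omega) (num6 hB))
  have p6 : (b - (B / 4 + 1)) + (B / 4 - B / 8) ≤ f (r + 6 + 6) :=
    phase (M := B / 8 + 1) (C := 5 * B) hA hmono G (by omega) (by omega)
      (le_trans (by omega) p5) (by omega) (by omega) (by omega) (by omega)
      (num (s := 8) (e := 7) (by omega) hA' (by omega) (by omega) (num7 hB))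
  have := climb (f := f) (A := 1) (P := 1) (x := b - (B / 8 + 1)) (y := b - 1) (k := B / 8)
    (r := r + 12) le_rfl hmono
    (by
      intro i hi1 hi2 hi3 hi4
      have g := G i (by omega) (by omega)
      have h2 : b - f i ≤ min (min (f i) (b - f i)) B := by
        rw [le_min_iff, le_min_iff]
        omega
      have h3 : (b - f i) * (B + 1) ≤ min (min (f i) (b - f i)) B * (B + 1) :=
        Nat.mul_le_mul_right _ h2
      obtain ⟨e, he⟩ := Nat.exists_eq_add_of_le (show 2 ≤ b - f i by omega)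
      rw [he] at h3 g
      have h4 : (2 + e) * (B + 1) = 2 * B + 2 + e * B + e := by ring
      have h5 : A * f i < A * f (i + 1) := by omega
      have h5 := Nat.lt_of_mul_lt_mul_left h5
      omega) (le_trans (by omega) p6) (by omega)
  exact this

end

theorem grow_L {A0 B b : ℕ} {f : ℕ → ℕ} (hB : 166 ≤ B) (hA : B ≤ A0) (hA' : A0 ≤ 6 * B + 5)
    (hb : B + 2 ≤ b) (hb' : b ≤ 12 * B + 10) (h8 : 8 ≤ f 14) (hmono : ∀ r, f r ≤ f (r + 1))
    (hR : ∀ r, r ≤ B - 1 → f r < b)
    (hstep : ∀ r, 14 ≤ r → r < B - 1 → TT A0 B b + 2 ≤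
      TT A0 B (f (r + 1)) + TT A0 B (b - f r) + (b + 2 * (2 * B - 1) - f r)) : False := by
  have hmono' : ∀ i j, i ≤ j → f i ≤ f j := fun i j h => monotone_nat_of_le_succ hmono h
  have G : ∀ r, 14 ≤ r → r < B - 1 → (A0 + 4 * B) * f r +
      2 * (min (min (f r) (b - f r)) B * (B + 1)) + 3 ≤
      (A0 + 4 * B) * f (r + 1) + (b - f r) + 4 * B := by
    intro r h1 h2
    exact TT_grow (by omega) hA hb (le_trans (by omega) (h8.trans (hmono' _ _ h1)))
      (hR r (by omega)) (hmono r) (hR (r + 1) (by omega)).le (hstep r h1 h2)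
  have p1 := phases1 hB (by omega) (by omega) hb hb' hmono G h8
  have p2 := phases2 hB (by omega) (by omega) hb hb' hmono G (by omega) (by omega) p1
  have p3 := phases3 hB (by omega) (by omega) hb hb' hmono G (by omega) (by omega) p2
  obtain ⟨r, hr⟩ : ∃ r, r = B / 8 + 23 + 66 + 12 + B / 8 := ⟨_, rfl⟩
  rw [← hr] at p3
  have c1 := hR r (by omega)
  have c2 := hR (r + 1) (by omega)
  have c3 := hstep r (by omega) (by omega)
  have c4 : f r = b - 1 := by omega
  have c5 : TT A0 B (f (r + 1)) ≤ TT A0 B (b - 1) := TT_mono (by omega)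
  have c6 := TT_succ A0 B (b - 1)
  rw [show b - 1 + 1 = b by omega, min_eq_right (by omega : B ≤ b - 1)] at c6
  rw [c4, show b - (b - 1) = 1 by omega, TT_one] at c3
  omega

end Vale.Agent.P048.L
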