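import Vale.Agent.P048.LevelBig
import Vale.Agent.P048.NumericL
import Vale.Agent.P048.Main

namespace Vale.Agent.P048.L

open Finset

variable {V : Type*} [DecidableEq V]

theorem long_cycle_small {G : SimpleGraph V} {W : Finset V} {a b m : ℕ} (hb : 2 ≤ b) (hba : b ≤ a)
    (hm : 3 * b ≤ m + 1)
    (hW : AlphaLe G W b) (hcard : thr a b ≤ W.card)
    (hmin : ∀ c, 1 ≤ c → c < b → ∀ W', W' ⊆ W → AlphaLe G W' c → W'.card < thr a c) :
    ∃ c, Cyc G c ∧ c.length = min m W.card ∧ ∀ x ∈ c, x ∈ W := by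
  classical
  have hthr : 3 * b - 1 ≤ thr a b := by
    obtain ⟨b, rfl⟩ := Nat.exists_eq_add_of_le' hb
    have e1 : b + 2 - 1 = b + 1 := by omega
    have e3 : 3 * (b + 2) - 1 = 3 * b + 5 := by omega
    simp only [thr, e1, e3]
    nlinarith [Nat.zero_le (a * b)]
  have hsep : Sep G W (4 * b - 3) := by
    intro A B hA hB hAne hBne hd hn
    obtain ⟨c, d, hc, hd', hcd, hAc, hBd⟩ := alpha_split hW hA hB hAne hBne hd hn
    have h1 := hmin c hc (by omega) A hA hAc
    have h2 := hmin d hd' (by omega) B hB hBd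
    have h3 := thr_split (a := a) hc hd' hcd
    have h4 : (W \ (A ∪ B)).card = W.card - (A ∪ B).card :=
      card_sdiff_of_subset (union_subset hA hB)
    have h5 := card_union_le A B
    omega
  have hdeg : ∀ x ∈ W, 4 * b + a - 4 ≤ (W.filter (G.Adj x)).card :=
    fun x hx => nbr_large hb hW hcard hmin hx
  have hWne : W.Nonempty := by
    rw [← card_pos]; omega
  obtain ⟨t, ht⟩ := hWne
  have hext : ∀ Z, Z ⊆ W → ∀ s ∈ Z, 4 * b + a - 4 ≤
      ((W \ Z).filter (G.Adj s)).card + (Z.card - 1) := by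
    intro Z hZW s hs
    refine (hdeg s (hZW hs)).trans ?_
    have h1 : W.filter (G.Adj s) ⊆ ((W \ Z).filter (G.Adj s)) ∪ (Z.erase s) := by
      intro x hx
      rw [mem_filter] at hx
      rw [mem_union, mem_filter, mem_sdiff, mem_erase]
      by_cases hxZ : x ∈ Z
      · right
        exact ⟨fun h => G.loopless.irrefl s (by rw [h] at hx; exact hx.2), hxZ⟩
      · left
        exact ⟨⟨hx.1, hxZ⟩, hx.2⟩
    have h2 := (card_le_card h1).trans (card_union_le _ _)
    rwa [card_erase_of_mem hs] at h2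
  obtain ⟨Z, s, hZW, hF⟩ := flex_chain (k := 2) hW ht (b - 1) (by
    intro Z hZW hZc s hs
    refine ⟨(W \ Z).filter (G.Adj s), filter_subset _ _, ?_, ?_⟩
    · intro x hx
      exact (mem_filter.1 hx).2
    · have := hext Z hZW s hs
      omega)
  have hz : Z.card = 3 * b - 2 := by
    rw [hF.card]; omega
  have hst : s ≠ t := by
    rintro rfl
    obtain ⟨l, h1, h2, h3, h4, h5⟩ := hF.path 0 (Nat.zero_le _)
    rcases l with _ | ⟨x, _ | ⟨y, l⟩⟩
    · simp at h2
    · simp at h5; omega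
    · simp only [List.head?_cons, Option.some.injEq] at h2
      subst h2
      rw [List.getLast?_cons_cons] at h3
      have := List.mem_of_getLast? h3
      exact (List.nodup_cons.1 h1.1).1 this
  have hmin3 : 3 * b - 1 ≤ min m W.card := by
    rw [le_min_iff]
    constructor <;> omega
  have hminW : min m W.card ≤ W.card := min_le_right _ _
  obtain ⟨l, hl, hl1, hl2⟩ := gap (L := min m W.card + 2 - Z.card) hb hW hZW hF.hs hF.ht hst hz hsep
    (by
      intro x hx
      have hne : ((W \ Z).filter (G.Adj x)).Nonempty := by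
        rw [← card_pos]
        by_cases hxZ : x ∈ Z
        · have := hext Z hZW x hxZ
          omega
        · have h1 := hdeg x hx
          have h2 : W.filter (G.Adj x) ⊆ ((W \ Z).filter (G.Adj x)) ∪ Z := by
            intro y hy
            rw [mem_filter] at hy
            rw [mem_union, mem_filter, mem_sdiff]
            by_cases hyZ : y ∈ Z
            · exact Or.inr hyZ
            · exact Or.inl ⟨⟨hy.1, hyZ⟩, hy.2⟩
          have h3 := (card_le_card h2).trans (card_union_le _ _)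
          omega
      obtain ⟨y, hy⟩ := hne
      rw [mem_filter] at hy
      exact ⟨y, hy.1, hy.2⟩)
    (by omega) (by omega)
  obtain ⟨p, hp1, hp2, hp3, hp4, hp5⟩ := hF.path (l.length - (min m W.card + 2 - Z.card)) (by omega)
  obtain ⟨c, hc1, hc2, hc3⟩ := cyc_of_two hZW hst hl hp1 hp2 hp3 hp4
  refine ⟨c, hc1, ?_, hc3⟩
  have := hF.card
  omega


theorem TT_thr {A0 B c : ℕ} (hB : B ≤ A0) (hc : 1 ≤ c) (hcB : c ≤ B + 1) :
    TT A0 B c = thr A0 c := by
  obtain ⟨c, rfl⟩ := Nat.exists_eq_add_of_le' hc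
  simp only [TT, thr, Nat.add_sub_cancel]
  rw [EE_small c (by omega), XX_small (c + 1) (by omega)]
  ring

theorem TT_two {A0 B c : ℕ} (hB : 1 ≤ B) (hc : 2 ≤ c) : 2 * A0 + 5 ≤ TT A0 B c := by
  have h1 : TT A0 B 2 = 2 * A0 + 5 := by
    rw [show (2 : ℕ) = 1 + 1 from rfl, TT_succ, TT_one, min_eq_left hB]
    omega
  rw [← h1]
  exact TT_mono hc

theorem TT_kappa {A0 B c : ℕ} (hB : B ≤ A0) (hB8 : 8 ≤ B) (hc : 1 ≤ c) (hc8 : c < 8) :
    TT A0 B c ≤ (A0 + 12) * c + 1 := by
  rw [TT_thr hB hc (by omega)]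
  simp only [thr]
  have h1 : c * (c - 1) ≤ c * 6 := Nat.mul_le_mul_left _ (by omega)
  have e : (A0 + 12) * c = A0 * c + 12 * c := by ring
  omega

theorem TT_big {A0 B b m : ℕ} (hB : 166 ≤ B) (hb : B + 2 ≤ b) (hm : m ≤ 12 * B + 11) :
    (A0 + 12) * b + m ≤ TT A0 B b := by
  obtain ⟨k, rfl⟩ := Nat.exists_eq_add_of_le (show B ≤ b by omega)
  have h1 := EE_big (B := B) k
  simp only [TT]
  have e : (A0 + 12) * (B + k) = A0 * (B + k) + 12 * (B + k) := by ring
  have h2 : 12 * (B + k) + m + 2 * (B * (B + 1)) ≤ 4 * (B * (B + k)) := by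
    nlinarith
  omega

theorem exists_clique {G : SimpleGraph V} {m B A0 : ℕ} (hB : 166 ≤ B) (hm1 : 12 * B ≤ m)
    (hm2 : m ≤ 12 * B + 11) (hA0 : A0 = (m + 1) / 2 - 1) : ∀ c, 1 ≤ c → c + 1 ≤ m →
    ∀ Y : Finset V, AlphaLe G Y c → TT A0 B c ≤ Y.card → ¬ HasCyc G Y m →
    ∃ K, K ⊆ Y ∧ K.card = A0 + 1 ∧ ∀ x ∈ K, ∀ y ∈ K, x ≠ y → G.Adj x y := by
  intro c
  induction c using Nat.strong_induction_on with
  | _ c ih =>
  intro hc hcm Y hY hcard hno
  by_cases hex : ∃ c', 1 ≤ c' ∧ c' < c ∧ ∃ Y', Y' ⊆ Y ∧ AlphaLe G Y' c' ∧ TT A0 B c' ≤ Y'.card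
  · obtain ⟨c', h1, h2, Y', h3, h4, h5⟩ := hex
    obtain ⟨K, hK1, hK2, hK3⟩ := ih c' h2 h1 (by omega) Y' h4 h5 (fun h => hno (h.mono h3))
    exact ⟨K, hK1.trans h3, hK2, hK3⟩
  · have hmin : ∀ c', 1 ≤ c' → c' < c → ∀ W', W' ⊆ Y → AlphaLe G W' c' →
        W'.card < TT A0 B c' := by
      intro c' h1 h2 W' h3 h4
      by_contra hcon
      exact hex ⟨c', h1, h2, W', h3, h4, by omega⟩
    rcases Nat.lt_or_ge c 2 with hc2 | hc2
    · have hc1 : c = 1 := by omega
      subst hc1
      rw [TT_one] at hcard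
      obtain ⟨S, hS1, hS2⟩ := exists_subset_card_eq hcard
      have hcl := alpha_one (hY.mono hS1 le_rfl)
      exact ⟨S, hS1, hS2, hcl⟩
    · have hTm : m ≤ TT A0 B c := by
        have := TT_two (A0 := A0) (B := B) (by omega) hc2
        omega
      exfalso
      apply hno
      rcases Nat.lt_or_ge (B + 1) c with hcB | hcB
      · obtain ⟨l, h1, h2, h3⟩ := long_cycle_big (m := m) (q := 2 * B - 1) (R := B - 1) (r0 := 14)
          (βs := 8) (κ := A0 + 12) (T := TT A0 B) (by omega) hY hcard hmin (by omega) (by omega)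
          (by omega) (by omega) (by omega) (by omega) (by omega)
          (TT_h1 (by omega) (by omega))
          (by
            intro d e hd he hde
            subst hde
            exact TT_sep (by omega) hd he (by omega))
          (fun d hd hd8 => TT_kappa (by omega) (by omega) hd hd8)
          (TT_big hB hcB hm2)
          (fun f hf1 hf2 hf3 hf4 => grow_L hB (by omega) (by omega) hcB (by omega) hf1 hf2 hf3 hf4)
        exact ⟨l, h2, h1, h3⟩
      · obtain ⟨l, h1, h2, h3⟩ := long_cycle_small (m := m) (a := A0) hc2 (by omega) (by omega) hY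
          (by rw [← TT_thr (B := B) (by omega) hc hcB]; exact hcard)
          (by
            intro d hd hdc W' hW' hα
            rw [← TT_thr (B := B) (by omega) hd (by omega)]
            exact hmin d hd hdc W' hW' hα)
        rw [min_eq_left (hTm.trans hcard)] at h2
        exact ⟨l, h2, h1, h3⟩

end Vale.Agent.P048.L
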