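import Vale.Agent.P048.BigClique

namespace Vale.Agent.P048.L

open Finset

variable {V : Type*} {G : SimpleGraph V}

/-- `l` is a path from `a` to `b`. -/
def Lst (G : SimpleGraph V) (a b : V) (l : List V) : Prop :=
  l.IsChain G.Adj ∧ l.Nodup ∧ l.head? = some a ∧ l.getLast? = some b

theorem Lst.single (a : V) : Lst G a a [a] := ⟨by simp, by simp, rfl, rfl⟩

theorem Lst.left {a b : V} {l : List V} (h : Lst G a b l) : a ∈ l :=
  List.mem_of_mem_head? (by rw [h.2.2.1]; rfl)

theorem Lst.right {a b : V} {l : List V} (h : Lst G a b l) : b ∈ l :=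
  List.mem_of_getLast? h.2.2.2

theorem Lst.rev {a b : V} {l : List V} (h : Lst G a b l) : Lst G b a l.reverse := by
  obtain ⟨h1, h2, h3, h4⟩ := h
  refine ⟨chain_symm h1, List.nodup_reverse.2 h2, ?_, ?_⟩
  · rw [List.head?_reverse]; exact h4
  · rw [List.getLast?_reverse]; exact h3

theorem Lst.cons {a b : V} {l : List V} (h : Lst G a b l) : ∃ t, l = a :: t := by
  obtain ⟨h1, h2, h3, h4⟩ := h
  rcases l with _ | ⟨x, t⟩
  · simp at h3
  · simp only [List.head?_cons, Option.some.injEq] at h3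
    exact ⟨t, by rw [h3]⟩

theorem Lst.snoc {a b : V} {l : List V} (h : Lst G a b l) : ∃ t, l = t ++ [b] := by
  obtain ⟨t, ht⟩ := h.rev.cons
  refine ⟨t.reverse, ?_⟩
  rw [← List.reverse_reverse l, ht]
  simp

theorem Lst.append {a b c d : V} {l l' : List V} (h : Lst G a b l) (h' : Lst G c d l')
    (hbc : G.Adj b c) (hdis : ∀ x ∈ l, x ∉ l') : Lst G a d (l ++ l') := by
  refine ⟨?_, ?_, ?_, ?_⟩
  · rw [List.isChain_append]
    refine ⟨h.1, h'.1, ?_⟩
    intro x hx y hy
    rw [h.2.2.2] at hx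
    rw [h'.2.2.1] at hy
    simp only [Option.mem_def, Option.some.injEq] at hx hy
    rw [← hx, ← hy]; exact hbc
  · rw [List.nodup_append]
    refine ⟨h.2.1, h'.2.1, ?_⟩
    intro x hx y hy hxy
    rw [← hxy] at hy
    exact hdis x hx hy
  · rw [List.head?_append, h.2.2.1]; rfl
  · rw [List.getLast?_append, h'.2.2.2]; rfl

/-- Concatenate two paths sharing exactly the common end. -/
theorem Lst.join {a b c : V} {l l' : List V} (h : Lst G a b l) (h' : Lst G b c l')
    (hdis : ∀ x ∈ l, x ∈ l' → x = b) :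
    ∃ L, Lst G a c L ∧ (∀ x, x ∈ L ↔ x ∈ l ∨ x ∈ l') ∧ L.length + 1 = l.length + l'.length := by
  obtain ⟨t, rfl⟩ := h'.cons
  rcases t with _ | ⟨y, t⟩
  · have hbc : b = c := by
      have := h'.2.2.2
      simpa using this
    refine ⟨l, hbc ▸ h, ?_, by simp⟩
    intro x
    rw [List.mem_singleton]
    constructor
    · exact fun hx => Or.inl hx
    · rintro (hx | rfl)
      · exact hx
      · exact h.right
  · have hyt : Lst G y c (y :: t) := by
      obtain ⟨h1, h2, h3, h4⟩ := h'
      refine ⟨(List.isChain_cons_cons.1 h1).2, (List.nodup_cons.1 h2).2, rfl, ?_⟩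
      rw [List.getLast?_cons_cons] at h4
      exact h4
    refine ⟨l ++ y :: t, h.append hyt (List.isChain_cons_cons.1 h'.1).1 ?_, ?_, ?_⟩
    · intro x hx hx'
      have := hdis x hx (List.mem_cons_of_mem _ hx')
      rw [this] at hx'
      exact (List.nodup_cons.1 h'.2.1).1 hx'
    · intro x
      rw [List.mem_append, List.mem_cons (a := x) (b := b)]
      constructor
      · rintro (hx | hx)
        · exact Or.inl hx
        · exact Or.inr (Or.inr hx)
      · rintro (hx | rfl | hx)
        · exact Or.inl hx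
        · exact Or.inl h.right
        · exact Or.inr hx
    · simp only [List.length_append, List.length_cons]; omega

theorem Lst.pre {a b x : V} {l1 l2 : List V} (h : Lst G a b (l1 ++ x :: l2)) :
    Lst G a x (l1 ++ [x]) := by
  obtain ⟨h1, h2, h3, h4⟩ := h
  have e : l1 ++ x :: l2 = (l1 ++ [x]) ++ l2 := by simp
  refine ⟨?_, ?_, ?_, ?_⟩
  · rw [e, List.isChain_append] at h1
    exact h1.1
  · rw [e, List.nodup_append] at h2
    exact h2.1
  · rcases l1 with _ | ⟨y, t⟩
    · simpa using h3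
    · simpa using h3
  · rw [List.getLast?_append]; rfl

theorem Lst.suf {a b x : V} {l1 l2 : List V} (h : Lst G a b (l1 ++ x :: l2)) :
    Lst G x b (x :: l2) := by
  obtain ⟨h1, h2, h3, h4⟩ := h
  refine ⟨(List.isChain_append.1 h1).2.1, (List.nodup_append.1 h2).2.1, rfl, ?_⟩
  rw [List.getLast?_append] at h4
  rcases hl : (x :: l2).getLast? with _ | z
  · simp at hl
  · rw [hl] at h4
    exact h4

theorem Lst.pfx {a b x : V} {l : List V} (h : Lst G a b l) (hx : x ∈ l) :
    ∃ l', Lst G a x l' ∧ (∀ z ∈ l', z ∈ l) ∧ (x ≠ b → b ∉ l') := by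
  obtain ⟨l1, l2, rfl⟩ := List.append_of_mem hx
  refine ⟨l1 ++ [x], h.pre, ?_, ?_⟩
  · intro z hz
    simp only [List.mem_append, List.mem_cons, List.not_mem_nil, or_false] at hz ⊢
    tauto
  · intro hxb hb
    have h2 := h.2.1
    have h5 := h.suf
    rcases l2 with _ | ⟨y, t⟩
    · apply hxb
      have := h5.2.2.2
      simpa using this
    · have hbt : b ∈ y :: t := by
        have := h5.2.2.2
        rw [List.getLast?_cons_cons] at this
        exact List.mem_of_getLast? this
      have e : l1 ++ x :: y :: t = (l1 ++ [x]) ++ y :: t := by simp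
      rw [e, List.nodup_append] at h2
      exact h2.2.2 b hb b hbt rfl

/-- A shortest-type link from `X` to `T` inside the connected set `D`. -/
theorem dc_link [DecidableEq V] {D X T : Finset V} (hD : Conn G D) (hX : X ⊆ D) (hT : T ⊆ D)
    (hXn : X.Nonempty) (hTn : T.Nonempty) (hd : ∀ x ∈ X, x ∉ T) :
    ∃ x ∈ X, ∃ y ∈ T, ∃ z0 l', G.Adj x z0 ∧ Lst G z0 y l' ∧
      ∀ z ∈ l', z ∈ D ∧ z ∉ X ∧ (z ∈ T → z = y) := by
  classical
  by_contra hcon
  have hA := hD (D.filter (fun v => v ∈ X ∨ ∃ x ∈ X, ∃ z0 l', G.Adj x z0 ∧ Lst G z0 v l' ∧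
    ∀ z ∈ l', z ∈ D ∧ z ∉ X ∧ z ∉ T)) (filter_subset _ _)
    (by
      obtain ⟨x, hx⟩ := hXn
      exact ⟨x, mem_filter.2 ⟨hX hx, Or.inl hx⟩⟩)
    (by
      intro v hv w hw hvw
      rw [mem_filter] at hv ⊢
      refine ⟨hw, ?_⟩
      by_cases hwX : w ∈ X
      · exact Or.inl hwX
      right
      by_cases hwT : w ∈ T
      · exfalso
        apply hcon
        rcases hv.2 with hvX | ⟨x, hx, z0, l', h1, h2, h3⟩
        · refine ⟨v, hvX, w, hwT, w, [w], hvw, Lst.single w, ?_⟩
          intro z hz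
          rw [List.mem_singleton] at hz
          rw [hz]
          exact ⟨hw, hwX, fun _ => rfl⟩
        · refine ⟨x, hx, w, hwT, z0, l' ++ [w], h1, h2.append (Lst.single w) hvw ?_, ?_⟩
          · intro z hz hz'
            rw [List.mem_singleton] at hz'
            rw [hz'] at hz
            exact (h3 w hz).2.2 hwT
          · intro z hz
            rw [List.mem_append, List.mem_singleton] at hz
            rcases hz with hz | rfl
            · exact ⟨(h3 z hz).1, (h3 z hz).2.1, fun h => absurd h (h3 z hz).2.2⟩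
            · exact ⟨hw, hwX, fun _ => rfl⟩
      · rcases hv.2 with hvX | ⟨x, hx, z0, l', h1, h2, h3⟩
        · refine ⟨v, hvX, w, [w], hvw, Lst.single w, ?_⟩
          intro z hz
          rw [List.mem_singleton] at hz
          rw [hz]
          exact ⟨hw, hwX, hwT⟩
        · by_cases hwl : w ∈ l'
          · obtain ⟨l'', h4, h5, -⟩ := h2.pfx hwl
            exact ⟨x, hx, z0, l'', h1, h4, fun z hz => h3 z (h5 z hz)⟩
          · refine ⟨x, hx, z0, l' ++ [w], h1, h2.append (Lst.single w) hvw ?_, ?_⟩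
            · intro z hz hz'
              rw [List.mem_singleton] at hz'
              rw [hz'] at hz
              exact hwl hz
            · intro z hz
              rw [List.mem_append, List.mem_singleton] at hz
              rcases hz with hz | rfl
              · exact h3 z hz
              · exact ⟨hw, hwX, hwT⟩)
  obtain ⟨y, hy⟩ := hTn
  have hyA : y ∈ D.filter (fun v => v ∈ X ∨ ∃ x ∈ X, ∃ z0 l', G.Adj x z0 ∧ Lst G z0 v l' ∧
    ∀ z ∈ l', z ∈ D ∧ z ∉ X ∧ z ∉ T) := by rw [hA]; exact hT hy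
  rcases (mem_filter.1 hyA).2 with h | ⟨x, hx, z0, l', h1, h2, h3⟩
  · exact hd y h hy
  · exact (h3 y h2.right).2.2 hy

/-- Close a path with a second path between the same ends. -/
theorem dc_close {a b : V} {L Q : List V} (hL : Lst G a b L) (hQ : Lst G a b Q) (hab : a ≠ b)
    (hdis : ∀ x ∈ L, x ∈ Q → x = a ∨ x = b) :
    ∃ C, Cyc G C ∧ (∀ x, x ∈ C ↔ x ∈ L ∨ x ∈ Q) := by
  obtain ⟨t, rfl⟩ := hQ.cons
  obtain ⟨s, hs⟩ := hQ.snoc
  rcases s with _ | ⟨a', q⟩
  · exfalso
    simp only [List.nil_append, List.cons.injEq] at hs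
    exact hab hs.1
  · simp only [List.cons_append, List.cons.injEq] at hs
    obtain ⟨rfl, rfl⟩ := hs
    obtain ⟨h1, h2, h3, h4⟩ := hQ
    have hnd := List.nodup_cons.1 h2
    have hnd2 := List.nodup_append.1 hnd.2
    refine ⟨L ++ q.reverse, ⟨?_, ?_, ?_⟩, ?_⟩
    · rw [List.nodup_append]
      refine ⟨hL.2.1, List.nodup_reverse.2 hnd2.1, ?_⟩
      intro x hx y hy hxy
      rw [← hxy, List.mem_reverse] at hy
      rcases hdis x hx (List.mem_cons_of_mem _ (List.mem_append_left _ hy)) with rfl | rfl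
      · exact hnd.1 (List.mem_append_left _ hy)
      · exact hnd2.2.2 x hy x (List.mem_singleton_self x) rfl
    · rw [List.isChain_append]
      have hc := (List.isChain_cons.1 h1).2
      refine ⟨hL.1, chain_symm (List.isChain_append.1 hc).1, ?_⟩
      intro x hx y hy
      rw [hL.2.2.2] at hx
      rw [List.head?_reverse] at hy
      have := (List.isChain_append.1 hc).2.2 y hy b rfl
      simp only [Option.mem_def, Option.some.injEq] at hx
      rw [← hx]; exact this.symm
    · intro x hx y hy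
      have hy' : y = a := by
        rw [List.head?_append, hL.2.2.1] at hy
        simpa using hy.symm
      rw [hy']
      rcases q with _ | ⟨q0, q⟩
      · simp only [List.reverse_nil, List.append_nil] at hx
        rw [hL.2.2.2] at hx
        simp only [Option.mem_def, Option.some.injEq] at hx
        rw [← hx]
        exact (List.isChain_cons_cons.1 h1).1.symm
      · rw [List.getLast?_append, List.getLast?_reverse] at hx
        simp only [List.head?_cons, Option.some_or, Option.mem_def, Option.some.injEq] at hx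
        rw [← hx]
        exact (List.isChain_cons_cons.1 h1).1.symm
    · intro x
      simp only [List.mem_append, List.mem_reverse, List.mem_cons, List.not_mem_nil, or_false]
      constructor
      · tauto
      · rintro (h | rfl | h | rfl)
        · exact Or.inl h
        · exact Or.inl hL.left
        · exact Or.inr h
        · exact Or.inl hL.right

/-- last element of a list satisfying a property -/
theorem dc_first (p : V → Prop) : ∀ (l : List V), (∃ x ∈ l, p x) →
    ∃ A x C, l = A ++ x :: C ∧ p x ∧ ∀ z ∈ A, ¬ p z := by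
  intro l
  induction l with
  | nil => rintro ⟨x, hx, _⟩; simp at hx
  | cons y t ih =>
    intro h
    by_cases hy : p y
    · exact ⟨[], y, t, rfl, hy, by simp⟩
    · obtain ⟨A, x, C, h1, h2, h3⟩ := ih (by
        obtain ⟨x, hx, hpx⟩ := h
        rw [List.mem_cons] at hx
        rcases hx with rfl | hx
        · exact absurd hpx hy
        · exact ⟨x, hx, hpx⟩)
      refine ⟨y :: A, x, C, by rw [h1]; rfl, h2, ?_⟩
      intro z hz
      rw [List.mem_cons] at hz
      rcases hz with rfl | hz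
      · exact hy
      · exact h3 z hz

theorem dc_last (p : V → Prop) (l : List V) (h : ∃ x ∈ l, p x) :
    ∃ A x C, l = A ++ x :: C ∧ p x ∧ ∀ z ∈ C, ¬ p z := by
  obtain ⟨A, x, C, h1, h2, h3⟩ := dc_first p l.reverse (by
    obtain ⟨x, hx, hpx⟩ := h
    exact ⟨x, List.mem_reverse.2 hx, hpx⟩)
  refine ⟨C.reverse, x, A.reverse, ?_, h2, ?_⟩
  · rw [← List.reverse_reverse l, h1]
    simp
  · intro z hz
    exact h3 z (List.mem_reverse.1 hz)

/-- Reroute an end of the path to start at `a`, covering the first vertex and all its neighbours. -/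
theorem dc_end {l : List V} {v w a : V} (hl : Lst G v w l) (hvw : G.Adj v w) (ha : a ∈ l)
    (haw : a ≠ w) : ∃ L, Lst G a w L ∧ (∀ z ∈ L, z ∈ l) ∧ v ∈ L ∧ ∀ z ∈ l, G.Adj v z → z ∈ L := by
  obtain ⟨A1, R, rfl⟩ := List.append_of_mem ha
  have hR := hl.suf
  have hwR : w ∈ R := by
    have := hR.right
    rw [List.mem_cons] at this
    rcases this with h | h
    · exact absurd h.symm haw
    · exact h
  obtain ⟨A2, q, A3, rfl, hq, hA2⟩ := dc_first (fun z => G.Adj v z) R ⟨w, hwR, hvw⟩
  have hpre := hl.pre.rev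
  have e1 : (A1 ++ [a]).reverse = a :: A1.reverse := by simp
  rw [e1] at hpre
  have e2 : A1 ++ a :: (A2 ++ q :: A3) = (A1 ++ a :: A2) ++ q :: A3 := by simp
  have hsuf : Lst G q w (q :: A3) := by
    rw [e2] at hl
    exact hl.suf
  refine ⟨(a :: A1.reverse) ++ q :: A3, hpre.append hsuf hq ?_, ?_, ?_, ?_⟩
  · intro x hx hx'
    have hnd := hl.2.1
    rw [e2, List.nodup_append] at hnd
    apply hnd.2.2 x _ x hx' rfl
    simp only [List.mem_cons, List.mem_reverse] at hx
    simp only [List.mem_append, List.mem_cons]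
    tauto
  · intro z hz
    simp only [List.mem_append, List.mem_cons, List.mem_reverse] at hz ⊢
    tauto
  · exact List.mem_append_left _ hpre.right
  · intro z hz hvz
    simp only [List.mem_append, List.mem_cons, List.mem_reverse] at hz ⊢
    rcases hz with h | h | h | h
    · tauto
    · tauto
    · exact absurd hvz (hA2 z h)
    · tauto

/-! ### counting in the crossing case -/

theorem bcT_cons [DecidableEq V] (K : Finset V) (x : V) (l : List V) :
    bcT K (x :: l) = bcT K l + if x ∈ K then 1 else 0 := by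
  unfold bcT
  rw [List.countP_cons]
  simp

theorem dc_count [DecidableEq V] (F H : Finset V) : ∀ (l : List V) (x y : V),
    (x :: l).getLast? = some y →
    (x :: l).IsChain (fun a b => ¬ (a ∈ F ∧ b ∈ H)) →
    bcT F (x :: l) + bcT H l ≤ l.length + if y ∈ F then 1 else 0 := by
  intro l
  induction l with
  | nil =>
    intro x y hy _
    simp only [List.getLast?_singleton, Option.some.injEq] at hy
    rw [bcT_cons, hy]
    simp [bcT]
  | cons z l ih =>
    intro x y hy hc
    rw [List.isChain_cons_cons] at hc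
    rw [List.getLast?_cons_cons] at hy
    have h1 := ih z y hy hc.2
    rw [bcT_cons F x, bcT_cons H z]
    have h2 := hc.1
    simp only [List.length_cons]
    by_cases hx : x ∈ F
    · have hz : z ∉ H := fun h => h2 ⟨hx, h⟩
      rw [if_pos hx, if_neg hz]
      omega
    · rw [if_neg hx]
      by_cases hz : z ∈ H
      · rw [if_pos hz]; omega
      · rw [if_neg hz]; omega

theorem dc_ham [DecidableEq V] {S : Finset V} {C : List V} (hconn : Conn G S) (hC : Cyc G C)
    (hCS : ∀ x ∈ C, x ∈ S) (hne : C ≠ [])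
    (hmax : ∀ l : List V, l.IsChain G.Adj → l.Nodup → (∀ x ∈ l, x ∈ S) → l.length ≤ C.length) :
    S.card ≤ C.length := by
  have h1 : C.toFinset = S := by
    apply hconn
    · intro x hx
      exact hCS x (List.mem_toFinset.1 hx)
    · rcases C with _ | ⟨x, t⟩
      · exact absurd rfl hne
      · exact ⟨x, by simp⟩
    · intro x hx y hy hxy
      rw [List.mem_toFinset] at hx ⊢
      by_contra hyC
      obtain ⟨A, B, rfl⟩ := List.append_of_mem hx
      have hrot := hC.rotate
      have := hmax (y :: ((x :: B) ++ A)) (by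
        rw [List.isChain_cons]
        refine ⟨?_, hrot.2.1⟩
        intro z hz
        simp only [List.cons_append, List.head?_cons, Option.mem_def, Option.some.injEq] at hz
        rw [← hz]; exact hxy.symm) (by
        rw [List.nodup_cons]
        refine ⟨?_, hrot.1⟩
        intro h
        apply hyC
        rw [List.mem_append] at h ⊢
        exact h.symm) (by
        intro z hz
        rw [List.mem_cons] at hz
        rcases hz with rfl | hz
        · exact hy
        · apply hCS
          rw [List.mem_append] at hz ⊢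
          exact hz.symm)
      simp only [List.length_cons, List.length_append] at this
      omega
  rw [← h1]
  exact List.toFinset_card_le C

/-- The crossing case. -/
theorem dc_cross [DecidableEq V] {S : Finset V} {k : ℕ} {P : List V} {v0 vp : V}
    (hconn : Conn G S) (hS : 2 * k + 1 ≤ S.card) (hP : Lst G v0 vp P) (hPS : ∀ x ∈ P, x ∈ S)
    (hmax : ∀ l : List V, l.IsChain G.Adj → l.Nodup → (∀ x ∈ l, x ∈ S) → l.length ≤ P.length)
    (N0 Np : Finset V) (hN0 : ∀ x, x ∈ N0 ↔ x ∈ S ∧ G.Adj v0 x)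
    (hNp : ∀ x, x ∈ Np ↔ x ∈ S ∧ G.Adj vp x) (hN0k : k ≤ N0.card) (hNpk : k ≤ Np.card)
    (hN0P : ∀ x ∈ N0, x ∈ P) (hNpP : ∀ x ∈ Np, x ∈ P)
    (hcr : ∃ X u M w Y, P = X ++ u :: (M ++ w :: Y) ∧ G.Adj vp u ∧ G.Adj v0 w) :
    ∃ C, Cyc G C ∧ (∀ x ∈ C, x ∈ S) ∧ v0 ∈ C ∧ (∀ x ∈ N0, x ∈ C) ∧ 2 * k ≤ C.length := by
  classical
  have hex : ∃ n, ∃ X u M w Y, P = X ++ u :: (M ++ w :: Y) ∧ G.Adj vp u ∧ G.Adj v0 w ∧
      M.length = n := by
    obtain ⟨X, u, M, w, Y, h1, h2, h3⟩ := hcr
    exact ⟨_, X, u, M, w, Y, h1, h2, h3, rfl⟩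
  obtain ⟨X, u, M, w, Y, hPe, hpu, h0w, hMn⟩ := Nat.find_spec hex
  have hmin : ∀ X' u' M' w' Y', P = X' ++ u' :: (M' ++ w' :: Y') → G.Adj vp u' → G.Adj v0 w' →
      M.length ≤ M'.length := by
    intro X' u' M' w' Y' h1 h2 h3
    rw [hMn]
    exact Nat.find_min' hex ⟨X', u', M', w', Y', h1, h2, h3, rfl⟩
  clear hMn hex hcr
  -- no neighbours in `M`
  have hM0 : ∀ z ∈ M, ¬ G.Adj v0 z := by
    intro z hz h
    obtain ⟨M1, M2, rfl⟩ := List.append_of_mem hz
    have := hmin X u M1 z (M2 ++ w :: Y) (by rw [hPe]; simp) hpu h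
    simp only [List.length_append, List.length_cons] at this
    omega
  have hMp : ∀ z ∈ M, ¬ G.Adj vp z := by
    intro z hz h
    obtain ⟨M1, M2, rfl⟩ := List.append_of_mem hz
    have := hmin (X ++ u :: M1) z M2 w Y (by rw [hPe]; simp) h h0w
    simp only [List.length_append, List.length_cons] at this
    omega
  have hP' : Lst G v0 vp (X ++ u :: (M ++ w :: Y)) := hPe ▸ hP
  have hP'' : Lst G v0 vp ((X ++ u :: M) ++ w :: Y) := by
    have e : (X ++ u :: M) ++ w :: Y = X ++ u :: (M ++ w :: Y) := by simp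
    rw [e]; exact hP'
  have hX : Lst G v0 u (X ++ [u]) := hP'.pre
  have hY : Lst G w vp (w :: Y) := hP''.suf
  have hdis : ∀ x ∈ X ++ [u], x ∉ w :: Y := by
    intro x hx hx'
    have hnd := hP''.2.1
    rw [List.nodup_append] at hnd
    apply hnd.2.2 x _ x hx' rfl
    simp only [List.mem_append, List.mem_cons, List.not_mem_nil, or_false] at hx ⊢
    tauto
  have hL : Lst G v0 w ((X ++ [u]) ++ (w :: Y).reverse) :=
    hX.append hY.rev hpu.symm (fun x hx hx' => hdis x hx (List.mem_reverse.1 hx'))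
  set C := (X ++ [u]) ++ (w :: Y).reverse with hCdef
  have hcyc : Cyc G C := by
    refine ⟨hL.2.1, hL.1, ?_⟩
    intro a ha b hb
    rw [hL.2.2.2] at ha
    rw [hL.2.2.1] at hb
    simp only [Option.mem_def, Option.some.injEq] at ha hb
    rw [← ha, ← hb]; exact h0w.symm
  have hCP : ∀ x, x ∈ C ↔ x ∈ X ∨ x = u ∨ x = w ∨ x ∈ Y := by
    intro x
    rw [hCdef]
    simp only [List.mem_append, List.mem_cons, List.not_mem_nil, or_false, List.mem_reverse]
    tauto
  have hPm : ∀ x, x ∈ P ↔ x ∈ X ∨ x = u ∨ x ∈ M ∨ x = w ∨ x ∈ Y := by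
    intro x
    rw [hPe]
    simp only [List.mem_append, List.mem_cons]
  have hCS : ∀ x ∈ C, x ∈ S := by
    intro x hx
    apply hPS
    rw [hPm]
    rw [hCP] at hx
    tauto
  have hN0C : ∀ x ∈ N0, x ∈ C := by
    intro x hx
    have h1 := (hPm x).1 (hN0P x hx)
    rw [hCP]
    rcases h1 with h | h | h | h
    · tauto
    · tauto
    · exact absurd ((hN0 x).1 hx).2 (hM0 x h)
    · tauto
  have hNpC : ∀ x ∈ Np, x ∈ C := by
    intro x hx
    have h1 := (hPm x).1 (hNpP x hx)
    rw [hCP]
    rcases h1 with h | h | h | h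
    · tauto
    · tauto
    · exact absurd ((hNp x).1 hx).2 (hMp x h)
    · tauto
  have hlen : C.length = (X ++ [u]).length + (w :: Y).length := by
    rw [hCdef, List.length_append, List.length_reverse]
  refine ⟨C, hcyc, hCS, hL.left, hN0C, ?_⟩
  by_cases hMe : M = []
  · have h1 : C.length = P.length := by
      rw [hlen, hPe, hMe]
      simp only [List.length_append, List.length_cons, List.length_nil, List.nil_append]
      omega
    have := dc_ham hconn hcyc hCS (by
      intro h
      have := hL.left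
      rw [h] at this
      simp at this) (by rw [h1]; exact hmax)
    omega
  · have hR : P.IsChain (fun a b => ¬ (a ∈ Np ∧ b ∈ N0)) := by
      rw [List.isChain_iff_forall_rel_of_append_cons_cons]
      rintro a b l1 l2 he ⟨ha, hb⟩
      have := hmin l1 a [] b l2 (by rw [he]; rfl) ((hNp a).1 ha).2 ((hN0 b).1 hb).2
      simp only [List.length_nil, Nat.le_zero, List.length_eq_zero_iff] at this
      exact hMe this
    have e : X ++ u :: (M ++ w :: Y) = (X ++ [u]) ++ (M ++ w :: Y) := by simp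
    have hR1 : (X ++ [u]).IsChain (fun a b => ¬ (a ∈ Np ∧ b ∈ N0)) := by
      rw [hPe, e, List.isChain_append] at hR
      exact hR.1
    have hR2 : (w :: Y).IsChain (fun a b => ¬ (a ∈ Np ∧ b ∈ N0)) := by
      rw [hPe, e, List.isChain_append] at hR
      exact (List.isChain_append.1 hR.2.1).2.1
    obtain ⟨t, ht⟩ := hX.cons
    have c1 := dc_count Np N0 t v0 u (by rw [← ht]; exact hX.2.2.2) (by rw [← ht]; exact hR1)
    have c2 := dc_count Np N0 Y w vp hY.2.2.2 hR2
    have hv0 : v0 ∉ N0 := fun h => G.loopless.irrefl _ ((hN0 v0).1 h).2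
    have hvp : vp ∉ Np := fun h => G.loopless.irrefl _ ((hNp vp).1 h).2
    rw [if_neg hvp] at c2
    have c3 : bcT N0 (v0 :: t) = bcT N0 t := by
      rw [bcT_cons, if_neg hv0]; rfl
    have c4 : bcT N0 (w :: Y) ≤ bcT N0 Y + 1 := by
      rw [bcT_cons]
      split_ifs
      · exact le_rfl
      · omega
    have c5 : (if u ∈ Np then 1 else 0) ≤ 1 := by split_ifs <;> omega
    have d1 := bc_K_card N0 C
    have d2 := bc_K_card Np C
    have d3 : (N0 \ C.toFinset).card = 0 := by
      rw [card_eq_zero, sdiff_eq_empty_iff_subset]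
      intro x hx
      exact List.mem_toFinset.2 (hN0C x hx)
    have d4 : (Np \ C.toFinset).card = 0 := by
      rw [card_eq_zero, sdiff_eq_empty_iff_subset]
      intro x hx
      exact List.mem_toFinset.2 (hNpC x hx)
    have e1 : bcT N0 C = bcT N0 (v0 :: t) + bcT N0 (w :: Y) := by
      rw [hCdef, bcT_append, ht, bcT_perm N0 (List.reverse_perm (w :: Y))]
    have e2 : bcT Np C = bcT Np (v0 :: t) + bcT Np (w :: Y) := by
      rw [hCdef, bcT_append, ht, bcT_perm Np (List.reverse_perm (w :: Y))]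
    rw [ht] at hlen
    simp only [List.length_cons] at hlen
    omega

/-! ### the augmentation -/

/-- Two disjoint paths from `A` (one of them starting at `a0`) to `r` and to `T`. -/
def DInv (G : SimpleGraph V) (S A : Finset V) (a0 r : V) (T : Finset V) : Prop :=
  ∃ h1 h2 y p1 p2, h1 ∈ A ∧ h2 ∈ A ∧ (h1 = a0 ∨ h2 = a0) ∧ y ∈ T ∧ Lst G h1 r p1 ∧
    Lst G h2 y p2 ∧ (∀ z ∈ p1, z ∉ p2) ∧ (∀ z ∈ p1, z ∈ S ∧ (z ∈ A → z = h1) ∧ z ∉ T) ∧
    ∀ z ∈ p2, z ∈ S ∧ (z ∈ A → z = h2) ∧ (z ∈ T → z = y)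

theorem dc_step [DecidableEq V] {S A : Finset V} {a0 r r' : V} {T : Finset V}
    (hcut : ∀ v ∈ S, Conn G (S.erase v)) (hAS : A ⊆ S) (hTS : T ⊆ S) (hAT : ∀ x ∈ A, x ∉ T)
    (hr' : r' ∈ T) (hrr : G.Adj r r') (hne : (T.erase r').Nonempty) (h : DInv G S A a0 r T) :
    DInv G S A a0 r' (T.erase r') := by
  obtain ⟨h1, h2, y, p1, p2, hh1, hh2, h0, hy, hp1, hp2, hdis, hz1, hz2⟩ := h
  have hr'A : r' ∉ A := fun h => hAT r' h hr'
  have hr'p1 : r' ∉ p1 := fun h => (hz1 r' h).2.2 hr'
  have ext1 : Lst G h1 r' (p1 ++ [r']) := hp1.append (Lst.single r') hrr (by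
    intro x hx hx'
    rw [List.mem_singleton] at hx'
    rw [hx'] at hx
    exact hr'p1 hx)
  have ext1z : ∀ z ∈ p1 ++ [r'], z ∈ S ∧ (z ∈ A → z = h1) ∧ z ∉ T.erase r' := by
    intro z hz
    rw [List.mem_append, List.mem_singleton] at hz
    rcases hz with hz | rfl
    · exact ⟨(hz1 z hz).1, (hz1 z hz).2.1, fun h => (hz1 z hz).2.2 (mem_of_mem_erase h)⟩
    · exact ⟨hTS hr', fun h => absurd h hr'A, fun h => (mem_erase.1 h).1 rfl⟩
  by_cases hyr : y = r'
  · subst hyr
    obtain ⟨x, hx, y', hy', z0, l', hxz, hl', hl'z⟩ := dc_link (G := G) (D := S.erase y)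
      (X := (p1.toFinset ∪ p2.toFinset ∪ A).erase y) (T := T.erase y) (hcut y (hTS hy))
      (by
        intro z hz
        rw [mem_erase, mem_union, mem_union, List.mem_toFinset, List.mem_toFinset] at hz
        rw [mem_erase]
        refine ⟨hz.1, ?_⟩
        rcases hz.2 with (h | h) | h
        · exact (hz1 z h).1
        · exact (hz2 z h).1
        · exact hAS h)
      (by
        intro z hz
        rw [mem_erase] at hz ⊢
        exact ⟨hz.1, hTS hz.2⟩)
      (by
        refine ⟨h1, ?_⟩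
        rw [mem_erase, mem_union]
        refine ⟨?_, Or.inr hh1⟩
        rintro rfl
        exact hr'A hh1) hne
      (by
        intro z hz hzT
        rw [mem_erase, mem_union, mem_union, List.mem_toFinset, List.mem_toFinset] at hz
        have hzT' := mem_of_mem_erase hzT
        rcases hz.2 with (h | h) | h
        · exact (hz1 z h).2.2 hzT'
        · exact hz.1 ((hz2 z h).2.2 hzT')
        · exact hAT z h hzT')
    rw [mem_erase, mem_union, mem_union, List.mem_toFinset, List.mem_toFinset] at hx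
    have hlS : ∀ z ∈ l', z ∈ S := fun z hz => mem_of_mem_erase (hl'z z hz).1
    have hly : ∀ z ∈ l', z ≠ y := fun z hz => (mem_erase.1 (hl'z z hz).1).1
    have hlp1 : ∀ z ∈ l', z ∉ p1 := by
      intro z hz h
      apply (hl'z z hz).2.1
      rw [mem_erase, mem_union, mem_union, List.mem_toFinset]
      exact ⟨hly z hz, Or.inl (Or.inl h)⟩
    have hlp2 : ∀ z ∈ l', z ∉ p2 := by
      intro z hz h
      apply (hl'z z hz).2.1
      rw [mem_erase, mem_union, mem_union, List.mem_toFinset, List.mem_toFinset]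
      exact ⟨hly z hz, Or.inl (Or.inr h)⟩
    have hlA : ∀ z ∈ l', z ∉ A := by
      intro z hz h
      apply (hl'z z hz).2.1
      rw [mem_erase, mem_union]
      exact ⟨hly z hz, Or.inr h⟩
    by_cases hxp1 : x ∈ p1
    · -- reroute from `p1`
      obtain ⟨q1, hq1, hq1p, -⟩ := hp1.pfx hxp1
      refine ⟨h2, h1, y', p2, q1 ++ l', hh2, hh1, h0.symm, hy', hp2, hq1.append hl' hxz ?_, ?_, ?_,
        ?_⟩
      · intro z hz hz'
        exact hlp1 z hz' (hq1p z hz)
      · intro z hz hz'
        rw [List.mem_append] at hz'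
        rcases hz' with hz' | hz'
        · exact hdis z (hq1p z hz') hz
        · exact hlp2 z hz' hz
      · intro z hz
        refine ⟨(hz2 z hz).1, (hz2 z hz).2.1, ?_⟩
        intro h
        rw [mem_erase] at h
        exact h.1 ((hz2 z hz).2.2 h.2)
      · intro z hz
        rw [List.mem_append] at hz
        rcases hz with hz | hz
        · have := hz1 z (hq1p z hz)
          exact ⟨this.1, this.2.1, fun h => absurd (mem_of_mem_erase h) this.2.2⟩
        · exact ⟨hlS z hz, fun h => absurd h (hlA z hz), (hl'z z hz).2.2⟩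
    · by_cases hxp2 : x ∈ p2
      · obtain ⟨q2, hq2, hq2p, hq2y⟩ := hp2.pfx hxp2
        have hyq2 := hq2y hx.1
        refine ⟨h1, h2, y', p1 ++ [y], q2 ++ l', hh1, hh2, h0, hy', ext1, hq2.append hl' hxz ?_,
          ?_, ext1z, ?_⟩
        · intro z hz hz'
          exact hlp2 z hz' (hq2p z hz)
        · intro z hz hz'
          rw [List.mem_append, List.mem_singleton] at hz
          rw [List.mem_append] at hz'
          rcases hz with hz | rfl
          · rcases hz' with hz' | hz'
            · exact hdis z hz (hq2p z hz')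
            · exact hlp1 z hz' hz
          · rcases hz' with hz' | hz'
            · exact hyq2 hz'
            · exact hly z hz' rfl
        · intro z hz
          rw [List.mem_append] at hz
          rcases hz with hz | hz
          · have := hz2 z (hq2p z hz)
            refine ⟨this.1, this.2.1, ?_⟩
            intro h
            have h5 := this.2.2 (mem_of_mem_erase h)
            rw [h5] at hz
            exact absurd hz hyq2
          · exact ⟨hlS z hz, fun h => absurd h (hlA z hz), (hl'z z hz).2.2⟩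
      · have hxA : x ∈ A := by
          rcases hx.2 with (h | h) | h
          · exact absurd h hxp1
          · exact absurd h hxp2
          · exact h
        have hxl : Lst G x y' ([x] ++ l') := (Lst.single x).append hl' hxz (by
          intro z hz hz'
          rw [List.mem_singleton] at hz
          rw [hz] at hz'
          exact hlA x hz' hxA)
        have hxlz : ∀ z ∈ [x] ++ l', z ∈ S ∧ (z ∈ A → z = x) ∧ (z ∈ T.erase y → z = y') := by
          intro z hz
          rw [List.mem_append, List.mem_singleton] at hz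
          rcases hz with rfl | hz
          · exact ⟨hAS hxA, fun _ => rfl, fun h => absurd (mem_of_mem_erase h) (hAT z hxA)⟩
          · exact ⟨hlS z hz, fun h => absurd h (hlA z hz), (hl'z z hz).2.2⟩
        rcases h0 with h0 | h0
        · refine ⟨h1, x, y', p1 ++ [y], [x] ++ l', hh1, hxA, Or.inl h0, hy', ext1, hxl, ?_, ext1z,
            hxlz⟩
          intro z hz hz'
          rw [List.mem_append, List.mem_singleton] at hz hz'
          rcases hz with hz | rfl
          · rcases hz' with rfl | hz'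
            · exact hxp1 hz
            · exact hlp1 z hz' hz
          · rcases hz' with hz' | hz'
            · exact hx.1 hz'.symm
            · exact hly z hz' rfl
        · refine ⟨h2, x, y', p2, [x] ++ l', hh2, hxA, Or.inl h0, hy', hp2, hxl, ?_, ?_, hxlz⟩
          · intro z hz hz'
            rw [List.mem_append, List.mem_singleton] at hz'
            rcases hz' with rfl | hz'
            · exact hxp2 hz
            · exact hlp2 z hz' hz
          · intro z hz
            refine ⟨(hz2 z hz).1, (hz2 z hz).2.1, ?_⟩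
            intro h
            rw [mem_erase] at h
            exact h.1 ((hz2 z hz).2.2 h.2)
  · refine ⟨h1, h2, y, p1 ++ [r'], p2, hh1, hh2, h0, mem_erase.2 ⟨hyr, hy⟩, ext1, hp2, ?_, ext1z,
      ?_⟩
    · intro z hz hz'
      rw [List.mem_append, List.mem_singleton] at hz
      rcases hz with hz | rfl
      · exact hdis z hz hz'
      · exact hyr ((hz2 z hz').2.2 hr').symm
    · intro z hz
      exact ⟨(hz2 z hz).1, (hz2 z hz).2.1, fun h => (hz2 z hz).2.2 (mem_of_mem_erase h)⟩

theorem dc_aug [DecidableEq V] {S A : Finset V} {a0 vj : V} {B : List V}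
    (hcut : ∀ v ∈ S, Conn G (S.erase v)) (hAS : A ⊆ S) (hB : B ≠ []) :
    ∀ (M : List V) (r : V), (r :: (M ++ vj :: B)).Nodup → (r :: (M ++ vj :: B)).IsChain G.Adj →
      (∀ x ∈ M ++ vj :: B, x ∈ S ∧ x ∉ A) →
      DInv G S A a0 r (M ++ vj :: B).toFinset → DInv G S A a0 vj B.toFinset := by
  intro M
  induction M with
  | nil =>
    intro r hnd hch hM hinv
    rw [List.nil_append] at hnd hch hM hinv
    have hnd' := (List.nodup_cons.1 (List.nodup_cons.1 hnd).2).1
    have e : (vj :: B).toFinset.erase vj = B.toFinset := by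
      rw [List.toFinset_cons, erase_insert]
      rw [List.mem_toFinset]; exact hnd'
    have := dc_step (r' := vj) hcut hAS (fun x hx => (hM x (List.mem_toFinset.1 hx)).1)
      (fun x hx hx' => (hM x (List.mem_toFinset.1 hx')).2 hx) (by simp)
      (List.isChain_cons_cons.1 hch).1 (by
        rw [e]
        rcases B with _ | ⟨b, B⟩
        · exact absurd rfl hB
        · exact ⟨b, by simp⟩) hinv
    rw [e] at this
    exact this
  | cons m M ih =>
    intro r hnd hch hM hinv
    rw [List.cons_append] at hnd hch hM hinv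
    have hnd' := (List.nodup_cons.1 (List.nodup_cons.1 hnd).2).1
    have e : (m :: (M ++ vj :: B)).toFinset.erase m = (M ++ vj :: B).toFinset := by
      rw [List.toFinset_cons, erase_insert]
      rw [List.mem_toFinset]; exact hnd'
    have := dc_step (r' := m) hcut hAS (fun x hx => (hM x (List.mem_toFinset.1 hx)).1)
      (fun x hx hx' => (hM x (List.mem_toFinset.1 hx')).2 hx) (by simp)
      (List.isChain_cons_cons.1 hch).1 (by
        rw [e]
        exact ⟨vj, by simp⟩) hinv
    rw [e] at this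
    exact ih m (List.nodup_cons.1 hnd).2 (List.isChain_cons_cons.1 hch).2
      (fun x hx => hM x (List.mem_cons_of_mem _ hx)) this

/-- base of the augmentation -/
theorem dc_base [DecidableEq V] {S A T : Finset V} {a0 : V}
    (hcut : ∀ v ∈ S, Conn G (S.erase v)) (hAS : A ⊆ S) (hTS : T ⊆ S) (hAT : ∀ x ∈ A, x ∉ T)
    (ha0 : a0 ∈ A) (hA2 : (A.erase a0).Nonempty) (hT : T.Nonempty) : DInv G S A a0 a0 T := by
  obtain ⟨x, hx, y, hy, z0, l', hxz, hl', hl'z⟩ := dc_link (G := G) (D := S.erase a0)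
    (X := A.erase a0) (T := T) (hcut a0 (hAS ha0)) (erase_subset_erase _ hAS)
    (by
      intro z hz
      rw [mem_erase]
      refine ⟨?_, hTS hz⟩
      rintro rfl
      exact hAT z ha0 hz) hA2 hT (fun z hz => hAT z (mem_of_mem_erase hz))
  have hlA : ∀ z ∈ l', z ∉ A := by
    intro z hz h
    exact (hl'z z hz).2.1 (mem_erase.2 ⟨(mem_erase.1 (hl'z z hz).1).1, h⟩)
  refine ⟨a0, x, y, [a0], [x] ++ l', ha0, mem_of_mem_erase hx, Or.inl rfl, hy, Lst.single a0,
    (Lst.single x).append hl' hxz ?_, ?_, ?_, ?_⟩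
  · intro z hz hz'
    rw [List.mem_singleton] at hz
    rw [hz] at hz'
    exact hlA x hz' (mem_of_mem_erase hx)
  · intro z hz hz'
    rw [List.mem_singleton] at hz
    rw [List.mem_append, List.mem_singleton, hz] at hz'
    rcases hz' with hz' | hz'
    · exact (mem_erase.1 hx).1 hz'.symm
    · exact hlA a0 hz' ha0
  · intro z hz
    rw [List.mem_singleton] at hz
    rw [hz]
    exact ⟨hAS ha0, fun _ => rfl, hAT a0 ha0⟩
  · intro z hz
    rw [List.mem_append, List.mem_singleton] at hz
    rcases hz with rfl | hz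
    · exact ⟨hAS (mem_of_mem_erase hx), fun _ => rfl, fun h => absurd h (hAT z (mem_of_mem_erase hx))⟩
    · exact ⟨mem_of_mem_erase (hl'z z hz).1, fun h => absurd h (hlA z hz), (hl'z z hz).2.2⟩

/-! ### the non-crossing case -/

theorem dc_asm {a v b1 b2 : V} {LA Q1 LB Q2 : List V} (hLA : Lst G a v LA) (hQ1 : Lst G v b1 Q1)
    (hLB : Lst G b1 b2 LB) (hQ2 : Lst G a b2 Q2) (d1 : ∀ x ∈ LA, x ∈ Q1 → x = v)
    (d2 : ∀ x ∈ Q1, x ∈ LB → x = b1) (d3 : ∀ x ∈ LA, x ∉ LB) (d4 : ∀ x ∈ LA, x ∈ Q2 → x = a)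
    (d5 : ∀ x ∈ LB, x ∈ Q2 → x = b2) (d6 : ∀ x ∈ Q1, x ∉ Q2) :
    ∃ C, Cyc G C ∧ ∀ x, x ∈ C ↔ x ∈ LA ∨ x ∈ Q1 ∨ x ∈ LB ∨ x ∈ Q2 := by
  obtain ⟨L1, h1, m1, -⟩ := hLA.join hQ1 d1
  obtain ⟨L2, h2, m2, -⟩ := h1.join hLB (by
    intro x hx hx'
    rw [m1] at hx
    rcases hx with hx | hx
    · exact absurd hx' (d3 x hx)
    · exact d2 x hx hx')
  obtain ⟨C, hC, mC⟩ := dc_close h2 hQ2 (by
    rintro rfl
    exact d3 a hLA.left hLB.right) (by
    intro x hx hx'
    rw [m2, m1] at hx
    rcases hx with (hx | hx) | hx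
    · exact Or.inl (d4 x hx hx')
    · exact absurd hx' (d6 x hx)
    · exact Or.inr (d5 x hx hx'))
  refine ⟨C, hC, ?_⟩
  intro x
  rw [mC, m2, m1]
  tauto

theorem dc_len [DecidableEq V] {k : ℕ} {v0 c : V} {N0 Np : Finset V} {C : List V}
    (hv0 : v0 ∉ N0) (hN0k : k ≤ N0.card) (hNpk : k ≤ Np.card) (hv0C : v0 ∈ C)
    (hN0C : ∀ x ∈ N0, x ∈ C) (hNpC : ∀ x ∈ Np, x ∈ C)
    (hint : ∀ x, x = v0 ∨ x ∈ N0 → x ∈ Np → x = c) : 2 * k ≤ C.length := by
  have h1 : (insert v0 N0 ∪ Np).card ≤ C.toFinset.card := by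
    apply card_le_card
    intro x hx
    rw [List.mem_toFinset]
    rw [mem_union, mem_insert] at hx
    rcases hx with (rfl | hx) | hx
    · exact hv0C
    · exact hN0C x hx
    · exact hNpC x hx
  have h2 := card_union_add_card_inter (insert v0 N0) Np
  have h3 : (insert v0 N0 ∩ Np).card ≤ 1 := by
    rw [card_le_one]
    intro x hx y hy
    rw [mem_inter, mem_insert] at hx hy
    rw [hint x hx.1 hx.2, hint y hy.1 hy.2]
  rw [card_insert_of_notMem hv0] at h2
  have h4 := List.toFinset_card_le C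
  omega

theorem dc_noncross [DecidableEq V] {S : Finset V} {k : ℕ} {P : List V} {v0 vp : V}
    (hk : 1 ≤ k) (hcut : ∀ v ∈ S, Conn G (S.erase v)) (hP : Lst G v0 vp P) (hPS : ∀ x ∈ P, x ∈ S)
    (N0 Np : Finset V) (hN0 : ∀ x, x ∈ N0 ↔ x ∈ S ∧ G.Adj v0 x)
    (hNp : ∀ x, x ∈ Np ↔ x ∈ S ∧ G.Adj vp x) (hN0k : k ≤ N0.card) (hNpk : k ≤ Np.card)
    (hN0P : ∀ x ∈ N0, x ∈ P) (hNpP : ∀ x ∈ Np, x ∈ P)
    (hncr : ¬ ∃ X u M w Y, P = X ++ u :: (M ++ w :: Y) ∧ G.Adj vp u ∧ G.Adj v0 w) :
    ∃ C, Cyc G C ∧ (∀ x ∈ C, x ∈ S) ∧ v0 ∈ C ∧ (∀ x ∈ N0, x ∈ C) ∧ 2 * k ≤ C.length := by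
  classical
  have hv0 : v0 ∉ N0 := fun h => G.loopless.irrefl _ ((hN0 v0).1 h).2
  obtain ⟨x0, hx0⟩ : N0.Nonempty := card_pos.1 (by omega)
  obtain ⟨xp, hxp⟩ : Np.Nonempty := card_pos.1 (by omega)
  obtain ⟨A, vi, Cc, hPe, h0i, hCc⟩ := dc_last (fun z => G.Adj v0 z) P
    ⟨x0, hN0P x0 hx0, ((hN0 x0).1 hx0).2⟩
  have hNpA : ∀ x ∈ A, ¬ G.Adj vp x := by
    intro x hx hpx
    obtain ⟨A1, A2, rfl⟩ := List.append_of_mem hx
    exact hncr ⟨A1, x, A2, vi, Cc, by rw [hPe]; simp, hpx, h0i⟩
  have hxpC : xp ∈ vi :: Cc := by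
    have h1 := hNpP xp hxp
    rw [hPe, List.mem_append] at h1
    rcases h1 with h1 | h1
    · exact absurd ((hNp xp).1 hxp).2 (hNpA xp h1)
    · exact h1
  obtain ⟨B0, vj, B, hBe, hpj, hB0⟩ := dc_first (fun z => G.Adj vp z) (vi :: Cc)
    ⟨xp, hxpC, ((hNp xp).1 hxp).2⟩
  have hN0A : ∀ x ∈ N0, x ∈ A ++ [vi] := by
    intro x hx
    have h1 := hN0P x hx
    rw [hPe, List.mem_append, List.mem_cons] at h1
    rw [List.mem_append, List.mem_singleton]
    rcases h1 with h1 | h1 | h1
    · exact Or.inl h1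
    · exact Or.inr h1
    · exact absurd ((hN0 x).1 hx).2 (hCc x h1)
  have hNpB : ∀ x ∈ Np, x ∈ vj :: B := by
    intro x hx
    have h1 := hNpP x hx
    have h2 := ((hNp x).1 hx).2
    rw [hPe, List.mem_append, hBe, List.mem_append] at h1
    rcases h1 with h1 | h1 | h1
    · exact absurd h2 (hNpA x h1)
    · exact absurd h2 (hB0 x h1)
    · exact h1
  have hPA : Lst G v0 vi (A ++ [vi]) := by
    rw [hPe] at hP
    exact hP.pre
  have hPB : Lst G vj vp (vj :: B) := by
    rw [hPe, hBe, ← List.append_assoc] at hP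
    exact hP.suf
  have hv0A : v0 ∈ A ++ [vi] := hPA.left
  have hAne : v0 ∈ A := by
    rw [List.mem_append, List.mem_singleton] at hv0A
    rcases hv0A with h | h
    · exact h
    · rw [← h] at h0i
      exact absurd h0i (G.loopless.irrefl _)
  have hBne : vp ∈ B := by
    have h1 := hPB.right
    rw [List.mem_cons] at h1
    rcases h1 with h | h
    · rw [← h] at hpj
      exact absurd hpj (G.loopless.irrefl _)
    · exact h
  have hnd := hP.2.1
  rcases B0 with _ | ⟨vi', M⟩
  · -- `vi = vj`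
    simp only [List.nil_append, List.cons.injEq] at hBe
    obtain ⟨rfl, rfl⟩ := hBe
    rw [hPe] at hnd hPS
    have hnd1 := List.nodup_append.1 hnd
    have hviA : vi ∉ A := fun h => hnd1.2.2 vi h vi (by simp) rfl
    have hviC : vi ∉ Cc := (List.nodup_cons.1 hnd1.2.1).1
    have hAC : ∀ x ∈ A, x ∉ Cc := fun x hx hx' => hnd1.2.2 x hx x (List.mem_cons_of_mem _ hx') rfl
    have hAS : ∀ x ∈ A, x ∈ S := fun x hx => hPS x (List.mem_append_left _ hx)
    have hviS : vi ∈ S := hPS vi (by simp)
    have hCS : ∀ x ∈ Cc, x ∈ S := fun x hx =>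
      hPS x (List.mem_append_right _ (List.mem_cons_of_mem _ hx))
    obtain ⟨x, hx, y, hy, z0, l', hxz, hl', hl'z⟩ := dc_link (G := G) (D := S.erase vi)
      (X := A.toFinset) (T := Cc.toFinset) (hcut vi hviS)
      (by
        intro z hz
        rw [List.mem_toFinset] at hz
        rw [mem_erase]
        refine ⟨?_, hAS z hz⟩
        rintro rfl
        exact hviA hz)
      (by
        intro z hz
        rw [List.mem_toFinset] at hz
        rw [mem_erase]
        refine ⟨?_, hCS z hz⟩
        rintro rfl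
        exact hviC hz) ⟨v0, List.mem_toFinset.2 hAne⟩ ⟨vp, List.mem_toFinset.2 hBne⟩
      (by
        intro z hz hz'
        rw [List.mem_toFinset] at hz hz'
        exact hAC z hz hz')
    rw [List.mem_toFinset] at hx hy
    have hlA : ∀ z ∈ l', z ∉ A := fun z hz h => (hl'z z hz).2.1 (List.mem_toFinset.2 h)
    have hlC : ∀ z ∈ l', z ∈ Cc → z = y := fun z hz h => (hl'z z hz).2.2 (List.mem_toFinset.2 h)
    have hlvi : ∀ z ∈ l', z ≠ vi := fun z hz => (mem_erase.1 (hl'z z hz).1).1
    have hlS : ∀ z ∈ l', z ∈ S := fun z hz => (mem_erase.1 (hl'z z hz).1).2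
    have hQ2 : Lst G x y ([x] ++ l') := (Lst.single x).append hl' hxz (by
      intro z hz hz'
      rw [List.mem_singleton] at hz
      rw [hz] at hz'
      exact hlA x hz' hx)
    obtain ⟨LA, hLA, hLAs, hv0L, hN0L⟩ := dc_end hPA h0i (a := x)
      (List.mem_append_left _ hx) (by
        rintro rfl
        exact hviA hx)
    obtain ⟨LB, hLB, hLBs, hvpL, hNpL⟩ := dc_end hPB.rev hpj (a := y)
      (List.mem_reverse.2 (List.mem_cons_of_mem _ hy)) (by
        rintro rfl
        exact hviC hy)
    have hLAs' : ∀ z ∈ LA, z ∈ A ∨ z = vi := by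
      intro z hz
      have := hLAs z hz
      rwa [List.mem_append, List.mem_singleton] at this
    have hLBs' : ∀ z ∈ LB, z = vi ∨ z ∈ Cc := by
      intro z hz
      have := hLBs z hz
      rwa [List.mem_reverse, List.mem_cons] at this
    obtain ⟨L, hL, mL, -⟩ := hLA.join hLB.rev (by
      intro z hz hz'
      rw [List.mem_reverse] at hz'
      rcases hLAs' z hz with h | h
      · rcases hLBs' z hz' with h' | h'
        · exact h'
        · exact absurd h' (hAC z h)
      · exact h)
    have hxyne : x ≠ y := by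
      rintro rfl
      exact hAC x hx hy
    obtain ⟨C, hC, mC⟩ := dc_close hL hQ2 hxyne (by
      intro z hz hz'
      rw [mL, List.mem_reverse] at hz
      rw [List.mem_append, List.mem_singleton] at hz'
      rcases hz' with hz' | hz'
      · exact Or.inl hz'
      · rcases hz with hz | hz
        · rcases hLAs' z hz with h | h
          · exact absurd h (hlA z hz')
          · exact absurd h (hlvi z hz')
        · rcases hLBs' z hz with h | h
          · exact absurd h (hlvi z hz')
          · exact Or.inr (hlC z hz' h))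
    have hN0C : ∀ z ∈ N0, z ∈ C := by
      intro z hz
      rw [mC, mL]
      exact Or.inl (Or.inl (hN0L z (hN0A z hz) ((hN0 z).1 hz).2))
    have hNpC : ∀ z ∈ Np, z ∈ C := by
      intro z hz
      rw [mC, mL, List.mem_reverse]
      exact Or.inl (Or.inr (hNpL z (List.mem_reverse.2 (hNpB z hz)) ((hNp z).1 hz).2))
    have hv0C : v0 ∈ C := by
      rw [mC, mL]
      exact Or.inl (Or.inl hv0L)
    refine ⟨C, hC, ?_, hv0C, hN0C, dc_len (c := vi) hv0 hN0k hNpk hv0C hN0C hNpC ?_⟩
    · intro z hz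
      rw [mC, mL, List.mem_reverse, List.mem_append, List.mem_singleton] at hz
      rcases hz with (hz | hz) | hz | hz
      · rcases hLAs' z hz with h | h
        · exact hAS z h
        · rw [h]; exact hviS
      · rcases hLBs' z hz with h | h
        · rw [h]; exact hviS
        · exact hCS z h
      · rw [hz]; exact hAS x hx
      · exact hlS z hz
    · intro z hz hz'
      have h1 : z ∈ A ∨ z = vi := by
        rcases hz with rfl | hz
        · exact Or.inl hAne
        · have := hN0A z hz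
          rwa [List.mem_append, List.mem_singleton] at this
      have h2 := hNpB z hz'
      rw [List.mem_cons] at h2
      rcases h1 with h1 | h1
      · rcases h2 with h2 | h2
        · exact h2
        · exact absurd h2 (hAC z h1)
      · exact h1
  · -- `vi` before `vj`
    simp only [List.cons_append, List.cons.injEq] at hBe
    obtain ⟨rfl, rfl⟩ := hBe
    rw [hPe] at hnd hPS hP
    have hnd1 := List.nodup_append.1 hnd
    have hviA : vi ∉ A := fun h => hnd1.2.2 vi h vi (by simp) rfl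
    have hviC : vi ∉ M ++ vj :: B := (List.nodup_cons.1 hnd1.2.1).1
    have hAC : ∀ x ∈ A, x ∉ M ++ vj :: B := fun x hx hx' =>
      hnd1.2.2 x hx x (List.mem_cons_of_mem _ hx') rfl
    have hAS : ∀ x ∈ A, x ∈ S := fun x hx => hPS x (List.mem_append_left _ hx)
    have hviS : vi ∈ S := hPS vi (by simp)
    have hCS : ∀ x ∈ M ++ vj :: B, x ∈ S := fun x hx =>
      hPS x (List.mem_append_right _ (List.mem_cons_of_mem _ hx))
    have hAF : ∀ x, x ∈ (A ++ [vi]).toFinset ↔ x ∈ A ∨ x = vi := by
      intro x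
      rw [List.mem_toFinset, List.mem_append, List.mem_singleton]
    have hAFS : (A ++ [vi]).toFinset ⊆ S := by
      intro x hx
      rw [hAF] at hx
      rcases hx with hx | hx
      · exact hAS x hx
      · rw [hx]; exact hviS
    have hAFC : ∀ x, x ∈ (A ++ [vi]).toFinset → x ∉ M ++ vj :: B := by
      intro x hx
      rw [hAF] at hx
      rcases hx with hx | hx
      · exact hAC x hx
      · rw [hx]; exact hviC
    have hbase : DInv G S (A ++ [vi]).toFinset vi vi (M ++ vj :: B).toFinset := by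
      apply dc_base hcut hAFS
      · intro x hx
        exact hCS x (List.mem_toFinset.1 hx)
      · intro x hx hx'
        exact hAFC x hx (List.mem_toFinset.1 hx')
      · rw [hAF]; exact Or.inr rfl
      · refine ⟨v0, ?_⟩
        rw [mem_erase, hAF]
        refine ⟨?_, Or.inl hAne⟩
        rintro rfl
        exact hviA hAne
      · exact ⟨vj, by simp⟩
    have haug := dc_aug (vj := vj) (B := B) hcut hAFS (by
      rintro rfl
      simp at hBne) M vi hnd1.2.1 hP.suf.1
      (fun x hx => ⟨hCS x hx, fun h => hAFC x h hx⟩) hbase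
    obtain ⟨h1, h2, y, p1, p2, hh1, hh2, h0, hy, hp1, hp2, hdis, hz1, hz2⟩ := haug
    rw [List.mem_toFinset] at hy
    have hyvj : y ≠ vj := by
      rintro rfl
      exact hdis y hp1.right hp2.right
    have h12 : h1 ≠ h2 := by
      rintro rfl
      exact hdis h1 hp1.left hp2.left
    obtain ⟨LB, hLB, hLBs, hvpL, hNpL⟩ := dc_end hPB.rev hpj (a := y)
      (List.mem_reverse.2 (List.mem_cons_of_mem _ hy)) hyvj
    have hLBs' : ∀ z ∈ LB, z = vj ∨ z ∈ B := by
      intro z hz
      have := hLBs z hz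
      rwa [List.mem_reverse, List.mem_cons] at this
    have hLBC : ∀ z ∈ LB, z ∈ M ++ vj :: B := by
      intro z hz
      rw [List.mem_append, List.mem_cons]
      rcases hLBs' z hz with h | h
      · exact Or.inr (Or.inl h)
      · exact Or.inr (Or.inr h)
    have hp1B : ∀ z ∈ p1, z ∈ LB → z = vj := by
      intro z hz hz'
      rcases hLBs' z hz' with h | h
      · exact h
      · exact absurd (List.mem_toFinset.2 h) (hz1 z hz).2.2
    have hp2B : ∀ z ∈ p2, z ∈ LB → z = y := by
      intro z hz hz'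
      rcases hLBs' z hz' with h | h
      · rw [h] at hz
        exact absurd hz (hdis vj hp1.right)
      · exact (hz2 z hz).2.2 (List.mem_toFinset.2 h)
    have key : ∃ LA C : List V, (∀ z ∈ LA, z ∈ A ++ [vi]) ∧ v0 ∈ LA ∧
        (∀ z ∈ A ++ [vi], G.Adj v0 z → z ∈ LA) ∧ Cyc G C ∧
        ∀ z, z ∈ C ↔ z ∈ LA ∨ z ∈ p1 ∨ z ∈ LB ∨ z ∈ p2 := by
      rcases h0 with h0 | h0
      · obtain ⟨LA, hLA, hLAs, hv0L, hN0L⟩ := dc_end hPA h0i (a := h2)
          (List.mem_toFinset.1 hh2) (by rw [← h0]; exact h12.symm)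
        rw [h0] at hp1 hz1
        obtain ⟨C, hC, mC⟩ := dc_asm hLA hp1 hLB.rev hp2
          (fun z hz hz' => (hz1 z hz').2.1 (List.mem_toFinset.2 (hLAs z hz)))
          (fun z hz hz' => hp1B z hz (List.mem_reverse.1 hz'))
          (fun z hz hz' => hAFC z (List.mem_toFinset.2 (hLAs z hz)) (hLBC z (List.mem_reverse.1 hz')))
          (fun z hz hz' => (hz2 z hz').2.1 (List.mem_toFinset.2 (hLAs z hz)))
          (fun z hz hz' => hp2B z hz' (List.mem_reverse.1 hz)) hdis
        refine ⟨LA, C, hLAs, hv0L, hN0L, hC, ?_⟩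
        intro z
        rw [mC, List.mem_reverse]
      · obtain ⟨LA, hLA, hLAs, hv0L, hN0L⟩ := dc_end hPA h0i (a := h1)
          (List.mem_toFinset.1 hh1) (by rw [← h0]; exact h12)
        rw [h0] at hp2 hz2
        obtain ⟨C, hC, mC⟩ := dc_asm hLA hp2 hLB hp1
          (fun z hz hz' => (hz2 z hz').2.1 (List.mem_toFinset.2 (hLAs z hz)))
          hp2B
          (fun z hz hz' => hAFC z (List.mem_toFinset.2 (hLAs z hz)) (hLBC z hz'))
          (fun z hz hz' => (hz1 z hz').2.1 (List.mem_toFinset.2 (hLAs z hz)))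
          (fun z hz hz' => hp1B z hz' hz) (fun z hz hz' => hdis z hz' hz)
        refine ⟨LA, C, hLAs, hv0L, hN0L, hC, ?_⟩
        intro z
        rw [mC]
        tauto
    obtain ⟨LA, C, hLAs, hv0L, hN0L, hC, mC⟩ := key
    have hN0C : ∀ z ∈ N0, z ∈ C := by
      intro z hz
      rw [mC]
      exact Or.inl (hN0L z (hN0A z hz) ((hN0 z).1 hz).2)
    have hNpC : ∀ z ∈ Np, z ∈ C := by
      intro z hz
      rw [mC]
      exact Or.inr (Or.inr (Or.inl
        (hNpL z (List.mem_reverse.2 (hNpB z hz)) ((hNp z).1 hz).2)))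
    have hv0C : v0 ∈ C := by
      rw [mC]
      exact Or.inl hv0L
    refine ⟨C, hC, ?_, hv0C, hN0C, dc_len (c := vi) hv0 hN0k hNpk hv0C hN0C hNpC ?_⟩
    · intro z hz
      rw [mC] at hz
      rcases hz with hz | hz | hz | hz
      · exact hAFS (List.mem_toFinset.2 (hLAs z hz))
      · exact (hz1 z hz).1
      · exact hCS z (hLBC z hz)
      · exact (hz2 z hz).1
    · intro z hz hz'
      exfalso
      have h1 : z ∈ (A ++ [vi]).toFinset := by
        rcases hz with rfl | hz
        · exact List.mem_toFinset.2 (List.mem_append_left _ hAne)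
        · exact List.mem_toFinset.2 (hN0A z hz)
      exact hAFC z h1 (List.mem_append_right _ (hNpB z hz'))

theorem exists_long [DecidableEq V] {S : Finset V} (hS : S.Nonempty) :
    ∃ P v0 vp, Lst G v0 vp P ∧ (∀ x ∈ P, x ∈ S) ∧
      ∀ l : List V, l.IsChain G.Adj → l.Nodup → (∀ x ∈ l, x ∈ S) → l.length ≤ P.length := by
  classical
  obtain ⟨s, hs⟩ := hS
  have hlen : ∀ l : List V, l.Nodup → (∀ x ∈ l, x ∈ S) → l.length ≤ S.card := by
    intro l hl hlS
    rw [← List.toFinset_card_of_nodup hl]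
    exact card_le_card (fun x hx => hlS x (List.mem_toFinset.1 hx))
  have hP : ∃ l : List V, l.IsChain G.Adj ∧ l.Nodup ∧ (∀ x ∈ l, x ∈ S) ∧ l.length = 1 :=
    ⟨[s], by simp, by simp, by simpa using hs, rfl⟩
  have h1S : 1 ≤ S.card := card_pos.2 ⟨s, hs⟩
  have hspec := Nat.findGreatest_spec
    (P := fun n => ∃ l : List V, l.IsChain G.Adj ∧ l.Nodup ∧ (∀ x ∈ l, x ∈ S) ∧ l.length = n)
    h1S hP
  have hge := Nat.le_findGreatest
    (P := fun n => ∃ l : List V, l.IsChain G.Adj ∧ l.Nodup ∧ (∀ x ∈ l, x ∈ S) ∧ l.length = n)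
    h1S hP
  obtain ⟨P, h1, h2, h3, h4⟩ := hspec
  rcases hh : P.head? with _ | v0
  · exfalso
    rw [List.head?_eq_none_iff] at hh
    rw [hh, List.length_nil] at h4
    omega
  rcases hl : P.getLast? with _ | vp
  · exfalso
    rw [List.getLast?_eq_none_iff] at hl
    rw [hl, List.length_nil] at h4
    omega
  refine ⟨P, v0, vp, ⟨h1, h2, hh, hl⟩, h3, ?_⟩
  intro l g1 g2 g3
  rw [h4]
  exact Nat.le_findGreatest (hlen l g2 g3) ⟨l, g1, g2, g3, rfl⟩

/-- Dirac's theorem, with the extra information that some vertex of the cycle has all its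
neighbours on it. -/
theorem dirac_cycle [DecidableEq V] {S : Finset V} {k : ℕ} (hk : 1 ≤ k)
    (hdeg : ∀ v ∈ S, ∃ N : Finset V, (∀ x ∈ N, x ∈ S ∧ G.Adj v x) ∧ k ≤ N.card)
    (hconn : Conn G S) (hcut : ∀ v ∈ S, Conn G (S.erase v)) (hS : 2 * k + 1 ≤ S.card) :
    ∃ (C : List V) (v0 : V) (N : Finset V), Cyc G C ∧ (∀ x ∈ C, x ∈ S) ∧ v0 ∈ C ∧
      (∀ x ∈ N, x ∈ C ∧ G.Adj v0 x) ∧ k ≤ N.card ∧ 2 * k ≤ C.length := by
  classical
  obtain ⟨P, v0, vp, hP, hPS, hmax⟩ := exists_long (G := G) (S := S) (card_pos.1 (by omega))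
  have hfil : ∀ v ∈ S, k ≤ (S.filter (G.Adj v)).card := by
    intro v hv
    obtain ⟨N, hN, hNk⟩ := hdeg v hv
    refine hNk.trans (card_le_card ?_)
    intro x hx
    exact mem_filter.2 (hN x hx)
  have hN0 : ∀ x, x ∈ S.filter (G.Adj v0) ↔ x ∈ S ∧ G.Adj v0 x := fun x => mem_filter
  have hNp : ∀ x, x ∈ S.filter (G.Adj vp) ↔ x ∈ S ∧ G.Adj vp x := fun x => mem_filter
  have hN0P : ∀ x ∈ S.filter (G.Adj v0), x ∈ P := by
    intro x hx
    rw [hN0] at hx
    by_contra hxP
    have := ((Lst.single x).append hP hx.2.symm (by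
      intro z hz hz'
      rw [List.mem_singleton] at hz
      rw [hz] at hz'
      exact hxP hz'))
    have h2 := hmax _ this.1 this.2.1 (by
      intro z hz
      rw [List.mem_append, List.mem_singleton] at hz
      rcases hz with rfl | hz
      · exact hx.1
      · exact hPS z hz)
    simp only [List.length_append, List.length_cons, List.length_nil] at h2
    omega
  have hNpP : ∀ x ∈ S.filter (G.Adj vp), x ∈ P := by
    intro x hx
    rw [hNp] at hx
    by_contra hxP
    have := (hP.append (Lst.single x) hx.2 (by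
      intro z hz hz'
      rw [List.mem_singleton] at hz'
      rw [hz'] at hz
      exact hxP hz))
    have h2 := hmax _ this.1 this.2.1 (by
      intro z hz
      rw [List.mem_append, List.mem_singleton] at hz
      rcases hz with hz | rfl
      · exact hPS z hz
      · exact hx.1)
    simp only [List.length_append, List.length_cons, List.length_nil] at h2
    omega
  have hv0S := hPS v0 hP.left
  have hvpS := hPS vp hP.right
  have main : ∃ C, Cyc G C ∧ (∀ x ∈ C, x ∈ S) ∧ v0 ∈ C ∧ (∀ x ∈ S.filter (G.Adj v0), x ∈ C) ∧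
      2 * k ≤ C.length := by
    by_cases hcr : ∃ X u M w Y, P = X ++ u :: (M ++ w :: Y) ∧ G.Adj vp u ∧ G.Adj v0 w
    · exact dc_cross hconn hS hP hPS hmax _ _ hN0 hNp (hfil v0 hv0S) (hfil vp hvpS) hN0P hNpP hcr
    · exact dc_noncross hk hcut hP hPS _ _ hN0 hNp (hfil v0 hv0S) (hfil vp hvpS) hN0P hNpP hcr
  obtain ⟨C, hC, hCS, hv0C, hN0C, hlen⟩ := main
  exact ⟨C, v0, S.filter (G.Adj v0), hC, hCS, hv0C, fun x hx => ⟨hN0C x hx, ((hN0 x).1 hx).2⟩,
    hfil v0 hv0S, hlen⟩

/-- **Dirac's theorem with a chord** (version with neighbourhood sets). -/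
theorem dirac_chord' [DecidableEq V] {S : Finset V} {k : ℕ} (hk : 3 ≤ k)
    (hdeg : ∀ v ∈ S, ∃ N : Finset V, (∀ x ∈ N, x ∈ S ∧ G.Adj v x) ∧ k ≤ N.card)
    (hconn : Conn G S) (hcut : ∀ v ∈ S, Conn G (S.erase v)) (hS : 2 * k + 1 ≤ S.card) :
    ∃ u0 A b B, Cyc G (u0 :: (A ++ b :: B)) ∧ (∀ x ∈ u0 :: (A ++ b :: B), x ∈ S) ∧ A ≠ [] ∧
      B ≠ [] ∧ G.Adj u0 b ∧ 2 * k ≤ (u0 :: (A ++ b :: B)).length := by
  classical
  obtain ⟨C, v0, N, hC, hCS, hv0C, hN, hNk, hlen⟩ := dirac_cycle (by omega) hdeg hconn hcut hS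
  obtain ⟨C1, C2, rfl⟩ := List.append_of_mem hv0C
  have hrot := hC.rotate
  rw [List.cons_append] at hrot
  set R := C2 ++ C1 with hR
  have hNR : ∀ x ∈ N, x ∈ R := by
    intro x hx
    have h1 := (hN x hx).1
    rw [List.mem_append, List.mem_cons] at h1
    rw [hR, List.mem_append]
    rcases h1 with h1 | h1 | h1
    · exact Or.inr h1
    · have := (hN x hx).2
      rw [h1] at this
      exact absurd this (G.loopless.irrefl _)
    · exact Or.inl h1
  have hex : ∃ b ∈ N, R.head? ≠ some b ∧ R.getLast? ≠ some b := by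
    by_contra hcon
    push Not at hcon
    have h1 : N ⊆ R.head?.toFinset ∪ R.getLast?.toFinset := by
      intro x hx
      rw [mem_union, Option.mem_toFinset, Option.mem_toFinset]
      by_cases h : R.head? = some x
      · exact Or.inl h
      · exact Or.inr (hcon x hx h)
    have h2 := card_le_card h1
    have h3 := card_union_le R.head?.toFinset R.getLast?.toFinset
    have h4 : ∀ o : Option V, o.toFinset.card ≤ 1 := by
      intro o
      rcases o with _ | o <;> simp
    have h5 := h4 R.head?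
    have h6 := h4 R.getLast?
    omega
  obtain ⟨b, hbN, hb1, hb2⟩ := hex
  obtain ⟨A, B, hAB⟩ := List.append_of_mem (hNR b hbN)
  refine ⟨v0, A, b, B, ?_, ?_, ?_, ?_, (hN b hbN).2, ?_⟩
  · rw [← hAB]; exact hrot
  · intro x hx
    rw [← hAB, List.mem_cons, hR, List.mem_append] at hx
    apply hCS
    rw [List.mem_append, List.mem_cons]
    tauto
  · rintro rfl
    apply hb1
    rw [hAB]; rfl
  · rintro rfl
    apply hb2
    rw [hAB, List.getLast?_append]; rfl
  · rw [← hAB, List.length_cons, hR]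
    simp only [List.length_append, List.length_cons] at hlen ⊢
    omega

/-- **Dirac's theorem with a chord.** -/
theorem dirac_chord [DecidableEq V] {G : SimpleGraph V} [DecidableRel G.Adj] {S : Finset V}
    {k : ℕ} (hk : 3 ≤ k) (hdeg : ∀ v ∈ S, k ≤ (S.filter (G.Adj v)).card)
    (hconn : Conn G S) (hcut : ∀ v ∈ S, Conn G (S.erase v)) (hS : 2 * k + 1 ≤ S.card) :
    ∃ u0 A b B, Cyc G (u0 :: (A ++ b :: B)) ∧ (∀ x ∈ u0 :: (A ++ b :: B), x ∈ S) ∧ A ≠ [] ∧
      B ≠ [] ∧ G.Adj u0 b ∧ 2 * k ≤ (u0 :: (A ++ b :: B)).length :=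
  dirac_chord' hk (fun v hv => ⟨S.filter (G.Adj v), fun _ hx => mem_filter.1 hx, hdeg v hv⟩)
    hconn hcut hS

end Vale.Agent.P048.L
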