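import Vale.Agent.P048.Alpha

namespace Vale.Agent.P048

open Finset

variable {V : Type*} [DecidableEq V]

open Classical in
noncomputable def ball (G : SimpleGraph V) (D : Finset V) (u : V) : ℕ → Finset V
  | 0 => {u}
  | r + 1 => ball G D u r ∪ D.filter (fun y => ∃ x ∈ ball G D u r, G.Adj x y)

theorem mem_ball_succ {G : SimpleGraph V} {D : Finset V} {u y : V} {r : ℕ} :
    y ∈ ball G D u (r + 1) ↔ y ∈ ball G D u r ∨ (y ∈ D ∧ ∃ x ∈ ball G D u r, G.Adj x y) := by
  classical
  rw [ball, mem_union, mem_filter]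

theorem mem_ball_zero {G : SimpleGraph V} {D : Finset V} {u y : V} :
    y ∈ ball G D u 0 ↔ y = u := by
  rw [ball, mem_singleton]

theorem ball_mono {G : SimpleGraph V} {D : Finset V} {u : V} : Monotone (ball G D u) := by
  apply monotone_nat_of_le_succ
  intro r y hy
  rw [mem_ball_succ]
  exact Or.inl hy

theorem ball_self {G : SimpleGraph V} {D : Finset V} {u : V} (r : ℕ) : u ∈ ball G D u r :=
  ball_mono (Nat.zero_le r) (mem_ball_zero.2 rfl)

theorem ball_sub {G : SimpleGraph V} {D : Finset V} {u : V} (hu : u ∈ D) (r : ℕ) :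
    ball G D u r ⊆ D := by
  induction r with
  | zero =>
    intro y hy
    rw [mem_ball_zero] at hy
    rw [hy]; exact hu
  | succ r ih =>
    intro y hy
    rw [mem_ball_succ] at hy
    rcases hy with hy | hy
    · exact ih hy
    · exact hy.1

theorem ball_trans {G : SimpleGraph V} {D : Finset V} {u y : V} {i : ℕ}
    (hy : y ∈ ball G D u i) : ∀ (j : ℕ) (z : V), z ∈ ball G D y j → z ∈ ball G D u (i + j) := by
  intro j
  induction j with
  | zero =>
    intro z hz
    rw [mem_ball_zero] at hz
    rw [hz]; exact hy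
  | succ j ih =>
    intro z hz
    rw [mem_ball_succ] at hz
    rw [← add_assoc, mem_ball_succ]
    rcases hz with hz | ⟨hz, x, hx, hxz⟩
    · exact Or.inl (ih z hz)
    · exact Or.inr ⟨hz, x, ih x hx, hxz⟩

theorem ball_symm {G : SimpleGraph V} {D : Finset V} {u : V} (hu : u ∈ D) :
    ∀ (i : ℕ) (y : V), y ∈ ball G D u i → u ∈ ball G D y i := by
  intro i
  induction i with
  | zero =>
    intro y hy
    rw [mem_ball_zero] at hy ⊢
    exact hy.symm
  | succ i ih =>
    intro y hy
    rw [mem_ball_succ] at hy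
    rcases hy with hy | ⟨hyD, x, hx, hxy⟩
    · exact ball_mono (Nat.le_succ i) (ih y hy)
    · have hxD := ball_sub hu i hx
      have h1 : x ∈ ball G D y 1 := by
        rw [mem_ball_succ]
        exact Or.inr ⟨hxD, y, mem_ball_zero.2 rfl, hxy.symm⟩
      have := ball_trans h1 i u (ih x hx)
      rwa [add_comm] at this

theorem ball_far {G : SimpleGraph V} {D : Finset V} {u v : V} {i j k : ℕ} (hu : u ∈ D)
    (hv : v ∈ D) (hk : i + j + 1 ≤ k) (h : v ∉ ball G D u k) :
    Disjoint (ball G D u i) (ball G D v j) ∧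
      ∀ x ∈ ball G D u i, ∀ y ∈ ball G D v j, ¬ G.Adj x y := by
  have key : ∀ x ∈ ball G D u i, ∀ y ∈ ball G D v j, ¬ (x = y) ∧ ¬ G.Adj x y := by
    intro x hx y hy
    have hvy := ball_symm hv j y hy
    have hyD := ball_sub hv j hy
    constructor
    · intro hxy
      subst hxy
      exact h (ball_mono (by omega) (ball_trans hx j v hvy))
    · intro hadj
      have h1 : y ∈ ball G D u (i + 1) := by
        rw [mem_ball_succ]
        exact Or.inr ⟨hyD, x, hx, hadj⟩
      exact h (ball_mono (by omega) (ball_trans h1 j v hvy))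
  refine ⟨?_, fun x hx y hy => (key x hx y hy).2⟩
  rw [disjoint_left]
  intro x hx hx'
  exact (key x hx x hx').1 rfl

theorem ball_chain {G : SimpleGraph V} {D : Finset V} {u : V} (hu : u ∈ D) :
    ∀ (r : ℕ) (y : V), y ∈ ball G D u r → ∃ q : List V, q.IsChain G.Adj ∧ (∀ x ∈ q, x ∈ D) ∧
      q.head? = some u ∧ q.getLast? = some y ∧ q.length ≤ r + 1 := by
  intro r
  induction r with
  | zero =>
    intro y hy
    rw [mem_ball_zero] at hy
    subst hy
    exact ⟨[y], by simp, by simpa using hu, rfl, rfl, by simp⟩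
  | succ r ih =>
    intro y hy
    rw [mem_ball_succ] at hy
    rcases hy with hy | ⟨hyD, x, hx, hxy⟩
    · obtain ⟨q, h1, h2, h3, h4, h5⟩ := ih y hy
      exact ⟨q, h1, h2, h3, h4, by omega⟩
    · obtain ⟨q, h1, h2, h3, h4, h5⟩ := ih x hx
      refine ⟨q ++ [y], ?_, ?_, ?_, ?_, ?_⟩
      · rw [List.isChain_append]
        refine ⟨h1, by simp, ?_⟩
        intro a ha b hb
        rw [h4] at ha
        simp only [Option.mem_def, Option.some.injEq, List.head?_cons] at ha hb
        rw [← ha, ← hb]; exact hxy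
      · intro z hz
        rw [List.mem_append, List.mem_singleton] at hz
        rcases hz with hz | rfl
        · exact h2 z hz
        · exact hyD
      · rw [List.head?_append, h3]; rfl
      · simp
      · simp only [List.length_append, List.length_cons, List.length_nil]
        omega

theorem ball_grow {G : SimpleGraph V} {D : Finset V} {u v : V} {r : ℕ} (hconn : Conn G D)
    (hu : u ∈ D) (hv : v ∈ D) (h : v ∉ ball G D u r) :
    ∃ y ∈ ball G D u (r + 1), y ∉ ball G D u r := by
  by_contra hcon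
  push Not at hcon
  have := hconn (ball G D u r) (ball_sub hu r) ⟨u, ball_self r⟩ (by
    intro x hx y hy hxy
    apply hcon
    rw [mem_ball_succ]
    exact Or.inr ⟨hy, x, hx, hxy⟩)
  rw [this] at h
  exact h hv

theorem alpha_ball_grow {G : SimpleGraph V} {D : Finset V} {u v : V} {r : ℕ} (hconn : Conn G D)
    (hu : u ∈ D) (hv : v ∈ D) (h : v ∉ ball G D u (r + 1)) :
    alpha G (ball G D u r) + 1 ≤ alpha G (ball G D u (r + 2)) := by
  obtain ⟨y, hy, hy'⟩ := ball_grow hconn hu hv h
  apply alpha_insert (ball_mono (by omega)) hy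
  · intro hyr
    exact hy' (ball_mono (Nat.le_succ r) hyr)
  · intro x hx hxy
    apply hy'
    rw [mem_ball_succ]
    exact Or.inr ⟨ball_sub hu _ hy, x, hx, hxy⟩

theorem alpha_ball_trivial {G : SimpleGraph V} {D : Finset V} {u v : V} (hconn : Conn G D)
    (hu : u ∈ D) (hv : v ∈ D) : ∀ (r : ℕ), (∀ k, k + 1 ≤ r → v ∉ ball G D u k) →
      r / 2 + 1 ≤ alpha G (ball G D u r) := by
  intro r
  induction r using Nat.strong_induction_on with
  | _ r ih =>
    intro h
    rcases Nat.lt_or_ge r 2 with hr | hr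
    · have := alpha_pos (G := G) (X := ball G D u r) ⟨u, ball_self r⟩
      have : r / 2 = 0 := Nat.div_eq_of_lt hr
      omega
    · obtain ⟨s, rfl⟩ : ∃ s, r = s + 2 := ⟨r - 2, by omega⟩
      have h1 := ih s (by omega) (fun k hk => h k (by omega))
      have h2 := alpha_ball_grow hconn hu hv (h (s + 1) (by omega))
      omega

end Vale.Agent.P048
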