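import Vale.Agent.P048.Conn

namespace Vale.Agent.P048

open Finset

variable {V : Type*} [DecidableEq V]

omit [DecidableEq V] in
theorem gap_of {G : SimpleGraph V} {U : Finset V} {s t : V} {L v : ℕ}
    (hinit : ∃ l, STP G U s t l ∧ l.length ≤ L + v)
    (hns : ∀ l, STP G U s t l → l.length < U.card → Stuck G U s t l (v + 1) → False)
    (hL : L ≤ U.card) :
    ∃ l, STP G U s t l ∧ L ≤ l.length ∧ l.length ≤ L + v := by
  classical
  obtain ⟨l0, hl0, hl0'⟩ := hinit
  have hP : ∃ l, STP G U s t l ∧ l.length = l0.length := ⟨l0, hl0, rfl⟩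
  have hspec := Nat.findGreatest_spec (P := fun n => ∃ l, STP G U s t l ∧ l.length = n) hl0' hP
  have hle := Nat.findGreatest_le (P := fun n => ∃ l, STP G U s t l ∧ l.length = n) (L + v)
  obtain ⟨l, hl, hln⟩ := hspec
  refine ⟨l, hl, ?_, by omega⟩
  by_contra hcon
  apply hns l hl (by omega)
  intro l' hl' hlt
  by_contra hcon'
  exact Nat.findGreatest_is_greatest (P := fun n => ∃ l, STP G U s t l ∧ l.length = n)
    (n := L + v) (k := l'.length) (by omega) (by omega) ⟨l', hl', rfl⟩

def Sep (G : SimpleGraph V) (W : Finset V) (k : ℕ) : Prop :=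
  ∀ A B, A ⊆ W → B ⊆ W → A.Nonempty → B.Nonempty → Disjoint A B →
    (∀ x ∈ A, ∀ y ∈ B, ¬ G.Adj x y) → k ≤ (W \ (A ∪ B)).card

theorem sep_att {G : SimpleGraph V} {W C D : Finset V} {k : ℕ} (hsep : Sep G W k)
    (hC : C ⊆ W) (hD : D ⊆ W \ C) (hDne : D.Nonempty)
    (hcl : ∀ x ∈ D, ∀ y ∈ W \ C, G.Adj x y → y ∈ D) [DecidablePred (Att G D)] :
    k ≤ (C.filter (Att G D)).card ∨ (∀ x ∈ C, Att G D x) := by
  by_cases hall : ∀ x ∈ C, Att G D x
  · exact Or.inr hall
  left
  push Not at hall
  obtain ⟨x0, hx0, hx0'⟩ := hall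
  have h1 := hsep D ((W \ D) \ (C.filter (Att G D))) (hD.trans sdiff_subset)
    (sdiff_subset.trans sdiff_subset) hDne
    ⟨x0, by
      rw [mem_sdiff, mem_sdiff, mem_filter]
      refine ⟨⟨hC hx0, ?_⟩, fun h => hx0' h.2⟩
      intro h
      have := hD h
      rw [mem_sdiff] at this
      exact this.2 hx0⟩
    (by
      rw [disjoint_left]
      intro x hx hx'
      rw [mem_sdiff, mem_sdiff] at hx'
      exact hx'.1.2 hx)
    (by
      intro x hx y hy hxy
      rw [mem_sdiff, mem_sdiff, mem_filter] at hy
      by_cases hyC : y ∈ C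
      · exact hy.2 ⟨hyC, x, hx, hxy.symm⟩
      · exact hy.1.2 (hcl x hx y (by rw [mem_sdiff]; exact ⟨hy.1.1, hyC⟩) hxy))
  refine h1.trans (card_le_card ?_)
  intro x hx
  rw [mem_sdiff, mem_union, mem_sdiff, mem_sdiff] at hx
  by_contra hcon
  apply hx.2
  by_cases hxD : x ∈ D
  · exact Or.inl hxD
  · exact Or.inr ⟨⟨hx.1, hxD⟩, hcon⟩

omit [DecidableEq V] in
theorem stp_of_bridge {G : SimpleGraph V} {U O : Finset V} {s t : V} {q : List V}
    (hq : Bridge G O s t q) (hqn : q.Nodup) (hOU : O ⊆ U) (hs : s ∈ U) (ht : t ∈ U)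
    (hsO : s ∉ O) (htO : t ∉ O) (hst : s ≠ t) : STP G U s t (s :: (q ++ [t])) := by
  obtain ⟨hq0, hqc, hqO, hqh, hql⟩ := hq
  refine ⟨⟨?_, ?_⟩, rfl, ?_, ?_⟩
  · rw [List.nodup_cons, List.nodup_append]
    refine ⟨?_, hqn, by simp, ?_⟩
    · rw [List.mem_append, List.mem_singleton]
      rintro (h | h)
      · exact hsO (hqO s h)
      · exact hst h
    · intro a ha c hc hac
      rw [List.mem_singleton] at hc
      rw [hac, hc] at ha
      exact htO (hqO t ha)
  · rw [List.isChain_cons]
    constructor
    · intro y hy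
      apply hqh
      rcases q with _ | ⟨q0, qt⟩
      · exact absurd rfl hq0
      · simpa using hy
    · rw [List.isChain_append]
      refine ⟨hqc, by simp, ?_⟩
      intro x hx y hy
      simp only [List.head?_cons, Option.mem_def, Option.some.injEq] at hy
      rw [← hy]; exact hql x hx
  · rw [← List.cons_append, List.getLast?_append]; simp
  · intro x hx
    simp only [List.mem_append, List.mem_cons, List.not_mem_nil, or_false] at hx
    rcases hx with rfl | hx | rfl
    · exact hs
    · exact hOU (hqO x hx)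
    · exact ht

omit [DecidableEq V] in
theorem stp_form {G : SimpleGraph V} {U : Finset V} {s t : V} {l : List V}
    (h : STP G U s t l) (hst : s ≠ t) : ∃ w B, l = s :: w :: B := by
  rcases l with _ | ⟨x, _ | ⟨w, B⟩⟩
  · have := h.hd; simp at this
  · have h1 := h.hd
    have h2 := h.lt
    simp only [List.head?_cons, List.getLast?_singleton, Option.some.injEq] at h1 h2
    exact absurd (h1.symm.trans h2) hst
  · have h1 := h.hd
    simp only [List.head?_cons, Option.some.injEq] at h1
    exact ⟨w, B, by rw [h1]⟩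

theorem gap {G : SimpleGraph V} {W Z : Finset V} {b L : ℕ} {s t : V} (hb : 2 ≤ b)
    (hW : AlphaLe G W b) (hZW : Z ⊆ W) (hs : s ∈ Z) (ht : t ∈ Z) (hst : s ≠ t)
    (hZ : Z.card = 3 * b - 2) (hsep : Sep G W (4 * b - 3))
    (hdeg : ∀ x ∈ W, ∃ y ∈ W \ Z, G.Adj x y)
    (hL : 3 ≤ L) (hL2 : L + Z.card ≤ W.card + 2) :
    ∃ l, STP G (W \ (Z \ {s, t})) s t l ∧ L ≤ l.length ∧ l.length ≤ L + (2 * b - 2) := by
  classical
  have hsU : s ∈ W \ (Z \ {s, t}) := by
    rw [mem_sdiff, mem_sdiff]
    exact ⟨hZW hs, fun h => h.2 (by simp)⟩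
  have htU : t ∈ W \ (Z \ {s, t}) := by
    rw [mem_sdiff, mem_sdiff]
    exact ⟨hZW ht, fun h => h.2 (by simp)⟩
  have hWZU : W \ Z ⊆ W \ (Z \ {s, t}) := sdiff_subset_sdiff (Subset.refl _) sdiff_subset
  have hstZ : ({s, t} : Finset V) ⊆ Z := by
    intro x hx
    rw [mem_insert, mem_singleton] at hx
    rcases hx with rfl | rfl
    · exact hs
    · exact ht
  have hcardU : (W \ (Z \ {s, t})).card = W.card + 2 - Z.card := by
    rw [card_sdiff_of_subset (sdiff_subset.trans hZW), card_sdiff_of_subset hstZ, card_pair hst]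
    have h1 := card_le_card hZW
    have h2 : 2 ≤ Z.card := by
      have := card_le_card hstZ
      rwa [card_pair hst] at this
    omega
  apply gap_of
  · have hconn : Conn G (W \ Z) := by
      intro A hA hAne hcl
      by_contra hne
      have hB : ((W \ Z) \ A).Nonempty := by
        rw [sdiff_nonempty]
        intro h
        exact hne (Subset.antisymm hA h)
      have h1 := hsep A ((W \ Z) \ A) (hA.trans sdiff_subset) (sdiff_subset.trans sdiff_subset)
        hAne hB disjoint_sdiff (by
          intro x hx y hy hxy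
          rw [mem_sdiff] at hy
          exact hy.2 (hcl x hx y hy.1 hxy))
      have h2 : (W \ (A ∪ (W \ Z) \ A)).card ≤ Z.card := by
        apply card_le_card
        intro x hx
        rw [mem_sdiff, mem_union, mem_sdiff, mem_sdiff] at hx
        by_contra hxZ
        apply hx.2
        by_cases hxA : x ∈ A
        · exact Or.inl hxA
        · exact Or.inr ⟨⟨hx.1, hxZ⟩, hxA⟩
      omega
    obtain ⟨x, hx1, hx2⟩ := hdeg s (hZW hs)
    obtain ⟨y, hy1, hy2⟩ := hdeg t (hZW ht)
    have hbr := conn_bridge hconn ⟨x, hx1, hx2⟩ ⟨y, hy1, hy2⟩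
    have htn : t ∉ W \ Z := by
      rw [mem_sdiff]; exact fun h => h.2 ht
    have hsn : s ∉ W \ Z := by
      rw [mem_sdiff]; exact fun h => h.2 hs
    obtain ⟨q, hq1, hq2, hq3⟩ := bridge_short hW sdiff_subset (hZW ht) htn hbr
    refine ⟨s :: (q ++ [t]), stp_of_bridge hq1 hq2 hWZU hsU htU hsn htn hst, ?_⟩
    simp only [List.length_cons, List.length_append, List.length_nil]
    omega
  · intro l hl hlU hstuck
    have hlsub : l.toFinset ⊆ W \ (Z \ {s, t}) := by
      intro x hx
      exact hl.mem x (List.mem_toFinset.1 hx)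
    have hlcard : l.toFinset.card = l.length := List.toFinset_card_of_nodup hl.pth.1
    obtain ⟨d, hd, hdl⟩ := exists_mem_notMem_of_card_lt_card (hlcard.trans_lt hlU)
    have hsl : s ∈ l := List.mem_of_mem_head? (by rw [hl.hd]; rfl)
    have htl : t ∈ l := List.mem_of_getLast? hl.lt
    set C := Z ∪ l.toFinset with hC
    have hCW : C ⊆ W := union_subset hZW (hlsub.trans sdiff_subset)
    have hdC : d ∈ W \ C := by
      rw [mem_sdiff, mem_sdiff] at hd
      rw [mem_sdiff, hC, mem_union]
      refine ⟨hd.1, ?_⟩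
      rintro (h | h)
      · apply hd.2
        refine ⟨h, ?_⟩
        rw [mem_insert, mem_singleton]
        rintro (rfl | rfl)
        · exact hdl (List.mem_toFinset.2 hsl)
        · exact hdl (List.mem_toFinset.2 htl)
      · exact hdl h
    obtain ⟨D, hDX, hdD, hcl, hconn⟩ := exists_comp hdC
    have hDW : D ⊆ W := hDX.trans sdiff_subset
    have hDl : ∀ x ∈ l, x ∉ D := by
      intro x hx hxD
      have := hDX hxD
      rw [mem_sdiff, hC, mem_union] at this
      exact this.2 (Or.inr (List.mem_toFinset.2 hx))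
    have hDU : D ⊆ W \ (Z \ {s, t}) := by
      intro x hx
      have := hDX hx
      rw [mem_sdiff, hC, mem_union] at this
      rw [mem_sdiff, mem_sdiff]
      exact ⟨this.1, fun h => this.2 (Or.inl h.1)⟩
    have hbr : ∀ u ∈ l, ∀ u' ∈ l, u ≠ u' → Att G D u → Att G D u' →
        ∃ q, Bridge G D u u' q ∧ q.Nodup ∧ q.length ≤ 2 * b - 2 + 1 := by
      intro u hu u' hu' _ hau hau'
      obtain ⟨q, hq1, hq2, hq3⟩ := bridge_short hW hDW
        ((hlsub.trans sdiff_subset) (List.mem_toFinset.2 hu')) (hDl u' hu')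
        (conn_bridge hconn hau hau')
      exact ⟨q, hq1, hq2, by omega⟩
    rcases sep_att hsep hCW hDX ⟨d, hdD⟩ hcl with h | h
    · have h1 := ce_main hW sdiff_subset hl hstuck hDU hDl (Subset.refl D) hbr
        (J := {d}) (singleton_subset_iff.2 hdD)
        (by
          intro x hx y hy
          rw [mem_singleton] at hx hy
          rw [hx, hy]; exact G.loopless.irrefl _)
      rw [card_singleton] at h1
      have h2 : C.filter (Att G D) ⊆ (Z.erase s) ∪ (l.dropLast.toFinset.filter (Att G D)) := by
        intro x hx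
        rw [mem_filter, hC, mem_union] at hx
        rw [mem_union, mem_erase, mem_filter, List.mem_toFinset]
        by_cases hxt : x = t
        · left
          rw [hxt]
          exact ⟨hst.symm, ht⟩
        · by_cases hxl : x ∈ l
          · right
            refine ⟨?_, hx.2⟩
            have h3 : l = l.dropLast ++ [t] := by
              have := List.dropLast_append_getLast? t hl.lt
              exact this.symm
            rw [h3, List.mem_append, List.mem_singleton] at hxl
            exact hxl.resolve_right hxt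
          · left
            refine ⟨?_, hx.1.resolve_right (fun h => hxl (List.mem_toFinset.1 h))⟩
            rintro rfl
            exact hxl hsl
      have h3 := (card_le_card h2).trans (card_union_le _ _)
      rw [card_erase_of_mem hs] at h3
      omega
    · obtain ⟨w, B, hlB⟩ := stp_form hl hst
      have hwl : w ∈ l := by rw [hlB]; simp
      have hws : s ≠ w := by
        rintro rfl
        have := hl.pth.1
        rw [hlB, List.nodup_cons] at this
        exact this.1 (by simp)
      apply ce_ins (A := []) hl hstuck hDU hDl hlB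
      apply hbr s hsl w hwl hws
      · exact h s (by rw [hC, mem_union]; exact Or.inl hs)
      · exact h w (by rw [hC, mem_union]; exact Or.inr (List.mem_toFinset.2 hwl))
  · omega

end Vale.Agent.P048
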