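import Vale.Agent.P048.EBall
import Vale.Agent.P048.Path

namespace Vale.Agent.P048

open Finset

variable {V : Type*} [DecidableEq V]

theorem ce_main2 {G : SimpleGraph V} {W U O X X' J : Finset V} {b N : ℕ} {s t : V} {l : List V}
    (hW : AlphaLe G W b) (hUW : U ⊆ W) (h : STP G U s t l) (hstuck : Stuck G U s t l N)
    (hOU : O ⊆ U) (hOl : ∀ x ∈ l, x ∉ O) (hXX : X ⊆ X') (hXO : X' ⊆ O)
    (hbr : ∀ u ∈ l, ∀ u' ∈ l, u ≠ u' → Att G X u → Att G X' u' →
      ∃ q, Bridge G O u u' q ∧ q.Nodup ∧ q.length ≤ N)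
    (hJX : J ⊆ X') (hJ : Ind G J) [DecidablePred (Att G X)] :
    (l.dropLast.toFinset.filter (Att G X)).card + J.card ≤ b := by
  obtain ⟨S, hS1, hS2⟩ := succ_exists (Att G X) l h.pth.1
  have hlift : ∀ v, Att G X v → Att G X' v := by
    intro v hv
    obtain ⟨x, hx, hvx⟩ := hv
    exact ⟨x, hXX hx, hvx⟩
  have hSl : ∀ w ∈ S, w ∈ l := by
    intro w hw
    obtain ⟨A, v, B, e, _⟩ := hS1 w hw
    rw [e]; simp
  have hdisj : Disjoint S J := by
    rw [disjoint_left]
    intro x hx hxJ
    exact hOl x (hSl x hx) (hXO (hJX hxJ))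
  have hSS : ∀ w1 ∈ S, ∀ w2 ∈ S, ¬ G.Adj w1 w2 := by
    intro w1 hw1 w2 hw2 hadj
    obtain ⟨A1, v1, B1, e1, hv1⟩ := hS1 w1 hw1
    obtain ⟨A2, v2, B2, e2, hv2⟩ := hS1 w2 hw2
    have hne : w1 ≠ w2 := G.ne_of_adj hadj
    have hv12 : v1 ≠ v2 := by
      rintro rfl
      obtain ⟨_, e4⟩ := split_unique h.pth.1 e1 e2
      simp only [List.cons.injEq] at e4
      exact hne e4.1
    have hv1l : v1 ∈ l := by rw [e1]; simp
    have hv2l : v2 ∈ l := by rw [e2]; simp
    have hw2l := hSl w2 hw2
    rw [e1, List.mem_append, List.mem_cons, List.mem_cons] at hw2l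
    rcases hw2l with hw | hw | hw | hw
    · obtain ⟨C, D, hCD⟩ := List.append_of_mem hw
      have e3 : l = C ++ w2 :: (D ++ v1 :: w1 :: B1) := by rw [e1, hCD]; simp
      have e4 : l = (A2 ++ [v2]) ++ w2 :: B2 := by rw [e2]; simp
      obtain ⟨_, e6⟩ := split_unique h.pth.1 e3 e4
      have hw1B2 : w1 ∈ B2 := by rw [← e6]; simp
      exact ce_rot h hstuck hOU hOl e2 e1 hw1B2 hadj.symm
        (hbr v2 hv2l v1 hv1l hv12.symm hv2 (hlift _ hv1))
    · have e3 : l = A1 ++ w2 :: (w1 :: B1) := by rw [e1, hw]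
      have e4 : l = (A2 ++ [v2]) ++ w2 :: B2 := by rw [e2]; simp
      obtain ⟨_, e6⟩ := split_unique h.pth.1 e3 e4
      have hw1B2 : w1 ∈ B2 := by rw [← e6]; simp
      exact ce_rot h hstuck hOU hOl e2 e1 hw1B2 hadj.symm
        (hbr v2 hv2l v1 hv1l hv12.symm hv2 (hlift _ hv1))
    · exact hne hw.symm
    · exact ce_rot h hstuck hOU hOl e1 e2 hw hadj
        (hbr v1 hv1l v2 hv2l hv12 hv1 (hlift _ hv2))
  have hSJ : ∀ w ∈ S, ∀ j ∈ J, ¬ G.Adj w j := by
    intro w hw j hj hadj
    obtain ⟨A, v, B, e, hv⟩ := hS1 w hw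
    have hvl : v ∈ l := by rw [e]; simp
    have hvw : v ≠ w := by
      rintro rfl
      have := h.pth.1
      rw [e, List.nodup_append, List.nodup_cons] at this
      exact this.2.1.1 (by simp)
    exact ce_ins h hstuck hOU hOl e
      (hbr v hvl w (hSl w hw) hvw hv ⟨j, hJX hj, hadj⟩)
  have hsub : S ∪ J ⊆ W := by
    apply union_subset
    · intro x hx
      exact hUW (h.mem x (hSl x hx))
    · exact (hJX.trans (hXO.trans hOU)).trans hUW
  have := hW _ hsub (ind_union (fun x hx y hy => hSS x hx y hy) hJ hSJ)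
  rw [card_union_of_disjoint hdisj] at this
  omega

theorem bridge_of_chain {G : SimpleGraph V} {O : Finset V} {u u' x y : V} {q : List V} {N : ℕ}
    (h1 : q.IsChain G.Adj) (h2 : ∀ z ∈ q, z ∈ O) (h3 : q.head? = some x)
    (h4 : q.getLast? = some y) (h5 : q.length ≤ N) (hux : G.Adj u x) (huy : G.Adj u' y) :
    ∃ q', Bridge G O u u' q' ∧ q'.Nodup ∧ q'.length ≤ N := by
  have hq : Bridge G O u u' q := by
    refine ⟨?_, h1, h2, ?_, ?_⟩
    · rintro rfl
      simp at h3
    · intro z hz
      rw [h3] at hz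
      simp only [Option.mem_def, Option.some.injEq] at hz
      rw [← hz]; exact hux
    · intro z hz
      rw [h4] at hz
      simp only [Option.mem_def, Option.some.injEq] at hz
      rw [← hz]; exact huy.symm
  obtain ⟨q', hq', hmin⟩ := exists_min_bridge ⟨q, hq⟩
  refine ⟨q', hq', ?_, (hmin q hq).trans h5⟩
  rw [List.nodup_iff_injective_getElem]
  have hne : ∀ i j (hij : i < j) (hj : j < q'.length), q'[i] ≠ q'[j] := by
    intro i j hij hj heq
    have hs := split_two q' hij hj
    rw [heq] at hs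
    have hq'' := hq'
    rw [hs] at hq''
    have := hmin _ (bridge_loop hq'')
    simp only [List.length_append, List.length_cons, List.length_take, List.length_drop] at this
    omega
  intro i j hij
  by_contra hcon
  rcases lt_trichotomy i.1 j.1 with h | h | h
  · exact hne i.1 j.1 h j.2 hij
  · exact hcon (Fin.ext h)
  · exact hne j.1 i.1 h i.2 hij.symm

theorem chain_nodup {G : SimpleGraph V} {O : Finset V} {x y : V} :
    ∀ (n : ℕ) (q : List V), q.length = n → q.IsChain G.Adj → (∀ z ∈ q, z ∈ O) →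
      q.head? = some x → q.getLast? = some y →
      ∃ q' : List V, q'.Nodup ∧ q'.IsChain G.Adj ∧ (∀ z ∈ q', z ∈ O) ∧ q'.head? = some x ∧
        q'.getLast? = some y ∧ q'.length ≤ n := by
  intro n
  induction n using Nat.strong_induction_on with
  | _ n ih =>
    intro q hn h1 h2 h3 h4
    by_cases hnd : q.Nodup
    · exact ⟨q, hnd, h1, h2, h3, h4, hn.le⟩
    · rw [List.nodup_iff_injective_getElem] at hnd
      unfold Function.Injective at hnd
      push Not at hnd
      obtain ⟨i, j, hij, hne⟩ := hnd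
      have key : ∃ (i j : ℕ) (hij : i < j) (hj : j < q.length), q[i] = q[j] := by
        rcases lt_trichotomy i.1 j.1 with h | h | h
        · exact ⟨i.1, j.1, h, j.2, hij⟩
        · exact absurd (Fin.ext h) hne
        · exact ⟨j.1, i.1, h, i.2, hij.symm⟩
      obtain ⟨i', j', hlt, hj', heq⟩ := key
      have hs := split_two q hlt hj'
      rw [heq] at hs
      set A := q.take i' with hA
      set B := (q.drop (i' + 1)).take (j' - i' - 1) with hB
      set C := q.drop (j' + 1) with hC
      set w := q[j'] with hw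
      have hlen : (A ++ w :: C).length < n := by
        have : q.length = (A ++ w :: (B ++ w :: C)).length := congrArg List.length hs
        simp only [List.length_append, List.length_cons] at this ⊢
        omega
      obtain ⟨q', e1, e2, e3, e4, e5, e6⟩ := ih _ hlen (A ++ w :: C) rfl (by
        rw [hs] at h1
        rw [List.isChain_append] at h1 ⊢
        obtain ⟨c1, c2, c3⟩ := h1
        refine ⟨c1, ?_, by simpa using c3⟩
        have : (w :: B ++ w :: C).IsChain G.Adj := c2
        rw [List.isChain_append] at this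
        exact this.2.1) (by
        intro z hz
        apply h2
        rw [hs]
        simp only [List.mem_append, List.mem_cons] at hz ⊢
        tauto) (by
        rw [hs] at h3
        rw [List.head?_append] at h3 ⊢
        simpa using h3) (by
        rw [hs] at h4
        rw [List.getLast?_append] at h4 ⊢
        have e1 : (w :: (B ++ w :: C)).getLast? = (w :: C).getLast? := by
          rw [← List.cons_append, List.getLast?_append]
          obtain ⟨r, hr⟩ : ∃ r, (w :: C).getLast? = some r :=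
            ⟨_, List.getLast?_eq_some_getLast (by simp)⟩
          rw [hr]; rfl
        rw [e1] at h4
        exact h4)
      exact ⟨q', e1, e2, e3, e4, e5, by omega⟩

theorem stp_of_ball {G : SimpleGraph V} {U : Finset V} {s t : V} {k : ℕ} (hs : s ∈ U)
    (h : t ∈ ball G U s k) : ∃ l, STP G U s t l ∧ l.length ≤ k + 1 := by
  obtain ⟨q, h1, h2, h3, h4, h5⟩ := ball_chain hs k t h
  obtain ⟨q', e1, e2, e3, e4, e5, e6⟩ := chain_nodup q.length q rfl h1 h2 h3 h4
  exact ⟨q', ⟨⟨e1, e2⟩, e4, e5, e3⟩, by omega⟩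

end Vale.Agent.P048
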