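import Vale.Agent.P048.ECe
import Vale.Agent.P048.Flex
import Vale.Agent.P048.Assemble

namespace Vale.Agent.P048

open Finset

variable {V : Type*} [DecidableEq V]

theorem exists_dense_comp {G : SimpleGraph V} : ∀ (n : ℕ) (Y : Finset V), Y.card = n →
    Y.Nonempty → ∃ D, D ⊆ Y ∧ D.Nonempty ∧ (∀ x ∈ D, ∀ y ∈ Y, G.Adj x y → y ∈ D) ∧
      Conn G D ∧ Y.card * alpha G D ≤ D.card * alpha G Y := by
  intro n
  induction n using Nat.strong_induction_on with
  | _ n ih =>
    intro Y hn hne
    obtain ⟨d, hd⟩ := hne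
    obtain ⟨D1, h1, h2, h3, h4⟩ := exists_comp hd
    have hD1 := card_pos.2 ⟨d, h2⟩
    by_cases hY : (Y \ D1).Nonempty
    · have hc : (Y \ D1).card + D1.card = Y.card := card_sdiff_add_card_eq_card h1
      obtain ⟨D2, e1, e2, e3, e4, e5⟩ := ih (Y \ D1).card (by omega) (Y \ D1) rfl hY
      have hnadj : ∀ x ∈ D1, ∀ y ∈ Y \ D1, ¬ G.Adj x y := by
        intro x hx y hy hxy
        rw [mem_sdiff] at hy
        exact hy.2 (h3 x hx y hy.1 hxy)
      have hadd : alpha G D1 + alpha G (Y \ D1) ≤ alpha G Y :=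
        alpha_add_le (alphaLe_alpha G Y) h1 sdiff_subset disjoint_sdiff hnadj
      have hp2 := alpha_pos (G := G) e2
      rcases Nat.lt_or_ge (D1.card * alpha G D2) (D2.card * alpha G D1) with hlt | hge
      · refine ⟨D2, e1.trans sdiff_subset, e2, ?_, e4, ?_⟩
        · intro x hx y hy hxy
          apply e3 x hx y _ hxy
          rw [mem_sdiff]
          refine ⟨hy, ?_⟩
          intro hyD
          exact hnadj y hyD x (e1 hx) hxy.symm
        · calc Y.card * alpha G D2 = (Y \ D1).card * alpha G D2 + D1.card * alpha G D2 := by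
                rw [← hc]; ring
            _ ≤ D2.card * alpha G (Y \ D1) + D2.card * alpha G D1 := by omega
            _ = D2.card * (alpha G D1 + alpha G (Y \ D1)) := by ring
            _ ≤ D2.card * alpha G Y := Nat.mul_le_mul_left _ hadd
      · refine ⟨D1, h1, ⟨d, h2⟩, h3, h4, ?_⟩
        have hkey : (Y \ D1).card * alpha G D1 ≤ D1.card * alpha G (Y \ D1) := by
          have s1 : (Y \ D1).card * alpha G D2 * alpha G D1 ≤
              D2.card * alpha G (Y \ D1) * alpha G D1 := Nat.mul_le_mul_right _ e5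
          have s2 : D2.card * alpha G D1 * alpha G (Y \ D1) ≤
              D1.card * alpha G D2 * alpha G (Y \ D1) := Nat.mul_le_mul_right _ hge
          have s3 : alpha G D2 * ((Y \ D1).card * alpha G D1) ≤
              alpha G D2 * (D1.card * alpha G (Y \ D1)) := by
            calc alpha G D2 * ((Y \ D1).card * alpha G D1)
                = (Y \ D1).card * alpha G D2 * alpha G D1 := by ring
              _ ≤ D2.card * alpha G (Y \ D1) * alpha G D1 := s1
              _ = D2.card * alpha G D1 * alpha G (Y \ D1) := by ring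
              _ ≤ D1.card * alpha G D2 * alpha G (Y \ D1) := s2
              _ = alpha G D2 * (D1.card * alpha G (Y \ D1)) := by ring
          exact Nat.le_of_mul_le_mul_left s3 hp2
        calc Y.card * alpha G D1 = (Y \ D1).card * alpha G D1 + D1.card * alpha G D1 := by
              rw [← hc]; ring
          _ ≤ D1.card * alpha G (Y \ D1) + D1.card * alpha G D1 := by omega
          _ = D1.card * (alpha G D1 + alpha G (Y \ D1)) := by ring
          _ ≤ D1.card * alpha G Y := Nat.mul_le_mul_left _ hadd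
    · rw [not_nonempty_iff_eq_empty, sdiff_eq_empty_iff_subset] at hY
      have hEq : D1 = Y := Subset.antisymm h1 hY
      refine ⟨D1, h1, ⟨d, h2⟩, h3, h4, ?_⟩
      rw [hEq]

theorem alpha_ge {G : SimpleGraph V} {W X : Finset V} {T : ℕ → ℕ} {b y : ℕ}
    (h : TMin G W T b) (hX : X ⊆ W) (hy1 : 1 ≤ y) (hyb : y ≤ b) (hc : T (y - 1) ≤ X.card) :
    y ≤ alpha G X := by
  by_contra hcon
  have := h.small (y - 1) (by omega) X hX ((alphaLe_alpha G X).mono (Subset.refl _) (by omega))
  omega

theorem bd_ball {G : SimpleGraph V} {W C D : Finset V} {u : V} {r : ℕ} (hu : u ∈ D)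
    (hcl : ∀ x ∈ D, ∀ y ∈ W \ C, G.Adj x y → y ∈ D)
    [DecidablePred (Att G (ball G D u r))] :
    (ball G D u r).card + (bd G W (ball G D u r)).card ≤
      (ball G D u (r + 1)).card + (C.filter (Att G (ball G D u r))).card := by
  have h1 : bd G W (ball G D u r) ⊆ (ball G D u (r + 1) \ ball G D u r) ∪
      C.filter (Att G (ball G D u r)) := by
    intro y hy
    rw [mem_bd] at hy
    obtain ⟨hyW, hyB, x, hx, hxy⟩ := hy
    rw [mem_union, mem_sdiff, mem_filter]
    by_cases hyC : y ∈ C
    · exact Or.inr ⟨hyC, x, hx, hxy.symm⟩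
    · left
      refine ⟨?_, hyB⟩
      rw [mem_ball_succ]
      have hxD := ball_sub hu r hx
      exact Or.inr ⟨hcl x hxD y (by rw [mem_sdiff]; exact ⟨hyW, hyC⟩) hxy, x, hx, hxy⟩
  have h2 := (card_le_card h1).trans (card_union_le _ _)
  have h3 : (ball G D u (r + 1) \ ball G D u r).card + (ball G D u r).card =
      (ball G D u (r + 1)).card := card_sdiff_add_card_eq_card (ball_mono (Nat.le_succ r))
  omega

theorem bd_comp {G : SimpleGraph V} {W C D : Finset V}
    (hcl : ∀ x ∈ D, ∀ y ∈ W \ C, G.Adj x y → y ∈ D) [DecidablePred (Att G D)] :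
    (bd G W D).card ≤ (C.filter (Att G D)).card := by
  apply card_le_card
  intro y hy
  rw [mem_bd] at hy
  obtain ⟨hyW, hyB, x, hx, hxy⟩ := hy
  rw [mem_filter]
  refine ⟨?_, x, hx, hxy.symm⟩
  by_contra hyC
  exact hyB (hcl x hx y (by rw [mem_sdiff]; exact ⟨hyW, hyC⟩) hxy)

theorem ball_step {G : SimpleGraph V} {W C D : Finset V} {T : ℕ → ℕ} {b x c r : ℕ} {u : V}
    (h : TMin G W T b) (hT : Monotone T) (hD : D ⊆ W \ C) (hu : u ∈ D)
    (hcl : ∀ x ∈ D, ∀ y ∈ W \ C, G.Adj x y → y ∈ D) [DecidablePred (Att G (ball G D u r))]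
    (hc : (C.filter (Att G (ball G D u r))).card ≤ c) (hx : x ≤ alpha G (ball G D u r)) :
    T b + 1 ≤ (ball G D u (r + 1)).card + c + T (b - x) := by
  have h1 := tmin_nbr h hT (((ball_sub hu r).trans hD).trans sdiff_subset) ⟨u, ball_self r⟩ hx
  have h2 := bd_ball (W := W) (C := C) (r := r) hu hcl
  omega

inductive ChainNum (b e : ℕ) : ℕ → ℕ → Prop
  | start : ChainNum b e 1 0
  | step {z v : ℕ} (k : ℕ) : ChainNum b e z v → k * b + z ≤ e → ChainNum b e (z + (k + 1)) (v + k)

theorem flex_num {G : SimpleGraph V} {W : Finset V} {b e : ℕ} {t : V} (hW : AlphaLe G W b)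
    (ht : t ∈ W) (hdeg : ∀ s ∈ W, e ≤ (bd G W {s}).card) {z v : ℕ} (h : ChainNum b e z v) :
    ∃ Z s, Z ⊆ W ∧ Flex G Z t s z v := by
  induction h with
  | start =>
    exact ⟨{t}, t, singleton_subset_iff.2 ht, flex_zero t⟩
  | @step z v k _ hk ih =>
    obtain ⟨Z, s, hZW, hF⟩ := ih
    have h1 : e ≤ (bd G W {s} \ Z).card + (Z.erase s).card := by
      refine (hdeg s (hZW hF.hs)).trans ?_
      have h2 : bd G W {s} ⊆ (bd G W {s} \ Z) ∪ Z.erase s := by
        intro y hy
        rw [mem_union, mem_sdiff, mem_erase]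
        by_cases hyZ : y ∈ Z
        · right
          rw [mem_bd, mem_singleton] at hy
          exact ⟨hy.2.1, hyZ⟩
        · exact Or.inl ⟨hy, hyZ⟩
      exact (card_le_card h2).trans (card_union_le _ _)
    rw [card_erase_of_mem hF.hs, hF.card] at h1
    have hz1 : 1 ≤ z := by
      rw [← hF.card]; exact card_pos.2 ⟨s, hF.hs⟩
    have hXW : bd G W {s} \ Z ⊆ W := by
      intro y hy
      rw [mem_sdiff, mem_bd] at hy
      exact hy.1.1
    obtain ⟨p, hp1, hp2, hp3⟩ := path_of_alpha k (bd G W {s} \ Z) (hW.mono hXW le_rfl) (by omega)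
    have hpne : p ≠ [] := by
      rintro rfl
      simp at hp1
    have he : p.getLast? = some (p.getLast hpne) := List.getLast?_eq_some_getLast hpne
    refine ⟨Z ∪ p.toFinset, p.getLast hpne, ?_, ?_⟩
    · apply union_subset hZW
      intro x hx
      exact hXW (hp3 x (List.mem_toFinset.1 hx))
    · exact flex_extend hF hp2 hp1 he (fun x hx => (mem_sdiff.1 (hp3 x hx)).2) (by
        intro x hx
        have := (mem_sdiff.1 (hp3 x hx)).1
        rw [mem_bd] at this
        obtain ⟨_, _, y, hy, hyx⟩ := this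
        rw [mem_singleton] at hy
        rw [← hy]; exact hyx)

omit [DecidableEq V] in
theorem flex_ne {G : SimpleGraph V} {Z : Finset V} {t s : V} {z v : ℕ} (h : Flex G Z t s z v)
    (hz : 2 ≤ z) : s ≠ t := by
  rintro rfl
  obtain ⟨l, h1, h2, h3, h4, h5⟩ := h.path 0 (Nat.zero_le _)
  rcases l with _ | ⟨x, _ | ⟨y, l⟩⟩
  · simp at h2
  · simp at h5; omega
  · simp only [List.head?_cons, Option.some.injEq] at h2
    subst h2
    rw [List.getLast?_cons_cons] at h3
    have := List.mem_of_getLast? h3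
    exact (List.nodup_cons.1 h1.1).1 this

end Vale.Agent.P048
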