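import Vale.Agent.P048.StageB
import Vale.Agent.P048.BigClique

namespace Vale.Agent.P048

open Finset

variable {V : Type*} [DecidableEq V]

theorem upper_of_clique {G : SimpleGraph V} {m A : ℕ} (hm : 3 ≤ m) (hA : A + 1 ≤ m)
    (hcl : ∀ a, 1 ≤ a → a ≤ A → ∀ W : Finset V, AlphaLe G W a → (m - 1) * a + 1 ≤ W.card →
      ¬ HasCyc G W m → ∃ K, K ⊆ W ∧ (∀ x ∈ K, ∀ y ∈ K, x ≠ y → G.Adj x y) ∧
        4 * (m - K.card) ≤ m ∧ 3 * (m - K.card) + 5 ≤ m) :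
    ∀ a, a ≤ A → ∀ W : Finset V, AlphaLe G W a → (m - 1) * a + 1 ≤ W.card → HasCyc G W m := by
  intro a
  induction a using Nat.strong_induction_on with
  | _ a ih =>
    intro haA W hW hc
    by_contra hno
    rcases Nat.eq_zero_or_pos a with rfl | ha
    · have := card_zero_of_alphaLe hW
      omega
    · obtain ⟨K, hK1, hK2, hK3, hK4⟩ := hcl a ha haA W hW hc hno
      apply hno
      refine big_clique_strong (g := m - K.card) ha (by omega) hW hc ?_ hK1 hK2 hm (by omega)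
        hK3 hK4
      intro c hca W' hW' hWc
      by_contra hcon
      exact hno ((ih c hca (by omega) W' hWc (by omega)).mono hW')

theorem two_stage {G : SimpleGraph V} {W : Finset V}
    {N0 H0 nb0 N1 H1 nb1 A w t mlo mhi m a : ℕ}
    (hc0 : chkSB N0 H0 nb0 A w w mlo mhi 0 0 0 = true)
    (hc1 : chkSB N1 H1 nb1 A t t mlo mhi w w N0 = true) (hw : 1 ≤ w) (ht : 1 ≤ t) (hA : 2 ≤ A)
    (hm0 : 1 ≤ m) (hm1 : mlo ≤ m) (hm2 : m ≤ mhi) (hmw : mhi ≤ w * 2 + dg N0 20 2)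
    (hmt : mhi ≤ t * 2 + dg N1 20 2) (htm : t < m) (hmA : m ≤ A + 1) (hm3 : 2 ≤ m)
    (hEA : dg N1 20 (m - 1) ≤ (m - 1 - t) * (m - 1) + 1) (ha : 1 ≤ a) (ham : a + 1 ≤ m)
    (hW : AlphaLe G W a) (hc : (m - 1) * a + 1 ≤ W.card) (hno : ¬ HasCyc G W m) :
    ∃ K, K ⊆ W ∧ (∀ x ∈ K, ∀ y ∈ K, x ≠ y → G.Adj x y) ∧ K.card = t := by
  have s0 := stageB (W := W) (t := w) (m := m) (T0 := fun b => 0 * b + dg 0 20 b) hc0 le_rfl
    le_rfl hw hA hm0 hm1 hm2 (by omega) (fun _ _ _ => rfl) hno cliqueOK_zero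
  have s1 := stageB (W := W) (t := t) (m := m) hc1 le_rfl le_rfl ht hA hm0 hm1 hm2 (by omega)
    (fun b hb1 hb2 => Tf_val (by omega) hb2) hno s0
  exact top_clique (tab_of_chkSB hc1) (Or.inr trivial) htm ha (m - 1) (by omega) (by omega) hEA
    s1 hW hc

theorem upper_two {G : SimpleGraph V} {N0 H0 nb0 N1 H1 nb1 A w t mlo mhi s : ℕ}
    (hc0 : chkSB N0 H0 nb0 A w w mlo mhi 0 0 0 = true)
    (hc1 : chkSB N1 H1 nb1 A t t mlo mhi w w N0 = true)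
    (hE : allb (fun i => Nat.ble (dg N1 20 (i + s)) ((i + s - t) * (i + s) + 1))
      (mhi - mlo + 1) = true) (h2 : mhi ≤ w * 2 + dg N0 20 2 ∧ mhi ≤ t * 2 + dg N1 20 2)
    (hs : s + 1 = mlo ∧ A + 1 = mhi ∧ 1 ≤ w ∧ 1 ≤ t ∧ t < mlo ∧ 5 ≤ mlo ∧
      4 * (mhi - t) ≤ mhi ∧ 3 * (mhi - t) + 5 ≤ mhi)
    {m : ℕ} (hm1 : mlo ≤ m) (hm2 : m ≤ mhi) :
    ∀ a, a + 1 ≤ m → ∀ W : Finset V, AlphaLe G W a → (m - 1) * a + 1 ≤ W.card →
      HasCyc G W m := by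
  intro a ha
  refine upper_of_clique (A := m - 1) (by omega) (by omega) ?_ a (by omega)
  intro a ha1 haA W hW hc hno
  have h5 := allb_spec hE (m - mlo) (by omega)
  rw [Nat.ble_eq] at h5
  have e1 : m - mlo + s = m - 1 := by omega
  rw [e1] at h5
  obtain ⟨K, hK1, hK2, hK3⟩ := two_stage hc0 hc1 (by omega) (by omega) (by omega) (by omega) hm1
    hm2 h2.1 h2.2 (by omega) (by omega) (by omega) h5 ha1 (by omega) hW hc hno
  exact ⟨K, hK1, hK2, by omega, by omega⟩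

end Vale.Agent.P048
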