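import Vale.Agent.P048.Ender
import Vale.Agent.P048.Big2

namespace Vale.Agent.P048

open Finset

variable {V : Type*} [DecidableEq V]

/-- numeric condition under which a maximum clique of size `k` is impossible -/
def BigNum (T : ℕ → ℕ) (m k A B ρ : ℕ) : Prop :=
  ∀ f : ℕ → ℕ, 1 ≤ f 0 → 2 ≤ f 2 → (∀ r, f r ≤ f (r + 1)) →
    (∀ r, r < ρ → f (r + 1) ≤ B → (m - 1) * f r + 1 ≤ (m - k - 1) + T (f (r + 1))) →
    A < (2 * k + 1 - m) * f ρ

theorem big_table {G : SimpleGraph V} {W K : Finset V} {T : ℕ → ℕ} {a m A B ρ : ℕ}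
    (ha : 1 ≤ a) (haA : a ≤ A) (hW : AlphaLe G W a) (hcard : (m - 1) * a + 1 ≤ W.card)
    (hmin : ∀ c, c < a → ∀ W', W' ⊆ W → AlphaLe G W' c → W'.card ≤ (m - 1) * c)
    (hno : ¬ HasCyc G W m) (hK : L.IsClq G K) (hKW : K ⊆ W) (hkm : K.card < m)
    (hk2 : m + 2 ≤ 2 * K.card) (hρ : 2 * ρ + 3 ≤ K.card)
    (hT : ∀ c, 1 ≤ c → c ≤ a → c ≤ B → ∀ Y, Y ⊆ W → AlphaLe G Y c → Y.card < T c)
    (hnum : BigNum T m K.card A B ρ) : False := by
  refine L.big_clique' (g := m - K.card) (T := fun c => if c ≤ B then T c else W.card + 1)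
    ⟨hW, hcard, hmin, hno⟩ ha hK hKW (by omega) (by omega) (by omega) (ρ := ρ) ?_ hρ ?_
  · intro c hc1 hca Y hY hYc
    rcases Nat.lt_or_ge B c with h | h
    · rw [if_neg (by omega)]
      have := card_le_card hY
      omega
    · rw [if_pos h]
      exact hT c hc1 hca h Y hY hYc
  · intro σ hσ f hf0 hf2 hfm hfg
    have h1 := hnum f hf0 hf2 hfm (by
      intro r hr hB
      have := hfg r hr
      rw [if_pos hB] at this
      omega)
    have h2 : (2 * K.card + 1 - m) * f ρ ≤ (K.card - σ) * f ρ :=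
      Nat.mul_le_mul_right _ (by omega)
    omega

theorem exists_max_clq (G : SimpleGraph V) (W : Finset V) :
    ∃ K, K ⊆ W ∧ L.IsClq G K ∧ ∀ K', K' ⊆ W → L.IsClq G K' → K'.card ≤ K.card := by
  classical
  obtain ⟨K, hK, hmax⟩ := exists_max_image (W.powerset.filter (fun s => L.IsClq G s)) card
    ⟨∅, by
      rw [mem_filter, mem_powerset]
      exact ⟨empty_subset _, fun x hx => absurd hx (notMem_empty x)⟩⟩
  rw [mem_filter, mem_powerset] at hK
  refine ⟨K, hK.1, hK.2, ?_⟩
  intro s hs hi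
  exact hmax s (by rw [mem_filter, mem_powerset]; exact ⟨hs, hi⟩)

/-- every clique number `k` with `klo ≤ k < m` is excluded, either because `k` is large or by a
table. -/
theorem upper_of_clique2 {G : SimpleGraph V} {m A klo : ℕ} (hm : 3 ≤ m) (h7 : 7 ≤ klo)
    (hklo : m + 2 ≤ 2 * klo)
    (hcl : ∀ a, 1 ≤ a → a ≤ A → ∀ W : Finset V, AlphaLe G W a → (m - 1) * a + 1 ≤ W.card →
      ¬ HasCyc G W m → ∃ K, K ⊆ W ∧ (∀ x ∈ K, ∀ y ∈ K, x ≠ y → G.Adj x y) ∧ klo ≤ K.card)
    (htab : ∀ k, klo ≤ k → k < m → A < (2 * k + 1 - m) * 2 ∨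
      ∃ (T : ℕ → ℕ) (t B : ℕ), k + 1 ≤ t ∧
      (∀ W : Finset V, ¬ HasCyc G W m → CliqueOK G W B T t) ∧ BigNum T m k A B ((k - 3) / 2)) :
    ∀ a, a ≤ A → ∀ W : Finset V, AlphaLe G W a → (m - 1) * a + 1 ≤ W.card → HasCyc G W m := by
  intro a
  induction a using Nat.strong_induction_on with
  | _ a ih =>
    intro haA W hW hc
    by_contra hno
    rcases Nat.eq_zero_or_pos a with rfl | ha
    · have := card_zero_of_alphaLe hW
      omega
    · obtain ⟨K, hK1, hK2, hK3⟩ := exists_max_clq G W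
      obtain ⟨K0, h01, h02, h03⟩ := hcl a ha haA W hW hc hno
      have hk := hK3 K0 h01 h02
      have hkm : K.card < m := by
        by_contra hcon
        push Not at hcon
        obtain ⟨K1, h11, h12⟩ := exists_subset_card_eq hcon
        apply hno
        exact ⟨K1.toList, by rw [length_toList, h12],
          clique_cyc (fun x hx y hy => hK2 x (h11 hx) y (h11 hy)) (by omega),
          fun x hx => hK1 (h11 (mem_toList.1 hx))⟩
      have hmin : ∀ c, c < a → ∀ W', W' ⊆ W → AlphaLe G W' c → W'.card ≤ (m - 1) * c := by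
        intro c hca W' hW' hWc
        by_contra hcon
        exact hno ((ih c hca (by omega) W' hWc (by omega)).mono hW')
      rcases htab K.card (by omega) hkm with h | ⟨T, t, B, ht, hP, hnum⟩
      · refine big_table (T := fun _ => 0) (B := 0) (ρ := (K.card - 3) / 2) ha haA hW hc hmin hno hK2 hK1 hkm (by omega)
          (by omega) (by
            intro c h1 _ h2
            omega) ?_
        intro f _ hf2 hfm _
        have hρ : 2 ≤ (K.card - 3) / 2 := by omega
        have hmono := monotone_nat_of_le_succ hfm hρ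
        have : (2 * K.card + 1 - m) * 2 ≤ (2 * K.card + 1 - m) * f ((K.card - 3) / 2) :=
          Nat.mul_le_mul_left _ (hf2.trans hmono)
        omega
      · refine big_table (T := T) (B := B) (ρ := (K.card - 3) / 2) ha haA hW hc hmin hno hK2 hK1 hkm (by omega)
          (by omega) ?_ hnum
        intro c hc1 _ hcB Y hY hYc
        by_contra hcon
        obtain ⟨K', h1, h2, h3⟩ := hP W hno Y hY c hc1 hcB hYc (by omega)
        have := hK3 K' (h1.trans hY) h2
        omega

/-- least `c ≥ c0` (with at most `n` steps) such that `lim ≤ t c + E c` -/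
noncomputable def lcR (N t lim : ℕ) (n : ℕ) : ℕ → ℕ :=
  Nat.rec (fun c => c) (fun _ ih c => cond (Nat.ble lim
    (Nat.add (Nat.mul t c) (Nat.mod (Nat.shiftRight N (Nat.mul 20 c)) 1048576))) c
    (ih (Nat.succ c))) n

theorem lcR_zero (N t lim c : ℕ) : lcR N t lim 0 c = c := rfl

theorem lcR_succ (N t lim n c : ℕ) : lcR N t lim (n + 1) c =
    cond (Nat.ble lim (t * c + dg N 20 c)) c (lcR N t lim n (c + 1)) := rfl

theorem lcR_le {N t lim : ℕ} : ∀ (n c x : ℕ), c ≤ x → (c + n ≤ x ∨ lim ≤ t * x + dg N 20 x) →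
    lcR N t lim n c ≤ x
  | 0, c, x, h, _ => h
  | n + 1, c, x, h, h2 => by
    rw [lcR_succ]
    rcases hb : Nat.ble lim (t * c + dg N 20 c) with _ | _
    · rw [cond_false]
      rcases Nat.lt_or_ge c x with h3 | h3
      · apply lcR_le n (c + 1) x h3
        rcases h2 with h2 | h2
        · left; omega
        · exact Or.inr h2
      · have hcx : c = x := by omega
        subst hcx
        rcases h2 with h2 | h2
        · omega
        · rw [← Nat.ble_eq] at h2
          rw [h2] at hb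
          exact absurd hb (by simp)
    · rw [cond_true]; exact h

noncomputable def stepR (N t B m1 s : ℕ) (x : ℕ) : ℕ :=
  lcR N t (Nat.sub (Nat.succ (Nat.mul m1 x)) s) (Nat.sub (Nat.succ B) x) x

theorem stepR_le {N t B m1 s x y : ℕ} (hxy : x ≤ y)
    (h : y ≤ B → m1 * x + 1 ≤ s + (t * y + dg N 20 y)) : stepR N t B m1 s x ≤ y := by
  apply lcR_le _ _ _ hxy
  rcases Nat.lt_or_ge B y with h2 | h2
  · left
    show x + (B + 1 - x) ≤ y
    omega
  · right
    have := h h2
    show m1 * x + 1 - s ≤ _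
    omega

noncomputable def itR (N t B m1 s : ℕ) (n : ℕ) : ℕ → ℕ :=
  Nat.rec (fun x => x) (fun _ ih x => ih (stepR N t B m1 s x)) n

theorem itR_zero (N t B m1 s x : ℕ) : itR N t B m1 s 0 x = x := rfl

theorem itR_succ (N t B m1 s n x : ℕ) : itR N t B m1 s (n + 1) x =
    itR N t B m1 s n (stepR N t B m1 s x) := rfl

/-- kernel check of `BigNum` -/
noncomputable def chkBig (N t B m k A : ℕ) : Bool :=
  Nat.ble (Nat.succ A) (Nat.mul (Nat.sub (Nat.succ (Nat.mul 2 k)) m)
    (itR N t B (Nat.sub m 1) (Nat.sub (Nat.sub m k) 1) (Nat.sub (Nat.div (Nat.sub k 3) 2) 2)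
      (Nat.max 2 (stepR N t B (Nat.sub m 1) (Nat.sub (Nat.sub m k) 1)
        (stepR N t B (Nat.sub m 1) (Nat.sub (Nat.sub m k) 1) 1)))))

theorem itR_le {N t B m1 s : ℕ} {f : ℕ → ℕ} (hf : ∀ r, f r ≤ f (r + 1)) (hf1 : 1 ≤ f 0) :
    ∀ (n r x : ℕ), x ≤ f r → (∀ i, r ≤ i → i < r + n → f (i + 1) ≤ B →
      m1 * f i + 1 ≤ s + Tf t B (dg N 20) (f (i + 1))) → itR N t B m1 s n x ≤ f (r + n)
  | 0, r, x, h, _ => h
  | n + 1, r, x, h, h2 => by
    rw [itR_succ]
    have h3 := itR_le hf hf1 n (r + 1) (stepR N t B m1 s x) (by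
      apply stepR_le (h.trans (hf r))
      intro hB
      have h4 := h2 r le_rfl (by omega) hB
      have h5 : 1 ≤ f (r + 1) := hf1.trans (monotone_nat_of_le_succ hf (Nat.zero_le _))
      rw [Tf_val h5 hB] at h4
      have h6 : m1 * x ≤ m1 * f r := Nat.mul_le_mul_left _ h
      omega) (by
      intro i hi1 hi2 hB
      exact h2 i (by omega) (by omega) hB)
    have e : r + 1 + n = r + (n + 1) := by omega
    rwa [e] at h3

theorem bigNum_of_chk {N t B m k A : ℕ} (hk : 7 ≤ k) (h : chkBig N t B m k A = true) :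
    BigNum (Tf t B (dg N 20)) m k A B ((k - 3) / 2) := by
  intro f hf0 hf2 hfm hfg
  unfold chkBig at h
  rw [Nat.ble_eq] at h
  have hfm' : ∀ i j, i ≤ j → f i ≤ f j := fun i j hij => monotone_nat_of_le_succ hfm hij
  have e2 : (k - 3) / 2 = 2 + ((k - 3) / 2 - 2) := by omega
  have h1 : itR N t B (m - 1) (m - k - 1) ((k - 3) / 2 - 2)
      (max 2 (stepR N t B (m - 1) (m - k - 1) (stepR N t B (m - 1) (m - k - 1) 1))) ≤
      f (2 + ((k - 3) / 2 - 2)) := by
    apply itR_le hfm hf0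
    · rw [max_le_iff]
      refine ⟨hf2, ?_⟩
      have h3 := itR_le (N := N) (t := t) (B := B) (m1 := m - 1) (s := m - k - 1) hfm hf0 2 0 1 hf0
        (by
          intro i _ hi hB
          have := hfg i (by omega) hB
          omega)
      rw [itR_succ, itR_succ, itR_zero] at h3
      exact h3
    · intro i _ hi hB
      have := hfg i (by omega) hB
      omega
  rw [← e2] at h1
  have h2 : (2 * k + 1 - m) * _ ≤ (2 * k + 1 - m) * f ((k - 3) / 2) := Nat.mul_le_mul_left _ h1
  exact lt_of_lt_of_le (Nat.lt_of_succ_le h) h2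

/-- one table serves all `k` in `[k1, k2]` (for one `m`) -/
theorem bigNum_range {N t B m A k1 k2 : ℕ} (hk : 7 ≤ k1)
    (h : allb (fun i => chkBig N t B m (k1 + i) A) (k2 + 1 - k1) = true) :
    ∀ k, k1 ≤ k → k ≤ k2 → BigNum (Tf t B (dg N 20)) m k A B ((k - 3) / 2) := by
  intro k h1 h2
  apply bigNum_of_chk (by omega)
  have := allb_spec h (k - k1) (by omega)
  have e : k1 + (k - k1) = k := by omega
  rwa [e] at this

end Vale.Agent.P048
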