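import Vale.Agent.P048.Chk3
import Vale.Agent.P048.Ender2

namespace Vale.Agent.P048

open Finset

variable {V : Type*} [DecidableEq V]

def OkN (G : SimpleGraph V) (m A N t : ℕ) : Prop :=
  ∀ W : Finset V, ¬ HasCyc G W m → CliqueOK G W A (Tt N A) t

omit [DecidableEq V] in
theorem cw_add {G : SimpleGraph V} {W : Finset V} {A A0 N N0 t0 : ℕ} {wf : ℕ → ℕ}
    (h : CliqueW G W A (Tt N A) wf) (h0 : CliqueOK G W A0 (Tt N0 A0) t0) (hA : A ≤ A0) :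
    CliqueW G W A (Tt N A) (fun b => cond (Nat.ble (d16 N0 b) (d16 N b)) t0 (wf b)) := by
  intro X hX b hb1 hb2 ha hc
  rcases hd : Nat.ble (d16 N0 b) (d16 N b) with _ | _
  · obtain ⟨K, h1, h2, h3⟩ := h X hX b hb1 hb2 ha hc
    refine ⟨K, h1, h2, ?_⟩
    simp only [hd, cond_false]
    exact h3
  · have hd' := hd
    rw [Nat.ble_eq] at hd
    rw [Tt_val hb2] at hc
    obtain ⟨K, h1, h2, h3⟩ := h0 X hX b hb1 (hb2.trans hA) ha (by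
      rw [Tt_val (hb2.trans hA)]
      exact hd.trans hc)
    refine ⟨K, h1, h2, ?_⟩
    simp only [hd', cond_true]
    exact h3

theorem ok1 {G : SimpleGraph V} {N Gc H BW A m t : ℕ} (hA : 1 ≤ A ∧ 1 ≤ m)
    (h : chkS3 N Gc H BW A m t (fun _ => 0) = true) : OkN G m A N t := by
  intro W hno
  exact stage3 h hA.1 hA.2 hno (fun _ _ _ => rfl) cliqueW_zero

theorem ok2 {G : SimpleGraph V} {N Gc H BW A m t A1 N1 t1 : ℕ} (hA : 1 ≤ A ∧ 1 ≤ m ∧ A ≤ A1)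
    (h1 : OkN G m A1 N1 t1)
    (h : chkS3 N Gc H BW A m t (fun b => cond (Nat.ble (d16 N1 b) (d16 N b)) t1 0) = true) :
    OkN G m A N t := by
  intro W hno
  exact stage3 h hA.1 hA.2.1 hno (fun _ _ _ => rfl) (cw_add cliqueW_zero (h1 W hno) hA.2.2)

theorem ok3 {G : SimpleGraph V} {N Gc H BW A m t A1 N1 t1 A2 N2 t2 : ℕ}
    (hA : 1 ≤ A ∧ 1 ≤ m ∧ A ≤ A1 ∧ A ≤ A2)
    (h1 : OkN G m A1 N1 t1) (h2 : OkN G m A2 N2 t2)
    (h : chkS3 N Gc H BW A m t (fun b => cond (Nat.ble (d16 N2 b) (d16 N b)) t2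
      (cond (Nat.ble (d16 N1 b) (d16 N b)) t1 0)) = true) :
    OkN G m A N t := by
  intro W hno
  exact stage3 h hA.1 hA.2.1 hno (fun _ _ _ => rfl)
    (cw_add (cw_add cliqueW_zero (h1 W hno) hA.2.2.1) (h2 W hno) hA.2.2.2)

theorem ok4 {G : SimpleGraph V} {N Gc H BW A m t A1 N1 t1 A2 N2 t2 A3 N3 t3 : ℕ}
    (hA : 1 ≤ A ∧ 1 ≤ m ∧ A ≤ A1 ∧ A ≤ A2 ∧ A ≤ A3)
    (h1 : OkN G m A1 N1 t1) (h2 : OkN G m A2 N2 t2) (h3 : OkN G m A3 N3 t3)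
    (h : chkS3 N Gc H BW A m t (fun b => cond (Nat.ble (d16 N3 b) (d16 N b)) t3
      (cond (Nat.ble (d16 N2 b) (d16 N b)) t2 (cond (Nat.ble (d16 N1 b) (d16 N b)) t1 0))) = true) :
    OkN G m A N t := by
  intro W hno
  exact stage3 h hA.1 hA.2.1 hno (fun _ _ _ => rfl)
    (cw_add (cw_add (cw_add cliqueW_zero (h1 W hno) hA.2.2.1) (h2 W hno) hA.2.2.2.1)
      (h3 W hno) hA.2.2.2.2)

theorem ok5 {G : SimpleGraph V} {N Gc H BW A m t A1 N1 t1 A2 N2 t2 A3 N3 t3 A4 N4 t4 : ℕ}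
    (hA : 1 ≤ A ∧ 1 ≤ m ∧ A ≤ A1 ∧ A ≤ A2 ∧ A ≤ A3 ∧ A ≤ A4)
    (h1 : OkN G m A1 N1 t1) (h2 : OkN G m A2 N2 t2) (h3 : OkN G m A3 N3 t3)
    (h4 : OkN G m A4 N4 t4)
    (h : chkS3 N Gc H BW A m t (fun b => cond (Nat.ble (d16 N4 b) (d16 N b)) t4
      (cond (Nat.ble (d16 N3 b) (d16 N b)) t3
      (cond (Nat.ble (d16 N2 b) (d16 N b)) t2 (cond (Nat.ble (d16 N1 b) (d16 N b)) t1 0)))) =
        true) :
    OkN G m A N t := by
  intro W hno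
  exact stage3 h hA.1 hA.2.1 hno (fun _ _ _ => rfl)
    (cw_add (cw_add (cw_add (cw_add cliqueW_zero (h1 W hno) hA.2.2.1) (h2 W hno) hA.2.2.2.1)
      (h3 W hno) hA.2.2.2.2.1) (h4 W hno) hA.2.2.2.2.2)

theorem bigNum_anti {T T' : ℕ → ℕ} {m k A B ρ : ℕ} (h : BigNum T' m k A B ρ)
    (hT : ∀ c, 1 ≤ c → c ≤ B → T c ≤ T' c) : BigNum T m k A B ρ := by
  intro f h0 h2 hm hf
  apply h f h0 h2 hm
  intro r hr hB
  have h3 := hf r hr hB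
  have h4 : 1 ≤ f (r + 1) := h0.trans (monotone_nat_of_le_succ hm (Nat.zero_le _))
  have h5 := hT _ h4 hB
  omega

omit [DecidableEq V] in
theorem tab_ok {G : SimpleGraph V} {N NE t B m A k1 k2 : ℕ} (h1 : OkN G m B N t)
    (h2 : 7 ≤ k1 ∧ k2 + 1 ≤ t)
    (h3 : allb (fun c => or (Nat.ble c 0) (Nat.ble (d16 N c) (t * c + dg NE 20 c))) (B + 1) = true)
    (h4 : allb (fun i => chkBig NE t B m (k1 + i) A) (k2 + 1 - k1) = true) {k : ℕ}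
    (hk1 : k1 ≤ k) (hk2 : k ≤ k2) : ∃ (T : ℕ → ℕ) (t B : ℕ), k + 1 ≤ t ∧
      (∀ W : Finset V, ¬ HasCyc G W m → CliqueOK G W B T t) ∧ BigNum T m k A B ((k - 3) / 2) := by
  refine ⟨Tt N B, t, B, by omega, h1, bigNum_anti (bigNum_range h2.1 h4 k hk1 hk2) ?_⟩
  intro c hc1 hc2
  have h5 := allb_spec h3 c (by omega)
  rw [Bool.or_eq_true, Nat.ble_eq, Nat.ble_eq] at h5
  rw [Tt_val hc2, Tf_val hc1 hc2]
  exact h5.resolve_left (by omega)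

theorem upper_ok {G : SimpleGraph V} {m A klo N : ℕ} (hm : 3 ≤ m ∧ 7 ≤ klo ∧ m + 2 ≤ 2 * klo)
    (hOk : OkN G m A N klo)
    (htop : allb (fun b => or (Nat.ble b 0) (Nat.ble (d16 N b) ((m - 1) * b + 1))) (A + 1) = true)
    (htab : ∀ k, klo ≤ k → k < m → A < (2 * k + 1 - m) * 2 ∨
      ∃ (T : ℕ → ℕ) (t B : ℕ), k + 1 ≤ t ∧
      (∀ W : Finset V, ¬ HasCyc G W m → CliqueOK G W B T t) ∧ BigNum T m k A B ((k - 3) / 2)) :
    ∀ a, a ≤ A → ∀ W : Finset V, AlphaLe G W a → (m - 1) * a + 1 ≤ W.card → HasCyc G W m := by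
  refine upper_of_clique2 hm.1 hm.2.1 hm.2.2 ?_ htab
  intro a ha1 haA W hW hc hno
  have h5 := allb_spec htop a (by omega)
  rw [Bool.or_eq_true, Nat.ble_eq, Nat.ble_eq] at h5
  obtain ⟨K, hK1, hK2, hK3⟩ := hOk W hno W (Subset.refl _) a ha1 haA hW (by
    rw [Tt_val haA]
    exact (h5.resolve_left (by omega)).trans hc)
  exact ⟨K, hK1, hK2, hK3.ge⟩

end Vale.Agent.P048
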