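import Vale.Agent.P048.UpperT

namespace Vale.Agent.P048

open Finset

variable {V : Type*} [DecidableEq V]

theorem engine2 {G : SimpleGraph V} {W : Finset V} {T : ℕ → ℕ} {m b z v x0 : ℕ}
    {g h : ℕ → ℕ} (hm : m ≤ T b) (hT : Monotone T) (H : TMin G W T b)
    (N : NumOK T m b z v x0 g h) (hz2 : 2 ≤ z)
    (hfl : ∃ Z s t, Z ⊆ W ∧ Flex G Z t s z v) :
    ∃ c, Cyc G c ∧ c.length = m ∧ ∀ x ∈ c, x ∈ W := by
  have hv := N.hv
  have hzm := N.hzm
  obtain ⟨Z, s, t, hZW, hF⟩ := hfl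
  have hst := flex_ne hF hz2
  obtain ⟨l0, hl0, hl0'⟩ := init_path hT H N hZW hF hst
  obtain ⟨l, hl, h1, h2⟩ := gap_of' (L := m + 2 - z) (v := v) ⟨l0, hl0, by omega⟩
    (fun l hl h1 h2 => stuck_false hm hT H N hZW hF hst hl (by omega) h2)
  obtain ⟨p, hp1, hp2, hp3, hp4, hp5⟩ := hF.path (l.length - (m + 2 - z)) (by omega)
  obtain ⟨c, hc1, hc2, hc3⟩ := cyc_of_two hZW hst hl hp1 hp2 hp3 hp4
  exact ⟨c, hc1, by omega, hc3⟩

theorem flex_chainNum {G : SimpleGraph V} {W : Finset V} {T : ℕ → ℕ} {b z v : ℕ}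
    (hT : Monotone T) (H : TMin G W T b) (hWne : W.Nonempty)
    (hch : ChainNum b (T b - T (b - 1)) z v) : ∃ Z s t, Z ⊆ W ∧ Flex G Z t s z v := by
  obtain ⟨t, ht⟩ := hWne
  have hdeg : ∀ s ∈ W, T b - T (b - 1) ≤ (bd G W {s}).card := by
    intro s hs
    have h1 := alpha_pos (G := G) (X := {s}) ⟨s, mem_singleton_self s⟩
    have h2 := tmin_nbr H hT (singleton_subset_iff.2 hs) ⟨s, mem_singleton_self s⟩ h1
    rw [card_singleton] at h2
    omega
  obtain ⟨Z, s, hZW, hF⟩ := flex_num H.al ht hdeg hch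
  exact ⟨Z, s, t, hZW, hF⟩

theorem clique_path {G : SimpleGraph V} {Z : Finset V}
    (hcl : ∀ x ∈ Z, ∀ y ∈ Z, x ≠ y → G.Adj x y) {s t : V} (hs : s ∈ Z) (ht : t ∈ Z)
    (hst : s ≠ t) {j : ℕ} (hj : j + 2 ≤ Z.card) :
    ∃ l, Pth G l ∧ l.head? = some t ∧ l.getLast? = some s ∧ (∀ x ∈ l, x ∈ Z) ∧
      l.length + j = Z.card := by
  have hc : ((Z.erase t).erase s).card + 2 = Z.card := by
    rw [card_erase_of_mem (mem_erase.2 ⟨hst, hs⟩), card_erase_of_mem ht]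
    omega
  obtain ⟨M, hM1, hM2⟩ := exists_subset_card_eq
    (show Z.card - 2 - j ≤ ((Z.erase t).erase s).card by omega)
  have hMs : s ∉ M := fun h => (mem_erase.1 (hM1 h)).1 rfl
  have hMt : t ∉ M := fun h => (mem_erase.1 (mem_erase.1 (hM1 h)).2).1 rfl
  have hMZ : ∀ x ∈ M, x ∈ Z := fun x hx => (mem_erase.1 (mem_erase.1 (hM1 hx)).2).2
  have hnd : (t :: (M.toList ++ [s])).Nodup := by
    rw [List.nodup_cons, List.nodup_append]
    refine ⟨?_, M.nodup_toList, by simp, ?_⟩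
    · intro h
      rw [List.mem_append, mem_toList, List.mem_singleton] at h
      rcases h with h | h
      · exact hMt h
      · exact hst h.symm
    · intro a ha b hb hab
      rw [List.mem_singleton] at hb
      rw [mem_toList] at ha
      subst hb
      subst hab
      exact hMs ha
  have hall : ∀ x ∈ (t :: (M.toList ++ [s])), x ∈ Z := by
    intro x hx
    rw [List.mem_cons, List.mem_append, mem_toList, List.mem_singleton] at hx
    rcases hx with rfl | hx | rfl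
    · exact ht
    · exact hMZ x hx
    · exact hs
  refine ⟨t :: (M.toList ++ [s]), ⟨hnd, ?_⟩, rfl, ?_, hall, ?_⟩
  · apply List.Pairwise.isChain
    have h1 : (t :: (M.toList ++ [s])).Pairwise (· ≠ ·) := hnd
    apply h1.imp_of_mem
    intro a b ha hb hab
    exact hcl a (hall a ha) b (hall b hb) hab
  · rw [← List.cons_append, List.getLast?_append]
    rfl
  · rw [List.length_cons, List.length_append, length_toList, hM2, List.length_singleton]
    omega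

theorem flex_clique {G : SimpleGraph V} {K : Finset V}
    (hcl : ∀ x ∈ K, ∀ y ∈ K, x ≠ y → G.Adj x y) {v : ℕ} (hK : v + 2 ≤ K.card) :
    ∃ Z s t, Z ⊆ K ∧ Flex G Z t s (v + 2) v := by
  obtain ⟨Z, hZK, hZc⟩ := exists_subset_card_eq hK
  obtain ⟨s, hs, t, ht, hst⟩ := one_lt_card.1 (show 1 < Z.card by omega)
  refine ⟨Z, s, t, hZK, hZc, ht, hs, ?_⟩
  intro j hj
  obtain ⟨l, h1, h2, h3, h4, h5⟩ := clique_path (fun x hx y hy => hcl x (hZK hx) y (hZK hy))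
    hs ht hst (j := j) (by omega)
  exact ⟨l, h1, h2, h3, h4, by omega⟩

def CliqueOK (G : SimpleGraph V) (W : Finset V) (A : ℕ) (T : ℕ → ℕ) (w : ℕ) : Prop :=
  ∀ X, X ⊆ W → ∀ b, 1 ≤ b → b ≤ A → AlphaLe G X b → T b ≤ X.card →
    ∃ K, K ⊆ X ∧ (∀ x ∈ K, ∀ y ∈ K, x ≠ y → G.Adj x y) ∧ K.card = w

def Lev2 (T : ℕ → ℕ) (m b w : ℕ) : Prop :=
  ∃ (z v x0 : ℕ) (g h : ℕ → ℕ), NumOK T m b z v x0 g h ∧ m ≤ T b ∧ 2 ≤ z ∧
    (ChainNum b (T b - T (b - 1)) z v ∨ (z = v + 2 ∧ z ≤ w))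

theorem clique_step {G : SimpleGraph V} {W : Finset V} {T T0 : ℕ → ℕ} {A m w t : ℕ}
    (hm : 1 ≤ m) (hno : ¬ HasCyc G W m) (hT : Monotone T) (hT0 : T 0 = 1) (hT1 : T 1 = t)
    (hP : CliqueOK G W A T0 w) (hle : ∀ b, 2 ≤ b → b ≤ A → T0 b ≤ T b)
    (hnum : ∀ b, 2 ≤ b → b ≤ A → Lev2 T m b w) : CliqueOK G W A T t := by
  classical
  intro X hXW a ha1 haA hXa hXc
  have hPP : ∃ b, 1 ≤ b ∧ ∃ W', W' ⊆ X ∧ AlphaLe G W' b ∧ T b ≤ W'.card :=
    ⟨a, ha1, X, Subset.refl _, hXa, hXc⟩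
  obtain ⟨hb1, W', hW'X, hW'a, hW'c⟩ := Nat.find_spec hPP
  have hmin := fun c => @Nat.find_min _ _ hPP c
  have hble : Nat.find hPP ≤ a := Nat.find_min' hPP ⟨ha1, X, Subset.refl _, hXa, hXc⟩
  set b := Nat.find hPP with hbdef
  have hsmall : ∀ c, c < b → ∀ Y, Y ⊆ W' → AlphaLe G Y c → Y.card < T c := by
    intro c hcb Y hY hYc
    rcases Nat.eq_zero_or_pos c with rfl | hcpos
    · have := card_zero_of_alphaLe hYc
      omega
    · by_contra hcon
      exact hmin c hcb ⟨hcpos, Y, hY.trans hW'X, hYc, by omega⟩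
  rcases Nat.lt_or_ge b 2 with hb2 | hb2
  · have hb : b = 1 := by omega
    rw [hb] at hW'a hW'c
    rw [hT1] at hW'c
    obtain ⟨K, hK1, hK2⟩ := exists_subset_card_eq hW'c
    exact ⟨K, hK1.trans hW'X, alpha_one (hW'a.mono hK1 le_rfl), hK2⟩
  · exfalso
    obtain ⟨z, v, x0, g, h, h1, h2, h3, h4⟩ := hnum b hb2 (by omega)
    have H : TMin G W' T b := ⟨hW'a, hW'c, hsmall⟩
    have hne : W'.Nonempty := by
      rw [← card_pos]
      omega
    have hfl : ∃ Z s t, Z ⊆ W' ∧ Flex G Z t s z v := by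
      rcases h4 with h4 | ⟨h4, h5⟩
      · exact flex_chainNum hT H hne h4
      · obtain ⟨K, hK1, hK2, hK3⟩ := hP W' (hW'X.trans hXW) b hb1 (by omega) hW'a
          ((hle b hb2 (by omega)).trans hW'c)
        obtain ⟨Z, s, t, hZ1, hZ2⟩ := flex_clique hK2 (v := v) (by omega)
        rw [← h4] at hZ2
        exact ⟨Z, s, t, hZ1.trans hK1, hZ2⟩
    obtain ⟨c, hc1, hc2, hc3⟩ := engine2 h2 hT H h1 h3 hfl
    exact hno ⟨c, hc2, hc1, fun x hx => hXW (hW'X (hc3 x hx))⟩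

omit [DecidableEq V] in
theorem cliqueOK_zero {G : SimpleGraph V} {W : Finset V} {A : ℕ} {T : ℕ → ℕ} :
    CliqueOK G W A T 0 := by
  intro X _ b _ _ _ _
  exact ⟨∅, empty_subset _, by simp, by simp⟩

end Vale.Agent.P048
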