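import Vale.Agent.P048.Eng2

namespace Vale.Agent.P048

open Finset

variable {V : Type*} [DecidableEq V]

def StepP (T : ℕ → ℕ) (m b z v : ℕ) (L g : ℕ → ℕ) (r : ℕ) : Prop :=
  g (r + 1) ≤ g r ∨ (1 ≤ r ∧ g (r + 1) ≤ g (r - 1) + 1) ∨ g (r + 1) ≤ L (r + 1) ∨
    (2 * r ≤ v ∧ T (g (r + 1) - 1) + T (b - g r) + b + z ≤
      T b + 2 + max (L (v - r)) (b - (m - z + 1) / 2))

inductive Pass (T : ℕ → ℕ) (m b z v : ℕ) : (ℕ → ℕ) → Prop
  | base : Pass T m b z v (fun r => r / 2 + 1)
  | step {L g : ℕ → ℕ} : Pass T m b z v L → g 0 ≤ 1 → (∀ r, g r ≤ b) →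
      (∀ r, r < v → StepP T m b z v L g r) → Pass T m b z v g

structure NumP (T : ℕ → ℕ) (m b z v x0 : ℕ) (g h : ℕ → ℕ) : Prop where
  hv : 1 ≤ v
  hzm : z ≤ m
  hb : ∀ r, h r ≤ b
  n2 : ∀ x, x0 ≤ x → x < b → T x + T (b - x) + b + z ≤ T b + max x (b - (m - z + 1) / 2) + 2
  n3 : ∀ x, 1 ≤ x → x < x0 → (T x - 1) * b < (T b + 1 - m) * x
  x0b : x0 ≤ b
  gp : Pass T m b z v g
  gf : ∃ i, i < v ∧ b < g i + g (v - 1 - i)
  h0 : h 0 ≤ 1
  hs : ∀ r, h (r + 1) ≤ h r ∨ (1 ≤ r ∧ h (r + 1) ≤ h (r - 1) + 1) ∨
    T (h (r + 1) - 1) + T (b - h r) + z ≤ T b + 3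
  hf : ∃ i j, b < h i + h j ∧ i + j + z ≤ m + v
  n6 : ∀ x, 1 ≤ x → x < b → T x + T (b - x) + z ≤ T b + 3

theorem Pass.mono {T : ℕ → ℕ} {m b z z' v : ℕ} {g : ℕ → ℕ} (h : Pass T m b z v g) (hz : z' ≤ z)
    (hzm : z ≤ m) : Pass T m b z' v g := by
  induction h with
  | base => exact Pass.base
  | @step L g _ h0 hb hs ih =>
    refine ih.step h0 hb ?_
    intro r hr
    rcases hs r hr with h1 | h1 | h1 | ⟨h1, h2⟩
    · exact Or.inl h1
    · exact Or.inr (Or.inl h1)
    · exact Or.inr (Or.inr (Or.inl h1))
    · refine Or.inr (Or.inr (Or.inr ⟨h1, ?_⟩))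
      rcases le_total (L (v - r)) (b - (m - z + 1) / 2) with h3 | h3
      · rw [max_eq_right h3] at h2
        rcases le_total (L (v - r)) (b - (m - z' + 1) / 2) with h4 | h4
        · rw [max_eq_right h4]; omega
        · rw [max_eq_left h4]; omega
      · rw [max_eq_left h3] at h2
        have h4 : L (v - r) ≤ max (L (v - r)) (b - (m - z' + 1) / 2) := le_max_left _ _
        omega

theorem NumP.mono {T : ℕ → ℕ} {m b z z' v x0 : ℕ} {g h : ℕ → ℕ} (N : NumP T m b z v x0 g h)
    (hz : z' ≤ z) : NumP T m b z' v x0 g h := by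
  refine ⟨N.hv, hz.trans N.hzm, N.hb, ?_, N.n3, N.x0b, N.gp.mono hz N.hzm, N.gf, N.h0, ?_, ?_, ?_⟩
  · intro x h1 h2
    have h3 := N.n2 x h1 h2
    have h4 := N.hzm
    rcases le_total x (b - (m - z + 1) / 2) with h5 | h5
    · rw [max_eq_right h5] at h3
      rcases le_total x (b - (m - z' + 1) / 2) with h6 | h6
      · rw [max_eq_right h6]; omega
      · rw [max_eq_left h6]; omega
    · rw [max_eq_left h5] at h3
      have h6 : x ≤ max x (b - (m - z' + 1) / 2) := le_max_left _ _
      omega
  · intro r
    rcases N.hs r with h1 | h1 | h1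
    · exact Or.inl h1
    · exact Or.inr (Or.inl h1)
    · exact Or.inr (Or.inr (by omega))
  · obtain ⟨i, j, h1, h2⟩ := N.hf
    exact ⟨i, j, h1, by omega⟩
  · intro x h1 h2
    have := N.n6 x h1 h2
    omega

theorem nonconsec_card (P : V → Prop) [DecidablePred P] : ∀ (n : ℕ) (l : List V), l.length ≤ n →
    (∀ A v w B, l = A ++ v :: w :: B → P v → P w → False) →
    2 * (l.toFinset.filter P).card ≤ l.length + 1
  | 0, l, hn, _ => by
    have : l = [] := List.length_eq_zero_iff.1 (by omega)
    subst this
    simp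
  | n + 1, l, hn, h => by
    rcases l with _ | ⟨a, l⟩
    · simp
    · rcases l with _ | ⟨c, l⟩
      · have h1 : (([a] : List V).toFinset.filter P).card ≤ ([a] : List V).toFinset.card :=
          card_le_card (filter_subset _ _)
        have h2 : ([a] : List V).toFinset.card ≤ ([a] : List V).length := List.toFinset_card_le _
        simp only [List.length_cons, List.length_nil] at h2 ⊢
        omega
      · simp only [List.length_cons] at hn
        by_cases ha : P a
        · have hc : ¬ P c := fun hc => h [] a c l rfl ha hc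
          have ih := nonconsec_card P n l (by omega) (fun A v w B e hv hw =>
            h (a :: c :: A) v w B (by rw [e]; rfl) hv hw)
          have h1 : ((a :: c :: l).toFinset.filter P).card ≤ (l.toFinset.filter P).card + 1 := by
            rw [List.toFinset_cons, List.toFinset_cons, filter_insert, if_pos ha, filter_insert,
              if_neg hc]
            exact card_insert_le _ _
          simp only [List.length_cons]
          omega
        · have ih := nonconsec_card P n (c :: l) (by simp only [List.length_cons]; omega)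
            (fun A v w B e hv hw => h (a :: A) v w B (by rw [e]; rfl) hv hw)
          have h1 : ((a :: c :: l).toFinset.filter P).card =
              ((c :: l).toFinset.filter P).card := by
            rw [List.toFinset_cons, filter_insert, if_neg ha]
          simp only [List.length_cons] at ih ⊢
          omega

theorem stuck_false3 {G : SimpleGraph V} {W Z : Finset V} {T : ℕ → ℕ} {m b z v x0 : ℕ}
    {g h : ℕ → ℕ} {s t : V} {l : List V} (hm : m ≤ T b) (hT : Monotone T)
    (H : TMin G W T b) (N : NumP T m b z v x0 g h) (hZW : Z ⊆ W) (hF : Flex G Z t s z v)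
    (hst : s ≠ t) (hl : STP G (W \ (Z \ {s, t})) s t l) (hlen : l.length + z < m + 2)
    (hstuck : Stuck G (W \ (Z \ {s, t})) s t l (v + 1)) : False := by
  classical
  have hlsub : l.toFinset ⊆ W \ (Z \ {s, t}) := by
    intro x hx
    exact hl.mem x (List.mem_toFinset.1 hx)
  have hlcard : l.toFinset.card = l.length := List.toFinset_card_of_nodup hl.pth.1
  have hsl : s ∈ l := List.mem_of_mem_head? (by rw [hl.hd]; rfl)
  have htl : t ∈ l := List.mem_of_getLast? hl.lt
  set C := Z ∪ l.toFinset with hC
  have hCW : C ⊆ W := union_subset hZW (hlsub.trans sdiff_subset)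
  have hCcard : C.card + 2 ≤ z + l.length := by
    have h1 : C ⊆ Z ∪ (l.toFinset \ {s, t}) := by
      intro x hx
      rw [hC, mem_union] at hx
      rw [mem_union, mem_sdiff, mem_insert, mem_singleton]
      by_cases hxs : x = s
      · left; rw [hxs]; exact hF.hs
      · by_cases hxt : x = t
        · left; rw [hxt]; exact hF.ht
        · rcases hx with hx | hx
          · exact Or.inl hx
          · exact Or.inr ⟨hx, by tauto⟩
    have h2 := (card_le_card h1).trans (card_union_le _ _)
    have hsub : ({s, t} : Finset V) ⊆ l.toFinset := by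
      intro x hx
      rw [mem_insert, mem_singleton] at hx
      rw [List.mem_toFinset]
      rcases hx with rfl | rfl
      · exact hsl
      · exact htl
    have h3 : (l.toFinset \ {s, t}).card = l.toFinset.card - 2 := by
      rw [card_sdiff_of_subset hsub, card_pair hst]
    have h4 : 2 ≤ l.toFinset.card := by
      have := card_le_card hsub
      rwa [card_pair hst] at this
    rw [hF.card] at h2
    omega
  have hYcard : T b + 1 ≤ (W \ C).card + m := by
    have h1 : (W \ C).card + C.card = W.card := card_sdiff_add_card_eq_card hCW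
    have h2 := H.card
    omega
  have hYne : (W \ C).Nonempty := by
    rw [← card_pos]; omega
  obtain ⟨D, hDY, hDne, hcl, hconn, hdens⟩ := exists_dense_comp (G := G) _ (W \ C) rfl hYne
  have hDW : D ⊆ W := hDY.trans sdiff_subset
  have hDC : ∀ x ∈ D, x ∉ C := fun x hx => (mem_sdiff.1 (hDY hx)).2
  have hDl : ∀ x ∈ l, x ∉ D := by
    intro x hx hxD
    exact hDC x hxD (by rw [hC, mem_union]; exact Or.inr (List.mem_toFinset.2 hx))
  have hDU : D ⊆ W \ (Z \ {s, t}) := by
    intro x hx
    rw [mem_sdiff, mem_sdiff]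
    exact ⟨hDW hx, fun h => hDC x hx (by rw [hC, mem_union]; exact Or.inl h.1)⟩
  have hxpos := alpha_pos (G := G) hDne
  have hxb : alpha G D ≤ b := alpha_le (H.al.mono hDW le_rfl)
  have hYb : alpha G (W \ C) ≤ b := alpha_le (H.al.mono sdiff_subset le_rfl)
  have hx0 : x0 ≤ alpha G D := by
    by_contra hcon
    push Not at hcon
    have h1 := N.n3 (alpha G D) hxpos hcon
    have hxlt : alpha G D < b := lt_of_lt_of_le hcon N.x0b
    have h2 := H.small (alpha G D) hxlt D hDW (alphaLe_alpha G D)
    have h3 : D.card ≤ T (alpha G D) - 1 := by omega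
    have h4 : (T b + 1 - m) * alpha G D ≤ (T (alpha G D) - 1) * b := by
      calc (T b + 1 - m) * alpha G D ≤ (W \ C).card * alpha G D :=
            Nat.mul_le_mul_right _ (by omega)
        _ ≤ D.card * alpha G (W \ C) := hdens
        _ ≤ D.card * b := Nat.mul_le_mul_left _ hYb
        _ ≤ (T (alpha G D) - 1) * b := Nat.mul_le_mul_right _ h3
    omega
  have hatt0 : ∀ X X' : Finset V, X ⊆ X' → X' ⊆ D → (∀ x ∈ X, ∀ y ∈ X', y ∈ ball G D x v) →
      (l.dropLast.toFinset.filter (Att G X)).card + alpha G X' ≤ b := by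
    intro X X' hXX hXD hP
    obtain ⟨J, hJ1, hJ2, hJ3⟩ := exists_ind_alpha G X'
    rw [← hJ3]
    apply ce_main2 H.al sdiff_subset hl hstuck hDU hDl hXX hXD _ hJ1 hJ2
    intro w hw w' hw' _ ha ha'
    obtain ⟨x, hx, hwx⟩ := ha
    obtain ⟨y, hy, hwy⟩ := ha'
    obtain ⟨q, h1, h2, h3, h4, h5⟩ := ball_chain (hXD (hXX hx)) v y (hP x hx y hy)
    exact bridge_of_chain h1 h2 h3 h4 h5 hwx hwy
  have hatt1 : ∀ X X' : Finset V, X ⊆ X' → X' ⊆ D → (∀ x ∈ X, ∀ y ∈ X', y ∈ ball G D x v) →
      2 * (l.dropLast.toFinset.filter (Att G X)).card ≤ m - z + 1 := by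
    intro X X' hXX hXD hP
    have h3 : l = l.dropLast ++ [t] := (List.dropLast_append_getLast? t hl.lt).symm
    have h4 : l.dropLast.length + 1 = l.length := by
      have h5 : l.length = (l.dropLast ++ [t]).length := congrArg List.length h3
      rw [List.length_append, List.length_singleton] at h5
      omega
    have h1 := nonconsec_card (Att G X) l.dropLast.length l.dropLast le_rfl (by
      intro A a c B e ha hc
      obtain ⟨x, hx, hax⟩ := ha
      obtain ⟨y, hy, hcy⟩ := hc
      obtain ⟨q, q1, q2, q3, q4, q5⟩ := ball_chain (hXD (hXX hx)) v y (hP x hx y (hXX hy))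
      exact ce_ins (A := A) (v := a) (w := c) (B := B ++ [t]) hl hstuck hDU hDl (by
        rw [h3, e]; simp) (bridge_of_chain q1 q2 q3 q4 q5 hax hcy))
    omega
  have hatt : ∀ X X' : Finset V, X ⊆ X' → X' ⊆ D → (∀ x ∈ X, ∀ y ∈ X', y ∈ ball G D x v) →
      (C.filter (Att G X)).card + max (alpha G X') (b - (m - z + 1) / 2) + 1 ≤ b + z := by
    intro X X' hXX hXD hP
    have h0 := hatt0 X X' hXX hXD hP
    have h0' := hatt1 X X' hXX hXD hP
    have h2 : C.filter (Att G X) ⊆ (Z.erase s) ∪ (l.dropLast.toFinset.filter (Att G X)) := by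
      intro x hx
      rw [mem_filter, hC, mem_union] at hx
      rw [mem_union, mem_erase, mem_filter, List.mem_toFinset]
      by_cases hxt : x = t
      · left
        rw [hxt]
        exact ⟨hst.symm, hF.ht⟩
      · by_cases hxl : x ∈ l
        · right
          refine ⟨?_, hx.2⟩
          have h3 : l = l.dropLast ++ [t] := (List.dropLast_append_getLast? t hl.lt).symm
          rw [h3, List.mem_append, List.mem_singleton] at hxl
          exact hxl.resolve_right hxt
        · left
          refine ⟨?_, hx.1.resolve_right (fun h => hxl (List.mem_toFinset.1 h))⟩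
          rintro rfl
          exact hxl hsl
    have h3 := (card_le_card h2).trans (card_union_le _ _)
    rw [card_erase_of_mem hF.hs, hF.card] at h3
    have hz1 : 1 ≤ z := by
      rw [← hF.card]; exact card_pos.2 ⟨s, hF.hs⟩
    rcases le_total (alpha G X') (b - (m - z + 1) / 2) with h4 | h4
    · rw [max_eq_right h4]; omega
    · rw [max_eq_left h4]; omega
  by_cases hdiam : ∀ x ∈ D, ∀ y ∈ D, y ∈ ball G D x v
  · rcases Nat.lt_or_ge (alpha G D) b with hlt | hge
    · have h1 := hatt D D (Subset.refl _) (Subset.refl _) hdiam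
      have h2 := tmin_nbr H hT hDW hDne le_rfl
      have h3 := bd_comp (W := W) (C := C) hcl
      have h4 := H.small (alpha G D) hlt D hDW (alphaLe_alpha G D)
      have h5 := N.n2 (alpha G D) hx0 hlt
      omega
    · have hEq : alpha G D = b := le_antisymm hxb hge
      have h1 := hatt0 D D (Subset.refl _) (Subset.refl _) hdiam
      have hsD : s ∉ D := hDl s hsl
      obtain ⟨x, hx, hxs⟩ := tmin_full H hDW hEq (hZW hF.hs) hsD
      have h2 : s ∈ l.dropLast.toFinset.filter (Att G D) := by
        rw [mem_filter, List.mem_toFinset]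
        refine ⟨?_, x, hx, hxs.symm⟩
        obtain ⟨w, B, hlB⟩ := stp_form hl hst
        rw [hlB]
        simp [List.dropLast]
      have h3 := card_pos.2 ⟨s, h2⟩
      omega
  · push Not at hdiam
    obtain ⟨u, hu, w, hw, huw⟩ := hdiam
    have hwu : u ∉ ball G D w v := fun h => huw (ball_symm hw v u h)
    have hclaim : ∀ g : ℕ → ℕ, Pass T m b z v g → ∀ u' ∈ D, ∀ w' ∈ D, w' ∉ ball G D u' v →
        ∀ r, r ≤ v → g r ≤ alpha G (ball G D u' r) := by
      intro g hg
      induction hg with
      | base =>
        intro u' hu' w' hw' hfar r hr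
        exact alpha_ball_trivial hconn hu' hw' r (fun k hk h => hfar (ball_mono (by omega) h))
      | @step L g _ hg0 hgb hgs ihL =>
        intro u' hu' w' hw' hfar r
        have hfar' : ∀ k, k ≤ v → w' ∉ ball G D u' k := fun k hk h => hfar (ball_mono hk h)
        induction r using Nat.strong_induction_on with
        | _ r ih =>
          intro hr
          rcases r with _ | r
          · have := alpha_pos (G := G) (X := ball G D u' 0) ⟨u', ball_self 0⟩
            omega
          · rcases hgs r (by omega) with h1 | ⟨h1, h2⟩ | h1 | ⟨h1, h2⟩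
            · have h3 := ih r (by omega) (by omega)
              have h4 := alpha_mono (G := G) (ball_mono (G := G) (D := D) (u := u') (Nat.le_succ r))
              exact h1.trans (h3.trans h4)
            · obtain ⟨r', rfl⟩ : ∃ r', r = r' + 1 := ⟨r - 1, by omega⟩
              have h3 := ih r' (by omega) (by omega)
              have h4 := alpha_ball_grow hconn hu' hw' (hfar' (r' + 1) (by omega))
              have h5 : r' + 1 - 1 = r' := by omega
              rw [h5] at h2
              have h6 : r' + 1 + 1 = r' + 2 := rfl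
              rw [h6] at *
              omega
            · exact h1.trans (ihL u' hu' w' hw' hfar (r + 1) hr)
            · rcases Nat.eq_zero_or_pos (g (r + 1)) with h0 | hpos
              · omega
              · have h3 := ih r (by omega) (by omega)
                have h4 : ball G D u' r ⊆ ball G D u' (v - r) := ball_mono (by omega)
                have h5 := hatt (ball G D u' r) (ball G D u' (v - r)) h4 (ball_sub hu' _) (by
                  intro x hx y hy
                  have h6 := ball_symm hu' r x hx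
                  have h7 := ball_trans h6 (v - r) y hy
                  have h8 : r + (v - r) = v := by omega
                  rwa [h8] at h7)
                have h6 := ihL u' hu' w' hw' hfar (v - r) (by omega)
                have h7 := ball_step H hT hDY hu' hcl (r := r) le_rfl h3
                apply alpha_ge H ((ball_sub hu' _).trans hDW) hpos (hgb _)
                omega
    obtain ⟨i, hi, hbi⟩ := N.gf
    obtain ⟨h1, h2⟩ := ball_far (i := i) (j := v - 1 - i) hu hw (by omega) huw
    have h3 := alpha_add_le H.al ((ball_sub hu i).trans hDW)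
      ((ball_sub hw (v - 1 - i)).trans hDW) h1 h2
    have h4 := hclaim g N.gp u hu w hw huw i (by omega)
    have h5 := hclaim g N.gp w hw u hu hwu (v - 1 - i) (by omega)
    omega

theorem init_path3 {G : SimpleGraph V} {W Z : Finset V} {T : ℕ → ℕ} {m b z v x0 : ℕ}
    {g h : ℕ → ℕ} {s t : V} (hT : Monotone T)
    (H : TMin G W T b) (N : NumP T m b z v x0 g h) (hZW : Z ⊆ W) (hF : Flex G Z t s z v)
    (hst : s ≠ t) : ∃ l, STP G (W \ (Z \ {s, t})) s t l ∧ l.length + z ≤ m + 2 + v := by
  classical
  set C := Z \ {s, t} with hC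
  set U := W \ C with hU
  have hstZ : ({s, t} : Finset V) ⊆ Z := by
    intro x hx
    rw [mem_insert, mem_singleton] at hx
    rcases hx with rfl | rfl
    · exact hF.hs
    · exact hF.ht
  have hCcard : C.card + 2 = z := by
    have h1 : C.card + ({s, t} : Finset V).card = Z.card := card_sdiff_add_card_eq_card hstZ
    rw [card_pair hst, hF.card] at h1
    exact h1
  have hsU : s ∈ U := by
    rw [hU, mem_sdiff, hC, mem_sdiff]
    exact ⟨hZW hF.hs, fun h => h.2 (by simp)⟩
  have htU : t ∈ U := by
    rw [hU, mem_sdiff, hC, mem_sdiff]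
    exact ⟨hZW hF.ht, fun h => h.2 (by simp)⟩
  have hUW : U ⊆ W := sdiff_subset
  have hcl : ∀ x ∈ U, ∀ y ∈ W \ C, G.Adj x y → y ∈ U := fun x _ y hy _ => hy
  have hconn : Conn G U := by
    intro A hA hAne hAcl
    by_contra hne
    have hbd : (bd G W A).card ≤ C.card := by
      apply card_le_card
      intro y hy
      rw [mem_bd] at hy
      obtain ⟨hyW, hyA, x, hx, hxy⟩ := hy
      by_contra hyC
      exact hyA (hAcl x hx y (by rw [hU, mem_sdiff]; exact ⟨hyW, hyC⟩) hxy)
    have hAb : alpha G A ≤ b := alpha_le (H.al.mono (hA.trans hUW) le_rfl)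
    have hApos := alpha_pos (G := G) hAne
    rcases Nat.lt_or_ge (alpha G A) b with hlt | hge
    · have h1 := tmin_nbr H hT (hA.trans hUW) hAne le_rfl
      have h2 := H.small (alpha G A) hlt A (hA.trans hUW) (alphaLe_alpha G A)
      have h3 := N.n6 (alpha G A) hApos hlt
      omega
    · have hex : ∃ w ∈ U, w ∉ A := by
        by_contra hcon
        push Not at hcon
        exact hne (Subset.antisymm hA hcon)
      obtain ⟨w, hw, hwA⟩ := hex
      obtain ⟨x, hx, hxw⟩ := tmin_full H (hA.trans hUW) (le_antisymm hAb hge) (hUW hw) hwA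
      exact hwA (hAcl x hx w hw hxw)
  have hclaim : ∀ u' ∈ U, ∀ w' ∈ U, ∀ r, (∀ k, k + 1 ≤ r → w' ∉ ball G U u' k) →
      h r ≤ alpha G (ball G U u' r) := by
    intro u' hu' w' hw' r
    induction r using Nat.strong_induction_on with
    | _ r ih =>
      intro hr
      rcases r with _ | r
      · have := alpha_pos (G := G) (X := ball G U u' 0) ⟨u', ball_self 0⟩
        have := N.h0
        omega
      · rcases N.hs r with h1 | ⟨h1, h2⟩ | h2
        · have h3 := ih r (by omega) (fun k hk => hr k (by omega))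
          have h4 := alpha_mono (G := G) (ball_mono (G := G) (D := U) (u := u') (Nat.le_succ r))
          exact h1.trans (h3.trans h4)
        · obtain ⟨r', rfl⟩ : ∃ r', r = r' + 1 := ⟨r - 1, by omega⟩
          have h3 := ih r' (by omega) (fun k hk => hr k (by omega))
          have h4 := alpha_ball_grow hconn hu' hw' (hr (r' + 1) (by omega))
          have h5 : r' + 1 - 1 = r' := by omega
          rw [h5] at h2
          have h6 : r' + 1 + 1 = r' + 2 := rfl
          rw [h6] at *
          omega
        · rcases Nat.eq_zero_or_pos (h (r + 1)) with h0 | hpos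
          · omega
          · have h3 := ih r (by omega) (fun k hk => hr k (by omega))
            have h7 := ball_step (D := U) (c := C.card) H hT (Subset.refl U) hu' hcl (r := r)
              (card_le_card (filter_subset _ _)) h3
            apply alpha_ge H ((ball_sub hu' _).trans hUW) hpos (N.hb _)
            omega
  obtain ⟨i, j, hij, hijz⟩ := N.hf
  by_cases hfar : t ∈ ball G U s (i + j + 1)
  · obtain ⟨l, hl, hlen⟩ := stp_of_ball hsU hfar
    exact ⟨l, hl, by omega⟩
  · exfalso
    have hfar2 : s ∉ ball G U t (i + j + 1) := fun h' => hfar (ball_symm htU _ s h')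
    obtain ⟨h1, h2⟩ := ball_far (i := i) (j := j) hsU htU le_rfl hfar
    have h3 := alpha_add_le H.al ((ball_sub hsU i).trans hUW) ((ball_sub htU j).trans hUW) h1 h2
    have h4 := hclaim s hsU t htU i (fun k hk h' => hfar (ball_mono (by omega) h'))
    have h5 := hclaim t htU s hsU j (fun k hk h' => hfar2 (ball_mono (by omega) h'))
    omega

theorem engine3 {G : SimpleGraph V} {W : Finset V} {T : ℕ → ℕ} {m b z v x0 : ℕ}
    {g h : ℕ → ℕ} (hm : m ≤ T b) (hT : Monotone T) (H : TMin G W T b)
    (N0 : NumP T m b z v x0 g h)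
    (hfl : ∃ Z s t z', 2 ≤ z' ∧ z' ≤ z ∧ Z ⊆ W ∧ Flex G Z t s z' v) :
    ∃ c, Cyc G c ∧ c.length = m ∧ ∀ x ∈ c, x ∈ W := by
  obtain ⟨Z, s, t, z', hz2, hz, hZW, hF⟩ := hfl
  have N := N0.mono hz
  have hv := N.hv
  have hzm := N.hzm
  have hst := flex_ne hF hz2
  obtain ⟨l0, hl0, hl0'⟩ := init_path3 hT H N hZW hF hst
  obtain ⟨l, hl, h1, h2⟩ := gap_of' (L := m + 2 - z') (v := v) ⟨l0, hl0, by omega⟩
    (fun l hl h1 h2 => stuck_false3 hm hT H N hZW hF hst hl (by omega) h2)
  obtain ⟨p, hp1, hp2, hp3, hp4, hp5⟩ := hF.path (l.length - (m + 2 - z')) (by omega)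
  obtain ⟨c, hc1, hc2, hc3⟩ := cyc_of_two hZW hst hl hp1 hp2 hp3 hp4
  exact ⟨c, hc1, by omega, hc3⟩

end Vale.Agent.P048
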