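import Vale.Agent.P048.Tree

namespace Vale.Agent.P048.L

open Finset

def PerZ {C : Type*} (f : ℤ → C) (p : ℤ) : Prop := ∀ i, f (i + p) = f i

theorem PerZ.mul {C : Type*} {f : ℤ → C} {p : ℤ} (h : PerZ f p) (k : ℤ) : PerZ f (k * p) := by
  induction k using Int.induction_on with
  | zero => intro i; simp
  | succ k ih =>
    intro i
    have e : i + ((k : ℤ) + 1) * p = (i + k * p) + p := by ring
    rw [e, h, ih]
  | pred k ih =>
    intro i
    have e : (i + (-(k : ℤ) - 1) * p) + p = i + (-(k : ℤ)) * p := by ring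
    rw [← h (i + (-(k : ℤ) - 1) * p), e, ih]

theorem PerZ.add {C : Type*} {f : ℤ → C} {p q : ℤ} (h : PerZ f p) (h' : PerZ f q) :
    PerZ f (p + q) := by
  intro i
  rw [← add_assoc, h', h]

theorem PerZ.neg {C : Type*} {f : ℤ → C} {p : ℤ} (h : PerZ f p) : PerZ f (-p) := by
  have := h.mul (-1)
  rwa [neg_one_mul] at this

theorem PerZ.gcd {C : Type*} {f : ℤ → C} {n l : ℕ} (h1 : PerZ f n) (h2 : PerZ f l) :
    PerZ f (Nat.gcd n l) := by
  rw [Nat.gcd_eq_gcd_ab, mul_comm (n : ℤ), mul_comm (l : ℤ)]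
  exact (h1.mul _).add (h2.mul _)

theorem cover {P : ℤ → Prop} {p : ℤ} (hp : 0 < p) (hper : ∀ s, P (s + p) ↔ P s) {α : ℤ}
    (h : ∀ s, α ≤ s → s < α + p → P s) : ∀ s, P s := by
  have hmul : ∀ (k s : ℤ), P (s + k * p) ↔ P s := by
    intro k
    induction k using Int.induction_on with
    | zero => intro s; simp
    | succ k ih =>
      intro s
      have e : s + ((k : ℤ) + 1) * p = (s + k * p) + p := by ring
      rw [e, hper, ih]
    | pred k ih =>
      intro s
      have e : (s + (-(k : ℤ) - 1) * p) + p = s + (-(k : ℤ)) * p := by ring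
      rw [← hper (s + (-(k : ℤ) - 1) * p), e, ih]
  intro s
  have h1 := Int.emod_nonneg (s - α) hp.ne'
  have h2 := Int.emod_lt_of_pos (s - α) hp
  have h3 := Int.mul_ediv_add_emod (s - α) p
  have e : s = (α + (s - α) % p) + ((s - α) / p) * p := by
    rw [mul_comm]; linarith
  rw [e, hmul]
  exact h _ (by linarith) (by linarith)

theorem refl_ext {C : Type*} {f : ℤ → C} {p c α : ℤ} (hp : 0 < p) (hf : PerZ f p)
    (h : ∀ s, α ≤ s → s < α + p → f (-s) = f (c + s)) : ∀ s, f (-s) = f (c + s) := by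
  apply cover hp _ h
  intro s
  have e1 : -(s + p) = -s + -p := by ring
  have e2 : c + (s + p) = (c + s) + p := by ring
  rw [e1, e2, hf.neg, hf]

theorem refl_ext' {C : Type*} {f : ℤ → C} {p c α : ℤ} (hp : 0 < p) (hf : PerZ f p)
    (h : ∀ s, α ≤ s → s < α + p → f s = f (c - s)) : ∀ s, f s = f (c - s) := by
  apply cover hp _ h
  intro s
  have e2 : c - (s + p) = (c - s) + -p := by ring
  rw [e2, hf.neg, hf]

theorem trans_ext {C : Type*} {f : ℤ → C} {p c α : ℤ} (hp : 0 < p) (hf : PerZ f p)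
    (h : ∀ s, α ≤ s → s < α + p → f (s + c) = f s) : PerZ f c := by
  apply cover hp _ h
  intro s
  have e2 : s + p + c = (s + c) + p := by ring
  rw [e2, hf, hf]

theorem lemmaQ {C : Type*} {f : ℤ → C} {n l rf rb e : ℕ} (he : e ≤ 1) (hrf : rf = rb + e)
    (hl1 : 1 ≤ l) (hln : l + 1 ≤ n) (hr1 : 2 ≤ rf) (hr2 : rb + 2 ≤ n)
    (hpn : PerZ f n) (hpl : PerZ f l)
    (FF : rf + l ≤ n → ∀ s t : ℕ, s + t + 1 = l → f (-s) = f (rf + t))
    (BB : l ≤ rb → ∀ s t : ℕ, s + t + 1 = l → f s = f (rb - t))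
    (FB : ∀ s t : ℕ, s + t + 1 = l → s + rf + 1 ≤ n + e → t + 1 ≤ rb → f (-s) = f (rb - t))
    (BF : ∀ s t : ℕ, s + t + 1 = l → s + 1 ≤ rb + e → t + rf + 1 ≤ n → f s = f (rf + t)) :
    PerZ f (2 - e) := by
  obtain ⟨g, hg⟩ : ∃ g, g = Nat.gcd n l := ⟨_, rfl⟩
  have hg0 : 0 < g := by rw [hg]; exact Nat.gcd_pos_of_pos_right _ hl1
  have hgl : g ≤ l := by rw [hg]; exact Nat.gcd_le_right _ hl1
  have hgn : g ≤ n - l := by
    rw [hg]
    exact Nat.le_of_dvd (by omega) (Nat.dvd_sub (Nat.gcd_dvd_left _ _) (Nat.gcd_dvd_right _ _))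
  have hpg : PerZ f g := by rw [hg]; exact hpn.gcd hpl
  have hlneg : PerZ f (-(l : ℤ)) := hpl.neg
  have FB' : ∀ s : ℤ, 0 ≤ s → s ≤ l - 1 → s + rf + 1 ≤ n + e → (l : ℤ) - s ≤ rb →
      f (-s) = f (rb + 1 + s) := by
    intro s h0 h1 h2 h3
    obtain ⟨s', rfl⟩ : ∃ s' : ℕ, s = s' := ⟨s.toNat, by omega⟩
    have := FB s' (l - 1 - s') (by omega) (by omega) (by omega)
    rw [this, ← hpl]
    congr 1
    omega
  have BF' : ∀ s : ℤ, 0 ≤ s → s ≤ l - 1 → s + 1 ≤ rb + e → (l : ℤ) - s + rf ≤ n →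
      f s = f (rf - 1 - s) := by
    intro s h0 h1 h2 h3
    obtain ⟨s', rfl⟩ : ∃ s' : ℕ, s = s' := ⟨s.toNat, by omega⟩
    have := BF s' (l - 1 - s') (by omega) (by omega) (by omega)
    rw [this, ← hpl (rf - 1 - s')]
    congr 1
    omega
  have fin : (∀ s, f (-s) = f (rb + 1 + s)) → (∀ s, f s = f (rf - 1 - s)) → PerZ f (2 - e) := by
    intro k1 k2 i
    have h1 := k1 (i + 1 - rf)
    have h2 := k2 i
    have e1 : -(i + 1 - (rf : ℤ)) = rf - 1 - i := by ring
    have e2 : (rb : ℤ) + 1 + (i + 1 - rf) = i + (2 - e) := by rw [hrf]; push_cast; ring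
    rw [e1, e2] at h1
    rw [h2, h1]
  rcases Nat.lt_or_ge rb g with c1 | c1
  · have hFF : PerZ f ((rf : ℤ) - 1) := by
      apply trans_ext (p := g) (α := 1 - g) (by omega) hpg
      intro s h0 h1
      obtain ⟨s', hs'⟩ : ∃ s' : ℕ, s = -s' := ⟨(-s).toNat, by omega⟩
      have := FF (by omega) s' (l - 1 - s') (by omega)
      rw [hs', this, ← hpl (-s' + (rf - 1))]
      congr 1
      omega
    apply fin
    · apply refl_ext (p := (rf : ℤ) - 1) (α := (l : ℤ) - rb) (by omega) hFF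
      intro s h0 h1
      exact FB' s (by omega) (by omega) (by omega) (by omega)
    · apply refl_ext' (p := (rf : ℤ) - 1) (α := 0) (by omega) hFF
      intro s h0 h1
      exact BF' s (by omega) (by omega) (by omega) (by omega)
  · rcases Nat.lt_or_ge (n - rf) g with c2 | c2
    · have hBB : PerZ f ((rb : ℤ) + 1) := by
        apply trans_ext (p := g) (α := 0) (by omega) hpg
        intro s h0 h1
        obtain ⟨s', hs'⟩ : ∃ s' : ℕ, s = s' := ⟨s.toNat, by omega⟩
        have := BB (by omega) s' (l - 1 - s') (by omega)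
        rw [hs', this, ← hpl (rb - _)]
        congr 1
        omega
      have hp' : PerZ f ((n : ℤ) - rb - 1) := by
        have := hpn.add hBB.neg
        have e1 : (n : ℤ) + -((rb : ℤ) + 1) = n - rb - 1 := by ring
        rwa [e1] at this
      apply fin
      · apply refl_ext (p := (n : ℤ) - rb - 1) (α := 0) (by omega) hp'
        intro s h0 h1
        exact FB' s (by omega) (by omega) (by omega) (by omega)
      · apply refl_ext' (p := (n : ℤ) - rb - 1) (α := (l : ℤ) - (n - rf)) (by omega) hp'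
        intro s h0 h1
        exact BF' s (by omega) (by omega) (by omega) (by omega)
    · apply fin
      · apply refl_ext (p := g) (α := max 0 ((l : ℤ) - rb)) (by omega) hpg
        intro s h0 h1
        exact FB' s (by omega) (by omega) (by omega) (by omega)
      · apply refl_ext' (p := g) (α := max 0 ((l : ℤ) - (n - rf))) (by omega) hpg
        intro s h0 h1
        exact BF' s (by omega) (by omega) (by omega) (by omega)

def rng (d : ℤ) : ℤ → ℕ → List ℤ
  | i, 0 => [i]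
  | i, k + 1 => i :: rng d (i + d) k

theorem rng_len (d : ℤ) : ∀ (i : ℤ) (k : ℕ), (rng d i k).length = k + 1
  | _, 0 => rfl
  | i, k + 1 => by
    show (rng d (i + d) k).length + 1 = _
    rw [rng_len]

theorem rng_head (d : ℤ) : ∀ (i : ℤ) (k : ℕ), (rng d i k).head? = some i
  | _, 0 => rfl
  | _, _ + 1 => rfl

theorem rng_ne (d i : ℤ) (k : ℕ) : rng d i k ≠ [] := by
  intro h
  have := rng_len d i k
  rw [h] at this
  simp at this

theorem rng_last (d : ℤ) : ∀ (i : ℤ) (k : ℕ), (rng d i k).getLast? = some (i + k * d)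
  | i, 0 => by simp [rng]
  | i, k + 1 => by
    show (i :: rng d (i + d) k).getLast? = _
    rw [← List.singleton_append, List.getLast?_append, rng_last]
    simp only [Option.some_or, Option.some.injEq]
    push_cast
    ring

theorem mem_rng (d : ℤ) : ∀ (i : ℤ) (k : ℕ) (x : ℤ), x ∈ rng d i k → ∃ j : ℕ, j ≤ k ∧
    x = i + j * d
  | i, 0, x, h => by
    rw [rng, List.mem_singleton] at h
    exact ⟨0, le_rfl, by rw [h]; simp⟩
  | i, k + 1, x, h => by
    rw [rng, List.mem_cons] at h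
    rcases h with h | h
    · exact ⟨0, Nat.zero_le _, by rw [h]; simp⟩
    · obtain ⟨j, h1, h2⟩ := mem_rng d (i + d) k x h
      refine ⟨j + 1, by omega, ?_⟩
      rw [h2]; push_cast; ring

theorem rng_nodup {d : ℤ} (hd : d = 1 ∨ d = -1) : ∀ (i : ℤ) (k : ℕ), (rng d i k).Nodup
  | i, 0 => by simp [rng]
  | i, k + 1 => by
    rw [rng, List.nodup_cons]
    refine ⟨?_, rng_nodup hd _ _⟩
    intro h
    obtain ⟨j, h1, h2⟩ := mem_rng d (i + d) k i h
    rcases hd with rfl | rfl <;> omega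

theorem rng_chain {d : ℤ} {R : ℤ → ℤ → Prop} (hR : ∀ x, R x (x + d)) :
    ∀ (i : ℤ) (k : ℕ), (rng d i k).IsChain R
  | i, 0 => by simp [rng]
  | i, k + 1 => by
    rw [rng, ← List.singleton_append, List.isChain_append]
    refine ⟨by simp, rng_chain hR _ _, ?_⟩
    intro a ha b hb
    rw [rng_head] at hb
    simp only [List.getLast?_singleton, Option.mem_def, Option.some.injEq] at ha hb
    rw [← ha, ← hb]
    exact hR i

variable {V : Type*} {G : SimpleGraph V}

structure CycU (G : SimpleGraph V) (c : List V) (u : ℤ → V) : Prop where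
  adj : ∀ i, G.Adj (u i) (u (i + 1))
  inj : ∀ i j, u i = u j → (c.length : ℤ) ∣ (i - j)
  per : PerZ u c.length
  mem : ∀ i, u i ∈ c
  surj : ∀ x ∈ c, ∃ i : ℤ, 0 ≤ i ∧ i < c.length ∧ u i = x

def LP (G : SimpleGraph V) (c : List V) (l : ℕ) (a b : V) : Prop :=
  ∃ p, Pth G p ∧ (∀ x ∈ p, x ∈ c) ∧ p.length = l + 1 ∧ p.head? = some a ∧ p.getLast? = some b

theorem lp_of {c : List V} {u : ℤ → V} (hu : CycU G c u) {is : List ℤ} {lo : ℤ} {l : ℕ} {i j : ℤ}
    (hnd : is.Nodup) (hwin : ∀ x ∈ is, lo ≤ x ∧ x < lo + c.length)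
    (hch : is.IsChain (fun a b => G.Adj (u a) (u b))) (hlen : is.length = l + 1)
    (hi : is.head? = some i) (hj : is.getLast? = some j) : LP G c l (u i) (u j) := by
  refine ⟨is.map u, ⟨?_, ?_⟩, ?_, ?_, ?_, ?_⟩
  · apply List.Nodup.map_on _ hnd
    intro x hx y hy hxy
    obtain ⟨k, hk⟩ := hu.inj x y hxy
    obtain ⟨h1, h2⟩ := hwin x hx
    obtain ⟨h3, h4⟩ := hwin y hy
    have hk0 : k = 0 := by
      by_contra hk0
      rcases lt_or_gt_of_ne hk0 with h | h
      · have : (c.length : ℤ) * k ≤ (c.length : ℤ) * (-1) :=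
          mul_le_mul_of_nonneg_left (by omega) (by omega)
        omega
      · have : (c.length : ℤ) * 1 ≤ (c.length : ℤ) * k :=
          mul_le_mul_of_nonneg_left (by omega) (by omega)
        omega
    rw [hk0, mul_zero] at hk
    omega
  · rw [List.isChain_map]
    exact hch
  · intro x hx
    rw [List.mem_map] at hx
    obtain ⟨y, _, rfl⟩ := hx
    exact hu.mem y
  · rw [List.length_map, hlen]
  · rw [List.head?_map, hi]; rfl
  · rw [List.getLast?_map, hj]; rfl

theorem lp_arc {c : List V} {u : ℤ → V} (hu : CycU G c u) {l : ℕ} (hl : l < c.length) (i : ℤ) :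
    LP G c l (u i) (u (i + l)) := by
  apply lp_of hu (is := rng 1 i l) (lo := i) (rng_nodup (Or.inl rfl) _ _) _
    (rng_chain (fun x => hu.adj x) _ _) (rng_len _ _ _) (rng_head _ _ _)
  · rw [rng_last, mul_one]
  · intro x hx
    obtain ⟨j, h1, h2⟩ := mem_rng _ _ _ _ hx
    omega

theorem lp_two {c : List V} {u : ℤ → V} (hu : CycU G c u) {r l s t : ℕ} {d d' lo : ℤ}
    (hd : d = 1 ∨ d = -1) (hd' : d' = 1 ∨ d' = -1) (hr : G.Adj (u 0) (u r)) (hl : s + t + 1 = l)
    (h1 : ∀ j : ℕ, j ≤ s → lo ≤ -(j * d) ∧ -(j * d) < lo + c.length)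
    (h2 : ∀ j : ℕ, j ≤ t → lo ≤ r + j * d' ∧ r + j * d' < lo + c.length)
    (h3 : ∀ i j : ℕ, i ≤ s → j ≤ t → -(i * d) ≠ r + j * d') :
    LP G c l (u (-(s * d))) (u (r + t * d')) := by
  have hm1 : ∀ x ∈ rng d (-(s * d)) s, ∃ j : ℕ, j ≤ s ∧ x = -(j * d) := by
    intro x hx
    obtain ⟨j, a1, a2⟩ := mem_rng _ _ _ _ hx
    refine ⟨s - j, by omega, ?_⟩
    rw [a2, Nat.cast_sub a1]
    ring
  apply lp_of hu (is := rng d (-(s * d)) s ++ rng d' r t) (lo := lo)
  · rw [List.nodup_append]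
    refine ⟨rng_nodup hd _ _, rng_nodup hd' _ _, ?_⟩
    intro a ha b hb hab
    obtain ⟨i, a1, a2⟩ := hm1 a ha
    obtain ⟨j, b1, b2⟩ := mem_rng _ _ _ _ hb
    apply h3 i j a1 b1
    rw [← a2, ← b2, hab]
  · intro x hx
    rw [List.mem_append] at hx
    rcases hx with hx | hx
    · obtain ⟨i, a1, a2⟩ := hm1 x hx
      rw [a2]
      exact h1 i a1
    · obtain ⟨j, b1, b2⟩ := mem_rng _ _ _ _ hx
      rw [b2]
      exact h2 j b1
  · rw [List.isChain_append]
    have hadj : ∀ e : ℤ, e = 1 ∨ e = -1 → ∀ x, G.Adj (u x) (u (x + e)) := by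
      intro e he x
      rcases he with rfl | rfl
      · exact hu.adj x
      · have := (hu.adj (x + -1)).symm
        rwa [neg_add_cancel_right] at this
    refine ⟨rng_chain (hadj d hd) _ _, rng_chain (hadj d' hd') _ _, ?_⟩
    intro a ha b hb
    rw [rng_last] at ha
    rw [rng_head] at hb
    simp only [Option.mem_def, Option.some.injEq] at ha hb
    rw [← ha, ← hb, neg_add_cancel]
    exact hr
  · rw [List.length_append, rng_len, rng_len]
    omega
  · rw [List.head?_append, rng_head]; rfl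
  · rw [List.getLast?_append, rng_last]; rfl

theorem lp_FF {c : List V} {u : ℤ → V} (hu : CycU G c u) {r l s t : ℕ}
    (hr : G.Adj (u 0) (u r)) (hl : s + t + 1 = l) (h : r + l ≤ c.length) (hr1 : 1 ≤ r) :
    LP G c l (u (-s)) (u (r + t)) := by
  have := lp_two hu (d := 1) (d' := 1) (lo := -s) (Or.inl rfl) (Or.inl rfl) hr hl
    (fun j hj => by omega) (fun j hj => by omega) (fun i j hi hj => by omega)
  rwa [mul_one, mul_one] at this

theorem lp_BB {c : List V} {u : ℤ → V} (hu : CycU G c u) {r l s t : ℕ}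
    (hr : G.Adj (u 0) (u r)) (hl : s + t + 1 = l) (h : l ≤ r) (hrn : r + 1 ≤ c.length) :
    LP G c l (u s) (u (r - t)) := by
  have := lp_two hu (d := -1) (d' := -1) (lo := 0) (Or.inr rfl) (Or.inr rfl) hr hl
    (fun j hj => by omega) (fun j hj => by omega) (fun i j hi hj => by omega)
  rwa [mul_neg_one, neg_neg, mul_neg_one, ← sub_eq_add_neg] at this

theorem lp_FB {c : List V} {u : ℤ → V} (hu : CycU G c u) {r l s t : ℕ}
    (hr : G.Adj (u 0) (u r)) (hl : s + t + 1 = l) (h1 : s + r + 1 ≤ c.length) (h2 : t + 1 ≤ r) :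
    LP G c l (u (-s)) (u (r - t)) := by
  have := lp_two hu (d := 1) (d' := -1) (lo := -s) (Or.inl rfl) (Or.inr rfl) hr hl
    (fun j hj => by omega) (fun j hj => by omega) (fun i j hi hj => by omega)
  rwa [mul_one, mul_neg_one, ← sub_eq_add_neg] at this

theorem lp_BF {c : List V} {u : ℤ → V} (hu : CycU G c u) {r l s t : ℕ}
    (hr : G.Adj (u 0) (u r)) (hl : s + t + 1 = l) (h1 : s + 1 ≤ r) (h2 : t + r + 1 ≤ c.length) :
    LP G c l (u s) (u (r + t)) := by
  have := lp_two hu (d := -1) (d' := 1) (lo := 0) (Or.inr rfl) (Or.inl rfl) hr hl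
    (fun j hj => by omega) (fun j hj => by omega) (fun i j hi hj => by omega)
  rwa [mul_neg_one, neg_neg, mul_one] at this

theorem cycU_of {c : List V} (hc : Cyc G c) (hne : c ≠ []) (x0 : V) :
    CycU G c (fun i => c.getD (i % (c.length : ℤ)).toNat x0) := by
  have hn : 0 < c.length := List.length_pos_iff.2 hne
  have hm : ∀ i : ℤ, (i % (c.length : ℤ)).toNat < c.length := by
    intro i
    have h1 := Int.emod_nonneg i (show (c.length : ℤ) ≠ 0 by omega)
    have h2 := Int.emod_lt_of_pos i (show (0 : ℤ) < c.length by omega)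
    omega
  have hg : ∀ i : ℤ, c.getD (i % (c.length : ℤ)).toNat x0 = c[(i % (c.length : ℤ)).toNat]'(hm i) :=
    fun i => by rw [List.getD_eq_getElem?_getD, List.getElem?_eq_getElem (hm i)]; rfl
  refine ⟨?_, ?_, ?_, ?_, ?_⟩
  · intro i
    simp only [hg]
    have h1 := Int.emod_nonneg i (show (c.length : ℤ) ≠ 0 by omega)
    have h2 := Int.emod_lt_of_pos i (show (0 : ℤ) < c.length by omega)
    have h5 : (i + 1) % (c.length : ℤ) = (i % c.length + 1) % c.length := by
      conv_lhs => rw [← Int.emod_add_mul_ediv i c.length]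
      rw [add_right_comm, Int.add_mul_emod_self_left]
    rcases lt_or_ge (i % (c.length : ℤ) + 1) c.length with h3 | h3
    · rw [Int.emod_eq_of_lt (by omega) h3] at h5
      have h6 : ((i + 1) % (c.length : ℤ)).toNat = (i % (c.length : ℤ)).toNat + 1 := by omega
      simp only [h6]
      exact List.isChain_iff_getElem.1 hc.2.1 _ (by omega)
    · have h7 : i % (c.length : ℤ) + 1 = c.length := by omega
      rw [h7, Int.emod_self] at h5
      have h6 : ((i + 1) % (c.length : ℤ)).toNat = 0 := by omega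
      have h8 : (i % (c.length : ℤ)).toNat = c.length - 1 := by omega
      simp only [h6, h8]
      apply hc.2.2
      · rw [List.getLast?_eq_getElem?, List.getElem?_eq_getElem (by omega)]
        rfl
      · rw [List.head?_eq_getElem?, List.getElem?_eq_getElem hn]
        rfl
  · intro i j hij
    simp only [hg] at hij
    have h1 := (hc.1.getElem_inj_iff).1 hij
    have h2 := Int.emod_nonneg i (show (c.length : ℤ) ≠ 0 by omega)
    have h3 := Int.emod_nonneg j (show (c.length : ℤ) ≠ 0 by omega)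
    exact Int.ModEq.dvd (show j % (c.length : ℤ) = i % c.length by omega)
  · intro i
    simp only [Int.add_emod_right]
  · intro i
    simp only [hg]
    exact List.getElem_mem _
  · intro x hx
    obtain ⟨k, hk, rfl⟩ := List.getElem_of_mem hx
    refine ⟨k, by omega, by omega, ?_⟩
    simp only [hg]
    have h1 : ((k : ℤ) % (c.length : ℤ)).toNat = k := by
      rw [Int.emod_eq_of_lt (by omega) (by omega)]
      rfl
    simp only [h1]

theorem par_two {C : Type*} {f : ℤ → C} (h : PerZ f 2) (i : ℤ) : f i = f (i % 2) := by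
  have h1 := h.mul (i / 2) (i % 2)
  rw [← h1]
  congr 1
  omega

theorem theta_close {c : List V} {u0 b : V} {A B : List V} {m h : ℕ} (hc : Cyc G c)
    (hce : c = u0 :: (A ++ b :: B)) (hA : A ≠ []) (hB : B ≠ []) (hub : G.Adj u0 b)
    (hn : m ≤ c.length + 1) (hh : 2 * h < m) (F : ℕ → V → V) (hF0 : ∀ x, F 0 x = x)
    (hFh : ∀ x ∈ c, ∀ y ∈ c, F h x = F h y) :
    ∃ s p a b', 1 ≤ s ∧ s ≤ h ∧ Pth G p ∧ (∀ x ∈ p, x ∈ c) ∧ p.length + 2 * s = m + 1 ∧
      p.head? = some a ∧ p.getLast? = some b' ∧ F s a = F s b' ∧ F (s - 1) a ≠ F (s - 1) b' := by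
  classical
  by_contra hcon
  push Not at hcon
  have H : ∀ s, 1 ≤ s → s ≤ h → ∀ a b, LP G c (m - 2 * s) a b → F s a = F s b →
      F (s - 1) a = F (s - 1) b := by
    intro s h1 h2 a b hp hab
    obtain ⟨p, p1, p2, p3, p4, p5⟩ := hp
    exact hcon s p a b h1 h2 p1 p2 (by omega) p4 p5 hab
  have hmem : ∀ l a b, LP G c l a b → a ∈ c ∧ b ∈ c := by
    intro l a b hp
    obtain ⟨p, p1, p2, p3, p4, p5⟩ := hp
    exact ⟨p2 a (List.mem_of_mem_head? p4), p2 b (List.mem_of_getLast? p5)⟩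
  have hne : c ≠ [] := by rw [hce]; simp
  have hA1 := List.length_pos_iff.2 hA
  have hB1 := List.length_pos_iff.2 hB
  have hlen : c.length = A.length + B.length + 2 := by
    rw [hce]
    simp only [List.length_cons, List.length_append]
    omega
  obtain ⟨r, hr⟩ : ∃ r, r = A.length + 1 := ⟨_, rfl⟩
  have hr2 : 2 ≤ r := by omega
  have hrn : r + 2 ≤ c.length := by omega
  obtain ⟨u, hu, hu0, hur⟩ : ∃ u : ℤ → V, CycU G c u ∧ u 0 = u0 ∧ u r = b := by
    refine ⟨_, cycU_of hc hne u0, ?_, ?_⟩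
    · simp only [Int.zero_emod, Int.toNat_zero]
      rw [hce]
      rfl
    · have h1 : ((r : ℤ) % (c.length : ℤ)).toNat = r := by
        rw [Int.emod_eq_of_lt (by omega) (by omega)]
        rfl
      simp only [h1]
      rw [List.getD_eq_getElem?_getD, hce, hr, List.getElem?_cons_succ,
        List.getElem?_append_right le_rfl, Nat.sub_self]
      rfl
  have hrAdj : G.Adj (u 0) (u r) := by rw [hu0, hur]; exact hub
  have hex1 : ∃ s, ∀ x ∈ c, ∀ y ∈ c, F s x = F s y := ⟨h, hFh⟩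
  obtain ⟨s1, hs1⟩ : ∃ s1, s1 = Nat.find hex1 := ⟨_, rfl⟩
  have hs1a : ∀ x ∈ c, ∀ y ∈ c, F s1 x = F s1 y := by rw [hs1]; exact Nat.find_spec hex1
  have hs1b : s1 ≤ h := by rw [hs1]; exact Nat.find_min' hex1 hFh
  have hs1c : ∀ s, s < s1 → ¬ (∀ x ∈ c, ∀ y ∈ c, F s x = F s y) := by
    intro s hs
    rw [hs1] at hs
    exact Nat.find_min hex1 hs
  have hs1d : 1 ≤ s1 := by
    by_contra h0
    have h1 : s1 = 0 := by omega
    rw [h1] at hs1a
    have h2 := hs1a _ (hu.mem 0) _ (hu.mem 1)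
    rw [hF0, hF0] at h2
    have h3 := hu.adj 0
    rw [zero_add, h2] at h3
    exact G.loopless.irrefl _ h3
  obtain ⟨l, hl⟩ : ∃ l, l = m - 2 * s1 := ⟨_, rfl⟩
  have hall : ∀ a b, LP G c l a b → F (s1 - 1) a = F (s1 - 1) b := by
    intro a b hp
    obtain ⟨ha, hb⟩ := hmem _ _ _ hp
    rw [hl] at hp
    exact H s1 hs1d hs1b a b hp (hs1a a ha b hb)
  have hper2 : PerZ (fun i => F (s1 - 1) (u i)) 2 := by
    have h1 := lemmaQ (f := fun i => F (s1 - 1) (u i)) (n := c.length) (l := l) (rf := r)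
      (rb := r) (e := 0) (by omega) (by omega) (by omega) (by omega) hr2 hrn
      (fun i => by simp only [hu.per i])
      (fun i => (hall _ _ (lp_arc hu (by omega) i)).symm)
      (fun h1 s t hst => hall _ _ (lp_FF hu hrAdj hst h1 (by omega)))
      (fun h1 s t hst => hall _ _ (lp_BB hu hrAdj hst h1 (by omega)))
      (fun s t hst h1 h2 => hall _ _ (lp_FB hu hrAdj hst h1 h2))
      (fun s t hst h1 h2 => hall _ _ (lp_BF hu hrAdj hst h1 h2))
    simpa using h1
  have hne01 : F (s1 - 1) (u 0) ≠ F (s1 - 1) (u 1) := by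
    intro h01
    apply hs1c (s1 - 1) (by omega)
    have h2 : ∀ i, F (s1 - 1) (u i) = F (s1 - 1) (u 0) := by
      intro i
      have h3 : F (s1 - 1) (u i) = F (s1 - 1) (u (i % 2)) := par_two hper2 i
      rw [h3]
      rcases Int.emod_two_eq_zero_or_one i with h4 | h4
      · rw [h4]
      · rw [h4, h01]
    intro x hx y hy
    obtain ⟨i, _, _, rfl⟩ := hu.surj x hx
    obtain ⟨j, _, _, rfl⟩ := hu.surj y hy
    rw [h2 i, h2 j]
  have hodd : ∀ i j : ℤ, F (s1 - 1) (u i) = F (s1 - 1) (u j) → (i - j) % 2 = 0 := by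
    intro i j hij
    have h3 : F (s1 - 1) (u i) = F (s1 - 1) (u (i % 2)) := par_two hper2 i
    have h4 : F (s1 - 1) (u j) = F (s1 - 1) (u (j % 2)) := par_two hper2 j
    rw [h3, h4] at hij
    rcases Int.emod_two_eq_zero_or_one i with h5 | h5 <;>
      rcases Int.emod_two_eq_zero_or_one j with h6 | h6
    · omega
    · rw [h5, h6] at hij
      exact absurd hij hne01
    · rw [h5, h6] at hij
      exact absurd hij.symm hne01
    · omega
  have hneven : c.length % 2 = 0 := by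
    have h1 := hodd (0 + c.length) 0 (by rw [hu.per])
    omega
  have hleven : l % 2 = 0 := by
    have h1 := hodd 0 (0 + l) (hall _ _ (lp_arc hu (by omega) 0))
    omega
  have hrodd : r % 2 = 1 := by
    have h1 := hodd _ _ (hall _ _ (lp_FB hu hrAdj (s := l - r) (t := l - 1 - (l - r)) (l := l)
      (by omega) (by omega) (by omega)))
    omega
  have hex2 : ∃ s, ∀ i j : ℤ, F s (u (2 * i)) = F s (u (2 * j)) := by
    refine ⟨s1 - 1, ?_⟩
    intro i j
    have h3 : F (s1 - 1) (u (2 * i)) = F (s1 - 1) (u (2 * i % 2)) := par_two hper2 (2 * i)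
    have h4 : F (s1 - 1) (u (2 * j)) = F (s1 - 1) (u (2 * j % 2)) := par_two hper2 (2 * j)
    rw [h3, h4]
    congr 2
    omega
  obtain ⟨s2, hs2⟩ : ∃ s2, s2 = Nat.find hex2 := ⟨_, rfl⟩
  have hs2a : ∀ i j : ℤ, F s2 (u (2 * i)) = F s2 (u (2 * j)) := by
    rw [hs2]; exact Nat.find_spec hex2
  have hs2b : s2 ≤ s1 - 1 := by
    rw [hs2]
    apply Nat.find_min' hex2
    intro i j
    have h3 : F (s1 - 1) (u (2 * i)) = F (s1 - 1) (u (2 * i % 2)) := par_two hper2 (2 * i)
    have h4 : F (s1 - 1) (u (2 * j)) = F (s1 - 1) (u (2 * j % 2)) := par_two hper2 (2 * j)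
    rw [h3, h4]
    congr 2
    omega
  have hs2c : ∀ s, s < s2 → ¬ (∀ i j : ℤ, F s (u (2 * i)) = F s (u (2 * j))) := by
    intro s hs
    rw [hs2] at hs
    exact Nat.find_min hex2 hs
  have hs2d : 1 ≤ s2 := by
    by_contra h0
    have h1 : s2 = 0 := by omega
    rw [h1] at hs2a
    have h2 := hs2a 1 0
    rw [hF0, hF0] at h2
    have h3 := hu.inj _ _ h2
    have h4 := Int.le_of_dvd (by omega) h3
    omega
  obtain ⟨l2, hl2⟩ : ∃ l2, l2 = m - 2 * s2 := ⟨_, rfl⟩
  have hall2 : ∀ (x y : V) (i j : ℤ), LP G c l2 x y → x = u (2 * i) → y = u (2 * j) →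
      F (s2 - 1) (u (2 * i)) = F (s2 - 1) (u (2 * j)) := by
    intro x y i j hp hx hy
    rw [hx, hy, hl2] at hp
    exact H s2 hs2d (by omega) _ _ hp (hs2a i j)
  apply hs2c (s2 - 1) (by omega)
  have hper1 : PerZ (fun i => F (s2 - 1) (u (2 * i))) 1 := by
    have h1 := lemmaQ (f := fun i => F (s2 - 1) (u (2 * i))) (n := c.length / 2) (l := l2 / 2)
      (rf := r / 2 + 1) (rb := r / 2) (e := 1) le_rfl rfl (by omega) (by omega) (by omega)
      (by omega)
      (fun i => by
        have e : 2 * (i + ((c.length / 2 : ℕ) : ℤ)) = 2 * i + c.length := by omega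
        simp only [e, hu.per (2 * i)])
      (fun i => (hall2 _ _ i (i + ((l2 / 2 : ℕ) : ℤ)) (lp_arc hu (l := l2) (by omega) (2 * i))
        rfl (by congr 1 <;> omega)).symm)
      (fun h1 s t hst => hall2 _ _ (-s) (((r / 2 + 1 : ℕ) : ℤ) + t)
        (lp_FF hu hrAdj (s := 2 * s) (t := 2 * t + 1) (l := l2) (by omega) (by omega) (by omega))
        (by congr 1 <;> omega) (by congr 1 <;> omega))
      (fun h1 s t hst => hall2 _ _ s (((r / 2 : ℕ) : ℤ) - t)
        (lp_BB hu hrAdj (s := 2 * s) (t := 2 * t + 1) (l := l2) (by omega) (by omega) (by omega))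
        (by congr 1 <;> omega) (by congr 1 <;> omega))
      (fun s t hst h1 h2 => hall2 _ _ (-s) (((r / 2 : ℕ) : ℤ) - t)
        (lp_FB hu hrAdj (s := 2 * s) (t := 2 * t + 1) (l := l2) (by omega) (by omega) (by omega))
        (by congr 1 <;> omega) (by congr 1 <;> omega))
      (fun s t hst h1 h2 => hall2 _ _ s (((r / 2 + 1 : ℕ) : ℤ) + t)
        (lp_BF hu hrAdj (s := 2 * s) (t := 2 * t + 1) (l := l2) (by omega) (by omega) (by omega))
        (by congr 1 <;> omega) (by congr 1 <;> omega))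
    simpa using h1
  have hc0 : ∀ i, F (s2 - 1) (u (2 * i)) = F (s2 - 1) (u (2 * 0)) := by
    intro i
    have h1 : F (s2 - 1) (u (2 * (0 + i * 1))) = F (s2 - 1) (u (2 * 0)) := hper1.mul i 0
    rw [← h1]
    congr 2
    ring
  intro i j
  rw [hc0 i, hc0 j]

end Vale.Agent.P048.L
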