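import Vale.Agent.P048.FinN
import Vale.Agent.P048.Dirac
import Vale.Agent.P048.Theta

namespace Vale.Agent.P048.L

open Finset

variable {V : Type*} [DecidableEq V] {G : SimpleGraph V}

/-- the key lemma -/
theorem rk {O : Finset V} {m k : ℕ} (hk : 3 ≤ k) (hm : m ≤ 2 * k + 1) (hno : ¬ HasCyc G O m)
    (hcl : ∀ h Lev par, 2 * h < m → Tree G O h Lev par →
      ∀ K, K ⊆ Lev h → IsClq G K → K.card ≤ k) : RK G m k O := by
  classical
  intro h Lev par hh T
  by_contra hcon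
  obtain ⟨c, S, hS, hR⟩ := exists_minRich hcon
  have hc2 : 2 ≤ c := hR.two_le (fun K hK1 hK2 => hcl h Lev par hh T K (hK1.trans hS) hK2)
  obtain ⟨u0, A, b, B, h1, h2, h3, h4, h5, h6⟩ := dirac_chord hk (fun v hv => hR.deg hv)
    hR.conn (fun v hv => hR.cut hv) (hR.big hc2)
  obtain ⟨s, p, u, v, q1, q2, q3, q4, q5, q6, q7, q8, q9⟩ := theta_close (m := m) (h := h) h1 rfl
    h3 h4 h5 (by omega) hh (fun s => par^[s]) (fun _ => rfl) (by
      intro x hx y hy
      exact T.root_eq (hS (h2 x hx)) (hS (h2 y hy)))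
  exact hno (T.close q3 (fun x hx => hS (h2 x (q4 x hx))) q6 q7 q2 q8 q9 q5)

theorem rk_simple {O : Finset V} {m k : ℕ} (hk : 3 ≤ k) (hm : m ≤ 2 * k + 1)
    (hno : ¬ HasCyc G O m) (hcl : ∀ K, K ⊆ O → IsClq G K → K.card ≤ k) : RK G m k O :=
  rk hk hm hno (fun h _ _ _ T K hK hKc => hcl K (hK.trans (T.sub h le_rfl)) hKc)

theorem upper_17 {m : ℕ} (h17 : 17 ≤ m) (h167 : m ≤ 167) :
    ∀ a, a + 1 ≤ m → ∀ W : Finset V, AlphaLe G W a → (m - 1) * a + 1 ≤ W.card →
      HasCyc G W m := by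
  have h := allb_spec chk_17_167 (m - 17) (by omega)
  have e : m - 17 + 17 = m := by omega
  rw [e] at h
  refine upper_chkAll (w := 3 * m / 5) (by omega) (by omega) (by omega) ?_ h
  intro k hk O hno hcl
  exact rk_simple (by omega) (by omega) hno hcl

theorem upper_15 : ∀ a, a + 1 ≤ 15 → ∀ W : Finset V, AlphaLe G W a → (15 - 1) * a + 1 ≤ W.card →
      HasCyc G W 15 := by
  refine upper_chkAll (w := 9) (by omega) (by omega) (by omega) ?_ chk_15
  intro k hk O hno hcl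
  exact rk_simple (by omega) (by omega) hno hcl

end Vale.Agent.P048.L
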