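import Vale.Agent.P048.Big3
import Vale.Agent.P048.Ender2

namespace Vale.Agent.P048.L

open Finset

variable {V : Type*} [DecidableEq V] {G : SimpleGraph V}

/-- the statement of the key lemma -/
def RK (G : SimpleGraph V) (m k : ℕ) (O : Finset V) : Prop :=
  ∀ h Lev par, 2 * h < m → Tree G O h Lev par → Bdd G k (Lev h)

noncomputable def chkB (m w : ℕ) : Bool :=
  grw (m - 1) w (m - w) (fun _ j => Nat.ble m (Nat.mul (2 * w + 1 - m) j)) ((w - 5) / 2 - 1) 1 2 3

noncomputable def chkA (m w : ℕ) : Bool :=
  grw (m - 1) w 0 (fun _ j => Nat.ble m j) ((m - 1) / 2) 0 1 1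

/-- main growth up to clique number `w`, big cliques for `w + 1, ..., m - 1` -/
noncomputable def chkAll (m w : ℕ) : Bool :=
  and (chkA m w) (allb (fun i => chkB m (w + 1 + i)) (m - 1 - w))

theorem upper_chkAll {m w : ℕ} (hm : 3 ≤ m) (hw : 7 ≤ w + 1) (hwm : m + 2 ≤ 2 * (w + 1))
    (hRK : ∀ k, w ≤ k → ∀ O : Finset V, ¬ HasCyc G O m → (∀ K, K ⊆ O → IsClq G K → K.card ≤ k) →
      RK G m k O) (hchk : chkAll m w = true) :
    ∀ a, a + 1 ≤ m → ∀ W : Finset V, AlphaLe G W a → (m - 1) * a + 1 ≤ W.card →
      HasCyc G W m := by
  intro a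
  induction a using Nat.strong_induction_on with
  | _ a ih =>
    intro haA W hW hc
    by_contra hno
    unfold chkAll at hchk
    rw [Bool.and_eq_true] at hchk
    rcases Nat.eq_zero_or_pos a with rfl | ha
    · have := card_zero_of_alphaLe hW
      omega
    · obtain ⟨K, hK1, hK2, hK3⟩ := exists_max_clq G W
      have hmin : ∀ c, c < a → ∀ W', W' ⊆ W → AlphaLe G W' c → W'.card ≤ (m - 1) * c := by
        intro c hca W' hW' hWc
        by_contra hcon
        exact hno ((ih c hca (by omega) W' hWc (by omega)).mono hW')
      have E : Env0 G W a m := ⟨hW, hc, hmin, hno⟩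
      have hkm : K.card < m := by
        by_contra hcon
        push Not at hcon
        obtain ⟨K1, h11, h12⟩ := exists_subset_card_eq hcon
        apply hno
        exact ⟨K1.toList, by rw [length_toList, h12],
          clique_cyc (fun x hx y hy => hK2 x (h11 hx) y (h11 hy)) (by omega),
          fun x hx => hK1 (h11 (mem_toList.1 hx))⟩
      rcases Nat.lt_or_ge w K.card with h1 | h1
      · have h2 := allb_spec hchk.2 (K.card - (w + 1)) (by omega)
        have e1 : w + 1 + (K.card - (w + 1)) = K.card := by omega
        rw [e1] at h2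
        refine big3 (g := m - K.card) (H := (K.card - 5) / 2) E ha hK2 hK1 (by omega) (by omega)
          (by omega) (A := m - 1) (by omega) ?_ (by omega) (by omega) ?_
        · intro O' hO' h Lev par hh T
          exact hRK K.card (by omega) O' (fun hc => hno (hc.mono hO'))
            (fun K' h1 h2 => hK3 K' (h1.trans hO') h2) h Lev par hh T
        · have e2 : m - 1 + 1 = m := by omega
          rw [e2]
          exact h2
      · refine main_growth (k := w) E (by omega) (A := m - 1) (by omega) (H := (m - 1) / 2) ?_ ?_
        · intro h hh Lev par T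
          exact hRK w le_rfl W hno (fun K' h2 h3 => (hK3 K' h2 h3).trans h1) (h + 1) Lev par
            (by omega) T
        · have e2 : m - 1 + 1 = m := by omega
          rw [e2]
          exact hchk.1

theorem chk_17_167 : allb (fun i => chkAll (i + 17) (3 * (i + 17) / 5)) 151 = true := by
  decide +kernel

theorem chk_15 : chkAll 15 9 = true := by
  decide +kernel

end Vale.Agent.P048.L
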