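import Vale.Agent.P048.Big3

namespace Vale.Agent.P048.L

open Finset

variable {V : Type*} [DecidableEq V] {G : SimpleGraph V} {O W K : Finset V} {a m g : ℕ}

theorem sum_att2 (P : V → Prop) [DecidablePred P] : ∀ (T : List (List V)),
    (∀ e ∈ T, 2 * e.countP (fun x => decide (P x)) + 1 ≤ e.length) →
    2 * T.flatten.countP (fun x => decide (P x)) + T.length ≤ T.flatten.length
  | [], _ => by simp
  | e :: T, h1 => by
    have ih := sum_att2 P T (fun e he => h1 e (List.mem_cons_of_mem _ he))
    have h3 := h1 e (List.mem_cons_self)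
    rw [List.flatten_cons, List.countP_append, List.length_append, List.length_cons]
    omega

/-- Refined attachment bound. -/
theorem att_le2 {S : List (List V)} (hS : MaxSys G W K m S) {e : List V} (he : e ∈ S) {p x : V}
    (hp : p ∈ e.head?) (hx : x ∈ W \ Zs S) (hpx : G.Adj p x) {r : ℕ} (hr : 2 * r + 2 ≤ K.card)
    {D : Finset V} (hD : D = ball G (W \ Zs S) x r) [DecidablePred (Att G D)] :
    2 * ((Zs S).filter (Att G D)).card + S.length ≤ S.flatten.length + 2 := by
  have hDO : D ⊆ W \ Zs S := hD ▸ ball_subset hx r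
  have hc : ((Zs S).filter (Att G D)).card = S.flatten.countP (fun y => decide (Att G D y)) := by
    rw [List.countP_eq_length_filter, ← List.toFinset_card_of_nodup (hS.sys.nodup.filter _)]
    congr 1
    ext y
    rw [mem_filter, List.mem_toFinset, List.mem_filter, mem_Zs]
    simp
  have hcons : ∀ e' ∈ S, ∀ A B a b, e' = A ++ B → a ∈ A.getLast? → b ∈ B.head? →
      ¬ (Att G D a ∧ Att G D b) := by
    intro e' he' A B a b hAB ha hb hab
    rw [hD] at hab
    obtain ⟨q, hq1, _, hq3⟩ := ball_bridge hab.1 hab.2
    exact no_ins hS he' hAB ha hb (ball_subset hx r) (n := 2 * r + 1) (by omega) q hq1 hq3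
  obtain ⟨S1, S2, hSeq⟩ := List.append_of_mem he
  have hperm : S.Perm (e :: (S1 ++ S2)) := by rw [hSeq]; exact List.perm_middle
  generalize S1 ++ S2 = T at hperm
  have hbr : ∀ w, Att G D w → ∃ q, Bridge G D p w q ∧ q.length ≤ r + 1 := by
    rintro w ⟨z, hz, hwz⟩
    rw [hD] at hz
    obtain ⟨q, q1, q2, q3, q4, q5⟩ := ball_chain r z hz
    rw [← hD] at q2
    refine ⟨q, ⟨?_, q1, q2, ?_, ?_⟩, q5⟩
    · rintro rfl; simp at q3
    · intro h hh
      rw [q3] at hh
      rw [← Option.some.inj hh]
      exact hpx
    · intro h hh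
      rw [q4] at hh
      rw [← Option.some.inj hh]
      exact hwz.symm
  have hends : ∀ e' ∈ T, (∀ a ∈ e'.head?, ¬ Att G D a) ∧ (∀ a ∈ e'.getLast?, ¬ Att G D a) := by
    intro e' he'
    obtain ⟨T1, T2, hTeq⟩ := List.append_of_mem he'
    have hp2 : S.Perm (e :: e' :: (T1 ++ T2)) := by
      refine hperm.trans ?_
      rw [hTeq]
      exact List.Perm.cons _ List.perm_middle
    constructor
    · intro w hw hatt
      obtain ⟨q, hq1, hq2⟩ := hbr w hatt
      exact no_join hS hp2 hp (Or.inl hw) hDO (n := r + 1) (by omega) q hq1 hq2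
    · intro w hw hatt
      obtain ⟨q, hq1, hq2⟩ := hbr w hatt
      exact no_join hS hp2 hp (Or.inr hw) hDO (n := r + 1) (by omega) q hq1 hq2
  rw [hc]
  have e1 : S.flatten.countP (fun y => decide (Att G D y)) =
      e.countP (fun y => decide (Att G D y)) + T.flatten.countP (fun y => decide (Att G D y)) := by
    rw [hperm.flatten.countP_eq, List.flatten_cons, List.countP_append]
  have e3 : S.flatten.length = e.length + T.flatten.length := by
    rw [hperm.flatten.length_eq, List.flatten_cons, List.length_append]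
  have e4 : S.length = T.length + 1 := by
    rw [hperm.length_eq, List.length_cons]
  have hT : ∀ e' ∈ T, e' ∈ S := fun e' he' => hperm.mem_iff.2 (List.mem_cons_of_mem _ he')
  have h1 := sum_att2 (Att G D) T (by
    intro e' he'
    exact (cons_count (Att G D) e' (hcons e' (hT e' he'))).2.2.2 (hends e' he').1 (hends e' he').2
      (hS.sys.piece e' (hT e' he')).ne)
  have h2 := (cons_count (Att G D) e (hcons e he)).1
  omega

/-- pieces of a maximal system have pairwise far balls -/
theorem far_final (E : Env0 G W a m) (ha : 1 ≤ a) (hm : 1 ≤ m) {S : List (List V)}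
    (hS : MaxSys G W K m S) {R c : ℕ} (hR : 2 * R + 3 ≤ K.card)
    (hI : ∀ e ∈ S, ∀ p ∈ e.head?, ∀ x ∈ W \ Zs S, G.Adj p x →
      ∃ I, I ⊆ ball G (W \ Zs S) x R ∧ Ind G I ∧ c ≤ I.card) : S.length * c ≤ a := by
  classical
  have hout : ∀ e : List V, ∃ x, e ∈ S → x ∈ W \ Zs S ∧ ∃ p ∈ e.head?, G.Adj p x := by
    intro e
    by_cases he : e ∈ S
    · have hp := hS.sys.piece e he
      obtain ⟨p, hpe⟩ : ∃ p, p ∈ e.head? := by
        rcases e with _ | ⟨p, e'⟩
        · exact absurd rfl hp.ne
        · exact ⟨p, rfl⟩
      have hpm : p ∈ e := List.mem_of_mem_head? hpe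
      have hpf : p ∈ S.flatten := by
        rw [List.mem_flatten]
        exact ⟨e, he, hpm⟩
      obtain ⟨x, hx, hpx⟩ := exists_out E ha hm hS hpf (hp.mem p hpm)
      exact ⟨x, fun _ => ⟨hx, p, hpe, hpx⟩⟩
    · obtain ⟨x, _⟩ : K.Nonempty := by rw [← card_pos]; omega
      exact ⟨x, fun h => absurd h he⟩
  choose X hX using hout
  have hbW : ∀ e ∈ S, ∀ r, ball G (W \ Zs S) (X e) r ⊆ W \ Zs S := fun e he r =>
    ball_subset (hX e he).1 r
  have hbig : ∀ e, ∃ I, e ∈ S → I ⊆ ball G (W \ Zs S) (X e) R ∧ Ind G I ∧ c ≤ I.card := by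
    intro e
    by_cases he : e ∈ S
    swap
    · exact ⟨∅, fun h => absurd h he⟩
    obtain ⟨hx, p, hpe, hpx⟩ := hX e he
    obtain ⟨I, hI'⟩ := hI e he p hpe (X e) hx hpx
    exact ⟨I, fun _ => hI'⟩
  choose I hI using hbig
  have hSn : S.Nodup := by
    have hfn := hS.sys.nodup
    rw [List.nodup_flatten] at hfn
    refine List.Pairwise.imp_of_mem ?_ hfn.2
    rintro e e' he he' hd rfl
    have hp := hS.sys.piece e he
    obtain ⟨p, hpe⟩ : ∃ p, p ∈ e := by
      rcases e with _ | ⟨p, e'⟩
      · exact absurd rfl hp.ne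
      · exact ⟨p, by simp⟩
    exact hd hpe hpe
  have hfar : S.Pairwise (fun e e' => Far G (ball G (W \ Zs S) (X e) R)
      (ball G (W \ Zs S) (X e') R)) := by
    refine List.Pairwise.imp_of_mem ?_ hSn
    intro e e' he he' hne
    by_contra hnf
    obtain ⟨hx, p, hpe, hpx⟩ := hX e he
    obtain ⟨hx', p', hpe', hpx'⟩ := hX e' he'
    obtain ⟨q, hq, hql⟩ := touch_chain (A := {X e}) (B := {X e'}) hx hx' (mem_singleton_self _)
      (mem_singleton_self _) hnf
    obtain ⟨S1, S2, hSeq⟩ := List.append_of_mem he
    have hp1 : S.Perm (e :: (S1 ++ S2)) := by rw [hSeq]; exact List.perm_middle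
    have he2' : e' ∈ S1 ++ S2 := by
      have := hp1.mem_iff.1 he'
      rw [List.mem_cons] at this
      exact this.resolve_left (fun h => hne h.symm)
    obtain ⟨T1, T2, hTeq⟩ := List.append_of_mem he2'
    have hp2 : S.Perm (e :: e' :: (T1 ++ T2)) := by
      refine hp1.trans ?_
      rw [hTeq]
      exact List.Perm.cons _ List.perm_middle
    refine no_join hS hp2 hpe (Or.inl hpe') (Subset.refl (W \ Zs S)) (n := 2 * R + 2)
      (by omega) q ⟨?_, hq.1, hq.2.1, ?_, ?_⟩ hql
    · rintro rfl
      obtain ⟨_, _, _, h⟩ := hq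
      simp at h
    · intro h hh
      obtain ⟨z, hz, hzq⟩ := hq.2.2.1
      rw [mem_singleton] at hz
      rw [hzq] at hh
      rw [← Option.some.inj hh, hz]
      exact hpx
    · intro h hh
      obtain ⟨z, hz, hzq⟩ := hq.2.2.2
      rw [mem_singleton] at hz
      rw [hzq] at hh
      rw [← Option.some.inj hh, hz]
      exact hpx'.symm
  obtain ⟨J, hJ1, hJ2, hJ3, _⟩ := far_sum (U := W) (c := c) S _ I hfar (by
      intro e he
      obtain ⟨h1, h2, h3⟩ := hI e he
      exact ⟨h1, (hbW e he _).trans sdiff_subset, h2, h3⟩)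
  have h1 := E.hW J hJ1 hJ2
  omega

theorem star (E : Env0 G W a m) (ha : 1 ≤ a) (ham : a + 1 ≤ m) (hK : IsClq G K) (hKW : K ⊆ W)
    (hm : K.card + 4 = m) (h6 : 6 ≤ K.card) (hmax : ∀ K', K' ⊆ W → IsClq G K' → K'.card ≤ K.card)
    {u y1 z y2 v : V} (hu : u ∈ K) (hv : v ∈ K) (hn : [u, y1, z, y2, v].Nodup)
    (hc : [u, y1, z, y2, v].IsChain G.Adj) (hy1 : y1 ∉ K) (hz : z ∉ K) (hy2 : y2 ∉ K)
    (hy1W : y1 ∈ W) (hzW : z ∈ W) (hy2W : y2 ∈ W) : False := by
  classical
  obtain ⟨hi1, hi2⟩ := sys_init (G := G) (W := W) (K := (K.erase u).erase v)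
    (((erase_subset _ _).trans (erase_subset _ _)).trans hKW)
  obtain ⟨S0, hS0⟩ : ∃ S0, S0 = ((K.erase u).erase v).toList.map (fun x => [x]) := ⟨_, rfl⟩
  rw [← hS0] at hi1 hi2
  have huv : u ≠ v := by
    rintro rfl
    simp at hn
  have hflat : ∀ x, x ∈ S0.flatten ↔ x ∈ K ∧ x ≠ u ∧ x ≠ v := by
    intro x
    rw [hi2, mem_toList, mem_erase, mem_erase]
    tauto
  have hsys : Sys G W K ([u, y1, z, y2, v] :: S0) := by
    refine ⟨?_, ?_⟩
    · intro e he
      rw [List.mem_cons] at he
      rcases he with rfl | he
      · refine ⟨by simp, hc, ?_, ?_, ?_⟩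
        · intro x hx
          simp only [List.mem_cons, List.not_mem_nil, or_false] at hx
          rcases hx with rfl | rfl | rfl | rfl | rfl
          · exact hKW hu
          · exact hy1W
          · exact hzW
          · exact hy2W
          · exact hKW hv
        · intro x hx
          simp only [List.head?_cons, Option.mem_def, Option.some.injEq] at hx
          rw [← hx]; exact hu
        · intro x hx
          simp only [List.getLast?_cons_cons, List.getLast?_singleton, Option.mem_def,
            Option.some.injEq] at hx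
          rw [← hx]; exact hv
      · have h1 := hi1.piece e he
        refine ⟨h1.ne, h1.chain, h1.mem, ?_, ?_⟩
        · intro x hx
          have := h1.hd x hx
          rw [mem_erase, mem_erase] at this
          exact this.2.2
        · intro x hx
          have := h1.lt x hx
          rw [mem_erase, mem_erase] at this
          exact this.2.2
    · rw [List.flatten_cons, List.nodup_append]
      refine ⟨hn, hi1.nodup, ?_⟩
      rintro x hx y hy rfl
      rw [hflat] at hy
      simp only [List.mem_cons, List.not_mem_nil, or_false] at hx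
      rcases hx with rfl | rfl | rfl | rfl | rfl
      · exact hy.2.1 rfl
      · exact hy1 hy.1
      · exact hz hy.1
      · exact hy2 hy.1
      · exact hy.2.2 rfl
  have hlen0 : S0.flatten.length + 2 = K.card := by
    rw [hi2, length_toList, card_erase_of_mem (mem_erase.2 ⟨huv.symm, hv⟩), card_erase_of_mem hu]
    omega
  have hSlen : S0.length + 2 = K.card := by
    rw [hS0, List.length_map, length_toList, card_erase_of_mem (mem_erase.2 ⟨huv.symm, hv⟩),
      card_erase_of_mem hu]
    omega
  have hlen : ([u, y1, z, y2, v] :: S0).flatten.length + 1 = m := by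
    rw [List.flatten_cons, List.length_append]
    simp only [List.length_cons, List.length_nil]
    omega
  have hfull : ∀ x ∈ K, x ∈ ([u, y1, z, y2, v] :: S0).flatten := by
    intro x hx
    rw [List.flatten_cons, List.mem_append, hflat]
    by_cases h1 : x = u
    · left; rw [h1]; simp
    · by_cases h2 : x = v
      · left; rw [h2]; simp
      · right; exact ⟨hx, h1, h2⟩
  have hS : MaxSys G W K m ([u, y1, z, y2, v] :: S0) := by
    refine ⟨hsys, hfull, by omega, ?_, ?_⟩
    · intro e he A R B heq hA hB hAl hBh hRK hRo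
      have hR : R = [] := List.length_eq_zero_iff.1 (by omega)
      subst hR
      rw [List.mem_cons] at he
      rcases he with rfl | he
      · rw [List.append_nil] at heq
        rcases A with _ | ⟨a1, A⟩
        · exact hA rfl
        rw [List.cons_append, List.cons.injEq] at heq
        obtain ⟨rfl, heq⟩ := heq
        rcases A with _ | ⟨a2, A⟩
        · rw [List.nil_append] at heq
          rw [← heq] at hBh
          exact hy1 (hBh y1 rfl)
        rw [List.cons_append, List.cons.injEq] at heq
        obtain ⟨rfl, heq⟩ := heq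
        rcases A with _ | ⟨a3, A⟩
        · exact hy1 (hAl y1 rfl)
        rw [List.cons_append, List.cons.injEq] at heq
        obtain ⟨rfl, heq⟩ := heq
        rcases A with _ | ⟨a4, A⟩
        · exact hz (hAl z rfl)
        rw [List.cons_append, List.cons.injEq] at heq
        obtain ⟨rfl, heq⟩ := heq
        rcases A with _ | ⟨a5, A⟩
        · exact hy2 (hAl y2 rfl)
        rw [List.cons_append, List.cons.injEq] at heq
        obtain ⟨rfl, heq⟩ := heq
        exact hB (List.append_eq_nil_iff.1 heq.symm).2
      · rw [hS0, List.mem_map] at he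
        obtain ⟨x, _, rfl⟩ := he
        have h1 := congrArg List.length heq
        rw [List.length_append, List.length_append, List.length_singleton] at h1
        have h2 := List.length_pos_iff.2 hA
        have h3 := List.length_pos_iff.2 hB
        omega
    · intro S' h1 h2 h3 h4
      exact E.hno (Sys.fix (g := 4) hK (by omega) hm _ S' h1 h2 (Nat.le_add_left _ _) (by omega) h4)
  have hfin := far_final (R := 1) (c := 2) E ha (by omega) hS (by omega) (by
    intro e he p hp x hx hpx
    by_contra hcon
    push Not at hcon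
    have h0 := nbhd_att E (r := 0) hx (J := {x}) (singleton_subset_iff.2 (self_mem_ball 0))
      (ind_singleton _) (by rw [card_singleton])
    have h2 := att_le2 hS he hp hx hpx (r := 0) (by omega) rfl
    rw [card_singleton, Nat.zero_add] at h0
    have h3 : IsClq G (ball G (W \ Zs ([u, y1, z, y2, v] :: S0)) x 1) := by
      intro s hs t ht hst
      by_contra hadj
      have := hcon {s, t} (by
        intro w hw
        rw [mem_insert, mem_singleton] at hw
        rcases hw with rfl | rfl
        · exact hs
        · exact ht) (by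
        intro w hw w' hw'
        rw [mem_insert, mem_singleton] at hw hw'
        rcases hw with rfl | rfl <;> rcases hw' with rfl | rfl
        · exact G.loopless.irrefl _
        · exact hadj
        · exact fun h => hadj h.symm
        · exact G.loopless.irrefl _)
      rw [card_pair hst] at this
      omega
    have h4 := hmax _ ((ball_subset hx 1).trans sdiff_subset) h3
    rw [List.length_cons] at h2
    omega)
  rw [List.length_cons] at hfin
  omega

end Vale.Agent.P048.L
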