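import Vale.Agent.P048.Grow3

/-! P048: vertices with three independent neighbours, and sets with independence number two. -/

namespace Vale.Agent.P048.L

open Finset

variable {V : Type*} [DecidableEq V] {G : SimpleGraph V}

/-- the neighbours of `x` inside `W` -/
noncomputable def nb (G : SimpleGraph V) (W : Finset V) (x : V) : Finset V := by
  classical exact W.filter (G.Adj x)

omit [DecidableEq V] in
theorem mem_nb {W : Finset V} {x y : V} : y ∈ nb G W x ↔ y ∈ W ∧ G.Adj x y := by
  classical
  unfold nb
  rw [mem_filter]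

/-- `N` is a disjoint union of two non-adjacent cliques -/
structure TwoCl (G : SimpleGraph V) (N A B : Finset V) : Prop where
  un : ∀ x, x ∈ N ↔ x ∈ A ∨ x ∈ B
  ne1 : A.Nonempty
  ne2 : B.Nonempty
  c1 : IsClq G A
  c2 : IsClq G B
  dj : ∀ x ∈ A, x ∉ B
  far : ∀ x ∈ A, ∀ y ∈ B, ¬ G.Adj x y

omit [DecidableEq V] in
theorem TwoCl.symm {N A B : Finset V} (h : TwoCl G N A B) : TwoCl G N B A where
  un := fun x => by rw [h.un x]; tauto
  ne1 := h.ne2
  ne2 := h.ne1
  c1 := h.c2
  c2 := h.c1
  dj := fun x hx hx' => h.dj x hx' hx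
  far := fun x hx y hy hxy => h.far y hy x hx hxy.symm

theorem TwoCl.card {N A B : Finset V} (h : TwoCl G N A B) : N.card = A.card + B.card := by
  have h1 : N = A ∪ B := by
    ext x
    rw [mem_union]
    exact h.un x
  rw [h1, card_union_of_disjoint]
  rw [disjoint_left]
  exact fun x hx => h.dj x hx

theorem ind_three {x y z : V} (hxy : ¬ G.Adj x y) (hxz : ¬ G.Adj x z) (hyz : ¬ G.Adj y z) :
    Ind G {x, y, z} := by
  have e : ({x, y, z} : Finset V) = insert x (insert y {z}) := rfl
  rw [e]
  apply ind_insert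
  · apply ind_insert
    · intro u hu v hv
      rw [mem_singleton] at hu hv
      rw [hu, hv]
      exact G.loopless.irrefl _
    · intro u hu
      rw [mem_singleton] at hu
      rw [hu]
      exact hyz
  · intro u hu
    rw [mem_insert, mem_singleton] at hu
    rcases hu with rfl | rfl
    · exact hxy
    · exact hxz

theorem alpha_two {N : Finset V} (h : AlphaLe G N 2) {x y z : V} (hx : x ∈ N) (hy : y ∈ N)
    (hz : z ∈ N) (h1 : x ≠ y) (h2 : x ≠ z) (h3 : y ≠ z) (hxy : ¬ G.Adj x y)
    (hxz : ¬ G.Adj x z) : G.Adj y z := by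
  by_contra hcon
  have h4 := h {x, y, z} (by
    intro u hu
    rw [mem_insert, mem_insert, mem_singleton] at hu
    rcases hu with rfl | rfl | rfl
    · exact hx
    · exact hy
    · exact hz) (ind_three hxy hxz hcon)
  rw [card_eq_three.2 ⟨x, y, z, h1, h2, h3, rfl⟩] at h4
  omega

/-- longest path in a finite set -/
theorem exists_longest {N : Finset V} (hN : N.Nonempty) :
    ∃ p, Pth G p ∧ (∀ x ∈ p, x ∈ N) ∧ p ≠ [] ∧
      ∀ q, Pth G q → (∀ x ∈ q, x ∈ N) → q.length ≤ p.length := by
  classical
  have hb : ∀ q : List V, Pth G q → (∀ x ∈ q, x ∈ N) → q.length ≤ N.card := by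
    intro q hq hqN
    rw [← List.toFinset_card_of_nodup hq.1]
    apply card_le_card
    intro x hx
    exact hqN x (List.mem_toFinset.1 hx)
  obtain ⟨x, hx⟩ := hN
  have hP : ∃ q, Pth G q ∧ (∀ x ∈ q, x ∈ N) ∧ q.length = 1 := by
    refine ⟨[x], ⟨by simp, by simp⟩, ?_, rfl⟩
    intro y hy
    rw [List.mem_singleton] at hy
    rw [hy]
    exact hx
  have h1 : 1 ≤ N.card := by
    rw [Nat.one_le_iff_ne_zero, ← Nat.pos_iff_ne_zero, card_pos]
    exact ⟨x, hx⟩
  obtain ⟨p, p1, p2, p3⟩ := Nat.findGreatest_spec
    (P := fun n => ∃ q, Pth G q ∧ (∀ x ∈ q, x ∈ N) ∧ q.length = n) h1 hP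
  have hle : 1 ≤ Nat.findGreatest (fun n => ∃ q, Pth G q ∧ (∀ x ∈ q, x ∈ N) ∧ q.length = n)
    N.card := Nat.le_findGreatest h1 hP
  refine ⟨p, p1, p2, ?_, ?_⟩
  · rintro rfl
    rw [List.length_nil] at p3
    omega
  · intro q hq hqN
    rw [p3]
    exact Nat.le_findGreatest (hb q hq hqN) ⟨q, hq, hqN, rfl⟩

/-- A set with independence number two contains a path with any given number of vertices, or is
a disjoint union of two non-adjacent cliques. -/
theorem ham_two {N : Finset V} {l : ℕ} (hα : AlphaLe G N 2) (hl1 : 1 ≤ l) (hl : l ≤ N.card) :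
    (∃ p, Pth G p ∧ (∀ x ∈ p, x ∈ N) ∧ p.length = l) ∨ ∃ A B, TwoCl G N A B := by
  classical
  have hN : N.Nonempty := by
    rw [← card_pos]
    omega
  obtain ⟨p, p1, p2, p3, p4⟩ := exists_longest (G := G) hN
  rcases Nat.lt_or_ge p.length l with hpl | hpl
  · right
    obtain ⟨a, ha⟩ : ∃ a, p.head? = some a := by
      rcases p with _ | ⟨a, p⟩
      · exact absurd rfl p3
      · exact ⟨a, rfl⟩
    obtain ⟨b, hb⟩ := last_of_ne_nil p3
    have hap : a ∈ p := List.mem_of_mem_head? ha
    have hbp : b ∈ p := List.mem_of_getLast? hb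
    -- the ends are not adjacent to outside vertices
    have hA : ∀ z ∈ N, z ∉ p → ¬ G.Adj z a := by
      intro z hz hzp hza
      have := p4 (z :: p) ⟨List.nodup_cons.2 ⟨hzp, p1.1⟩, by
        rw [← List.singleton_append, List.isChain_append]
        refine ⟨by simp, p1.2, ?_⟩
        intro u hu v hv
        simp only [List.getLast?_singleton, Option.mem_def, Option.some.injEq] at hu
        rw [ha] at hv
        rw [← hu, ← Option.some.inj hv]
        exact hza⟩ (by
        intro u hu
        rw [List.mem_cons] at hu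
        rcases hu with rfl | hu
        · exact hz
        · exact p2 u hu)
      rw [List.length_cons] at this
      omega
    have hB : ∀ z ∈ N, z ∉ p → ¬ G.Adj z b := by
      intro z hz hzp hzb
      have := p4 (p ++ [z]) ⟨by
        rw [List.nodup_append]
        refine ⟨p1.1, by simp, ?_⟩
        intro u hu v hv huv
        rw [List.mem_singleton] at hv
        rw [huv, hv] at hu
        exact hzp hu, by
        rw [List.isChain_append]
        refine ⟨p1.2, by simp, ?_⟩
        intro u hu v hv
        rw [hb] at hu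
        simp only [List.head?_cons, Option.mem_def, Option.some.injEq] at hv
        rw [← Option.some.inj hu, ← hv]
        exact hzb.symm⟩ (by
        intro u hu
        rw [List.mem_append, List.mem_singleton] at hu
        rcases hu with hu | rfl
        · exact p2 u hu
        · exact hz)
      rw [List.length_append, List.length_singleton] at this
      omega
    have hfar : ∀ v ∈ p, ∀ z ∈ N, z ∉ p → ¬ G.Adj v z := by
      intro v hv z hz hzp hvz
      obtain ⟨P1, P2, hP⟩ := List.append_of_mem hv
      have hP1 : P1 ≠ [] := by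
        rintro rfl
        rw [List.nil_append] at hP
        rw [hP, List.head?_cons] at ha
        rw [Option.some.inj ha] at hvz
        exact hA z hz hzp hvz.symm
      have hab : a ≠ b := by
        rintro rfl
        rw [hP] at ha hb p1
        rw [head?_append_of_ne _ hP1] at ha
        rw [getLast?_append_cons' _ (by simp)] at hb
        have hd := (List.nodup_append.1 p1.1).2.2
        exact hd a (List.mem_of_mem_head? ha) a (List.mem_of_getLast? hb) rfl
      have hadj : G.Adj a b := by
        apply alpha_two hα hz (p2 a hap) (p2 b hbp) _ _ hab (hA z hz hzp) (hB z hz hzp)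
        · rintro rfl
          exact hzp hap
        · rintro rfl
          exact hzp hbp
      have hq : Pth G (z :: ((v :: P2) ++ P1)) := by
        rw [hP] at p1 ha hb
        rw [head?_append_of_ne _ hP1] at ha
        rw [getLast?_append_cons' _ (by simp)] at hb
        have hc := p1.2
        rw [List.isChain_append] at hc
        refine ⟨?_, ?_⟩
        · rw [List.nodup_cons]
          refine ⟨?_, List.nodup_append_comm.1 p1.1⟩
          intro h
          apply hzp
          rw [hP]
          rw [List.mem_append] at h ⊢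
          exact h.symm
        · rw [← List.singleton_append, List.isChain_append, List.isChain_append]
          refine ⟨by simp, ⟨hc.2.1, hc.1, ?_⟩, ?_⟩
          · intro u hu w hw
            rw [hb] at hu
            rw [ha] at hw
            rw [← Option.some.inj hu, ← Option.some.inj hw]
            exact hadj.symm
          · intro u hu w hw
            simp only [List.getLast?_singleton, Option.mem_def, Option.some.injEq,
              List.cons_append, List.head?_cons] at hu hw
            rw [← hu, ← hw]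
            exact hvz.symm
      have h1 := p4 _ hq (by
        intro u hu
        rw [List.mem_cons, List.mem_append] at hu
        rcases hu with rfl | hu
        · exact hz
        · apply p2
          rw [hP, List.mem_append]
          exact hu.symm)
      have h2 : p.length = P1.length + (v :: P2).length := by rw [hP, List.length_append]
      rw [List.length_cons, List.length_append] at h1
      omega
    obtain ⟨z, hz, hzp⟩ : ∃ z ∈ N, z ∉ p := by
      by_contra hcon
      push Not at hcon
      have h1 : N ⊆ p.toFinset := fun x hx => List.mem_toFinset.2 (hcon x hx)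
      have h2 := card_le_card h1
      rw [List.toFinset_card_of_nodup p1.1] at h2
      omega
    refine ⟨p.toFinset, N \ p.toFinset, ?_, ⟨a, List.mem_toFinset.2 hap⟩,
      ⟨z, mem_sdiff.2 ⟨hz, fun h => hzp (List.mem_toFinset.1 h)⟩⟩, ?_, ?_, ?_, ?_⟩
    · intro x
      rw [mem_sdiff, List.mem_toFinset]
      constructor
      · intro hx
        by_cases hxp : x ∈ p
        · exact Or.inl hxp
        · exact Or.inr ⟨hx, hxp⟩
      · rintro (hx | hx)
        · exact p2 x hx
        · exact hx.1
    · intro x hx y hy hxy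
      rw [List.mem_toFinset] at hx hy
      apply alpha_two hα hz (p2 x hx) (p2 y hy) _ _ hxy (fun h => hfar x hx z hz hzp h.symm)
        (fun h => hfar y hy z hz hzp h.symm)
      · rintro rfl
        exact hzp hx
      · rintro rfl
        exact hzp hy
    · intro x hx y hy hxy
      rw [mem_sdiff, List.mem_toFinset] at hx hy
      apply alpha_two hα (p2 a hap) hx.1 hy.1 _ _ hxy (hfar a hap x hx.1 hx.2)
        (hfar a hap y hy.1 hy.2)
      · rintro rfl
        exact hx.2 hap
      · rintro rfl
        exact hy.2 hap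
    · intro x hx hx'
      exact (mem_sdiff.1 hx').2 hx
    · intro x hx y hy
      rw [mem_sdiff, List.mem_toFinset] at hy
      exact hfar x (List.mem_toFinset.1 hx) y hy.1 hy.2
  · left
    refine ⟨p.take l, ⟨p1.1.sublist (List.take_sublist _ _), ?_⟩, ?_, ?_⟩
    · have := p1.2
      rw [← List.take_append_drop l p, List.isChain_append] at this
      exact this.1
    · intro x hx
      exact p2 x (List.mem_of_mem_take hx)
    · rw [List.length_take]
      omega

theorem nb_split {X : Finset V} {x : V} {m : ℕ} (hx : x ∈ X) (hα : AlphaLe G (nb G X x) 2)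
    (hno : ¬ HasCyc G X m) (hm : 3 ≤ m) (hdeg : m - 1 ≤ (nb G X x).card) :
    ∃ A B, TwoCl G (nb G X x) A B := by
  rcases ham_two (l := m - 1) hα (by omega) hdeg with ⟨p, p1, p2, p3⟩ | h
  · exfalso
    apply hno
    refine ⟨x :: p, ?_, ⟨?_, ?_, ?_⟩, ?_⟩
    · rw [List.length_cons]
      omega
    · rw [List.nodup_cons]
      refine ⟨?_, p1.1⟩
      intro h
      exact G.loopless.irrefl _ (mem_nb.1 (p2 x h)).2
    · rw [← List.singleton_append, List.isChain_append]
      refine ⟨by simp, p1.2, ?_⟩
      intro u hu v hv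
      simp only [List.getLast?_singleton, Option.mem_def, Option.some.injEq] at hu
      rw [← hu]
      exact (mem_nb.1 (p2 v (List.mem_of_mem_head? hv))).2
    · intro u hu v hv
      simp only [List.head?_cons, Option.mem_def, Option.some.injEq] at hv
      rw [← hv]
      have hne : p ≠ [] := by
        rintro rfl
        rw [List.length_nil] at p3
        omega
      rw [← List.singleton_append, getLast?_append_cons' _ hne] at hu
      exact (mem_nb.1 (p2 u (List.mem_of_getLast? hu))).2.symm
    · intro u hu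
      rw [List.mem_cons] at hu
      rcases hu with rfl | hu
      · exact hx
      · exact (mem_nb.1 (p2 u hu)).1
  · exact h

/-- neighbours of `y` that are neither `x` nor neighbours of `x` -/
noncomputable def dn (G : SimpleGraph V) (X : Finset V) (x y : V) : Finset V :=
  nb G X y \ insert x (nb G X x)

theorem mem_dn {X : Finset V} {x y w : V} : w ∈ dn G X x y ↔ w ∈ X ∧ G.Adj y w ∧ w ≠ x ∧
    ¬ G.Adj x w := by
  unfold dn
  rw [mem_sdiff, mem_insert, mem_nb, mem_nb]
  tauto

/-- local structure at a neighbour of `x` -/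
theorem dn_facts {X : Finset V} {m : ℕ} (hdeg : ∀ x ∈ X, m - 1 ≤ (nb G X x).card)
    (hα : ∀ x ∈ X, AlphaLe G (nb G X x) 2) (hno : ¬ HasCyc G X m) (hm : 3 ≤ m) {x y : V}
    {A B : Finset V} (hx : x ∈ X) (T : TwoCl G (nb G X x) A B) (hy : y ∈ A) :
    (dn G X x y).Nonempty ∧ IsClq G (dn G X x y) ∧
      (∀ w ∈ dn G X x y, ∀ u ∈ A, u ≠ y → ¬ G.Adj w u) ∧
      m - 1 ≤ A.card + (dn G X x y).card := by
  have hyx := mem_nb.1 ((T.un y).2 (Or.inl hy))
  obtain ⟨A', B', T', hxA⟩ : ∃ A' B', TwoCl G (nb G X y) A' B' ∧ x ∈ A' := by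
    obtain ⟨A', B', T'⟩ := nb_split hyx.1 (hα y hyx.1) hno hm (hdeg y hyx.1)
    have hxy : x ∈ nb G X y := mem_nb.2 ⟨hx, hyx.2.symm⟩
    rcases (T'.un x).1 hxy with h | h
    · exact ⟨A', B', T', h⟩
    · exact ⟨B', A', T'.symm, h⟩
  have hAA : A' = insert x (A.erase y) := by
    ext u
    rw [mem_insert, mem_erase]
    constructor
    · intro hu
      by_cases hux : u = x
      · exact Or.inl hux
      · right
        have h1 := mem_nb.1 ((T'.un u).2 (Or.inl hu))
        have h2 : G.Adj x u := T'.c1 x hxA u hu (Ne.symm hux)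
        rcases (T.un u).1 (mem_nb.2 ⟨h1.1, h2⟩) with h3 | h3
        · refine ⟨?_, h3⟩
          rintro rfl
          exact G.loopless.irrefl _ h1.2
        · exact absurd h1.2 (T.far y hy u h3)
    · rintro (rfl | ⟨hne, hu⟩)
      · exact hxA
      · have h1 := mem_nb.1 ((T.un u).2 (Or.inl hu))
        have h2 : G.Adj y u := T.c1 y hy u hu (Ne.symm hne)
        rcases (T'.un u).1 (mem_nb.2 ⟨h1.1, h2⟩) with h3 | h3
        · exact h3
        · exact absurd h1.2 (T'.far x hxA u h3)
  have hBD : B' = dn G X x y := by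
    ext w
    rw [mem_dn]
    constructor
    · intro hw
      have h1 := mem_nb.1 ((T'.un w).2 (Or.inr hw))
      refine ⟨h1.1, h1.2, ?_, T'.far x hxA w hw⟩
      rintro rfl
      exact T'.dj _ hxA hw
    · rintro ⟨h1, h2, h3, h4⟩
      rcases (T'.un w).1 (mem_nb.2 ⟨h1, h2⟩) with h5 | h5
      · exact absurd (T'.c1 x hxA w h5 (Ne.symm h3)) h4
      · exact h5
  rw [← hBD]
  refine ⟨T'.ne2, T'.c2, ?_, ?_⟩
  · intro w hw u hu huy hwu
    refine T'.far u ?_ w hw hwu.symm
    rw [hAA, mem_insert, mem_erase]
    exact Or.inr ⟨huy, hu⟩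
  · have h1 := T'.card
    have h2 := hdeg y hyx.1
    have h3 : A'.card = A.card := by
      rw [hAA, card_insert_of_notMem, card_erase_of_mem hy]
      · have : 0 < A.card := card_pos.2 ⟨y, hy⟩
        omega
      · rw [mem_erase]
        rintro ⟨_, h⟩
        exact G.loopless.irrefl _ (mem_nb.1 ((T.un x).2 (Or.inl h))).2
    omega

/-- a path through two cliques sharing one vertex -/
theorem two_clq_path {Q1 Q2 : Finset V} {v y z : V} (h1 : IsClq G Q1) (h2 : IsClq G Q2)
    (hv1 : v ∈ Q1) (hv2 : v ∈ Q2) (hd : ∀ x ∈ Q1, x ∈ Q2 → x = v) (hy : y ∈ Q1) (hyv : y ≠ v)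
    (hz : z ∈ Q2) (hzv : z ≠ v) {t : ℕ} (ht : 3 ≤ t) (ht2 : t + 1 ≤ Q1.card + Q2.card) :
    ∃ p, Pth G p ∧ p.length = t ∧ (∀ x ∈ p, x ∈ Q1 ∨ x ∈ Q2) ∧ p.head? = some y ∧
      p.getLast? = some z := by
  classical
  have c1 : ((Q1.erase v).erase y).card = Q1.card - 2 := by
    rw [card_erase_of_mem (mem_erase.2 ⟨hyv, hy⟩), card_erase_of_mem hv1]
    omega
  have c2 : ((Q2.erase v).erase z).card = Q2.card - 2 := by
    rw [card_erase_of_mem (mem_erase.2 ⟨hzv, hz⟩), card_erase_of_mem hv2]
    omega
  have hq1 : 2 ≤ Q1.card := by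
    have : ({y, v} : Finset V) ⊆ Q1 := by
      intro u hu
      rw [mem_insert, mem_singleton] at hu
      rcases hu with rfl | rfl
      · exact hy
      · exact hv1
    have := card_le_card this
    rwa [card_pair hyv] at this
  have hq2 : 2 ≤ Q2.card := by
    have : ({z, v} : Finset V) ⊆ Q2 := by
      intro u hu
      rw [mem_insert, mem_singleton] at hu
      rcases hu with rfl | rfl
      · exact hz
      · exact hv2
    have := card_le_card this
    rwa [card_pair hzv] at this
  obtain ⟨s1, s2, hs, hs1, hs2⟩ : ∃ s1 s2, s1 + s2 + 3 = t ∧ s1 ≤ Q1.card - 2 ∧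
      s2 ≤ Q2.card - 2 := by
    rcases Nat.lt_or_ge (t - 3) (Q1.card - 2) with h | h
    · exact ⟨t - 3, 0, by omega, by omega, by omega⟩
    · exact ⟨Q1.card - 2, t - 3 - (Q1.card - 2), by omega, by omega, by omega⟩
  obtain ⟨S1, hS1, hS1c⟩ := exists_subset_card_eq (show s1 ≤ ((Q1.erase v).erase y).card by omega)
  obtain ⟨S2, hS2, hS2c⟩ := exists_subset_card_eq (show s2 ≤ ((Q2.erase v).erase z).card by omega)
  have e1 : ∀ x ∈ S1, x ≠ y ∧ x ≠ v ∧ x ∈ Q1 := by
    intro x hx
    have := hS1 hx
    rw [mem_erase, mem_erase] at this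
    exact this
  have e2 : ∀ x ∈ S2, x ≠ z ∧ x ≠ v ∧ x ∈ Q2 := by
    intro x hx
    have := hS2 hx
    rw [mem_erase, mem_erase] at this
    exact this
  have n1 : ((y :: S1.toList) ++ [v]).Nodup := by
    rw [List.nodup_append, List.nodup_cons]
    refine ⟨⟨fun h => (e1 y (mem_toList.1 h)).1 rfl, S1.nodup_toList⟩, by simp, ?_⟩
    intro a ha b hb hab
    rw [List.mem_singleton] at hb
    rw [List.mem_cons, mem_toList] at ha
    rcases ha with rfl | ha
    · exact hyv (hab.trans hb)
    · exact (e1 a ha).2.1 (hab.trans hb)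
  have n2 : (S2.toList ++ [z]).Nodup := by
    rw [List.nodup_append]
    refine ⟨S2.nodup_toList, by simp, ?_⟩
    intro a ha b hb hab
    rw [List.mem_singleton] at hb
    rw [mem_toList] at ha
    exact (e2 a ha).1 (hab.trans hb)
  have m1 : ∀ x ∈ (y :: S1.toList) ++ [v], x ∈ Q1 := by
    intro x hx
    rw [List.mem_append, List.mem_cons, mem_toList, List.mem_singleton] at hx
    rcases hx with (rfl | hx) | rfl
    · exact hy
    · exact (e1 x hx).2.2
    · exact hv1
  have m2 : ∀ x ∈ S2.toList ++ [z], x ∈ Q2 ∧ x ≠ v := by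
    intro x hx
    rw [List.mem_append, mem_toList, List.mem_singleton] at hx
    rcases hx with hx | rfl
    · exact ⟨(e2 x hx).2.2, (e2 x hx).2.1⟩
    · exact ⟨hz, hzv⟩
  refine ⟨((y :: S1.toList) ++ [v]) ++ (S2.toList ++ [z]), ⟨?_, ?_⟩, ?_, ?_, ?_, ?_⟩
  · rw [List.nodup_append]
    refine ⟨n1, n2, ?_⟩
    rintro a ha b hb rfl
    exact (m2 a hb).2 (hd a (m1 a ha) (m2 a hb).1)
  · rw [List.isChain_append]
    refine ⟨chain_of_mem h1 n1 m1, chain_of_mem h2 n2 (fun x hx => (m2 x hx).1), ?_⟩
    intro a ha b hb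
    rw [getLast?_append_cons' _ (by simp)] at ha
    simp only [List.getLast?_singleton, Option.mem_def, Option.some.injEq] at ha
    have hb2 := m2 b (List.mem_of_mem_head? hb)
    rw [← ha]
    exact h2 v hv2 b hb2.1 (Ne.symm hb2.2)
  · simp only [List.length_append, List.length_cons, List.length_nil, length_toList]
    omega
  · intro x hx
    rw [List.mem_append] at hx
    rcases hx with hx | hx
    · exact Or.inl (m1 x hx)
    · exact Or.inr (m2 x hx).1
  · rfl
  · rw [← List.append_assoc, getLast?_append_cons' _ (by simp)]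
    rfl

/-- closing a path by an extra path -/
theorem close_path {X : Finset V} {m : ℕ} {p e : List V} {y z : V} (hp : Pth G p)
    (hpX : ∀ x ∈ p, x ∈ X) (hy : p.head? = some y) (hz : p.getLast? = some z) (he : Pth G e)
    (heX : ∀ x ∈ e, x ∈ X) (hd : ∀ x ∈ e, x ∉ p) (hne : e ≠ [])
    (h1 : ∀ x ∈ e.head?, G.Adj z x) (h2 : ∀ x ∈ e.getLast?, G.Adj x y)
    (hlen : p.length + e.length = m) : HasCyc G X m := by
  have hpne : p ≠ [] := by
    rintro rfl
    simp at hy
  refine ⟨p ++ e, by rw [List.length_append]; exact hlen, ⟨?_, ?_, ?_⟩, ?_⟩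
  · rw [List.nodup_append]
    refine ⟨hp.1, he.1, ?_⟩
    rintro a ha b hb rfl
    exact hd a hb ha
  · rw [List.isChain_append]
    refine ⟨hp.2, he.2, ?_⟩
    intro a ha b hb
    rw [hz] at ha
    rw [← Option.some.inj ha]
    exact h1 b hb
  · intro a ha b hb
    rw [getLast?_append_cons' _ hne] at ha
    rw [head?_append_of_ne _ hpne, hy] at hb
    rw [← Option.some.inj hb]
    exact h2 a ha
  · intro x hx
    rw [List.mem_append] at hx
    rcases hx with hx | hx
    · exact hpX x hx
    · exact heX x hx

theorem pth_one (x : V) : Pth G [x] := ⟨by simp, by simp⟩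

theorem pth_two {x y : V} (h : G.Adj x y) : Pth G [x, y] := by
  refine ⟨?_, by simp [h]⟩
  rw [List.nodup_cons, List.mem_singleton]
  refine ⟨?_, by simp⟩
  rintro rfl
  exact G.loopless.irrefl _ h

theorem clq_insert {A : Finset V} {x : V} (hA : IsClq G A) (h : ∀ y ∈ A, G.Adj x y) :
    IsClq G (insert x A) := by
  intro u hu v hv huv
  rw [mem_insert] at hu hv
  rcases hu with rfl | hu
  · rcases hv with rfl | hv
    · exact absurd rfl huv
    · exact h v hv
  · rcases hv with rfl | hv
    · exact (h u hu).symm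
    · exact hA u hu v hv huv

/-- vertices chosen behind different neighbours of `x` are different and non-adjacent -/
theorem pair_far {X : Finset V} {m : ℕ} (hdeg : ∀ x ∈ X, m - 1 ≤ (nb G X x).card)
    (hα : ∀ x ∈ X, AlphaLe G (nb G X x) 2) (hno : ¬ HasCyc G X m) (hm : 5 ≤ m) {x y z : V}
    {A B : Finset V} (hx : x ∈ X) (T : TwoCl G (nb G X x) A B) (hy : y ∈ A)
    (hz : z ∈ A ∨ z ∈ B) (hyz : y ≠ z) {u w : V} (hu : u ∈ dn G X x y) (hw : w ∈ dn G X x z) :
    u ≠ w ∧ ¬ G.Adj u w := by
  obtain ⟨_, f2, f3, f4⟩ := dn_facts hdeg hα hno (by omega) hx T hy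
  have hyx := mem_nb.1 ((T.un y).2 (Or.inl hy))
  have hzx := mem_nb.1 ((T.un z).2 hz)
  have hxA : x ∉ A := fun h => G.loopless.irrefl _ (mem_nb.1 ((T.un x).2 (Or.inl h))).2
  have hyD : y ∉ dn G X x y := fun h => G.loopless.irrefl _ (mem_dn.1 h).2.1
  have hQ1 : IsClq G (insert x A) := clq_insert T.c1
    (fun v hv => (mem_nb.1 ((T.un v).2 (Or.inl hv))).2)
  have hQ2 : IsClq G (insert y (dn G X x y)) := clq_insert f2 (fun v hv => (mem_dn.1 hv).2.1)
  have hc1 : (insert x A).card = A.card + 1 := card_insert_of_notMem hxA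
  have hc2 : (insert y (dn G X x y)).card = (dn G X x y).card + 1 := card_insert_of_notMem hyD
  have hint : ∀ v ∈ insert x A, v ∈ insert y (dn G X x y) → v = y := by
    intro v hv hv'
    rw [mem_insert] at hv hv'
    rcases hv' with h | h
    · exact h
    · have := mem_dn.1 h
      rcases hv with h' | h'
      · exact absurd h' this.2.2.1
      · exact absurd (mem_nb.1 ((T.un v).2 (Or.inl h'))).2 this.2.2.2
  have hmem : ∀ v, v ∈ insert x A ∨ v ∈ insert y (dn G X x y) → v ∈ X := by
    intro v hv
    rw [mem_insert, mem_insert] at hv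
    rcases hv with (rfl | h) | (rfl | h)
    · exact hx
    · exact (mem_nb.1 ((T.un v).2 (Or.inl h))).1
    · exact hyx.1
    · exact (mem_dn.1 h).1
  have hu' := mem_dn.1 hu
  have hw' := mem_dn.1 hw
  have huy : u ≠ y := by
    rintro rfl
    exact hyD hu
  have hxy : x ≠ y := by
    rintro rfl
    exact G.loopless.irrefl _ hyx.2
  -- paths from a vertex of the first clique to `u`
  have hpath : ∀ v, v ∈ insert x A → v ≠ y → ∀ t, 3 ≤ t → t ≤ m - 1 →
      ∀ u' ∈ dn G X x y, ∃ p, Pth G p ∧
      p.length = t ∧ (∀ v ∈ p, v ∈ insert x A ∨ v ∈ insert y (dn G X x y)) ∧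
      p.head? = some v ∧ p.getLast? = some u' := by
    intro v hv hvy t ht1 ht2 u' hu'
    refine two_clq_path hQ1 hQ2 (mem_insert_of_mem hy) (mem_insert_self _ _) hint hv hvy
      (mem_insert_of_mem hu') ?_ ht1 (by omega)
    rintro rfl
    exact hyD hu'
  rcases hz with hzA | hzB
  · -- both in the same clique
    obtain ⟨_, _, g3, _⟩ := dn_facts hdeg hα hno (by omega) hx T hzA
    have hwy : ¬ G.Adj w y := g3 w hw y hy hyz
    constructor
    · rintro rfl
      exact hwy hu'.2.1.symm
    · intro huw
      obtain ⟨p, p1, p2, p3, p4, p5⟩ := hpath z (mem_insert_of_mem hzA) (Ne.symm hyz) (m - 1)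
        (by omega) le_rfl u hu
      apply hno
      refine close_path p1 (fun v hv => hmem v (p3 v hv)) p4 p5 (pth_one w) ?_ ?_ (by simp) ?_ ?_ ?_
      · intro v hv
        rw [List.mem_singleton] at hv
        rw [hv]
        exact hw'.1
      · intro v hv hvp
        rw [List.mem_singleton] at hv
        rw [hv] at hvp
        rcases p3 w hvp with h | h
        · rw [mem_insert] at h
          rcases h with h | h
          · exact hw'.2.2.1 h
          · exact hw'.2.2.2 (mem_nb.1 ((T.un w).2 (Or.inl h))).2
        · rw [mem_insert] at h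
          rcases h with h | h
          · rw [h] at hw'
            exact hw'.2.2.2 hyx.2
          · exact hwy (mem_dn.1 h).2.1.symm
      · intro v hv
        simp only [List.head?_cons, Option.mem_def, Option.some.injEq] at hv
        rw [← hv]
        exact huw
      · intro v hv
        simp only [List.getLast?_singleton, Option.mem_def, Option.some.injEq] at hv
        rw [← hv]
        exact hw'.2.1.symm
      · rw [p2, List.length_singleton]
        omega
  · have hzy : ¬ G.Adj y z := T.far y hy z hzB
    have hzQ : ¬ (z ∈ insert x A ∨ z ∈ insert y (dn G X x y)) := by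
      rintro (h | h)
      · rw [mem_insert] at h
        rcases h with h | h
        · rw [h] at hzx
          exact G.loopless.irrefl _ hzx.2
        · exact T.dj z h hzB
      · rw [mem_insert] at h
        rcases h with h | h
        · exact hyz h.symm
        · exact (mem_dn.1 h).2.2.2 hzx.2
    -- no vertex of `dn x y` is adjacent to `z`
    have key : ∀ u' ∈ dn G X x y, ¬ G.Adj u' z := by
      intro u' hu' hadj
      obtain ⟨p, p1, p2, p3, p4, p5⟩ := hpath x (mem_insert_self _ _) hxy (m - 1) (by omega) le_rfl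
        u' hu'
      apply hno
      refine close_path p1 (fun v hv => hmem v (p3 v hv)) p4 p5 (pth_one z) ?_ ?_ (by simp) ?_ ?_ ?_
      · intro v hv
        rw [List.mem_singleton] at hv
        rw [hv]
        exact hzx.1
      · intro v hv hvp
        rw [List.mem_singleton] at hv
        rw [hv] at hvp
        exact hzQ (p3 z hvp)
      · intro v hv
        simp only [List.head?_cons, Option.mem_def, Option.some.injEq] at hv
        rw [← hv]
        exact hadj
      · intro v hv
        simp only [List.getLast?_singleton, Option.mem_def, Option.some.injEq] at hv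
        rw [← hv]
        exact hzx.2.symm
      · rw [p2, List.length_singleton]
        omega
    constructor
    · rintro rfl
      exact key u hu hw'.2.1.symm
    · intro huw
      obtain ⟨p, p1, p2, p3, p4, p5⟩ := hpath x (mem_insert_self _ _) hxy (m - 2) (by omega)
        (by omega) u hu
      apply hno
      refine close_path p1 (fun v hv => hmem v (p3 v hv)) p4 p5 (pth_two hw'.2.1.symm) ?_ ?_
        (by simp) ?_ ?_ ?_
      · intro v hv
        simp only [List.mem_cons, List.not_mem_nil, or_false] at hv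
        rcases hv with rfl | rfl
        · exact hw'.1
        · exact hzx.1
      · intro v hv hvp
        simp only [List.mem_cons, List.not_mem_nil, or_false] at hv
        rcases hv with rfl | rfl
        · rcases p3 v hvp with h | h
          · rw [mem_insert] at h
            rcases h with h | h
            · exact hw'.2.2.1 h
            · exact hw'.2.2.2 (mem_nb.1 ((T.un v).2 (Or.inl h))).2
          · rw [mem_insert] at h
            rcases h with h | h
            · rw [h] at hw'
              exact hw'.2.2.2 hyx.2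
            · exact key v h hw'.2.1.symm
        · exact hzQ (p3 v hvp)
      · intro v hv
        simp only [List.head?_cons, Option.mem_def, Option.some.injEq] at hv
        rw [← hv]
        exact huw
      · intro v hv
        simp only [List.getLast?_cons_cons, List.getLast?_singleton, Option.mem_def,
          Option.some.injEq] at hv
        rw [← hv]
        exact hzx.2.symm
      · rw [p2]
        simp only [List.length_cons, List.length_nil]
        omega

/-- In a minimal counterexample some vertex has three independent neighbours. -/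
theorem exists_three {W : Finset V} {a m : ℕ} (E : Env0 G W a m) (hm : 5 ≤ m) (ham : a ≤ m - 1) :
    ∃ x ∈ W, ∃ J, J ⊆ W ∧ Ind G J ∧ J.card = 3 ∧ ∀ w ∈ J, G.Adj w x := by
  classical
  by_contra hcon
  push Not at hcon
  have hα : ∀ x ∈ W, AlphaLe G (nb G W x) 2 := by
    intro x hx
    by_contra hα
    obtain ⟨J, hJ, hJi, hJc⟩ := exists_ind_of_not_alphaLe hα
    obtain ⟨w, hw, hwx⟩ := hcon x hx J (fun w hw => (mem_nb.1 (hJ hw)).1) hJi hJc
    exact hwx (mem_nb.1 (hJ hw)).2.symm
  have hdeg : ∀ x ∈ W, m - 1 ≤ (nb G W x).card := by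
    intro x hx
    have h1 := exp_W E (J := {x}) (singleton_subset_iff.2 hx) (ind_singleton _)
      (by rw [card_singleton])
    rw [card_singleton] at h1
    have h2 : cn G W {x} ⊆ insert x (nb G W x) := by
      intro w hw
      rw [mem_cn] at hw
      rw [mem_insert, mem_nb]
      rcases hw.2 with h | ⟨z, hz, hwz⟩
      · exact Or.inl (mem_singleton.1 h)
      · rw [mem_singleton] at hz
        rw [hz] at hwz
        exact Or.inr ⟨hw.1, hwz.symm⟩
    have h3 := (card_le_card h2).trans (card_insert_le _ _)
    omega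
  obtain ⟨x, hx⟩ : W.Nonempty := by
    rw [← card_pos]
    have := E.hcard
    omega
  obtain ⟨A, B, T⟩ := nb_split hx (hα x hx) E.hno (by omega) (hdeg x hx)
  have hne : ∀ y, ∃ w, y ∈ nb G W x → w ∈ dn G W x y := by
    intro y
    by_cases hy : y ∈ nb G W x
    · rcases (T.un y).1 hy with h | h
      · obtain ⟨w, hw⟩ := (dn_facts hdeg hα E.hno (by omega) hx T h).1
        exact ⟨w, fun _ => hw⟩
      · obtain ⟨w, hw⟩ := (dn_facts hdeg hα E.hno (by omega) hx T.symm h).1
        exact ⟨w, fun _ => hw⟩
    · exact ⟨y, fun h => absurd h hy⟩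
  choose f hf using hne
  have hpair : ∀ y ∈ nb G W x, ∀ z ∈ nb G W x, y ≠ z → f y ≠ f z ∧ ¬ G.Adj (f y) (f z) := by
    intro y hy z hz hyz
    rcases (T.un y).1 hy with h | h
    · exact pair_far hdeg hα E.hno hm hx T h ((T.un z).1 hz) hyz (hf y hy) (hf z hz)
    · exact pair_far hdeg hα E.hno hm hx T.symm h ((T.symm.un z).1 hz) hyz (hf y hy) (hf z hz)
  have hinj : Set.InjOn f (nb G W x : Set V) := by
    intro y hy z hz hyz
    by_contra hne
    exact (hpair y hy z hz hne).1 hyz
  have hi : Ind G (insert x ((nb G W x).image f)) := by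
    apply ind_insert
    · intro u hu v hv
      rw [mem_image] at hu hv
      obtain ⟨y, hy, rfl⟩ := hu
      obtain ⟨z, hz, rfl⟩ := hv
      by_cases hyz : y = z
      · rw [hyz]
        exact G.loopless.irrefl _
      · exact (hpair y hy z hz hyz).2
    · intro u hu
      rw [mem_image] at hu
      obtain ⟨y, hy, rfl⟩ := hu
      exact (mem_dn.1 (hf y hy)).2.2.2
  have h1 := E.hW _ (by
    intro u hu
    rw [mem_insert, mem_image] at hu
    rcases hu with rfl | ⟨y, hy, rfl⟩
    · exact hx
    · exact (mem_dn.1 (hf y hy)).1) hi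
  rw [card_insert_of_notMem, card_image_of_injOn hinj] at h1
  · have := hdeg x hx
    omega
  · rw [mem_image]
    rintro ⟨y, hy, h⟩
    exact (mem_dn.1 (hf y hy)).2.2.1 h

/-- A set with independence number two, without cycle of length `m` and with cliques of size at
most `w` has less than `m + w` vertices. -/
theorem t2_bound {X : Finset V} {m w : ℕ} (hα : AlphaLe G X 2) (hno : ¬ HasCyc G X m)
    (hm : 5 ≤ m) (hw : ∀ K, K ⊆ X → IsClq G K → K.card ≤ w) : X.card + 1 ≤ m + w := by
  classical
  by_contra hcon
  push Not at hcon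
  have hsub : ∀ x, nb G X x ⊆ X := fun x y hy => (mem_nb.1 hy).1
  have hR : ∀ x ∈ X, IsClq G (X \ insert x (nb G X x)) := by
    intro x hx u hu v hv huv
    rw [mem_sdiff, mem_insert, mem_nb] at hu hv
    push Not at hu hv
    exact alpha_two hα hx hu.1 hv.1 (Ne.symm hu.2.1) (Ne.symm hv.2.1) huv (hu.2.2 hu.1)
      (hv.2.2 hv.1)
  have hdeg : ∀ x ∈ X, m - 1 ≤ (nb G X x).card := by
    intro x hx
    have h1 := hw _ sdiff_subset (hR x hx)
    have h2 : (X \ insert x (nb G X x)).card = X.card - (insert x (nb G X x)).card :=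
      card_sdiff_of_subset (insert_subset hx (hsub x))
    have h3 := card_insert_le x (nb G X x)
    omega
  have hα' : ∀ x ∈ X, AlphaLe G (nb G X x) 2 := fun x _ => hα.mono (hsub x) le_rfl
  obtain ⟨x, hx⟩ : X.Nonempty := by
    rw [← card_pos]
    omega
  obtain ⟨A, B, T⟩ := nb_split hx (hα' x hx) hno (by omega) (hdeg x hx)
  obtain ⟨y, hy⟩ := T.ne1
  obtain ⟨z, hz⟩ := T.ne2
  obtain ⟨u, hu⟩ := (dn_facts hdeg hα' hno (by omega) hx T hy).1
  obtain ⟨v, hv⟩ := (dn_facts hdeg hα' hno (by omega) hx T.symm hz).1
  have hyz : y ≠ z := by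
    rintro rfl
    exact T.dj y hy hz
  obtain ⟨h1, h2⟩ := pair_far hdeg hα' hno hm hx T hy (Or.inr hz) hyz hu hv
  have hu' := mem_dn.1 hu
  have hv' := mem_dn.1 hv
  exact h2 (alpha_two hα hx hu'.1 hv'.1 (Ne.symm hu'.2.2.1) (Ne.symm hv'.2.2.1) h1 hu'.2.2.2
    hv'.2.2.2)

end Vale.Agent.P048.L
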