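import Vale.Agent.P048.FinAll
import Vale.Agent.P048.Star
import Vale.Agent.P048.Three

namespace Vale.Agent.P048.L

open Finset

variable {V : Type*} [DecidableEq V] {G : SimpleGraph V} {O W K : Finset V} {a m : ℕ}

theorem clq_path (hK : IsClq G K) {u v : V} (hu : u ∈ K) (hv : v ∈ K) (huv : u ≠ v) {t : ℕ}
    (ht2 : 2 ≤ t) (ht : t ≤ K.card) :
    ∃ p, Pth G p ∧ (∀ x ∈ p, x ∈ K) ∧ p.length = t ∧ p.head? = some u ∧ p.getLast? = some v := by
  have hc : t - 2 ≤ ((K.erase u).erase v).card := by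
    rw [card_erase_of_mem (mem_erase.2 ⟨huv.symm, hv⟩), card_erase_of_mem hu]
    omega
  obtain ⟨S0, hS0, hS0c⟩ := exists_subset_card_eq hc
  have e0 : ∀ x ∈ S0, x ∈ K ∧ x ≠ u ∧ x ≠ v := by
    intro x hx
    have := hS0 hx
    rw [mem_erase, mem_erase] at this
    exact ⟨this.2.2, this.2.1, this.1⟩
  obtain ⟨L, hL⟩ : ∃ L, L = u :: (S0.toList ++ [v]) := ⟨_, rfl⟩
  have hLn : L.Nodup := by
    rw [hL, List.nodup_cons, List.nodup_append]
    refine ⟨?_, S0.nodup_toList, by simp, ?_⟩
    · rw [List.mem_append, mem_toList, List.mem_singleton]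
      rintro (h | h)
      · exact (e0 u h).2.1 rfl
      · exact huv h
    · intro x hx y hy hxy
      rw [List.mem_singleton] at hy
      rw [mem_toList] at hx
      exact (e0 x hx).2.2 (hxy.trans hy)
  have hLK : ∀ x ∈ L, x ∈ K := by
    intro x hx
    rw [hL, List.mem_cons, List.mem_append, mem_toList, List.mem_singleton] at hx
    rcases hx with rfl | hx | rfl
    · exact hu
    · exact (e0 x hx).1
    · exact hv
  refine ⟨L, ⟨hLn, chain_of_mem hK hLn hLK⟩, hLK, ?_, ?_, ?_⟩
  · rw [hL, List.length_cons, List.length_append, length_toList, List.length_singleton]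
    omega
  · rw [hL]; rfl
  · rw [hL, ← List.singleton_append, ← List.append_assoc, getLast?_append_cons' _ (by simp)]
    rfl

/-- a maximum clique does not fit into a level of a tree -/
theorem lev_clq {w : ℕ} (hno : ¬ HasCyc G O m) (hcl : ∀ K, K ⊆ O → IsClq G K → K.card ≤ w + 1)
    (hw : 1 ≤ w) (hm : m ≤ w + 5)
    (hstar : m = w + 5 → ∀ K, K ⊆ O → IsClq G K → K.card = w + 1 → ∀ u y1 z y2 v, u ∈ K → v ∈ K →
      [u, y1, z, y2, v].Nodup → [u, y1, z, y2, v].IsChain G.Adj → y1 ∉ K → z ∉ K → y2 ∉ K →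
      y1 ∈ O → z ∈ O → y2 ∈ O → False)
    {h : ℕ} {Lev : ℕ → Finset V} {par : V → V} (hh : 2 * h < m) (T : Tree G O h Lev par)
    (hKL : K ⊆ Lev h) (hK : IsClq G K) : K.card ≤ w := by
  classical
  by_contra hcon
  push Not at hcon
  have hKO : K ⊆ O := hKL.trans (T.sub h le_rfl)
  have hKc : K.card = w + 1 := le_antisymm (hcl K hKO hK) hcon
  have h0 : h ≠ 0 := by
    rintro rfl
    have : K.card ≤ 1 := by
      rw [card_le_one]
      intro x hx y hy
      exact T.root x (hKL hx) y (hKL hy)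
    omega
  obtain ⟨h', rfl⟩ := Nat.exists_eq_succ_of_ne_zero h0
  have hnot : ∀ i, i ≤ h' → ∀ x ∈ Lev i, x ∉ K := by
    intro i hi x hx hxK
    have := T.disj i (h' + 1) (by omega) le_rfl x hx (hKL hxK)
    omega
  by_cases hpar : ∀ u ∈ K, ∀ v ∈ K, par u = par v
  · obtain ⟨u0, hu0⟩ : K.Nonempty := by rw [← card_pos]; omega
    have hy := T.par h' (by omega) u0 (hKL hu0)
    have hyK := hnot h' le_rfl _ hy.1
    have h1 := hcl (insert (par u0) K) (insert_subset (T.sub h' (by omega) hy.1) hKO) (by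
      intro x hx y hy' hxy
      rw [mem_insert] at hx hy'
      rcases hx with rfl | hx
      · rcases hy' with rfl | hy'
        · exact absurd rfl hxy
        · rw [hpar u0 hu0 y hy']
          exact (T.par h' (by omega) y (hKL hy')).2.symm
      · rcases hy' with rfl | hy'
        · rw [hpar u0 hu0 x hx]
          exact (T.par h' (by omega) x (hKL hx)).2
        · exact hK x hx y hy' hxy)
    rw [card_insert_of_notMem hyK] at h1
    omega
  · push Not at hpar
    obtain ⟨u, hu, v, hv, huv⟩ := hpar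
    have hne : u ≠ v := fun h => huv (by rw [h])
    have hex : ∃ s, par^[s] u = par^[s] v := ⟨h' + 1, T.root_eq (hKL hu) (hKL hv)⟩
    have h1 := Nat.find_spec hex
    have h2 : Nat.find hex ≤ h' + 1 := Nat.find_min' hex (T.root_eq (hKL hu) (hKL hv))
    have h3 : ∀ i, i < Nat.find hex → par^[i] u ≠ par^[i] v := fun i hi => Nat.find_min hex hi
    generalize Nat.find hex = s at h1 h2 h3
    have hs2 : 2 ≤ s := by
      by_contra hs
      have : s = 0 ∨ s = 1 := by omega
      rcases this with rfl | rfl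
      · exact hne h1
      · exact huv h1
    rcases Nat.lt_or_ge (w + 2 * s) m with h4 | h4
    · -- the ear
      have hs : s = 2 := by omega
      subst hs
      have hmw : m = w + 5 := by omega
      have e1 := T.par h' (by omega) u (hKL hu)
      have e2 := T.par h' (by omega) v (hKL hv)
      obtain ⟨h'', rfl⟩ : ∃ h'', h' = h'' + 1 := ⟨h' - 1, by omega⟩
      have e3 := T.par h'' (by omega) _ e1.1
      have e4 := T.par h'' (by omega) _ e2.1
      have h5 : par (par u) = par (par v) := h1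
      have hlev : ∀ x ∈ Lev h'', ∀ y ∈ Lev (h'' + 1), x ≠ y := by
        rintro x hx y hy rfl
        have := T.disj h'' (h'' + 1) (by omega) (by omega) x hx hy
        omega
      have hnotK : ∀ i, i ≤ h'' + 1 → ∀ x ∈ Lev i, ∀ y ∈ K, x ≠ y := by
        rintro i hi x hx y hy rfl
        exact hnot i hi x hx hy
      refine hstar hmw K hKO hK hKc u (par u) (par (par u)) (par v) v hu hv ?_ ?_
        (hnot _ le_rfl _ e1.1) (hnot _ (by omega) _ e3.1) (hnot _ le_rfl _ e2.1)
        (T.sub _ (by omega) e1.1) (T.sub _ (by omega) e3.1) (T.sub _ (by omega) e2.1)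
      · simp only [List.nodup_cons, List.mem_cons, List.not_mem_nil, or_false, not_or,
          List.nodup_nil, and_true, not_false_eq_true]
        refine ⟨⟨?_, ?_, ?_, hne⟩, ⟨?_, huv, ?_⟩, ⟨?_, ?_⟩, ?_⟩
        · exact (hnotK _ le_rfl _ e1.1 u hu).symm
        · exact (hnotK _ (by omega) _ e3.1 u hu).symm
        · exact (hnotK _ le_rfl _ e2.1 u hu).symm
        · exact (hlev _ e3.1 _ e1.1).symm
        · exact hnotK _ le_rfl _ e1.1 v hv
        · exact hlev _ e3.1 _ e2.1
        · exact hnotK _ (by omega) _ e3.1 v hv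
        · exact hnotK _ le_rfl _ e2.1 v hv
      · simp only [List.isChain_cons_cons, List.isChain_singleton, and_true]
        refine ⟨e1.2, e3.2, ?_, e2.2.symm⟩
        rw [h5]
        exact e4.2.symm
    · obtain ⟨p, p1, p2, p3, p4, p5⟩ := clq_path hK hu hv hne (t := m + 1 - 2 * s) (by omega)
        (by omega)
      exact hno (T.close p1 (fun x hx => hKL (p2 x hx)) p4 p5 h2 h1 (h3 (s - 1) (by omega))
        (by omega))

theorem main_growth3 {k : ℕ} (E : Env0 G W a m) (hk : 1 ≤ k) (hm5 : 5 ≤ m) {A H : ℕ} (haA : a ≤ A)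
    (hAm : A ≤ m - 1) (hH : 1 ≤ H)
    (hR : ∀ h, h < H → ∀ Lev par, Tree G W (h + 1) Lev par → Bdd G k (Lev (h + 1)))
    (hchk : grw (m - 1) k 0 (fun _ j => Nat.ble (A + 1) j) (H - 1) 1 3 4 = true) : False := by
  obtain ⟨x, hx, J, hJ, hJi, hJc, hadj⟩ := exists_three E hm5 (by omega)
  have hG1 := grown_one (O := W) (B := W) hx hJ hJ hJi hadj
  rw [hJc] at hG1
  obtain ⟨h', j', s', h1, _, h3, Lev, par, T, hI, hc, _, _⟩ :=
    grw_sound (O := W) (B := fun _ => W) hk (H := H) (fun _ _ _ y hy _ => hy)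
      (fun h _ J _ hJ hJi hJ1 => by
        have := exp_W E hJ hJi hJ1
        omega) hR (H - 1) 1 3 4 (by omega) (by omega) hchk hG1
  rw [Nat.ble_eq] at h3
  have := E.hW _ (T.sub h' le_rfl) hI
  omega

theorem alpha_out (E : Env0 G W a m) {J : Finset V} (hJ : J ⊆ W) (hJi : Ind G J) :
    AlphaLe G (W \ cn G W J) (a - J.card) := by
  have hYn : ∀ y ∈ W \ cn G W J, ∀ x ∈ J, ¬ G.Adj y x := by
    intro y hy x hx hadj
    rw [mem_sdiff] at hy
    exact hy.2 (mem_cn.2 ⟨hy.1, Or.inr ⟨x, hx, hadj⟩⟩)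
  intro S hS hSi
  have hd : Disjoint S J := by
    rw [disjoint_left]
    intro x hxS hxJ
    have := mem_sdiff.1 (hS hxS)
    exact this.2 (mem_cn.2 ⟨this.1, Or.inl hxJ⟩)
  have hi : Ind G (S ∪ J) := by
    intro x hx y hy
    rw [mem_union] at hx hy
    rcases hx with hx | hx
    · rcases hy with hy | hy
      · exact hSi x hx y hy
      · exact hYn x (hS hx) y hy
    · rcases hy with hy | hy
      · exact fun h => hYn y (hS hy) x hx h.symm
      · exact hJi x hx y hy
  have h1 := E.hW (S ∪ J) (union_subset (hS.trans sdiff_subset) hJ) hi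
  rw [card_union_of_disjoint hd] at h1
  omega

/-- the last step for `m = 12` -/
theorem growth12 (E : Env0 G W a 12) (ha : a ≤ 11) (hcl : ∀ K, K ⊆ W → IsClq G K → K.card ≤ 8)
    (hR : ∀ h, h < 5 → ∀ Lev par, Tree G W (h + 1) Lev par → Bdd G 7 (Lev (h + 1))) : False := by
  classical
  rcases Nat.lt_or_ge a 11 with h | h
  · exact main_growth3 (k := 7) E (by omega) (by omega) (A := 10) (by omega) (by omega) (H := 5)
      (by omega) hR (by decide +kernel)
  have ha11 : a = 11 := by omega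
  subst ha11
  obtain ⟨x, hx, J, hJ, hJi, hJc, hadj⟩ := exists_three E (by omega) (by omega)
  have hG1 := grown_one (O := W) (B := W) hx hJ hJ hJi hadj
  rw [hJc] at hG1
  have hexp : ∀ J, J ⊆ W → Ind G J → 1 ≤ J.card → (12 - 1) * J.card + 1 ≤ (cn G W J).card + 0 := by
    intro J hJ hJi hJ1
    exact exp_W E hJ hJi hJ1
  have hG2 := hG1.step (B' := W) (m := 12) (k := 7) (j' := 5) (fun _ _ y hy _ => hy) hexp
    (hR 1 (by omega)) (by omega) (by omega)
  have hG3 := hG2.step (B' := W) (m := 12) (k := 7) (j' := 7) (fun _ _ y hy _ => hy) hexp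
    (hR 2 (by omega)) (by omega) (by omega)
  have hG4 := hG3.step (B' := W) (m := 12) (k := 7) (j' := 9) (fun _ _ y hy _ => hy) hexp
    (hR 3 (by omega)) (by omega) (by omega)
  obtain ⟨Lev, par, T, hI, hc, hs, hB⟩ : Grown G W W 4 9 25 := hG4
  obtain ⟨Lev1, par1, T1, e1, _⟩ := T.ext (X := cn G W (Lev 4) \ tv 4 Lev) (Subset.refl _)
  have h2 := hR 4 (by omega) Lev1 par1 T1
  rw [e1] at h2
  have h3 := h2 11 _ (Subset.refl _) (E.hW.mono (by
    intro y hy
    exact (mem_cn.1 (mem_sdiff.1 hy).1).1) le_rfl)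
  have h4 := alpha_out E hB hI
  rw [hc] at h4
  have h5 := t2_bound (w := 8) h4 (fun hcyc => E.hno (hcyc.mono sdiff_subset)) (by omega)
    (fun K hK => hcl K (hK.trans sdiff_subset))
  have h6 := E.hcard
  have h7 : W.card ≤ (W \ cn G W (Lev 4)).card + (cn G W (Lev 4)).card := by
    have : W ⊆ (W \ cn G W (Lev 4)) ∪ cn G W (Lev 4) := by
      intro x hx
      rw [mem_union, mem_sdiff]
      tauto
    exact (card_le_card this).trans (card_union_le _ _)
  have h8 : (cn G W (Lev 4)).card ≤ (cn G W (Lev 4) \ tv 4 Lev).card + (tv 4 Lev).card := by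
    have : cn G W (Lev 4) ⊆ (cn G W (Lev 4) \ tv 4 Lev) ∪ tv 4 Lev := by
      intro x hx
      rw [mem_union, mem_sdiff]
      tauto
    exact (card_le_card this).trans (card_union_le _ _)
  omega

end Vale.Agent.P048.L
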