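import Vale.Agent.P048.FinS

namespace Vale.Agent.P048.L

open Finset

variable {V : Type*} [DecidableEq V] {G : SimpleGraph V} {O W K : Finset V} {a m : ℕ}

noncomputable def chk3 (m k : ℕ) : Bool :=
  grw (m - 1) k 0 (fun _ j => Nat.ble m j) ((m - 1) / 2 - 1) 1 3 4

/-- strong induction on the independence number -/
theorem upper_of_env {m : ℕ} (hm : 2 ≤ m)
    (h : ∀ a (W K : Finset V), 1 ≤ a → a + 1 ≤ m → Env0 G W a m → K ⊆ W → IsClq G K →
      (∀ K', K' ⊆ W → IsClq G K' → K'.card ≤ K.card) → K.card < m → False) :
    ∀ a, a + 1 ≤ m → ∀ W : Finset V, AlphaLe G W a → (m - 1) * a + 1 ≤ W.card →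
      HasCyc G W m := by
  intro a
  induction a using Nat.strong_induction_on with
  | _ a ih =>
    intro haA W hW hc
    by_contra hno
    rcases Nat.eq_zero_or_pos a with rfl | ha
    · have := card_zero_of_alphaLe hW
      omega
    · obtain ⟨K, hK1, hK2, hK3⟩ := exists_max_clq G W
      have hmin : ∀ c, c < a → ∀ W', W' ⊆ W → AlphaLe G W' c → W'.card ≤ (m - 1) * c := by
        intro c hca W' hW' hWc
        by_contra hcon
        exact hno ((ih c hca (by omega) W' hWc (by omega)).mono hW')
      have E : Env0 G W a m := ⟨hW, hc, hmin, hno⟩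
      have hkm : K.card < m := by
        by_contra hcon
        push Not at hcon
        obtain ⟨K1, h11, h12⟩ := exists_subset_card_eq hcon
        apply hno
        exact ⟨K1.toList, by rw [length_toList, h12],
          clique_cyc (fun x hx y hy => hK2 x (h11 hx) y (h11 hy)) (by omega),
          fun x hx => hK1 (h11 (mem_toList.1 hx))⟩
      exact h a W K ha haA E hK1 hK2 hK3 hkm

theorem case_low (E : Env0 G W a m) (ham : a + 1 ≤ m) (hm : 5 ≤ m)
    (hmax : ∀ K', K' ⊆ W → IsClq G K' → K'.card ≤ K.card) {k : ℕ} (hk : 3 ≤ k) (hmk : m ≤ 2 * k + 1)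
    (hω : K.card ≤ k) (hchk : chk3 m k = true) : False := by
  refine main_growth3 (k := k) E (by omega) hm (A := m - 1) (by omega) le_rfl (H := (m - 1) / 2)
    (by omega) ?_ ?_
  · intro h hh Lev par T
    exact rk_simple hk hmk E.hno (fun K' h2 h3 => (hmax K' h2 h3).trans hω) (h + 1) Lev par
      (by omega) T
  · have e2 : m - 1 + 1 = m := by omega
    rw [e2]
    exact hchk

theorem rk_top (E : Env0 G W a m) (ha : 1 ≤ a) (ham : a + 1 ≤ m)
    (hmax : ∀ K', K' ⊆ W → IsClq G K' → K'.card ≤ K.card) {k : ℕ} (hk : 3 ≤ k) (hmk : m ≤ 2 * k + 1)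
    (hω : K.card = k + 1) (hm1 : m ≤ k + 5) (hm2 : m = k + 5 → 5 ≤ k) : RK G m k W := by
  refine rk hk hmk E.hno ?_
  intro h Lev par hh T K' hK' hKc'
  refine lev_clq (w := k) E.hno (fun K' h2 h3 => (hmax K' h2 h3).trans hω.le) (by omega) hm1 ?_ hh
    T hK' hKc'
  intro hmk5 K1 hK1 hK1c hK1k u y1 z y2 v hu hv hn hc hy1 hz hy2 hy1W hzW hy2W
  have h5 := hm2 hmk5
  exact star E ha ham hK1c hK1 (by omega) (by omega)
    (fun K' h1 h2 => (hmax K' h1 h2).trans (by omega)) hu hv hn hc hy1 hz hy2 hy1W hzW hy2W

theorem case_top (E : Env0 G W a m) (ha : 1 ≤ a) (ham : a + 1 ≤ m) (hm : 5 ≤ m)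
    (hmax : ∀ K', K' ⊆ W → IsClq G K' → K'.card ≤ K.card) {k : ℕ} (hk : 3 ≤ k) (hmk : m ≤ 2 * k + 1)
    (hω : K.card = k + 1) (hm1 : m ≤ k + 5) (hm2 : m = k + 5 → 5 ≤ k)
    (hchk : chk3 m k = true) : False := by
  refine main_growth3 (k := k) E (by omega) hm (A := m - 1) (by omega) le_rfl (H := (m - 1) / 2)
    (by omega) ?_ ?_
  · intro h hh Lev par T
    exact rk_top E ha ham hmax hk hmk hω hm1 hm2 (h + 1) Lev par (by omega) T
  · have e2 : m - 1 + 1 = m := by omega
    rw [e2]
    exact hchk

theorem case_big (E : Env0 G W a m) (ha : 1 ≤ a) (ham : a + 1 ≤ m) (hK : IsClq G K) (hKW : K ⊆ W)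
    (hmax : ∀ K', K' ⊆ W → IsClq G K' → K'.card ≤ K.card) (h7 : 7 ≤ K.card)
    (hkm : K.card < m) (hmk : m + 2 ≤ 2 * K.card) (hchk : chkB m K.card = true) : False := by
  refine big3 (g := m - K.card) (H := (K.card - 5) / 2) E ha hK hKW (by omega) (by omega)
    (by omega) (A := m - 1) (by omega) ?_ (by omega) (by omega) ?_
  · intro O' hO' h Lev par hh T
    exact rk_simple (by omega) (by omega) (fun hc => E.hno (hc.mono hO'))
      (fun K' h1 h2 => hmax K' (h1.trans hO') h2) h Lev par hh T
  · have e2 : m - 1 + 1 = m := by omega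
    rw [e2]
    exact hchk

theorem big_range {w n : ℕ} (hchk : allb (fun i => chkB m (w + i)) n = true) (h1 : w ≤ K.card)
    (h2 : K.card < w + n) : chkB m K.card = true := by
  have h := allb_spec hchk (K.card - w) (by omega)
  have e : w + (K.card - w) = K.card := by omega
  rw [e] at h
  exact h

theorem upper_9_16 {m : ℕ} (h9 : 9 ≤ m) (h16 : m ≤ 16) :
    ∀ a, a + 1 ≤ m → ∀ W : Finset V, AlphaLe G W a → (m - 1) * a + 1 ≤ W.card →
      HasCyc G W m := by
  refine upper_of_env (by omega) ?_
  intro a W K ha ham E hKW hK hmax hkm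
  have hm : m = 9 ∨ m = 10 ∨ m = 11 ∨ m = 12 ∨ m = 13 ∨ m = 14 ∨ m = 15 ∨ m = 16 := by omega
  rcases hm with rfl | rfl | rfl | rfl | rfl | rfl | rfl | rfl
  · rcases Nat.lt_or_ge K.card 6 with h | h
    · exact case_low E ham (by omega) hmax (k := 5) (by omega) (by omega) (by omega)
        (by decide +kernel)
    rcases Nat.lt_or_ge K.card 7 with h' | h'
    · exact case_top E ha ham (by omega) hmax (k := 5) (by omega) (by omega) (by omega) (by omega)
        (by omega) (by decide +kernel)
    · exact case_big E ha ham hK hKW hmax (by omega) hkm (by omega)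
        (big_range (w := 7) (n := 2) (by decide +kernel) h' (by omega))
  · rcases Nat.lt_or_ge K.card 6 with h | h
    · exact case_low E ham (by omega) hmax (k := 5) (by omega) (by omega) (by omega)
        (by decide +kernel)
    rcases Nat.lt_or_ge K.card 7 with h' | h'
    · exact case_top E ha ham (by omega) hmax (k := 5) (by omega) (by omega) (by omega) (by omega)
        (by omega) (by decide +kernel)
    · exact case_big E ha ham hK hKW hmax (by omega) hkm (by omega)
        (big_range (w := 7) (n := 3) (by decide +kernel) h' (by omega))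
  · rcases Nat.lt_or_ge K.card 7 with h | h
    · exact case_low E ham (by omega) hmax (k := 6) (by omega) (by omega) (by omega)
        (by decide +kernel)
    rcases Nat.lt_or_ge K.card 8 with h' | h'
    · exact case_top E ha ham (by omega) hmax (k := 6) (by omega) (by omega) (by omega) (by omega)
        (by omega) (by decide +kernel)
    · exact case_big E ha ham hK hKW hmax (by omega) hkm (by omega)
        (big_range (w := 8) (n := 3) (by decide +kernel) h' (by omega))
  · rcases Nat.lt_or_ge K.card 7 with h | h
    · exact case_low E ham (by omega) hmax (k := 6) (by omega) (by omega) (by omega)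
        (by decide +kernel)
    rcases Nat.lt_or_ge K.card 8 with h' | h'
    · refine growth12 E (by omega) (fun K' h1 h2 => (hmax K' h1 h2).trans (by omega)) ?_
      intro h hh Lev par T
      exact rk_simple (by omega) (by omega) E.hno (fun K' h1 h2 => (hmax K' h1 h2).trans (by omega))
        (h + 1) Lev par (by omega) T
    rcases Nat.lt_or_ge K.card 9 with h'' | h''
    · refine growth12 E (by omega) (fun K' h1 h2 => (hmax K' h1 h2).trans (by omega)) ?_
      intro h hh Lev par T
      exact rk_top E ha ham hmax (by omega) (by omega) (by omega) (by omega) (by omega)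
        (h + 1) Lev par (by omega) T
    · exact case_big E ha ham hK hKW hmax (by omega) hkm (by omega)
        (big_range (w := 9) (n := 3) (by decide +kernel) h'' (by omega))
  · rcases Nat.lt_or_ge K.card 9 with h | h
    · exact case_low E ham (by omega) hmax (k := 8) (by omega) (by omega) (by omega)
        (by decide +kernel)
    rcases Nat.lt_or_ge K.card 10 with h' | h'
    · exact case_top E ha ham (by omega) hmax (k := 8) (by omega) (by omega) (by omega) (by omega)
        (by omega) (by decide +kernel)
    · exact case_big E ha ham hK hKW hmax (by omega) hkm (by omega)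
        (big_range (w := 10) (n := 3) (by decide +kernel) h' (by omega))
  · rcases Nat.lt_or_ge K.card 9 with h | h
    · exact case_low E ham (by omega) hmax (k := 8) (by omega) (by omega) (by omega)
        (by decide +kernel)
    · exact case_big E ha ham hK hKW hmax (by omega) hkm (by omega)
        (big_range (w := 9) (n := 5) (by decide +kernel) h (by omega))
  · rcases Nat.lt_or_ge K.card 10 with h | h
    · exact case_low E ham (by omega) hmax (k := 9) (by omega) (by omega) (by omega)
        (by decide +kernel)
    · exact case_big E ha ham hK hKW hmax (by omega) hkm (by omega)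
        (big_range (w := 10) (n := 5) (by decide +kernel) h (by omega))
  · rcases Nat.lt_or_ge K.card 11 with h | h
    · exact case_low E ham (by omega) hmax (k := 10) (by omega) (by omega) (by omega)
        (by decide +kernel)
    · exact case_big E ha ham hK hKW hmax (by omega) hkm (by omega)
        (big_range (w := 11) (n := 5) (by decide +kernel) h (by omega))

end Vale.Agent.P048.L
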