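import Vale.Agent.P048.Basic
import Mathlib.Combinatorics.SimpleGraph.CycleGraph
import Mathlib.Combinatorics.SimpleGraph.Copy
import Mathlib.Order.Bounds.Basic

namespace Vale.Agent.P048

open Finset

def blocks (m N : ℕ) : SimpleGraph (Fin N) where
  Adj u v := u ≠ v ∧ (u : ℕ) / (m - 1) = (v : ℕ) / (m - 1)
  symm := ⟨fun _ _ h => ⟨h.1.symm, h.2.symm⟩⟩
  loopless := ⟨fun _ h => h.1 rfl⟩

theorem blocks_no_cycle {m N : ℕ} (hm : 3 ≤ m) :
    ¬ Nonempty (SimpleGraph.Copy (SimpleGraph.cycleGraph m) (blocks m N)) := by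
  rintro ⟨f⟩
  have hcon : ∀ u v : Fin m, ((f.toHom u : Fin N) : ℕ) / (m - 1) =
      ((f.toHom v : Fin N) : ℕ) / (m - 1) := by
    intro u v
    obtain ⟨p⟩ := SimpleGraph.cycleGraph_preconnected (n := m) u v
    induction p with
    | nil => rfl
    | cons h _ ih => exact (f.toHom.map_adj h).2.trans ih
  have hinj : Function.Injective (fun u : Fin m => ((f.toHom u : Fin N) : ℕ)) :=
    fun a b hab => f.injective (Fin.ext hab)
  let c := ((f.toHom ⟨0, by omega⟩ : Fin N) : ℕ) / (m - 1)
  have hsub : (univ.image (fun u : Fin m => ((f.toHom u : Fin N) : ℕ))) ⊆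
      Finset.Ico (c * (m - 1)) (c * (m - 1) + (m - 1)) := by
    intro x hx
    obtain ⟨u, _, rfl⟩ := mem_image.1 hx
    have h1 : ((f.toHom u : Fin N) : ℕ) / (m - 1) = c := hcon u _
    rw [Finset.mem_Ico]
    have h2 := Nat.div_add_mod ((f.toHom u : Fin N) : ℕ) (m - 1)
    have h3 := Nat.mod_lt ((f.toHom u : Fin N) : ℕ) (show 0 < m - 1 by omega)
    rw [h1] at h2
    have h4 : c * (m - 1) = (m - 1) * c := mul_comm _ _
    constructor
    · show c * (m - 1) ≤ ((f.toHom u : Fin N) : ℕ)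
      omega
    · show ((f.toHom u : Fin N) : ℕ) < c * (m - 1) + (m - 1)
      omega
  have := card_le_card hsub
  rw [card_image_of_injective _ hinj, card_univ, Fintype.card_fin, Nat.card_Ico] at this
  omega

theorem blocks_no_indep {m n N : ℕ} (hn : 2 ≤ n) (hN : N ≤ (m - 1) * (n - 1)) :
    ¬ Nonempty (SimpleGraph.Copy (⊤ : SimpleGraph (Fin n)) (blocks m N)ᶜ) := by
  rintro ⟨f⟩
  have hinj : Function.Injective (fun u : Fin n => ((f.toHom u : Fin N) : ℕ) / (m - 1)) := by
    intro a b hab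
    by_contra hne
    have h1 : (blocks m N)ᶜ.Adj (f.toHom a) (f.toHom b) :=
      f.toHom.map_adj (by rw [SimpleGraph.top_adj]; exact hne)
    rw [SimpleGraph.compl_adj] at h1
    exact h1.2 ⟨h1.1, hab⟩
  have hsub : (univ.image (fun u : Fin n => ((f.toHom u : Fin N) : ℕ) / (m - 1))) ⊆
      Finset.range (n - 1) := by
    intro x hx
    obtain ⟨u, _, rfl⟩ := mem_image.1 hx
    rw [Finset.mem_range]
    apply Nat.div_lt_of_lt_mul
    exact lt_of_lt_of_le (f.toHom u).isLt hN
  have := card_le_card hsub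
  rw [card_image_of_injective _ hinj, card_univ, Fintype.card_fin, card_range] at this
  omega

theorem copy_of_hasCyc {V : Type*} [DecidableEq V] {G : SimpleGraph V} {W : Finset V} {m : ℕ}
    (hm : 3 ≤ m) (h : HasCyc G W m) :
    Nonempty (SimpleGraph.Copy (SimpleGraph.cycleGraph m) G) := by
  obtain ⟨l, hl, ⟨hn, hc, hlast⟩, _⟩ := h
  obtain ⟨k, rfl⟩ : ∃ k, m = k + 2 := ⟨m - 2, by omega⟩
  have hstep : ∀ i (hi : i + 1 < l.length), G.Adj (l[i]'(by omega)) l[i+1] := by
    intro i hi
    exact List.isChain_iff_getElem.1 hc i hi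
  have hwrap : G.Adj (l[k+1]'(by omega)) (l[0]'(by omega)) := by
    apply hlast
    · rw [List.getLast?_eq_getElem?]
      simp only [Option.mem_def]
      rw [List.getElem?_eq_some_iff]
      exact ⟨by omega, by simp [hl]⟩
    · rw [List.head?_eq_getElem?]
      simp only [Option.mem_def]
      rw [List.getElem?_eq_some_iff]
      exact ⟨by omega, rfl⟩
  have key : ∀ u v : Fin (k + 2), u - v = 1 → G.Adj (l[(u : ℕ)]'(by omega)) (l[(v : ℕ)]'(by omega)) := by
    intro u v huv
    have hu : u = v + 1 := sub_eq_iff_eq_add'.1 huv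
    by_cases hv : (v : ℕ) + 1 < k + 2
    · have hu' : (u : ℕ) = (v : ℕ) + 1 := by
        rw [hu, Fin.val_add_one_of_lt']
        exact hv
      have := (hstep (v : ℕ) (by omega)).symm
      simp only [hu']
      exact this
    · have hv' : (v : ℕ) = k + 1 := by omega
      have hu' : (u : ℕ) = 0 := by
        have hvl : v = Fin.last (k + 1) := Fin.ext (by simpa using hv')
        rw [hu, hvl]
        simp
      simp only [hu', hv']
      exact hwrap.symm
  refine ⟨⟨⟨fun i => l[(i : ℕ)]'(by omega), ?_⟩, ?_⟩⟩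
  · intro u v huv
    rw [SimpleGraph.cycleGraph_adj] at huv
    rcases huv with h1 | h1
    · exact key u v h1
    · exact (key v u h1).symm
  · intro a b hab
    have := (List.Nodup.getElem_inj_iff hn).1 hab
    exact Fin.ext this

theorem alphaLe_of_not {V : Type*} [Fintype V] [DecidableEq V] {G : SimpleGraph V} {n : ℕ}
    (hn : 1 ≤ n) (h : ¬ Nonempty (SimpleGraph.Copy (⊤ : SimpleGraph (Fin n)) Gᶜ)) :
    AlphaLe G univ (n - 1) := by
  intro s _ hs
  by_contra hcon
  apply h
  obtain ⟨t, hts, htc⟩ := exists_subset_card_eq (show n ≤ s.card by omega)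
  let e : Fin n ≃ t := (t.equivFinOfCardEq htc).symm
  refine ⟨⟨⟨fun i => (e i : V), ?_⟩, ?_⟩⟩
  · intro a b hab
    rw [SimpleGraph.top_adj] at hab
    rw [SimpleGraph.compl_adj]
    refine ⟨fun h => hab (e.injective (Subtype.ext h)), ?_⟩
    exact hs _ (hts (e a).2) _ (hts (e b).2)
  · intro a b hab
    exact e.injective (Subtype.ext hab)

theorem isLeast_of_upper {m n : ℕ} (hm : 3 ≤ m) (hn : 2 ≤ n)
    (upper : ∀ G : SimpleGraph (Fin ((m - 1) * (n - 1) + 1)),
      AlphaLe G univ (n - 1) → HasCyc G univ m) :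
    IsLeast {N : ℕ | ∀ G : SimpleGraph (Fin N),
      Nonempty (SimpleGraph.Copy (SimpleGraph.cycleGraph m) G) ∨
        Nonempty (SimpleGraph.Copy (⊤ : SimpleGraph (Fin n)) Gᶜ)} ((m - 1) * (n - 1) + 1) := by
  classical
  constructor
  · intro G
    by_cases h : Nonempty (SimpleGraph.Copy (⊤ : SimpleGraph (Fin n)) Gᶜ)
    · exact Or.inr h
    · exact Or.inl (copy_of_hasCyc hm (upper G (alphaLe_of_not (by omega) h)))
  · intro N hN
    by_contra hcon
    rcases hN (blocks m N) with h | h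
    · exact blocks_no_cycle hm h
    · exact blocks_no_indep hn (by omega) h

end Vale.Agent.P048
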