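import Vale.Agent.P048.Sys
import Mathlib.Data.List.TakeWhile

namespace Vale.Agent.P048.L

open Finset

variable {V : Type*} [DecidableEq V] {G : SimpleGraph V} {W K : Finset V}

def kc (K : Finset V) (e : List V) : ℕ := e.countP (fun x => decide (x ∈ K))

theorem kc_append (A B : List V) : kc K (A ++ B) = kc K A + kc K B := List.countP_append

theorem kc_cons (a : V) (B : List V) : kc K (a :: B) = kc K B + if a ∈ K then 1 else 0 := by
  simp [kc, List.countP_cons]

theorem kc_le (e : List V) : kc K e ≤ e.length := List.countP_le_length

theorem kc_pos {e : List V} {x : V} (hx : x ∈ e) (hxK : x ∈ K) : 1 ≤ kc K e := by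
  have : 0 < kc K e := List.countP_pos_iff.2 ⟨x, hx, by simpa using hxK⟩
  exact this

theorem kc_zero {e : List V} (h : ∀ x ∈ e, x ∉ K) : kc K e = 0 := by
  rw [kc, List.countP_eq_zero]
  intro x hx
  simpa using h x hx

theorem kc_full {l : List V} (hn : l.Nodup) (h : ∀ x ∈ K, x ∈ l) : kc K l = K.card := by
  rw [kc, List.countP_eq_length_filter, ← List.toFinset_card_of_nodup (hn.filter _)]
  congr 1
  ext x
  rw [List.mem_toFinset, List.mem_filter]
  constructor
  · intro hx
    simpa using hx.2
  · intro hx
    exact ⟨h x hx, by simpa using hx⟩

theorem Piece.kc_pos' {e : List V} (h : Piece G W K e) : 1 ≤ kc K e := by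
  rcases e with _ | ⟨a, e⟩
  · exact absurd rfl h.ne
  · exact kc_pos (List.mem_cons_self) (h.hd a rfl)

theorem Piece.kc_two {e : List V} (h : Piece G W K e) (hl : 2 ≤ e.length) : 2 ≤ kc K e := by
  rcases e with _ | ⟨a, e⟩
  · exact absurd rfl h.ne
  · have ha : a ∈ K := h.hd a rfl
    have he : e ≠ [] := by
      rintro rfl; simp at hl
    obtain ⟨b, hb⟩ : ∃ b, b ∈ e.getLast? := by
      rcases hh : e.getLast? with _ | y
      · exact absurd (List.getLast?_eq_none_iff.1 hh) he
      · exact ⟨y, rfl⟩
    have hbK : b ∈ K := h.lt b (by
      rw [← List.singleton_append, getLast?_append_cons' _ he]; exact hb)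
    have h1 := kc_pos (List.mem_of_getLast? hb) hbK
    rw [kc_cons, if_pos ha]
    omega

/-- all gaps between consecutive `K`-vertices are longer than `o` -/
def NoGap (K : Finset V) (o : ℕ) (e : List V) : Prop :=
  ∀ A R B : List V, e = A ++ R ++ B → A ≠ [] → B ≠ [] → (∀ x ∈ A.getLast?, x ∈ K) →
    (∀ x ∈ B.head?, x ∈ K) → (∀ x ∈ R, x ∉ K) → R.length ≤ o → False

theorem gap_count {o : ℕ} : ∀ (n : ℕ) (e : List V), e.length ≤ n → e ≠ [] →
    (∀ x ∈ e.head?, x ∈ K) → (∀ x ∈ e.getLast?, x ∈ K) → NoGap K o e →
    (o + 2) * kc K e ≤ e.length + (o + 1) := by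
  intro n
  induction n with
  | zero =>
    intro e hl hne
    exact absurd (List.length_eq_zero_iff.1 (by omega)) hne
  | succ n ih =>
    intro e hl hne hh hlast hgap
    rcases e with _ | ⟨c, rest⟩
    · exact absurd rfl hne
    have hc : c ∈ K := hh c rfl
    rcases hr : rest with _ | ⟨d, rest'⟩
    · rw [kc_cons, if_pos hc]
      simp [kc]
      omega
    · rw [← hr]
      have hrne : rest ≠ [] := by rw [hr]; simp
      have hlast' : ∀ x ∈ rest.getLast?, x ∈ K := by
        intro x hx
        apply hlast x
        rw [← List.singleton_append, getLast?_append_cons' _ hrne]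
        exact hx
      obtain ⟨R, hR⟩ : ∃ R, R = rest.takeWhile (fun x => decide (x ∉ K)) := ⟨_, rfl⟩
      obtain ⟨B, hB⟩ : ∃ B, B = rest.dropWhile (fun x => decide (x ∉ K)) := ⟨_, rfl⟩
      have hRB : rest = R ++ B := by
        rw [hR, hB, List.takeWhile_append_dropWhile]
      have hRK : ∀ x ∈ R, x ∉ K := by
        intro x hx
        rw [hR] at hx
        have := List.mem_takeWhile_imp hx
        simpa using this
      have hBne : B ≠ [] := by
        intro h0
        rw [h0, List.append_nil] at hRB
        obtain ⟨b, hb⟩ : ∃ b, b ∈ rest.getLast? := by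
          rcases hh : rest.getLast? with _ | y
          · exact absurd (List.getLast?_eq_none_iff.1 hh) hrne
          · exact ⟨y, rfl⟩
        exact hRK b (by rw [← hRB]; exact List.mem_of_getLast? hb) (hlast' b hb)
      have hBh : ∀ x ∈ B.head?, x ∈ K := by
        intro x hx
        rcases hB' : B with _ | ⟨y, B'⟩
        · exact absurd hB' hBne
        · rw [hB'] at hx
          simp only [List.head?_cons, Option.mem_def, Option.some.injEq] at hx
          subst hx
          have h2 := List.head_dropWhile_not (fun x => decide (x ∉ K)) (l := rest) (by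
            rw [← hB]; exact hBne)
          have h3 : (rest.dropWhile (fun x => decide (x ∉ K))).head (by
            rw [← hB]; exact hBne) = y := by
            have : ∀ (l : List V) (hl : l ≠ []), l = y :: B' → l.head hl = y := by
              intro l hl h; subst h; rfl
            exact this _ _ (by rw [← hB]; exact hB')
          rw [h3] at h2
          simpa using h2
      have hBl : ∀ x ∈ B.getLast?, x ∈ K := by
        intro x hx
        apply hlast' x
        rw [hRB, getLast?_append_cons' _ hBne]
        exact hx
      have hRo : o + 1 ≤ R.length := by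
        by_contra hcon
        exact hgap [c] R B (by rw [hRB]; simp) (by simp) hBne (by
          intro x hx
          simp only [List.getLast?_singleton, Option.mem_def, Option.some.injEq] at hx
          rw [← hx]; exact hc) hBh hRK (by omega)
      have hlen : rest.length = R.length + B.length := by rw [hRB, List.length_append]
      have hgB : NoGap K o B := by
        intro A' R' B' hB'' hA' hBB hAl hBh' hRK' hRo'
        exact hgap (c :: R ++ A') R' B' (by rw [hRB, hB'']; simp) (by simp) hBB (by
          intro x hx
          rw [getLast?_append_cons' _ hA'] at hx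
          exact hAl x hx) hBh' hRK' hRo'
      have h1 := ih B (by
        simp only [List.length_cons] at hl
        omega) hBne hBh hBl hgB
      rw [kc_cons, if_pos hc, hRB, kc_append, kc_zero hRK, List.length_cons, List.length_append]
      have e1 : (o + 2) * (0 + kc K B + 1) = (o + 2) * kc K B + (o + 2) := by ring
      rw [e1]
      omega

theorem sum_count {o : ℕ} : ∀ {S : List (List V)}, (∀ e ∈ S, Piece G W K e ∧
    (o + 2) * kc K e ≤ e.length + (o + 1)) →
    (o + 2) * kc K S.flatten ≤ S.flatten.length + (o + 1) * S.length ∧
      S.length ≤ kc K S.flatten ∧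
      2 * S.length ≤ kc K S.flatten + S.countP (fun e => decide (e.length = 1))
  | [], _ => by simp [kc]
  | e :: S, h => by
    obtain ⟨h1, h2, h3⟩ := sum_count (S := S) (fun e' he' => h e' (List.mem_cons_of_mem _ he'))
    obtain ⟨he, he2⟩ := h e (List.mem_cons_self)
    have hp := he.kc_pos'
    rw [List.flatten_cons, kc_append, List.length_append, List.length_cons, List.countP_cons]
    have e1 : (o + 2) * (kc K e + kc K S.flatten) = (o + 2) * kc K e + (o + 2) * kc K S.flatten := by
      ring
    have e2 : (o + 1) * (S.length + 1) = (o + 1) * S.length + (o + 1) := by ring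
    refine ⟨by rw [e1, e2]; omega, by omega, ?_⟩
    by_cases hl : e.length = 1
    · simp only [hl, decide_true, if_true]
      omega
    · have hne : 1 ≤ e.length := List.length_pos_iff.2 he.ne
      have := he.kc_two (by omega)
      simp only [hl, decide_false, Bool.false_eq_true, if_false]
      omega

theorem Sys.drop_singles {m : ℕ} (hK : IsClq G K) (hm : 2 ≤ m) : ∀ (o : ℕ) (S : List (List V)),
    Sys G W K S → o ≤ S.countP (fun e => decide (e.length = 1)) → S.flatten.length = m + o →
    HasCyc G W m
  | 0, S, h, _, hl => h.cycle hK hm (by omega)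
  | o + 1, S, h, hc, hl => by
    have hpos : 0 < S.countP (fun e => decide (e.length = 1)) := by omega
    obtain ⟨e, he, he1⟩ := List.countP_pos_iff.1 hpos
    obtain ⟨S1, S2, rfl⟩ := List.append_of_mem he
    have hp : (S1 ++ e :: S2).Perm (e :: (S1 ++ S2)) := List.perm_middle
    have h' := h.perm hp
    have he1' : e.length = 1 := by simpa using he1
    apply Sys.drop_singles hK hm o (S1 ++ S2) h'.tail
    · rw [hp.countP_eq, List.countP_cons] at hc
      simp only [he1', decide_true, if_true] at hc
      omega
    · have := hp.flatten.length_eq
      rw [List.flatten_cons, List.length_append] at this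
      omega

theorem Sys.length_le {S : List (List V)} (h : Sys G W K S) : S.length ≤ S.flatten.length := by
  induction S with
  | nil => simp
  | cons e S ih =>
    have := ih h.tail
    have hne : 1 ≤ e.length := List.length_pos_iff.2 (h.piece e (by simp)).ne
    rw [List.flatten_cons, List.length_append, List.length_cons]
    omega

theorem Sys.fix {m g : ℕ} (hK : IsClq G K) (hkg : g + 2 ≤ K.card) (hm : K.card + g = m) :
    ∀ (n : ℕ) (S : List (List V)), Sys G W K S → (∀ x ∈ K, x ∈ S.flatten) →
      S.flatten.length ≤ S.length + n → m ≤ S.flatten.length →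
      S.flatten.length + 2 ≤ K.card + m → HasCyc G W m := by
  intro n
  induction n with
  | zero =>
    intro S h hfull hn hmS hup
    have h1 := h.length_le
    have h2 := sum_count (o := 0) (S := S) (K := K) (G := G) (W := W) (by
      intro e he
      have hp := h.piece e he
      refine ⟨hp, ?_⟩
      -- every piece is a singleton
      have hlen : e.length = 1 := by
        obtain ⟨S1, S2, rfl⟩ := List.append_of_mem he
        have hpm : (S1 ++ e :: S2).Perm (e :: (S1 ++ S2)) := List.perm_middle
        have h' := (h.perm hpm).tail.length_le
        have h3 := hpm.flatten.length_eq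
        rw [List.flatten_cons, List.length_append] at h3
        have h4 := hpm.length_eq
        rw [List.length_cons] at h4
        have h5 : 1 ≤ e.length := List.length_pos_iff.2 hp.ne
        omega
      have := kc_le (K := K) e
      omega)
    have h3 := kc_full h.nodup hfull
    exact h.cycle hK (by omega) (by omega)
  | succ n ih =>
    intro S h hfull hn hmS hup
    obtain ⟨o, ho⟩ := Nat.exists_eq_add_of_le hmS
    rcases Nat.eq_zero_or_pos o with rfl | hopos
    · exact h.cycle hK (by omega) (by omega)
    by_cases hgap : ∀ e ∈ S, NoGap K o e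
    · have h3 := kc_full h.nodup hfull
      obtain ⟨h1, h2, h4⟩ := sum_count (o := o) (S := S) (K := K) (G := G) (W := W) (by
        intro e he
        have hp := h.piece e he
        exact ⟨hp, gap_count _ e le_rfl hp.ne hp.hd hp.lt (hgap e he)⟩)
      rw [h3] at h1 h2 h4
      apply Sys.drop_singles hK (by omega) o S h _ (by omega)
      by_contra hcon
      push Not at hcon
      obtain ⟨ν, hν⟩ := Nat.exists_eq_add_of_le h2
      rw [ho] at h1 hup
      have e1 : (o + 2) * K.card = K.card + (o + 1) * S.length + (o + 1) * ν := by
        rw [hν]; ring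
      rw [e1] at h1
      have h5 : (o + 1) * ν ≤ g + o := by omega
      rcases Nat.lt_or_ge ν 2 with hν2 | hν2
      · omega
      · obtain ⟨ν', rfl⟩ := Nat.exists_eq_add_of_le hν2
        obtain ⟨o', rfl⟩ := Nat.exists_eq_add_of_le (show 1 ≤ o by omega)
        have e2 : (1 + o' + 1) * (2 + ν') = o' * ν' + 2 * o' + 2 * ν' + 4 := by ring
        have := Nat.zero_le (o' * ν')
        omega
    · simp only [NoGap, not_forall] at hgap
      obtain ⟨e, he, A, R, B, heq, hA, hB, hAl, hBh, hRK, hRo, _⟩ := hgap
      obtain ⟨S1, S2, rfl⟩ := List.append_of_mem he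
      subst heq
      have hpm : (S1 ++ (A ++ R ++ B) :: S2).Perm ((A ++ R ++ B) :: (S1 ++ S2)) := List.perm_middle
      generalize S1 ++ S2 = T at hpm
      have h' := (h.perm hpm).cut hA hB hAl hBh
      have h3 := hpm.flatten.length_eq
      rw [List.flatten_cons, List.length_append, List.length_append, List.length_append] at h3
      have h4 := hpm.length_eq
      rw [List.length_cons] at h4
      have h5 := h'.length_le
      simp only [List.flatten_cons, List.length_cons, List.length_append] at h5
      apply ih (A :: B :: T) h'
      · intro x hx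
        have hxf := (hpm.flatten.mem_iff).1 (hfull x hx)
        rw [List.flatten_cons, List.mem_append, List.mem_append, List.mem_append] at hxf
        rw [List.flatten_cons, List.flatten_cons, List.mem_append, List.mem_append]
        have := fun h => hRK x h hx
        tauto
      · simp only [List.flatten_cons, List.length_cons, List.length_append]
        omega
      · simp only [List.flatten_cons, List.length_append]
        omega
      · simp only [List.flatten_cons, List.length_append]
        omega

end Vale.Agent.P048.L
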