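import Vale.Agent.P048.Basic

namespace Vale.Agent.P048

open Finset

variable {V : Type*} [DecidableEq V]

def Bridge (G : SimpleGraph V) (O : Finset V) (u u' : V) (q : List V) : Prop :=
  q ≠ [] ∧ q.IsChain G.Adj ∧ (∀ x ∈ q, x ∈ O) ∧ (∀ h ∈ q.head?, G.Adj u h) ∧
    (∀ e ∈ q.getLast?, G.Adj e u')

omit [DecidableEq V] in
theorem bridge_cut {G : SimpleGraph V} {O : Finset V} {u u' : V} {A B C : List V} {x y : V}
    (h : Bridge G O u u' (A ++ x :: (B ++ y :: C))) (hxy : G.Adj x y) :
    Bridge G O u u' (A ++ x :: y :: C) := by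
  obtain ⟨_, h2, h3, h4, h5⟩ := h
  refine ⟨by simp, ?_, ?_, ?_, ?_⟩
  · rw [List.isChain_append] at h2 ⊢
    obtain ⟨hA, hB, hAB⟩ := h2
    refine ⟨hA, ?_, by simpa using hAB⟩
    rw [List.isChain_cons_cons]
    refine ⟨hxy, ?_⟩
    have : (x :: B ++ y :: C).IsChain G.Adj := hB
    rw [List.isChain_append] at this
    exact this.2.1
  · intro z hz
    apply h3
    simp only [List.mem_append, List.mem_cons] at hz ⊢
    tauto
  · intro z hz
    apply h4
    rw [List.head?_append] at hz ⊢
    simpa using hz
  · intro z hz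
    apply h5
    rw [List.getLast?_append] at hz ⊢
    have e1 : (x :: (B ++ y :: C)).getLast? = (y :: C).getLast? := by
      rw [← List.cons_append, List.getLast?_append]
      obtain ⟨r, hr⟩ : ∃ r, (y :: C).getLast? = some r :=
        ⟨_, List.getLast?_eq_some_getLast (by simp)⟩
      rw [hr]; rfl
    have e2 : (x :: y :: C).getLast? = (y :: C).getLast? := by
      rw [List.getLast?_cons_cons]
    rw [e1]
    rw [e2] at hz
    exact hz

omit [DecidableEq V] in
theorem bridge_loop {G : SimpleGraph V} {O : Finset V} {u u' : V} {A B C : List V} {x : V}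
    (h : Bridge G O u u' (A ++ x :: (B ++ x :: C))) :
    Bridge G O u u' (A ++ x :: C) := by
  obtain ⟨_, h2, h3, h4, h5⟩ := h
  refine ⟨by simp, ?_, ?_, ?_, ?_⟩
  · rw [List.isChain_append] at h2 ⊢
    obtain ⟨hA, hB, hAB⟩ := h2
    refine ⟨hA, ?_, by simpa using hAB⟩
    have : (x :: B ++ x :: C).IsChain G.Adj := hB
    rw [List.isChain_append] at this
    exact this.2.1
  · intro z hz
    apply h3
    simp only [List.mem_append, List.mem_cons] at hz ⊢
    tauto
  · intro z hz
    apply h4
    rw [List.head?_append] at hz ⊢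
    simpa using hz
  · intro z hz
    apply h5
    rw [List.getLast?_append] at hz ⊢
    have e1 : (x :: (B ++ x :: C)).getLast? = (x :: C).getLast? := by
      rw [← List.cons_append, List.getLast?_append]
      obtain ⟨r, hr⟩ : ∃ r, (x :: C).getLast? = some r :=
        ⟨_, List.getLast?_eq_some_getLast (by simp)⟩
      rw [hr]; rfl
    rw [e1]
    exact hz

omit [DecidableEq V] in
theorem bridge_trunc {G : SimpleGraph V} {O : Finset V} {u u' : V} {A B : List V} {x : V}
    (h : Bridge G O u u' (A ++ x :: B)) (hx : G.Adj x u') :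
    Bridge G O u u' (A ++ [x]) := by
  obtain ⟨_, h2, h3, h4, h5⟩ := h
  refine ⟨by simp, ?_, ?_, ?_, ?_⟩
  · rw [List.isChain_append] at h2 ⊢
    obtain ⟨hA, hB, hAB⟩ := h2
    exact ⟨hA, by simp, by simpa using hAB⟩
  · intro z hz
    apply h3
    simp only [List.mem_append, List.mem_cons] at hz ⊢
    simp only [List.not_mem_nil, or_false] at hz
    tauto
  · intro z hz
    apply h4
    rw [List.head?_append] at hz ⊢
    simpa using hz
  · intro z hz
    rw [List.getLast?_append] at hz
    simp only [List.getLast?_singleton, Option.some_or, Option.mem_def,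
      Option.some.injEq] at hz
    rw [← hz]; exact hx

theorem exists_min_bridge {G : SimpleGraph V} {O : Finset V} {u u' : V}
    (h : ∃ q, Bridge G O u u' q) :
    ∃ q, Bridge G O u u' q ∧ ∀ q', Bridge G O u u' q' → q.length ≤ q'.length := by
  classical
  have h' : ∃ n, ∃ q, Bridge G O u u' q ∧ q.length = n := by
    obtain ⟨q, hq⟩ := h
    exact ⟨q.length, q, hq, rfl⟩
  obtain ⟨q, hq1, hq2⟩ := Nat.find_spec h'
  refine ⟨q, hq1, fun q' hq' => ?_⟩
  rw [hq2]
  exact Nat.find_min' h' ⟨q', hq', rfl⟩

omit [DecidableEq V] in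
theorem split_two (q : List V) {i j : ℕ} (hij : i < j) (hj : j < q.length) :
    q = q.take i ++ q[i] :: ((q.drop (i+1)).take (j-i-1) ++ q[j] :: q.drop (j+1)) := by
  have h1 : q = q.take i ++ q.drop i := (List.take_append_drop i q).symm
  have h2 : q.drop i = q[i] :: q.drop (i+1) := List.drop_eq_getElem_cons (by omega)
  have h3 : q.drop (i+1) = (q.drop (i+1)).take (j-i-1) ++ (q.drop (i+1)).drop (j-i-1) :=
    (List.take_append_drop _ _).symm
  have h4 : (q.drop (i+1)).drop (j-i-1) = q.drop j := by
    rw [List.drop_drop]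
    congr 1
    omega
  have h5 : q.drop j = q[j] :: q.drop (j+1) := List.drop_eq_getElem_cons hj
  conv_lhs => rw [h1, h2, h3, h4, h5]

theorem bridge_short {G : SimpleGraph V} {W O : Finset V} {b : ℕ} {u u' : V}
    (hW : AlphaLe G W b) (hO : O ⊆ W) (hu' : u' ∈ W) (huO : u' ∉ O)
    (h : ∃ q, Bridge G O u u' q) :
    ∃ q, Bridge G O u u' q ∧ q.Nodup ∧ q.length + 1 ≤ 2 * b := by
  obtain ⟨q, hq, hmin⟩ := exists_min_bridge h
  have hne : ∀ i j (hij : i < j) (hj : j < q.length), q[i] ≠ q[j] := by
    intro i j hij hj heq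
    have hs := split_two q hij hj
    rw [heq] at hs
    have hq' := hq
    rw [hs] at hq'
    have := hmin _ (bridge_loop hq')
    simp only [List.length_append, List.length_cons, List.length_take, List.length_drop] at this
    omega
  have hnadj : ∀ i j (hij : i + 1 < j) (hj : j < q.length), ¬ G.Adj (q[i]'(by omega)) q[j] := by
    intro i j hij hj hadj
    have hs := split_two q (show i < j by omega) hj
    have hq' := hq
    rw [hs] at hq'
    have := hmin _ (bridge_cut hq' hadj)
    simp only [List.length_append, List.length_cons, List.length_take, List.length_drop] at this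
    omega
  have hnu : ∀ i (hi : i + 1 < q.length), ¬ G.Adj (q[i]'(by omega)) u' := by
    intro i hi hadj
    have h1 : q = q.take i ++ q[i] :: q.drop (i+1) := by
      conv_lhs => rw [← List.take_append_drop i q, List.drop_eq_getElem_cons (by omega)]
    have hq' := hq
    rw [h1] at hq'
    have := hmin _ (bridge_trunc hq' hadj)
    simp only [List.length_append, List.length_cons, List.length_take, List.length_nil] at this
    omega
  refine ⟨q, hq, ?_, ?_⟩
  · rw [List.nodup_iff_injective_getElem]
    intro i j hij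
    by_contra hcon
    rcases lt_trichotomy i.1 j.1 with h1 | h1 | h1
    · exact hne i.1 j.1 h1 j.2 hij
    · exact hcon (Fin.ext h1)
    · exact hne j.1 i.1 h1 i.2 hij.symm
  · by_contra hcon
    have hlen : 2 * b ≤ q.length := by omega
    let f : Fin b → V := fun i => q[2 * i.1]'(by omega)
    have hf : Function.Injective f := by
      intro i j hij
      by_contra hne'
      have hne'' : i.1 ≠ j.1 := fun h => hne' (Fin.ext h)
      rcases lt_or_gt_of_ne hne'' with h1 | h1
      · exact hne (2 * i.1) (2 * j.1) (by omega) (by omega) hij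
      · exact hne (2 * j.1) (2 * i.1) (by omega) (by omega) hij.symm
    let S : Finset V := univ.image f
    have hS : S.card = b := by
      rw [card_image_of_injective _ hf, card_univ, Fintype.card_fin]
    have hSO : ∀ x ∈ S, x ∈ O := by
      intro x hx
      obtain ⟨i, _, rfl⟩ := mem_image.1 hx
      exact hq.2.2.1 _ (List.getElem_mem _)
    have hSind : Ind G S := by
      intro x hx y hy
      obtain ⟨i, _, rfl⟩ := mem_image.1 hx
      obtain ⟨j, _, rfl⟩ := mem_image.1 hy
      rcases lt_trichotomy i.1 j.1 with h1 | h1 | h1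
      · exact hnadj _ _ (by omega) (by omega)
      · have : i = j := Fin.ext h1
        rw [this]; exact G.loopless.irrefl _
      · intro hadj
        exact hnadj (2 * j.1) (2 * i.1) (by omega) (by omega) hadj.symm
    have hins : Ind G (insert u' S) := by
      apply ind_insert hSind
      intro y hy hadj
      obtain ⟨i, _, rfl⟩ := mem_image.1 hy
      exact hnu (2 * i.1) (by omega) hadj.symm
    have huS : u' ∉ S := fun h => huO (hSO _ h)
    have := hW (insert u' S) (insert_subset hu' (fun x hx => hO (hSO x hx))) hins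
    rw [card_insert_of_notMem huS, hS] at this
    omega

end Vale.Agent.P048
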