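import Vale.Agent.P048.Tree

namespace Vale.Agent.P048.L

open Finset

variable {V : Type*} [DecidableEq V] {G : SimpleGraph V} {O : Finset V}

open Classical in
/-- closed neighbourhood of `J` inside `O` -/
noncomputable def cn (G : SimpleGraph V) (O J : Finset V) : Finset V :=
  O.filter (fun y => y ∈ J ∨ Att G J y)

theorem mem_cn {J : Finset V} {y : V} : y ∈ cn G O J ↔ y ∈ O ∧ (y ∈ J ∨ Att G J y) := by
  classical
  unfold cn
  exact mem_filter

/-- the vertices of the tree -/
def tv (h : ℕ) (Lev : ℕ → Finset V) : Finset V := (range (h + 1)).biUnion Lev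

theorem mem_tv {h : ℕ} {Lev : ℕ → Finset V} {x : V} : x ∈ tv h Lev ↔ ∃ i, i ≤ h ∧ x ∈ Lev i := by
  unfold tv
  rw [mem_biUnion]
  constructor
  · rintro ⟨i, hi, hx⟩
    exact ⟨i, by rw [mem_range] at hi; omega, hx⟩
  · rintro ⟨i, hi, hx⟩
    exact ⟨i, by rw [mem_range]; omega, hx⟩

/-- extending a tree by one level -/
theorem Tree.ext {h : ℕ} {Lev : ℕ → Finset V} {par : V → V} (T : Tree G O h Lev par)
    {X : Finset V} (hX : X ⊆ cn G O (Lev h) \ tv h Lev) :
    ∃ Lev' par', Tree G O (h + 1) Lev' par' ∧ Lev' (h + 1) = X ∧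
      tv (h + 1) Lev' = tv h Lev ∪ X := by
  classical
  have hX' : ∀ w ∈ X, w ∈ O ∧ w ∉ tv h Lev ∧ ∃ y ∈ Lev h, G.Adj w y := by
    intro w hw
    have := mem_sdiff.1 (hX hw)
    rw [mem_cn] at this
    refine ⟨this.1.1, this.2, ?_⟩
    rcases this.1.2 with h1 | ⟨y, hy, hwy⟩
    · exact absurd (mem_tv.2 ⟨h, le_rfl, h1⟩) this.2
    · exact ⟨y, hy, hwy⟩
  choose! f hf using fun w (hw : w ∈ X) => (hX' w hw).2.2
  have hdisj : ∀ i, i ≤ h → ∀ w ∈ Lev i, w ∉ X := by
    intro i hi w hw hwX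
    exact (hX' w hwX).2.1 (mem_tv.2 ⟨i, hi, hw⟩)
  refine ⟨fun i => if i ≤ h then Lev i else X, fun w => if w ∈ X then f w else par w,
    ⟨?_, ?_, ?_, ?_⟩, ?_, ?_⟩
  · intro x hx y hy
    simp only [Nat.zero_le, if_true] at hx hy
    exact T.root x hx y hy
  · intro i hi
    by_cases h1 : i ≤ h
    · simp only [h1, if_true]
      exact T.sub i h1
    · simp only [h1, if_false]
      intro w hw
      exact (hX' w hw).1
  · intro i hi w hw
    simp only [show i ≤ h by omega, if_true]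
    by_cases h1 : i + 1 ≤ h
    · simp only [h1, if_true] at hw
      rw [if_neg (hdisj _ h1 w hw)]
      exact T.par i (by omega) w hw
    · simp only [h1, if_false] at hw
      rw [if_pos hw]
      have e : i = h := by omega
      rw [e]
      exact hf w hw
  · intro i j hi hj w hwi hwj
    by_cases h1 : i ≤ h
    · simp only [h1, if_true] at hwi
      by_cases h2 : j ≤ h
      · simp only [h2, if_true] at hwj
        exact T.disj i j h1 h2 w hwi hwj
      · simp only [h2, if_false] at hwj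
        exact absurd hwj (hdisj i h1 w hwi)
    · simp only [h1, if_false] at hwi
      by_cases h2 : j ≤ h
      · simp only [h2, if_true] at hwj
        exact absurd hwi (hdisj j h2 w hwj)
      · omega
  · simp
  · ext x
    rw [mem_union, mem_tv, mem_tv]
    constructor
    · rintro ⟨i, hi, hx⟩
      by_cases h1 : i ≤ h
      · simp only [h1, if_true] at hx
        exact Or.inl ⟨i, h1, hx⟩
      · simp only [h1, if_false] at hx
        exact Or.inr hx
    · rintro (⟨i, hi, hx⟩ | hx)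
      · exact ⟨i, by omega, by simp only [hi, if_true]; exact hx⟩
      · exact ⟨h + 1, le_rfl, by simp; exact hx⟩

/-- a tree of depth `h` with `j` independent leaves in `B` and at most `s` vertices -/
def Grown (G : SimpleGraph V) (O B : Finset V) (h j s : ℕ) : Prop :=
  ∃ Lev par, Tree G O h Lev par ∧ Ind G (Lev h) ∧ (Lev h).card = j ∧ (tv h Lev).card ≤ s ∧
    Lev h ⊆ B

theorem grown_zero {B : Finset V} {x : V} (hx : x ∈ O) (hxB : x ∈ B) : Grown G O B 0 1 1 := by
  refine ⟨fun _ => {x}, fun w => w, ⟨?_, ?_, ?_, ?_⟩, ind_singleton x, card_singleton x, ?_,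
    singleton_subset_iff.2 hxB⟩
  · intro u hu v hv
    rw [mem_singleton] at hu hv
    rw [hu, hv]
  · intro i _
    exact singleton_subset_iff.2 hx
  · intro i hi
    omega
  · intro i j hi hj _ _ _
    omega
  · have : tv 0 (fun _ => ({x} : Finset V)) = {x} := by
      ext y
      rw [mem_tv]
      constructor
      · rintro ⟨i, _, hy⟩; exact hy
      · intro hy; exact ⟨0, le_rfl, hy⟩
    rw [this, card_singleton]

/-- one growth step -/
theorem Grown.step {B B' : Finset V} {h j s m τ k j' : ℕ} (g : Grown G O B h j s)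
    (hBB : ∀ w ∈ B, ∀ y ∈ O, G.Adj w y → y ∈ B')
    (hexp : ∀ J, J ⊆ B → Ind G J → 1 ≤ J.card → (m - 1) * J.card + 1 ≤ (cn G O J).card + τ)
    (hR : ∀ Lev par, Tree G O (h + 1) Lev par → Bdd G k (Lev (h + 1))) (hj : 1 ≤ j)
    (hnum : k * (j' - 1) + s + τ < (m - 1) * j + 1) : Grown G O B' (h + 1) j' (s + j') := by
  classical
  obtain ⟨Lev, par, T, hI, hc, hs, hB⟩ := g
  have h1 := hexp (Lev h) hB hI (by omega)
  rw [hc] at h1
  obtain ⟨Lev1, par1, T1, e1, _⟩ := T.ext (X := cn G O (Lev h) \ tv h Lev) (Subset.refl _)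
  have h2 := hR Lev1 par1 T1
  rw [e1] at h2
  have h3 : (cn G O (Lev h)).card ≤ (cn G O (Lev h) \ tv h Lev).card + (tv h Lev).card := by
    have : cn G O (Lev h) ⊆ (cn G O (Lev h) \ tv h Lev) ∪ tv h Lev := by
      intro x hx
      rw [mem_union, mem_sdiff]
      tauto
    exact (card_le_card this).trans (card_union_le _ _)
  have h4 : ¬ AlphaLe G (cn G O (Lev h) \ tv h Lev) (j' - 1) := by
    intro hcon
    have := h2 (j' - 1) _ (Subset.refl _) hcon
    omega
  obtain ⟨I, hI1, hI2, hI3⟩ := exists_ind_of_not_alphaLe h4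
  obtain ⟨J, hJ1, hJ2⟩ := exists_subset_card_eq (show j' ≤ I.card by omega)
  obtain ⟨Lev2, par2, T2, e2, e3⟩ := T.ext (X := J) (hJ1.trans hI1)
  refine ⟨Lev2, par2, T2, ?_, ?_, ?_, ?_⟩
  · rw [e2]; exact hI2.mono hJ1
  · rw [e2]; exact hJ2
  · rw [e3]
    have := card_union_le (tv h Lev) J
    omega
  · rw [e2]
    intro x hx
    have h5 := mem_sdiff.1 (hI1 (hJ1 hx))
    rw [mem_cn] at h5
    rcases h5.1.2 with h6 | ⟨y, hy, hxy⟩
    · exact absurd (mem_tv.2 ⟨h, le_rfl, h6⟩) h5.2
    · exact hBB y (hB hy) x h5.1.1 hxy.symm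

end Vale.Agent.P048.L
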