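import Vale.Agent.P048.Grow2

namespace Vale.Agent.P048.L

open Finset

variable {V : Type*} [DecidableEq V] {G : SimpleGraph V} {O W K : Finset V} {a m g : ℕ}

theorem exp_main (E : Env0 G W a m) {F J : Finset V} (hJ : J ⊆ W \ F) (hJi : Ind G J)
    (hJ1 : 1 ≤ J.card) [DecidablePred (Att G J)] :
    (m - 1) * J.card + 1 ≤ (cn G (W \ F) J).card + (F.filter (Att G J)).card := by
  set F' := F.filter (Att G J) with hF'
  set Y := W \ (cn G (W \ F) J ∪ F') with hY
  have hJW : J ⊆ W := hJ.trans sdiff_subset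
  have hYn : ∀ y ∈ Y, ∀ x ∈ J, ¬ G.Adj y x := by
    intro y hy x hx hadj
    rw [hY, mem_sdiff, mem_union] at hy
    by_cases hyF : y ∈ F
    · exact hy.2 (Or.inr (mem_filter.2 ⟨hyF, x, hx, hadj⟩))
    · exact hy.2 (Or.inl (mem_cn.2 ⟨mem_sdiff.2 ⟨hy.1, hyF⟩, Or.inr ⟨x, hx, hadj⟩⟩))
  have hYJ : ∀ y ∈ Y, y ∉ J := by
    intro y hy hyJ
    rw [hY, mem_sdiff, mem_union] at hy
    exact hy.2 (Or.inl (mem_cn.2 ⟨hJ hyJ, Or.inl hyJ⟩))
  have hJa := E.hW J hJW hJi
  have hYa : AlphaLe G Y (a - J.card) := by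
    intro S hS hSi
    have hd : Disjoint S J := by
      rw [disjoint_left]
      intro x hxS hxJ
      exact hYJ x (hS hxS) hxJ
    have hi : Ind G (S ∪ J) := by
      intro x hx y hy
      rw [mem_union] at hx hy
      rcases hx with hx | hx
      · rcases hy with hy | hy
        · exact hSi x hx y hy
        · exact hYn x (hS hx) y hy
      · rcases hy with hy | hy
        · exact fun h => hYn y (hS hy) x hx h.symm
        · exact hJi x hx y hy
    have h1 := E.hW (S ∪ J) (union_subset (hS.trans sdiff_subset) hJW) hi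
    rw [card_union_of_disjoint hd] at h1
    omega
  have hYc := E.hmin (a - J.card) (by omega) Y sdiff_subset hYa
  have h2 : W.card ≤ (cn G (W \ F) J ∪ F').card + Y.card := by
    have h3 : W ⊆ Y ∪ (cn G (W \ F) J ∪ F') := by
      intro w hw
      rw [mem_union, hY, mem_sdiff]
      by_cases h : w ∈ cn G (W \ F) J ∪ F'
      · exact Or.inr h
      · exact Or.inl ⟨hw, h⟩
    have h4 := (card_le_card h3).trans (card_union_le _ _)
    omega
  have h5 := card_union_le (cn G (W \ F) J) F'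
  have h6 := E.hcard
  obtain ⟨k, hk⟩ := Nat.exists_eq_add_of_le hJa
  rw [hk, Nat.add_sub_cancel_left] at hYc
  rw [hk] at h6
  have e : (m - 1) * (J.card + k) = (m - 1) * J.card + (m - 1) * k := by ring
  omega

theorem exp_W (E : Env0 G W a m) {J : Finset V} (hJ : J ⊆ W) (hJi : Ind G J)
    (hJ1 : 1 ≤ J.card) : (m - 1) * J.card + 1 ≤ (cn G W J).card := by
  classical
  have h := exp_main E (F := ∅) (J := J) (by rw [sdiff_empty]; exact hJ) hJi hJ1
  rw [sdiff_empty, filter_empty, card_empty] at h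
  exact h

/-- kernel-checkable growth: starting from `(h, j, s)`, after at most `n` steps the target holds -/
noncomputable def grw (m1 k τ : ℕ) (tgt : ℕ → ℕ → Bool) (n : ℕ) : ℕ → ℕ → ℕ → Bool :=
  Nat.rec (fun h j _ => tgt h j) (fun _ ih h j s => cond (tgt h j) true
    (cond (Nat.ble (Nat.add s τ) (Nat.mul m1 j))
      (ih (Nat.succ h) (Nat.succ (Nat.div (Nat.sub (Nat.sub (Nat.mul m1 j) s) τ) k))
        (Nat.add s (Nat.succ (Nat.div (Nat.sub (Nat.sub (Nat.mul m1 j) s) τ) k))))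
      false)) n

theorem grw_zero (m1 k τ : ℕ) (tgt : ℕ → ℕ → Bool) (h j s : ℕ) :
    grw m1 k τ tgt 0 h j s = tgt h j := rfl

theorem grw_succ (m1 k τ : ℕ) (tgt : ℕ → ℕ → Bool) (n h j s : ℕ) :
    grw m1 k τ tgt (n + 1) h j s = cond (tgt h j) true (cond (Nat.ble (s + τ) (m1 * j))
      (grw m1 k τ tgt n (h + 1) ((m1 * j - s - τ) / k + 1)
        (s + ((m1 * j - s - τ) / k + 1))) false) := rfl

theorem grw_sound {k τ : ℕ} {tgt : ℕ → ℕ → Bool} {B : ℕ → Finset V} (hk : 1 ≤ k) {H : ℕ}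
    (hBB : ∀ h, ∀ w ∈ B h, ∀ y ∈ O, G.Adj w y → y ∈ B (h + 1))
    (hexp : ∀ h, h < H → ∀ J, J ⊆ B h → J ⊆ O → Ind G J → 1 ≤ J.card →
      (m - 1) * J.card + 1 ≤ (cn G O J).card + τ)
    (hR : ∀ h, h < H → ∀ Lev par, Tree G O (h + 1) Lev par → Bdd G k (Lev (h + 1))) :
    ∀ n h j s, h + n ≤ H → 1 ≤ j → grw (m - 1) k τ tgt n h j s = true → Grown G O (B h) h j s →
      ∃ h' j' s', h' ≤ H ∧ h ≤ h' ∧ tgt h' j' = true ∧ Grown G O (B h') h' j' s'
  | 0, h, j, s, hH, _, hg, hG => ⟨h, j, s, hH, le_rfl, hg, hG⟩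
  | n + 1, h, j, s, hH, hj, hg, hG => by
    rw [grw_succ] at hg
    rcases ht : tgt h j with _ | _
    · rw [ht, cond_false] at hg
      rcases hb : Nat.ble (s + τ) ((m - 1) * j) with _ | _
      · rw [hb, cond_false] at hg
        exact absurd hg (by simp)
      · rw [hb, cond_true] at hg
        rw [Nat.ble_eq] at hb
        have hq2 : k * (((m - 1) * j - s - τ) / k) ≤ (m - 1) * j - s - τ := by
          rw [Nat.mul_comm]
          exact Nat.div_mul_le_self _ _
        generalize ((m - 1) * j - s - τ) / k = q at hq2 hg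
        have hG' : Grown G O (B (h + 1)) (h + 1) (q + 1) (s + (q + 1)) := by
          obtain ⟨Lev, par, T, hI, hc, hs, hB⟩ := hG
          have hG2 : Grown G O (B h ∩ O) h j s :=
            ⟨Lev, par, T, hI, hc, hs, subset_inter hB (T.sub h le_rfl)⟩
          refine hG2.step (m := m) (τ := τ) (k := k) (fun w hw y hy hwy =>
            hBB h w (mem_inter.1 hw).1 y hy hwy) ?_ (hR h (by omega)) hj ?_
          · intro J hJ hJi hJ1
            exact hexp h (by omega) J (hJ.trans inter_subset_left) (hJ.trans inter_subset_right)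
              hJi hJ1
          · rw [Nat.add_sub_cancel]
            omega
        obtain ⟨h', j', s', h1, h2, h3, h4⟩ := grw_sound hk hBB hexp hR n (h + 1) (q + 1)
          (s + (q + 1)) (by omega) (by omega) hg hG'
        exact ⟨h', j', s', h1, by omega, h3, h4⟩
    · exact ⟨h, j, s, by omega, le_rfl, ht, hG⟩

/-- The main growth argument: no minimal counterexample with small cliques. -/
theorem main_growth {k : ℕ} (E : Env0 G W a m) (hk : 1 ≤ k) {A H : ℕ} (haA : a ≤ A)
    (hR : ∀ h, h < H → ∀ Lev par, Tree G W (h + 1) Lev par → Bdd G k (Lev (h + 1)))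
    (hchk : grw (m - 1) k 0 (fun _ j => Nat.ble (A + 1) j) H 0 1 1 = true) : False := by
  have hWne : W.Nonempty := by
    rw [← card_pos]
    have := E.hcard
    omega
  obtain ⟨x, hx⟩ := hWne
  obtain ⟨h', j', s', h1, _, h3, Lev, par, T, hI, hc, _, _⟩ :=
    grw_sound (O := W) (B := fun _ => W) hk (H := H) (fun _ _ _ y hy _ => hy)
      (fun h _ J _ hJ hJi hJ1 => by
        have := exp_W E hJ hJi hJ1
        omega) hR H 0 1 1 (by omega) le_rfl hchk (grown_zero hx hx)
  rw [Nat.ble_eq] at h3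
  have := E.hW _ (T.sub h' le_rfl) hI
  omega

end Vale.Agent.P048.L
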