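import Vale.Agent.P048.Dense
import Vale.Agent.P048.Halve

namespace Vale.Agent.P048.L

theorem EE_le (B : ℕ) : ∀ c, EE B c ≤ 4 * (B * c)
  | 0 => by simp [EE]
  | c + 1 => by
    have ih := EE_le B c
    show EE B c + 4 * min c B ≤ _
    have h := min_le_right c B
    have e : 4 * (B * (c + 1)) = 4 * (B * c) + 4 * B := by ring
    omega

theorem XX_big {s : ℕ} : ∀ d, 2 * XX s (s + 1 + d) = d * (d + 1)
  | 0 => by rw [Nat.add_zero, XX_small _ le_rfl]
  | d + 1 => by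
    have ih := XX_big (s := s) d
    show 2 * (XX s (s + 1 + d) + (s + 1 + d - s)) = _
    rw [show s + 1 + d - s = d + 1 by omega, Nat.mul_add, ih]
    ring

/-- initial doubling phase -/
theorem grow_init {m B A0 x : ℕ} {f : ℕ → ℕ} (hB : 166 ≤ B) (hm1 : 12 * B ≤ m)
    (hA0 : A0 = (m + 1) / 2 - 1) (hx : 6 * x ≤ m)
    (h1 : 2 ≤ f 1) (hmono : ∀ r, f r ≤ f (r + 1))
    (hg : ∀ r, r < 9 → (m - 1) * f r + 2 ≤ x + (A0 + 1) + TT A0 B (f (r + 1))) : 128 ≤ f 9 := by
  have hBA : B ≤ A0 := by omega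
  have step : ∀ (r y c : ℕ), r < 9 → y ≤ f r → 1 ≤ c → c ≤ B + 1 →
      x + (A0 + 1) + (2 * (c * (c - 1)) + A0 * c + 1) < (m - 1) * y + 2 → c + 1 ≤ f (r + 1) := by
    intro r y c hr hy hc hcB h
    by_contra hcon
    have h3 := hg r hr
    have h4 : TT A0 B (f (r + 1)) ≤ TT A0 B c := TT_mono (by omega)
    rw [TT_thr hBA hc hcB] at h4
    simp only [thr] at h4
    have h5 : (m - 1) * y ≤ (m - 1) * f r := Nat.mul_le_mul_left _ hy
    omega
  have s2 := step 1 2 2 (by omega) h1 (by omega) (by omega) (by omega)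
  have s3 := step 2 3 4 (by omega) s2 (by omega) (by omega) (by omega)
  have s4 := step 3 5 8 (by omega) s3 (by omega) (by omega) (by omega)
  have s5 := step 4 9 16 (by omega) s4 (by omega) (by omega) (by omega)
  have s6 := step 5 17 30 (by omega) s5 (by omega) (by omega) (by omega)
  have s7 := step 6 31 54 (by omega) s6 (by omega) (by omega) (by omega)
  have s8 := step 7 55 91 (by omega) s7 (by omega) (by omega) (by omega)
  have s9 := step 8 92 140 (by omega) s8 (by omega) (by omega) (by omega)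
  exact le_trans (by omega) s9

theorem grow_next {m B A0 x f f' : ℕ} (hm1 : 12 * B ≤ m)
    (hA0 : A0 = (m + 1) / 2 - 1) (hx : 6 * x ≤ m) (hm : 1 ≤ m) (hf : f ≤ A0 + 3)
    (hf' : f' ≤ A0 + 3) (hff : 4 ≤ f')
    (hg : (m - 1) * f + 2 ≤ x + (A0 + 1) + TT A0 B f') : 6 * f ≤ 5 * f' + 7 := by
  have h1 : TT A0 B f' ≤ (A0 + 4 * B) * f' + 1 := by
    simp only [TT]
    rw [XX_small f' (by omega)]
    have := EE_le B f'
    have e : (A0 + 4 * B) * f' = A0 * f' + 4 * (B * f') := by ring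
    omega
  by_contra hcon
  push Not at hcon
  obtain ⟨k, rfl⟩ := Nat.exists_eq_add_of_le' hm
  rw [Nat.add_sub_cancel] at hg
  have h2 : 6 * A0 ≤ 3 * k := by omega
  have h3 : 6 * (A0 + 4 * B) ≤ 5 * k + 2 := by omega
  have h4 : 6 * ((A0 + 4 * B) * f') ≤ (5 * k + 2) * f' := by
    have := Nat.mul_le_mul_right f' h3
    calc 6 * ((A0 + 4 * B) * f') = 6 * (A0 + 4 * B) * f' := by ring
      _ ≤ _ := this
  have h5 : k * (5 * f' + 8) ≤ k * (6 * f) := Nat.mul_le_mul_left _ hcon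
  have e1 : k * (6 * f) = 6 * (k * f) := by ring
  have e2 : k * (5 * f' + 8) = 5 * (k * f') + 8 * k := by ring
  have e3 : (5 * k + 2) * f' = 5 * (k * f') + 2 * f' := by ring
  omega

theorem grow_double {m B A0 x : ℕ} {f : ℕ → ℕ} (hB : 166 ≤ B) (hm1 : 12 * B ≤ m)
    (hA0 : A0 = (m + 1) / 2 - 1) (hx : 6 * x ≤ m) (hmono : ∀ r, f r ≤ f (r + 1)) {j : ℕ}
    (h9 : 128 ≤ f 9)
    (hg : ∀ r, r < 9 + 4 * j → (m - 1) * f r + 2 ≤ x + (A0 + 1) + TT A0 B (f (r + 1)))
    (hle : f (9 + 4 * j) ≤ A0 + 3) : 128 * 2 ^ j ≤ f (9 + 4 * j) := by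
  have hmono' : ∀ i j, i ≤ j → f i ≤ f j := fun i j h => monotone_nat_of_le_succ hmono h
  induction j with
  | zero => simpa using h9
  | succ j ih =>
    have h0 := ih (fun r hr => hg r (by omega)) ((hmono' _ _ (by omega)).trans hle)
    have h2 : 1 ≤ 2 ^ j := Nat.one_le_two_pow
    have hl : ∀ i, i ≤ 4 → f (9 + 4 * j + i) ≤ A0 + 3 := fun i hi =>
      (hmono' _ _ (by omega)).trans hle
    have hge : ∀ i, 128 ≤ f (9 + 4 * j + i) := fun i => le_trans (by omega) (h0.trans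
      (hmono' _ _ (Nat.le_add_right _ _)))
    have hst : ∀ i, i < 4 → 6 * f (9 + 4 * j + i) ≤ 5 * f (9 + 4 * j + (i + 1)) + 7 := by
      intro i hi
      exact grow_next hm1 hA0 hx (by omega) (hl i (by omega)) (hl (i + 1) (by omega))
        (le_trans (by omega) (hge (i + 1))) (hg (9 + 4 * j + i) (by omega))
    have s0 : 6 * f (9 + 4 * j) ≤ 5 * f (9 + 4 * j + 1) + 7 := hst 0 (by omega)
    have s1 : 6 * f (9 + 4 * j + 1) ≤ 5 * f (9 + 4 * j + 2) + 7 := hst 1 (by omega)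
    have s2 : 6 * f (9 + 4 * j + 2) ≤ 5 * f (9 + 4 * j + 3) + 7 := hst 2 (by omega)
    have s3 : 6 * f (9 + 4 * j + 3) ≤ 5 * f (9 + 4 * j + 4) + 7 := hst 3 (by omega)
    have e : 9 + 4 * (j + 1) = 9 + 4 * j + 4 := by ring
    rw [e, pow_succ]
    omega

theorem growOK {m B A0 x s j : ℕ} (hB : 166 ≤ B) (hm1 : 12 * B ≤ m)
    (hA0 : A0 = (m + 1) / 2 - 1) (hx : 6 * x ≤ m) (hs : s + 1 ≤ 128 * 2 ^ j)
    (hs' : s ≤ A0 + 3) : GrowOK m (A0 + 1) (TT A0 B) x (9 + 4 * j) s := by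
  intro f _ h1 hmono hg
  by_contra hcon
  push Not at hcon
  have h9 := grow_init hB hm1 hA0 hx h1 hmono (fun r hr => hg r (by omega))
  have := grow_double hB hm1 hA0 hx hmono h9 hg (by omega)
  omega

def rr (k : ℕ) : ℕ := 9 + 4 * (k - 5)

def RR : ℕ → ℕ
  | 0 => 1
  | k + 1 => RR k + 2 * rr k

def PP : ℕ → ℕ
  | 0 => 0
  | k + 1 => PP k + (rr k + 1)

theorem RR_mono {i j : ℕ} (h : i ≤ j) : RR i ≤ RR j :=
  monotone_nat_of_le_succ (fun _ => Nat.le_add_right _ _) h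

theorem RR_eq : ∀ j, RR (9 + j) = 211 + 46 * j + 4 * (j * j)
  | 0 => rfl
  | j + 1 => by
    have ih := RR_eq j
    show RR (9 + j) + 2 * (9 + 4 * (9 + j - 5)) = _
    rw [ih, show 9 + j - 5 = 4 + j by omega]
    ring

theorem PP_eq : ∀ j, PP (9 + j) = 114 + 24 * j + 2 * (j * j)
  | 0 => rfl
  | j + 1 => by
    have ih := PP_eq j
    show PP (9 + j) + (9 + 4 * (9 + j - 5) + 1) = _
    rw [ih, show 9 + j - 5 = 4 + j by omega]
    ring

theorem pow_bound : ∀ j, 1152 + 216 * j + 12 * (j * j) ≤ 2 ^ (11 + j)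
  | 0 => by norm_num
  | j + 1 => by
    have ih := pow_bound j
    rw [show 11 + (j + 1) = (11 + j) + 1 by ring, pow_succ]
    have e : (j + 1) * (j + 1) = j * j + 2 * j + 1 := by ring
    have := Nat.zero_le (j * j)
    omega

theorem budget {m j : ℕ} (hm : 1992 ≤ m) (hj : j = 0 ∨ 2 ^ (10 + j) ≤ m) :
    6 * (158 + 32 * j + 2 * (j * j)) ≤ m ∧ 468 + 100 * j + 8 * (j * j) ≤ m := by
  rcases hj with rfl | hj
  · constructor <;> omega
  · rcases j with _ | j
    · constructor <;> omega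
    · have h := pow_bound j
      rw [show 11 + j = 10 + (j + 1) by ring] at h
      have e : (j + 1) * (j + 1) = j * j + 2 * j + 1 := by ring
      have := Nat.zero_le (j * j)
      constructor <;> omega

theorem exists_j {a m : ℕ} (ha : a + 1 ≤ m) : ∃ j, a < 2 ^ (11 + j) ∧ (j = 0 ∨ 2 ^ (10 + j) ≤ m) := by
  rcases Nat.lt_or_ge a 2048 with h | h
  · exact ⟨0, by norm_num; exact h, Or.inl rfl⟩
  · obtain ⟨L, hL⟩ : ∃ L, L = Nat.log 2 a := ⟨_, rfl⟩
    have h1 : 2 ^ L ≤ a := hL ▸ Nat.pow_log_le_self 2 (by omega)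
    have h2 : a < 2 ^ (L + 1) := hL ▸ Nat.lt_pow_succ_log_self (by omega) a
    have h3 : 11 ≤ L := by
      by_contra hcon
      have : 2 ^ (L + 1) ≤ 2 ^ 11 := Nat.pow_le_pow_right (by omega) (by omega)
      norm_num at this
      omega
    refine ⟨L - 10, ?_, Or.inr ?_⟩
    · rw [show 11 + (L - 10) = L + 1 by omega]; exact h2
    · rw [show 10 + (L - 10) = L by omega]; omega

theorem TT_top {m B A0 a : ℕ} (hB : 166 ≤ B) (hm1 : 12 * B ≤ m) (hA0 : A0 = (m + 1) / 2 - 1)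
    (ha : 2 ≤ a) (ham : a + 1 ≤ m) : TT A0 B a + (A0 + 1) ≤ (m - 1) * a + 1 := by
  obtain ⟨k, rfl⟩ := Nat.exists_eq_add_of_le' (show 1 ≤ m by omega)
  rw [Nat.add_sub_cancel]
  have h1 : 2 * A0 ≤ k := by omega
  have h2 : 2 * (A0 * a) ≤ k * a := by
    have := Nat.mul_le_mul_right a h1
    calc 2 * (A0 * a) = 2 * A0 * a := by ring
      _ ≤ _ := this
  rcases Nat.lt_or_ge (B + 1) a with hc | hc
  · have h3 := EE_le B a
    have h4 : 12 * (B * a) ≤ (k + 1) * a := by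
      have := Nat.mul_le_mul_right a hm1
      calc 12 * (B * a) = 12 * B * a := by ring
        _ ≤ _ := this
    have e1 : (k + 1) * a = k * a + a := by ring
    rcases Nat.lt_or_ge (A0 + 3) a with hd | hd
    · obtain ⟨d, rfl⟩ := Nat.exists_eq_add_of_le hd.le
      have h5 := XX_big (s := A0 + 2) d
      rw [show A0 + 2 + 1 + d = A0 + 3 + d by ring] at h5
      simp only [TT]
      have h6 : 2 * d + 5 ≤ k := by omega
      have h7 : k ≤ 2 * A0 + 1 := by omega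
      have h8 : (2 * d + 5) * d ≤ k * d := Nat.mul_le_mul_right _ h6
      have h9 : (2 * d + 5) * (2 * d + 5) ≤ k * k := Nat.mul_le_mul h6 h6
      have h10 : k * k ≤ k * (2 * A0 + 1) := Nat.mul_le_mul_left _ h7
      have e2 : k * (A0 + 3 + d) = k * A0 + 3 * k + k * d := by ring
      have e3 : k * (2 * A0 + 1) = 2 * (k * A0) + k := by ring
      have e4 : (2 * d + 5) * d = 2 * (d * d) + 5 * d := by ring
      have e5 : (2 * d + 5) * (2 * d + 5) = 4 * (d * d) + 20 * d + 25 := by ring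
      have e6 : d * (d + 1) = d * d + d := by ring
      have h11 : 1000 * k ≤ k * k := Nat.mul_le_mul_right _ (by omega)
      rw [e2] at h2 e1 ⊢
      rw [e6] at h5
      omega
    · simp only [TT]
      rw [XX_small a (by omega)]
      have h5 : 168 * k ≤ k * a := by
        rw [Nat.mul_comm]; exact Nat.mul_le_mul_left _ (by omega)
      omega
  · rw [TT_thr (by omega) (by omega) hc]
    simp only [thr]
    obtain ⟨b, rfl⟩ := Nat.exists_eq_add_of_le' (show 1 ≤ a by omega)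
    rw [Nat.add_sub_cancel]
    have h3 : (4 * (b + 1) + 2) * b ≤ k * b := Nat.mul_le_mul_right _ (by omega)
    have e1 : (4 * (b + 1) + 2) * b = 4 * ((b + 1) * b) + 2 * b := by ring
    have e2 : k * (b + 1) = k * b + k := by ring
    rw [e2] at h2 ⊢
    omega

end Vale.Agent.P048.L
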