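import Vale.Agent.P048.Att
import Vale.Agent.P048.Halve

namespace Vale.Agent.P048.L

open Finset

variable {V : Type*} [DecidableEq V] {G : SimpleGraph V} {W K : Finset V} {a m : ℕ}

/-- Close a path outside a clique through exactly `t` vertices of the clique. -/
theorem clq_close (hK : IsClq G K) (hKW : K ⊆ W) {u v : V} (hu : u ∈ K) (hv : v ∈ K)
    (huv : u ≠ v) {t : ℕ} (ht2 : 2 ≤ t) (htK : t ≤ K.card) {L : List V} (hL : Pth G L)
    (hLW : ∀ x ∈ L, x ∈ W) (hLK : ∀ x ∈ L, x ∉ K) (hne : L ≠ [])
    (hhd : ∀ x ∈ L.head?, G.Adj v x) (hlt : ∀ x ∈ L.getLast?, G.Adj x u) :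
    HasCyc G W (t + L.length) := by
  obtain ⟨S, hS1, hS2⟩ := exists_subset_card_eq (s := (K.erase u).erase v) (n := t - 2) (by
    rw [card_erase_of_mem (mem_erase.2 ⟨huv.symm, hv⟩), card_erase_of_mem hu]
    omega)
  have hSK : ∀ x ∈ S, x ∈ K ∧ x ≠ u ∧ x ≠ v := by
    intro x hx
    have := hS1 hx
    rw [mem_erase, mem_erase] at this
    exact ⟨this.2.2, this.2.1, this.1⟩
  have hPK : ∀ x ∈ u :: (S.toList ++ [v]), x ∈ K := by
    intro x hx
    rw [List.mem_cons, List.mem_append, List.mem_singleton, mem_toList] at hx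
    rcases hx with rfl | hx | rfl
    · exact hu
    · exact (hSK x hx).1
    · exact hv
  have hPn : (u :: (S.toList ++ [v])).Nodup := by
    rw [List.nodup_cons, List.mem_append, List.mem_singleton, mem_toList, List.nodup_append]
    refine ⟨?_, S.nodup_toList, by simp, ?_⟩
    · rintro (h | h)
      · exact (hSK u h).2.1 rfl
      · exact huv h
    · intro x hx y hy hxy
      rw [List.mem_singleton] at hy
      rw [hxy, hy, mem_toList] at hx
      exact (hSK v hx).2.2 rfl
  have hPc : (u :: (S.toList ++ [v])).IsChain G.Adj := by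
    apply List.Pairwise.isChain
    have h1 : (u :: (S.toList ++ [v])).Pairwise (· ≠ ·) := hPn
    apply h1.imp_of_mem
    intro x y hx hy hxy
    exact hK x (hPK x hx) y (hPK y hy) hxy
  have hPl : (u :: (S.toList ++ [v])).getLast? = some v := by
    rw [← List.cons_append, List.getLast?_append]; rfl
  refine ⟨(u :: (S.toList ++ [v])) ++ L, ?_, ⟨?_, ?_, ?_⟩, ?_⟩
  · simp only [List.length_append, List.length_cons, List.length_nil, length_toList]
    omega
  · rw [List.nodup_append]
    refine ⟨hPn, hL.1, ?_⟩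
    intro x hx y hy hxy
    rw [← hxy] at hy
    exact hLK x hy (hPK x hx)
  · rw [List.isChain_append]
    refine ⟨hPc, hL.2, ?_⟩
    intro x hx y hy
    rw [hPl] at hx
    simp only [Option.mem_def, Option.some.injEq] at hx
    rw [← hx]
    exact hhd y hy
  · intro x hx y hy
    rw [List.getLast?_append] at hx
    have hy' : y = u := by
      simpa using hy.symm
    rw [hy']
    rcases hl : L.getLast? with _ | z
    · rw [List.getLast?_eq_none_iff] at hl
      exact absurd hl hne
    · rw [hl] at hx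
      have hxz : x = z := by simpa using hx.symm
      rw [hxz]
      exact hlt z hl
  · intro x hx
    rw [List.mem_append] at hx
    rcases hx with hx | hx
    · exact hKW (hPK x hx)
    · exact hLW x hx

/-- degree bound -/
theorem Env0.deg (E : Env0 G W a m) (ha : 1 ≤ a) (hm : 1 ≤ m) {x : V} (hx : x ∈ W)
    {S : Finset V} (hxS : x ∈ S) (hS : ∀ y ∈ W, G.Adj x y → y ∈ S) : m ≤ S.card :=
  bc_deg ha hm E.hW E.hcard E.hmin hx hxS hS

/-- expansion of independent sets -/
theorem Env0.exp (E : Env0 G W a m) {J X : Finset V} (hJ : J ⊆ W) (hJi : Ind G J)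
    (hJ1 : 1 ≤ J.card) (hJX : J ⊆ X) (hX : ∀ x ∈ J, ∀ y ∈ W, G.Adj x y → y ∈ X) :
    (m - 1) * J.card + 1 ≤ X.card := by
  have hJa := E.hW J hJ hJi
  have hYa : AlphaLe G (W \ X) (a - J.card) := by
    intro S hS hSi
    have hd : Disjoint S J := by
      rw [disjoint_left]
      intro x hxS hxJ
      exact (mem_sdiff.1 (hS hxS)).2 (hJX hxJ)
    have hi : Ind G (S ∪ J) := by
      intro x hx y hy
      rw [mem_union] at hx hy
      rcases hx with hx | hx
      · rcases hy with hy | hy
        · exact hSi x hx y hy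
        · intro h
          exact (mem_sdiff.1 (hS hx)).2 (hX y hy x (mem_sdiff.1 (hS hx)).1 h.symm)
      · rcases hy with hy | hy
        · intro h
          exact (mem_sdiff.1 (hS hy)).2 (hX x hx y (mem_sdiff.1 (hS hy)).1 h)
        · exact hJi x hx y hy
    have h1 := E.hW (S ∪ J) (union_subset (hS.trans sdiff_subset) hJ) hi
    rw [card_union_of_disjoint hd] at h1
    omega
  have hYc := E.hmin (a - J.card) (by omega) (W \ X) sdiff_subset hYa
  have h2 : W.card ≤ X.card + (W \ X).card := by
    have h3 := le_card_sdiff X W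
    omega
  have h6 := E.hcard
  obtain ⟨k, hk⟩ := Nat.exists_eq_add_of_le hJa
  rw [hk, Nat.add_sub_cancel_left] at hYc
  rw [hk] at h6
  have e : (m - 1) * (J.card + k) = (m - 1) * J.card + (m - 1) * k := by ring
  omega

/-- Outer neighbours of different vertices of a `K_{m-1}` are different and nonadjacent. -/
theorem km1_far (hno : ¬ HasCyc G W m) (hm : 5 ≤ m) (hK : IsClq G K) (hKW : K ⊆ W)
    (hKc : K.card + 1 = m) {u v p q : V} (hu : u ∈ K) (hv : v ∈ K) (huv : u ≠ v)
    (hp : p ∈ W) (hpK : p ∉ K) (hq : q ∈ W) (hqK : q ∉ K) (hup : G.Adj u p) (hvq : G.Adj v q) :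
    p ≠ q ∧ ¬ G.Adj p q := by
  have h1 : p ≠ q := by
    rintro rfl
    apply hno
    have := clq_close (L := [p]) hK hKW hu hv huv (t := m - 1) (by omega) (by omega)
      ⟨by simp, by simp⟩ (by simpa using hp) (by simpa using hpK) (by simp)
      (by
        intro x hx
        simp only [List.head?_cons, Option.mem_def, Option.some.injEq] at hx
        rw [← hx]; exact hvq)
      (by
        intro x hx
        simp only [List.getLast?_singleton, Option.mem_def, Option.some.injEq] at hx
        rw [← hx]; exact hup.symm)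
    have e : m - 1 + [p].length = m := by
      simp only [List.length_cons, List.length_nil]; omega
    rwa [e] at this
  refine ⟨h1, ?_⟩
  intro hpq
  apply hno
  have := clq_close (L := [q, p]) hK hKW hu hv huv (t := m - 2) (by omega) (by omega)
    ⟨by simpa using h1.symm, by simpa using hpq.symm⟩
    (by
      intro x hx
      simp only [List.mem_cons, List.not_mem_nil, or_false] at hx
      rcases hx with rfl | rfl
      · exact hq
      · exact hp)
    (by
      intro x hx
      simp only [List.mem_cons, List.not_mem_nil, or_false] at hx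
      rcases hx with rfl | rfl
      · exact hqK
      · exact hpK) (by simp)
    (by
      intro x hx
      simp only [List.head?_cons, Option.mem_def, Option.some.injEq] at hx
      rw [← hx]; exact hvq)
    (by
      intro x hx
      have : x = p := by simpa using hx.symm
      rw [this]; exact hup.symm)
  have e : m - 2 + [q, p].length = m := by
    simp only [List.length_cons, List.length_nil]; omega
  rwa [e] at this

/-- a path with three outer vertices -/
theorem km1_three (hno : ¬ HasCyc G W m) (hm : 5 ≤ m) (hK : IsClq G K) (hKW : K ⊆ W)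
    (hKc : K.card + 1 = m) {u v x y z : V} (hu : u ∈ K) (hv : v ∈ K) (huv : u ≠ v)
    (hx : x ∈ W) (hxK : x ∉ K) (hy : y ∈ W) (hyK : y ∉ K) (hz : z ∈ W) (hzK : z ∉ K)
    (hvx : G.Adj v x) (hxy : G.Adj x y) (hyz : G.Adj y z) (hzu : G.Adj z u) (hxz : x ≠ z) :
    False := by
  apply hno
  have := clq_close (L := [x, y, z]) hK hKW hu hv huv (t := m - 3) (by omega) (by omega)
    ⟨by
      simp only [List.nodup_cons, List.mem_cons, List.not_mem_nil, or_false, not_or,
        not_false_eq_true, List.nodup_nil, and_true]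
      exact ⟨⟨hxy.ne, hxz⟩, hyz.ne⟩, by simpa using ⟨hxy, hyz⟩⟩
    (by
      intro w hw
      simp only [List.mem_cons, List.not_mem_nil, or_false] at hw
      rcases hw with rfl | rfl | rfl
      · exact hx
      · exact hy
      · exact hz)
    (by
      intro w hw
      simp only [List.mem_cons, List.not_mem_nil, or_false] at hw
      rcases hw with rfl | rfl | rfl
      · exact hxK
      · exact hyK
      · exact hzK) (by simp)
    (by
      intro w hw
      simp only [List.head?_cons, Option.mem_def, Option.some.injEq] at hw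
      rw [← hw]; exact hvx)
    (by
      intro w hw
      have : w = z := by simpa using hw.symm
      rw [this]; exact hzu)
  have e : m - 3 + [x, y, z].length = m := by
    simp only [List.length_cons, List.length_nil]; omega
  rwa [e] at this

/-- **No `K_{m-1}` in a minimal counterexample.** -/
theorem km1 (E : Env0 G W a m) (hm : 5 ≤ m) (ham : a + 1 ≤ m) (hK : IsClq G K) (hKW : K ⊆ W)
    (hKc : K.card + 1 = m) : False := by
  classical
  have ha : 1 ≤ a := by
    rcases Nat.eq_zero_or_pos a with rfl | h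
    · have h1 : 0 < K.card := by omega
      obtain ⟨x, hx⟩ := card_pos.1 h1
      have := E.hW {x} (singleton_subset_iff.2 (hKW hx)) (by
        intro u hu v hv
        rw [mem_singleton] at hu hv
        rw [hu, hv]; exact G.loopless.irrefl _)
      rw [card_singleton] at this
      omega
    · exact h
  have hout : ∀ K', IsClq G K' → K' ⊆ W → K'.card + 1 = m → ∀ v ∈ K', ∃ z, z ∈ W ∧ z ∉ K' ∧
      G.Adj v z := by
    intro K' _ hK'W hK'c v hv
    by_contra hcon
    push Not at hcon
    have := E.deg ha (by omega) (hK'W hv) hv (fun y hy hvy => by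
      by_contra hyK
      exact hcon y hy hyK hvy)
    omega
  have hfar := fun K' (h1 : IsClq G K') (h2 : K' ⊆ W) (h3 : K'.card + 1 = m) {u v p q : V} =>
    km1_far (u := u) (v := v) (p := p) (q := q) E.hno hm h1 h2 h3
  choose! z hzW hzK hz using hout K hK hKW hKc
  have hzf : ∀ u ∈ K, ∀ v ∈ K, u ≠ v → z u ≠ z v ∧ ¬ G.Adj (z u) (z v) := fun u hu v hv huv =>
    hfar K hK hKW hKc hu hv huv (hzW u hu) (hzK u hu) (hzW v hv) (hzK v hv) (hz u hu) (hz v hv)
  -- independent sets from `z`
  have hIz : ∀ S, S ⊆ K → Ind G (S.image z) := by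
    intro S hS x hx y hy
    rw [mem_image] at hx hy
    obtain ⟨u, hu, rfl⟩ := hx
    obtain ⟨v, hv, rfl⟩ := hy
    by_cases huv : u = v
    · rw [huv]; exact G.loopless.irrefl _
    · exact (hzf u (hS hu) v (hS hv) huv).2
  have hIc : ∀ S, S ⊆ K → (S.image z).card = S.card := by
    intro S hS
    apply card_image_of_injOn
    intro u hu v hv huv
    by_contra hne
    exact (hzf u (hS hu) v (hS hv) hne).1 huv
  have hIW : ∀ S, S ⊆ K → S.image z ⊆ W := by
    intro S hS x hx
    rw [mem_image] at hx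
    obtain ⟨u, hu, rfl⟩ := hx
    exact hzW u (hS hu)
  obtain ⟨v1, hv1⟩ := card_pos.1 (show 0 < K.card by omega)
  set z1 := z v1 with hz1
  have hz1W : z1 ∈ W := hzW v1 hv1
  have hz1K : z1 ∉ K := hzK v1 hv1
  have hvz1 : G.Adj v1 z1 := hz v1 hv1
  set Q := (W.filter (G.Adj z1)).erase v1 with hQ
  have hQm : ∀ q, q ∈ Q ↔ q ≠ v1 ∧ q ∈ W ∧ G.Adj z1 q := by
    intro q
    rw [hQ, mem_erase, mem_filter]
  have hQK : ∀ q ∈ Q, q ∉ K := by
    intro q hq hqK
    rw [hQm] at hq
    exact (hfar K hK hKW hKc hv1 hqK hq.1.symm hz1W hz1K hz1W hz1K hvz1 hq.2.2.symm).1 rfl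
  have hQz : ∀ q ∈ Q, ∀ v ∈ K, v ≠ v1 → q ≠ z v ∧ ¬ G.Adj q (z v) := by
    intro q hq v hv hvv
    have hq' := (hQm q).1 hq
    have hne : q ≠ z v := by
      rintro rfl
      exact (hzf v1 hv1 v hv hvv.symm).2 hq'.2.2
    refine ⟨hne, ?_⟩
    intro hadj
    exact km1_three E.hno hm hK hKW hKc hv1 hv hvv.symm (hzW v hv) (hzK v hv) hq'.2.1 (hQK q hq)
      hz1W hz1K (hz v hv) hadj.symm hq'.2.2.symm hvz1.symm
      (fun h => (hzf v1 hv1 v hv hvv.symm).1 h.symm)
  have hQc : IsClq G Q := by
    intro q hq q' hq' hqq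
    by_contra hcon
    have hS : K.erase v1 ⊆ K := erase_subset _ _
    have h1 : Ind G (insert q (insert q' ((K.erase v1).image z))) := by
      apply ind_insert
      · apply ind_insert (hIz _ hS)
        intro y hy
        rw [mem_image] at hy
        obtain ⟨v, hv, rfl⟩ := hy
        rw [mem_erase] at hv
        exact (hQz q' hq' v hv.2 hv.1).2
      · intro y hy
        rw [mem_insert] at hy
        rcases hy with rfl | hy
        · exact hcon
        · rw [mem_image] at hy
          obtain ⟨v, hv, rfl⟩ := hy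
          rw [mem_erase] at hv
          exact (hQz q hq v hv.2 hv.1).2
    have h2 : q' ∉ (K.erase v1).image z := by
      intro h
      rw [mem_image] at h
      obtain ⟨v, hv, hv'⟩ := h
      rw [mem_erase] at hv
      exact (hQz q' hq' v hv.2 hv.1).1 hv'.symm
    have h3 : q ∉ insert q' ((K.erase v1).image z) := by
      intro h
      rw [mem_insert] at h
      rcases h with h | h
      · exact hqq h
      · rw [mem_image] at h
        obtain ⟨v, hv, hv'⟩ := h
        rw [mem_erase] at hv
        exact (hQz q hq v hv.2 hv.1).1 hv'.symm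
    have h4 := E.hW _ (insert_subset ((hQm q).1 hq).2.1 (insert_subset ((hQm q').1 hq').2.1
      (hIW _ hS))) h1
    rw [card_insert_of_notMem h3, card_insert_of_notMem h2, hIc _ hS, card_erase_of_mem hv1] at h4
    omega
  have hQcard : m ≤ Q.card + 2 := by
    have h1 := E.deg ha (by omega) hz1W (S := insert z1 (insert v1 Q)) (mem_insert_self _ _) (by
      intro y hy hzy
      rw [mem_insert, mem_insert, hQm]
      by_cases h : y = v1
      · exact Or.inr (Or.inl h)
      · exact Or.inr (Or.inr ⟨h, hy, hzy⟩))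
    have h2 := card_insert_le z1 (insert v1 Q)
    have h3 := card_insert_le v1 Q
    omega
  obtain ⟨Q', hQ'1, hQ'2⟩ := exists_subset_card_eq (show m - 2 ≤ Q.card by omega)
  have hz1Q : z1 ∉ Q' := by
    intro h
    have := ((hQm z1).1 (hQ'1 h)).2.2
    exact G.loopless.irrefl _ this
  have hv1Q : v1 ∉ Q' := fun h => ((hQm v1).1 (hQ'1 h)).1 rfl
  have hK1 : IsClq G (insert z1 Q') := by
    intro x hx y hy hxy
    rw [mem_insert] at hx hy
    rcases hx with rfl | hx
    · rcases hy with rfl | hy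
      · exact absurd rfl hxy
      · exact ((hQm y).1 (hQ'1 hy)).2.2
    · rcases hy with rfl | hy
      · exact ((hQm x).1 (hQ'1 hx)).2.2.symm
      · exact hQc x (hQ'1 hx) y (hQ'1 hy) hxy
  have hK1W : insert z1 Q' ⊆ W := by
    apply insert_subset hz1W
    intro x hx
    exact ((hQm x).1 (hQ'1 hx)).2.1
  have hK1c : (insert z1 Q').card + 1 = m := by
    rw [card_insert_of_notMem hz1Q]
    omega
  choose! w hwW hwK hw using hout _ hK1 hK1W hK1c
  have hQ1 : ∀ q ∈ Q', q ∈ insert z1 Q' := fun q hq => mem_insert_of_mem hq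
  have hv1K1 : v1 ∉ insert z1 Q' := by
    rw [mem_insert]
    rintro (h | h)
    · rw [h] at hv1
      exact hz1K hv1
    · exact hv1Q h
  have hwf : ∀ q ∈ Q', ∀ q' ∈ Q', q ≠ q' → w q ≠ w q' ∧ ¬ G.Adj (w q) (w q') := fun q hq q' hq' h =>
    hfar _ hK1 hK1W hK1c (hQ1 q hq) (hQ1 q' hq') h (hwW q (hQ1 q hq)) (hwK q (hQ1 q hq))
      (hwW q' (hQ1 q' hq')) (hwK q' (hQ1 q' hq')) (hw q (hQ1 q hq)) (hw q' (hQ1 q' hq'))
  have hwv1 : ∀ q ∈ Q', v1 ≠ w q ∧ ¬ G.Adj v1 (w q) := fun q hq =>
    hfar _ hK1 hK1W hK1c (mem_insert_self z1 Q') (hQ1 q hq) (fun h => hz1Q (h ▸ hq)) (hKW hv1)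
      hv1K1 (hwW q (hQ1 q hq)) (hwK q (hQ1 q hq)) hvz1.symm (hw q (hQ1 q hq))
  have hwz1 : ∀ q ∈ Q', z1 ≠ w q ∧ ¬ G.Adj z1 (w q) := by
    intro q hq
    refine ⟨?_, ?_⟩
    · intro h
      apply hwK q (hQ1 q hq)
      rw [← h]
      exact mem_insert_self _ _
    · intro h
      exact (hfar _ hK1 hK1W hK1c (mem_insert_self z1 Q') (hQ1 q hq) (fun h => hz1Q (h ▸ hq))
        (hwW q (hQ1 q hq)) (hwK q (hQ1 q hq)) (hwW q (hQ1 q hq)) (hwK q (hQ1 q hq)) h
        (hw q (hQ1 q hq))).1 rfl
  obtain ⟨v2, hv2⟩ := card_pos.1 (show 0 < (K.erase v1).card by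
    rw [card_erase_of_mem hv1]; omega)
  rw [mem_erase] at hv2
  have hwKK : ∀ q ∈ Q', w q ∉ K := by
    intro q hq h
    exact (hwv1 q hq).2 (hK v1 hv1 _ h (hwv1 q hq).1)
  have hwv2 : ∀ q ∈ Q', v2 ≠ w q ∧ ¬ G.Adj v2 (w q) := by
    intro q hq
    refine ⟨?_, ?_⟩
    · intro h
      exact hwKK q hq (h ▸ hv2.2)
    · intro h
      exact km1_three E.hno hm hK hKW hKc hv1 hv2.2 hv2.1.symm (hwW q (hQ1 q hq)) (hwKK q hq)
        ((hQm q).1 (hQ'1 hq)).2.1 (hQK q (hQ'1 hq)) hz1W hz1K h (hw q (hQ1 q hq)).symm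
        ((hQm q).1 (hQ'1 hq)).2.2.symm hvz1.symm (hwz1 q hq).1.symm
  have hz1v2 : ¬ G.Adj z1 v2 := by
    intro h
    exact (hfar K hK hKW hKc hv1 hv2.2 hv2.1.symm hz1W hz1K hz1W hz1K hvz1 h.symm).1 rfl
  have hIw : Ind G (Q'.image w) := by
    intro x hx y hy
    rw [mem_image] at hx hy
    obtain ⟨q, hq, rfl⟩ := hx
    obtain ⟨q', hq', rfl⟩ := hy
    by_cases hqq : q = q'
    · rw [hqq]; exact G.loopless.irrefl _
    · exact (hwf q hq q' hq' hqq).2
  have h1 : Ind G (insert z1 (insert v2 (Q'.image w))) := by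
    apply ind_insert
    · apply ind_insert hIw
      intro y hy
      rw [mem_image] at hy
      obtain ⟨q, hq, rfl⟩ := hy
      exact (hwv2 q hq).2
    · intro y hy
      rw [mem_insert] at hy
      rcases hy with rfl | hy
      · exact hz1v2
      · rw [mem_image] at hy
        obtain ⟨q, hq, rfl⟩ := hy
        exact (hwz1 q hq).2
  have h2 : v2 ∉ Q'.image w := by
    intro h
    rw [mem_image] at h
    obtain ⟨q, hq, hq'⟩ := h
    exact (hwv2 q hq).1 hq'.symm
  have h3 : z1 ∉ insert v2 (Q'.image w) := by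
    intro h
    rw [mem_insert] at h
    rcases h with h | h
    · rw [h] at hz1K
      exact hz1K hv2.2
    · rw [mem_image] at h
      obtain ⟨q, hq, hq'⟩ := h
      exact (hwz1 q hq).1 hq'.symm
  have h4 := E.hW _ (insert_subset hz1W (insert_subset (hKW hv2.2) (by
    intro x hx
    rw [mem_image] at hx
    obtain ⟨q, hq, rfl⟩ := hx
    exact hwW q (hQ1 q hq)))) h1
  rw [card_insert_of_notMem h3, card_insert_of_notMem h2, card_image_of_injOn (by
    intro q hq q' hq' h
    by_contra hne
    exact (hwf q hq q' hq' hne).1 h)] at h4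
  omega

end Vale.Agent.P048.L
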