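import Vale.Agent.P048.GrowNum

namespace Vale.Agent.P048.L

open Finset

variable {V : Type*} [DecidableEq V]

theorem upper_large {G : SimpleGraph V} {m : ℕ} (hm : 1992 ≤ m)
    (hbc : ∀ (a : ℕ) (W : Finset V), 1 ≤ a → a + 1 ≤ m → AlphaLe G W a →
      (m - 1) * a + 1 ≤ W.card →
      (∀ c, c < a → ∀ W', W' ⊆ W → AlphaLe G W' c → W'.card ≤ (m - 1) * c) →
      ∀ K : Finset V, K ⊆ W → (∀ x ∈ K, ∀ y ∈ K, x ≠ y → G.Adj x y) → 5 * m ≤ 6 * K.card →
        HasCyc G W m) :
    ∀ a, a + 1 ≤ m → ∀ W : Finset V, AlphaLe G W a → (m - 1) * a + 1 ≤ W.card →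
      HasCyc G W m := by
  intro a
  induction a using Nat.strong_induction_on with
  | _ a ih =>
  intro ham W hW hcard
  by_contra hno
  rcases Nat.eq_zero_or_pos a with rfl | ha
  · have : W.Nonempty := by rw [← card_pos]; omega
    obtain ⟨x, hx⟩ := this
    have := hW {x} (singleton_subset_iff.2 hx) (by
      intro u hu v hv
      rw [mem_singleton] at hu hv
      rw [hu, hv]; exact G.loopless.irrefl _)
    rw [card_singleton] at this
    omega
  rcases Nat.lt_or_ge a 2 with ha2 | ha2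
  · have ha1 : a = 1 := by omega
    subst ha1
    obtain ⟨S, hS1, hS2⟩ := exists_subset_card_eq (show m ≤ W.card by omega)
    have hcl := alpha_one (hW.mono hS1 (by omega))
    exact hno ⟨S.toList, by rw [length_toList, hS2], clique_cyc hcl (by omega),
      fun x hx => hS1 (mem_toList.1 hx)⟩
  have hmin : ∀ c, c < a → ∀ W', W' ⊆ W → AlphaLe G W' c → W'.card ≤ (m - 1) * c := by
    intro c hc W' hW' hα
    by_contra hcon
    push Not at hcon
    exact hno ((ih c hc (by omega) W' hα hcon).mono hW')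
  obtain ⟨B, hB⟩ : ∃ B, B = m / 12 := ⟨_, rfl⟩
  obtain ⟨A0, hA0⟩ : ∃ A0, A0 = (m + 1) / 2 - 1 := ⟨_, rfl⟩
  have E : Env G W a m (A0 + 1) (TT A0 B) :=
    { hW := hW
      hcard := hcard
      hmin := hmin
      hno := hno
      hbig := by
        intro K hK hc
        by_contra hcon
        exact hno (hbc a W ha ham hW hcard hmin K hK hc (by omega))
      hcl := by
        intro c hc1 hc2 Y hY hα hTc
        exact exists_clique (by omega) (by omega) (by omega) hA0 c hc1 (by omega) Y hα hTc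
          (fun h => hno (h.mono hY))
      ht := by omega
      hmt := by omega }
  obtain ⟨j, hj1, hj2⟩ := exists_j ham
  obtain ⟨b1, b2⟩ := budget hm hj2
  have hRj := RR_eq j
  have hPj := PP_eq j
  have hpow : 2 ^ (11 + j) = 2 ^ (9 + j + 1) * 2 := by rw [← pow_succ]; congr 1; omega
  refine top E (R := RR) (Φ := PP) (r1 := rr) (s := fun k => min (2 ^ (k + 1) - 1) (A0 + 3))
    (K := 9 + j) (rt := 9 + 4 * (3 + j)) ha le_rfl ?_ ?_ ?_ ?_ ?_ ?_ ?_ ?_ ?_ ?_ ?_
  · exact (min_le_left _ _).trans (by norm_num)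
  · intro k _
    exact le_rfl
  · intro k _
    exact le_rfl
  · intro k _
    show min (2 ^ (k + 1 + 1) - 1) (A0 + 3) ≤ 2 * min (2 ^ (k + 1) - 1) (A0 + 3) + 1
    have : 2 ^ (k + 1 + 1) = 2 ^ (k + 1) * 2 := pow_succ _ _
    have : 1 ≤ 2 ^ (k + 1) := Nat.one_le_two_pow
    omega
  · intro k hk
    have h1 : RR k + 2 * rr k ≤ RR (9 + j) := RR_mono (show k + 1 ≤ 9 + j by omega)
    omega
  · intro k hk x hx
    show GrowOK m (A0 + 1) (TT A0 B) x (9 + 4 * (k - 5)) _
    apply growOK (by omega) (by omega) hA0 hx _ (min_le_right _ _)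
    have h1 : 2 ^ (k + 1 + 1) ≤ 128 * 2 ^ (k - 5) := by
      have e : (128 : ℕ) = 2 ^ 7 := by norm_num
      rw [e, ← pow_add]
      exact Nat.pow_le_pow_right (by omega) (by omega)
    have h2 : 1 ≤ 2 ^ (k + 1 + 1) := Nat.one_le_two_pow
    have h3 := min_le_left (2 ^ (k + 1 + 1) - 1) (A0 + 3)
    omega
  · show a ≤ 2 * min (2 ^ (9 + j + 1) - 1) (A0 + 3) + 1
    have : 1 ≤ 2 ^ (9 + j + 1) := Nat.one_le_two_pow
    omega
  · apply growOK (by omega) (by omega) hA0 (by omega) _ (min_le_right _ _)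
    have h1 : 2 ^ (9 + j + 1) = 128 * 2 ^ (3 + j) := by
      have e : (128 : ℕ) = 2 ^ 7 := by norm_num
      rw [e, ← pow_add]
      congr 1
      omega
    have h2 : 1 ≤ 2 ^ (9 + j + 1) := Nat.one_le_two_pow
    have h3 := min_le_left (2 ^ (9 + j + 1) - 1) (A0 + 3)
    omega
  · omega
  · omega
  · exact TT_top (by omega) (by omega) hA0 ha2 ham

end Vale.Agent.P048.L
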