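import Vale.Agent.P048.Large
import Vale.Agent.P048.BigClique

namespace Vale.Agent.P048.L

open Finset

/-- Upper bound for all `m ≥ 1992` and all `a + 1 ≤ m`. -/
theorem upper_1992 {V : Type*} [DecidableEq V] {G : SimpleGraph V} {m : ℕ} (hm : 1992 ≤ m) :
    ∀ a, a + 1 ≤ m → ∀ W : Finset V, AlphaLe G W a → (m - 1) * a + 1 ≤ W.card →
      HasCyc G W m :=
  upper_large hm (fun _ _ ha ham hW hcard hmin _ hK hc hk =>
    big_clique (by omega) ha ham hW hcard hmin hK hc hk)

end Vale.Agent.P048.L
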