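import Vale.Agent.P048.Strip

namespace Vale.Agent.P048

open Finset

variable {V : Type*} [DecidableEq V]

def CliqueW (G : SimpleGraph V) (W : Finset V) (A : ℕ) (T : ℕ → ℕ) (wf : ℕ → ℕ) : Prop :=
  ∀ X, X ⊆ W → ∀ b, 1 ≤ b → b ≤ A → AlphaLe G X b → T b ≤ X.card →
    ∃ K, K ⊆ X ∧ (∀ x ∈ K, ∀ y ∈ K, x ≠ y → G.Adj x y) ∧ K.card = wf b

omit [DecidableEq V] in
theorem cliqueW_zero {G : SimpleGraph V} {W : Finset V} {A : ℕ} {T : ℕ → ℕ} :
    CliqueW G W A T (fun _ => 0) := by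
  intro X _ b _ _ _ _
  exact ⟨∅, empty_subset _, by simp, by simp⟩

omit [DecidableEq V] in
theorem cliqueW_add {G : SimpleGraph V} {W : Finset V} {A A0 w0 : ℕ} {T T0 wf : ℕ → ℕ}
    (h : CliqueW G W A T wf) (h0 : CliqueOK G W A0 T0 w0) (hA : A ≤ A0) :
    CliqueW G W A T (fun b => cond (Nat.ble (T0 b) (T b)) w0 (wf b)) := by
  intro X hX b hb1 hb2 ha hc
  rcases hd : Nat.ble (T0 b) (T b) with _ | _
  · obtain ⟨K, h1, h2, h3⟩ := h X hX b hb1 hb2 ha hc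
    refine ⟨K, h1, h2, ?_⟩
    simp only [hd, cond_false]
    exact h3
  · rw [Nat.ble_eq] at hd
    obtain ⟨K, h1, h2, h3⟩ := h0 X hX b hb1 (hb2.trans hA) ha (hd.trans hc)
    refine ⟨K, h1, h2, ?_⟩
    have : Nat.ble (T0 b) (T b) = true := by rw [Nat.ble_eq]; exact hd
    simp only [this, cond_true]
    exact h3

def Lev3 (T : ℕ → ℕ) (m b w : ℕ) : Prop :=
  ∃ (z v x0 : ℕ) (g h : ℕ → ℕ), NumP T m b z v x0 g h ∧ m ≤ T b ∧
    ((∃ z0, z0 ≤ z ∧ ChainNum b (T b - T (b - 1)) z0 v) ∨ (v + 2 ≤ z ∧ v + 2 ≤ w) ∨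
      (2 * v + 1 ≤ z ∧ b + v + 1 ≤ T b - T (b - 1)))

theorem clique_step3 {G : SimpleGraph V} {W : Finset V} {T wf : ℕ → ℕ} {A m t : ℕ}
    (hm : 1 ≤ m) (hno : ¬ HasCyc G W m) (hT : Monotone T) (hT0 : T 0 = 1) (hT1 : T 1 = t)
    (hP : CliqueW G W A T wf) (hnum : ∀ b, 2 ≤ b → b ≤ A → Lev3 T m b (wf b)) :
    CliqueOK G W A T t := by
  classical
  intro X hXW a ha1 haA hXa hXc
  have hPP : ∃ b, 1 ≤ b ∧ ∃ W', W' ⊆ X ∧ AlphaLe G W' b ∧ T b ≤ W'.card :=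
    ⟨a, ha1, X, Subset.refl _, hXa, hXc⟩
  obtain ⟨hb1, W', hW'X, hW'a, hW'c⟩ := Nat.find_spec hPP
  have hmin := fun c => @Nat.find_min _ _ hPP c
  have hble : Nat.find hPP ≤ a := Nat.find_min' hPP ⟨ha1, X, Subset.refl _, hXa, hXc⟩
  set b := Nat.find hPP with hbdef
  have hsmall : ∀ c, c < b → ∀ Y, Y ⊆ W' → AlphaLe G Y c → Y.card < T c := by
    intro c hcb Y hY hYc
    rcases Nat.eq_zero_or_pos c with rfl | hcpos
    · have := card_zero_of_alphaLe hYc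
      omega
    · by_contra hcon
      exact hmin c hcb ⟨hcpos, Y, hY.trans hW'X, hYc, by omega⟩
  rcases Nat.lt_or_ge b 2 with hb2 | hb2
  · have hb : b = 1 := by omega
    rw [hb] at hW'a hW'c
    rw [hT1] at hW'c
    obtain ⟨K, hK1, hK2⟩ := exists_subset_card_eq hW'c
    exact ⟨K, hK1.trans hW'X, alpha_one (hW'a.mono hK1 le_rfl), hK2⟩
  · exfalso
    obtain ⟨z, v, x0, g, h, h1, h2, h4⟩ := hnum b hb2 (by omega)
    have H : TMin G W' T b := ⟨hW'a, hW'c, hsmall⟩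
    have hv := h1.hv
    have hne : W'.Nonempty := by
      rw [← card_pos]
      omega
    have hfl : ∃ Z s t z', 2 ≤ z' ∧ z' ≤ z ∧ Z ⊆ W' ∧ Flex G Z t s z' v := by
      rcases h4 with ⟨z0, h5, h4⟩ | ⟨h4, h5⟩ | ⟨h4, h5⟩
      · obtain ⟨Z, s, t, hZ1, hZ2⟩ := flex_chainNum hT H hne h4
        have := chainNum_le h4
        exact ⟨Z, s, t, z0, by omega, h5, hZ1, hZ2⟩
      · obtain ⟨K, hK1, hK2, hK3⟩ := hP W' (hW'X.trans hXW) b hb1 (by omega) hW'a hW'c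
        obtain ⟨Z, s, t, hZ1, hZ2⟩ := flex_clique hK2 (v := v) (by omega)
        exact ⟨Z, s, t, v + 2, by omega, h4, hZ1.trans hK1, hZ2⟩
      · have hdeg : ∀ s ∈ W', T b - T (b - 1) ≤ (bd G W' {s}).card := by
          intro s hs
          have h6 := alpha_pos (G := G) (X := {s}) ⟨s, mem_singleton_self s⟩
          have h7 := tmin_nbr H hT (singleton_subset_iff.2 hs) ⟨s, mem_singleton_self s⟩ h6
          rw [card_singleton] at h7
          omega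
        obtain ⟨Z, s, t, z', e1, e2, e3, e4⟩ := flex_strip H.al hne hdeg h5 hv
        exact ⟨Z, s, t, z', e1, e2.trans h4, e3, e4⟩
    obtain ⟨c, hc1, hc2, hc3⟩ := engine3 h2 hT H h1 hfl
    exact hno ⟨c, hc2, hc1, fun x hx => hXW (hW'X (hc3 x hx))⟩

end Vale.Agent.P048
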