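import Vale.Agent.P048.Ball
import Vale.Agent.P048.Assemble
import Vale.Agent.P048.Flex

namespace Vale.Agent.P048.L

open Finset

variable {V : Type*} [DecidableEq V]

theorem ball_step {G : SimpleGraph V} {W C D J : Finset V} {b r e : ℕ} {T : ℕ → ℕ} {x0 : V}
    (hW : AlphaLe G W b) (hcard : T b ≤ W.card)
    (hmin : ∀ c, 1 ≤ c → c < b → ∀ W', W' ⊆ W → AlphaLe G W' c → W'.card < T c)
    (hC : C ⊆ W) (hD : D ⊆ W \ C) (hcl : ∀ x ∈ D, ∀ y ∈ W \ C, G.Adj x y → y ∈ D)
    (hx0 : x0 ∈ D) (hJ : J ⊆ ball G D x0 r) (hJi : Ind G J) (hJ1 : 1 ≤ J.card)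
    (hJb : J.card < b) [DecidablePred (Att G (ball G D x0 r))]
    (hatt : (C.filter (Att G (ball G D x0 r))).card ≤ e) :
    T b + 1 ≤ (ball G D x0 (r + 1)).card + T (b - J.card) + e := by
  set Y := W \ (ball G D x0 (r + 1) ∪ C.filter (Att G (ball G D x0 r))) with hY
  have hYn : ∀ y ∈ Y, ∀ x ∈ ball G D x0 r, ¬ G.Adj y x := by
    intro y hy x hx hadj
    rw [hY, mem_sdiff, mem_union, mem_filter] at hy
    obtain ⟨hyW, hy2⟩ := hy
    by_cases hyC : y ∈ C
    · exact hy2 (Or.inr ⟨hyC, x, hx, hadj⟩)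
    · have hyD := hcl x (ball_subset hx0 r hx) y (mem_sdiff.2 ⟨hyW, hyC⟩) hadj.symm
      exact hy2 (Or.inl (mem_ball_succ hyD ⟨x, hx, hadj⟩))
  have hYa : AlphaLe G Y (b - J.card) := by
    intro S hS hSi
    have hd : Disjoint S J := by
      rw [disjoint_left]
      intro x hxS hxJ
      have := hS hxS
      rw [hY, mem_sdiff, mem_union] at this
      exact this.2 (Or.inl (ball_subset_succ r (hJ hxJ)))
    have hi : Ind G (S ∪ J) := by
      intro x hx y hy
      rw [mem_union] at hx hy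
      rcases hx with hx | hx
      · rcases hy with hy | hy
        · exact hSi x hx y hy
        · exact hYn x (hS hx) y (hJ hy)
      · rcases hy with hy | hy
        · exact fun h => hYn y (hS hy) x (hJ hx) h.symm
        · exact hJi x hx y hy
    have h1 := hW (S ∪ J) (union_subset (hS.trans sdiff_subset)
      (hJ.trans ((ball_subset hx0 r).trans (hD.trans sdiff_subset)))) hi
    rw [card_union_of_disjoint hd] at h1
    omega
  have hYc := hmin (b - J.card) (by omega) (by omega) Y sdiff_subset hYa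
  have h2 : W.card ≤ (ball G D x0 (r + 1) ∪ C.filter (Att G (ball G D x0 r))).card + Y.card := by
    have h3 : W ⊆ Y ∪ (ball G D x0 (r + 1) ∪ C.filter (Att G (ball G D x0 r))) := by
      intro w hw
      rw [mem_union, hY, mem_sdiff]
      by_cases h : w ∈ ball G D x0 (r + 1) ∪ C.filter (Att G (ball G D x0 r))
      · exact Or.inr h
      · exact Or.inl ⟨hw, h⟩
    have h4 := (card_le_card h3).trans (card_union_le _ _)
    omega
  have h5 := card_union_le (ball G D x0 (r + 1)) (C.filter (Att G (ball G D x0 r)))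
  omega

theorem ball_reach {G : SimpleGraph V} {W C D : Finset V} {b R r0 βs z' : ℕ} {T : ℕ → ℕ} {x0 : V}
    (hW : AlphaLe G W b) (hcard : T b ≤ W.card)
    (hmin : ∀ c, 1 ≤ c → c < b → ∀ W', W' ⊆ W → AlphaLe G W' c → W'.card < T c)
    (hC : C ⊆ W) (hD : D ⊆ W \ C) (hcl : ∀ x ∈ D, ∀ y ∈ W \ C, G.Adj x y → y ∈ D)
    (hx0 : x0 ∈ D) (hconn : Conn G D) (hβ : 1 ≤ βs) (hr0 : 2 * (βs - 1) ≤ r0)
    (hbig : ∃ I, I ⊆ D ∧ Ind G I ∧ βs ≤ I.card)
    (hatt : ∀ r, r ≤ R → ∀ J, J ⊆ ball G D x0 r → Ind G J → J.card < b →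
      ∃ F : Finset V, (∀ c ∈ C, Att G (ball G D x0 r) c → c ∈ F) ∧ F.card + J.card ≤ b + z')
    (hgrow : ∀ f : ℕ → ℕ, βs ≤ f r0 → (∀ r, f r ≤ f (r + 1)) → (∀ r, r ≤ R → f r < b) →
      (∀ r, r0 ≤ r → r < R → T b + 2 ≤ T (f (r + 1)) + T (b - f r) + (b + z' - f r)) → False) :
    ∃ r, r ≤ R ∧ ∃ J, J ⊆ ball G D x0 r ∧ Ind G J ∧ J.card = b := by
  classical
  have hex := fun r => exists_alpha (G := G) (ball G D x0 r)
  choose I hI1 hI2 hI3 using hex
  have hballW : ∀ r, ball G D x0 r ⊆ W := fun r =>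
    (ball_subset hx0 r).trans (hD.trans sdiff_subset)
  have hle : ∀ r, (I r).card ≤ b := fun r => hW _ ((hI1 r).trans (hballW r)) (hI2 r)
  by_contra hcon
  push Not at hcon
  have hlt : ∀ r, r ≤ R → (I r).card < b := by
    intro r hr
    exact lt_of_le_of_ne (hle r) (hcon r hr (I r) (hI1 r) (hI2 r))
  have hone : ∀ r, 1 ≤ (I r).card := by
    intro r
    have := hI3 r {x0} (singleton_subset_iff.2 (ball_mono (Nat.zero_le r)
      (mem_singleton_self x0))) (by
        intro u hu v hv
        rw [mem_singleton] at hu hv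
        rw [hu, hv]; exact G.loopless.irrefl _)
    rwa [card_singleton] at this
  apply hgrow (fun r => (I r).card)
  · rcases ball_alpha hx0 hconn (βs - 1) with h | ⟨I', h1, h2, h3⟩
    · obtain ⟨I0, h1, h2, h3⟩ := hbig
      have h4 := ball_stable hx0 hr0 h
      exact h3.trans (hI3 r0 I0 (by rw [h4]; exact h1) h2)
    · have := hI3 r0 I' (h1.trans (ball_mono hr0)) h2
      show βs ≤ (I r0).card
      omega
  · intro r
    exact hI3 (r + 1) (I r) ((hI1 r).trans (ball_subset_succ r)) (hI2 r)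
  · exact hlt
  · intro r _ hr2
    obtain ⟨F, hF1, hF2⟩ := hatt r hr2.le (I r) (hI1 r) (hI2 r) (hlt r hr2.le)
    have hCF : (C.filter (Att G (ball G D x0 r))).card ≤ b + z' - (I r).card := by
      refine (card_le_card ?_).trans (Nat.le_sub_of_add_le hF2)
      intro c hc
      rw [mem_filter] at hc
      exact hF1 c hc.1 hc.2
    have h1 := ball_step hW hcard hmin hC hD hcl hx0 (hI1 r) (hI2 r) (hone r) (hlt r hr2.le) hCF
    have h2 := hmin (I (r + 1)).card (hone _) (hlt _ hr2) (ball G D x0 (r + 1)) (hballW _)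
      (hI3 _)
    show T b + 2 ≤ T (I (r + 1)).card + T (b - (I r).card) + (b + z' - (I r).card)
    omega

theorem big_comp {G : SimpleGraph V} {κ : ℕ} : ∀ (n : ℕ) (O : Finset V), O.card ≤ n →
    ∀ c, AlphaLe G O c → κ * c < O.card → ∃ D I, D ⊆ O ∧ D.Nonempty ∧
      (∀ x ∈ D, ∀ y ∈ O, G.Adj x y → y ∈ D) ∧ Conn G D ∧ I ⊆ D ∧ Ind G I ∧
      AlphaLe G D I.card ∧ κ * I.card < D.card := by
  intro n
  induction n with
  | zero =>
    intro O hO c _ hc
    omega
  | succ n ih =>
    intro O hO c hα hc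
    have hne : 0 < O.card := by omega
    obtain ⟨d, hd⟩ := card_pos.1 hne
    obtain ⟨D, hDO, hdD, hcl, hconn⟩ := exists_comp (G := G) hd
    obtain ⟨I, hI1, hI2, hI3⟩ := exists_alpha (G := G) D
    by_cases hk : κ * I.card < D.card
    · exact ⟨D, I, hDO, ⟨d, hdD⟩, hcl, hconn, hI1, hI2, hI3, hk⟩
    have hIc : I.card ≤ c := hα I (hI1.trans hDO) hI2
    have hDc : 0 < D.card := card_pos.2 ⟨d, hdD⟩
    have hOD : (O \ D).card = O.card - D.card := card_sdiff_of_subset hDO
    have hαO : AlphaLe G (O \ D) (c - I.card) := by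
      intro S hS hSi
      have hdis : Disjoint S I := by
        rw [disjoint_left]
        intro x hxS hxI
        exact (mem_sdiff.1 (hS hxS)).2 (hI1 hxI)
      have hi : Ind G (S ∪ I) := by
        intro x hx y hy
        rw [mem_union] at hx hy
        rcases hx with hx | hx
        · rcases hy with hy | hy
          · exact hSi x hx y hy
          · intro hadj
            have h1 := mem_sdiff.1 (hS hx)
            exact h1.2 (hcl y (hI1 hy) x h1.1 hadj.symm)
        · rcases hy with hy | hy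
          · intro hadj
            have h1 := mem_sdiff.1 (hS hy)
            exact h1.2 (hcl x (hI1 hx) y h1.1 hadj)
          · exact hI2 x hx y hy
      have h1 := hα (S ∪ I) (union_subset (hS.trans sdiff_subset) (hI1.trans hDO)) hi
      rw [card_union_of_disjoint hdis] at h1
      omega
    have hmul : κ * (c - I.card) + κ * I.card = κ * c := by
      rw [← Nat.mul_add]
      congr 1
      omega
    obtain ⟨D', I', h1, h2, h3, h4, h5, h6, h7, h8⟩ := ih (O \ D) (by omega) (c - I.card) hαO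
      (by
        have := card_le_card hDO
        omega)
    refine ⟨D', I', h1.trans sdiff_subset, h2, ?_, h4, h5, h6, h7, h8⟩
    intro x hx y hy hxy
    by_cases hyD : y ∈ D
    · exfalso
      have h9 := mem_sdiff.1 (h1 hx)
      exact h9.2 (hcl y hyD x h9.1 hxy.symm)
    · exact h3 x hx y (mem_sdiff.2 ⟨hy, hyD⟩) hxy

omit [DecidableEq V] in
theorem gap_of' {G : SimpleGraph V} {U : Finset V} {s t : V} {L v : ℕ}
    (hinit : ∃ l, STP G U s t l ∧ l.length ≤ L + v)
    (hns : ∀ l, STP G U s t l → l.length < L → Stuck G U s t l (v + 1) → False) :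
    ∃ l, STP G U s t l ∧ L ≤ l.length ∧ l.length ≤ L + v := by
  classical
  obtain ⟨l0, hl0, hl0'⟩ := hinit
  have hP : ∃ l, STP G U s t l ∧ l.length = l0.length := ⟨l0, hl0, rfl⟩
  have hspec := Nat.findGreatest_spec (P := fun n => ∃ l, STP G U s t l ∧ l.length = n) hl0' hP
  have hle := Nat.findGreatest_le (P := fun n => ∃ l, STP G U s t l ∧ l.length = n) (L + v)
  obtain ⟨l, hl, hln⟩ := hspec
  refine ⟨l, hl, ?_, by omega⟩
  by_contra hcon
  apply hns l hl (by omega)
  intro l' hl' hlt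
  by_contra hcon'
  exact Nat.findGreatest_is_greatest (P := fun n => ∃ l, STP G U s t l ∧ l.length = n)
    (n := L + v) (k := l'.length) (by omega) (by omega) ⟨l', hl', rfl⟩

theorem nbr_large' {G : SimpleGraph V} {W : Finset V} {b : ℕ} {T : ℕ → ℕ} (hb : 2 ≤ b)
    (hW : AlphaLe G W b) (hcard : T b ≤ W.card)
    (hmin : ∀ c, 1 ≤ c → c < b → ∀ W', W' ⊆ W → AlphaLe G W' c → W'.card < T c)
    {x : V} (hx : x ∈ W) [DecidablePred (G.Adj x)] :
    T b ≤ (W.filter (G.Adj x)).card + T (b - 1) := by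
  set M := (W.filter (fun y => ¬ G.Adj x y)).erase x with hM
  have hMa : AlphaLe G M (b - 1) := by
    intro s hs hi
    have hxs : x ∉ s := by
      intro h
      have := hs h
      rw [hM, mem_erase] at this
      exact this.1 rfl
    have h1 := hW (insert x s) (insert_subset hx (by
      intro y hy
      have := hs hy
      rw [hM, mem_erase, mem_filter] at this
      exact this.2.1)) (ind_insert hi (by
      intro y hy
      have := hs hy
      rw [hM, mem_erase, mem_filter] at this
      exact this.2.2))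
    rw [card_insert_of_notMem hxs] at h1
    omega
  have h2 := hmin (b - 1) (by omega) (by omega) M (by
    intro y hy
    rw [hM, mem_erase, mem_filter] at hy
    exact hy.2.1) hMa
  have h3 : (W.filter (fun y => ¬ G.Adj x y)).card = M.card + 1 := by
    rw [hM, card_erase_of_mem]
    · have : 0 < (W.filter (fun y => ¬ G.Adj x y)).card := by
        rw [card_pos]
        exact ⟨x, by rw [mem_filter]; exact ⟨hx, G.loopless.irrefl _⟩⟩
      omega
    · rw [mem_filter]; exact ⟨hx, G.loopless.irrefl _⟩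
  have h4 := card_filter_add_card_filter_not (s := W) (G.Adj x)
  omega

end Vale.Agent.P048.L
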