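import Vale.Agent.P048.Level

namespace Vale.Agent.P048.L

open Finset

variable {V : Type*} [DecidableEq V]

theorem conn_of_sep {G : SimpleGraph V} {W Z : Finset V} {k : ℕ} (hsep : Sep G W k)
    (hk : Z.card < k) : Conn G (W \ Z) := by
  intro A hA hAne hcl
  by_contra hne
  have hB : ((W \ Z) \ A).Nonempty := by
    rw [sdiff_nonempty]
    intro h
    exact hne (Subset.antisymm hA h)
  have h1 := hsep A ((W \ Z) \ A) (hA.trans sdiff_subset) (sdiff_subset.trans sdiff_subset)
    hAne hB disjoint_sdiff (by
      intro x hx y hy hxy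
      rw [mem_sdiff] at hy
      exact hy.2 (hcl x hx y hy.1 hxy))
  have h2 : (W \ (A ∪ (W \ Z) \ A)).card ≤ Z.card := by
    apply card_le_card
    intro x hx
    rw [mem_sdiff, mem_union, mem_sdiff, mem_sdiff] at hx
    by_contra hxZ
    apply hx.2
    by_cases hxA : x ∈ A
    · exact Or.inl hxA
    · exact Or.inr ⟨⟨hx.1, hxZ⟩, hxA⟩
  omega

theorem adj_of_max {G : SimpleGraph V} {W J : Finset V} {b : ℕ} (hW : AlphaLe G W b)
    (hJW : J ⊆ W) (hJ : Ind G J) (hJb : J.card = b) {x : V} (hx : x ∈ W) (hxJ : x ∉ J) :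
    ∃ j ∈ J, G.Adj x j := by
  by_contra hcon
  push Not at hcon
  have := hW (insert x J) (insert_subset hx hJW) (ind_insert hJ hcon)
  rw [card_insert_of_notMem hxJ] at this
  omega

theorem long_cycle_big {G : SimpleGraph V} {W : Finset V} {b m q R r0 βs κ : ℕ} {T : ℕ → ℕ}
    (hb : 3 ≤ b) (hW : AlphaLe G W b) (hcard : T b ≤ W.card)
    (hmin : ∀ c, 1 ≤ c → c < b → ∀ W', W' ⊆ W → AlphaLe G W' c → W'.card < T c)
    (hq : 1 ≤ q) (hR : 2 * R ≤ q) (hqm : R + 2 + q ≤ m) (hzm : 2 * q + 2 ≤ m)
    (hβ : 1 ≤ βs) (hβb : βs ≤ b) (hr0 : 2 * (βs - 1) ≤ r0)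
    (h1 : T (b - 1) + b + 2 * q ≤ T b + 1)
    (hsepT : ∀ c d, 1 ≤ c → 1 ≤ d → c + d = b → T c + T d + 2 * q ≤ T b)
    (hκ : ∀ c, 1 ≤ c → c < βs → T c ≤ κ * c + 1)
    (hbig : κ * b + m ≤ T b)
    (hgrow : ∀ f : ℕ → ℕ, βs ≤ f r0 → (∀ r, f r ≤ f (r + 1)) → (∀ r, r ≤ R → f r < b) →
      (∀ r, r0 ≤ r → r < R → T b + 2 ≤ T (f (r + 1)) + T (b - f r) + (b + 2 * q - f r)) →
      False) :
    ∃ c, Cyc G c ∧ c.length = m ∧ ∀ x ∈ c, x ∈ W := by
  classical
  have hdeg : ∀ x ∈ W, T b ≤ (W.filter (G.Adj x)).card + T (b - 1) :=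
    fun x hx => nbr_large' (by omega) hW hcard hmin hx
  have hsep : Sep G W (2 * q + 2) := by
    intro A B hA hB hAne hBne hd hn
    obtain ⟨c, d, hc, hd', hcd, hAc, hBd⟩ := alpha_split hW hA hB hAne hBne hd hn
    have h1 := hmin c hc (by omega) A hA hAc
    have h2 := hmin d hd' (by omega) B hB hBd
    have h3 := hsepT c d hc hd' hcd
    have h4 : (W \ (A ∪ B)).card = W.card - (A ∪ B).card :=
      card_sdiff_of_subset (union_subset hA hB)
    have h5 := card_union_le A B
    omega
  have hext : ∀ Z, Z ⊆ W → ∀ s ∈ Z, T b + 1 ≤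
      ((W \ Z).filter (G.Adj s)).card + Z.card + T (b - 1) := by
    intro Z hZW s hs
    have h0 := hdeg s (hZW hs)
    have h1 : W.filter (G.Adj s) ⊆ ((W \ Z).filter (G.Adj s)) ∪ (Z.erase s) := by
      intro x hx
      rw [mem_filter] at hx
      rw [mem_union, mem_filter, mem_sdiff, mem_erase]
      by_cases hxZ : x ∈ Z
      · right
        exact ⟨fun h => G.loopless.irrefl s (by rw [h] at hx; exact hx.2), hxZ⟩
      · left
        exact ⟨⟨hx.1, hxZ⟩, hx.2⟩
    have h2 := (card_le_card h1).trans (card_union_le _ _)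
    have h3 : (Z.erase s).card + 1 = Z.card := card_erase_add_one hs
    omega
  have hWne : W.Nonempty := by
    rw [← card_pos]
    have := h1
    omega
  obtain ⟨t, ht⟩ := hWne
  obtain ⟨Z, s, hZW, hF⟩ := flex_chain (k := 1) hW ht q (by
    intro Z hZW hZc s hs
    refine ⟨(W \ Z).filter (G.Adj s), filter_subset _ _, ?_, ?_⟩
    · intro x hx
      exact (mem_filter.1 hx).2
    · have := hext Z hZW s hs
      omega)
  have hz : Z.card = 1 + 2 * q := by
    rw [hF.card]; omega
  have hst : s ≠ t := by
    rintro rfl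
    obtain ⟨l, h1, h2, h3, h4, h5⟩ := hF.path 0 (Nat.zero_le _)
    rcases l with _ | ⟨x, _ | ⟨y, l⟩⟩
    · simp at h2
    · simp at h5; omega
    · simp only [List.head?_cons, Option.some.injEq] at h2
      subst h2
      rw [List.getLast?_cons_cons] at h3
      have := List.mem_of_getLast? h3
      exact (List.nodup_cons.1 h1.1).1 this
  have hsW := hZW hF.hs
  have htW := hZW hF.ht
  have hsU : s ∈ W \ (Z \ {s, t}) := by
    rw [mem_sdiff, mem_sdiff]
    exact ⟨hsW, fun h => h.2 (by simp)⟩
  have htU : t ∈ W \ (Z \ {s, t}) := by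
    rw [mem_sdiff, mem_sdiff]
    exact ⟨htW, fun h => h.2 (by simp)⟩
  have hWZU : W \ Z ⊆ W \ (Z \ {s, t}) := sdiff_subset_sdiff (Subset.refl _) sdiff_subset
  obtain ⟨l, hl, hl1, hl2⟩ := gap_of' (G := G) (U := W \ (Z \ {s, t})) (s := s) (t := t)
    (L := m + 2 - Z.card) (v := q)
    (by
      have hconn := conn_of_sep hsep (Z := Z) (by omega)
      obtain ⟨x0, hx0⟩ : ((W \ Z).filter (G.Adj s)).Nonempty := by
        rw [← card_pos]
        have := hext Z hZW s hF.hs
        omega
      rw [mem_filter] at hx0
      obtain ⟨I, hI1, hI2, hI3⟩ := exists_alpha (G := G) (W \ Z)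
      have hIb : I.card ≤ b := hW I (hI1.trans sdiff_subset) hI2
      have hI1' : 1 ≤ I.card := by
        have := hI3 {x0} (singleton_subset_iff.2 hx0.1) (by
          intro u hu v hv
          rw [mem_singleton] at hu hv
          rw [hu, hv]; exact G.loopless.irrefl _)
        rwa [card_singleton] at this
      obtain ⟨r, hrR, J, hJ1, hJ2, hJ3⟩ := ball_reach (R := R) (r0 := r0) (βs := βs)
        (z' := 2 * q) hW hcard hmin hZW
        (Subset.refl (W \ Z)) (fun x _ y hy _ => hy) hx0.1 hconn hβ hr0
        (by
          refine ⟨I, hI1, hI2, ?_⟩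
          by_contra hcon
          have h2 := hmin I.card hI1' (by omega) (W \ Z) sdiff_subset hI3
          have h3 := hκ I.card hI1' (by omega)
          have h4 : (W \ Z).card = W.card - Z.card := card_sdiff_of_subset hZW
          have h5 : κ * I.card ≤ κ * b := Nat.mul_le_mul_left _ hIb
          have h6 := card_le_card hZW
          omega)
        (by
          intro r _ J _ _ hJb
          exact ⟨Z, fun c hc _ => hc, by omega⟩)
        hgrow
      have hJD : J ⊆ W \ Z := hJ1.trans (ball_subset hx0.1 r)
      obtain ⟨j, hj, hadj⟩ := adj_of_max hW (hJD.trans sdiff_subset) hJ2 hJ3 htW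
        (fun h => (mem_sdiff.1 (hJD h)).2 hF.ht)
      obtain ⟨p, p1, p2, p3, p4, p5⟩ := ball_chain r j (hJ1 hj)
      obtain ⟨p', hp1, hp2, hp3⟩ := bridge_nodup (G := G) (O := W \ Z) (u := s) (u' := t)
        (n := r + 1) ⟨p, ⟨by
          rintro rfl
          simp at p3, p1, fun x hx => ball_subset hx0.1 r (p2 x hx), by
          intro z hz
          rw [p3] at hz
          simp only [Option.mem_def, Option.some.injEq] at hz
          rw [← hz]; exact hx0.2, by
          intro z hz
          rw [p4] at hz
          simp only [Option.mem_def, Option.some.injEq] at hz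
          rw [← hz]; exact hadj.symm⟩, p5⟩
      refine ⟨s :: (p' ++ [t]), stp_of_bridge hp1 hp2 hWZU hsU htU
        (fun h => (mem_sdiff.1 h).2 hF.hs) (fun h => (mem_sdiff.1 h).2 hF.ht) hst, ?_⟩
      simp only [List.length_cons, List.length_append, List.length_nil]
      omega)
    (by
      intro l hl hlL hstuck
      have hlsub : l.toFinset ⊆ W \ (Z \ {s, t}) := by
        intro x hx
        exact hl.mem x (List.mem_toFinset.1 hx)
      have hlcard : l.toFinset.card = l.length := List.toFinset_card_of_nodup hl.pth.1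
      have hsl : s ∈ l := List.mem_of_mem_head? (by rw [hl.hd]; rfl)
      have htl : t ∈ l := List.mem_of_getLast? hl.lt
      set C := Z ∪ l.toFinset with hC
      have hCW : C ⊆ W := union_subset hZW (hlsub.trans sdiff_subset)
      have hCcard : C.card + 1 ≤ m := by
        have h2 : C ⊆ Z ∪ ((l.toFinset.erase s).erase t) := by
          intro x hx
          rw [hC, mem_union] at hx
          rw [mem_union, mem_erase, mem_erase]
          by_cases hxs : x = s
          · left; rw [hxs]; exact hF.hs
          by_cases hxt : x = t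
          · left; rw [hxt]; exact hF.ht
          rcases hx with hx | hx
          · exact Or.inl hx
          · exact Or.inr ⟨hxt, hxs, hx⟩
        have h3 := (card_le_card h2).trans (card_union_le _ _)
        have h4 : (l.toFinset.erase s).card + 1 = l.toFinset.card :=
          card_erase_add_one (List.mem_toFinset.2 hsl)
        have h5 : ((l.toFinset.erase s).erase t).card + 1 = (l.toFinset.erase s).card :=
          card_erase_add_one (mem_erase.2 ⟨hst.symm, List.mem_toFinset.2 htl⟩)
        omega
      have hOcard : (W \ C).card = W.card - C.card := card_sdiff_of_subset hCW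
      obtain ⟨D, I, hDX, hDne, hcl, hconn, hI1, hI2, hI3, hI4⟩ := big_comp (κ := κ) _ (W \ C)
        le_rfl b (hW.mono sdiff_subset le_rfl) (by omega)
      obtain ⟨x0, hx0⟩ := hDne
      have hDW : D ⊆ W := hDX.trans sdiff_subset
      have hIb : I.card ≤ b := hW I (hI1.trans hDW) hI2
      have hI1' : 1 ≤ I.card := by
        have := hI3 {x0} (singleton_subset_iff.2 hx0) (by
          intro u hu v hv
          rw [mem_singleton] at hu hv
          rw [hu, hv]; exact G.loopless.irrefl _)
        rwa [card_singleton] at this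
      have hDl : ∀ x ∈ l, x ∉ D := by
        intro x hx hxD
        have := hDX hxD
        rw [mem_sdiff, hC, mem_union] at this
        exact this.2 (Or.inr (List.mem_toFinset.2 hx))
      have hDU : D ⊆ W \ (Z \ {s, t}) := by
        intro x hx
        have := hDX hx
        rw [mem_sdiff, hC, mem_union] at this
        rw [mem_sdiff, mem_sdiff]
        exact ⟨this.1, fun h => this.2 (Or.inl h.1)⟩
      have hce : ∀ r, r ≤ R → ∀ J, J ⊆ ball G D x0 r → Ind G J →
          (l.dropLast.toFinset.filter (Att G (ball G D x0 r))).card + J.card ≤ b := by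
        intro r hr J hJ1 hJ2
        apply ce_main hW sdiff_subset hl hstuck ((ball_subset hx0 r).trans hDU)
          (fun x hx hxb => hDl x hx (ball_subset hx0 r hxb)) (Subset.refl (ball G D x0 r)) _
          hJ1 hJ2
        intro u _ u' _ _ hau hau'
        obtain ⟨p, hp1, hp2, hp3⟩ := ball_bridge hau hau'
        exact ⟨p, hp1, hp2, by omega⟩
      obtain ⟨r, hrR, J, hJ1, hJ2, hJ3⟩ := ball_reach (R := R) (r0 := r0) (βs := βs)
        (z' := 2 * q) hW hcard hmin hCW hDX hcl hx0 hconn hβ hr0
        (by
          refine ⟨I, hI1, hI2, ?_⟩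
          by_contra hcon
          have h2 := hmin I.card hI1' (by omega) D hDW hI3
          have h3 := hκ I.card hI1' (by omega)
          omega)
        (by
          intro r hr J hJ1 hJ2 _
          refine ⟨(Z.erase s) ∪ (l.dropLast.toFinset.filter (Att G (ball G D x0 r))), ?_, ?_⟩
          · intro x hx hatt
            rw [hC, mem_union] at hx
            rw [mem_union, mem_erase, mem_filter, List.mem_toFinset]
            by_cases hxt : x = t
            · left
              rw [hxt]
              exact ⟨hst.symm, hF.ht⟩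
            · by_cases hxl : x ∈ l
              · right
                refine ⟨?_, hatt⟩
                have h3 : l = l.dropLast ++ [t] := by
                  have := List.dropLast_append_getLast? t hl.lt
                  exact this.symm
                rw [h3, List.mem_append, List.mem_singleton] at hxl
                exact hxl.resolve_right hxt
              · left
                refine ⟨?_, hx.resolve_right (fun h => hxl (List.mem_toFinset.1 h))⟩
                rintro rfl
                exact hxl hsl
          · have h2 := hce r hr J hJ1 hJ2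
            have h3 := card_union_le (Z.erase s)
              (l.dropLast.toFinset.filter (Att G (ball G D x0 r)))
            have h4 : (Z.erase s).card + 1 = Z.card := card_erase_add_one hF.hs
            omega)
        hgrow
      have hJD : J ⊆ D := hJ1.trans (ball_subset hx0 r)
      obtain ⟨j, hj, hadj⟩ := adj_of_max hW (hJD.trans hDW) hJ2 hJ3 hsW
        (fun h => hDl s hsl (hJD h))
      have h2 := hce r hrR J hJ1 hJ2
      obtain ⟨w, B, hlB⟩ := stp_form hl hst
      have hsd : s ∈ l.dropLast.toFinset.filter (Att G (ball G D x0 r)) := by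
        rw [mem_filter, List.mem_toFinset]
        refine ⟨?_, j, hJ1 hj, hadj⟩
        rw [hlB]
        simp
      have h3 : 0 < (l.dropLast.toFinset.filter (Att G (ball G D x0 r))).card :=
        card_pos.2 ⟨s, hsd⟩
      omega)
  obtain ⟨p, hp1, hp2, hp3, hp4, hp5⟩ := hF.path (l.length - (m + 2 - Z.card)) (by omega)
  obtain ⟨c, hc1, hc2, hc3⟩ := cyc_of_two hZW hst hl hp1 hp2 hp3 hp4
  refine ⟨c, hc1, ?_, hc3⟩
  have := hF.card
  omega

end Vale.Agent.P048.L
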