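import Vale.Agent.P048.Ball

namespace Vale.Agent.P048.L

open Finset

variable {V : Type*} [DecidableEq V]

/-- `q` is a walk inside `O` from a vertex of `A` to a vertex of `B`. -/
def Chn (G : SimpleGraph V) (O A B : Finset V) (q : List V) : Prop :=
  q.IsChain G.Adj ∧ (∀ x ∈ q, x ∈ O) ∧ (∃ a ∈ A, q.head? = some a) ∧
    ∃ b ∈ B, q.getLast? = some b

theorem short_path {G : SimpleGraph V} {O A B : Finset V} {n : ℕ}
    (h : ∃ q, Chn G O A B q ∧ q.length ≤ n) :
    ∃ p, Chn G O A B p ∧ p.Nodup ∧ p.length ≤ n ∧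
      (∀ x ∈ p, x ∈ A → p.head? = some x) ∧ ∀ x ∈ p, x ∈ B → p.getLast? = some x := by
  classical
  have hex : ∃ k, ∃ q, Chn G O A B q ∧ q.length = k := by
    obtain ⟨q, hq, _⟩ := h
    exact ⟨_, q, hq, rfl⟩
  obtain ⟨p, hp, hpl⟩ := Nat.find_spec hex
  have hmin : ∀ q, Chn G O A B q → p.length ≤ q.length := by
    intro q hq
    rw [hpl]
    exact Nat.find_min' hex ⟨q, hq, rfl⟩
  obtain ⟨q0, hq0, hn⟩ := h
  obtain ⟨hc, hO, hA, hB⟩ := hp
  refine ⟨p, ⟨hc, hO, hA, hB⟩, ?_, (hmin q0 hq0).trans hn, ?_, ?_⟩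
  · rw [List.nodup_iff_getElem?_ne_getElem?]
    intro i j hij hj heq
    rw [List.getElem?_eq_getElem (by omega), List.getElem?_eq_getElem hj, Option.some.injEq] at heq
    have hs := split_two p hij hj
    rw [heq] at hs
    generalize p.take i = s1 at hs
    generalize (p.drop (i + 1)).take (j - i - 1) = s2 at hs
    generalize p.drop (j + 1) = s3 at hs
    generalize p[j] = x at hs
    have := hmin (s1 ++ x :: s3) (by
      rw [hs] at hc hO hA hB
      refine ⟨?_, ?_, ?_, ?_⟩
      · rw [List.isChain_append] at hc ⊢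
        obtain ⟨h1, h2, h3⟩ := hc
        refine ⟨h1, ?_, h3⟩
        rw [← List.cons_append, List.isChain_append] at h2
        exact h2.2.1
      · intro y hy
        apply hO
        simp only [List.mem_append, List.mem_cons] at hy ⊢
        tauto
      · obtain ⟨a, ha, ha'⟩ := hA
        refine ⟨a, ha, ?_⟩
        rw [List.head?_append] at ha' ⊢
        exact ha'
      · obtain ⟨b, hb, hb'⟩ := hB
        refine ⟨b, hb, ?_⟩
        rw [List.getLast?_append, ← List.cons_append, List.getLast?_append] at hb'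
        rw [List.getLast?_append]
        rcases hl : (x :: s3).getLast? with _ | z
        · simp at hl
        · rw [hl] at hb'
          exact hb')
    rw [hs] at this
    simp only [List.length_append, List.length_cons] at this
    omega
  · intro x hx hxA
    obtain ⟨s, t, rfl⟩ := List.append_of_mem hx
    rcases s with _ | ⟨y, s⟩
    · rfl
    · exfalso
      have := hmin (x :: t) ⟨(List.isChain_append.1 hc).2.1, fun z hz => hO z (by
        rw [List.mem_append]; exact Or.inr hz), ⟨x, hxA, rfl⟩, by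
          obtain ⟨b, hb, hb'⟩ := hB
          refine ⟨b, hb, ?_⟩
          rw [List.getLast?_append] at hb'
          rcases hl : (x :: t).getLast? with _ | z
          · simp at hl
          · rw [hl] at hb'
            exact hb'⟩
      simp only [List.length_append, List.length_cons] at this
      omega
  · intro x hx hxB
    obtain ⟨s, t, rfl⟩ := List.append_of_mem hx
    rcases t with _ | ⟨y, t⟩
    · rw [List.getLast?_append]; rfl
    · exfalso
      have e : s ++ x :: y :: t = (s ++ [x]) ++ y :: t := by simp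
      have := hmin (s ++ [x]) ⟨by
          rw [e] at hc
          exact (List.isChain_append.1 hc).1, fun z hz => hO z (by
            rw [e, List.mem_append]; exact Or.inl hz), by
          obtain ⟨a, ha, ha'⟩ := hA
          refine ⟨a, ha, ?_⟩
          rw [List.head?_append] at ha' ⊢
          exact ha', ⟨x, hxB, by rw [List.getLast?_append]; rfl⟩⟩
      simp only [List.length_append, List.length_cons, List.length_nil] at this
      omega

theorem chain_of_clique {G : SimpleGraph V} {K S : Finset V}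
    (hK : ∀ x ∈ K, ∀ y ∈ K, x ≠ y → G.Adj x y) (hS : S ⊆ K) : S.toList.IsChain G.Adj :=
  (pairwise_adj (fun x hx y hy => hK x (hS hx) y (hS hy))).isChain

theorem link_cycle {G : SimpleGraph V} {W K1 K2 : Finset V} {m t : ℕ} {P P' : List V}
    (hK1 : ∀ x ∈ K1, ∀ y ∈ K1, x ≠ y → G.Adj x y) (hK2 : ∀ x ∈ K2, ∀ y ∈ K2, x ≠ y → G.Adj x y)
    (hd : Disjoint K1 K2) (hK1W : K1 ⊆ W) (hK2W : K2 ⊆ W) (ht1 : t ≤ K1.card) (ht2 : t ≤ K2.card)
    (hmt : m ≤ 2 * t) (ht : 2 ≤ t)
    (hP : Chn G W K1 K2 P) (hPn : P.Nodup) (hPh : ∀ x ∈ P, x ∈ K1 → P.head? = some x)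
    (hPl : ∀ x ∈ P, x ∈ K2 → P.getLast? = some x)
    (hP' : Chn G W K1 K2 P') (hPn' : P'.Nodup) (hPh' : ∀ x ∈ P', x ∈ K1 → P'.head? = some x)
    (hPl' : ∀ x ∈ P', x ∈ K2 → P'.getLast? = some x)
    (hdis : ∀ x ∈ P, x ∉ P') (hlen : P.length + P'.length ≤ m) : HasCyc G W m := by
  obtain ⟨hPc, hPW, ⟨p0, hp0, hp0'⟩, ⟨p1, hp1, hp1'⟩⟩ := hP
  obtain ⟨hQc, hQW, ⟨q0, hq0, hq0'⟩, ⟨q1, hq1, hq1'⟩⟩ := hP'
  have mp0 : p0 ∈ P := List.mem_of_mem_head? (by rw [hp0']; rfl)
  have mp1 : p1 ∈ P := List.mem_of_getLast? hp1'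
  have mq0 : q0 ∈ P' := List.mem_of_mem_head? (by rw [hq0']; rfl)
  have mq1 : q1 ∈ P' := List.mem_of_getLast? hq1'
  have hpq0 : p0 ≠ q0 := by
    rintro rfl; exact hdis _ mp0 mq0
  have hpq1 : p1 ≠ q1 := by
    rintro rfl; exact hdis _ mp1 mq1
  have hdd : ∀ x ∈ K1, x ∉ K2 := fun x hx hx' => (disjoint_left.1 hd) hx hx'
  have h2P : ∀ (L : List V) (a b : V), L.head? = some a → L.getLast? = some b → a ≠ b →
      2 ≤ L.length := by
    intro L a b ha hb hab
    rcases L with _ | ⟨x, _ | ⟨y, L⟩⟩
    · simp at ha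
    · simp at ha hb
      exact absurd (ha.symm.trans hb) hab
    · simp
  have hlP := h2P P p0 p1 hp0' hp1' (by rintro rfl; exact hdd _ hp0 hp1)
  have hlP' := h2P P' q0 q1 hq0' hq1' (by rintro rfl; exact hdd _ hq0 hq1)
  have hc1 : t - 2 ≤ ((K1.erase p0).erase q0).card := by
    rw [card_erase_of_mem (mem_erase.2 ⟨hpq0.symm, hq0⟩), card_erase_of_mem hp0]
    omega
  have hc2 : t - 2 ≤ ((K2.erase p1).erase q1).card := by
    rw [card_erase_of_mem (mem_erase.2 ⟨hpq1.symm, hq1⟩), card_erase_of_mem hp1]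
    omega
  obtain ⟨s1, s2, hs1, hs2, hs⟩ : ∃ s1 s2, s1 ≤ t - 2 ∧ s2 ≤ t - 2 ∧
      s1 + s2 + (P.length + P'.length) = m := by
    rcases Nat.lt_or_ge (t - 2) (m - (P.length + P'.length)) with h | h
    · exact ⟨t - 2, m - (P.length + P'.length) - (t - 2), by omega, by omega, by omega⟩
    · exact ⟨m - (P.length + P'.length), 0, by omega, by omega, by omega⟩
  obtain ⟨S1, hS1, hS1c⟩ := exists_subset_card_eq (hs1.trans hc1)
  obtain ⟨S2, hS2, hS2c⟩ := exists_subset_card_eq (hs2.trans hc2)
  have e1 : ∀ x ∈ S1, x ∈ K1 ∧ x ≠ p0 ∧ x ≠ q0 := by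
    intro x hx
    have := hS1 hx
    rw [mem_erase, mem_erase] at this
    exact ⟨this.2.2, this.2.1, this.1⟩
  have e2 : ∀ x ∈ S2, x ∈ K2 ∧ x ≠ p1 ∧ x ≠ q1 := by
    intro x hx
    have := hS2 hx
    rw [mem_erase, mem_erase] at this
    exact ⟨this.2.2, this.2.1, this.1⟩
  have hj1 : ∀ x ∈ (S1.toList).head?, x ∈ K1 ∧ x ≠ q0 := by
    intro x hx
    have := e1 x (mem_toList.1 (List.mem_of_mem_head? hx))
    exact ⟨this.1, this.2.2⟩
  have hc3 : (P'.reverse ++ S1.toList).IsChain G.Adj := by
    rw [List.isChain_append]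
    refine ⟨chain_symm hQc, chain_of_clique hK1 (fun x hx => (e1 x hx).1), ?_⟩
    intro a ha b hb
    rw [List.getLast?_reverse, hq0'] at ha
    simp only [Option.mem_def, Option.some.injEq] at ha
    rw [← ha]
    exact hK1 _ hq0 _ (hj1 b hb).1 (hj1 b hb).2.symm
  have hh3 : (P'.reverse ++ S1.toList).head? = some q1 := by
    rw [List.head?_append, List.head?_reverse, hq1']; rfl
  have hc4 : (S2.toList ++ (P'.reverse ++ S1.toList)).IsChain G.Adj := by
    rw [List.isChain_append]
    refine ⟨chain_of_clique hK2 (fun x hx => (e2 x hx).1), hc3, ?_⟩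
    intro a ha b hb
    rw [hh3] at hb
    simp only [Option.mem_def, Option.some.injEq] at hb
    rw [← hb]
    have := e2 a (mem_toList.1 (List.mem_of_getLast? ha))
    exact hK2 _ this.1 _ hq1 this.2.2
  have hh4 : ∀ x ∈ (S2.toList ++ (P'.reverse ++ S1.toList)).head?, x ∈ K2 ∧ x ≠ p1 := by
    intro x hx
    rw [List.head?_append, hh3] at hx
    rcases hS : S2.toList.head? with _ | y
    · rw [hS] at hx
      simp only [Option.none_or, Option.mem_def, Option.some.injEq] at hx
      rw [← hx]
      exact ⟨hq1, hpq1.symm⟩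
    · rw [hS] at hx
      simp only [Option.some_or, Option.mem_def, Option.some.injEq] at hx
      rw [← hx]
      have := e2 y (mem_toList.1 (List.mem_of_mem_head? (by rw [hS]; rfl)))
      exact ⟨this.1, this.2.1⟩
  refine ⟨P ++ (S2.toList ++ (P'.reverse ++ S1.toList)), ?_, ⟨?_, ?_, ?_⟩, ?_⟩
  · simp only [List.length_append, length_toList, List.length_reverse]
    omega
  · rw [List.nodup_append, List.nodup_append, List.nodup_append]
    refine ⟨hPn, ⟨S2.nodup_toList, ⟨List.nodup_reverse.2 hPn', S1.nodup_toList, ?_⟩, ?_⟩, ?_⟩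
    · intro a ha b hb hab
      subst hab
      rw [List.mem_reverse] at ha
      rw [mem_toList] at hb
      have h1 := hPh' a ha (e1 a hb).1
      rw [hq0'] at h1
      exact (e1 a hb).2.2 (Option.some.inj h1).symm
    · intro a ha b hb hab
      subst hab
      rw [mem_toList] at ha
      rw [List.mem_append, List.mem_reverse, mem_toList] at hb
      rcases hb with hb | hb
      · have h1 := hPl' a hb (e2 a ha).1
        rw [hq1'] at h1
        exact (e2 a ha).2.2 (Option.some.inj h1).symm
      · exact hdd a (e1 a hb).1 (e2 a ha).1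
    · intro a ha b hb hab
      subst hab
      rw [List.mem_append, List.mem_append, List.mem_reverse, mem_toList, mem_toList] at hb
      rcases hb with hb | hb | hb
      · have h1 := hPl a ha (e2 a hb).1
        rw [hp1'] at h1
        exact (e2 a hb).2.1 (Option.some.inj h1).symm
      · exact hdis a ha hb
      · have h1 := hPh a ha (e1 a hb).1
        rw [hp0'] at h1
        exact (e1 a hb).2.1 (Option.some.inj h1).symm
  · rw [List.isChain_append]
    refine ⟨hPc, hc4, ?_⟩
    intro a ha b hb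
    rw [hp1'] at ha
    simp only [Option.mem_def, Option.some.injEq] at ha
    rw [← ha]
    exact hK2 _ hp1 _ (hh4 b hb).1 (hh4 b hb).2.symm
  · intro a ha b hb
    rw [List.head?_append, hp0'] at hb
    simp only [Option.some_or, Option.mem_def, Option.some.injEq] at hb
    rw [← hb]
    rw [List.getLast?_append, List.getLast?_append, List.getLast?_append, List.getLast?_reverse,
      hq0'] at ha
    rcases hS : S1.toList.getLast? with _ | y
    · rw [hS] at ha
      simp only [Option.none_or, Option.some_or, Option.mem_def, Option.some.injEq] at ha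
      rw [← ha]
      exact hK1 _ hq0 _ hp0 hpq0.symm
    · rw [hS] at ha
      simp only [Option.some_or, Option.mem_def, Option.some.injEq] at ha
      rw [← ha]
      have := e1 y (mem_toList.1 (List.mem_of_getLast? hS))
      exact hK1 _ this.1 _ hp0 this.2.1
  · intro x hx
    rw [List.mem_append, List.mem_append, List.mem_append, List.mem_reverse, mem_toList,
      mem_toList] at hx
    rcases hx with hx | hx | hx | hx
    · exact hPW x hx
    · exact hK2W (e2 x hx).1
    · exact hQW x hx
    · exact hK1W (e1 x hx).1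

end Vale.Agent.P048.L
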