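import Vale.Agent.P048.Fix

namespace Vale.Agent.P048.L

open Finset

variable {V : Type*} [DecidableEq V] {G : SimpleGraph V} {W K : Finset V}

theorem sys_init (hKW : K ⊆ W) : Sys G W K (K.toList.map (fun x => [x])) ∧
    (K.toList.map (fun x => [x])).flatten = K.toList := by
  have hfl : ∀ l : List V, (l.map (fun x => [x])).flatten = l := by
    intro l
    induction l with
    | nil => rfl
    | cons a l ih => simp only [List.map_cons, List.flatten_cons, ih, List.singleton_append]
  refine ⟨⟨?_, ?_⟩, hfl _⟩
  · intro e he
    rw [List.mem_map] at he
    obtain ⟨x, hx, rfl⟩ := he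
    rw [mem_toList] at hx
    refine ⟨by simp, by simp, ?_, ?_, ?_⟩
    · intro y hy
      rw [List.mem_singleton] at hy
      rw [hy]; exact hKW hx
    · intro y hy
      simp only [List.head?_cons, Option.mem_def, Option.some.injEq] at hy
      rw [← hy]; exact hx
    · intro y hy
      simp only [List.getLast?_singleton, Option.mem_def, Option.some.injEq] at hy
      rw [← hy]; exact hx
  · rw [hfl]
    exact K.nodup_toList

/-- a maximal system of outside size smaller than `g` -/
structure MaxSys (G : SimpleGraph V) (W K : Finset V) (m : ℕ) (S : List (List V)) : Prop where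
  sys : Sys G W K S
  full : ∀ x ∈ K, x ∈ S.flatten
  lt : S.flatten.length < m
  nogap : ∀ e ∈ S, NoGap K 0 e
  max : ∀ S', Sys G W K S' → (∀ x ∈ K, x ∈ S'.flatten) →
    S.flatten.length < S'.flatten.length → S'.flatten.length + 2 ≤ K.card + m → False

theorem exists_max {m g : ℕ} (hKW : K ⊆ W) (hK : IsClq G K) (hkg : g + 2 ≤ K.card) (hg : 1 ≤ g)
    (hm : K.card + g = m) (hno : ¬ HasCyc G W m) : ∃ S, MaxSys G W K m S := by
  classical
  obtain ⟨hi1, hi2⟩ := sys_init (G := G) hKW
  have hex : ∃ n, ∃ S, Sys G W K S ∧ (∀ x ∈ K, x ∈ S.flatten) ∧ S.flatten.length < m ∧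
      m * S.flatten.length + S.length + n = m * m + m := by
    have h1 : (K.toList.map (fun x => [x])).flatten.length = K.card := by
      rw [hi2, length_toList]
    have h2 := hi1.length_le
    rw [h1] at h2
    have h3 : m * K.card ≤ m * m := Nat.mul_le_mul_left _ (by omega)
    refine ⟨m * m + m - (m * K.card + (K.toList.map (fun x => [x])).length), _, hi1, ?_, ?_, ?_⟩
    · intro x hx
      rw [hi2, mem_toList]; exact hx
    · omega
    · rw [h1]; omega
  obtain ⟨S, hS, hfull, hlt, hn⟩ := Nat.find_spec hex
  have hmin := fun n => @Nat.find_min _ _ hex n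
  set n0 := Nat.find hex with hn0
  -- any better system gives a contradiction
  have hbetter : ∀ S', Sys G W K S' → (∀ x ∈ K, x ∈ S'.flatten) → S'.flatten.length < m →
      m * S.flatten.length + S.length < m * S'.flatten.length + S'.length → False := by
    intro S' h1 h2 h3 h4
    have h5 := h1.length_le
    have h6 : m * S'.flatten.length ≤ m * m := Nat.mul_le_mul_left _ h3.le
    exact hmin (m * m + m - (m * S'.flatten.length + S'.length)) (by omega)
      ⟨S', h1, h2, h3, by omega⟩
  refine ⟨S, hS, hfull, hlt, ?_, ?_⟩
  · intro e he A R B heq hA hB hAl hBh hRK hRo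
    have hR : R = [] := List.length_eq_zero_iff.1 (by omega)
    subst hR
    obtain ⟨S1, S2, rfl⟩ := List.append_of_mem he
    subst heq
    have hpm : (S1 ++ (A ++ [] ++ B) :: S2).Perm ((A ++ [] ++ B) :: (S1 ++ S2)) := List.perm_middle
    generalize S1 ++ S2 = T at hpm
    have h' := (hS.perm hpm).cut hA hB hAl hBh
    have h3 := hpm.flatten.length_eq
    simp only [List.flatten_cons, List.length_append, List.length_nil, Nat.add_zero] at h3
    have h4 := hpm.length_eq
    rw [List.length_cons] at h4
    apply hbetter (A :: B :: T) h'
    · intro x hx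
      have hxf := (hpm.flatten.mem_iff).1 (hfull x hx)
      rw [List.flatten_cons, List.mem_append, List.mem_append, List.mem_append] at hxf
      rw [List.flatten_cons, List.flatten_cons, List.mem_append, List.mem_append]
      simp only [List.not_mem_nil, or_false] at hxf
      tauto
    · simp only [List.flatten_cons, List.length_append]
      omega
    · have e1 : (A :: B :: T).flatten.length = A.length + B.length + T.flatten.length := by
        simp only [List.flatten_cons, List.length_append]
        omega
      rw [e1, ← h3, List.length_cons, List.length_cons]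
      omega
  · intro S' h1 h2 h3 h4
    rcases Nat.lt_or_ge S'.flatten.length m with h5 | h5
    · apply hbetter S' h1 h2 h5
      have h6 := hS.length_le
      have h7 : m * (S.flatten.length + 1) ≤ m * S'.flatten.length := Nat.mul_le_mul_left _ h3
      have e : m * (S.flatten.length + 1) = m * S.flatten.length + m := by ring
      omega
    · exact hno (Sys.fix hK hkg hm _ S' h1 h2 (Nat.le_add_left _ _) h5 h4)

/-- counting vertices with the property `P` when no two consecutive ones have it -/
theorem cons_count (P : V → Prop) [DecidablePred P] : ∀ (l : List V),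
    (∀ A B a b, l = A ++ B → a ∈ A.getLast? → b ∈ B.head? → ¬ (P a ∧ P b)) →
    2 * l.countP (fun x => decide (P x)) ≤ l.length + 1 ∧
    ((∀ a ∈ l.head?, ¬ P a) → 2 * l.countP (fun x => decide (P x)) ≤ l.length) ∧
    ((∀ a ∈ l.getLast?, ¬ P a) → 2 * l.countP (fun x => decide (P x)) ≤ l.length) ∧
    ((∀ a ∈ l.head?, ¬ P a) → (∀ a ∈ l.getLast?, ¬ P a) → l ≠ [] →
      2 * l.countP (fun x => decide (P x)) + 1 ≤ l.length)
  | [], _ => by simp
  | x :: l, h => by
    obtain ⟨h1, h2, h3, h4⟩ := cons_count P l (by
      intro A B a b hl ha hb
      have hA : A ≠ [] := by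
        rintro rfl; simp at ha
      apply h (x :: A) B a b (by rw [hl]; rfl) _ hb
      rw [← List.singleton_append, getLast?_append_cons' _ hA]
      exact ha)
    rw [List.countP_cons, List.length_cons]
    by_cases hx : P x
    · simp only [hx, decide_true, if_true]
      have hhead : ∀ a ∈ l.head?, ¬ P a := by
        intro a ha hPa
        exact h [x] l x a rfl (by simp) ha ⟨hx, hPa⟩
      have h2' := h2 hhead
      refine ⟨by omega, ?_, ?_, ?_⟩
      · intro hh
        exact absurd hx (hh x (by simp))
      · intro hh
        rcases hl : l with _ | ⟨y, l'⟩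
        · rw [hl] at hh
          exact absurd hx (hh x (by simp))
        · rw [← hl]
          have hlne : l ≠ [] := by rw [hl]; simp
          have := h4 hhead (by
            intro a ha
            apply hh a
            rw [← List.singleton_append, getLast?_append_cons' _ hlne]
            exact ha) hlne
          omega
      · intro hh
        exact absurd hx (hh x (by simp))
    · simp only [hx, decide_false, Bool.false_eq_true, if_false, Nat.add_zero]
      refine ⟨by omega, fun _ => by omega, ?_, ?_⟩
      · intro hh
        omega
      · intro _ hh _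
        rcases hl : l with _ | ⟨y, l'⟩
        · simp
        · rw [← hl]
          have hlne : l ≠ [] := by rw [hl]; simp
          have := h3 (by
            intro a ha
            apply hh a
            rw [← List.singleton_append, getLast?_append_cons' _ hlne]
            exact ha)
          omega

end Vale.Agent.P048.L
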