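import Mathlib.Tactic

namespace Vale.Agent.P048.L

def EE (B : ℕ) : ℕ → ℕ
  | 0 => 0
  | b + 1 => EE B b + 4 * min b B

theorem EE_small {B : ℕ} : ∀ b, b ≤ B → EE B (b + 1) = 2 * ((b + 1) * b)
  | 0, _ => by simp [EE]
  | b + 1, h => by
    have ih := EE_small b (by omega : b ≤ B)
    show EE B (b + 1) + 4 * min (b + 1) B = _
    rw [ih, min_eq_left h]
    ring

theorem EE_big {B : ℕ} : ∀ k, EE B (B + k) + 2 * (B * (B + 1)) = 4 * (B * (B + k)) 
  | 0 => by
    rcases B with _ | B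
    · simp [EE]
    · rw [Nat.add_zero, EE_small B (by omega)]
      ring
  | k + 1 => by
    have ih := EE_big (B := B) k
    show EE B (B + k) + 4 * min (B + k) B + 2 * (B * (B + 1)) = _
    rw [min_eq_right (by omega : B ≤ B + k)]
    have e : 4 * (B * (B + (k + 1))) = 4 * (B * (B + k)) + 4 * B := by ring
    omega

theorem EE_mono {B : ℕ} (c : ℕ) : ∀ k, EE B (c + k) ≤ EE B c + 4 * (B * k)
  | 0 => by simp
  | k + 1 => by
    have ih := EE_mono (B := B) c k
    show EE B (c + k) + 4 * min (c + k) B ≤ _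
    have h := min_le_right (c + k) B
    have e : 4 * (B * (k + 1)) = 4 * (B * k) + 4 * B := by ring
    omega

theorem EE_split_aux {B c d : ℕ} (hcd : c ≤ d) (hc : 1 ≤ c) (hb : B + 1 ≤ c + d) :
    EE B c + EE B d + 2 * (min c B * (B + 1)) ≤ EE B (c + d) := by
  obtain ⟨k, hk⟩ := Nat.exists_eq_add_of_le (show B ≤ c + d by omega)
  have hbd := EE_big (B := B) k
  rw [← hk] at hbd
  rcases Nat.lt_or_ge c B with h1 | h1
  · rw [min_eq_left h1.le]
    obtain ⟨c', rfl⟩ := Nat.exists_eq_add_of_le' hc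
    rw [EE_small c' (by omega)]
    rcases Nat.lt_or_ge d B with h2 | h2
    · obtain ⟨d', rfl⟩ := Nat.exists_eq_add_of_le' (show 1 ≤ d by omega)
      rw [EE_small d' (by omega)]
      obtain ⟨y, rfl⟩ := Nat.exists_eq_add_of_le (show c' ≤ d' by omega)
      obtain ⟨x, rfl⟩ := Nat.exists_eq_add_of_le (show c' + y + 1 ≤ B by omega)
      obtain ⟨z, rfl⟩ := Nat.exists_eq_add_of_le (show x ≤ c' by omega)
      nlinarith [Nat.zero_le (x * y), Nat.zero_le (x * z), Nat.zero_le (y * z)]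
    · obtain ⟨k', hk'⟩ := Nat.exists_eq_add_of_le h2
      have hdd := EE_big (B := B) k'
      rw [← hk'] at hdd
      obtain ⟨y, rfl⟩ := Nat.exists_eq_add_of_le (show c' + 1 ≤ B by omega)
      nlinarith [Nat.zero_le (c' * y)]
  · rw [min_eq_right h1]
    obtain ⟨k1, hk1⟩ := Nat.exists_eq_add_of_le h1
    have hcc := EE_big (B := B) k1
    rw [← hk1] at hcc
    obtain ⟨k2, hk2⟩ := Nat.exists_eq_add_of_le (show B ≤ d by omega)
    have hdd := EE_big (B := B) k2
    rw [← hk2] at hdd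
    nlinarith

theorem EE_split {B c d : ℕ} (hc : 1 ≤ c) (hd : 1 ≤ d) (hb : B + 1 ≤ c + d) :
    EE B c + EE B d + 2 * (min (min c d) B * (B + 1)) ≤ EE B (c + d) := by
  rcases le_total c d with h | h
  · rw [min_eq_left h]
    exact EE_split_aux h hc hb
  · rw [min_eq_right h]
    have := EE_split_aux h hd (by omega : B + 1 ≤ d + c)
    rw [Nat.add_comm d c] at this
    omega

theorem EE_split' {B c d : ℕ} (hc : 1 ≤ c) (hd : 1 ≤ d) (hb : B + 1 ≤ c + d) :
    EE B c + EE B d + 4 * B ≤ EE B (c + d) := by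
  wlog h : c ≤ d generalizing c d with H
  · have := H hd hc (by omega) (by omega)
    rw [Nat.add_comm d c] at this
    omega
  rcases Nat.lt_or_ge c 2 with h1 | h1
  · have hc1 : c = 1 := by omega
    subst hc1
    have e : EE B 1 = 0 := by simp [EE]
    rw [e, Nat.add_comm 1 d]
    show _ ≤ EE B d + 4 * min d B
    rw [min_eq_right (by omega : B ≤ d)]
    omega
  · have h2 := EE_split_aux h hc hb
    rcases Nat.lt_or_ge B 2 with hB | hB
    · have : B = 0 ∨ B = 1 := by omega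
      rcases this with rfl | rfl
      · simp at h2 ⊢
        omega
      · rw [min_eq_right (by omega : 1 ≤ c)] at h2
        omega
    · have h3 : 2 ≤ min c B := le_min h1 hB
      have h4 : 2 * (B + 1) ≤ min c B * (B + 1) := Nat.mul_le_mul_right _ h3
      omega

theorem climb {f : ℕ → ℕ} {A P x y k r : ℕ} (hA : 1 ≤ A) (hmono : ∀ i, f i ≤ f (i + 1))
    (hstep : ∀ i, r ≤ i → i < r + k → x ≤ f i → f i < y → A * f i + P ≤ A * f (i + 1))
    (hx : x ≤ f r) (hk : A * y ≤ A * x + k * P) : y ≤ f (r + k) := by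
  by_contra hcon
  have hmono' : ∀ i j, i ≤ j → f i ≤ f j := fun i j h => monotone_nat_of_le_succ hmono h
  have key : ∀ j, j ≤ k → A * x + j * P ≤ A * f (r + j) := by
    intro j
    induction j with
    | zero => intro _; simpa using Nat.mul_le_mul_left A hx
    | succ j ih =>
      intro hj
      have h1 := ih (by omega)
      have h2 := hstep (r + j) (by omega) (by omega) (hx.trans (hmono' _ _ (by omega)))
        (lt_of_le_of_lt (hmono' (r + j) (r + k) (by omega)) (by omega))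
      have e : (j + 1) * P = j * P + P := by ring
      rw [← Nat.add_assoc]
      omega
  have h1 := key k le_rfl
  have h2 : A * f (r + k) < A * y := Nat.mul_lt_mul_of_pos_left (by omega) hA
  omega

/-- the quadratic tail of the thresholds -/
def XX (s : ℕ) : ℕ → ℕ
  | 0 => 0
  | c + 1 => XX s c + (c - s)

theorem XX_small {s : ℕ} : ∀ c, c ≤ s + 1 → XX s c = 0
  | 0, _ => rfl
  | c + 1, h => by
    show XX s c + (c - s) = 0
    rw [XX_small c (by omega)]
    omega

theorem XX_split {s f k : ℕ} (hk : k ≤ s + 1) : ∀ j, XX s (f + k) + XX s (k + j) ≤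
    XX s (f + (k + j))
  | 0 => by rw [Nat.add_zero, XX_small k hk]; omega
  | j + 1 => by
    have ih := XX_split (f := f) hk j
    show XX s (f + k) + (XX s (k + j) + (k + j - s)) ≤ XX s (f + (k + j)) + (f + (k + j) - s)
    omega

theorem XX_mono {s : ℕ} : ∀ c k, XX s c ≤ XX s (c + k)
  | _, 0 => le_rfl
  | c, k + 1 => (XX_mono c k).trans (Nat.le_add_right _ _)

def TT (A0 B c : ℕ) : ℕ := A0 * c + 1 + EE B c + XX (A0 + 2) c

theorem TT_one (A0 B : ℕ) : TT A0 B 1 = A0 + 1 := by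
  simp [TT, EE, XX]

theorem TT_succ (A0 B c : ℕ) : TT A0 B (c + 1) = TT A0 B c + (A0 + 4 * min c B + (c - (A0 + 2))) := by
  simp only [TT, EE, XX]
  ring

theorem TT_mono {A0 B : ℕ} : Monotone (TT A0 B) := by
  apply monotone_nat_of_le_succ
  intro c
  rw [TT_succ]
  exact Nat.le_add_right _ _

theorem TT_sep {A0 B c d : ℕ} (hB : 1 ≤ B) (hc : 1 ≤ c) (hd : 1 ≤ d) (hb : B + 1 ≤ c + d) :
    TT A0 B c + TT A0 B d + 2 * (2 * B - 1) ≤ TT A0 B (c + d) := by
  have h1 := EE_split' hc hd hb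
  have h2 := XX_split (s := A0 + 2) (f := c) (k := 0) (by omega) d
  simp only [Nat.add_zero, Nat.zero_add] at h2
  simp only [TT]
  have e : A0 * (c + d) = A0 * c + A0 * d := by ring
  omega

theorem TT_h1 {A0 B b : ℕ} (hb : B + 1 ≤ b) (hB : 1 ≤ B) :
    TT A0 B (b - 1) + b + 2 * (2 * B - 1) ≤ TT A0 B b + 1 := by
  obtain ⟨c, rfl⟩ := Nat.exists_eq_add_of_le' (show 1 ≤ b by omega)
  rw [Nat.add_sub_cancel, TT_succ, min_eq_right (by omega : B ≤ c)]
  omega

theorem TT_grow {A0 B b f f' : ℕ} (hB : 1 ≤ B) (hAB : B ≤ A0) (hb : B + 2 ≤ b) (hf : 1 ≤ f)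
    (hfb : f < b) (hff : f ≤ f') (hfb' : f' ≤ b)
    (h : TT A0 B b + 2 ≤ TT A0 B f' + TT A0 B (b - f) + (b + 2 * (2 * B - 1) - f)) :
    (A0 + 4 * B) * f + 2 * (min (min f (b - f)) B * (B + 1)) + 3 ≤
      (A0 + 4 * B) * f' + (b - f) + 4 * B := by
  obtain ⟨k, rfl⟩ := Nat.exists_eq_add_of_le hff
  obtain ⟨d, rfl⟩ := Nat.exists_eq_add_of_le hfb.le
  rw [Nat.add_sub_cancel_left] at h ⊢
  rcases Nat.lt_or_ge (A0 + 3) k with hk | hk
  · have h1 : min (min f d) B * (B + 1) ≤ B * (B + 1) :=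
      Nat.mul_le_mul_right _ (min_le_right _ _)
    have h2 : (A0 + 4 * B) * (A0 + 4) ≤ (A0 + 4 * B) * k := Nat.mul_le_mul_left _ hk
    have h3 : (B + 4 * B) * (B + 4) ≤ (A0 + 4 * B) * (A0 + 4) :=
      Nat.mul_le_mul (by omega) (by omega)
    nlinarith
  · obtain ⟨j, rfl⟩ := Nat.exists_eq_add_of_le (show k ≤ d by omega)
    have h1 := XX_split (s := A0 + 2) (f := f) (k := k) (by omega) j
    have h2 := EE_split (B := B) hf (show 1 ≤ k + j by omega) (by omega)
    have h3 := EE_mono (B := B) f k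
    simp only [TT] at h
    have e1 : A0 * (f + (k + j)) = A0 * f + A0 * (k + j) := by ring
    have e2 : A0 * (f + k) = A0 * f + A0 * k := by ring
    have e3 : (A0 + 4 * B) * (f + k) = (A0 + 4 * B) * f + A0 * k + 4 * (B * k) := by ring
    omega

end Vale.Agent.P048.L
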