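import Mathlib.Combinatorics.SimpleGraph.CycleGraph
import Mathlib.Combinatorics.SimpleGraph.Copy
import Mathlib.Order.Bounds.Basic

/-! P048: the pentagon, showing that the pair `(3, 3)` is exceptional. -/

namespace Vale.Agent.P048

open SimpleGraph

theorem pent_tri (a b c : Fin 5) (h1 : (cycleGraph 5).Adj a b) (h2 : (cycleGraph 5).Adj b c)
    (h3 : (cycleGraph 5).Adj a c) : False := by
  rw [cycleGraph_adj (n := 3)] at h1 h2 h3
  revert a b c
  decide

theorem pent_ind (a b c : Fin 5) (h1 : a ≠ b) (h2 : b ≠ c) (h3 : a ≠ c)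
    (n1 : ¬ (cycleGraph 5).Adj a b) (n2 : ¬ (cycleGraph 5).Adj b c)
    (n3 : ¬ (cycleGraph 5).Adj a c) : False := by
  rw [cycleGraph_adj (n := 3)] at n1 n2 n3
  revert a b c
  decide

theorem pent_not_least : ¬ IsLeast {N : ℕ | ∀ G : SimpleGraph (Fin N),
    (cycleGraph 3).IsContained G ∨ (⊤ : SimpleGraph (Fin 3)).IsContained Gᶜ}
      ((3 - 1) * (3 - 1) + 1) := by
  intro h
  have h1 : ∀ G : SimpleGraph (Fin 5),
    (cycleGraph 3).IsContained G ∨ (⊤ : SimpleGraph (Fin 3)).IsContained Gᶜ := h.1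
  rcases h1 (cycleGraph 5) with ⟨⟨f⟩⟩ | ⟨⟨f⟩⟩
  · have hadj : ∀ i j : Fin 3, i ≠ j → (cycleGraph 3).Adj i j := by
      intro i j hij
      rw [cycleGraph_adj (n := 1)]
      revert i j
      decide
    exact pent_tri (f.toHom 0) (f.toHom 1) (f.toHom 2)
      (f.toHom.map_adj (hadj 0 1 (by decide))) (f.toHom.map_adj (hadj 1 2 (by decide)))
      (f.toHom.map_adj (hadj 0 2 (by decide)))
  · have hadj : ∀ i j : Fin 3, i ≠ j → (cycleGraph 5)ᶜ.Adj (f.toHom i) (f.toHom j) := by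
      intro i j hij
      exact f.toHom.map_adj (by rw [top_adj]; exact hij)
    have e1 := hadj 0 1 (by decide)
    have e2 := hadj 1 2 (by decide)
    have e3 := hadj 0 2 (by decide)
    rw [compl_adj] at e1 e2 e3
    exact pent_ind _ _ _ e1.1 e2.1 e3.1 e1.2 e2.2 e3.2

end Vale.Agent.P048
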