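import Vale.Agent.P048.Big2

namespace Vale.Agent.P048.L

open Finset

variable {V : Type*} [DecidableEq V] {G : SimpleGraph V}

omit [DecidableEq V] in
theorem card_zero' {S : Finset V} (h : AlphaLe G S 0) : S = ∅ := by
  rw [← not_nonempty_iff_eq_empty]
  rintro ⟨x, hx⟩
  have := h {x} (singleton_subset_iff.2 hx) (by
    intro u hu v hv
    rw [mem_singleton] at hu hv
    rw [hu, hv]; exact G.loopless.irrefl _)
  rw [card_singleton] at this
  omega

/-- every subset of `X` has at most `k` times its independence number vertices -/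
def Bdd (G : SimpleGraph V) (k : ℕ) (X : Finset V) : Prop :=
  ∀ c S, S ⊆ X → AlphaLe G S c → S.card ≤ k * c

structure MinRich (G : SimpleGraph V) (k c : ℕ) (S : Finset V) : Prop where
  al : AlphaLe G S c
  card : k * c + 1 ≤ S.card
  min : ∀ c', c' < c → ∀ S', S' ⊆ S → AlphaLe G S' c' → S'.card ≤ k * c'

omit [DecidableEq V] in
theorem exists_minRich {k : ℕ} {X : Finset V} (h : ¬ Bdd G k X) :
    ∃ c S, S ⊆ X ∧ MinRich G k c S := by
  classical
  unfold Bdd at h
  push Not at h
  obtain ⟨S, hS, hS2, hS3⟩ := Nat.find_spec h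
  have hmin := fun c => @Nat.find_min _ _ h c
  refine ⟨Nat.find h, S, hS, hS2, hS3, ?_⟩
  intro c' hc' S' hS' hα
  by_contra hcon
  push Not at hcon
  exact hmin c' hc' ⟨S', hS'.trans hS, hα, hcon⟩

variable {k c : ℕ} {S : Finset V}

theorem MinRich.deg (h : MinRich G k c S) {v : V} (hv : v ∈ S) [DecidablePred (G.Adj v)] :
    k ≤ (S.filter (G.Adj v)).card := by
  have hc : c ≠ 0 := by
    rintro rfl
    rw [card_zero' h.al] at hv
    exact notMem_empty v hv
  set M := (S.filter (fun y => ¬ G.Adj v y)).erase v with hM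
  have hMa : AlphaLe G M (c - 1) := by
    intro s hs hi
    have hxs : v ∉ s := by
      intro h
      have := hs h
      rw [hM, mem_erase] at this
      exact this.1 rfl
    have h1 := h.al (insert v s) (insert_subset hv (by
      intro y hy
      have := hs hy
      rw [hM, mem_erase, mem_filter] at this
      exact this.2.1)) (ind_insert hi (by
      intro y hy
      have := hs hy
      rw [hM, mem_erase, mem_filter] at this
      exact this.2.2))
    rw [card_insert_of_notMem hxs] at h1
    omega
  have h2 := h.min (c - 1) (by omega) M (by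
    intro y hy
    rw [hM, mem_erase, mem_filter] at hy
    exact hy.2.1) hMa
  have h3 : (S.filter (fun y => ¬ G.Adj v y)).card = M.card + 1 := by
    rw [hM, card_erase_of_mem]
    · have : 0 < (S.filter (fun y => ¬ G.Adj v y)).card := by
        rw [card_pos]
        exact ⟨v, by rw [mem_filter]; exact ⟨hv, G.loopless.irrefl _⟩⟩
      omega
    · rw [mem_filter]; exact ⟨hv, G.loopless.irrefl _⟩
  have h4 := card_filter_add_card_filter_not (s := S) (G.Adj v)
  have h5 := h.card
  obtain ⟨d, rfl⟩ : ∃ d, c = d + 1 := ⟨c - 1, by omega⟩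
  rw [Nat.add_sub_cancel] at h2
  have e : k * (d + 1) = k * d + k := by ring
  omega

theorem MinRich.conn (h : MinRich G k c S) : Conn G S := by
  intro A hA hAne hcl
  by_contra hne
  have hB : (S \ A).Nonempty := by
    rw [sdiff_nonempty]
    intro h'
    exact hne (Subset.antisymm hA h')
  obtain ⟨p, q, hp, hq, hpq, hAp, hBq⟩ := alpha_split h.al hA sdiff_subset hAne hB disjoint_sdiff
    (by
      intro x hx y hy hxy
      rw [mem_sdiff] at hy
      exact hy.2 (hcl x hx y hy.1 hxy))
  have h1 := h.min p (by omega) A hA hAp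
  have h2 := h.min q (by omega) (S \ A) sdiff_subset hBq
  have h3 : (S \ A).card = S.card - A.card := card_sdiff_of_subset hA
  have h4 := card_le_card hA
  have h5 := h.card
  have e : k * c = k * p + k * q := by rw [← hpq]; ring
  omega

theorem MinRich.cut (h : MinRich G k c S) {v : V} (hv : v ∈ S) : Conn G (S.erase v) := by
  intro A hA hAne hcl
  by_contra hne
  have hB : (S.erase v \ A).Nonempty := by
    rw [sdiff_nonempty]
    intro h'
    exact hne (Subset.antisymm hA h')
  refine bc_nocut (G := G) (W := S) (a := c) (m := k + 1) (v := v) (A := A) (B := S.erase v \ A)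
    h.al h.card h.min (hA.trans (erase_subset _ _)) (sdiff_subset.trans (erase_subset _ _)) hAne hB
    disjoint_sdiff (fun hvA => (mem_erase.1 (hA hvA)).1 rfl)
    (fun hvB => (mem_erase.1 (mem_sdiff.1 hvB).1).1 rfl) ?_ ?_
  · intro x hx
    by_cases hxv : x = v
    · exact Or.inl hxv
    · by_cases hxA : x ∈ A
      · exact Or.inr (Or.inl hxA)
      · exact Or.inr (Or.inr (mem_sdiff.2 ⟨mem_erase.2 ⟨hxv, hx⟩, hxA⟩))
  · intro x hx y hy hxy
    rw [mem_sdiff] at hy
    exact hy.2 (hcl x hx y hy.1 hxy)

theorem MinRich.two_le (h : MinRich G k c S) (hcl : ∀ K, K ⊆ S → IsClq G K → K.card ≤ k) :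
    2 ≤ c := by
  by_contra hcon
  have h5 := h.card
  have : c = 0 ∨ c = 1 := by omega
  rcases this with rfl | rfl
  · rw [card_zero' h.al] at h5
    simp at h5
  · have := hcl S (Subset.refl _) (alpha_one h.al)
    omega

theorem MinRich.big (h : MinRich G k c S) (hc : 2 ≤ c) : 2 * k + 1 ≤ S.card := by
  have h5 := h.card
  have : k * 2 ≤ k * c := Nat.mul_le_mul_left _ hc
  omega

end Vale.Agent.P048.L
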