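import Vale.Agent.P048.S1
import Vale.Agent.P048.S2
import Vale.Agent.P048.S3

namespace Vale.Agent.P048

open Finset

variable {V : Type*} [DecidableEq V]

theorem upper_small {G : SimpleGraph V} {t m : ℕ} (h1 : 3 ≤ t) (h2 : t ≤ 996) (h3 : 2 * t ≤ m)
    (h4 : m ≤ 2 * t + 1) : ∀ a, a < t → ∀ W : Finset V, AlphaLe G W a →
    (m - 1) * a + 1 ≤ W.card → HasCyc G W m := by
  rcases Nat.lt_or_ge 4 t with g0 | g0
  swap
  · exact upS_3 h1 g0 h3 h4
  rcases Nat.lt_or_ge 6 t with g1 | g1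
  swap
  · exact upS_5 g0 g1 h3 h4
  rcases Nat.lt_or_ge 9 t with g2 | g2
  swap
  · exact upS_7 g1 g2 h3 h4
  rcases Nat.lt_or_ge 15 t with g3 | g3
  swap
  · exact upS_10 g2 g3 h3 h4
  rcases Nat.lt_or_ge 25 t with g4 | g4
  swap
  · exact upS_16 g3 g4 h3 h4
  rcases Nat.lt_or_ge 41 t with g5 | g5
  swap
  · exact upS_26 g4 g5 h3 h4
  rcases Nat.lt_or_ge 66 t with g6 | g6
  swap
  · exact upS_42 g5 g6 h3 h4
  rcases Nat.lt_or_ge 105 t with g7 | g7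
  swap
  · exact upS_67 g6 g7 h3 h4
  rcases Nat.lt_or_ge 167 t with g8 | g8
  swap
  · exact upS_106 g7 g8 h3 h4
  rcases Nat.lt_or_ge 265 t with g9 | g9
  swap
  · exact upS_168 g8 g9 h3 h4
  rcases Nat.lt_or_ge 420 t with g10 | g10
  swap
  · exact upS_266 g9 g10 h3 h4
  rcases Nat.lt_or_ge 665 t with g11 | g11
  swap
  · exact upS_421 g10 g11 h3 h4
  exact upS_666 g11 h2 h3 h4

end Vale.Agent.P048
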