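import Vale.Agent.P048.Km1

/-!
# P048: the cases `m = 4, 5, 6`
-/

namespace Vale.Agent.P048.L

open Finset

variable {V : Type*} [DecidableEq V] {G : SimpleGraph V} {W K : Finset V} {a m : ℕ}

/-! ### explicit short cycles and independent sets -/

omit [DecidableEq V] in
theorem sc4 (hno : ¬ HasCyc G W 4) {a b c d : V} (ha : a ∈ W) (hb : b ∈ W) (hc : c ∈ W)
    (hd : d ∈ W) (hab : G.Adj a b) (hbc : G.Adj b c) (hcd : G.Adj c d) (hda : G.Adj d a)
    (hac : a ≠ c) (hbd : b ≠ d) : False := by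
  apply hno
  refine ⟨[a, b, c, d], rfl, ⟨?_, ?_, ?_⟩, ?_⟩
  · simp only [List.nodup_cons, List.mem_cons, List.not_mem_nil, or_false, not_or,
      not_false_eq_true, List.nodup_nil, and_true]
    exact ⟨⟨hab.ne, hac, hda.ne.symm⟩, ⟨hbc.ne, hbd⟩, hcd.ne⟩
  · simp only [List.isChain_cons_cons, List.isChain_singleton, and_true]
    exact ⟨hab, hbc, hcd⟩
  · intro x hx y hy
    have h1 : x = d := by simpa using hx.symm
    have h2 : y = a := by simpa using hy.symm
    rw [h1, h2]; exact hda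
  · intro x hx
    simp only [List.mem_cons, List.not_mem_nil, or_false] at hx
    rcases hx with rfl | rfl | rfl | rfl <;> assumption

omit [DecidableEq V] in
theorem sc5 (hno : ¬ HasCyc G W 5) {a b c d e : V} (ha : a ∈ W) (hb : b ∈ W) (hc : c ∈ W)
    (hd : d ∈ W) (he : e ∈ W) (hab : G.Adj a b) (hbc : G.Adj b c) (hcd : G.Adj c d)
    (hde : G.Adj d e) (hea : G.Adj e a) (hac : a ≠ c) (had : a ≠ d) (hbd : b ≠ d) (hbe : b ≠ e)
    (hce : c ≠ e) : False := by
  apply hno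
  refine ⟨[a, b, c, d, e], rfl, ⟨?_, ?_, ?_⟩, ?_⟩
  · simp only [List.nodup_cons, List.mem_cons, List.not_mem_nil, or_false, not_or,
      not_false_eq_true, List.nodup_nil, and_true]
    exact ⟨⟨hab.ne, hac, had, hea.ne.symm⟩, ⟨hbc.ne, hbd, hbe⟩, ⟨hcd.ne, hce⟩, hde.ne⟩
  · simp only [List.isChain_cons_cons, List.isChain_singleton, and_true]
    exact ⟨hab, hbc, hcd, hde⟩
  · intro x hx y hy
    have h1 : x = e := by simpa using hx.symm
    have h2 : y = a := by simpa using hy.symm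
    rw [h1, h2]; exact hea
  · intro x hx
    simp only [List.mem_cons, List.not_mem_nil, or_false] at hx
    rcases hx with rfl | rfl | rfl | rfl | rfl <;> assumption

omit [DecidableEq V] in
theorem sc6 (hno : ¬ HasCyc G W 6) {a b c d e f : V} (ha : a ∈ W) (hb : b ∈ W) (hc : c ∈ W)
    (hd : d ∈ W) (he : e ∈ W) (hf : f ∈ W) (hab : G.Adj a b) (hbc : G.Adj b c) (hcd : G.Adj c d)
    (hde : G.Adj d e) (hef : G.Adj e f) (hfa : G.Adj f a) (hac : a ≠ c) (had : a ≠ d)
    (hae : a ≠ e) (hbd : b ≠ d) (hbe : b ≠ e) (hbf : b ≠ f) (hce : c ≠ e) (hcf : c ≠ f)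
    (hdf : d ≠ f) : False := by
  apply hno
  refine ⟨[a, b, c, d, e, f], rfl, ⟨?_, ?_, ?_⟩, ?_⟩
  · simp only [List.nodup_cons, List.mem_cons, List.not_mem_nil, or_false, not_or,
      not_false_eq_true, List.nodup_nil, and_true]
    exact ⟨⟨hab.ne, hac, had, hae, hfa.ne.symm⟩, ⟨hbc.ne, hbd, hbe, hbf⟩, ⟨hcd.ne, hce, hcf⟩,
      ⟨hde.ne, hdf⟩, hef.ne⟩
  · simp only [List.isChain_cons_cons, List.isChain_singleton, and_true]
    exact ⟨hab, hbc, hcd, hde, hef⟩
  · intro x hx y hy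
    have h1 : x = f := by simpa using hx.symm
    have h2 : y = a := by simpa using hy.symm
    rw [h1, h2]; exact hfa
  · intro x hx
    simp only [List.mem_cons, List.not_mem_nil, or_false] at hx
    rcases hx with rfl | rfl | rfl | rfl | rfl | rfl <;> assumption

theorem ind_toFinset : ∀ l : List V, l.Pairwise (fun x y => x ≠ y ∧ ¬ G.Adj x y) →
    Ind G l.toFinset
  | [], _ => fun x hx => absurd hx (by simp)
  | x :: l, h => by
    rw [List.pairwise_cons] at h
    rw [List.toFinset_cons]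
    exact ind_insert (ind_toFinset l h.2) (fun y hy => (h.1 y (List.mem_toFinset.1 hy)).2)

/-- explicit independent sets -/
theorem ind_list (hW : AlphaLe G W a) {l : List V}
    (hl : l.Pairwise (fun x y => x ≠ y ∧ ¬ G.Adj x y)) (hlW : ∀ x ∈ l, x ∈ W) :
    l.length ≤ a := by
  have hn : l.Nodup := hl.imp (fun h => h.1)
  rw [← List.toFinset_card_of_nodup hn]
  apply hW
  · intro x hx
    exact hlW x (List.mem_toFinset.1 hx)
  · exact ind_toFinset l hl

/-- removing the closed neighbourhood of an independent set -/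
theorem alpha_rem {S I0 R : Finset V} {c : ℕ} (hS : AlphaLe G S c) (hI : Ind G I0) (hIR : I0 ⊆ R)
    (hRS : R ⊆ S) (hcl : ∀ x ∈ I0, ∀ y ∈ S, G.Adj x y → y ∈ R) :
    AlphaLe G (S \ R) (c - I0.card) ∧ I0.card ≤ c := by
  refine ⟨?_, hS I0 (hIR.trans hRS) hI⟩
  intro T hT hTi
  have hd : Disjoint T I0 := by
    rw [disjoint_left]
    intro x hxT hxI
    exact (mem_sdiff.1 (hT hxT)).2 (hIR hxI)
  have hi : Ind G (T ∪ I0) := by
    intro x hx y hy
    rw [mem_union] at hx hy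
    rcases hx with hx | hx
    · rcases hy with hy | hy
      · exact hTi x hx y hy
      · intro h
        exact (mem_sdiff.1 (hT hx)).2 (hcl y hy x (mem_sdiff.1 (hT hx)).1 h.symm)
    · rcases hy with hy | hy
      · intro h
        exact (mem_sdiff.1 (hT hy)).2 (hcl x hx y (mem_sdiff.1 (hT hy)).1 h)
      · exact hI x hx y hy
  have h1 := hS (T ∪ I0) (union_subset (hT.trans sdiff_subset) (hIR.trans hRS)) hi
  rw [card_union_of_disjoint hd] at h1
  omega

/-- In a graph without triangles and paths on five vertices an independent set contains half of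
the vertices. -/
theorem p5k3 : ∀ (n : ℕ) (S : Finset V), S.card ≤ n →
    (∀ x ∈ S, ∀ y ∈ S, ∀ z ∈ S, G.Adj x y → G.Adj y z → ¬ G.Adj x z) →
    (∀ s ∈ S, ∀ v ∈ S, ∀ w ∈ S, ∀ u ∈ S, ∀ t ∈ S, G.Adj s v → G.Adj v w → G.Adj w u →
      G.Adj u t → s ≠ w → s ≠ u → s ≠ t → v ≠ u → v ≠ t → w ≠ t → False) →
    ∀ c, AlphaLe G S c → S.card ≤ 2 * c := by
  classical
  intro n
  induction n with
  | zero =>
    intro S hS _ _ c _
    omega
  | succ n ih =>
    intro S hS hT hP c hc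
    rcases S.eq_empty_or_nonempty with rfl | ⟨v, hv⟩
    · simp
    · -- a good set to remove
      have key : ∃ I0 R, I0 ⊆ R ∧ R ⊆ S ∧ I0.Nonempty ∧ Ind G I0 ∧
          (∀ x ∈ I0, ∀ y ∈ S, G.Adj x y → y ∈ R) ∧ R.card ≤ 2 * I0.card := by
        by_cases h2 : ∃ v ∈ S, ∃ w ∈ S, ∀ y ∈ S, G.Adj v y → y = w
        · obtain ⟨v, hv, w, hw, hvw⟩ := h2
          refine ⟨{v}, {v, w}, ?_, ?_, ⟨v, mem_singleton_self v⟩, ?_, ?_, ?_⟩
          · intro x hx
            rw [mem_singleton] at hx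
            rw [hx]; exact mem_insert_self _ _
          · intro x hx
            rw [mem_insert, mem_singleton] at hx
            rcases hx with rfl | rfl
            · exact hv
            · exact hw
          · intro x hx y hy
            rw [mem_singleton] at hx hy
            rw [hx, hy]; exact G.loopless.irrefl _
          · intro x hx y hy hxy
            rw [mem_singleton] at hx
            rw [hx] at hxy
            rw [hvw y hy hxy, mem_insert, mem_singleton]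
            exact Or.inr rfl
          · rw [card_singleton]
            exact card_le_two
        · push Not at h2
          -- minimum degree two
          obtain ⟨w, hw, hvw, -⟩ := h2 v hv v hv
          obtain ⟨u, hu, hwu, huv⟩ := h2 w hw v hv
          obtain ⟨t, ht, hut, htw⟩ := h2 u hu w hw
          have hvu : ¬ G.Adj v u := hT v hv w hw u hu hvw hwu
          have hvt : v ≠ t := by
            rintro rfl
            exact hvu hut.symm
          have hNv : ∀ s ∈ S, G.Adj v s → s = w ∨ s = t := by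
            intro s hs hvs
            by_contra hcon
            push Not at hcon
            exact hP s hs v hv w hw u hu t ht hvs.symm hvw hwu hut hcon.1
              (by
                rintro rfl
                exact hvu hvs) hcon.2 huv.symm hvt htw.symm
          have hvt' : G.Adj v t := by
            obtain ⟨s, hs, hvs, hsw⟩ := h2 v hv w hw
            rcases hNv s hs hvs with h | h
            · exact absurd h hsw
            · rw [← h]; exact hvs
          have hNu : ∀ s ∈ S, G.Adj u s → s = w ∨ s = t := by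
            intro s hs hus
            by_contra hcon
            push Not at hcon
            exact hP s hs u hu w hw v hv t ht hus.symm hwu.symm hvw.symm hvt' hcon.1
              (by
                rintro rfl
                exact hvu hus.symm) hcon.2 huv hut.ne htw.symm
          refine ⟨{v, u}, {v, u, w, t}, ?_, ?_, ⟨v, mem_insert_self _ _⟩, ?_, ?_, ?_⟩
          · intro x hx
            simp only [mem_insert, mem_singleton] at hx ⊢
            tauto
          · intro x hx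
            simp only [mem_insert, mem_singleton] at hx
            rcases hx with rfl | rfl | rfl | rfl <;> assumption
          · intro x hx y hy
            simp only [mem_insert, mem_singleton] at hx hy
            rcases hx with rfl | rfl
            · rcases hy with rfl | rfl
              · exact G.loopless.irrefl _
              · exact hvu
            · rcases hy with rfl | rfl
              · exact fun h => hvu h.symm
              · exact G.loopless.irrefl _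
          · intro x hx y hy hxy
            simp only [mem_insert, mem_singleton] at hx ⊢
            rcases hx with rfl | rfl
            · rcases hNv y hy hxy with h | h
              · exact Or.inr (Or.inr (Or.inl h))
              · exact Or.inr (Or.inr (Or.inr h))
            · rcases hNu y hy hxy with h | h
              · exact Or.inr (Or.inr (Or.inl h))
              · exact Or.inr (Or.inr (Or.inr h))
          · rw [card_pair huv.symm]
            exact card_le_four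
      obtain ⟨I0, R, h1, h2, h3, h4, h5, h6⟩ := key
      obtain ⟨h7, h8⟩ := alpha_rem hc h4 h1 h2 h5
      have h9 : (S \ R).card = S.card - R.card := card_sdiff_of_subset h2
      have h10 := h3.card_pos
      have h11 := card_le_card h1
      have h12 := card_le_card h2
      have h13 := ih (S \ R) (by omega)
        (fun x hx y hy z hz => hT x (mem_sdiff.1 hx).1 y (mem_sdiff.1 hy).1 z (mem_sdiff.1 hz).1)
        (fun s hs v hv w hw u hu t ht => hP s (mem_sdiff.1 hs).1 v (mem_sdiff.1 hv).1 w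
          (mem_sdiff.1 hw).1 u (mem_sdiff.1 hu).1 t (mem_sdiff.1 ht).1) _ h7
      omega

/-- neighbours inside `W` -/
theorem Env0.nbr (E : Env0 G W a m) (ha : 1 ≤ a) (hm : 1 ≤ m) {x : V} (hx : x ∈ W)
    {F : Finset V} (hF : F.card + 1 < m) : ∃ y ∈ W, G.Adj x y ∧ y ∉ F := by
  by_contra hcon
  push Not at hcon
  have h1 := E.deg ha hm hx (S := insert x F) (mem_insert_self _ _)
    (fun y hy hxy => mem_insert_of_mem (hcon y hy hxy))
  have h2 := card_insert_le x F
  omega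

/-! ### `m = 4` -/

theorem four (E : Env0 G W a 4) (ha : 1 ≤ a) (ha3 : a ≤ 3) : False := by
  classical
  have h4 := @sc4 V G W E.hno
  have hnb : ∀ x ∈ W, ∀ y z, ∃ w ∈ W, G.Adj x w ∧ w ≠ y ∧ w ≠ z := by
    intro x hx y z
    obtain ⟨w, hw, hxw, hwF⟩ := E.nbr ha (by omega) hx (F := {y, z}) (by
      have := card_le_two (a := y) (b := z)
      omega)
    rw [mem_insert, mem_singleton, not_or] at hwF
    exact ⟨w, hw, hxw, hwF.1, hwF.2⟩
  -- N1: neighbourhoods induce matchings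
  have N1 : ∀ x ∈ W, ∀ y ∈ W, ∀ y' ∈ W, ∀ y'' ∈ W, G.Adj x y → G.Adj x y' → G.Adj x y'' →
      G.Adj y y' → G.Adj y y'' → y' = y'' := by
    intro x hx y hy y' hy' y'' hy'' h1 h2 h3 h4' h5
    by_contra hne
    exact h4 hx hy' hy hy'' h2 h4'.symm h5 h3.symm h1.ne hne
  -- N2: codegree at most one
  have N2 : ∀ x ∈ W, ∀ z ∈ W, ∀ y ∈ W, ∀ y' ∈ W, G.Adj x y → G.Adj x y' → G.Adj z y → G.Adj z y' →
      x ≠ z → y = y' := by
    intro x hx z hz y hy y' hy' h1 h2 h3 h4' hxz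
    by_contra hne
    exact h4 hx hy hz hy' h1 h3.symm h4' h2.symm hxz hne
  -- private neighbours
  have priv : ∀ x ∈ W, ∀ y ∈ W, ∀ y' ∈ W, G.Adj x y → G.Adj x y' → G.Adj y y' →
      ∃ z ∈ W, G.Adj y' z ∧ z ≠ x ∧ z ≠ y ∧ ¬ G.Adj x z ∧
        ∀ y'' ∈ W, G.Adj x y'' → y'' ≠ y' → ¬ G.Adj z y'' := by
    intro x hx y hy y' hy' hxy hxy' hyy'
    obtain ⟨z, hz, hy'z, hzx, hzy⟩ := hnb y' hy' x y
    have hxz : ¬ G.Adj x z := by
      intro h
      exact hzy (N1 x hx y' hy' y hy z hz hxy' hxy h hyy'.symm hy'z).symm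
    refine ⟨z, hz, hy'z, hzx, hzy, hxz, ?_⟩
    intro y'' hy'' hxy'' hne h
    exact hne (N2 x hx z hz y'' hy'' y' hy' hxy'' hxy' h hy'z.symm hzx.symm)
  -- independent triples are full neighbourhoods
  have A : ∀ x ∈ W, ∀ y1 ∈ W, ∀ y2 ∈ W, ∀ y3 ∈ W, G.Adj x y1 → G.Adj x y2 → G.Adj x y3 →
      y1 ≠ y2 → y1 ≠ y3 → y2 ≠ y3 → ¬ G.Adj y1 y2 → ¬ G.Adj y1 y3 → ¬ G.Adj y2 y3 →
      ∀ y ∈ W, G.Adj x y → y = y1 ∨ y = y2 ∨ y = y3 := by
    intro x hx y1 h1 y2 h2 y3 h3 a1 a2 a3 d12 d13 d23 n12 n13 n23 y hy hxy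
    by_contra hcon
    push Not at hcon
    have hex : ∃ yi ∈ W, G.Adj x yi ∧ G.Adj yi y := by
      by_contra hc
      push Not at hc
      have := ind_list E.hW (l := [y, y1, y2, y3]) (by
        simp only [List.pairwise_cons, List.mem_cons, List.not_mem_nil, or_false,
          forall_eq_or_imp, forall_eq, List.Pairwise.nil, and_true, false_implies, implies_true]
        exact ⟨⟨⟨hcon.1, fun h => hc y1 h1 a1 h.symm⟩, ⟨hcon.2.1, fun h => hc y2 h2 a2 h.symm⟩,
          ⟨hcon.2.2, fun h => hc y3 h3 a3 h.symm⟩⟩, ⟨⟨d12, n12⟩, ⟨d13, n13⟩⟩, ⟨d23, n23⟩⟩) (by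
        intro w hw
        simp only [List.mem_cons, List.not_mem_nil, or_false] at hw
        rcases hw with rfl | rfl | rfl | rfl <;> assumption)
      simp only [List.length_cons, List.length_nil] at this
      omega
    obtain ⟨yi, hyi, hxyi, hyiy⟩ := hex
    obtain ⟨z, hz, hyz, hzx, hzyi, hxz, hzp⟩ := priv x hx yi hyi y hy hxyi hxy hyiy
    have := ind_list E.hW (l := [z, y1, y2, y3]) (by
      simp only [List.pairwise_cons, List.mem_cons, List.not_mem_nil, or_false,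
        forall_eq_or_imp, forall_eq, List.Pairwise.nil, and_true, false_implies, implies_true]
      refine ⟨⟨⟨?_, hzp y1 h1 a1 hcon.1.symm⟩, ⟨?_, hzp y2 h2 a2 hcon.2.1.symm⟩,
        ⟨?_, hzp y3 h3 a3 hcon.2.2.symm⟩⟩, ⟨⟨d12, n12⟩, ⟨d13, n13⟩⟩, ⟨d23, n23⟩⟩
      · rintro rfl; exact hxz a1
      · rintro rfl; exact hxz a2
      · rintro rfl; exact hxz a3) (by
      intro w hw
      simp only [List.mem_cons, List.not_mem_nil, or_false] at hw
      rcases hw with rfl | rfl | rfl | rfl <;> assumption)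
    simp only [List.length_cons, List.length_nil] at this
    omega
  -- independent triples in `W` when `a ≤ 2`, quadruples when `a ≤ 3`
  have i3 : a ≤ 2 → ∀ p ∈ W, ∀ q ∈ W, ∀ r ∈ W, p ≠ q → p ≠ r → q ≠ r → ¬ G.Adj p q →
      ¬ G.Adj p r → ¬ G.Adj q r → False := by
    intro ha2 p hp q hq r hr d1 d2 d3 n1 n2 n3
    have := ind_list E.hW (l := [p, q, r]) (by
      simp only [List.pairwise_cons, List.mem_cons, List.not_mem_nil, or_false,
        forall_eq_or_imp, forall_eq, List.Pairwise.nil, and_true, false_implies, implies_true]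
      exact ⟨⟨⟨d1, n1⟩, ⟨d2, n2⟩⟩, ⟨d3, n3⟩⟩) (by
      intro w hw
      simp only [List.mem_cons, List.not_mem_nil, or_false] at hw
      rcases hw with rfl | rfl | rfl <;> assumption)
    simp only [List.length_cons, List.length_nil] at this
    omega
  have i4 : ∀ p ∈ W, ∀ q ∈ W, ∀ r ∈ W, ∀ s ∈ W, p ≠ q → p ≠ r → p ≠ s → q ≠ r → q ≠ s → r ≠ s →
      ¬ G.Adj p q → ¬ G.Adj p r → ¬ G.Adj p s → ¬ G.Adj q r → ¬ G.Adj q s → ¬ G.Adj r s →
      False := by
    intro p hp q hq r hr s hs d1 d2 d3 d4 d5 d6 n1 n2 n3 n4 n5 n6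
    have := ind_list E.hW (l := [p, q, r, s]) (by
      simp only [List.pairwise_cons, List.mem_cons, List.not_mem_nil, or_false,
        forall_eq_or_imp, forall_eq, List.Pairwise.nil, and_true, false_implies, implies_true]
      exact ⟨⟨⟨d1, n1⟩, ⟨d2, n2⟩, ⟨d3, n3⟩⟩, ⟨⟨d4, n4⟩, ⟨d5, n5⟩⟩, ⟨d6, n6⟩⟩) (by
      intro w hw
      simp only [List.mem_cons, List.not_mem_nil, or_false] at hw
      rcases hw with rfl | rfl | rfl | rfl <;> assumption)
    simp only [List.length_cons, List.length_nil] at this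
    omega
  have hWne : W.Nonempty := card_pos.1 (by have := E.hcard; omega)
  rcases Nat.lt_or_ge 2 a with ha2 | ha2
  · -- `a = 3`
    have ha3' : a = 3 := by omega
    have hc10 : 10 ≤ W.card := by
      have := E.hcard
      rw [ha3'] at this
      omega
    -- picking vertices outside small sets
    have pick : ∀ F : List V, F.length ≤ 9 → ∃ r ∈ W, r ∉ F := by
      intro F hF
      by_contra hcon
      push Not at hcon
      have h1 := card_le_card (show W ⊆ F.toFinset from fun x hx => List.mem_toFinset.2 (hcon x hx))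
      have h2 := List.toFinset_card_le F
      omega
    -- B: no `2K_2` in a neighbourhood
    have B : ∀ x ∈ W, ∀ p ∈ W, ∀ p' ∈ W, ∀ q ∈ W, ∀ q' ∈ W, G.Adj x p → G.Adj x p' →
        G.Adj x q → G.Adj x q' → G.Adj p p' → G.Adj q q' → p ≠ q → p ≠ q' → p' ≠ q → p' ≠ q' →
        False := by
      intro x hx p hp p' hp' q hq q' hq' ap ap' aq aq' hpp hqq d1 d2 d3 d4
      have n1 : ¬ G.Adj p q := fun h => d3 (N1 x hx p hp p' hp' q hq ap ap' aq hpp h)
      have n2 : ¬ G.Adj p q' := fun h => d4 (N1 x hx p hp p' hp' q' hq' ap ap' aq' hpp h)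
      have n3 : ¬ G.Adj p' q := fun h => d1 (N1 x hx p' hp' p hp q hq ap' ap aq hpp.symm h)
      have n4 : ¬ G.Adj p' q' := fun h => d2 (N1 x hx p' hp' p hp q' hq' ap' ap aq' hpp.symm h)
      obtain ⟨z1, hz1, e1, f1, g1, x1, k1⟩ := priv x hx p' hp' p hp ap' ap hpp.symm
      obtain ⟨z2, hz2, e2, f2, g2, x2, k2⟩ := priv x hx p hp p' hp' ap ap' hpp
      obtain ⟨z3, hz3, e3, f3, g3, x3, k3⟩ := priv x hx q' hq' q hq aq' aq hqq.symm
      obtain ⟨z4, hz4, e4, f4, g4, x4, k4⟩ := priv x hx q hq q' hq' aq aq' hqq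
      have m1 : ∀ y z, G.Adj x y → ¬ G.Adj x z → y ≠ z := by
        rintro y z h1 h2 rfl
        exact h2 h1
      have d12 : z1 ≠ z2 := by
        rintro rfl
        exact k1 p' hp' ap' hpp.ne.symm e2.symm
      have d34 : z3 ≠ z4 := by
        rintro rfl
        exact k3 q' hq' aq' hqq.ne.symm e4.symm
      have d13 : z1 ≠ z3 := by
        rintro rfl
        exact k1 q hq aq d1.symm e3.symm
      have d14 : z1 ≠ z4 := by
        rintro rfl
        exact k1 q' hq' aq' d2.symm e4.symm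
      have d23 : z2 ≠ z3 := by
        rintro rfl
        exact k2 q hq aq d3.symm e3.symm
      have d24 : z2 ≠ z4 := by
        rintro rfl
        exact k2 q' hq' aq' d4.symm e4.symm
      -- `z2 z4` with `p q`
      have c24 : G.Adj z2 z4 := by
        by_contra hn
        exact i4 p hp q hq z2 hz2 z4 hz4 d1 (m1 p z2 ap x2) (m1 p z4 ap x4) (m1 q z2 aq x2)
          (m1 q z4 aq x4) d24 n1 (fun h => k2 p hp ap hpp.ne h.symm)
          (fun h => k4 p hp ap d2 h.symm) (fun h => k2 q hq aq d3.symm h.symm)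
          (fun h => k4 q hq aq hqq.ne h.symm) hn
      have c13 : G.Adj z1 z3 := by
        by_contra hn
        exact i4 p' hp' q' hq' z1 hz1 z3 hz3 d4 (m1 p' z1 ap' x1) (m1 p' z3 ap' x3)
          (m1 q' z1 aq' x1) (m1 q' z3 aq' x3) d13 n4 (fun h => k1 p' hp' ap' hpp.ne.symm h.symm)
          (fun h => k3 p' hp' ap' d3 h.symm) (fun h => k1 q' hq' aq' d2.symm h.symm)
          (fun h => k3 q' hq' aq' hqq.ne.symm h.symm) hn
      have c23 : G.Adj z2 z3 := by
        by_contra hn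
        exact i4 p hp q' hq' z2 hz2 z3 hz3 d2 (m1 p z2 ap x2) (m1 p z3 ap x3)
          (m1 q' z2 aq' x2) (m1 q' z3 aq' x3) d23 n2 (fun h => k2 p hp ap hpp.ne h.symm)
          (fun h => k3 p hp ap d1 h.symm) (fun h => k2 q' hq' aq' d4.symm h.symm)
          (fun h => k3 q' hq' aq' hqq.ne.symm h.symm) hn
      have c14 : G.Adj z1 z4 := by
        by_contra hn
        exact i4 p' hp' q hq z1 hz1 z4 hz4 d3 (m1 p' z1 ap' x1) (m1 p' z4 ap' x4)
          (m1 q z1 aq x1) (m1 q z4 aq x4) d14 n3 (fun h => k1 p' hp' ap' hpp.ne.symm h.symm)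
          (fun h => k4 p' hp' ap' d4 h.symm) (fun h => k1 q hq aq d1.symm h.symm)
          (fun h => k4 q hq aq hqq.ne h.symm) hn
      exact h4 hz1 hz3 hz2 hz4 c13 c23.symm c24 c14.symm d12 d34
    -- C: degree at most three
    have C : ∀ x ∈ W, ∀ y1 ∈ W, ∀ y2 ∈ W, ∀ y3 ∈ W, G.Adj x y1 → G.Adj x y2 → G.Adj x y3 →
        y1 ≠ y2 → y1 ≠ y3 → y2 ≠ y3 → ∀ y ∈ W, G.Adj x y → y = y1 ∨ y = y2 ∨ y = y3 := by
      intro x hx y1 h1 y2 h2 y3 h3 a1 a2 a3 d12 d13 d23 y hy hxy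
      by_contra hcon
      push Not at hcon
      obtain ⟨e1, e2, e3⟩ := hcon
      by_cases n12 : G.Adj y1 y2
      · by_cases n : G.Adj y3 y
        · exact B x hx y1 h1 y2 h2 y3 h3 y hy a1 a2 a3 hxy n12 n d13 e1.symm d23 e2.symm
        · have n13 : ¬ G.Adj y1 y3 := fun h => d23 (N1 x hx y1 h1 y2 h2 y3 h3 a1 a2 a3 n12 h)
          have n1y : ¬ G.Adj y1 y := fun h => e2 (N1 x hx y1 h1 y2 h2 y hy a1 a2 hxy n12 h).symm
          rcases A x hx y1 h1 y3 h3 y hy a1 a3 hxy d13 e1.symm e3.symm n13 n1y n y2 h2 a2 with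
            h | h | h
          · exact d12 h.symm
          · exact d23 h
          · exact e2 h.symm
      · by_cases n13 : G.Adj y1 y3
        · by_cases n : G.Adj y2 y
          · exact B x hx y1 h1 y3 h3 y2 h2 y hy a1 a3 a2 hxy n13 n d12 e1.symm d23.symm e3.symm
          · have n1y : ¬ G.Adj y1 y := fun h => e3 (N1 x hx y1 h1 y3 h3 y hy a1 a3 hxy n13 h).symm
            rcases A x hx y1 h1 y2 h2 y hy a1 a2 hxy d12 e1.symm e2.symm n12 n1y n y3 h3 a3 with
              h | h | h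
            · exact d13 h.symm
            · exact d23 h.symm
            · exact e3 h.symm
        · by_cases n23 : G.Adj y2 y3
          · by_cases n : G.Adj y1 y
            · exact B x hx y2 h2 y3 h3 y1 h1 y hy a2 a3 a1 hxy n23 n d12.symm e2.symm d13.symm
                e3.symm
            · have n2y : ¬ G.Adj y2 y := fun h =>
                e3 (N1 x hx y2 h2 y3 h3 y hy a2 a3 hxy n23 h).symm
              rcases A x hx y1 h1 y2 h2 y hy a1 a2 hxy d12 e1.symm e2.symm n12 n n2y y3 h3 a3 with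
                h | h | h
              · exact d13 h.symm
              · exact d23 h.symm
              · exact e3 h.symm
          · rcases A x hx y1 h1 y2 h2 y3 h3 a1 a2 a3 d12 d13 d23 n12 n13 n23 y hy hxy with
              h | h | h
            · exact e1 h
            · exact e2 h
            · exact e3 h
    -- D: no triangle
    have D : ∀ x ∈ W, ∀ p ∈ W, ∀ p' ∈ W, G.Adj x p → G.Adj x p' → G.Adj p p' → False := by
      intro x hx p hp p' hp' ap ap' hpp
      obtain ⟨q, hq, aq, hqp, hqp'⟩ := hnb x hx p p'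
      obtain ⟨z1, hz1, e1, f1, g1, x1, k1⟩ := priv x hx p' hp' p hp ap' ap hpp.symm
      obtain ⟨z2, hz2, e2, f2, g2, x2, k2⟩ := priv x hx p hp p' hp' ap ap' hpp
      obtain ⟨b1, hb1, ab1, c1, -⟩ := hnb q hq x x
      obtain ⟨b2, hb2, ab2, c2, c12⟩ := hnb q hq x b1
      have n1 : ¬ G.Adj p q := fun h => hqp' (N1 x hx p hp p' hp' q hq ap ap' aq hpp h).symm
      have n2 : ¬ G.Adj p' q := fun h => hqp (N1 x hx p' hp' p hp q hq ap' ap aq hpp.symm h).symm
      have Np : ∀ y ∈ W, G.Adj p y → y = x ∨ y = p' ∨ y = z1 :=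
        C p hp x hx p' hp' z1 hz1 ap.symm hpp e1 ap'.ne f1.symm g1.symm
      have Np' : ∀ y ∈ W, G.Adj p' y → y = x ∨ y = p ∨ y = z2 :=
        C p' hp' x hx p hp z2 hz2 ap'.symm hpp.symm e2 ap.ne f2.symm g2.symm
      have Nq : ∀ y ∈ W, G.Adj q y → y = x ∨ y = b1 ∨ y = b2 :=
        C q hq x hx b1 hb1 b2 hb2 aq.symm ab1 ab2 c1.symm c2.symm c12.symm
      have d12 : z1 ≠ z2 := by
        rintro rfl
        exact k1 p' hp' ap' hpp.ne.symm e2.symm
      have m1 : ∀ y z, G.Adj x y → ¬ G.Adj x z → y ≠ z := by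
        rintro y z h1 h2 rfl
        exact h2 h1
      have hr : ∀ r ∈ W, r ∉ [x, p, p', q, z1, z2, b1, b2] → G.Adj r z1 ∧ G.Adj r z2 := by
        intro r hr hrF
        simp only [List.mem_cons, List.not_mem_nil, or_false, not_or] at hrF
        obtain ⟨r1, r2, r3, r4, r5, r6, r7, r8⟩ := hrF
        have nrp : ¬ G.Adj p r := by
          intro h
          rcases Np r hr h with h | h | h
          · exact r1 h
          · exact r3 h
          · exact r5 h
        have nrp' : ¬ G.Adj p' r := by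
          intro h
          rcases Np' r hr h with h | h | h
          · exact r1 h
          · exact r2 h
          · exact r6 h
        have nrq : ¬ G.Adj q r := by
          intro h
          rcases Nq r hr h with h | h | h
          · exact r1 h
          · exact r7 h
          · exact r8 h
        constructor
        · by_contra hn
          exact i4 p' hp' q hq z1 hz1 r hr hqp'.symm (m1 p' z1 ap' x1) (Ne.symm r3)
            (m1 q z1 aq x1) (Ne.symm r4) (Ne.symm r5) n2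
            (fun h => k1 p' hp' ap' hpp.ne.symm h.symm) nrp'
            (fun h => k1 q hq aq hqp h.symm) nrq (fun h => hn h.symm)
        · by_contra hn
          exact i4 p hp q hq z2 hz2 r hr hqp.symm (m1 p z2 ap x2) (Ne.symm r2)
            (m1 q z2 aq x2) (Ne.symm r4) (Ne.symm r6) n1
            (fun h => k2 p hp ap hpp.ne h.symm) nrp
            (fun h => k2 q hq aq hqp' h.symm) nrq (fun h => hn h.symm)
      obtain ⟨r1, hr1, hr1F⟩ := pick [x, p, p', q, z1, z2, b1, b2] (by simp)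
      obtain ⟨r2, hr2, hr2F⟩ := pick [r1, x, p, p', q, z1, z2, b1, b2] (by simp)
      rw [List.mem_cons, not_or] at hr2F
      obtain ⟨s1, s2⟩ := hr r1 hr1 hr1F
      obtain ⟨s3, s4⟩ := hr r2 hr2 hr2F.2
      exact h4 hr1 hz1 hr2 hz2 s1 s3.symm s4 s2.symm (Ne.symm hr2F.1) d12
    -- E: the final contradiction
    obtain ⟨x, hx⟩ := hWne
    obtain ⟨y1, h1, a1, -, -⟩ := hnb x hx x x
    obtain ⟨y2, h2, a2, d21, -⟩ := hnb x hx y1 y1
    obtain ⟨y3, h3, a3, d31, d32⟩ := hnb x hx y1 y2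
    have Nx := C x hx y1 h1 y2 h2 y3 h3 a1 a2 a3 d21.symm d31.symm d32.symm
    obtain ⟨v, hv, hvF⟩ := pick [x, y1, y2, y3] (by simp)
    simp only [List.mem_cons, List.not_mem_nil, or_false, not_or] at hvF
    obtain ⟨vx, vy1, vy2, vy3⟩ := hvF
    have nxv : ¬ G.Adj x v := by
      intro h
      rcases Nx v hv h with h | h | h
      · exact vy1 h
      · exact vy2 h
      · exact vy3 h
    have hex : ∃ v1 ∈ W, G.Adj v v1 ∧ G.Adj x v1 := by
      by_contra hcon
      push Not at hcon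
      obtain ⟨v1, hv1, b1, -, -⟩ := hnb v hv v v
      obtain ⟨v2, hv2, b2, c21, -⟩ := hnb v hv v1 v1
      obtain ⟨v3, hv3, b3, c31, c32⟩ := hnb v hv v1 v2
      have hxne : ∀ w, G.Adj v w → x ≠ w := by
        rintro w hw rfl
        exact nxv hw.symm
      exact i4 x hx v1 hv1 v2 hv2 v3 hv3 (hxne v1 b1) (hxne v2 b2) (hxne v3 b3) c21.symm c31.symm
        c32.symm (hcon v1 hv1 b1) (hcon v2 hv2 b2) (hcon v3 hv3 b3)
        (fun h => D v hv v1 hv1 v2 hv2 b1 b2 h) (fun h => D v hv v1 hv1 v3 hv3 b1 b3 h)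
        (fun h => D v hv v2 hv2 v3 hv3 b2 b3 h)
    obtain ⟨v1, hv1, b1, x1⟩ := hex
    obtain ⟨v2, hv2, b2, c21, -⟩ := hnb v hv v1 v1
    obtain ⟨v3, hv3, b3, c31, c32⟩ := hnb v hv v1 v2
    have Nv := C v hv v1 hv1 v2 hv2 v3 hv3 b1 b2 b3 c21.symm c31.symm c32.symm
    have hout : ∀ r ∈ W, r ∉ [x, y1, y2, y3, v, v2, v3] → r ≠ x ∧ r ≠ v ∧ ¬ G.Adj x r ∧
        ¬ G.Adj v r := by
      intro r hr hrF
      simp only [List.mem_cons, List.not_mem_nil, or_false, not_or] at hrF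
      obtain ⟨r1, r2, r3, r4, r5, r6, r7⟩ := hrF
      have hxr : ¬ G.Adj x r := by
        intro h
        rcases Nx r hr h with h | h | h
        · exact r2 h
        · exact r3 h
        · exact r4 h
      refine ⟨r1, r5, hxr, ?_⟩
      intro h
      rcases Nv r hr h with h | h | h
      · rw [h] at hxr
        exact hxr x1
      · exact r6 h
      · exact r7 h
    obtain ⟨u1, hu1, hu1F⟩ := pick [x, y1, y2, y3, v, v2, v3] (by simp)
    obtain ⟨u2, hu2, hu2F⟩ := pick [u1, x, y1, y2, y3, v, v2, v3] (by simp)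
    obtain ⟨u3, hu3, hu3F⟩ := pick [u1, u2, x, y1, y2, y3, v, v2, v3] (by simp)
    rw [List.mem_cons, not_or] at hu2F
    rw [List.mem_cons, not_or, List.mem_cons, not_or] at hu3F
    obtain ⟨e1, e2, e3, e4⟩ := hout u1 hu1 hu1F
    obtain ⟨f1, f2, f3, f4⟩ := hout u2 hu2 hu2F.2
    obtain ⟨g1, g2, g3, g4⟩ := hout u3 hu3 hu3F.2.2
    have pair : ∀ u ∈ W, ∀ u' ∈ W, u ≠ u' → u ≠ x → u ≠ v → ¬ G.Adj x u → ¬ G.Adj v u →
        u' ≠ x → u' ≠ v → ¬ G.Adj x u' → ¬ G.Adj v u' → G.Adj u u' := by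
      intro u hu u' hu' hne p1 p2 p3 p4 q1 q2 q3 q4
      by_contra hn
      exact i4 x hx v hv u hu u' hu' (Ne.symm vx) p1.symm q1.symm p2.symm q2.symm hne nxv p3 q3 p4
        q4 hn
    exact D u1 hu1 u2 hu2 u3 hu3
      (pair u1 hu1 u2 hu2 (Ne.symm hu2F.1) e1 e2 e3 e4 f1 f2 f3 f4)
      (pair u1 hu1 u3 hu3 (Ne.symm hu3F.1) e1 e2 e3 e4 g1 g2 g3 g4)
      (pair u2 hu2 u3 hu3 (Ne.symm hu3F.2.1) f1 f2 f3 f4 g1 g2 g3 g4)
  · -- `a ≤ 2`
    have T : ∀ x ∈ W, ∀ u ∈ W, ∀ v ∈ W, ∀ w ∈ W, G.Adj x u → G.Adj x v → G.Adj x w → u ≠ v →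
        u ≠ w → v ≠ w → ¬ G.Adj u v → False := by
      intro x hx u hu v hv w hw au av aw d1 d2 d3 nuv
      by_cases h1 : G.Adj u w
      · obtain ⟨z, hz, e1, f1, g1, x1, k1⟩ := priv x hx u hu w hw au aw h1
        exact i3 ha2 z hz u hu v hv (by rintro rfl; exact x1 au) (by rintro rfl; exact x1 av) d1
          (k1 u hu au d2) (k1 v hv av d3) nuv
      · by_cases h2 : G.Adj v w
        · obtain ⟨z, hz, e1, f1, g1, x1, k1⟩ := priv x hx v hv w hw av aw h2
          exact i3 ha2 z hz u hu v hv (by rintro rfl; exact x1 au) (by rintro rfl; exact x1 av) d1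
            (k1 u hu au d2) (k1 v hv av d3) nuv
        · exact i3 ha2 u hu v hv w hw d1 d2 d3 nuv h1 h2
    obtain ⟨x, hx⟩ := hWne
    obtain ⟨y1, h1, a1, -, -⟩ := hnb x hx x x
    obtain ⟨y2, h2, a2, d21, -⟩ := hnb x hx y1 y1
    obtain ⟨y3, h3, a3, d31, d32⟩ := hnb x hx y1 y2
    by_cases n12 : G.Adj y1 y2
    · exact T x hx y1 h1 y3 h3 y2 h2 a1 a3 a2 d31.symm d21.symm d32
        (fun h => d32 (N1 x hx y1 h1 y3 h3 y2 h2 a1 a3 a2 h n12))
    · exact T x hx y1 h1 y2 h2 y3 h3 a1 a2 a3 d21.symm d31.symm d32.symm n12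

/-! ### `m = 5` -/

theorem card_four_clq {x1 x2 x3 x4 : V} (h12 : G.Adj x1 x2) (h13 : G.Adj x1 x3)
    (h14 : G.Adj x1 x4) (h23 : G.Adj x2 x3) (h24 : G.Adj x2 x4) (h34 : G.Adj x3 x4) :
    IsClq G ({x1, x2, x3, x4} : Finset V) ∧ ({x1, x2, x3, x4} : Finset V).card = 4 := by
  constructor
  · intro x hx y hy hxy
    simp only [mem_insert, mem_singleton] at hx hy
    rcases hx with rfl | rfl | rfl | rfl <;> rcases hy with rfl | rfl | rfl | rfl <;>
      first
        | exact absurd rfl hxy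
        | assumption
        | (apply SimpleGraph.Adj.symm; assumption)
  · rw [card_insert_of_notMem, card_insert_of_notMem, card_insert_of_notMem, card_singleton]
    · rw [mem_singleton]; exact h34.ne
    · simp only [mem_insert, mem_singleton, not_or]; exact ⟨h23.ne, h24.ne⟩
    · simp only [mem_insert, mem_singleton, not_or]; exact ⟨h12.ne, h13.ne, h14.ne⟩

/-- second level: if `J` is an independent subset of `N(x)` then
`(m-2) |J| ≤ |N(J) \ ({x} ∪ J)|`. -/
theorem second_level (E : Env0 G W a m) (hm : 2 ≤ m) {x : V} (hx : x ∈ W) {J : Finset V}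
    (hJ : J ⊆ W) (hJi : Ind G J) (hJ1 : 1 ≤ J.card) (hJx : ∀ y ∈ J, G.Adj x y)
    [DecidablePred fun z => z ≠ x ∧ z ∉ J ∧ ∃ y ∈ J, G.Adj y z] :
    (m - 2) * J.card ≤ (W.filter (fun z => z ≠ x ∧ z ∉ J ∧ ∃ y ∈ J, G.Adj y z)).card := by
  have h1 := E.exp (J := J)
    (X := insert x (J ∪ W.filter (fun z => z ≠ x ∧ z ∉ J ∧ ∃ y ∈ J, G.Adj y z))) hJ hJi hJ1
    (by
      intro y hy
      rw [mem_insert, mem_union]
      exact Or.inr (Or.inl hy))
    (by
      intro y hy z hz hyz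
      rw [mem_insert, mem_union, mem_filter]
      by_cases h1 : z = x
      · exact Or.inl h1
      · by_cases h2 : z ∈ J
        · exact Or.inr (Or.inl h2)
        · exact Or.inr (Or.inr ⟨hz, h1, h2, y, hy, hyz⟩))
  have h2 := card_insert_le x (J ∪ W.filter (fun z => z ≠ x ∧ z ∉ J ∧ ∃ y ∈ J, G.Adj y z))
  have h3 := card_union_le J (W.filter (fun z => z ≠ x ∧ z ∉ J ∧ ∃ y ∈ J, G.Adj y z))
  obtain ⟨k, rfl⟩ : ∃ k, m = k + 2 := ⟨m - 2, by omega⟩
  have e1 : k + 2 - 1 = k + 1 := by omega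
  have e2 : k + 2 - 2 = k := by omega
  rw [e1] at h1
  rw [e2]
  have e3 : (k + 1) * J.card = k * J.card + J.card := by ring
  omega

theorem five (E : Env0 G W a 5) (ha : 1 ≤ a) (ha4 : a ≤ 4) : False := by
  classical
  have h5 := @sc5 V G W E.hno
  have noK4 : ∀ x1 ∈ W, ∀ x2 ∈ W, ∀ x3 ∈ W, ∀ x4 ∈ W, G.Adj x1 x2 → G.Adj x1 x3 → G.Adj x1 x4 →
      G.Adj x2 x3 → G.Adj x2 x4 → G.Adj x3 x4 → False := by
    intro x1 h1 x2 h2 x3 h3 x4 h4 h12 h13 h14 h23 h24 h34
    obtain ⟨c1, c2⟩ := card_four_clq h12 h13 h14 h23 h24 h34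
    refine km1 E (by omega) (by omega) c1 ?_ (by omega)
    intro x hx
    simp only [mem_insert, mem_singleton] at hx
    rcases hx with rfl | rfl | rfl | rfl <;> assumption
  -- neighbourhoods have no independent triple
  have al2 : ∀ x ∈ W, AlphaLe G (W.filter (G.Adj x)) 2 := by
    intro x hx I hI hIi
    by_contra hcon
    obtain ⟨J, hJ1, hJ2⟩ := exists_subset_card_eq (show 3 ≤ I.card by omega)
    have hJW : J ⊆ W := (hJ1.trans hI).trans (filter_subset _ _)
    have hJx : ∀ y ∈ J, G.Adj x y := fun y hy => (mem_filter.1 (hI (hJ1 hy))).2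
    have h1 := second_level E (by omega) hx hJW (hIi.mono hJ1) (by omega) hJx
    rw [hJ2] at h1
    set X := W.filter (fun z => z ≠ x ∧ z ∉ J ∧ ∃ y ∈ J, G.Adj y z) with hX
    have hXm : ∀ z ∈ X, z ∈ W ∧ z ≠ x ∧ z ∉ J ∧ ∃ y ∈ J, G.Adj y z := by
      intro z hz
      rw [hX, mem_filter] at hz
      exact hz
    -- adjacent vertices have the same parent
    have hpar : ∀ z ∈ X, ∀ z' ∈ X, G.Adj z z' → ∀ y ∈ J, ∀ y' ∈ J, G.Adj y z → G.Adj y' z' →
        y = y' := by
      intro z hz z' hz' hzz y hy y' hy' hyz hyz'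
      by_contra hne
      obtain ⟨zW, zx, zJ, -⟩ := hXm z hz
      obtain ⟨zW', zx', zJ', -⟩ := hXm z' hz'
      exact h5 hx (hJW hy) zW zW' (hJW hy') (hJx y hy) hyz hzz hyz'.symm (hJx y' hy').symm
        zx.symm zx'.symm (fun h => zJ' (h ▸ hy)) hne (fun h => zJ (h ▸ hy'))
    have hXc := p5k3 X.card X le_rfl
      (by
        intro p hp q hq r hr hpq hqr hpr
        obtain ⟨pW, -, -, y, hy, hyp⟩ := hXm p hp
        obtain ⟨qW, -, -, y', hy', hyq⟩ := hXm q hq
        obtain ⟨rW, -, -, y'', hy'', hyr⟩ := hXm r hr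
        have e1 := hpar p hp q hq hpq y hy y' hy' hyp hyq
        have e2 := hpar p hp r hr hpr y hy y'' hy'' hyp hyr
        rw [← e1] at hyq
        rw [← e2] at hyr
        exact noK4 y (hJW hy) p pW q qW r rW hyp hyq hyr hpq hpr hqr)
      (by
        intro s hs v hv w hw u hu t ht hsv hvw hwu hut d1 d2 d3 d4 d5 d6
        obtain ⟨sW, -, -, y1, hy1, b1⟩ := hXm s hs
        obtain ⟨vW, -, vJ, y2, hy2, b2⟩ := hXm v hv
        obtain ⟨wW, -, wJ, y3, hy3, b3⟩ := hXm w hw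
        obtain ⟨uW, -, -, y4, hy4, b4⟩ := hXm u hu
        have e1 := hpar s hs v hv hsv y1 hy1 y2 hy2 b1 b2
        have e2 := hpar v hv w hw hvw y2 hy2 y3 hy3 b2 b3
        have e3 := hpar w hw u hu hwu y3 hy3 y4 hy4 b3 b4
        rw [← e3, ← e2, ← e1] at b4
        exact h5 (hJW hy1) sW vW wW uW b1 hsv hvw hwu b4.symm (fun h => vJ (h ▸ hy1))
          (fun h => wJ (h ▸ hy1)) d1 d2 d4) a (E.hW.mono (filter_subset _ _) le_rfl)
    omega
  -- neighbourhoods have four elements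
  have hN : ∀ x ∈ W, (W.filter (G.Adj x)).card = 4 := by
    intro x hx
    have h1 := E.deg ha (by omega) hx (S := insert x (W.filter (G.Adj x))) (mem_insert_self _ _)
      (fun y hy hxy => mem_insert_of_mem (mem_filter.2 ⟨hy, hxy⟩))
    have h2 := card_insert_le x (W.filter (G.Adj x))
    have h3 := p5k3 _ (W.filter (G.Adj x)) le_rfl
      (by
        intro p hp q hq r hr hpq hqr hpr
        rw [mem_filter] at hp hq hr
        exact noK4 x hx p hp.1 q hq.1 r hr.1 hp.2 hq.2 hr.2 hpq hpr hqr)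
      (by
        intro s hs v hv w hw u hu t ht hsv hvw hwu hut d1 d2 d3 d4 d5 d6
        rw [mem_filter] at hs hv hw hu
        exact h5 hx hs.1 hv.1 hw.1 hu.1 hs.2 hsv hvw hwu hu.2.symm hv.2.ne hw.2.ne d1 d2 d4)
      2 (al2 x hx)
    omega
  -- every vertex of a neighbourhood has exactly one neighbour there
  have one : ∀ x ∈ W, ∀ y ∈ W, G.Adj x y → ∃ y' ∈ W, G.Adj x y' ∧ G.Adj y y' ∧
      ∀ y'' ∈ W, G.Adj x y'' → G.Adj y y'' → y'' = y' := by
    intro x hx y hy hxy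
    have hNx := hN x hx
    have hex : ∃ y' ∈ W, G.Adj x y' ∧ G.Adj y y' := by
      by_contra hcon
      push Not at hcon
      -- the other three form a triangle
      have h3 : ((W.filter (G.Adj x)).erase y).card = 3 := by
        rw [card_erase_of_mem (mem_filter.2 ⟨hy, hxy⟩), hNx]
      obtain ⟨p, q, r, hpq, hpr, hqr, he⟩ := card_eq_three.1 h3
      have hmem : ∀ z ∈ ({p, q, r} : Finset V), z ∈ W ∧ G.Adj x z ∧ z ≠ y := by
        intro z hz
        rw [← he, mem_erase, mem_filter] at hz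
        exact ⟨hz.2.1, hz.2.2, hz.1⟩
      obtain ⟨pW, xp, py⟩ := hmem p (by simp)
      obtain ⟨qW, xq, qy⟩ := hmem q (by simp)
      obtain ⟨rW, xr, ry⟩ := hmem r (by simp)
      have hadj : ∀ u ∈ W, ∀ v ∈ W, G.Adj x u → G.Adj x v → u ≠ y → v ≠ y → u ≠ v →
          G.Adj u v := by
        intro u hu v hv xu xv uy vy huv
        by_contra hn
        have := ind_list (al2 x hx) (l := [y, u, v]) (by
          simp only [List.pairwise_cons, List.mem_cons, List.not_mem_nil, or_false,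
            forall_eq_or_imp, forall_eq, List.Pairwise.nil, and_true, false_implies, implies_true]
          exact ⟨⟨⟨uy.symm, hcon u hu xu⟩, ⟨vy.symm, hcon v hv xv⟩⟩, ⟨huv, hn⟩⟩) (by
          intro w hw
          rw [mem_filter]
          simp only [List.mem_cons, List.not_mem_nil, or_false] at hw
          rcases hw with rfl | rfl | rfl
          · exact ⟨hy, hxy⟩
          · exact ⟨hu, xu⟩
          · exact ⟨hv, xv⟩)
        simp only [List.length_cons, List.length_nil] at this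
        omega
      exact noK4 x hx p pW q qW r rW xp xq xr (hadj p pW q qW xp xq py qy hpq)
        (hadj p pW r rW xp xr py ry hpr) (hadj q qW r rW xq xr qy ry hqr)
    obtain ⟨y', hy', xy', yy'⟩ := hex
    refine ⟨y', hy', xy', yy', ?_⟩
    intro y'' hy'' xy'' yy''
    by_contra hne
    have n1 : ¬ G.Adj y' y'' := fun h =>
      noK4 x hx y hy y' hy' y'' hy'' hxy xy' xy'' yy' yy'' h
    -- a fourth vertex
    obtain ⟨t, ht⟩ : ∃ t, t ∈ (W.filter (G.Adj x)) ∧ t ∉ ({y, y', y''} : Finset V) := by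
      by_contra hcon
      push Not at hcon
      have h1 := card_le_card (show W.filter (G.Adj x) ⊆ {y, y', y''} from fun z hz => hcon z hz)
      have h2 := card_le_three (a := y) (b := y') (c := y'')
      omega
    obtain ⟨ht1, ht2⟩ := ht
    rw [mem_filter] at ht1
    simp only [mem_insert, mem_singleton, not_or] at ht2
    have hor : G.Adj t y' ∨ G.Adj t y'' := by
      by_contra hcon
      push Not at hcon
      have := ind_list (al2 x hx) (l := [t, y', y'']) (by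
        simp only [List.pairwise_cons, List.mem_cons, List.not_mem_nil, or_false,
          forall_eq_or_imp, forall_eq, List.Pairwise.nil, and_true, false_implies, implies_true]
        exact ⟨⟨⟨ht2.2.1, hcon.1⟩, ⟨ht2.2.2, hcon.2⟩⟩, ⟨Ne.symm hne, n1⟩⟩) (by
        intro w hw
        rw [mem_filter]
        simp only [List.mem_cons, List.not_mem_nil, or_false] at hw
        rcases hw with rfl | rfl | rfl
        · exact ht1
        · exact ⟨hy', xy'⟩
        · exact ⟨hy'', xy''⟩)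
      simp only [List.length_cons, List.length_nil] at this
      omega
    rcases hor with h | h
    · exact h5 hx ht1.1 hy' hy hy'' ht1.2 h yy'.symm yy'' xy''.symm xy'.ne hxy.ne ht2.1
        ht2.2.2 (Ne.symm hne)
    · exact h5 hx ht1.1 hy'' hy hy' ht1.2 h yy''.symm yy' xy'.symm xy''.ne hxy.ne ht2.1
        ht2.2.1 hne
  -- outer edges
  have out : ∀ x ∈ W, ∀ y ∈ W, G.Adj x y → ∃ p ∈ W, ∃ q ∈ W, G.Adj y p ∧ G.Adj y q ∧ G.Adj p q ∧
      ¬ G.Adj x p ∧ ¬ G.Adj x q ∧ p ≠ x ∧ q ≠ x := by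
    intro x hx y hy hxy
    obtain ⟨y', hy', xy', yy', huniq⟩ := one x hx y hy hxy
    obtain ⟨p, hp, yp, hpF⟩ := E.nbr ha (by omega) hy (F := {x, y'}) (by
      have := card_le_two (a := x) (b := y')
      omega)
    rw [mem_insert, mem_singleton, not_or] at hpF
    obtain ⟨q, hq, yq, pq, -⟩ := one y hy p hp yp
    have xp : ¬ G.Adj x p := fun h => hpF.2 (huniq p hp h yp)
    have qx : q ≠ x := by
      rintro rfl
      exact xp pq.symm
    have xq : ¬ G.Adj x q := by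
      intro h
      have hq' := huniq q hq h yq
      rw [hq'] at pq
      obtain ⟨x', hx', -, -, hu⟩ := one y hy y' hy' yy'
      have e1 := hu x hx hxy.symm xy'.symm
      have e2 := hu p hp yp pq.symm
      exact hpF.1 (e2.trans e1.symm)
    exact ⟨p, hp, q, hq, yp, yq, pq, xp, xq, hpF.1, qx⟩
  obtain ⟨x, hx⟩ : W.Nonempty := card_pos.1 (by have := E.hcard; omega)
  have hcx := hN x hx
  choose! p hpW q hqW yp yq pq xp xq px qx using out x hx
  have key : ∀ y ∈ W.filter (G.Adj x), ∀ z ∈ W.filter (G.Adj x), y ≠ z →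
      p y ≠ p z ∧ ¬ G.Adj (p y) (p z) := by
    intro y hy z hz hyz
    rw [mem_filter] at hy hz
    constructor
    · intro h
      have h1 := yp z hz.1 hz.2
      rw [← h] at h1
      exact h5 hx hy.1 (hqW y hy.1 hy.2) (hpW y hy.1 hy.2) hz.1 hy.2 (yq y hy.1 hy.2)
        (pq y hy.1 hy.2).symm h1.symm hz.2.symm (qx y hy.1 hy.2).symm (px y hy.1 hy.2).symm
        (yp y hy.1 hy.2).ne hyz (by
          rintro rfl
          exact xq y hy.1 hy.2 hz.2)
    · intro h
      exact h5 hx hy.1 (hpW y hy.1 hy.2) (hpW z hz.1 hz.2) hz.1 hy.2 (yp y hy.1 hy.2) h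
        (yp z hz.1 hz.2).symm hz.2.symm (px y hy.1 hy.2).symm (px z hz.1 hz.2).symm
        (by
          intro h'
          apply xp z hz.1 hz.2
          rw [← h']; exact hy.2) hyz
        (by
          intro h'
          apply xp y hy.1 hy.2
          rw [h']; exact hz.2)
  have hI : Ind G (insert x ((W.filter (G.Adj x)).image p)) := by
    apply ind_insert
    · intro u hu v hv
      rw [mem_image] at hu hv
      obtain ⟨y, hy, rfl⟩ := hu
      obtain ⟨z, hz, rfl⟩ := hv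
      by_cases hyz : y = z
      · rw [hyz]; exact G.loopless.irrefl _
      · exact (key y hy z hz hyz).2
    · intro u hu
      rw [mem_image] at hu
      obtain ⟨y, hy, rfl⟩ := hu
      rw [mem_filter] at hy
      exact xp y hy.1 hy.2
  have hIc : ((W.filter (G.Adj x)).image p).card = 4 := by
    rw [card_image_of_injOn, hcx]
    intro y hy z hz h
    by_contra hne
    exact (key y hy z hz hne).1 h
  have hxI : x ∉ (W.filter (G.Adj x)).image p := by
    intro h
    rw [mem_image] at h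
    obtain ⟨y, hy, h'⟩ := h
    rw [mem_filter] at hy
    exact px y hy.1 hy.2 h'
  have := E.hW _ (insert_subset hx (by
    intro u hu
    rw [mem_image] at hu
    obtain ⟨y, hy, rfl⟩ := hu
    rw [mem_filter] at hy
    exact hpW y hy.1 hy.2)) hI
  rw [card_insert_of_notMem hxI, hIc] at this
  omega

/-! ### `m = 6` -/

/-- four pairwise adjacent vertices of `W` -/
structure Q4 (G : SimpleGraph V) (W : Finset V) (a b c d : V) : Prop where
  ha : a ∈ W
  hb : b ∈ W
  hc : c ∈ W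
  hd : d ∈ W
  hab : G.Adj a b
  hac : G.Adj a c
  had : G.Adj a d
  hbc : G.Adj b c
  hbd : G.Adj b d
  hcd : G.Adj c d

omit [DecidableEq V] in
theorem Q4.s12 {a b c d : V} (h : Q4 G W a b c d) : Q4 G W b a c d :=
  ⟨h.hb, h.ha, h.hc, h.hd, h.hab.symm, h.hbc, h.hbd, h.hac, h.had, h.hcd⟩

omit [DecidableEq V] in
theorem Q4.s23 {a b c d : V} (h : Q4 G W a b c d) : Q4 G W a c b d :=
  ⟨h.ha, h.hc, h.hb, h.hd, h.hac, h.hab, h.had, h.hbc.symm, h.hcd, h.hbd⟩

omit [DecidableEq V] in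
theorem Q4.s34 {a b c d : V} (h : Q4 G W a b c d) : Q4 G W a b d c :=
  ⟨h.ha, h.hb, h.hd, h.hc, h.hab, h.had, h.hac, h.hbd, h.hbc, h.hcd.symm⟩

/-- `z` is outside the quadruple -/
def Out4 (W : Finset V) (a b c d z : V) : Prop := z ∈ W ∧ z ≠ a ∧ z ≠ b ∧ z ≠ c ∧ z ≠ d

omit [DecidableEq V] in
theorem Out4.s12 {a b c d z : V} (h : Out4 W a b c d z) : Out4 W b a c d z :=
  ⟨h.1, h.2.2.1, h.2.1, h.2.2.2.1, h.2.2.2.2⟩

omit [DecidableEq V] in
theorem Out4.s23 {a b c d z : V} (h : Out4 W a b c d z) : Out4 W a c b d z :=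
  ⟨h.1, h.2.1, h.2.2.2.1, h.2.2.1, h.2.2.2.2⟩

omit [DecidableEq V] in
theorem Out4.s34 {a b c d z : V} (h : Out4 W a b c d z) : Out4 W a b d c z :=
  ⟨h.1, h.2.1, h.2.2.1, h.2.2.2.2, h.2.2.2.1⟩

omit [DecidableEq V] in
/-- F1: outer neighbours of different vertices of a `K_4` are nonadjacent (`m = 6`) -/
theorem six_F1 (hno : ¬ HasCyc G W 6) {a b c d p q : V} (h : Q4 G W a b c d)
    (hp : Out4 W a b c d p) (hq : Out4 W a b c d q) (hap : G.Adj a p) (hbq : G.Adj b q)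
    (hpq : p ≠ q) : ¬ G.Adj p q := by
  intro hadj
  obtain ⟨pW, pa, pb, pc, pd⟩ := hp
  obtain ⟨qW, qa, qb, qc, qd⟩ := hq
  exact sc6 hno pW h.ha h.hc h.hd h.hb qW hap.symm h.hac h.hcd h.hbd.symm hbq hadj.symm pc pd pb
    h.had.ne h.hab.ne qa.symm h.hbc.ne.symm qc.symm qd.symm

omit [DecidableEq V] in
/-- F2: two vertices attached to pairs sharing one vertex -/
theorem six_F2 (hno : ¬ HasCyc G W 6) {a b c d p q : V} (h : Q4 G W a b c d)
    (hp : Out4 W a b c d p) (hq : Out4 W a b c d q) (hap : G.Adj a p) (hbp : G.Adj b p)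
    (haq : G.Adj a q) (hcq : G.Adj c q) (hpq : p ≠ q) : False := by
  obtain ⟨pW, pa, pb, pc, pd⟩ := hp
  obtain ⟨qW, qa, qb, qc, qd⟩ := hq
  -- p b d c q a
  exact sc6 hno pW h.hb h.hd h.hc qW h.ha hbp.symm h.hbd h.hcd.symm hcq haq.symm hap pd pc hpq
    h.hbc.ne qb.symm h.hab.ne.symm qd.symm h.had.ne.symm h.hac.ne.symm

omit [DecidableEq V] in
/-- F2': two vertices attached to disjoint pairs -/
theorem six_F2' (hno : ¬ HasCyc G W 6) {a b c d p q : V} (h : Q4 G W a b c d)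
    (hp : Out4 W a b c d p) (hq : Out4 W a b c d q) (hap : G.Adj a p) (hbp : G.Adj b p)
    (hcq : G.Adj c q) (hdq : G.Adj d q) (hpq : p ≠ q) : False := by
  obtain ⟨pW, pa, pb, pc, pd⟩ := hp
  obtain ⟨qW, qa, qb, qc, qd⟩ := hq
  -- p a c q d b
  exact sc6 hno pW h.ha h.hc qW h.hd h.hb hap.symm h.hac hcq hdq.symm h.hbd.symm hbp pc hpq pd
    qa.symm h.had.ne h.hab.ne h.hcd.ne h.hbc.ne.symm qb

/-- second neighbourhoods are far from each other -/
theorem six_far (hno : ¬ HasCyc G W 6) {a b c d z w p q : V} (h : Q4 G W a b c d)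
    (hz : Out4 W a b c d z) (hw : Out4 W a b c d w) (haz : G.Adj a z) (hbw : G.Adj b w)
    (hzw : z ≠ w) (hp : Out4 W a b c d p) (hq : Out4 W a b c d q) (hzp : G.Adj z p)
    (hwq : G.Adj w q) : p ≠ q ∧ ¬ G.Adj p q := by
  have hF := six_F1 hno h hz hw haz hbw hzw
  obtain ⟨zW, za, zb, zc, zd⟩ := hz
  obtain ⟨wW, wa, wb, wc, wd⟩ := hw
  obtain ⟨pW, pa, pb, pc, pd⟩ := hp
  obtain ⟨qW, qa, qb, qc, qd⟩ := hq
  have hpw : p ≠ w := by
    rintro rfl
    exact hF hzp
  have hqz : q ≠ z := by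
    rintro rfl
    exact hF hwq.symm
  constructor
  · rintro rfl
    -- p z a c b w
    exact sc6 hno pW zW h.ha h.hc h.hb wW hzp.symm haz.symm h.hac h.hbc.symm hbw hwq pa pc pb
      zc zb hzw h.hab.ne wa.symm wc.symm
  · intro hpq
    -- p z a b w q
    exact sc6 hno pW zW h.ha h.hb wW qW hzp.symm haz.symm h.hab hbw hwq hpq.symm pa pb hpw zb
      hzw hqz.symm wa.symm qa.symm qb.symm

/-- the core of the exclusion of `K_4` -/
theorem six_core (E : Env0 G W a 6) (ha : 1 ≤ a) (ha5 : a ≤ 5) {v1 v2 v3 v4 z1 z2 z3 z4 : V}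
    (h : Q4 G W v1 v2 v3 v4) (h1 : Out4 W v1 v2 v3 v4 z1) (h2 : Out4 W v1 v2 v3 v4 z2)
    (h3 : Out4 W v1 v2 v3 v4 z3) (h4 : Out4 W v1 v2 v3 v4 z4) (a1 : G.Adj v1 z1)
    (a2 : G.Adj v2 z2) (a3 : G.Adj v3 z3) (a4 : G.Adj v4 z4) (d12 : z1 ≠ z2) (d13 : z1 ≠ z3)
    (d14 : z1 ≠ z4) (d23 : z2 ≠ z3) (d24 : z2 ≠ z4) (d34 : z3 ≠ z4)
    (s12 : ¬ G.Adj v2 z1) (s13 : ¬ G.Adj v3 z1) (s14 : ¬ G.Adj v4 z1)
    (s21 : ¬ G.Adj v1 z2) (s23 : ¬ G.Adj v3 z2) (s24 : ¬ G.Adj v4 z2) : False := by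
  classical
  have hno := E.hno
  have noK5 : ∀ x1 ∈ W, ∀ x2 ∈ W, ∀ x3 ∈ W, ∀ x4 ∈ W, ∀ x5 ∈ W, G.Adj x1 x2 → G.Adj x1 x3 →
      G.Adj x1 x4 → G.Adj x1 x5 → G.Adj x2 x3 → G.Adj x2 x4 → G.Adj x2 x5 → G.Adj x3 x4 →
      G.Adj x3 x5 → G.Adj x4 x5 → False := by
    intro x1 g1 x2 g2 x3 g3 x4 g4 x5 g5 b12 b13 b14 b15 b23 b24 b25 b34 b35 b45
    obtain ⟨c1, c2⟩ := card_four_clq b23 b24 b25 b34 b35 b45
    have hx15 : x1 ∉ ({x2, x3, x4, x5} : Finset V) := by
      simp only [mem_insert, mem_singleton, not_or]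
      exact ⟨b12.ne, b13.ne, b14.ne, b15.ne⟩
    refine km1 (K := insert x1 {x2, x3, x4, x5}) E (by omega) (by omega) ?_ ?_ ?_
    · intro x hx y hy hxy
      rw [mem_insert] at hx hy
      rcases hx with rfl | hx
      · rcases hy with rfl | hy
        · exact absurd rfl hxy
        · simp only [mem_insert, mem_singleton] at hy
          rcases hy with rfl | rfl | rfl | rfl <;> assumption
      · rcases hy with rfl | hy
        · simp only [mem_insert, mem_singleton] at hx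
          rcases hx with rfl | rfl | rfl | rfl <;> (apply SimpleGraph.Adj.symm; assumption)
        · exact c1 x hx y hy hxy
    · intro x hx
      simp only [mem_insert, mem_singleton] at hx
      rcases hx with rfl | rfl | rfl | rfl | rfl <;> assumption
    · rw [card_insert_of_notMem hx15, c2]
  -- a single vertex has two nonadjacent second neighbours
  have two : ∀ a b c d z : V, Q4 G W a b c d → Out4 W a b c d z → ¬ G.Adj b z → ¬ G.Adj c z →
      ¬ G.Adj d z → ∃ p q, Out4 W a b c d p ∧ Out4 W a b c d q ∧ G.Adj z p ∧ G.Adj z q ∧ p ≠ q ∧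
        ¬ G.Adj p q := by
    intro a' b c d z hQ hz nb nc nd
    by_contra hcon
    push Not at hcon
    have hzW := hz.1
    have hout : ∀ p ∈ W, G.Adj z p → p ≠ a' → Out4 W a' b c d p := by
      intro p hp hzp hpa
      refine ⟨hp, hpa, ?_, ?_, ?_⟩
      · rintro rfl; exact nb hzp.symm
      · rintro rfl; exact nc hzp.symm
      · rintro rfl; exact nd hzp.symm
    obtain ⟨p1, w1, e1, f1⟩ := E.nbr ha (by omega) hzW (F := {a'}) (by rw [card_singleton]; omega)
    obtain ⟨p2, w2, e2, f2⟩ := E.nbr ha (by omega) hzW (F := {a', p1}) (by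
      have := card_le_two (a := a') (b := p1)
      omega)
    obtain ⟨p3, w3, e3, f3⟩ := E.nbr ha (by omega) hzW (F := {a', p1, p2}) (by
      have := card_le_three (a := a') (b := p1) (c := p2)
      omega)
    obtain ⟨p4, w4, e4, f4⟩ := E.nbr ha (by omega) hzW (F := {a', p1, p2, p3}) (by
      have := card_le_four (a := a') (b := p1) (c := p2) (d := p3)
      omega)
    simp only [mem_insert, mem_singleton, not_or] at f1 f2 f3 f4
    have o1 := hout p1 w1 e1 f1
    have o2 := hout p2 w2 e2 f2.1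
    have o3 := hout p3 w3 e3 f3.1
    have o4 := hout p4 w4 e4 f4.1
    exact noK5 z hzW p1 w1 p2 w2 p3 w3 p4 w4 e1 e2 e3 e4
      (hcon p1 p2 o1 o2 e1 e2 (Ne.symm f2.2)) (hcon p1 p3 o1 o3 e1 e3 (Ne.symm f3.2.1))
      (hcon p1 p4 o1 o4 e1 e4 (Ne.symm f4.2.1)) (hcon p2 p3 o2 o3 e2 e3 (Ne.symm f3.2.2))
      (hcon p2 p4 o2 o4 e2 e4 (Ne.symm f4.2.2.1)) (hcon p3 p4 o3 o4 e3 e4 (Ne.symm f4.2.2.2))
  -- any outer vertex has a second neighbour
  have one : ∀ a b c d z : V, Q4 G W a b c d → Out4 W a b c d z → ∃ p, Out4 W a b c d p ∧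
      G.Adj z p := by
    intro a' b c d z hQ hz
    obtain ⟨p, hp, hzp, hpF⟩ := E.nbr ha (by omega) hz.1 (F := {a', b, c, d}) (by
      have := card_le_four (a := a') (b := b) (c := c) (d := d)
      omega)
    simp only [mem_insert, mem_singleton, not_or] at hpF
    exact ⟨p, ⟨hp, hpF.1, hpF.2.1, hpF.2.2.1, hpF.2.2.2⟩, hzp⟩
  obtain ⟨p1, q1, o1, o1', e1, e1', n1, m1⟩ := two v1 v2 v3 v4 z1 h h1 s12 s13 s14
  obtain ⟨p2, q2, o2, o2', e2, e2', n2, m2⟩ := two v2 v1 v3 v4 z2 h.s12 h2.s12 s21 s23 s24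
  have o2 := o2.s12
  have o2' := o2'.s12
  obtain ⟨p3, o3, e3⟩ := one v1 v2 v3 v4 z3 h h3
  obtain ⟨p4, o4, e4⟩ := one v1 v2 v3 v4 z4 h h4
  -- pairwise far
  have f12 : ∀ p q, Out4 W v1 v2 v3 v4 p → Out4 W v1 v2 v3 v4 q → G.Adj z1 p → G.Adj z2 q →
      p ≠ q ∧ ¬ G.Adj p q := fun p q hp hq => six_far hno h h1 h2 a1 a2 d12 hp hq
  have f13 : ∀ p q, Out4 W v1 v2 v3 v4 p → Out4 W v1 v2 v3 v4 q → G.Adj z1 p → G.Adj z3 q →
      p ≠ q ∧ ¬ G.Adj p q := fun p q hp hq =>
    six_far hno h.s23 h1.s23 h3.s23 a1 a3 d13 hp.s23 hq.s23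
  have f14 : ∀ p q, Out4 W v1 v2 v3 v4 p → Out4 W v1 v2 v3 v4 q → G.Adj z1 p → G.Adj z4 q →
      p ≠ q ∧ ¬ G.Adj p q := fun p q hp hq =>
    six_far hno h.s34.s23 h1.s34.s23 h4.s34.s23 a1 a4 d14 hp.s34.s23 hq.s34.s23
  have f23 : ∀ p q, Out4 W v1 v2 v3 v4 p → Out4 W v1 v2 v3 v4 q → G.Adj z2 p → G.Adj z3 q →
      p ≠ q ∧ ¬ G.Adj p q := fun p q hp hq =>
    six_far hno h.s12.s23 h2.s12.s23 h3.s12.s23 a2 a3 d23 hp.s12.s23 hq.s12.s23
  have f24 : ∀ p q, Out4 W v1 v2 v3 v4 p → Out4 W v1 v2 v3 v4 q → G.Adj z2 p → G.Adj z4 q →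
      p ≠ q ∧ ¬ G.Adj p q := fun p q hp hq =>
    six_far hno h.s12.s34.s23 h2.s12.s34.s23 h4.s12.s34.s23 a2 a4 d24 hp.s12.s34.s23
      hq.s12.s34.s23
  have f34 : ∀ p q, Out4 W v1 v2 v3 v4 p → Out4 W v1 v2 v3 v4 q → G.Adj z3 p → G.Adj z4 q →
      p ≠ q ∧ ¬ G.Adj p q := fun p q hp hq =>
    six_far hno h.s23.s34.s12.s23 h3.s23.s34.s12.s23 h4.s23.s34.s12.s23 a3 a4 d34
      hp.s23.s34.s12.s23 hq.s23.s34.s12.s23
  have := ind_list E.hW (l := [p1, q1, p2, q2, p3, p4]) (by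
    simp only [List.pairwise_cons, List.mem_cons, List.not_mem_nil, or_false,
      forall_eq_or_imp, forall_eq, List.Pairwise.nil, and_true, false_implies, implies_true]
    exact ⟨⟨⟨n1, m1⟩, f12 _ _ o1 o2 e1 e2, f12 _ _ o1 o2' e1 e2', f13 _ _ o1 o3 e1 e3,
        f14 _ _ o1 o4 e1 e4⟩,
      ⟨f12 _ _ o1' o2 e1' e2, f12 _ _ o1' o2' e1' e2', f13 _ _ o1' o3 e1' e3,
        f14 _ _ o1' o4 e1' e4⟩,
      ⟨⟨n2, m2⟩, f23 _ _ o2 o3 e2 e3, f24 _ _ o2 o4 e2 e4⟩,
      ⟨f23 _ _ o2' o3 e2' e3, f24 _ _ o2' o4 e2' e4⟩, f34 _ _ o3 o4 e3 e4⟩) (by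
    intro w hw
    simp only [List.mem_cons, List.not_mem_nil, or_false] at hw
    rcases hw with rfl | rfl | rfl | rfl | rfl | rfl
    · exact o1.1
    · exact o1'.1
    · exact o2.1
    · exact o2'.1
    · exact o3.1
    · exact o4.1)
  simp only [List.length_cons, List.length_nil] at this
  omega

theorem six_b (E : Env0 G W a 6) (ha : 1 ≤ a) (ha5 : a ≤ 5) {b1 b2 b3 b4 p q : V}
    (h : Q4 G W b1 b2 b3 b4) (hp : Out4 W b1 b2 b3 b4 p) (hq : Out4 W b1 b2 b3 b4 q)
    (e1 : G.Adj b1 p) (e2 : G.Adj b1 q) (hpq : p ≠ q) (e3 : G.Adj b2 p)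
    (e4 : G.Adj b2 q ∨ G.Adj b3 q ∨ G.Adj b4 q) : False := by
  have hno := E.hno
  have n3 : ¬ G.Adj b3 q := fun h' => six_F2 hno h hp hq e1 e3 e2 h' hpq
  have n4 : ¬ G.Adj b4 q := fun h' => six_F2 hno h.s34 hp.s34 hq.s34 e1 e3 e2 h' hpq
  have e5 : G.Adj b2 q := by tauto
  have n3' : ¬ G.Adj b3 p := fun h' => six_F2 hno h hq hp e2 e5 e1 h' hpq.symm
  have n4' : ¬ G.Adj b4 p := fun h' => six_F2 hno h.s34 hq.s34 hp.s34 e2 e5 e1 h' hpq.symm
  obtain ⟨z3, w3, f3, g3⟩ := E.nbr ha (by omega) h.hc (F := {b1, b2, b4}) (by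
    have := card_le_three (a := b1) (b := b2) (c := b4)
    omega)
  obtain ⟨z4, w4, f4, g4⟩ := E.nbr ha (by omega) h.hd (F := {b1, b2, b3}) (by
    have := card_le_three (a := b1) (b := b2) (c := b3)
    omega)
  simp only [mem_insert, mem_singleton, not_or] at g3 g4
  have o3 : Out4 W b1 b2 b3 b4 z3 := ⟨w3, g3.1, g3.2.1, f3.ne.symm, g3.2.2⟩
  have o4 : Out4 W b1 b2 b3 b4 z4 := ⟨w4, g4.1, g4.2.1, g4.2.2, f4.ne.symm⟩
  have p3 : p ≠ z3 := by
    rintro rfl
    exact n3' f3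
  have q3 : q ≠ z3 := by
    rintro rfl
    exact n3 f3
  have p4 : p ≠ z4 := by
    rintro rfl
    exact n4' f4
  have q4 : q ≠ z4 := by
    rintro rfl
    exact n4 f4
  have s31 : ¬ G.Adj b1 z3 := fun h' => six_F2 hno h hp o3 e1 e3 h' f3 p3
  have s32 : ¬ G.Adj b2 z3 := fun h' => six_F2 hno h.s12 hp.s12 o3.s12 e3 e1 h' f3 p3
  have s34 : ¬ G.Adj b4 z3 := fun h' => six_F2' hno h hp o3 e1 e3 f3 h' p3
  have s41 : ¬ G.Adj b1 z4 := fun h' => six_F2 hno h.s34 hp.s34 o4.s34 e1 e3 h' f4 p4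
  have s42 : ¬ G.Adj b2 z4 := fun h' => six_F2 hno h.s12.s34 hp.s12.s34 o4.s12.s34 e3 e1 h' f4 p4
  have s43 : ¬ G.Adj b3 z4 := fun h' => six_F2' hno h hp o4 e1 e3 h' f4 p4
  have d34 : z3 ≠ z4 := by
    rintro rfl
    exact s34 f4
  exact six_core E ha ha5 h.s23.s12.s34.s23 o3.s23.s12.s34.s23 o4.s23.s12.s34.s23
    hp.s23.s12.s34.s23 hq.s23.s12.s34.s23 f3 f4 e1 e5 d34 p3.symm q3.symm p4.symm q4.symm hpq
    s34 s31 s32 s43 s41 s42

theorem six_single (E : Env0 G W a 6) (ha : 1 ≤ a) (ha5 : a ≤ 5) {b1 b2 b3 b4 : V}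
    (h : Q4 G W b1 b2 b3 b4) : ∃ z, Out4 W b1 b2 b3 b4 z ∧ G.Adj b1 z ∧ ¬ G.Adj b2 z ∧
      ¬ G.Adj b3 z ∧ ¬ G.Adj b4 z := by
  by_contra hcon
  have hcon' : ∀ z, Out4 W b1 b2 b3 b4 z → G.Adj b1 z → G.Adj b2 z ∨ G.Adj b3 z ∨ G.Adj b4 z := by
    intro z hz h1
    by_contra h2
    push Not at h2
    exact hcon ⟨z, hz, h1, h2⟩
  obtain ⟨p, wp, fp, gp⟩ := E.nbr ha (by omega) h.ha (F := {b2, b3, b4}) (by
    have := card_le_three (a := b2) (b := b3) (c := b4)
    omega)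
  obtain ⟨q, wq, fq, gq⟩ := E.nbr ha (by omega) h.ha (F := {b2, b3, b4, p}) (by
    have := card_le_four (a := b2) (b := b3) (c := b4) (d := p)
    omega)
  simp only [mem_insert, mem_singleton, not_or] at gp gq
  have op : Out4 W b1 b2 b3 b4 p := ⟨wp, fp.ne.symm, gp.1, gp.2.1, gp.2.2⟩
  have oq : Out4 W b1 b2 b3 b4 q := ⟨wq, fq.ne.symm, gq.1, gq.2.1, gq.2.2.1⟩
  have hpq : p ≠ q := Ne.symm gq.2.2.2
  have hq := hcon' q oq fq
  rcases hcon' p op fp with h1 | h1 | h1
  · exact six_b E ha ha5 h op oq fp fq hpq h1 hq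
  · exact six_b E ha ha5 h.s23 op.s23 oq.s23 fp fq hpq h1 (by tauto)
  · exact six_b E ha ha5 h.s34.s23 op.s34.s23 oq.s34.s23 fp fq hpq h1 (by tauto)

theorem six_noK4 (E : Env0 G W a 6) (ha : 1 ≤ a) (ha5 : a ≤ 5) {b1 b2 b3 b4 : V}
    (h : Q4 G W b1 b2 b3 b4) : False := by
  obtain ⟨z1, o1, e1, n12, n13, n14⟩ := six_single E ha ha5 h
  obtain ⟨z2, o2, e2, n21, n23, n24⟩ := six_single E ha ha5 h.s12
  obtain ⟨z3, o3, e3, n31, n32, n34⟩ := six_single E ha ha5 h.s23.s12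
  obtain ⟨z4, o4, e4, n41, n42, n43⟩ := six_single E ha ha5 h.s34.s23.s12
  have o2' := o2.s12
  have o3' := o3.s12.s23
  have o4' := o4.s12.s23.s34
  refine six_core E ha ha5 h o1 o2' o3' o4' e1 e2 e3 e4 ?_ ?_ ?_ ?_ ?_ ?_ n12 n13 n14 n21 n23 n24
  · rintro rfl; exact n12 e2
  · rintro rfl; exact n13 e3
  · rintro rfl; exact n14 e4
  · rintro rfl; exact n23 e3
  · rintro rfl; exact n24 e4
  · rintro rfl; exact n34 e4

theorem six (E : Env0 G W a 6) (ha : 1 ≤ a) (ha5 : a ≤ 5) : False := by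
  classical
  have h6 := @sc6 V G W E.hno
  have noK4 : ∀ x1 ∈ W, ∀ x2 ∈ W, ∀ x3 ∈ W, ∀ x4 ∈ W, G.Adj x1 x2 → G.Adj x1 x3 → G.Adj x1 x4 →
      G.Adj x2 x3 → G.Adj x2 x4 → G.Adj x3 x4 → False :=
    fun x1 h1 x2 h2 x3 h3 x4 h4 e12 e13 e14 e23 e24 e34 =>
      six_noK4 E ha ha5 ⟨h1, h2, h3, h4, e12, e13, e14, e23, e24, e34⟩
  obtain ⟨x, hx⟩ : W.Nonempty := card_pos.1 (by have := E.hcard; omega)
  -- an independent triple in `N(x)`
  have hnot : ¬ AlphaLe G (W.filter (G.Adj x)) 2 := by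
    intro hal
    have h1 := E.deg ha (by omega) hx (S := insert x (W.filter (G.Adj x))) (mem_insert_self _ _)
      (fun y hy hxy => mem_insert_of_mem (mem_filter.2 ⟨hy, hxy⟩))
    have h2 := card_insert_le x (W.filter (G.Adj x))
    have h3 := p5k3 _ (W.filter (G.Adj x)) le_rfl
      (by
        intro p hp q hq r hr hpq hqr hpr
        rw [mem_filter] at hp hq hr
        exact noK4 x hx p hp.1 q hq.1 r hr.1 hp.2 hq.2 hr.2 hpq hpr hqr)
      (by
        intro s hs v hv w hw u hu t ht hsv hvw hwu hut d1 d2 d3 d4 d5 d6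
        rw [mem_filter] at hs hv hw hu ht
        exact h6 hx hs.1 hv.1 hw.1 hu.1 ht.1 hs.2 hsv hvw hwu hut ht.2.symm hv.2.ne hw.2.ne
          hu.2.ne d1 d2 d3 d4 d5 d6)
      2 hal
    omega
  obtain ⟨J, hJ1, hJi, hJ2⟩ := exists_ind_of_not_alphaLe hnot
  have hJW : J ⊆ W := hJ1.trans (filter_subset _ _)
  have hJx : ∀ y ∈ J, G.Adj x y := fun y hy => (mem_filter.1 (hJ1 hy)).2
  have h1 := second_level E (by omega) hx hJW hJi (by omega) hJx
  rw [hJ2] at h1
  set X := W.filter (fun z => z ≠ x ∧ z ∉ J ∧ ∃ y ∈ J, G.Adj y z) with hX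
  have hXm : ∀ z ∈ X, z ∈ W ∧ z ≠ x ∧ z ∉ J ∧ ∃ y ∈ J, G.Adj y z := by
    intro z hz
    rw [hX, mem_filter] at hz
    exact hz
  -- ends of a path with three vertices have the same parent
  have hpar : ∀ z ∈ X, ∀ z' ∈ X, ∀ z'' ∈ X, G.Adj z z' → G.Adj z' z'' → z ≠ z'' → ∀ y ∈ J,
      ∀ y'' ∈ J, G.Adj y z → G.Adj y'' z'' → y = y'' := by
    intro z hz z' hz' z'' hz'' b1 b2 hne y hy y'' hy'' hyz hyz''
    by_contra hne2
    obtain ⟨zW, zx, zJ, -⟩ := hXm z hz
    obtain ⟨zW', zx', zJ', -⟩ := hXm z' hz'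
    obtain ⟨zW'', zx'', zJ'', -⟩ := hXm z'' hz''
    exact h6 hx (hJW hy) zW zW' zW'' (hJW hy'') (hJx y hy) hyz b1 b2 hyz''.symm
      (hJx y'' hy'').symm zx.symm zx'.symm zx''.symm (fun h => zJ' (h ▸ hy))
      (fun h => zJ'' (h ▸ hy)) hne2 hne (fun h => zJ (h ▸ hy'')) (fun h => zJ' (h ▸ hy''))
  have hXc := p5k3 X.card X le_rfl
    (by
      intro p hp q hq r hr hpq hqr hpr
      obtain ⟨pW, -, -, y, hy, hyp⟩ := hXm p hp
      obtain ⟨qW, -, -, y', hy', hyq⟩ := hXm q hq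
      obtain ⟨rW, -, -, y'', hy'', hyr⟩ := hXm r hr
      have e1 := hpar p hp r hr q hq hpr hqr.symm hpq.ne y hy y' hy' hyp hyq
      have e2 := hpar p hp q hq r hr hpq hqr hpr.ne y hy y'' hy'' hyp hyr
      rw [← e1] at hyq
      rw [← e2] at hyr
      exact noK4 y (hJW hy) p pW q qW r rW hyp hyq hyr hpq hpr hqr)
    (by
      intro s hs v hv w hw u hu t ht hsv hvw hwu hut d1 d2 d3 d4 d5 d6
      obtain ⟨sW, -, -, y1, hy1, b1⟩ := hXm s hs
      obtain ⟨vW, -, vJ, -⟩ := hXm v hv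
      obtain ⟨wW, -, wJ, y3, hy3, b3⟩ := hXm w hw
      obtain ⟨uW, -, uJ, -⟩ := hXm u hu
      obtain ⟨tW, -, -, y5, hy5, b5⟩ := hXm t ht
      have e1 := hpar s hs v hv w hw hsv hvw d1 y1 hy1 y3 hy3 b1 b3
      have e2 := hpar w hw u hu t ht hwu hut d6 y3 hy3 y5 hy5 b3 b5
      rw [← e2, ← e1] at b5
      exact h6 (hJW hy1) sW vW wW uW tW b1 hsv hvw hwu hut b5.symm (fun h => vJ (h ▸ hy1))
        (fun h => wJ (h ▸ hy1)) (fun h => uJ (h ▸ hy1)) d1 d2 d3 d4 d5 d6) a
    (E.hW.mono (filter_subset _ _) le_rfl)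
  omega

/-! ### the theorems -/

theorem upper_of_env456 {m : ℕ} (h : ∀ {G : SimpleGraph V} {W : Finset V} {a : ℕ}, Env0 G W a m →
    1 ≤ a → a + 1 ≤ m → False) {G : SimpleGraph V} : ∀ a, a + 1 ≤ m → ∀ W : Finset V,
    AlphaLe G W a → (m - 1) * a + 1 ≤ W.card → HasCyc G W m := by
  intro a
  induction a using Nat.strong_induction_on with
  | _ a ih =>
    intro haA W hW hc
    by_contra hno
    rcases Nat.eq_zero_or_pos a with rfl | ha
    · obtain ⟨x, hx⟩ : W.Nonempty := card_pos.1 (by omega)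
      have := hW {x} (singleton_subset_iff.2 hx) (by
        intro u hu v hv
        rw [mem_singleton] at hu hv
        rw [hu, hv]; exact G.loopless.irrefl _)
      rw [card_singleton] at this
      omega
    · refine h (G := G) (W := W) ⟨hW, hc, ?_, hno⟩ ha haA
      intro c hca W' hW' hWc
      by_contra hcon
      exact hno ((ih c hca (by omega) W' hWc (by omega)).mono hW')

theorem upper_4 {G : SimpleGraph V} : ∀ a, a + 1 ≤ 4 → ∀ W : Finset V, AlphaLe G W a →
    3 * a + 1 ≤ W.card → HasCyc G W 4 :=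
  upper_of_env456 (m := 4) fun E h1 h2 => four E h1 (by omega)

theorem upper_5 {G : SimpleGraph V} : ∀ a, a + 1 ≤ 5 → ∀ W : Finset V, AlphaLe G W a →
    4 * a + 1 ≤ W.card → HasCyc G W 5 :=
  upper_of_env456 (m := 5) fun E h1 h2 => five E h1 (by omega)

theorem upper_6 {G : SimpleGraph V} : ∀ a, a + 1 ≤ 6 → ∀ W : Finset V, AlphaLe G W a →
    5 * a + 1 ≤ W.card → HasCyc G W 6 :=
  upper_of_env456 (m := 6) fun E h1 h2 => six E h1 (by omega)

end Vale.Agent.P048.L
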