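import Vale.Agent.P048.Top2
import Vale.Agent.P048.FinT

/-! P048: the cycle length `7`. -/

namespace Vale.Agent.P048.L

open Finset

variable {V : Type*} [DecidableEq V] {G : SimpleGraph V}

theorem upper_7 : ∀ a, a + 1 ≤ 7 → ∀ W : Finset V, AlphaLe G W a → 6 * a + 1 ≤ W.card →
    HasCyc G W 7 := by
  refine upper_of_env (m := 7) (by omega) ?_
  intro a W K ha ham E hKW hK hmax hkm
  have hk : K.card < 4 ∨ K.card = 4 ∨ K.card = 5 ∨ K.card = 6 := by omega
  rcases hk with h | h | h | h
  · exact case_low E ham (by omega) hmax (k := 3) (by omega) (by omega) (by omega)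
      (by decide +kernel)
  · exact case_top E ha ham (by omega) hmax (k := 3) (by omega) (by omega) (by omega) (by omega)
      (by omega) (by decide +kernel)
  · exact top2 E ha ham (by omega) hK hKW (by omega)
      (fun K' h1 h2 => by have := hmax K' h1 h2; omega)
  · exact top1 E ha ham (by omega) hK hKW (by omega)

end Vale.Agent.P048.L
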