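import Vale.Agent.P048.SmallD

namespace Vale.Agent.P048.L

open Finset

variable {V : Type*} [DecidableEq V] {G : SimpleGraph V} {m : ℕ}

/-- reduction to minimal counterexamples -/
theorem upper_of_min
    (h : ∀ a, 1 ≤ a → a + 1 ≤ m → ∀ W K : Finset V, Env0 G W a m → K ⊆ W → IsClq G K →
      (∀ K', K' ⊆ W → IsClq G K' → K'.card ≤ K.card) → False) :
    ∀ a, a + 1 ≤ m → ∀ W : Finset V, AlphaLe G W a → (m - 1) * a + 1 ≤ W.card →
      HasCyc G W m := by
  intro a
  induction a using Nat.strong_induction_on with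
  | _ a ih =>
    intro haA W hW hc
    by_contra hno
    rcases Nat.eq_zero_or_pos a with rfl | ha
    · have := card_zero_of_alphaLe hW
      omega
    · obtain ⟨K, hK1, hK2, hK3⟩ := exists_max_clq G W
      have hmin : ∀ c, c < a → ∀ W', W' ⊆ W → AlphaLe G W' c → W'.card ≤ (m - 1) * c := by
        intro c hca W' hW' hWc
        by_contra hcon
        exact hno ((ih c hca (by omega) W' hWc (by omega)).mono hW')
      exact h a ha haA W K ⟨hW, hc, hmin, hno⟩ hK1 hK2 hK3

/-- cliques of a minimal counterexample have at most `m - 3` vertices, `m ≥ 7` -/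
theorem s8_clq_lt (h7 : 7 ≤ m) {a : ℕ} (ham : a + 1 ≤ m) {W K : Finset V} (E : Env0 G W a m)
    (hKW : K ⊆ W) (hK : IsClq G K) (hmax : ∀ K', K' ⊆ W → IsClq G K' → K'.card ≤ K.card) :
    K.card + 3 ≤ m := by
  by_contra hcon
  rcases Nat.lt_or_ge K.card m with h1 | h1
  · rcases Nat.lt_or_ge (K.card + 1) m with h2 | h2
    · exact clq_m2 E ham h7 hK hKW (by omega) hmax
    · exact clq_m1 E ham (by omega) hK hKW (by omega)
  · obtain ⟨K1, h11, h12⟩ := exists_subset_card_eq h1
    apply E.hno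
    exact ⟨K1.toList, by rw [length_toList, h12],
      clique_cyc (fun x hx y hy => hK x (h11 hx) y (h11 hy)) (by omega),
      fun x hx => hKW (h11 (mem_toList.1 hx))⟩

theorem upper_8 : ∀ a, a + 1 ≤ 8 → ∀ W : Finset V, AlphaLe G W a → 7 * a + 1 ≤ W.card →
    HasCyc G W 8 := by
  refine upper_of_min (m := 8) ?_
  intro a _ ham W K E hKW hK hmax
  have h := s8_clq_lt (by omega) ham E hKW hK hmax
  exact grow8 E (by omega) (fun K' h1 h2 => (hmax K' h1 h2).trans (by omega))

theorem s8_upper_7 : ∀ a, a + 1 ≤ 7 → ∀ W : Finset V, AlphaLe G W a → 6 * a + 1 ≤ W.card →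
    HasCyc G W 7 := by
  refine upper_of_min (m := 7) ?_
  intro a _ ham W K E hKW hK hmax
  have h := s8_clq_lt (by omega) ham E hKW hK hmax
  exact grow7 E (by omega) (fun K' h1 h2 => (hmax K' h1 h2).trans (by omega))

end Vale.Agent.P048.L
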