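import Vale.Agent.P048.FinAll
import Vale.Agent.P048.Three

namespace Vale.Agent.P048.L

open Finset

variable {V : Type*} [DecidableEq V] {G : SimpleGraph V} {O W K : Finset V} {a m : ℕ}

/-- a path with a prescribed number of vertices between two vertices of a clique -/
theorem s8_clq_path (hK : IsClq G K) {u v : V} (hu : u ∈ K) (hv : v ∈ K) (huv : u ≠ v) {n : ℕ}
    (h2 : 2 ≤ n) (hn : n ≤ K.card) : ∃ p : List V, Pth G p ∧ p.length = n ∧ (∀ x ∈ p, x ∈ K) ∧
      p.head? = some u ∧ p.getLast? = some v := by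
  have hc : ((K.erase u).erase v).card + 2 = K.card := by
    rw [card_erase_of_mem (mem_erase.2 ⟨huv.symm, hv⟩), card_erase_of_mem hu]
    have : 0 < (K.erase u).card := card_pos.2 ⟨v, mem_erase.2 ⟨huv.symm, hv⟩⟩
    rw [card_erase_of_mem hu] at this
    omega
  obtain ⟨S, hS1, hS2⟩ := exists_subset_card_eq (show n - 2 ≤ ((K.erase u).erase v).card by omega)
  have hS : ∀ x ∈ S, x ∈ K ∧ x ≠ u ∧ x ≠ v := by
    intro x hx
    have := hS1 hx
    rw [mem_erase, mem_erase] at this
    exact ⟨this.2.2, this.2.1, this.1⟩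
  have hnd : (u :: (S.toList ++ [v])).Nodup := by
    rw [List.nodup_cons, List.mem_append, mem_toList, List.mem_singleton, List.nodup_append]
    refine ⟨?_, S.nodup_toList, by simp, ?_⟩
    · rintro (h | h)
      · exact (hS u h).2.1 rfl
      · exact huv h
    · intro a ha b hb hab
      rw [List.mem_singleton] at hb
      rw [mem_toList] at ha
      exact (hS a ha).2.2 (hab.trans hb)
  have hmem : ∀ x ∈ u :: (S.toList ++ [v]), x ∈ K := by
    intro x hx
    rw [List.mem_cons, List.mem_append, mem_toList, List.mem_singleton] at hx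
    rcases hx with rfl | hx | rfl
    · exact hu
    · exact (hS x hx).1
    · exact hv
  refine ⟨u :: (S.toList ++ [v]), ⟨hnd, chain_of_mem hK hnd hmem⟩, ?_, hmem, rfl, ?_⟩
  · rw [List.length_cons, List.length_append, length_toList, List.length_singleton]
    omega
  · rw [← List.cons_append, List.getLast?_append]
    rfl

/-- a large clique inside a tree level has a common parent -/
theorem s8_lev_clq {h : ℕ} {Lev : ℕ → Finset V} {par : V → V} (T : Tree G O h Lev par)
    (hh : 2 * h < m) (hno : ¬ HasCyc G O m) (hKL : K ⊆ Lev h) (hK : IsClq G K)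
    (hK2 : 2 ≤ K.card) (hm : m ≤ K.card + 3) :
    ∃ y ∈ O, y ∉ K ∧ ∀ w ∈ K, G.Adj w y := by
  obtain ⟨u0, hu0, v0, hv0, hne⟩ := one_lt_card.1 (show 1 < K.card by omega)
  obtain ⟨s, h1, h2, h3, u, v, hu, hv, h4⟩ := T.join_height (P := fun u => u ∈ K)
    (fun u hu => hKL hu) hu0 hv0 hne
  rcases Nat.lt_or_ge s 2 with hs | hs
  · have hs1 : s = 1 := by omega
    subst hs1
    obtain ⟨h', rfl⟩ : ∃ h', h = h' + 1 := ⟨h - 1, by omega⟩
    have hp := fun w (hw : w ∈ K) => T.par h' (by omega) w (hKL hw)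
    refine ⟨par u, T.sub h' (by omega) (hp u hu).1, ?_, ?_⟩
    · intro hc
      have := T.disj h' (h' + 1) (by omega) le_rfl _ (hp u hu).1 (hKL hc)
      omega
    · intro w hw
      have e : par w = par u := h3 w u hw hu
      rw [← e]
      exact (hp w hw).2
  · exfalso
    have huv : u ≠ v := by
      rintro rfl
      exact h4 rfl
    obtain ⟨p, p1, p2, p3, p4, p5⟩ := s8_clq_path hK hu hv huv (n := m + 1 - 2 * s) (by omega)
      (by omega)
    exact hno (T.close p1 (fun x hx => hKL (p3 x hx)) p4 p5 h2 (h3 u v hu hv) h4 (by omega))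

theorem clq_ins {y : V} (hK : IsClq G K) (hy : ∀ w ∈ K, G.Adj w y) : IsClq G (insert y K) := by
  intro s hs t ht hst
  rw [mem_insert] at hs ht
  rcases hs with rfl | hs
  · rcases ht with rfl | ht
    · exact absurd rfl hst
    · exact (hy t ht).symm
  · rcases ht with rfl | ht
    · exact hy s hs
    · exact hK s hs t ht hst

/-- the key lemma when the clique number is at most `k + 1` and `m ≤ k + 4` -/
theorem rk_of {k : ℕ} (hk : 3 ≤ k) (hm : m ≤ 2 * k + 1) (hm4 : m ≤ k + 4)
    (hno : ¬ HasCyc G O m) (hcl : ∀ K, K ⊆ O → IsClq G K → K.card ≤ k + 1) : RK G m k O := by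
  refine rk hk hm hno ?_
  intro h Lev par hh T K hKL hK
  by_contra hcon
  push Not at hcon
  obtain ⟨K1, h1, h2⟩ := exists_subset_card_eq (show k + 1 ≤ K.card by omega)
  obtain ⟨y, hy1, hy2, hy3⟩ := s8_lev_clq T hh hno (h1.trans hKL)
    (fun x hx z hz => hK x (h1 hx) z (h1 hz)) (by omega) (by omega)
  have h3 := hcl (insert y K1) (insert_subset hy1 ((h1.trans hKL).trans (T.sub h le_rfl)))
    (clq_ins (fun x hx z hz => hK x (h1 hx) z (h1 hz)) hy3)
  rw [card_insert_of_notMem hy2] at h3
  omega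

/-- the complement of the closed neighbourhood of an independent set -/
theorem compl_alpha (hW : AlphaLe G W a) {J : Finset V} (hJ : J ⊆ W) (hJi : Ind G J) :
    AlphaLe G (W \ cn G W J) (a - J.card) := by
  intro S hS hSi
  have hd : Disjoint S J := by
    rw [disjoint_left]
    intro x hxS hxJ
    exact (mem_sdiff.1 (hS hxS)).2 (mem_cn.2 ⟨hJ hxJ, Or.inl hxJ⟩)
  have hn : ∀ x ∈ S, ∀ y ∈ J, ¬ G.Adj x y := by
    intro x hx y hy hxy
    have h1 := mem_sdiff.1 (hS hx)
    exact h1.2 (mem_cn.2 ⟨h1.1, Or.inr ⟨y, hy, hxy⟩⟩)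
  have hi : Ind G (S ∪ J) := by
    intro x hx y hy
    rw [mem_union] at hx hy
    rcases hx with hx | hx
    · rcases hy with hy | hy
      · exact hSi x hx y hy
      · exact hn x hx y hy
    · rcases hy with hy | hy
      · exact fun h => hn y hy x hx h.symm
      · exact hJi x hx y hy
  have h1 := hW (S ∪ J) (union_subset (hS.trans sdiff_subset) hJ) hi
  rw [card_union_of_disjoint hd] at h1
  omega

/-- the last growth step, with a better lower bound for the closed neighbourhood -/
theorem final_step {B : Finset V} {h j s k N : ℕ} (hG : Grown G W B h j s)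
    (hW : AlphaLe G W a) (hR : ∀ Lev par, Tree G W (h + 1) Lev par → Bdd G k (Lev (h + 1)))
    (hN : ∀ J, J ⊆ W → Ind G J → J.card = j → N ≤ (cn G W J).card)
    (hnum : k * a + s < N) : False := by
  classical
  obtain ⟨Lev, par, T, hI, hc, hs, hB⟩ := hG
  have h1 := hN (Lev h) (T.sub h le_rfl) hI hc
  obtain ⟨Lev1, par1, T1, e1, _⟩ := T.ext (X := cn G W (Lev h) \ tv h Lev) (Subset.refl _)
  have h2 := hR Lev1 par1 T1
  rw [e1] at h2
  have h3 : (cn G W (Lev h)).card ≤ (cn G W (Lev h) \ tv h Lev).card + (tv h Lev).card := by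
    have : cn G W (Lev h) ⊆ (cn G W (Lev h) \ tv h Lev) ∪ tv h Lev := by
      intro x hx
      rw [mem_union, mem_sdiff]
      tauto
    exact (card_le_card this).trans (card_union_le _ _)
  have h4 := h2 a _ (Subset.refl _) (hW.mono (by
    rw [← e1]
    exact T1.sub (h + 1) le_rfl) le_rfl)
  omega

/-- the start of the growth: three independent neighbours -/
theorem grown_start (E : Env0 G W a m) (hm : 5 ≤ m) (ham : a ≤ m - 1) : Grown G W W 1 3 4 := by
  obtain ⟨x, hx, J, hJ1, hJ2, hJ3, hJ4⟩ := exists_three E hm ham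
  have := grown_one (G := G) (B := W) hx hJ1 hJ1 hJ2 hJ4
  rw [hJ3] at this
  exact this

theorem Grown.le (hG : ∃ h s, Grown G W W h m s) (hW : AlphaLe G W a) : m ≤ a := by
  obtain ⟨h, s, Lev, par, T, hI, hc, _, _⟩ := hG
  rw [← hc]
  exact hW _ (T.sub h le_rfl) hI

/-- one growth step inside `W` -/
theorem Grown.next {h j s k j' : ℕ} (E : Env0 G W a m) (hG : Grown G W W h j s)
    (hR : ∀ Lev par, Tree G W (h + 1) Lev par → Bdd G k (Lev (h + 1))) (hj : 1 ≤ j)
    (hnum : k * (j' - 1) + s < (m - 1) * j + 1) : Grown G W W (h + 1) j' (s + j') :=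
  hG.step (m := m) (τ := 0) (k := k) (fun w _ y hy _ => hy)
    (fun J hJ hJi hJ1 => by
      have := exp_W E hJ hJi hJ1
      omega) hR hj (by omega)

end Vale.Agent.P048.L
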