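import Vale.Agent.P048.SmallA

namespace Vale.Agent.P048.L

open Finset

variable {V : Type*} [DecidableEq V] {G : SimpleGraph V} {O W K : Finset V} {a m : ℕ}

theorem grow8 (E : Env0 G W a 8) (ha : a ≤ 7)
    (hcl : ∀ K, K ⊆ W → IsClq G K → K.card ≤ 5) : False := by
  have hR : RK G 8 4 W := rk_of (by omega) (by omega) (by omega) E.hno hcl
  have g1 := grown_start E (by omega) (by omega)
  have g2 := g1.next (k := 4) (j' := 5) E (fun Lev par T => hR 2 Lev par (by omega) T)
    (by omega) (by omega)
  have h5 : 5 ≤ a := Grown.le ⟨_, _, g2⟩ E.hW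
  rcases Nat.lt_or_ge a 7 with h7 | h7
  · refine final_step (a := a) (k := 4) (N := 36) g2 E.hW
      (fun Lev par T => hR 3 Lev par (by omega) T) ?_ (by omega)
    intro J hJ hJi hJ1
    have := exp_W E hJ hJi (by omega)
    omega
  · have h7' : a = 7 := by omega
    subst h7'
    refine final_step (a := 7) (k := 4) (N := 38) g2 E.hW
      (fun Lev par T => hR 3 Lev par (by omega) T) ?_ (by omega)
    intro J hJ hJi hJ1
    have h1 := compl_alpha E.hW hJ hJi
    rw [hJ1] at h1
    have h2 := t2_bound (m := 8) (w := 5) h1 (fun hc => E.hno (hc.mono sdiff_subset)) (by omega)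
      (fun K hK hKc => hcl K (hK.trans sdiff_subset) hKc)
    have h3 := card_le_card_sdiff_add_card (s := W) (t := cn G W J)
    have h4 := E.hcard
    omega

theorem grow7 (E : Env0 G W a 7) (ha : a ≤ 6)
    (hcl : ∀ K, K ⊆ W → IsClq G K → K.card ≤ 4) : False := by
  have hR : RK G 7 3 W := rk_of (by omega) (by omega) (by omega) E.hno hcl
  have g1 := grown_start E (by omega) (by omega)
  have g2 := g1.next (k := 3) (j' := 5) E (fun Lev par T => hR 2 Lev par (by omega) T)
    (by omega) (by omega)
  refine final_step (a := a) (k := 3) (N := 31) g2 E.hW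
      (fun Lev par T => hR 3 Lev par (by omega) T) ?_ (by omega)
  intro J hJ hJi hJ1
  have := exp_W E hJ hJi (by omega)
  omega

end Vale.Agent.P048.L
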