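import Vale.Agent.P048.SmallB

namespace Vale.Agent.P048.L

open Finset

variable {V : Type*} [DecidableEq V] {G : SimpleGraph V} {O W K : Finset V} {a m : ℕ}

/-- a bridge between two vertices of a clique closes to a cycle -/
theorem fill_bridge (hK : IsClq G K) (hKW : K ⊆ W) {v v' : V} (hv : v ∈ K) (hv' : v' ∈ K)
    (hne : v ≠ v') {q : List V} (hOK : ∀ x ∈ O, x ∉ K) (hOW : O ⊆ W) (hq : Bridge G O v v' q)
    (hqn : q.Nodup) (h1 : q.length + 2 ≤ m) (h2 : m ≤ q.length + K.card) : HasCyc G W m := by
  classical
  obtain ⟨hq0, hq1, hq2, hq3, hq4⟩ := hq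
  have hvq : v ∉ q := fun h => hOK v (hq2 v h) hv
  have hvq' : v' ∉ q := fun h => hOK v' (hq2 v' h) hv'
  have hlen : (v :: (q ++ [v'])).length = q.length + 2 := by
    rw [List.length_cons, List.length_append, List.length_singleton]
  have hmem : ∀ x ∈ v :: (q ++ [v']), x = v ∨ x ∈ q ∨ x = v' := by
    intro x hx
    rw [List.mem_cons, List.mem_append, List.mem_singleton] at hx
    exact hx
  refine bc_fill (K := K) (Q := v :: (q ++ [v'])) hK hKW ⟨?_, ?_⟩ ?_ ?_ ?_ ?_ ?_ ?_
  · rw [List.nodup_cons, List.mem_append, List.mem_singleton, List.nodup_append]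
    refine ⟨by rintro (h | h); exacts [hvq h, hne h], hqn, by simp, ?_⟩
    intro x hx y hy hxy
    rw [List.mem_singleton] at hy
    rw [hxy, hy] at hx
    exact hvq' hx
  · rw [← List.singleton_append, List.isChain_append, List.isChain_append]
    refine ⟨by simp, ⟨hq1, by simp, ?_⟩, ?_⟩
    · intro x hx y hy
      simp only [List.head?_cons, Option.mem_def, Option.some.injEq] at hy
      rw [← hy]
      exact hq4 x hx
    · intro x hx y hy
      simp only [List.getLast?_singleton, Option.mem_def, Option.some.injEq] at hx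
      rw [head?_append_of_ne _ hq0] at hy
      rw [← hx]
      exact hq3 y hy
  · intro x hx
    rcases hmem x hx with rfl | h | rfl
    · exact hKW hv
    · exact hOW (hq2 x h)
    · exact hKW hv'
  · intro x hx
    simp only [List.head?_cons, Option.mem_def, Option.some.injEq] at hx
    rw [← hx]; exact hv
  · intro x hx
    rw [← List.cons_append, List.getLast?_append] at hx
    simp only [List.getLast?_singleton, Option.some_or, Option.mem_def, Option.some.injEq] at hx
    rw [← hx]; exact hv'
  · rw [hlen]; omega
  · rw [hlen]; omega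
  · rw [hlen]
    have h3 : K \ (v :: (q ++ [v'])).toFinset = (K.erase v).erase v' := by
      ext x
      rw [mem_sdiff, List.mem_toFinset, mem_erase, mem_erase]
      constructor
      · rintro ⟨h4, h5⟩
        refine ⟨?_, ?_, h4⟩
        · rintro rfl
          apply h5
          simp
        · rintro rfl
          apply h5
          simp
      · rintro ⟨h4, h5, h6⟩
        refine ⟨h6, fun h => ?_⟩
        rcases hmem x h with h | h | h
        · exact h5 h
        · exact hOK x (hq2 x h) h6
        · exact h4 h
    rw [h3]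
    have h4 : v' ∈ K.erase v := mem_erase.2 ⟨hne.symm, hv'⟩
    have h5 := card_pos.2 ⟨v', h4⟩
    rw [card_erase_of_mem h4, card_erase_of_mem hv]
    rw [card_erase_of_mem hv] at h5
    omega

/-- closed neighbourhoods restricted to `W \ F` -/
theorem nbhd_big (E : Env0 G W a m) {F : Finset V} {x : V} (hx : x ∈ W \ F)
    [DecidablePred (G.Adj x)] :
    m ≤ (ball G (W \ F) x 1).card + (F.filter (G.Adj x)).card := by
  classical
  have h := exp_main E (F := F) (J := {x}) (singleton_subset_iff.2 hx) (ind_singleton x)
    (by rw [card_singleton])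
  rw [card_singleton] at h
  have h1 : cn G (W \ F) {x} ⊆ ball G (W \ F) x 1 := by
    intro y hy
    rw [mem_cn] at hy
    rcases hy.2 with h1 | h1
    · rw [mem_singleton] at h1
      rw [h1]
      exact self_mem_ball 1
    · exact mem_ball_succ hy.1 h1
  have h2 : F.filter (Att G {x}) ⊆ F.filter (G.Adj x) := by
    intro y hy
    rw [mem_filter] at hy ⊢
    obtain ⟨h3, z, hz, hyz⟩ := hy
    rw [mem_singleton] at hz
    rw [hz] at hyz
    exact ⟨h3, hyz.symm⟩
  have h3 := card_le_card h1
  have h4 := card_le_card h2
  omega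

/-- an outside neighbour -/
theorem exists_port (E : Env0 G W a m) {F : Finset V} {v : V} (hv : v ∈ F) (hvW : v ∈ W)
    (hF : F.card < m) : ∃ x ∈ W \ F, G.Adj v x := by
  classical
  have h := exp_W E (J := {v}) (singleton_subset_iff.2 hvW) (ind_singleton v)
    (by rw [card_singleton])
  rw [card_singleton] at h
  by_contra hcon
  push Not at hcon
  have h1 : cn G W {v} ⊆ F := by
    intro y hy
    rw [mem_cn] at hy
    rcases hy.2 with h1 | ⟨z, hz, hyz⟩
    · rw [mem_singleton] at h1
      rw [h1]; exact hv
    · rw [mem_singleton] at hz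
      rw [hz] at hyz
      by_contra hyF
      exact hcon y (mem_sdiff.2 ⟨hy.1, hyF⟩) hyz.symm
  have := card_le_card h1
  omega

/-- a chain between ports gives a bridge -/
theorem chn_bridge {x x' v v' : V} {q : List V} (h : Chn G O {x} {x'} q) (hv : G.Adj v x)
    (hv' : G.Adj v' x') : Bridge G O v v' q := by
  obtain ⟨h1, h2, ⟨z, hz, hzq⟩, ⟨z', hz', hzq'⟩⟩ := h
  rw [mem_singleton] at hz hz'
  rw [hz] at hzq
  rw [hz'] at hzq'
  refine ⟨?_, h1, h2, ?_, ?_⟩
  · rintro rfl
    simp at hzq
  · intro y hy
    rw [hzq] at hy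
    rw [← Option.some.inj hy]
    exact hv
  · intro y hy
    rw [hzq'] at hy
    rw [← Option.some.inj hy]
    exact hv'.symm

/-- A clique on `m - 1` vertices is impossible in a minimal counterexample. -/
theorem clq_m1 (E : Env0 G W a m) (ham : a + 1 ≤ m) (hm : 5 ≤ m) (hK : IsClq G K) (hKW : K ⊆ W)
    (hKc : K.card + 1 = m) : False := by
  classical
  have ha : 1 ≤ a := by
    by_contra hcon
    have h0 : a = 0 := by omega
    subst h0
    have := card_zero_of_alphaLe E.hW
    have := E.hcard
    omega
  -- pass to a subset of exactly the critical size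
  have hmul : m - 1 ≤ (m - 1) * a := Nat.le_mul_of_pos_right _ ha
  obtain ⟨W', h1, h2, h3⟩ := exists_subsuperset_card_eq hKW (show K.card ≤ (m - 1) * a + 1 by omega)
    E.hcard
  have E' : Env0 G W' a m := ⟨E.hW.mono h2 le_rfl, h3.ge,
    fun c hc Y hY hα => E.hmin c hc Y (hY.trans h2) hα, fun hc => E.hno (hc.mono h2)⟩
  -- outside neighbours
  have hex : ∀ v, ∃ x, v ∈ K → x ∈ W' \ K ∧ G.Adj v x := by
    intro v
    by_cases hv : v ∈ K
    · obtain ⟨x, hx, hvx⟩ := exists_port E' hv (h1 hv) (by omega)
      exact ⟨x, fun _ => ⟨hx, hvx⟩⟩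
    · exact ⟨v, fun h => absurd h hv⟩
  choose X hX using hex
  have hno : ∀ v ∈ K, ∀ v' ∈ K, v ≠ v' → ∀ q, Bridge G (W' \ K) v v' q → q.length ≤ m - 2 →
      False := by
    intro v hv v' hv' hne q hq hql
    obtain ⟨q', hq', hqn, hql'⟩ := bridge_nodup ⟨q, hq, hql⟩
    have : 1 ≤ q'.length := List.length_pos_iff.2 hq'.1
    exact E'.hno (fill_bridge hK h1 hv hv' hne (fun x hx => (mem_sdiff.1 hx).2) sdiff_subset hq'
      hqn (by omega) (by omega))
  have hcard : ∀ v ∈ K, m - 1 ≤ (ball G (W' \ K) (X v) 1).card := by
    intro v hv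
    obtain ⟨hx, hvx⟩ := hX v hv
    have h4 := nbhd_big E' hx
    have h5 : (K.filter (G.Adj (X v))).card ≤ 1 := by
      rw [card_le_one]
      have : ∀ u ∈ K.filter (G.Adj (X v)), u = v := by
        intro u hu
        rw [mem_filter] at hu
        by_contra hne
        refine hno v hv u hu.1 (Ne.symm hne) [X v] ⟨by simp, by simp, ?_, ?_, ?_⟩ (by simp; omega)
        · intro z hz
          rw [List.mem_singleton] at hz
          rw [hz]; exact hx
        · intro z hz
          simp only [List.head?_cons, Option.mem_def, Option.some.injEq] at hz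
          rw [← hz]; exact hvx
        · intro z hz
          simp only [List.getLast?_singleton, Option.mem_def, Option.some.injEq] at hz
          rw [← hz]; exact hu.2
      intro u hu u' hu'
      rw [this u hu, this u' hu']
    omega
  have hdisj : ∀ v ∈ K, ∀ v' ∈ K, v ≠ v' →
      Disjoint (ball G (W' \ K) (X v) 1) (ball G (W' \ K) (X v') 1) := by
    intro v hv v' hv' hne
    rw [disjoint_left]
    intro z hz hz'
    obtain ⟨p, p1, p2, p3, p4, p5⟩ := ball_chain 1 z hz
    obtain ⟨q, q1, q2, q3, q4, q5⟩ := ball_chain 1 z hz'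
    obtain ⟨hx, hvx⟩ := hX v hv
    obtain ⟨hx', hvx'⟩ := hX v' hv'
    -- the union of the two chains, dropping one copy of `z`
    obtain ⟨q', rfl⟩ : ∃ q', q = q' ++ [z] := by
      rcases q.eq_nil_or_concat with rfl | ⟨q', b, rfl⟩
      · simp at q4
      · rw [List.concat_eq_append, List.getLast?_append] at q4
        simp only [List.getLast?_singleton, Option.some_or, Option.some.injEq] at q4
        exact ⟨q', by rw [List.concat_eq_append, q4]⟩
    refine hno v hv v' hv' hne (p ++ q'.reverse) ⟨?_, ?_, ?_, ?_, ?_⟩ ?_
    · intro h0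
      rw [List.append_eq_nil_iff] at h0
      rw [h0.1] at p3
      simp at p3
    · rw [List.isChain_append]
      rw [List.isChain_append] at q1
      refine ⟨p1, chain_symm q1.1, ?_⟩
      intro a ha b hb
      rw [p4] at ha
      rw [List.head?_reverse] at hb
      simp only [Option.mem_def, Option.some.injEq] at ha
      rw [← ha]
      exact (q1.2.2 b hb z (by simp)).symm
    · intro w hw
      rw [List.mem_append, List.mem_reverse] at hw
      rcases hw with hw | hw
      · exact ball_subset hx 1 (p2 w hw)
      · exact ball_subset hx' 1 (q2 w (by simp [hw]))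
    · intro w hw
      rw [List.head?_append, p3] at hw
      simp only [Option.some_or, Option.mem_def, Option.some.injEq] at hw
      rw [← hw]; exact hvx
    · intro w hw
      rw [List.getLast?_append, List.getLast?_reverse] at hw
      rw [List.head?_append] at q3
      rcases hq : q'.head? with _ | y
      · rw [hq] at q3 hw
        simp only [List.head?_cons, Option.none_or, Option.some.injEq] at q3
        simp only [Option.none_or, Option.mem_def] at hw
        rw [p4] at hw
        rw [← Option.some.inj hw, q3]
        exact hvx'.symm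
      · rw [hq] at q3 hw
        simp only [Option.some_or, Option.some.injEq, Option.mem_def] at q3 hw
        rw [← hw, q3]
        exact hvx'.symm
    · rw [List.length_append, List.length_reverse]
      rw [List.length_append, List.length_singleton] at q5
      omega
  -- counting
  have hun : K ∪ K.biUnion (fun v => ball G (W' \ K) (X v) 1) ⊆ W' := by
    apply union_subset h1
    rw [biUnion_subset]
    intro v hv
    exact (ball_subset (hX v hv).1 1).trans sdiff_subset
  have hd : Disjoint K (K.biUnion (fun v => ball G (W' \ K) (X v) 1)) := by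
    rw [disjoint_biUnion_right]
    intro v hv
    rw [disjoint_right]
    intro z hz
    exact (mem_sdiff.1 (ball_subset (hX v hv).1 1 hz)).2
  have hb : (K.biUnion (fun v => ball G (W' \ K) (X v) 1)).card
      = ∑ v ∈ K, (ball G (W' \ K) (X v) 1).card := card_biUnion hdisj
  have hs : K.card * (m - 1) ≤ ∑ v ∈ K, (ball G (W' \ K) (X v) 1).card := by
    rw [← smul_eq_mul]
    exact card_nsmul_le_sum _ _ _ hcard
  have h6 := card_le_card hun
  rw [card_union_of_disjoint hd, hb, h3] at h6
  have h7 : K.card = m - 1 := by omega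
  rw [h7] at h6 hs
  have h8 : (m - 1) * a ≤ (m - 1) * (m - 1) := Nat.mul_le_mul_left _ (by omega)
  omega

end Vale.Agent.P048.L
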