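import Vale.Agent.P048.SmallC

namespace Vale.Agent.P048.L

open Finset

variable {V : Type*} [DecidableEq V] {G : SimpleGraph V} {O W K : Finset V} {a m : ℕ}

/-- pairwise far regions at the ports of a clique -/
theorem ports {n ρ : ℕ} (hW : AlphaLe G W a) {P : Finset V} {X : V → V}
    (hX : ∀ v ∈ P, X v ∈ O ∧ G.Adj v (X v)) (hOW : O ⊆ W)
    (hno : ∀ v ∈ P, ∀ v' ∈ P, v ≠ v' → ∀ q, Bridge G O v v' q → q.length ≤ n → False)
    {c : V → ℕ} (hI : ∀ v ∈ P, ∃ I, I ⊆ ball G O (X v) ρ ∧ Ind G I ∧ c v ≤ I.card)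
    (hρ : 2 * ρ + 2 ≤ n) : ∑ v ∈ P, c v ≤ a := by
  classical
  have hI' : ∀ v, ∃ I, v ∈ P → I ⊆ ball G O (X v) ρ ∧ Ind G I ∧ c v ≤ I.card := by
    intro v
    by_cases hv : v ∈ P
    · obtain ⟨I, hI⟩ := hI v hv
      exact ⟨I, fun _ => hI⟩
    · exact ⟨∅, fun h => absurd h hv⟩
  choose I hI2 using hI'
  have hfar : ∀ v ∈ P, ∀ v' ∈ P, v ≠ v' →
      Far G (ball G O (X v) ρ) (ball G O (X v') ρ) := by
    intro v hv v' hv' hne
    by_contra hnf
    obtain ⟨q, hq, hql⟩ := touch_chain (A := {X v}) (B := {X v'}) (hX v hv).1 (hX v' hv').1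
      (mem_singleton_self _) (mem_singleton_self _) hnf
    exact hno v hv v' hv' hne q (chn_bridge hq (hX v hv).2 (hX v' hv').2) (hql.trans hρ)
  have hd : ∀ v ∈ P, ∀ v' ∈ P, v ≠ v' → Disjoint (I v) (I v') := by
    intro v hv v' hv' hne
    rw [disjoint_left]
    intro z hz hz'
    exact (hfar v hv v' hv' hne z ((hI2 v hv).1 hz) z ((hI2 v' hv').1 hz')).1 rfl
  have h1 := hW (P.biUnion I) (by
    rw [biUnion_subset]
    intro v hv
    exact ((hI2 v hv).1.trans (ball_subset (hX v hv).1 ρ)).trans hOW) (by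
    intro s hs t ht
    rw [mem_biUnion] at hs ht
    obtain ⟨v, hv, hs⟩ := hs
    obtain ⟨v', hv', ht⟩ := ht
    by_cases hne : v = v'
    · subst hne
      exact (hI2 v hv).2.1 s hs t ht
    · exact (hfar v hv v' hv' hne s ((hI2 v hv).1 hs) t ((hI2 v' hv').1 ht)).2)
  rw [card_biUnion hd] at h1
  exact (sum_le_sum (fun v hv => (hI2 v hv).2.2)).trans h1

/-- a set larger than every clique contains two independent vertices -/
theorem exists_two {D : Finset V} {w : ℕ} (hcl : ∀ K, K ⊆ D → IsClq G K → K.card ≤ w)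
    (hD : w < D.card) : ∃ I, I ⊆ D ∧ Ind G I ∧ I.card = 2 := by
  apply exists_ind_of_not_alphaLe
  intro h
  have := hcl D (Subset.refl _) (alpha_one h)
  omega

omit [DecidableEq V] in
theorem bridge_one {v v' z : V} (hz : z ∈ O) (h1 : G.Adj v z) (h2 : G.Adj v' z) :
    Bridge G O v v' [z] := by
  refine ⟨by simp, by simp, ?_, ?_, ?_⟩
  · intro y hy
    rw [List.mem_singleton] at hy
    rw [hy]; exact hz
  · intro y hy
    simp only [List.head?_cons, Option.mem_def, Option.some.injEq] at hy
    rw [← hy]; exact h1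
  · intro y hy
    simp only [List.getLast?_singleton, Option.mem_def, Option.some.injEq] at hy
    rw [← hy]; exact h2.symm

/-- `bc_fill` with an explicit count of the clique vertices on the path -/
theorem fill_list {Q : List V} {s : Finset V} (hK : IsClq G K) (hKW : K ⊆ W)
    (hn : Q.Nodup) (hc : Q.IsChain G.Adj) (hQW : ∀ x ∈ Q, x ∈ W) (hhd : ∀ x ∈ Q.head?, x ∈ K)
    (hlt : ∀ x ∈ Q.getLast?, x ∈ K) (h2 : 2 ≤ Q.length) (h1 : Q.length ≤ m)
    (hs : ∀ x ∈ Q, x ∈ K → x ∈ s) (h3 : m + s.card ≤ Q.length + K.card) : HasCyc G W m := by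
  refine bc_fill hK hKW ⟨hn, hc⟩ hQW hhd hlt h2 h1 ?_
  have h4 : K \ s ⊆ K \ Q.toFinset := by
    intro x hx
    rw [mem_sdiff] at hx ⊢
    refine ⟨hx.1, fun h => hx.2 (hs x (List.mem_toFinset.1 h) hx.1)⟩
  have h5 := card_le_card h4
  have h6 := le_card_sdiff s K
  omega

/-- two ears with disjoint ends -/
theorem ear_A (hK : IsClq G K) (hKW : K ⊆ W) (hKc : K.card + 2 = m) (h6 : 6 ≤ m)
    {x z u u' v v' : V} (hx : x ∈ W \ K) (hz : z ∈ W \ K) (hxz : x ≠ z) (hu : u ∈ K)
    (hu' : u' ∈ K) (hv : v ∈ K) (hv' : v' ∈ K) (h1 : u ≠ u') (h2 : v ≠ v') (h3 : v ≠ u)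
    (h4 : v ≠ u') (h5 : v' ≠ u) (h5' : v' ≠ u') (a1 : G.Adj u x) (a2 : G.Adj u' x)
    (a3 : G.Adj v z) (a4 : G.Adj v' z) : HasCyc G W m := by
  rw [mem_sdiff] at hx hz
  have nz : ∀ y ∈ K, y ≠ z := by
    rintro y hy rfl
    exact hz.2 hy
  have nx : ∀ y ∈ K, y ≠ x := by
    rintro y hy rfl
    exact hx.2 hy
  refine fill_list (Q := [v, z, v', u, x, u']) (s := {v, v', u, u'}) hK hKW ?_ ?_ ?_ ?_ ?_
    (by simp) (by simp; omega) ?_ ?_
  · simp only [List.nodup_cons, List.mem_cons, List.not_mem_nil, or_false, not_or, List.nodup_nil,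
      not_false_eq_true, and_true]
    exact ⟨⟨nz v hv, h2, h3, nx v hv, h4⟩, ⟨(nz v' hv').symm, (nz u hu).symm, hxz.symm,
      (nz u' hu').symm⟩, ⟨h5, nx v' hv', h5'⟩, ⟨nx u hu, h1⟩, (nx u' hu').symm⟩
  · simp only [List.isChain_cons_cons, List.isChain_singleton, and_true]
    exact ⟨a3, a4.symm, hK v' hv' u hu h5, a1, a2.symm⟩
  · intro y hy
    simp only [List.mem_cons, List.not_mem_nil, or_false] at hy
    rcases hy with rfl | rfl | rfl | rfl | rfl | rfl
    · exact hKW hv
    · exact hz.1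
    · exact hKW hv'
    · exact hKW hu
    · exact hx.1
    · exact hKW hu'
  · intro y hy
    simp only [List.head?_cons, Option.mem_def, Option.some.injEq] at hy
    rw [← hy]; exact hv
  · intro y hy
    simp only [List.getLast?_cons_cons, List.getLast?_singleton, Option.mem_def,
      Option.some.injEq] at hy
    rw [← hy]; exact hu'
  · intro y hy hyK
    simp only [List.mem_cons, List.not_mem_nil, or_false] at hy
    simp only [mem_insert, mem_singleton]
    rcases hy with rfl | rfl | rfl | rfl | rfl | rfl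
    · simp
    · exact absurd hyK hz.2
    · simp
    · simp
    · exact absurd hyK hx.2
    · simp
  · have := card_le_four (a := v) (b := v') (c := u) (d := u')
    simp only [List.length_cons, List.length_nil]
    omega

/-- two ears sharing one end -/
theorem ear_B (hK : IsClq G K) (hKW : K ⊆ W) (hKc : K.card + 2 = m) (h6 : 5 ≤ m)
    {x z u u' v : V} (hx : x ∈ W \ K) (hz : z ∈ W \ K) (hxz : x ≠ z) (hu : u ∈ K)
    (hu' : u' ∈ K) (hv : v ∈ K) (h1 : u ≠ u') (h3 : v ≠ u)
    (h4 : v ≠ u') (a1 : G.Adj u x) (a2 : G.Adj u' x)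
    (a3 : G.Adj v z) (a4 : G.Adj u z) : HasCyc G W m := by
  rw [mem_sdiff] at hx hz
  have nz : ∀ y ∈ K, y ≠ z := by
    rintro y hy rfl
    exact hz.2 hy
  have nx : ∀ y ∈ K, y ≠ x := by
    rintro y hy rfl
    exact hx.2 hy
  refine fill_list (Q := [v, z, u, x, u']) (s := {v, u, u'}) hK hKW ?_ ?_ ?_ ?_ ?_
    (by simp) (by simp; omega) ?_ ?_
  · simp only [List.nodup_cons, List.mem_cons, List.not_mem_nil, or_false, not_or, List.nodup_nil,
      not_false_eq_true, and_true]
    exact ⟨⟨nz v hv, h3, nx v hv, h4⟩, ⟨(nz u hu).symm, hxz.symm,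
      (nz u' hu').symm⟩, ⟨nx u hu, h1⟩, (nx u' hu').symm⟩
  · simp only [List.isChain_cons_cons, List.isChain_singleton, and_true]
    exact ⟨a3, a4.symm, a1, a2.symm⟩
  · intro y hy
    simp only [List.mem_cons, List.not_mem_nil, or_false] at hy
    rcases hy with rfl | rfl | rfl | rfl | rfl
    · exact hKW hv
    · exact hz.1
    · exact hKW hu
    · exact hx.1
    · exact hKW hu'
  · intro y hy
    simp only [List.head?_cons, Option.mem_def, Option.some.injEq] at hy
    rw [← hy]; exact hv
  · intro y hy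
    simp only [List.getLast?_cons_cons, List.getLast?_singleton, Option.mem_def,
      Option.some.injEq] at hy
    rw [← hy]; exact hu'
  · intro y hy hyK
    simp only [List.mem_cons, List.not_mem_nil, or_false] at hy
    simp only [mem_insert, mem_singleton]
    rcases hy with rfl | rfl | rfl | rfl | rfl
    · simp
    · exact absurd hyK hz.2
    · simp
    · exact absurd hyK hx.2
    · simp
  · have := card_le_three (a := v) (b := u) (c := u')
    simp only [List.length_cons, List.length_nil]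
    omega

/-- an ear with two outside vertices -/
theorem ear_C (hK : IsClq G K) (hKW : K ⊆ W) (hKc : K.card + 2 = m) (h6 : 4 ≤ m)
    {x z u v : V} (hx : x ∈ W \ K) (hz : z ∈ W \ K) (hxz : x ≠ z) (hu : u ∈ K)
    (hv : v ∈ K) (h3 : v ≠ u) (a1 : G.Adj u x) (a3 : G.Adj v z) (a4 : G.Adj z x) :
    HasCyc G W m := by
  rw [mem_sdiff] at hx hz
  have nz : ∀ y ∈ K, y ≠ z := by
    rintro y hy rfl
    exact hz.2 hy
  have nx : ∀ y ∈ K, y ≠ x := by
    rintro y hy rfl
    exact hx.2 hy
  refine fill_list (Q := [v, z, x, u]) (s := {v, u}) hK hKW ?_ ?_ ?_ ?_ ?_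
    (by simp) (by simp; omega) ?_ ?_
  · simp only [List.nodup_cons, List.mem_cons, List.not_mem_nil, or_false, not_or, List.nodup_nil,
      not_false_eq_true, and_true]
    exact ⟨⟨nz v hv, nx v hv, h3⟩, ⟨hxz.symm, (nz u hu).symm⟩, (nx u hu).symm⟩
  · simp only [List.isChain_cons_cons, List.isChain_singleton, and_true]
    exact ⟨a3, a4, a1.symm⟩
  · intro y hy
    simp only [List.mem_cons, List.not_mem_nil, or_false] at hy
    rcases hy with rfl | rfl | rfl | rfl
    · exact hKW hv
    · exact hz.1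
    · exact hx.1
    · exact hKW hu
  · intro y hy
    simp only [List.head?_cons, Option.mem_def, Option.some.injEq] at hy
    rw [← hy]; exact hv
  · intro y hy
    simp only [List.getLast?_cons_cons, List.getLast?_singleton, Option.mem_def,
      Option.some.injEq] at hy
    rw [← hy]; exact hu
  · intro y hy hyK
    simp only [List.mem_cons, List.not_mem_nil, or_false] at hy
    simp only [mem_insert, mem_singleton]
    rcases hy with rfl | rfl | rfl | rfl
    · simp
    · exact absurd hyK hz.2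
    · exact absurd hyK hx.2
    · simp
  · have := card_le_two (a := v) (b := u)
    simp only [List.length_cons, List.length_nil]
    omega

/-- two ears of length one never coexist, unless they have the same ends -/
theorem ear_pair (hK : IsClq G K) (hKW : K ⊆ W) (hno : ¬ HasCyc G W m) (hKc : K.card + 2 = m)
    (h6 : 6 ≤ m) {x z u u' v v' : V} (hx : x ∈ W \ K) (hz : z ∈ W \ K) (hxz : x ≠ z) (hu : u ∈ K)
    (hu' : u' ∈ K) (hv : v ∈ K) (hv' : v' ∈ K) (h1 : u ≠ u') (h2 : v ≠ v') (a1 : G.Adj u x)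
    (a2 : G.Adj u' x) (a3 : G.Adj v z) (a4 : G.Adj v' z) :
    (v = u ∧ v' = u') ∨ (v = u' ∧ v' = u) := by
  by_contra hcon
  push Not at hcon
  by_cases e1 : v = u
  · have e2 : v' ≠ u' := hcon.1 e1
    have e3 : v' ≠ u := fun h => h2 (e1.trans h.symm)
    rw [e1] at a3
    exact hno (ear_B hK hKW hKc (by omega) hx hz hxz hu hu' hv' h1 e3 e2 a1 a2 a4 a3)
  · by_cases e2 : v = u'
    · have e3 : v' ≠ u := hcon.2 e2
      have e4 : v' ≠ u' := fun h => h2 (e2.trans h.symm)
      rw [e2] at a3
      exact hno (ear_B hK hKW hKc (by omega) hx hz hxz hu' hu hv' h1.symm e4 e3 a2 a1 a4 a3)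
    · by_cases e3 : v' = u
      · rw [e3] at a4
        exact hno (ear_B hK hKW hKc (by omega) hx hz hxz hu hu' hv h1 e1 e2 a1 a2 a3 a4)
      · by_cases e4 : v' = u'
        · rw [e4] at a4
          exact hno (ear_B hK hKW hKc (by omega) hx hz hxz hu' hu hv h1.symm e2 e1 a2 a1 a3 a4)
        · exact hno (ear_A hK hKW hKc h6 hx hz hxz hu hu' hv hv' h1 h2 e1 e2 e3 e4 a1 a2 a3 a4)

/-- A maximum clique on `m - 2` vertices is impossible in a minimal counterexample. -/
theorem clq_m2 (E : Env0 G W a m) (ham : a + 1 ≤ m) (hm : 7 ≤ m) (hK : IsClq G K) (hKW : K ⊆ W)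
    (hKc : K.card + 2 = m) (hmax : ∀ K', K' ⊆ W → IsClq G K' → K'.card ≤ K.card) : False := by
  classical
  by_cases hear : ∃ x ∈ W \ K, ∃ u ∈ K, ∃ u' ∈ K, u ≠ u' ∧ G.Adj u x ∧ G.Adj u' x
  · obtain ⟨x, hx, u, hu, u', hu', huu, a1, a2⟩ := hear
    have hxK : x ∉ K := (mem_sdiff.1 hx).2
    have hZc : (insert x K).card = K.card + 1 := card_insert_of_notMem hxK
    have hOsub : ∀ z ∈ W \ insert x K, z ∈ W \ K ∧ x ≠ z := by
      intro z hz
      rw [mem_sdiff, mem_insert, not_or] at hz
      exact ⟨mem_sdiff.2 ⟨hz.1, hz.2.2⟩, fun h => hz.2.1 h.symm⟩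
    have hex : ∀ v, ∃ y, v ∈ K → y ∈ W \ insert x K ∧ G.Adj v y := by
      intro v
      by_cases hv : v ∈ K
      · obtain ⟨y, hy, hvy⟩ := exists_port E (F := insert x K) (mem_insert_of_mem hv) (hKW hv)
          (by omega)
        exact ⟨y, fun _ => ⟨hy, hvy⟩⟩
      · exact ⟨v, fun h => absurd h hv⟩
    choose X hX using hex
    have hnox : ∀ v ∈ K, ∀ z ∈ W \ insert x K, G.Adj v z → ¬ G.Adj z x := by
      intro v hv z hz hvz hzx
      obtain ⟨hz1, hz2⟩ := hOsub z hz
      by_cases hvu : v = u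
      · exact E.hno (ear_C hK hKW hKc (by omega) hx hz1 hz2 hu' hv (fun h => huu (hvu.symm.trans h))
          a2 hvz hzx)
      · exact E.hno (ear_C hK hKW hKc (by omega) hx hz1 hz2 hu hv hvu a1 hvz hzx)
    have hno : ∀ v ∈ K.erase u', ∀ v' ∈ K.erase u', v ≠ v' → ∀ q,
        Bridge G (W \ insert x K) v v' q → q.length ≤ m - 2 → False := by
      intro v hv v' hv' hne q hq hql
      rw [mem_erase] at hv hv'
      obtain ⟨q', hq', hqn, hql'⟩ := bridge_nodup ⟨q, hq, hql⟩
      have h1 : 1 ≤ q'.length := List.length_pos_iff.2 hq'.1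
      rcases Nat.lt_or_ge 1 q'.length with h2 | h2
      · exact E.hno (fill_bridge hK hKW hv.2 hv'.2 hne (fun x hx => (mem_sdiff.1 (hOsub x hx).1).2)
          sdiff_subset hq' hqn (by omega) (by omega))
      · obtain ⟨z, rfl⟩ := List.length_eq_one_iff.1 (show q'.length = 1 by omega)
        obtain ⟨_, _, h3, h4, h5⟩ := hq'
        obtain ⟨hz1, hz2⟩ := hOsub z (h3 z (by simp))
        rcases ear_pair hK hKW E.hno hKc (by omega) hx hz1 hz2 hu hu' hv.2 hv'.2 huu hne a1 a2
          (h4 z (by simp)) (h5 z (by simp)).symm with h | h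
        · exact hv'.1 h.2
        · exact hv.1 h.1
    have hsum := ports (n := m - 2) (ρ := 1) (P := K.erase u') (X := X)
      (c := fun v => if v = u then 1 else 2) E.hW
      (fun v hv => hX v (mem_of_mem_erase hv)) sdiff_subset hno (by
        intro v hv
        rw [mem_erase] at hv
        obtain ⟨hy, hvy⟩ := hX v hv.2
        by_cases hvu : v = u
        · refine ⟨{X v}, singleton_subset_iff.2 (self_mem_ball 1), ind_singleton _, ?_⟩
          simp [hvu]
        · have h4 := nbhd_big E hy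
          have h5 : ((insert x K).filter (G.Adj (X v))).card ≤ 1 := by
            rw [card_le_one]
            have : ∀ w ∈ (insert x K).filter (G.Adj (X v)), w = v := by
              intro w hw
              rw [mem_filter, mem_insert] at hw
              obtain ⟨hz1, hz2⟩ := hOsub _ hy
              rcases hw with ⟨rfl | hwK, hadj⟩
              · exact absurd hadj (hnox v hv.2 _ hy hvy)
              · by_contra hne
                rcases ear_pair hK hKW E.hno hKc (by omega) hx hz1 hz2 hu hu' hv.2 hwK huu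
                  (Ne.symm hne) a1 a2 hvy hadj.symm with h | h
                · exact hvu h.1
                · exact hv.1 h.1
            intro w hw w' hw'
            rw [this w hw, this w' hw']
          obtain ⟨I, h6, h7, h8⟩ := exists_two (G := G) (w := K.card)
            (D := ball G (W \ insert x K) (X v) 1)
            (fun K' hK' hKc' => hmax K' (hK'.trans ((ball_subset hy 1).trans sdiff_subset)) hKc')
            (by omega)
          refine ⟨I, h6, h7, ?_⟩
          simp only [hvu, if_false]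
          omega) (by omega)
    have huP : u ∈ K.erase u' := mem_erase.2 ⟨huu, hu⟩
    rw [← add_sum_erase _ _ huP] at hsum
    have h9 : ∑ v ∈ (K.erase u').erase u, (if v = u then 1 else 2) =
        ∑ v ∈ (K.erase u').erase u, 2 := by
      refine sum_congr rfl fun v hv => ?_
      rw [if_neg (mem_erase.1 hv).1]
    rw [h9, sum_const, card_erase_of_mem huP, card_erase_of_mem hu'] at hsum
    simp only [if_true, smul_eq_mul] at hsum
    omega
  · push Not at hear
    have hex : ∀ v, ∃ y, v ∈ K → y ∈ W \ K ∧ G.Adj v y := by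
      intro v
      by_cases hv : v ∈ K
      · obtain ⟨y, hy, hvy⟩ := exists_port E (F := K) hv (hKW hv) (by omega)
        exact ⟨y, fun _ => ⟨hy, hvy⟩⟩
      · exact ⟨v, fun h => absurd h hv⟩
    choose X hX using hex
    have hno : ∀ v ∈ K, ∀ v' ∈ K, v ≠ v' → ∀ q,
        Bridge G (W \ K) v v' q → q.length ≤ m - 2 → False := by
      intro v hv v' hv' hne q hq hql
      obtain ⟨q', hq', hqn, hql'⟩ := bridge_nodup ⟨q, hq, hql⟩
      have h1 : 1 ≤ q'.length := List.length_pos_iff.2 hq'.1
      rcases Nat.lt_or_ge 1 q'.length with h2 | h2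
      · exact E.hno (fill_bridge hK hKW hv hv' hne (fun x hx => (mem_sdiff.1 hx).2)
          sdiff_subset hq' hqn (by omega) (by omega))
      · obtain ⟨z, rfl⟩ := List.length_eq_one_iff.1 (show q'.length = 1 by omega)
        obtain ⟨_, _, h3, h4, h5⟩ := hq'
        exact hear z (h3 z (by simp)) v hv v' hv' hne (h4 z (by simp)) (h5 z (by simp)).symm
    have hsum := ports (n := m - 2) (ρ := 1) (P := K) (X := X)
      (c := fun _ => 2) E.hW hX sdiff_subset hno (by
        intro v hv
        obtain ⟨hy, hvy⟩ := hX v hv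
        have h4 := nbhd_big E hy
        have h5 : (K.filter (G.Adj (X v))).card ≤ 1 := by
          rw [card_le_one]
          have : ∀ w ∈ K.filter (G.Adj (X v)), w = v := by
            intro w hw
            rw [mem_filter] at hw
            by_contra hne
            exact hear _ hy v hv w hw.1 (Ne.symm hne) hvy hw.2.symm
          intro w hw w' hw'
          rw [this w hw, this w' hw']
        obtain ⟨I, h6, h7, h8⟩ := exists_two (G := G) (w := K.card)
          (D := ball G (W \ K) (X v) 1)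
          (fun K' hK' hKc' => hmax K' (hK'.trans ((ball_subset hy 1).trans sdiff_subset)) hKc')
          (by omega)
        exact ⟨I, h6, h7, by omega⟩) (by omega)
    rw [sum_const, smul_eq_mul] at hsum
    omega

end Vale.Agent.P048.L
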