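import Vale.Agent.P048.Raw
import Vale.Agent.P048.Eng2

namespace Vale.Agent.P048

open Finset

variable {V : Type*} [DecidableEq V]

noncomputable def Tf (t A : ℕ) (E : ℕ → ℕ) (b : ℕ) : ℕ := if b = 0 then 1 else t * b + E (min b A)

theorem Tf_zero (t A : ℕ) (E : ℕ → ℕ) : Tf t A E 0 = 1 := rfl

theorem Tf_val {t A : ℕ} {E : ℕ → ℕ} {x : ℕ} (hx : 1 ≤ x) (hxA : x ≤ A) :
    Tf t A E x = t * x + E x := by
  have h1 : x ≠ 0 := by omega
  unfold Tf
  rw [if_neg h1, min_eq_left hxA]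

theorem Tf_mono {t A : ℕ} {E : ℕ → ℕ} (hE : Tab E A) (ht : 1 ≤ t) (hA : 1 ≤ A) :
    Monotone (Tf t A E) := by
  intro x y hxy
  unfold Tf
  rcases Nat.eq_zero_or_pos x with rfl | hx
  · rcases Nat.eq_zero_or_pos y with rfl | hy
    · exact le_rfl
    · have h1 : y ≠ 0 := by omega
      rw [if_pos rfl, if_neg h1]
      have : t * 1 ≤ t * y := Nat.mul_le_mul_left _ hy
      omega
  · have h1 : x ≠ 0 := by omega
    have h2 : y ≠ 0 := by omega
    rw [if_neg h1, if_neg h2]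
    have a1 : t * x ≤ t * y := Nat.mul_le_mul_left _ hxy
    have a2 : E (min x A) ≤ E (min y A) := hE.le (by omega) (by omega) (by omega)
    omega

noncomputable def chkS (N H A t1 t2 mlo mhi w t0 N0 : ℕ) : Bool :=
  and (Nat.beq (dg N 20 1) 0) (and (allb (fun i => and (Nat.ble (dg N 20 (i + 1))
    (dg N 20 (i + 2))) (or (Nat.beq (i + 2) A) (Nat.ble (dg N 20 (i + 2) + dg N 20 (i + 2))
      (dg N 20 (i + 1) + dg N 20 (i + 3))))) (A - 1))
  (allb (fun i => or (Nat.ble i 1) (and (Nat.ble (t0 * i + dg N0 20 i) (t1 * i + dg N 20 i))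
    (chkZR N t1 t2 mlo mhi i (dg H 16 i % 1024) (dg H 16 i / 1024)
      (cond (Nat.ble (dg H 16 i % 1024 + 2) w) (dg H 16 i % 1024 + 2)
        (chainR i (t1 + (dg N 20 i - dg N 20 (i - 1))) (dg H 16 i % 1024 + 1)
          (dg H 16 i % 1024) 1))))) (A + 1)))

theorem tab_of_chkS {N H A t1 t2 mlo mhi w t0 N0 : ℕ}
    (h : chkS N H A t1 t2 mlo mhi w t0 N0 = true) : Tab (dg N 20) A := by
  unfold chkS at h
  rw [Bool.and_eq_true, Bool.and_eq_true] at h
  obtain ⟨h1, h2, _⟩ := h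
  have h2' := allb_spec h2
  refine ⟨Nat.eq_of_beq_eq_true h1, ?_, ?_⟩
  · intro b hb1 hb2
    have := h2' (b - 1) (by omega)
    rw [Bool.and_eq_true, Nat.ble_eq] at this
    have e1 : b - 1 + 1 = b := by omega
    have e2 : b - 1 + 2 = b + 1 := by omega
    rw [e1, e2] at this
    exact this.1
  · intro b hb1 hb2
    have := h2' (b - 1) (by omega)
    rw [Bool.and_eq_true, Bool.or_eq_true, Nat.ble_eq, Nat.ble_eq] at this
    have e1 : b - 1 + 1 = b := by omega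
    have e2 : b - 1 + 2 = b + 1 := by omega
    have e3 : b - 1 + 3 = b + 2 := by omega
    rw [e1, e2, e3] at this
    rcases this.2 with h3 | h3
    · have := Nat.eq_of_beq_eq_true h3
      omega
    · exact h3

theorem stage {G : SimpleGraph V} {W : Finset V} {N H A t1 t2 mlo mhi w t0 N0 t m : ℕ}
    {T0 : ℕ → ℕ} (h : chkS N H A t1 t2 mlo mhi w t0 N0 = true) (ht1 : t1 ≤ t) (ht2 : t ≤ t2)
    (ht : 1 ≤ t) (hA : 2 ≤ A) (hm0 : 1 ≤ m) (hm1 : mlo ≤ m) (hm2 : m ≤ mhi)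
    (hmT : m ≤ t * 2 + dg N 20 2)
    (hT0 : ∀ b, 2 ≤ b → b ≤ A → T0 b = t0 * b + dg N0 20 b) (hno : ¬ HasCyc G W m)
    (hP : CliqueOK G W A T0 w) : CliqueOK G W A (Tf t A (dg N 20)) t := by
  have hE := tab_of_chkS h
  unfold chkS at h
  rw [Bool.and_eq_true, Bool.and_eq_true] at h
  have h2 := allb_spec h.2.2
  have hTv : ∀ x, 1 ≤ x → x ≤ A → Tf t A (dg N 20) x = t * x + dg N 20 x :=
    fun x h1 h2 => Tf_val h1 h2
  have hTm := Tf_mono (t := t) hE ht (by omega)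
  apply clique_step hm0 hno hTm (Tf_zero _ _ _) (by
    rw [hTv 1 le_rfl (by omega), hE.e1]; omega) hP
  · intro b hb1 hb2
    have h3 := h2 b (by omega)
    rw [Bool.or_eq_true, Nat.ble_eq, Bool.and_eq_true, Nat.ble_eq] at h3
    have h4 := h3.resolve_left (by omega)
    rw [hT0 b hb1 hb2, hTv b (by omega) hb2]
    have : t1 * b ≤ t * b := Nat.mul_le_mul_right _ ht1
    omega
  · intro b hb1 hb2
    have h3 := h2 b (by omega)
    rw [Bool.or_eq_true, Nat.ble_eq, Bool.and_eq_true, Nat.ble_eq] at h3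
    have h4 := (h3.resolve_left (by omega)).2
    rw [chkZR_eq, chainR_eq] at h4
    have hmb : m ≤ Tf t A (dg N 20) b := by
      have h5 : Tf t A (dg N 20) 2 ≤ Tf t A (dg N 20) b := hTm hb1
      rw [hTv 2 (by omega) hA] at h5
      omega
    set v := dg H 16 b % 1024 with hv
    rcases hc : Nat.ble (v + 2) w with _ | _
    · rw [hc, cond_false] at h4
      obtain ⟨⟨g, k, hN⟩, hz1, _⟩ := numOK_of_chkZ hE hb1 hb2 ht2 hm0 hm1 hm2 hmb hTv h4
      have hch := chain_of_chk (t := t) (T := Tf t A (dg N 20)) hE hb1 hb2 ht1 hTv hz1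
      refine ⟨_, v, _, g, k, hN, hmb, ?_, Or.inl hch⟩
      have := chainNum_le hch
      have := hN.hv
      omega
    · rw [hc, cond_true] at h4
      rw [Nat.ble_eq] at hc
      obtain ⟨⟨g, k, hN⟩, _, _⟩ := numOK_of_chkZ hE hb1 hb2 ht2 hm0 hm1 hm2 hmb hTv h4
      exact ⟨_, v, _, g, k, hN, hmb, by omega, Or.inr ⟨rfl, hc⟩⟩

theorem top_clique {G : SimpleGraph V} {W : Finset V} {A t m a : ℕ} {E : ℕ → ℕ}
    (hE : Tab E A) (hA : A + 1 ≤ m ∨ True) (htm : t < m) (ha1 : 1 ≤ a) (A' : ℕ) (haA' : a ≤ A')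
    (hA' : A' ≤ A) (hEA : E A' ≤ (m - 1 - t) * A' + 1) (hP : CliqueOK G W A (Tf t A E) t)
    (hW : AlphaLe G W a) (hc : (m - 1) * a + 1 ≤ W.card) :
    ∃ K, K ⊆ W ∧ (∀ x ∈ K, ∀ y ∈ K, x ≠ y → G.Adj x y) ∧ K.card = t := by
  apply hP W (Finset.Subset.refl _) a ha1 (by omega) hW
  refine le_trans ?_ hc
  rw [Tf_val ha1 (by omega)]
  have hst := hE.star ha1 haA' hA'
  have e : (m - 1) * a = t * a + (m - 1 - t) * a := by
    rw [← Nat.add_mul]; congr 1; omega
  rw [e]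
  have key : E a ≤ (m - 1 - t) * a + 1 := by
    by_contra hcon
    push Not at hcon
    have h1 : E A' * a ≤ ((m - 1 - t) * A' + 1) * a := Nat.mul_le_mul_right _ hEA
    have h2 : ((m - 1 - t) * a + 2) * A' ≤ E a * A' := Nat.mul_le_mul_right _ hcon
    have e1 : ((m - 1 - t) * a + 2) * A' = (m - 1 - t) * a * A' + 2 * A' := by ring
    have e2 : ((m - 1 - t) * A' + 1) * a = (m - 1 - t) * a * A' + a := by ring
    rw [e2] at h1
    rw [e1] at h2
    omega
  omega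

end Vale.Agent.P048
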