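import Vale.Agent.P048.Blk

namespace Vale.Agent.P048

open Finset

variable {V : Type*} [DecidableEq V]

theorem ChainNum.mono_b {b b' e z v : ℕ} (h : ChainNum b' e z v) (hb : b ≤ b') :
    ChainNum b e z v := by
  induction h with
  | start => exact ChainNum.start
  | step k _ hk ih =>
    refine ih.step k ?_
    have := Nat.mul_le_mul_left k hb
    omega

theorem find_block {s : ℕ → ℕ} {b : ℕ} : ∀ {n : ℕ}, s 0 ≤ b → b < s n →
    ∃ i, i < n ∧ s i ≤ b ∧ b < s (i + 1)
  | 0, h0, h1 => by omega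
  | n + 1, h0, h1 => by
    rcases Nat.lt_or_ge b (s n) with h | h
    · obtain ⟨i, hi, h2, h3⟩ := find_block h0 h
      exact ⟨i, by omega, h2, h3⟩
    · exact ⟨n, by omega, h, h1⟩

noncomputable def chkSB (N H nb A t1 t2 mlo mhi w t0 N0 : ℕ) : Bool :=
  and (Nat.beq (dg N 20 1) 0) (and (allb (fun i => and (Nat.ble (dg N 20 (i + 1))
    (dg N 20 (i + 2))) (or (Nat.beq (i + 2) A) (Nat.ble (dg N 20 (i + 2) + dg N 20 (i + 2))
      (dg N 20 (i + 1) + dg N 20 (i + 3))))) (A - 1))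
  (and (allb (fun i => or (Nat.ble i 1) (Nat.ble (t0 * i + dg N0 20 i) (t1 * i + dg N 20 i)))
    (A + 1))
  (and (Nat.beq (dg H 32 0 % 4096) 2) (and (Nat.beq (dg H 32 nb % 4096) (A + 1))
  (allb (fun i => and (Nat.ble 2 (dg H 32 i % 4096)) (and
    (Nat.ble (dg H 32 (i + 1) % 4096) (A + 1))
    (chkBl N t2 mlo mhi (dg H 32 i % 4096) (dg H 32 (i + 1) % 4096 - 1)
      (dg H 32 i / 4096 % 4096) (dg H 32 i / 16777216)
      (cond (Nat.ble (dg H 32 i / 4096 % 4096 + 2) w) (dg H 32 i / 4096 % 4096 + 2)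
        (chainR (dg H 32 (i + 1) % 4096 - 1) (t1 + (dg N 20 (dg H 32 i % 4096) -
          dg N 20 (dg H 32 i % 4096 - 1))) (dg H 32 i / 4096 % 4096 + 1)
          (dg H 32 i / 4096 % 4096) 1))))) nb)))))

theorem tab_of_chkSB {N H nb A t1 t2 mlo mhi w t0 N0 : ℕ}
    (h : chkSB N H nb A t1 t2 mlo mhi w t0 N0 = true) : Tab (dg N 20) A := by
  unfold chkSB at h
  rw [Bool.and_eq_true, Bool.and_eq_true] at h
  obtain ⟨h1, h2, _⟩ := h
  have h2' := allb_spec h2
  refine ⟨Nat.eq_of_beq_eq_true h1, ?_, ?_⟩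
  · intro b hb1 hb2
    have := h2' (b - 1) (by omega)
    rw [Bool.and_eq_true, Nat.ble_eq] at this
    have e1 : b - 1 + 1 = b := by omega
    have e2 : b - 1 + 2 = b + 1 := by omega
    rw [e1, e2] at this
    exact this.1
  · intro b hb1 hb2
    have := h2' (b - 1) (by omega)
    rw [Bool.and_eq_true, Bool.or_eq_true, Nat.ble_eq, Nat.ble_eq] at this
    have e1 : b - 1 + 1 = b := by omega
    have e2 : b - 1 + 2 = b + 1 := by omega
    have e3 : b - 1 + 3 = b + 2 := by omega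
    rw [e1, e2, e3] at this
    rcases this.2 with h3 | h3
    · have := Nat.eq_of_beq_eq_true h3
      omega
    · exact h3

theorem stageB {G : SimpleGraph V} {W : Finset V} {N H nb A t1 t2 mlo mhi w t0 N0 t m : ℕ}
    {T0 : ℕ → ℕ} (h : chkSB N H nb A t1 t2 mlo mhi w t0 N0 = true) (ht1 : t1 ≤ t)
    (ht2 : t ≤ t2) (ht : 1 ≤ t) (hA : 2 ≤ A) (hm0 : 1 ≤ m) (hm1 : mlo ≤ m) (hm2 : m ≤ mhi)
    (hmT : m ≤ t * 2 + dg N 20 2)
    (hT0 : ∀ b, 2 ≤ b → b ≤ A → T0 b = t0 * b + dg N0 20 b) (hno : ¬ HasCyc G W m)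
    (hP : CliqueOK G W A T0 w) : CliqueOK G W A (Tf t A (dg N 20)) t := by
  have hE := tab_of_chkSB h
  unfold chkSB at h
  simp only [Bool.and_eq_true] at h
  obtain ⟨_, _, hpt, hs0, hsn, hbl⟩ := h
  have hpt' := allb_spec hpt
  have hbl' := allb_spec hbl
  have hTv : ∀ x, 1 ≤ x → x ≤ A → Tf t A (dg N 20) x = t * x + dg N 20 x :=
    fun x h1 h2 => Tf_val h1 h2
  have hTm := Tf_mono (t := t) hE ht (by omega)
  apply clique_step hm0 hno hTm (Tf_zero _ _ _) (by
    rw [hTv 1 le_rfl (by omega), hE.e1]; omega) hP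
  · intro b hb1 hb2
    have h3 := hpt' b (by omega)
    rw [Bool.or_eq_true, Nat.ble_eq, Nat.ble_eq] at h3
    have h4 := h3.resolve_left (by omega)
    rw [hT0 b hb1 hb2, hTv b (by omega) hb2]
    have : t1 * b ≤ t * b := Nat.mul_le_mul_right _ ht1
    omega
  · intro b hb1 hb2
    have hs0' := Nat.eq_of_beq_eq_true hs0
    have hsn' := Nat.eq_of_beq_eq_true hsn
    obtain ⟨i, hi, hi1, hi2⟩ := find_block (s := fun i => dg H 32 i % 4096) (b := b) (n := nb)
      (by rw [hs0']; exact hb1) (by rw [hsn']; omega)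
    have h3 := hbl' i hi
    simp only [Bool.and_eq_true, Nat.ble_eq] at h3
    obtain ⟨h31, h32, h4⟩ := h3
    rw [chainR_eq] at h4
    have hmb : m ≤ Tf t A (dg N 20) b := by
      have h5 : Tf t A (dg N 20) 2 ≤ Tf t A (dg N 20) b := hTm hb1
      rw [hTv 2 (by omega) hA] at h5
      omega
    set v := dg H 32 i / 4096 % 4096 with hv
    set b1 := dg H 32 i % 4096 with hb1d
    set b2 := dg H 32 (i + 1) % 4096 - 1 with hb2d
    rcases hc : Nat.ble (v + 2) w with _ | _
    · rw [hc, cond_false] at h4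
      obtain ⟨⟨g, k, hN⟩, hz1⟩ := numOK_of_chkBl hE h31 hi1 (by omega) (by omega) ht2 hm0 hm1
        hm2 hmb hTv h4
      have hch := chainZ_sound (b := b2) (e := t1 + (dg N 20 b1 - dg N 20 (b1 - 1))) (v + 1) v 1 0
        hz1 ChainNum.start
      rw [Nat.zero_add] at hch
      have hch2 : ChainNum b (Tf t A (dg N 20) b - Tf t A (dg N 20) (b - 1))
          (chainZ b2 (t1 + (dg N 20 b1 - dg N 20 (b1 - 1))) (v + 1) v 1) v := by
        refine (hch.mono_b (by omega)).mono ?_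
        rw [hTv b (by omega) hb2, hTv (b - 1) (by omega) (by omega)]
        have hd := hE.dmono (x := b1 - 1) (y := b - 1) (by omega) (by omega) (by omega)
        have e1 : b1 - 1 + 1 = b1 := by omega
        have e2 : b - 1 + 1 = b := by omega
        rw [e1, e2] at hd
        have hmono := hE.mono (b - 1) (by omega) (by omega)
        rw [e2] at hmono
        have e3 : t * b = t * (b - 1) + t := by
          obtain ⟨c, rfl⟩ : ∃ c, b = c + 1 := ⟨b - 1, by omega⟩
          rw [Nat.add_sub_cancel]; ring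
        rw [e3]
        omega
      refine ⟨_, v, _, g, k, hN, hmb, ?_, Or.inl hch2⟩
      have := chainNum_le hch2
      have := hN.hv
      omega
    · rw [hc, cond_true] at h4
      rw [Nat.ble_eq] at hc
      obtain ⟨⟨g, k, hN⟩, _⟩ := numOK_of_chkBl hE h31 hi1 (by omega) (by omega) ht2 hm0 hm1
        hm2 hmb hTv h4
      exact ⟨_, v, _, g, k, hN, hmb, by omega, Or.inr ⟨rfl, hc⟩⟩

end Vale.Agent.P048
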