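import Vale.Agent.P048.Eng3

namespace Vale.Agent.P048

open Finset

variable {V : Type*} [DecidableEq V]

structure PFlex (G : SimpleGraph V) (q : List V) (t : V) : Prop where
  nd : q.Nodup
  path : ∀ i, i < q.length → ∀ j, j ≤ i / 2 → ∃ l, Pth G l ∧ l.head? = some t ∧
    l.getLast? = q[i]? ∧ (∀ x ∈ l, x ∈ q.take (i + 1)) ∧ l.length + j = i + 1

omit [DecidableEq V] in
theorem pflex_one {G : SimpleGraph V} (t : V) : PFlex G [t] t := by
  refine ⟨by simp, ?_⟩
  intro i hi j hj
  have hi0 : i = 0 := by simpa using hi
  subst hi0
  exact ⟨[t], ⟨by simp, by simp⟩, rfl, rfl, by simp, by simp; omega⟩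

omit [DecidableEq V] in
theorem pflex_extend {G : SimpleGraph V} {q : List V} {t s p1 p2 : V} {R : ℕ}
    (h : PFlex G q t) (hlen : q.length = 2 * R + 1) (hs : q.getLast? = some s)
    (h1 : p1 ∉ q) (h2 : p2 ∉ q) (hs1 : G.Adj s p1) (hs2 : G.Adj s p2) (h12 : G.Adj p1 p2) :
    PFlex G (q ++ [p1, p2]) t := by
  have hsg : q[2 * R]? = some s := by
    rw [List.getLast?_eq_getElem?, hlen] at hs
    exact hs
  have hs' : ∀ j, j ≤ R → ∃ l, Pth G l ∧ l.head? = some t ∧ l.getLast? = some s ∧
      (∀ x ∈ l, x ∈ q) ∧ l.length + j = 2 * R + 1 := by
    intro j hj
    obtain ⟨l, a1, a2, a3, a4, a5⟩ := h.path (2 * R) (by omega) j (by omega)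
    exact ⟨l, a1, a2, by rw [a3, hsg], fun x hx => List.mem_of_mem_take (a4 x hx), a5⟩
  refine ⟨?_, ?_⟩
  · rw [List.nodup_append]
    refine ⟨h.nd, by simpa using G.ne_of_adj h12, ?_⟩
    intro a ha b hb hab
    subst hab
    simp only [List.mem_cons, List.not_mem_nil, or_false] at hb
    rcases hb with rfl | rfl
    · exact h1 ha
    · exact h2 ha
  · intro i hi j hj
    rw [List.length_append, hlen] at hi
    simp only [List.length_cons, List.length_nil] at hi
    rcases Nat.lt_or_ge i (2 * R + 1) with hiR | hiR
    · obtain ⟨l, a1, a2, a3, a4, a5⟩ := h.path i (by omega) j hj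
      refine ⟨l, a1, a2, ?_, ?_, a5⟩
      · rw [a3, List.getElem?_append_left (by omega)]
      · intro x hx
        rw [List.take_append_of_le_length (by omega)]
        exact a4 x hx
    · rcases Nat.eq_or_lt_of_le hiR with hi1 | hi1
      · obtain ⟨l, a1, a2, a3, a4, a5⟩ := hs' j (by omega)
        refine ⟨l ++ [p1], ⟨?_, ?_⟩, ?_, ?_, ?_, ?_⟩
        · rw [List.nodup_append]
          refine ⟨a1.1, by simp, ?_⟩
          intro a ha b hb hab
          subst hab
          rw [List.mem_singleton] at hb
          subst hb
          exact h1 (a4 a ha)
        · rw [List.isChain_append]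
          refine ⟨a1.2, by simp, ?_⟩
          intro x hx y hy
          rw [a3] at hx
          simp only [Option.mem_def, Option.some.injEq, List.head?_cons] at hx hy
          rw [← hx, ← hy]
          exact hs1
        · rw [List.head?_append, a2]; rfl
        · rw [List.getLast?_append, ← hi1, List.getElem?_append_right (by omega)]
          simp [hlen]
        · intro x hx
          rw [List.mem_append, List.mem_singleton] at hx
          rw [← hi1, List.take_append, hlen]
          rw [List.mem_append]
          rcases hx with hx | rfl
          · left
            rw [List.take_of_length_le (by omega)]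
            exact a4 x hx
          · right
            have : 2 * R + 1 + 1 - (2 * R + 1) = 1 := by omega
            rw [this]
            simp
        · rw [List.length_append]
          simp only [List.length_cons, List.length_nil]
          omega
      · have hi2 : i = 2 * R + 2 := by omega
        subst hi2
        rcases Nat.lt_or_ge R j with hjR | hjR
        · obtain ⟨l, a1, a2, a3, a4, a5⟩ := hs' R le_rfl
          refine ⟨l ++ [p2], ⟨?_, ?_⟩, ?_, ?_, ?_, ?_⟩
          · rw [List.nodup_append]
            refine ⟨a1.1, by simp, ?_⟩
            intro a ha b hb hab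
            subst hab
            rw [List.mem_singleton] at hb
            subst hb
            exact h2 (a4 a ha)
          · rw [List.isChain_append]
            refine ⟨a1.2, by simp, ?_⟩
            intro x hx y hy
            rw [a3] at hx
            simp only [Option.mem_def, Option.some.injEq, List.head?_cons] at hx hy
            rw [← hx, ← hy]
            exact hs2
          · rw [List.head?_append, a2]; rfl
          · rw [List.getLast?_append, List.getElem?_append_right (by omega), hlen]
            have : 2 * R + 2 - (2 * R + 1) = 1 := by omega
            rw [this]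
            simp
          · intro x hx
            rw [List.mem_append, List.mem_singleton] at hx
            rw [List.take_of_length_le (by simp [hlen])]
            rw [List.mem_append]
            rcases hx with hx | rfl
            · exact Or.inl (a4 x hx)
            · right; simp
          · rw [List.length_append]
            simp only [List.length_cons, List.length_nil]
            omega
        · obtain ⟨l, a1, a2, a3, a4, a5⟩ := hs' j hjR
          refine ⟨l ++ [p1, p2], ⟨?_, ?_⟩, ?_, ?_, ?_, ?_⟩
          · rw [List.nodup_append]
            refine ⟨a1.1, by simpa using G.ne_of_adj h12, ?_⟩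
            intro a ha b hb hab
            subst hab
            simp only [List.mem_cons, List.not_mem_nil, or_false] at hb
            rcases hb with rfl | rfl
            · exact h1 (a4 _ ha)
            · exact h2 (a4 _ ha)
          · rw [List.isChain_append]
            refine ⟨a1.2, by simpa using h12, ?_⟩
            intro x hx y hy
            rw [a3] at hx
            simp only [Option.mem_def, Option.some.injEq, List.head?_cons] at hx hy
            rw [← hx, ← hy]
            exact hs1
          · rw [List.head?_append, a2]; rfl
          · rw [List.getLast?_append, List.getElem?_append_right (by omega), hlen]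
            have : 2 * R + 2 - (2 * R + 1) = 1 := by omega
            rw [this]
            simp
          · intro x hx
            rw [List.mem_append] at hx
            rw [List.take_of_length_le (by simp [hlen])]
            rw [List.mem_append]
            rcases hx with hx | hx
            · exact Or.inl (a4 x hx)
            · exact Or.inr hx
          · rw [List.length_append]
            simp only [List.length_cons, List.length_nil]
            omega

theorem flex_of_pflex {G : SimpleGraph V} {q : List V} {t s : V} {R : ℕ} (h : PFlex G q t)
    (hlen : q.length = 2 * R + 1) (hs : q.getLast? = some s) :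
    Flex G q.toFinset t s (2 * R + 1) R := by
  have hsg : q[2 * R]? = some s := by
    rw [List.getLast?_eq_getElem?, hlen] at hs
    exact hs
  refine ⟨by rw [List.toFinset_card_of_nodup h.nd, hlen], ?_, ?_, ?_⟩
  · obtain ⟨l, a1, a2, a3, a4, a5⟩ := h.path (2 * R) (by omega) 0 (Nat.zero_le _)
    rw [List.mem_toFinset]
    exact List.mem_of_mem_take (a4 t (List.mem_of_mem_head? (by rw [a2]; rfl)))
  · rw [List.mem_toFinset]
    exact List.mem_of_getLast? hs
  · intro j hj
    obtain ⟨l, a1, a2, a3, a4, a5⟩ := h.path (2 * R) (by omega) j (by omega)
    exact ⟨l, a1, a2, by rw [a3, hsg], fun x hx =>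
      List.mem_toFinset.2 (List.mem_of_mem_take (a4 x hx)), a5⟩

theorem flex_of_stuck {G : SimpleGraph V} {q : List V} {t s : V} {R v : ℕ} (h : PFlex G q t)
    (hlen : q.length = 2 * R + 1) (hs : q.getLast? = some s) (hRv : R < v)
    [DecidablePred (G.Adj s)] (hnb : v + 1 ≤ (q.toFinset.filter (G.Adj s)).card) :
    Flex G q.toFinset t s (2 * R + 1) v := by
  have hF := flex_of_pflex h hlen hs
  have hsg : q[2 * R]? = some s := by
    rw [List.getLast?_eq_getElem?, hlen] at hs
    exact hs
  have hcard : q.toFinset.card = 2 * R + 1 := hF.card
  have hsplit : (q.toFinset.filter (G.Adj s)).card +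
      (q.toFinset.filter (fun x => ¬ G.Adj s x)).card = 2 * R + 1 := by
    rw [← hcard]
    exact card_filter_add_card_filter_not _
  have hnon : ((q.toFinset.filter (fun x => ¬ G.Adj s x)).erase s).card + (v + 2) ≤
      2 * R + 1 := by
    have hsm : s ∈ q.toFinset.filter (fun x => ¬ G.Adj s x) := by
      rw [mem_filter]
      exact ⟨hF.hs, G.loopless.irrefl s⟩
    have := card_erase_add_one hsm
    omega
  refine ⟨hF.card, hF.ht, hF.hs, ?_⟩
  intro j hj
  rcases Nat.lt_or_ge R j with hjR | hjR
  swap
  · exact hF.path j hjR
  · have hex : ∃ i, 2 * R + 1 - j - 2 ≤ i ∧ i ≤ 2 * (2 * R + 1 - j - 2) ∧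
        ∃ x, q[i]? = some x ∧ G.Adj s x := by
      by_contra hcon
      push Not at hcon
      have hmaps : (Finset.Icc (2 * R + 1 - j - 2) (2 * (2 * R + 1 - j - 2))).card ≤
          ((q.toFinset.filter (fun x => ¬ G.Adj s x)).erase s).card := by
        apply Finset.card_le_card_of_injOn (fun i => q.getD i s)
        · intro i hi
          rw [Finset.mem_coe, Finset.mem_Icc] at hi
          have hil : i < q.length := by omega
          have hgi : q[i]? = some q[i] := List.getElem?_eq_getElem hil
          have hgd : q.getD i s = q[i] := by
            rw [List.getD_eq_getElem?_getD, hgi]; rfl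
          have hna := hcon i hi.1 hi.2 q[i] hgi
          show q.getD i s ∈ _
          rw [hgd]
          rw [Finset.mem_coe, mem_erase, mem_filter, List.mem_toFinset]
          refine ⟨?_, List.getElem_mem hil, hna⟩
          intro he
          have h2R : 2 * R < q.length := by omega
          have hsg' : q[2 * R] = s := by
            have := List.getElem?_eq_getElem h2R
            rw [hsg] at this
            exact (Option.some.inj this).symm
          have := (h.nd.getElem_inj_iff (hi := hil) (hj := h2R)).1 (by rw [he, hsg'])
          omega
        · intro i hi i' hi' hii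
          rw [Finset.mem_coe, Finset.mem_Icc] at hi hi'
          have hil : i < q.length := by omega
          have hil' : i' < q.length := by omega
          have e1 : q.getD i s = q[i] := by
            rw [List.getD_eq_getElem?_getD, List.getElem?_eq_getElem hil]; rfl
          have e2 : q.getD i' s = q[i'] := by
            rw [List.getD_eq_getElem?_getD, List.getElem?_eq_getElem hil']; rfl
          have hii' : q.getD i s = q.getD i' s := hii
          rw [e1, e2] at hii'
          exact (h.nd.getElem_inj_iff (hi := hil) (hj := hil')).1 hii'
      rw [Nat.card_Icc] at hmaps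
      omega
    obtain ⟨i, hi1, hi2, x, hx1, hx2⟩ := hex
    have hil : i < 2 * R := by omega
    obtain ⟨l, a1, a2, a3, a4, a5⟩ := h.path i (by omega) (i + 2 - (2 * R + 1 - j)) (by omega)
    have hsl : s ∉ l := by
      intro hsl
      have h1 := a4 s hsl
      rw [List.mem_take_iff_getElem] at h1
      obtain ⟨k, hk, hks⟩ := h1
      have h2R : 2 * R < q.length := by omega
      have hsg' : q[2 * R] = s := by
        have := List.getElem?_eq_getElem h2R
        rw [hsg] at this
        exact (Option.some.inj this).symm
      have hkl : k < q.length := by omega
      have hkk : q[k] = q[2 * R] := hks.trans hsg'.symm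
      have := (h.nd.getElem_inj_iff (hi := hkl) (hj := h2R)).1 hkk
      omega
    refine ⟨l ++ [s], ⟨?_, ?_⟩, ?_, ?_, ?_, ?_⟩
    · rw [List.nodup_append]
      refine ⟨a1.1, by simp, ?_⟩
      intro a ha b hb hab
      subst hab
      rw [List.mem_singleton] at hb
      subst hb
      exact hsl ha
    · rw [List.isChain_append]
      refine ⟨a1.2, by simp, ?_⟩
      intro y hy z hz
      rw [a3, hx1] at hy
      simp only [Option.mem_def, Option.some.injEq, List.head?_cons] at hy hz
      rw [← hy, ← hz]
      exact hx2.symm
    · rw [List.head?_append, a2]; rfl
    · rw [List.getLast?_append]; rfl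
    · intro y hy
      rw [List.mem_append, List.mem_singleton] at hy
      rcases hy with hy | rfl
      · rw [List.mem_toFinset]
        exact List.mem_of_mem_take (a4 y hy)
      · exact hF.hs
    · rw [List.length_append]
      simp only [List.length_cons, List.length_nil]
      omega

theorem flex_strip {G : SimpleGraph V} {W : Finset V} {b e v : ℕ} (hW : AlphaLe G W b)
    (hne : W.Nonempty) (hdeg : ∀ s ∈ W, e ≤ (bd G W {s}).card) (he : b + v + 1 ≤ e)
    (hv : 1 ≤ v) : ∃ Z s t z', 2 ≤ z' ∧ z' ≤ 2 * v + 1 ∧ Z ⊆ W ∧ Flex G Z t s z' v := by
  classical
  obtain ⟨t, ht⟩ := hne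
  have key : ∀ R, R ≤ v → (∃ Z s t z', 2 ≤ z' ∧ z' ≤ 2 * v + 1 ∧ Z ⊆ W ∧ Flex G Z t s z' v) ∨
      ∃ q, PFlex G q t ∧ q.length = 2 * R + 1 ∧ ∀ x ∈ q, x ∈ W := by
    intro R
    induction R with
    | zero =>
      intro _
      right
      exact ⟨[t], pflex_one t, rfl, by simpa using ht⟩
    | succ R ih =>
      intro hR
      rcases ih (by omega) with h | ⟨q, h1, h2, h3⟩
      · exact Or.inl h
      · have hqne : q ≠ [] := by
          rintro rfl
          simp at h2
        have hs : q.getLast? = some (q.getLast hqne) := List.getLast?_eq_some_getLast hqne
        set s := q.getLast hqne with hsd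
        have hsW : s ∈ W := h3 s (List.mem_of_getLast? hs)
        by_cases hind : Ind G (bd G W {s} \ q.toFinset)
        · left
          have hXW : bd G W {s} \ q.toFinset ⊆ W := by
            intro y hy
            rw [mem_sdiff, mem_bd] at hy
            exact hy.1.1
          have hX := hW _ hXW hind
          have h4 := hdeg s hsW
          have h5 : (bd G W {s}).card ≤ (bd G W {s} \ q.toFinset).card +
              (q.toFinset.filter (G.Adj s)).card := by
            rw [← card_union_of_disjoint]
            · apply card_le_card
              intro y hy
              rw [mem_union, mem_sdiff, mem_filter]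
              by_cases hyq : y ∈ q.toFinset
              · right
                refine ⟨hyq, ?_⟩
                rw [mem_bd] at hy
                obtain ⟨_, _, x, hx, hxy⟩ := hy
                rw [mem_singleton] at hx
                rw [← hx]; exact hxy
              · exact Or.inl ⟨hy, hyq⟩
            · rw [disjoint_left]
              intro y hy hy'
              rw [mem_sdiff] at hy
              rw [mem_filter] at hy'
              exact hy.2 hy'.1
          have hR1 : 1 ≤ R := by
            by_contra hcon
            have hR0 : R = 0 := by omega
            subst hR0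
            have h6 : (q.toFinset.filter (G.Adj s)).card ≤ q.toFinset.card :=
              card_le_card (filter_subset _ _)
            rw [List.toFinset_card_of_nodup h1.nd, h2] at h6
            omega
          refine ⟨q.toFinset, s, t, 2 * R + 1, by omega, by omega, ?_, ?_⟩
          · intro x hx
            exact h3 x (List.mem_toFinset.1 hx)
          · exact flex_of_stuck h1 h2 hs (by omega) (by omega)
        · right
          unfold Ind at hind
          push Not at hind
          obtain ⟨p1, hp1, p2, hp2, h12⟩ := hind
          rw [mem_sdiff, mem_bd] at hp1 hp2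
          obtain ⟨⟨hp1W, _, x1, hx1, hx1a⟩, hp1q⟩ := hp1
          obtain ⟨⟨hp2W, _, x2, hx2, hx2a⟩, hp2q⟩ := hp2
          rw [mem_singleton] at hx1 hx2
          subst hx1
          rw [List.mem_toFinset] at hp1q hp2q
          refine ⟨q ++ [p1, p2], pflex_extend h1 h2 hs hp1q hp2q hx1a (by rw [hx2] at hx2a; exact hx2a) h12,
            ?_, ?_⟩
          · rw [List.length_append, h2]
            simp only [List.length_cons, List.length_nil]
            ring
          · intro x hx
            rw [List.mem_append, List.mem_cons, List.mem_singleton] at hx
            rcases hx with hx | rfl | rfl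
            · exact h3 x hx
            · exact hp1W
            · exact hp2W
  rcases key v le_rfl with h | ⟨q, h1, h2, h3⟩
  · exact h
  · have hqne : q ≠ [] := by
      rintro rfl
      simp at h2
    exact ⟨q.toFinset, q.getLast hqne, t, 2 * v + 1, by omega, le_rfl,
      fun x hx => h3 x (List.mem_toFinset.1 hx),
      flex_of_pflex h1 h2 (List.getLast?_eq_some_getLast hqne)⟩

end Vale.Agent.P048
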