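import Vale.Agent.P048.Halve

namespace Vale.Agent.P048.L

open Finset

variable {V : Type*} [DecidableEq V] {G : SimpleGraph V} {W K : Finset V}

/-- a path inside `W` with both ends in `K` -/
structure Piece (G : SimpleGraph V) (W K : Finset V) (e : List V) : Prop where
  ne : e ≠ []
  chain : e.IsChain G.Adj
  mem : ∀ x ∈ e, x ∈ W
  hd : ∀ x ∈ e.head?, x ∈ K
  lt : ∀ x ∈ e.getLast?, x ∈ K

/-- disjoint pieces -/
structure Sys (G : SimpleGraph V) (W K : Finset V) (S : List (List V)) : Prop where
  piece : ∀ e ∈ S, Piece G W K e
  nodup : S.flatten.Nodup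

theorem Piece.rev {e : List V} (h : Piece G W K e) : Piece G W K e.reverse where
  ne := fun h' => h.ne (List.reverse_eq_nil_iff.1 h')
  chain := chain_symm h.chain
  mem := fun x hx => h.mem x (List.mem_reverse.1 hx)
  hd := fun x hx => h.lt x (by rwa [List.head?_reverse] at hx)
  lt := fun x hx => h.hd x (by rwa [List.getLast?_reverse] at hx)

theorem Sys.perm {S S' : List (List V)} (h : Sys G W K S) (hp : S.Perm S') : Sys G W K S' where
  piece := fun e he => h.piece e (hp.mem_iff.2 he)
  nodup := (hp.flatten.nodup_iff).1 h.nodup

theorem Sys.tail {S : List (List V)} {e : List V} (h : Sys G W K (e :: S)) : Sys G W K S where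
  piece := fun e' he => h.piece e' (List.mem_cons_of_mem _ he)
  nodup := by
    have := h.nodup
    rw [List.flatten_cons, List.nodup_append] at this
    exact this.2.1

theorem Sys.rev {S : List (List V)} {e : List V} (h : Sys G W K (e :: S)) :
    Sys G W K (e.reverse :: S) where
  piece := by
    intro e' he
    rw [List.mem_cons] at he
    rcases he with rfl | he
    · exact (h.piece e (by simp)).rev
    · exact h.piece e' (List.mem_cons_of_mem _ he)
  nodup := by
    have := h.nodup
    rw [List.flatten_cons, List.nodup_append] at this ⊢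
    refine ⟨List.nodup_reverse.2 this.1, this.2.1, ?_⟩
    intro a ha b hb
    exact this.2.2 a (List.mem_reverse.1 ha) b hb

theorem Sys.flatten_spec (hK : IsClq G K) : ∀ {S : List (List V)}, Sys G W K S →
    S.flatten.IsChain G.Adj ∧ (∀ x ∈ S.flatten.head?, x ∈ K) ∧ ∀ x ∈ S.flatten.getLast?, x ∈ K
  | [], _ => by simp
  | e :: S, h => by
    obtain ⟨h1, h2, h3⟩ := Sys.flatten_spec hK h.tail
    have he := h.piece e (by simp)
    have hn := h.nodup
    rw [List.flatten_cons] at hn ⊢
    rw [List.nodup_append] at hn
    refine ⟨?_, ?_, ?_⟩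
    · rw [List.isChain_append]
      refine ⟨he.chain, h1, ?_⟩
      intro a ha b hb
      exact hK a (he.lt a ha) b (h2 b hb)
        (hn.2.2 a (List.mem_of_getLast? ha) b (List.mem_of_mem_head? hb))
    · intro x hx
      apply he.hd
      rw [List.head?_append] at hx
      rcases hh : e.head? with _ | y
      · exact absurd (List.head?_eq_none_iff.1 hh) he.ne
      · rw [hh] at hx
        exact hx
    · intro x hx
      rw [List.getLast?_append] at hx
      rcases hh : S.flatten.getLast? with _ | y
      · rw [hh] at hx
        exact he.lt x hx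
      · rw [hh] at hx
        apply h3 x
        rw [hh]
        exact hx

theorem head_ne_last {l : List V} (hn : l.Nodup) (hl : 2 ≤ l.length) {a b : V}
    (ha : a ∈ l.head?) (hb : b ∈ l.getLast?) : a ≠ b := by
  rcases l with _ | ⟨x, _ | ⟨y, l⟩⟩
  · simp at hl
  · simp at hl
  · rintro rfl
    simp only [List.head?_cons, Option.mem_def, Option.some.injEq] at ha
    subst ha
    rw [List.getLast?_cons_cons] at hb
    exact (List.nodup_cons.1 hn).1 (List.mem_of_getLast? hb)

theorem Sys.cycle {S : List (List V)} {m : ℕ} (hK : IsClq G K) (h : Sys G W K S) (hm : 2 ≤ m)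
    (hl : S.flatten.length = m) : HasCyc G W m := by
  obtain ⟨h1, h2, h3⟩ := h.flatten_spec hK
  refine ⟨S.flatten, hl, ⟨h.nodup, h1, ?_⟩, ?_⟩
  · intro a ha b hb
    exact hK a (h3 a ha) b (h2 b hb) (head_ne_last h.nodup (by omega) hb ha).symm
  · intro x hx
    rw [List.mem_flatten] at hx
    obtain ⟨e, he, hxe⟩ := hx
    exact (h.piece e he).mem x hxe

theorem getLast?_append_cons' (A : List V) {B : List V} (hB : B ≠ []) :
    (A ++ B).getLast? = B.getLast? := by
  rw [List.getLast?_append]
  rcases hh : B.getLast? with _ | y
  · exact absurd (List.getLast?_eq_none_iff.1 hh) hB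
  · rfl

theorem head?_append_of_ne {A : List V} (B : List V) (hA : A ≠ []) :
    (A ++ B).head? = A.head? := by
  rw [List.head?_append]
  rcases hh : A.head? with _ | y
  · exact absurd (List.head?_eq_none_iff.1 hh) hA
  · rfl

theorem Sys.cut {S : List (List V)} {A R B : List V} (h : Sys G W K ((A ++ R ++ B) :: S))
    (hA : A ≠ []) (hB : B ≠ []) (hAl : ∀ x ∈ A.getLast?, x ∈ K) (hBh : ∀ x ∈ B.head?, x ∈ K) :
    Sys G W K (A :: B :: S) := by
  have he := h.piece _ (List.mem_cons_self)
  have hc := he.chain
  rw [List.isChain_append, List.isChain_append] at hc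
  refine ⟨?_, ?_⟩
  · intro e he'
    rw [List.mem_cons, List.mem_cons] at he'
    rcases he' with rfl | rfl | he'
    · exact ⟨hA, hc.1.1, fun x hx => he.mem x (by simp [hx]), fun x hx => he.hd x (by
        rw [List.append_assoc, head?_append_of_ne _ hA]; exact hx), hAl⟩
    · exact ⟨hB, hc.2.1, fun x hx => he.mem x (by simp [hx]), hBh, fun x hx => he.lt x (by
        rw [getLast?_append_cons' _ hB]; exact hx)⟩
    · exact h.piece e (List.mem_cons_of_mem _ he')
  · have hn := h.nodup
    rw [List.flatten_cons] at hn
    rw [List.flatten_cons, List.flatten_cons, ← List.append_assoc]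
    have hsub : (A ++ B ++ S.flatten).Sublist (A ++ R ++ B ++ S.flatten) := by
      apply List.Sublist.append_right
      apply List.Sublist.append_right
      exact List.sublist_append_left A R
    exact hn.sublist hsub

/-- inserting an outside path between two consecutive vertices of a piece -/
theorem Sys.ins {S : List (List V)} {A B x : List V} {a b : V} (h : Sys G W K ((A ++ B) :: S))
    (ha : a ∈ A.getLast?) (hb : b ∈ B.head?) {O : Finset V} (hx : Bridge G O a b x)
    (hxn : x.Nodup) (hO : ∀ y ∈ O, y ∈ W ∧ y ∉ ((A ++ B) :: S).flatten) :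
    Sys G W K ((A ++ x ++ B) :: S) := by
  have he := h.piece _ (List.mem_cons_self)
  have hA : A ≠ [] := by
    rintro rfl; simp at ha
  have hB : B ≠ [] := by
    rintro rfl; simp at hb
  obtain ⟨x1, x2, x3, x4, x5⟩ := hx
  have hc := he.chain
  rw [List.isChain_append] at hc
  have hn := h.nodup
  have hxo : ∀ y ∈ x, y ∉ A ∧ y ∉ B ∧ y ∉ S.flatten := by
    intro y hy
    have := (hO y (x3 y hy)).2
    rw [List.flatten_cons, List.mem_append, List.mem_append] at this
    tauto
  rw [List.flatten_cons, List.nodup_append, List.nodup_append] at hn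
  refine ⟨?_, ?_⟩
  · intro e he'
    rw [List.mem_cons] at he'
    rcases he' with rfl | he'
    · refine ⟨by simp [hA], ?_, ?_, ?_, ?_⟩
      · rw [List.isChain_append, List.isChain_append]
        refine ⟨⟨hc.1, x2, ?_⟩, hc.2.1, ?_⟩
        · intro u hu v hv
          rw [Option.mem_def] at hu ha
          rw [ha] at hu
          rw [← Option.some.inj hu]
          exact x4 v hv
        · intro u hu v hv
          rw [getLast?_append_cons' _ x1] at hu
          rw [Option.mem_def] at hv hb
          rw [hb] at hv
          rw [← Option.some.inj hv]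
          exact x5 u hu
      · intro y hy
        rw [List.mem_append, List.mem_append] at hy
        rcases hy with (hy | hy) | hy
        · exact he.mem y (by simp [hy])
        · exact (hO y (x3 y hy)).1
        · exact he.mem y (by simp [hy])
      · intro y hy
        apply he.hd y
        rw [List.append_assoc, head?_append_of_ne _ hA] at hy
        rw [head?_append_of_ne _ hA]
        exact hy
      · intro y hy
        apply he.lt y
        rw [getLast?_append_cons' _ hB] at hy ⊢
        exact hy
    · exact h.piece e (List.mem_cons_of_mem _ he')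
  · rw [List.flatten_cons, List.nodup_append, List.nodup_append, List.nodup_append]
    refine ⟨⟨⟨hn.1.1, hxn, ?_⟩, hn.1.2.1, ?_⟩, hn.2.1, ?_⟩
    · rintro u hu v hv rfl
      exact (hxo u hv).1 hu
    · rintro u hu v hv rfl
      rw [List.mem_append] at hu
      rcases hu with hu | hu
      · exact hn.1.2.2 u hu u hv rfl
      · exact (hxo u hu).2.1 hv
    · rintro u hu v hv rfl
      rw [List.mem_append, List.mem_append] at hu
      rcases hu with (hu | hu) | hu
      · exact hn.2.2 u (by simp [hu]) u hv rfl
      · exact (hxo u hu).2.2 hv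
      · exact hn.2.2 u (by simp [hu]) u hv rfl

/-- joining two pieces by an outside path -/
theorem Sys.join {S : List (List V)} {A B x : List V} {a b : V} (h : Sys G W K (A :: B :: S))
    (ha : a ∈ A.getLast?) (hb : b ∈ B.head?) {O : Finset V} (hx : Bridge G O a b x)
    (hxn : x.Nodup) (hO : ∀ y ∈ O, y ∈ W ∧ y ∉ (A :: B :: S).flatten) :
    Sys G W K ((A ++ x ++ B) :: S) := by
  have heA := h.piece A (by simp)
  have heB := h.piece B (by simp)
  obtain ⟨x1, x2, x3, x4, x5⟩ := hx
  have hn := h.nodup
  have hxo : ∀ y ∈ x, y ∉ A ∧ y ∉ B ∧ y ∉ S.flatten := by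
    intro y hy
    have := (hO y (x3 y hy)).2
    rw [List.flatten_cons, List.flatten_cons, List.mem_append, List.mem_append] at this
    tauto
  rw [List.flatten_cons, List.flatten_cons, List.nodup_append, List.nodup_append] at hn
  refine ⟨?_, ?_⟩
  · intro e he'
    rw [List.mem_cons] at he'
    rcases he' with rfl | he'
    · refine ⟨by simp [heA.ne], ?_, ?_, ?_, ?_⟩
      · rw [List.isChain_append, List.isChain_append]
        refine ⟨⟨heA.chain, x2, ?_⟩, heB.chain, ?_⟩
        · intro u hu v hv
          rw [Option.mem_def] at hu ha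
          rw [ha] at hu
          rw [← Option.some.inj hu]
          exact x4 v hv
        · intro u hu v hv
          rw [getLast?_append_cons' _ x1] at hu
          rw [Option.mem_def] at hv hb
          rw [hb] at hv
          rw [← Option.some.inj hv]
          exact x5 u hu
      · intro y hy
        rw [List.mem_append, List.mem_append] at hy
        rcases hy with (hy | hy) | hy
        · exact heA.mem y hy
        · exact (hO y (x3 y hy)).1
        · exact heB.mem y hy
      · intro y hy
        apply heA.hd y
        rw [List.append_assoc, head?_append_of_ne _ heA.ne] at hy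
        exact hy
      · intro y hy
        apply heB.lt y
        rw [getLast?_append_cons' _ heB.ne] at hy
        exact hy
    · exact h.piece e (by simp [he'])
  · rw [List.flatten_cons, List.nodup_append, List.nodup_append, List.nodup_append]
    refine ⟨⟨⟨hn.1, hxn, ?_⟩, hn.2.1.1, ?_⟩, hn.2.1.2.1, ?_⟩
    · rintro u hu v hv rfl
      exact (hxo u hv).1 hu
    · rintro u hu v hv rfl
      rw [List.mem_append] at hu
      rcases hu with hu | hu
      · exact hn.2.2 u hu u (by simp [hv]) rfl
      · exact (hxo u hu).2.1 hv
    · rintro u hu v hv rfl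
      rw [List.mem_append, List.mem_append] at hu
      rcases hu with (hu | hu) | hu
      · exact hn.2.2 u hu u (by simp [hv]) rfl
      · exact (hxo u hu).2.2 hv
      · exact hn.2.1.2.2 u hu u hv rfl

end Vale.Agent.P048.L
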