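import Vale.Agent.P048.Engine

namespace Vale.Agent.P048

structure Tab (E : ℕ → ℕ) (A : ℕ) : Prop where
  e1 : E 1 = 0
  mono : ∀ b, 1 ≤ b → b < A → E b ≤ E (b + 1)
  conv : ∀ b, 1 ≤ b → b + 2 ≤ A → E (b + 1) + E (b + 1) ≤ E b + E (b + 2)

theorem Tab.le {E : ℕ → ℕ} {A : ℕ} (h : Tab E A) {x y : ℕ} (hx : 1 ≤ x) (hxy : x ≤ y)
    (hy : y ≤ A) : E x ≤ E y := by
  induction hxy with
  | refl => exact le_rfl
  | @step y hxy ih =>
    have hxy' : x ≤ y := hxy
    exact (ih (by omega)).trans (h.mono y (by omega) (by omega))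

theorem Tab.dmono {E : ℕ → ℕ} {A : ℕ} (h : Tab E A) {x y : ℕ} (hx : 1 ≤ x) (hxy : x ≤ y)
    (hy : y + 1 ≤ A) : E (x + 1) - E x ≤ E (y + 1) - E y := by
  induction hxy with
  | refl => exact le_rfl
  | @step y hxy ih =>
    have hxy' : x ≤ y := hxy
    have h1 := ih (by omega)
    have h2 := h.conv y (by omega) (by omega)
    have h3 := h.mono y (by omega) (by omega)
    have h4 := h.mono (y + 1) (by omega) (by omega)
    have e : y.succ + 1 = y + 2 := rfl
    have e' : y.succ = y + 1 := rfl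
    rw [e, e']
    have e2 : y + 1 + 1 = y + 2 := rfl
    rw [e2] at h4
    omega

theorem Tab.le_mul {E : ℕ → ℕ} {A : ℕ} (h : Tab E A) : ∀ {x y : ℕ}, 1 ≤ x → x ≤ y →
    y + 1 ≤ A → E x ≤ x * (E (y + 1) - E y) := by
  intro x y hx
  induction hx with
  | refl => intro _ _; rw [h.e1]; exact Nat.zero_le _
  | @step x hx ih =>
    intro hxy hy
    have hx' : 1 ≤ x := hx
    have h1 := ih (by omega) hy
    have h2 := h.dmono hx (show x ≤ y by omega) hy
    have h3 := h.mono x hx (by omega)
    have e : x.succ * (E (y + 1) - E y) = x * (E (y + 1) - E y) + (E (y + 1) - E y) := by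
      rw [Nat.succ_mul]
    have e' : x.succ = x + 1 := rfl
    rw [e, e']
    omega

theorem Tab.star {E : ℕ → ℕ} {A : ℕ} (h : Tab E A) {x X : ℕ} (hx : 1 ≤ x) (hxX : x ≤ X)
    (hX : X ≤ A) : E x * X ≤ E X * x := by
  induction hxX with
  | refl => exact le_rfl
  | @step X hxX ih =>
    have hxX' : x ≤ X := hxX
    have h1 := ih (by omega)
    have h2 := h.le_mul hx hxX (by omega)
    have h3 := h.mono X (by omega) (by omega)
    have e' : X.succ = X + 1 := rfl
    rw [e']
    obtain ⟨d, hd⟩ := Nat.exists_eq_add_of_le h3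
    rw [hd] at h2 ⊢
    have h4 : E x ≤ x * d := by
      rw [Nat.add_sub_cancel_left] at h2
      exact h2
    calc E x * (X + 1) = E x * X + E x := by ring
      _ ≤ E X * x + x * d := Nat.add_le_add h1 h4
      _ = (E X + d) * x := by ring

theorem conv_le {φ : ℕ → ℤ} {M : ℤ} {lo hi : ℕ} (hc : ∀ x, lo ≤ x → x + 2 ≤ hi →
    φ (x + 1) + φ (x + 1) ≤ φ x + φ (x + 2)) (hlo : φ lo ≤ M) (hhi : φ hi ≤ M) {x : ℕ}
    (hx : lo ≤ x) (hx2 : x ≤ hi) : φ x ≤ M := by
  by_contra hcon
  push Not at hcon
  have key : ∀ y, lo ≤ y → y + 1 ≤ hi → φ (y + 1) ≤ M ∨ (M < φ (y + 1) ∧ φ y < φ (y + 1)) := by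
    intro y hy
    induction hy with
    | refl =>
      intro _
      by_cases h : φ (lo + 1) ≤ M
      · exact Or.inl h
      · push Not at h
        exact Or.inr ⟨h, lt_of_le_of_lt hlo h⟩
    | @step y hy ih =>
      intro hy2
      have hy' : lo ≤ y := hy
      have e' : y.succ = y + 1 := rfl
      have e2 : y.succ + 1 = y + 2 := rfl
      rw [e', e2] at *
      by_cases h : φ (y + 2) ≤ M
      · exact Or.inl h
      · push Not at h
        refine Or.inr ⟨h, ?_⟩
        rcases ih (by omega) with h1 | ⟨h1, h2⟩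
        · exact lt_of_le_of_lt h1 h
        · have := hc y hy (by omega)
          linarith
  have hgt : ∀ y, x ≤ y → y ≤ hi → M < φ y := by
    intro y hy
    induction hy with
    | refl => intro _; exact hcon
    | @step y hy ih =>
      intro hy2
      have hy' : x ≤ y := hy
      have e' : y.succ = y + 1 := rfl
      rw [e'] at *
      rcases Nat.eq_or_lt_of_le (hx.trans hy) with h0 | h0
      · have h1 := ih (by omega)
        rw [← h0] at h1
        exact absurd hlo (not_le.2 h1)
      · have h1 := ih (by omega)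
        obtain ⟨y', rfl⟩ : ∃ y', y = y' + 1 := ⟨y - 1, by omega⟩
        rcases key y' (by omega) (by omega) with h2 | ⟨h2, h3⟩
        · exact absurd h2 (not_le.2 h1)
        · have := hc y' (by omega) (by omega)
          have e3 : y' + 1 + 1 = y' + 2 := rfl
          rw [e3]
          linarith
  exact absurd hhi (not_le.2 (hgt hi hx2 le_rfl))

theorem Tab.n2 {E : ℕ → ℕ} {A b c x0 x : ℕ} (h : Tab E A) (hb : b ≤ A) (hx0 : 1 ≤ x0)
    (h1 : E x0 + E (b - x0) + c ≤ E b + x0 + 2) (h2 : E (b - 1) + c ≤ E b + b + 1)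
    (hx : x0 ≤ x) (hxb : x < b) : E x + E (b - x) + c ≤ E b + x + 2 := by
  have key := conv_le (φ := fun y => (E y : ℤ) + E (b - y) - y) (M := (E b : ℤ) + 2 - c)
    (lo := x0) (hi := b - 1) (by
      intro y hy hy2
      have a1 := h.conv y (by omega) (by omega)
      have a2 := h.conv (b - (y + 2)) (by omega) (by omega)
      have e1 : b - (y + 2) + 1 = b - (y + 1) := by omega
      have e2 : b - (y + 2) + 2 = b - y := by omega
      rw [e1, e2] at a2
      push_cast
      have a1' : (E (y + 1) : ℤ) + E (y + 1) ≤ E y + E (y + 2) := by exact_mod_cast a1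
      have a2' : (E (b - (y + 1)) : ℤ) + E (b - (y + 1)) ≤ E (b - (y + 2)) + E (b - y) := by
        exact_mod_cast a2
      linarith) (by
      have a1' : (E x0 : ℤ) + E (b - x0) + c ≤ E b + x0 + 2 := by exact_mod_cast h1
      linarith) (by
      have e : b - (b - 1) = 1 := by omega
      rw [e, h.e1]
      have e2 : ((b - 1 : ℕ) : ℤ) = (b : ℤ) - 1 := by
        rw [Nat.cast_sub (by omega)]; simp
      rw [e2]
      have a1' : (E (b - 1) : ℤ) + c ≤ E b + b + 1 := by exact_mod_cast h2
      push_cast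
      linarith) hx (by omega)
  have : (E x : ℤ) + E (b - x) + c ≤ E b + x + 2 := by linarith
  exact_mod_cast this

theorem Tab.n6 {E : ℕ → ℕ} {A b c x : ℕ} (h : Tab E A) (hb : b ≤ A)
    (h2 : E (b - 1) + c ≤ E b + 3) (hx : 1 ≤ x) (hxb : x < b) : E x + E (b - x) + c ≤ E b + 3 := by
  have key := conv_le (φ := fun y => (E y : ℤ) + E (b - y)) (M := (E b : ℤ) + 3 - c)
    (lo := 1) (hi := b - 1) (by
      intro y hy hy2
      have a1 := h.conv y (by omega) (by omega)
      have a2 := h.conv (b - (y + 2)) (by omega) (by omega)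
      have e1 : b - (y + 2) + 1 = b - (y + 1) := by omega
      have e2 : b - (y + 2) + 2 = b - y := by omega
      rw [e1, e2] at a2
      have a1' : (E (y + 1) : ℤ) + E (y + 1) ≤ E y + E (y + 2) := by exact_mod_cast a1
      have a2' : (E (b - (y + 1)) : ℤ) + E (b - (y + 1)) ≤ E (b - (y + 2)) + E (b - y) := by
        exact_mod_cast a2
      linarith) (by
      rw [h.e1]
      have a1' : (E (b - 1) : ℤ) + c ≤ E b + 3 := by exact_mod_cast h2
      push_cast
      linarith) (by
      have e : b - (b - 1) = 1 := by omega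
      rw [e, h.e1]
      have a1' : (E (b - 1) : ℤ) + c ≤ E b + 3 := by exact_mod_cast h2
      push_cast
      linarith) hx (by omega)
  have : (E x : ℤ) + E (b - x) + c ≤ E b + 3 := by linarith
  exact_mod_cast this

end Vale.Agent.P048
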