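import Vale.Agent.P048.Big3

/-! P048: territories of radius two around a large clique. -/

namespace Vale.Agent.P048.L

open Finset

variable {V : Type*} [DecidableEq V] {G : SimpleGraph V} {O W K : Finset V} {a m g : ℕ}

/-- no outside path with at most `m - 2` vertices joins the ends of two different pieces -/
theorem no_join2 (hno : ¬ HasCyc G W m) (hK : IsClq G K) (hKW : K ⊆ W) (hm : K.card + g = m)
    (hkg : g + 2 ≤ K.card) {S : List (List V)} (hS : MaxSys G W K m S) {e e' : List V}
    {T : List (List V)} (hp : S.Perm (e :: e' :: T)) {p q : V} (hpe : p ∈ e.head?)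
    (hq : q ∈ e'.head? ∨ q ∈ e'.getLast?) {O : Finset V} (hO : O ⊆ W \ Zs S) (x : List V)
    (hx : Bridge G O p q x) (hxn : x.length + 2 ≤ m) : False := by
  classical
  obtain ⟨x', hx', hxn', hxl⟩ := bridge_nodup ⟨x, hx, le_refl x.length⟩
  rcases Nat.lt_or_ge x'.length K.card with h1 | h1
  · exact no_join hS hp hpe hq hO (n := x'.length) (by omega) x' hx' le_rfl
  · have he : e ∈ S := hp.mem_iff.2 (by simp)
    have he' : e' ∈ S := hp.mem_iff.2 (by simp)
    have hpm : p ∈ e := List.mem_of_mem_head? hpe
    have hqm : q ∈ e' := by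
      rcases hq with h | h
      · exact List.mem_of_mem_head? h
      · exact List.mem_of_getLast? h
    have hpK : p ∈ K := (hS.sys.piece e he).hd p hpe
    have hqK : q ∈ K := by
      rcases hq with h | h
      · exact (hS.sys.piece e' he').hd q h
      · exact (hS.sys.piece e' he').lt q h
    have hpq : p ≠ q := by
      rintro rfl
      have hn := (hS.sys.perm hp).nodup
      rw [List.flatten_cons, List.flatten_cons, List.nodup_append] at hn
      exact hn.2.2 p hpm p (by rw [List.mem_append]; exact Or.inl hqm) rfl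
    have hKO : ∀ y ∈ K, y ∉ O := by
      intro y hy hyO
      exact (mem_sdiff.1 (hO hyO)).2 (mem_Zs.2 (hS.full y hy))
    have hP := stp_of_bridge (U := W) hx' hxn' (hO.trans sdiff_subset) (hKW hpK) (hKW hqK)
      (hKO p hpK) (hKO q hqK) hpq
    apply hno
    refine bc_fill (Q := p :: (x' ++ [q])) hK hKW hP.1 hP.mem ?_ ?_ ?_ ?_ ?_
    · intro y hy
      simp only [List.head?_cons, Option.mem_def, Option.some.injEq] at hy
      rw [← hy]
      exact hpK
    · intro y hy
      rw [Option.mem_def, hP.lt] at hy
      rw [← Option.some.inj hy]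
      exact hqK
    · simp
    · simp only [List.length_cons, List.length_append, List.length_nil]
      omega
    · have h2 : (K \ (p :: (x' ++ [q])).toFinset).card + 2 ≥ K.card := by
        have h3 : K ⊆ (K \ (p :: (x' ++ [q])).toFinset) ∪ {p, q} := by
          intro y hy
          rw [mem_union, mem_sdiff, mem_insert, mem_singleton, List.mem_toFinset]
          by_cases h : y ∈ p :: (x' ++ [q])
          · right
            rw [List.mem_cons, List.mem_append, List.mem_singleton] at h
            rcases h with h | h | h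
            · exact Or.inl h
            · exact absurd (hx'.2.2.1 y h) (hKO y hy)
            · exact Or.inr h
          · exact Or.inl ⟨hy, h⟩
        have h4 := (card_le_card h3).trans (card_union_le _ _)
        rw [card_pair hpq] at h4
        exact h4
      simp only [List.length_cons, List.length_append, List.length_nil]
      omega

/-- A clique on `m - g` vertices with `2 g + 2 ≤ m`, `8 ≤ m`, and few independent vertices is
impossible in a minimal counterexample. -/
theorem big_terr (E : Env0 G W a m) (ha : 1 ≤ a) (hK : IsClq G K) (hKW : K ⊆ W)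
    (hm : K.card + g = m) (hg1 : 1 ≤ g) (hkg : g + 2 ≤ K.card) (h8 : 8 ≤ m)
    (hnum : a < 2 * (2 * K.card + 1 - m)) : False := by
  classical
  obtain ⟨S, hS⟩ := exists_max hKW hK hkg hg1 hm E.hno
  have hkc := kc_full hS.sys.nodup hS.full
  have hkle := kc_le (K := K) S.flatten
  have hlt := hS.lt
  have hsum := (sum_count (o := 0) (K := K) (G := G) (W := W) (S := S) (fun e he =>
    ⟨hS.sys.piece e he, by have := piece_len hS he; omega⟩)).1
  have hSl : 2 * K.card + 1 - m ≤ S.length := by omega
  -- the outside neighbours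
  have hout : ∀ e : List V, ∃ x, e ∈ S → x ∈ W \ Zs S ∧ ∃ p ∈ e.head?, G.Adj p x := by
    intro e
    by_cases he : e ∈ S
    · have hp := hS.sys.piece e he
      obtain ⟨p, hpe⟩ : ∃ p, p ∈ e.head? := by
        rcases e with _ | ⟨p, e'⟩
        · exact absurd rfl hp.ne
        · exact ⟨p, rfl⟩
      have hpm : p ∈ e := List.mem_of_mem_head? hpe
      have hpf : p ∈ S.flatten := by
        rw [List.mem_flatten]
        exact ⟨e, he, hpm⟩
      obtain ⟨x, hx, hpx⟩ := exists_out E ha (by omega) hS hpf (hp.mem p hpm)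
      exact ⟨x, fun _ => ⟨hx, p, hpe, hpx⟩⟩
    · obtain ⟨x, _⟩ : K.Nonempty := by rw [← card_pos]; omega
      exact ⟨x, fun h => absurd h he⟩
  choose X hX using hout
  have hbW : ∀ e ∈ S, ∀ r, ball G (W \ Zs S) (X e) r ⊆ W \ Zs S := fun e he r =>
    ball_subset (hX e he).1 r
  have hbig : ∀ e, ∃ I, e ∈ S → I ⊆ ball G (W \ Zs S) (X e) 2 ∧ Ind G I ∧ I.card = 2 := by
    intro e
    by_cases he : e ∈ S
    swap
    · exact ⟨∅, fun h => absurd h he⟩
    obtain ⟨hx, p, hpe, hpx⟩ := hX e he
    obtain ⟨y, hy, J, hJ1, hJ2, hJ3, hJ4, hJ5⟩ := start_two hx (by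
      rintro ⟨hcl, hcl2⟩
      have h1 := nbhd_att E (r := 0) hx (J := {X e}) (singleton_subset_iff.2 (self_mem_ball 0))
        (ind_singleton _) (by rw [card_singleton])
      have h2 := att_le hS he hpe hx hpx (r := 0) (by omega) rfl
      rw [card_singleton, Nat.zero_add] at h1
      exact closed_clique E hK hKW hkg hg1 hm hS (hbW e he 1) hcl hcl2 (by omega))
    exact ⟨J, fun _ => ⟨hJ2, hJ3, hJ4⟩⟩
  choose I hI using hbig
  -- pairwise far
  have hSn : S.Nodup := by
    have hfn := hS.sys.nodup
    rw [List.nodup_flatten] at hfn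
    refine List.Pairwise.imp_of_mem ?_ hfn.2
    rintro e e' he he' hd rfl
    have hp := hS.sys.piece e he
    obtain ⟨p, hpe⟩ : ∃ p, p ∈ e := by
      rcases e with _ | ⟨p, e'⟩
      · exact absurd rfl hp.ne
      · exact ⟨p, by simp⟩
    exact hd hpe hpe
  have hfar : S.Pairwise (fun e e' => Far G (ball G (W \ Zs S) (X e) 2)
      (ball G (W \ Zs S) (X e') 2)) := by
    refine List.Pairwise.imp_of_mem ?_ hSn
    intro e e' he he' hne
    by_contra hnf
    obtain ⟨hx, p, hpe, hpx⟩ := hX e he
    obtain ⟨hx', p', hpe', hpx'⟩ := hX e' he'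
    obtain ⟨q, hq, hql⟩ := touch_chain (A := {X e}) (B := {X e'}) hx hx' (mem_singleton_self _)
      (mem_singleton_self _) hnf
    obtain ⟨S1, S2, hSeq⟩ := List.append_of_mem he
    have hp1 : S.Perm (e :: (S1 ++ S2)) := by rw [hSeq]; exact List.perm_middle
    have he2' : e' ∈ S1 ++ S2 := by
      have := hp1.mem_iff.1 he'
      rw [List.mem_cons] at this
      exact this.resolve_left (fun h => hne h.symm)
    obtain ⟨T1, T2, hTeq⟩ := List.append_of_mem he2'
    have hp2 : S.Perm (e :: e' :: (T1 ++ T2)) := by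
      refine hp1.trans ?_
      rw [hTeq]
      exact List.Perm.cons _ List.perm_middle
    refine no_join2 E.hno hK hKW hm hkg hS hp2 hpe (Or.inl hpe') (Subset.refl (W \ Zs S)) q
      ⟨?_, hq.1, hq.2.1, ?_, ?_⟩ (by omega)
    · rintro rfl
      obtain ⟨_, _, _, h⟩ := hq
      simp at h
    · intro h hh
      obtain ⟨z, hz, hzq⟩ := hq.2.2.1
      rw [mem_singleton] at hz
      rw [hzq] at hh
      rw [← Option.some.inj hh, hz]
      exact hpx
    · intro h hh
      obtain ⟨z, hz, hzq⟩ := hq.2.2.2
      rw [mem_singleton] at hz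
      rw [hzq] at hh
      rw [← Option.some.inj hh, hz]
      exact hpx'.symm
  -- conclusion
  obtain ⟨J, hJ1, hJ2, hJ3, _⟩ := far_sum (U := W) (c := 2) S _ I hfar (by
      intro e he
      obtain ⟨h1, h2, h3⟩ := hI e he
      exact ⟨h1, (hbW e he _).trans sdiff_subset, h2, by omega⟩)
  have h1 := E.hW J hJ1 hJ2
  omega

end Vale.Agent.P048.L
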