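import Vale.Agent.P048.Three
import Vale.Agent.P048.Big3
import Vale.Agent.P048.Ender2

/-! P048: a minimal counterexample has no clique on `m - 1` or `m - 2` vertices (`7 ≤ m`). -/

namespace Vale.Agent.P048.L

open Finset

variable {V : Type*} [DecidableEq V] {G : SimpleGraph V} {W K Z : Finset V} {a m : ℕ}

/-- a path inside `Z` from `y` to `z` with `l` vertices -/
def TPa (G : SimpleGraph V) (Z : Finset V) (y z : V) (l : ℕ) : Prop :=
  ∃ p, Pth G p ∧ (∀ x ∈ p, x ∈ Z) ∧ p.head? = some y ∧ p.getLast? = some z ∧ p.length = l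

omit [DecidableEq V] in
theorem TPa.mono {Z Z' : Finset V} {y z : V} {l : ℕ} (h : TPa G Z y z l) (hZ : Z ⊆ Z') :
    TPa G Z' y z l := by
  obtain ⟨p, h1, h2, h3, h4, h5⟩ := h
  exact ⟨p, h1, fun x hx => hZ (h2 x hx), h3, h4, h5⟩

omit [DecidableEq V] in
theorem TPa.rev {y z : V} {l : ℕ} (h : TPa G Z y z l) : TPa G Z z y l := by
  obtain ⟨p, h1, h2, h3, h4, h5⟩ := h
  exact ⟨p.reverse, h1.reverse, fun x hx => h2 x (List.mem_reverse.1 hx), by
    rw [List.head?_reverse]; exact h4, by rw [List.getLast?_reverse]; exact h3, by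
    rw [List.length_reverse]; exact h5⟩

omit [DecidableEq V] in
theorem pp_one {y : V} (hy : y ∈ Z) : TPa G Z y y 1 :=
  ⟨[y], ⟨by simp, by simp⟩, fun x hx => by
    rw [List.mem_singleton] at hx
    rw [hx]; exact hy, rfl, rfl, rfl⟩

theorem TPa.app {A B : Finset V} {x y z w : V} {l1 l2 : ℕ} (h1 : TPa G A x y l1)
    (h2 : TPa G B z w l2) (hd : ∀ v ∈ A, v ∉ B) (hyz : G.Adj y z) :
    TPa G (A ∪ B) x w (l1 + l2) := by
  obtain ⟨p, a1, a2, a3, a4, a5⟩ := h1
  obtain ⟨q, b1, b2, b3, b4, b5⟩ := h2
  have hp : p ≠ [] := by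
    rintro rfl
    simp at a3
  have hq : q ≠ [] := by
    rintro rfl
    simp at b3
  refine ⟨p ++ q, ⟨?_, ?_⟩, ?_, ?_, ?_, ?_⟩
  · rw [List.nodup_append]
    refine ⟨a1.1, b1.1, ?_⟩
    rintro u hu v hv rfl
    exact hd u (a2 u hu) (b2 u hv)
  · rw [List.isChain_append]
    refine ⟨a1.2, b1.2, ?_⟩
    intro u hu v hv
    rw [a4] at hu
    rw [b3] at hv
    rw [← Option.some.inj hu, ← Option.some.inj hv]
    exact hyz
  · intro u hu
    rw [List.mem_append] at hu
    rw [mem_union]
    exact hu.imp (a2 u) (b2 u)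
  · rw [head?_append_of_ne _ hp]; exact a3
  · rw [getLast?_append_cons' _ hq]; exact b4
  · rw [List.length_append, a5, b5]

theorem IsClq.mono {K K' : Finset V} (h : IsClq G K) (hK : K' ⊆ K) : IsClq G K' :=
  fun x hx y hy => h x (hK hx) y (hK hy)

theorem pp_clq (hK : IsClq G K) {y z : V} (hy : y ∈ K) (hz : z ∈ K) (hyz : y ≠ z) {l : ℕ}
    (h2 : 2 ≤ l) (hl : l ≤ K.card) : TPa G K y z l := by
  classical
  have hc : ((K.erase y).erase z).card + 2 = K.card := by
    rw [card_erase_of_mem (mem_erase.2 ⟨hyz.symm, hz⟩), card_erase_of_mem hy]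
    have : 2 ≤ K.card := h2.trans hl
    omega
  obtain ⟨M, hM1, hM2⟩ := exists_subset_card_eq
    (show l - 2 ≤ ((K.erase y).erase z).card by omega)
  have e1 : ∀ x ∈ M, x ≠ z ∧ x ≠ y ∧ x ∈ K := by
    intro x hx
    have := hM1 hx
    rwa [mem_erase, mem_erase] at this
  have hn : (y :: (M.toList ++ [z])).Nodup := by
    rw [List.nodup_cons, List.mem_append, List.mem_singleton, mem_toList, List.nodup_append]
    refine ⟨?_, M.nodup_toList, by simp, ?_⟩
    · rintro (h | h)
      · exact (e1 y h).2.1 rfl
      · exact hyz h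
    · intro u hu v hv huv
      rw [List.mem_singleton] at hv
      rw [mem_toList] at hu
      exact (e1 u hu).1 (huv.trans hv)
  have hmem : ∀ x ∈ y :: (M.toList ++ [z]), x ∈ K := by
    intro x hx
    rw [List.mem_cons, List.mem_append, List.mem_singleton, mem_toList] at hx
    rcases hx with rfl | hx | rfl
    · exact hy
    · exact (e1 x hx).2.2
    · exact hz
  refine ⟨y :: (M.toList ++ [z]), ⟨hn, chain_of_mem hK hn hmem⟩, hmem, rfl, ?_, ?_⟩
  · rw [← List.singleton_append, ← List.append_assoc, getLast?_append_cons' _ (by simp)]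
    rfl
  · simp only [List.length_cons, List.length_append, List.length_nil, length_toList, hM2]
    omega

theorem pp_close (hZ : Z ⊆ W) {y z : V} {l : ℕ} (hp : TPa G Z z y l) {q : List V}
    (hq : Bridge G (W \ Z) y z q) (hn : q.Nodup) (hlen : l + q.length = m) : HasCyc G W m := by
  obtain ⟨p, h1, h2, h3, h4, h5⟩ := hp
  obtain ⟨q1, q2, q3, q4, q5⟩ := hq
  refine close_path h1 (fun x hx => hZ (h2 x hx)) h3 h4 ⟨hn, q2⟩
    (fun x hx => (mem_sdiff.1 (q3 x hx)).1) ?_ q1 q4 q5 (by omega)
  intro x hx hxp
  exact (mem_sdiff.1 (q3 x hx)).2 (h2 x hxp)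

theorem clq_lt (hno : ¬ HasCyc G W m) (hm : 2 ≤ m) {Q : Finset V} (hQ : IsClq G Q)
    (hQW : Q ⊆ W) : Q.card < m := by
  by_contra hcon
  push Not at hcon
  obtain ⟨K1, h11, h12⟩ := exists_subset_card_eq hcon
  apply hno
  exact ⟨K1.toList, by rw [length_toList, h12],
    clique_cyc (fun x hx y hy => hQ x (h11 hx) y (h11 hy)) (by omega),
    fun x hx => hQW (h11 (mem_toList.1 hx))⟩

theorem touch_chain2 {D A B : Finset V} {u1 u2 : V} {ρ1 ρ2 : ℕ} (hu1 : u1 ∈ D) (hu2 : u2 ∈ D)
    (hA : u1 ∈ A) (hB : u2 ∈ B) (h : ¬ Far G (ball G D u1 ρ1) (ball G D u2 ρ2)) :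
    ∃ q, Chn G D A B q ∧ q.length ≤ ρ1 + ρ2 + 2 := by
  simp only [Far, not_forall] at h
  obtain ⟨x, hx, y, hy, hxy⟩ := h
  obtain ⟨p, p1, p2, p3, p4, p5⟩ := ball_chain ρ1 x hx
  obtain ⟨q, q1, q2, q3, q4, q5⟩ := ball_chain ρ2 y hy
  by_cases hxy' : x = y
  · subst hxy'
    obtain ⟨q', rfl⟩ : ∃ q', q = q' ++ [x] := by
      rcases q.eq_nil_or_concat with rfl | ⟨q', b, rfl⟩
      · simp at q4
      · rw [List.concat_eq_append, List.getLast?_append] at q4
        simp only [List.getLast?_singleton, Option.some_or, Option.some.injEq] at q4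
        exact ⟨q', by rw [List.concat_eq_append, q4]⟩
    refine ⟨p ++ q'.reverse, ⟨?_, ?_, ⟨u1, hA, ?_⟩, ⟨u2, hB, ?_⟩⟩, ?_⟩
    · rw [List.isChain_append]
      rw [List.isChain_append] at q1
      refine ⟨p1, chain_symm q1.1, ?_⟩
      intro a ha b hb
      rw [p4] at ha
      rw [List.head?_reverse] at hb
      simp only [Option.mem_def, Option.some.injEq] at ha
      rw [← ha]
      exact (q1.2.2 b hb x (by simp)).symm
    · intro z hz
      rw [List.mem_append, List.mem_reverse] at hz
      rcases hz with hz | hz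
      · exact ball_subset hu1 ρ1 (p2 z hz)
      · exact ball_subset hu2 ρ2 (q2 z (by simp [hz]))
    · rw [List.head?_append, p3]; rfl
    · rw [List.getLast?_append, List.getLast?_reverse]
      rw [List.head?_append] at q3
      rcases hq : q'.head? with _ | z
      · rw [hq] at q3
        simp only [List.head?_cons, Option.none_or, Option.some.injEq] at q3
        rw [p4, q3]; rfl
      · rw [hq] at q3
        simp only [Option.some_or, Option.some.injEq] at q3
        rw [q3]; rfl
    · rw [List.length_append, List.length_singleton] at q5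
      rw [List.length_append, List.length_reverse]
      omega
  · have hadj : G.Adj x y := by
      by_contra hn
      exact hxy ⟨hxy', hn⟩
    refine ⟨p ++ q.reverse, ⟨?_, ?_, ⟨u1, hA, ?_⟩, ⟨u2, hB, ?_⟩⟩, ?_⟩
    · rw [List.isChain_append]
      refine ⟨p1, chain_symm q1, ?_⟩
      intro a ha b hb
      rw [p4] at ha
      rw [List.head?_reverse, q4] at hb
      simp only [Option.mem_def, Option.some.injEq] at ha hb
      rw [← ha, ← hb]
      exact hadj
    · intro z hz
      rw [List.mem_append, List.mem_reverse] at hz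
      rcases hz with hz | hz
      · exact ball_subset hu1 ρ1 (p2 z hz)
      · exact ball_subset hu2 ρ2 (q2 z hz)
    · rw [List.head?_append, p3]; rfl
    · rw [List.getLast?_append, List.getLast?_reverse, q3]; rfl
    · rw [List.length_append, List.length_reverse]
      omega

/-- balls around outside neighbours of two hub vertices are far -/
theorem terr_far {O : Finset V} {y z x x' : V} {r r' : ℕ} (hx : x ∈ O) (hx' : x' ∈ O)
    (hxy : G.Adj y x) (hxz : G.Adj z x')
    (hbr : ∀ q, Bridge G O y z q → q.Nodup → q.length ≤ r + r' + 2 → False) :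
    Far G (ball G O x r) (ball G O x' r') := by
  by_contra hcon
  obtain ⟨q, hq, hl⟩ := touch_chain2 (A := {x}) (B := {x'}) hx hx' (mem_singleton_self _)
    (mem_singleton_self _) hcon
  obtain ⟨q', h1, h2, h3⟩ := bridge_nodup (O := O) (u := y) (u' := z) ⟨q, ⟨by
    rintro rfl
    obtain ⟨_, _, _, h⟩ := hq
    simp at h, hq.1, hq.2.1, by
    intro h hh
    obtain ⟨z, hz, hzq⟩ := hq.2.2.1
    rw [mem_singleton] at hz
    rw [hzq] at hh
    rw [← Option.some.inj hh, hz]
    exact hxy, by
    intro h hh
    obtain ⟨z, hz, hzq⟩ := hq.2.2.2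
    rw [mem_singleton] at hz
    rw [hzq] at hh
    rw [← Option.some.inj hh, hz]
    exact hxz.symm⟩, hl⟩
  exact hbr q' h1 h2 h3

/-- every vertex of a small set has an outside neighbour -/
theorem exists_nb (E : Env0 G W a m) (ha : 1 ≤ a) (hZ : Z ⊆ W) (hZc : Z.card < m) {y : V}
    (hy : y ∈ Z) : ∃ x ∈ W \ Z, G.Adj y x := by
  by_contra hcon
  push Not at hcon
  have := bc_deg ha (by omega) E.hW E.hcard E.hmin (hZ hy) (S := Z) hy (by
    intro z hz hadj
    by_contra hyZ
    exact hcon z (mem_sdiff.2 ⟨hz, hyZ⟩) hadj)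
  omega

/-- the ball of radius one around an outside vertex with one neighbour in `Z` is large -/
theorem ball_one_card (E : Env0 G W a m) {x y : V} (hx : x ∈ W \ Z)
    (h1 : ∀ z ∈ Z, y ≠ z → ¬ G.Adj z x) : m ≤ (ball G (W \ Z) x 1).card + 1 := by
  classical
  have h := nbhd_att E (r := 0) hx (J := {x}) (singleton_subset_iff.2 (self_mem_ball 0))
    (ind_singleton _) (by rw [card_singleton])
  rw [card_singleton, Nat.zero_add] at h
  have h2 : (Z.filter (Att G (ball G (W \ Z) x 0))).card ≤ 1 := by
    rw [← card_singleton y]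
    apply card_le_card
    intro z hz
    rw [mem_filter] at hz
    obtain ⟨hz1, w, hw, hzw⟩ := hz
    have hwx : w = x := mem_singleton.1 hw
    rw [mem_singleton]
    by_contra hne
    rw [hwx] at hzw
    exact h1 z hz1 (Ne.symm hne) hzw
  omega

theorem terr (E : Env0 G W a m) (ha : 1 ≤ a) (hZ : Z ⊆ W) (hZc : Z.card < m)
    (hω : ∀ K', K' ⊆ W → IsClq G K' → K'.card + 2 ≤ m) {Y : List V} (hYn : Y.Nodup)
    (hYZ : ∀ y ∈ Y, y ∈ Z)
    (hone : ∀ y ∈ Y, ∀ z ∈ Z, y ≠ z → ∀ v ∈ W \ Z, G.Adj y v → ¬ G.Adj z v)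
    (hbr : ∀ y ∈ Y, ∀ z ∈ Y, y ≠ z → ∀ q, Bridge G (W \ Z) y z q → q.Nodup →
      q.length ≤ 4 → False) : Y.length * 2 ≤ a := by
  classical
  have hX : ∀ y, ∃ x, y ∈ Y → x ∈ W \ Z ∧ G.Adj y x := by
    intro y
    by_cases hy : y ∈ Y
    · obtain ⟨x, h1, h2⟩ := exists_nb E ha hZ hZc (hYZ y hy)
      exact ⟨x, fun _ => ⟨h1, h2⟩⟩
    · exact ⟨y, fun h => absurd h hy⟩
  choose X hX using hX
  have hex := fun y => exists_alpha (G := G) (ball G (W \ Z) (X y) 1)
  choose I hI1 hI2 hI3 using hex
  obtain ⟨J, hJ1, hJ2, hJ3, _⟩ := far_sum (G := G) (U := W) (c := 2) Y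
    (fun y => ball G (W \ Z) (X y) 1) I (by
      refine List.Pairwise.imp_of_mem ?_ hYn
      intro y z hy hz hne
      exact terr_far (hX y hy).1 (hX z hz).1 (hX y hy).2 (hX z hz).2 (hbr y hy z hz hne)) (by
      intro y hy
      refine ⟨hI1 y, (ball_subset (hX y hy).1 1).trans sdiff_subset, hI2 y, ?_⟩
      by_contra hcon
      push Not at hcon
      have hcl : IsClq G (ball G (W \ Z) (X y) 1) :=
        alpha_one ((hI3 y).mono (Subset.refl _) (by omega))
      have h1 := hω _ ((ball_subset (hX y hy).1 1).trans sdiff_subset) hcl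
      have h2 := ball_one_card E (y := y) (hX y hy).1 (fun z hz hne =>
        hone y hy z hz hne _ (hX y hy).1 (hX y hy).2)
      omega)
  exact hJ3.trans (E.hW J hJ1 hJ2)

/-- no clique on `m - 2` vertices -/
theorem top2 (E : Env0 G W a m) (ha : 1 ≤ a) (ham : a + 1 ≤ m) (hm : 7 ≤ m) (hK : IsClq G K)
    (hKW : K ⊆ W) (hc : K.card + 2 = m)
    (hω : ∀ K', K' ⊆ W → IsClq G K' → K'.card + 2 ≤ m) : False := by
  classical
  by_cases hB : ∃ u ∈ W \ K, ∃ d1 ∈ K, ∃ d2 ∈ K, d1 ≠ d2 ∧ G.Adj u d1 ∧ G.Adj u d2
  · obtain ⟨u, hu, d1, hd1, d2, hd2, hdd, hud1, hud2⟩ := hB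
    rw [mem_sdiff] at hu
    have hZ : insert u K ⊆ W := insert_subset hu.1 hKW
    have hZc : (insert u K).card = K.card + 1 := card_insert_of_notMem hu.2
    -- paths from `u`
    have hpu : ∀ z ∈ K, ∀ l, 3 ≤ l → l ≤ K.card + 1 → TPa G (insert u K) u z l := by
      intro z hz l hl1 hl2
      obtain ⟨d, hd, hdz, hud⟩ : ∃ d ∈ K, d ≠ z ∧ G.Adj u d := by
        by_cases h : d1 = z
        · exact ⟨d2, hd2, fun h' => hdd (h.trans h'.symm), hud2⟩
        · exact ⟨d1, hd1, h, hud1⟩
      have h1 := pp_clq hK hd hz hdz (l := l - 1) (by omega) (by omega)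
      have h2 := (pp_one (G := G) (mem_singleton_self u)).app h1 (by
        intro v hv
        rw [mem_singleton] at hv
        rw [hv]; exact hu.2) hud
      have e : 1 + (l - 1) = l := by omega
      rw [e] at h2
      exact h2.mono (by rw [insert_eq])
    -- Hamiltonian path through `u`
    have hham : ∀ e1 ∈ K, ∀ e2 ∈ K, e1 ≠ e2 → G.Adj u e1 → G.Adj u e2 → ∀ y ∈ K, y ≠ e1 →
        y ≠ e2 → ∀ z ∈ K, z ≠ y → z ≠ e1 → TPa G (insert u K) y z (K.card + 1) := by
      intro e1 he1 e2 he2 hee hue1 hue2 y hy hy1 hy2 z hz hzy hze1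
      by_cases hze : z = e2
      · subst hze
        have h1 := pp_clq (hK.mono (erase_subset z K)) (mem_erase.2 ⟨hy2, hy⟩)
          (mem_erase.2 ⟨hee, he1⟩) hy1 (l := K.card - 1) (by omega) (by
            rw [card_erase_of_mem hz])
        have h2 := h1.app (pp_one (G := G) (mem_singleton_self u)) (by
          intro v hv hvu
          rw [mem_singleton] at hvu
          rw [hvu] at hv
          exact hu.2 (mem_of_mem_erase hv)) hue1.symm
        have h3 := h2.app (pp_one (G := G) (mem_singleton_self z)) (by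
          intro v hv hvz
          rw [mem_singleton] at hvz
          rw [hvz, mem_union, mem_erase, mem_singleton] at hv
          rcases hv with hv | hv
          · exact hv.1 rfl
          · rw [hv] at hz
            exact hu.2 hz) hue2
        have e : K.card - 1 + 1 + 1 = K.card + 1 := by omega
        rw [e] at h3
        refine h3.mono ?_
        intro v hv
        rw [mem_union, mem_union, mem_erase, mem_singleton, mem_singleton] at hv
        rw [mem_insert]
        rcases hv with (hv | hv) | hv
        · exact Or.inr hv.2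
        · exact Or.inl hv
        · rw [hv]; exact Or.inr hz
      · have h1 := pp_clq (K := (K.erase e2).erase z)
          (hK.mono ((erase_subset _ _).trans (erase_subset _ _)))
          (mem_erase.2 ⟨hzy.symm, mem_erase.2 ⟨hy2, hy⟩⟩)
          (mem_erase.2 ⟨Ne.symm hze1, mem_erase.2 ⟨hee, he1⟩⟩) hy1 (l := K.card - 2) (by omega) (by
            rw [card_erase_of_mem (mem_erase.2 ⟨hze, hz⟩), card_erase_of_mem he2]
            omega)
        have h2 := h1.app (pp_one (G := G) (mem_singleton_self u)) (by
          intro v hv hvu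
          rw [mem_singleton] at hvu
          rw [hvu] at hv
          exact hu.2 (mem_of_mem_erase (mem_of_mem_erase hv))) hue1.symm
        have h3 := h2.app (pp_one (G := G) (mem_singleton_self e2)) (by
          intro v hv hvz
          rw [mem_singleton] at hvz
          rw [hvz, mem_union, mem_erase, mem_erase, mem_singleton] at hv
          rcases hv with hv | hv
          · exact hv.2.1 rfl
          · rw [hv] at he2
            exact hu.2 he2) hue2
        have h4 := h3.app (pp_one (G := G) (mem_singleton_self z)) (by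
          intro v hv hvz
          rw [mem_singleton] at hvz
          rw [hvz, mem_union, mem_union, mem_erase, mem_erase, mem_singleton,
            mem_singleton] at hv
          rcases hv with (hv | hv) | hv
          · exact hv.1 rfl
          · rw [hv] at hz
            exact hu.2 hz
          · exact hze hv) (hK _ he2 _ hz (Ne.symm hze))
        have e : K.card - 2 + 1 + 1 + 1 = K.card + 1 := by omega
        rw [e] at h4
        refine h4.mono ?_
        intro v hv
        rw [mem_union, mem_union, mem_union, mem_erase, mem_erase, mem_singleton, mem_singleton,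
          mem_singleton] at hv
        rw [mem_insert]
        rcases hv with ((hv | hv) | hv) | hv
        · exact Or.inr hv.2.2
        · exact Or.inl hv
        · rw [hv]; exact Or.inr he2
        · rw [hv]; exact Or.inr hz
    have hpk : ∀ y ∈ K, y ≠ d1 → y ≠ d2 → ∀ z ∈ K, y ≠ z → ∀ l, 2 ≤ l → l ≤ K.card + 1 →
        TPa G (insert u K) y z l := by
      intro y hy hy1 hy2 z hz hyz l hl1 hl2
      rcases Nat.lt_or_ge l (K.card + 1) with h | h
      · exact (pp_clq hK hy hz hyz hl1 (by omega)).mono (subset_insert _ _)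
      · have e : l = K.card + 1 := by omega
        rw [e]
        by_cases hz1 : z = d1
        · exact hham d2 hd2 d1 hd1 hdd.symm hud2 hud1 y hy hy2 hy1 z hz hyz.symm (by
            rw [hz1]; exact hdd)
        · exact hham d1 hd1 d2 hd2 hdd hud1 hud2 y hy hy1 hy2 z hz hyz.symm hz1
    set Y : List V := u :: ((K.erase d1).erase d2).toList with hY
    have hYl : Y.length = K.card - 1 := by
      rw [hY, List.length_cons, length_toList, card_erase_of_mem (mem_erase.2 ⟨hdd.symm, hd2⟩),
        card_erase_of_mem hd1]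
      omega
    have hall : ∀ y ∈ Y, ∀ z ∈ insert u K, y ≠ z → ∀ l, 3 ≤ l → l ≤ K.card + 1 →
        TPa G (insert u K) y z l := by
      intro y hy z hz hyz l hl1 hl2
      rw [hY, List.mem_cons, mem_toList, mem_erase, mem_erase] at hy
      rw [mem_insert] at hz
      rcases hy with rfl | hy
      · rcases hz with rfl | hz
        · exact absurd rfl hyz
        · exact hpu z hz l hl1 hl2
      · rcases hz with rfl | hz
        · exact (hpu y hy.2.2 l hl1 hl2).rev
        · exact hpk y hy.2.2 hy.2.1 hy.1 z hz hyz l (by omega) hl2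
    have hfin := terr E ha hZ (by omega) hω (Y := Y) (by
        rw [hY, List.nodup_cons, mem_toList, mem_erase, mem_erase]
        exact ⟨fun h => hu.2 h.2.2, nodup_toList _⟩) (by
        intro y hy
        rw [hY, List.mem_cons, mem_toList, mem_erase, mem_erase] at hy
        rw [mem_insert]
        exact hy.imp id (fun h => h.2.2)) (by
        intro y hy z hz hyz v hv hyv hzv
        apply E.hno
        exact pp_close hZ (hall y hy z hz hyz (m - 1) (by omega) (by omega)).rev (q := [v])
          ⟨by simp, by simp, by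
            intro w hw
            rw [List.mem_singleton] at hw
            rw [hw]; exact hv, by
            intro w hw
            simp only [List.head?_cons, Option.mem_def, Option.some.injEq] at hw
            rw [← hw]; exact hyv, by
            intro w hw
            simp only [List.getLast?_singleton, Option.mem_def, Option.some.injEq] at hw
            rw [← hw]; exact hzv.symm⟩ (by simp) (by simp; omega)) (by
        intro y hy z hz hyz q hq hqn hql
        have hq1 : 1 ≤ q.length := List.length_pos_iff.2 hq.1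
        apply E.hno
        refine pp_close hZ (hall y hy z ?_ hyz (m - q.length) (by omega) (by omega)).rev hq hqn
          (by omega)
        rw [hY, List.mem_cons, mem_toList, mem_erase, mem_erase] at hz
        rw [mem_insert]
        exact hz.imp id (fun h => h.2.2))
    omega
  · push Not at hB
    have hfin := terr E ha hKW (by omega) hω (Y := K.toList) (nodup_toList _)
      (fun y hy => mem_toList.1 hy) (by
        intro y hy z hz hyz v hv hyv hzv
        exact hB v hv y (mem_toList.1 hy) z hz hyz hyv.symm hzv.symm) (by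
        intro y hy z hz hyz q hq hqn hql
        rw [mem_toList] at hy hz
        have hq1 : 1 ≤ q.length := List.length_pos_iff.2 hq.1
        rcases Nat.lt_or_ge 1 q.length with h | h
        · apply E.hno
          exact pp_close hKW (pp_clq hK hz hy hyz.symm (l := m - q.length) (by omega) (by omega))
            hq hqn (by omega)
        · obtain ⟨v, rfl⟩ : ∃ v, q = [v] := List.length_eq_one_iff.1 (by omega)
          exact hB v (hq.2.2.1 v (by simp)) y hy z hz hyz (hq.2.2.2.1 v (by simp)).symm
            (hq.2.2.2.2 v (by simp)))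
    rw [length_toList] at hfin
    omega

/-- no clique on `m - 1` vertices -/
theorem top1 (E : Env0 G W a m) (ha : 1 ≤ a) (ham : a + 1 ≤ m) (hm : 6 ≤ m) (hK : IsClq G K)
    (hKW : K ⊆ W) (hc : K.card + 1 = m) : False := by
  classical
  have hbr : ∀ y ∈ K, ∀ z ∈ K, y ≠ z → ∀ q, Bridge G (W \ K) y z q → q.Nodup →
      q.length ≤ 4 → False := by
    intro y hy z hz hyz q hq hqn hql
    have hq1 : 1 ≤ q.length := List.length_pos_iff.2 hq.1
    apply E.hno
    exact pp_close hKW (pp_clq hK hz hy hyz.symm (l := m - q.length) (by omega) (by omega))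
      hq hqn (by omega)
  have hone : ∀ y ∈ K, ∀ z ∈ K, y ≠ z → ∀ v ∈ W \ K, G.Adj y v → ¬ G.Adj z v := by
    intro y hy z hz hyz v hv hyv hzv
    exact hbr y hy z hz hyz [v]
      ⟨by simp, by simp, by
        intro w hw
        rw [List.mem_singleton] at hw
        rw [hw]; exact hv, by
        intro w hw
        simp only [List.head?_cons, Option.mem_def, Option.some.injEq] at hw
        rw [← hw]; exact hyv, by
        intro w hw
        simp only [List.getLast?_singleton, Option.mem_def, Option.some.injEq] at hw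
        rw [← hw]; exact hzv.symm⟩ (by simp) (by simp)
  have hX : ∀ y, ∃ x, y ∈ K → x ∈ W \ K ∧ G.Adj y x := by
    intro y
    by_cases hy : y ∈ K
    · obtain ⟨x, h1, h2⟩ := exists_nb E ha hKW (by omega) hy
      exact ⟨x, fun _ => ⟨h1, h2⟩⟩
    · exact ⟨y, fun h => absurd h hy⟩
  choose X hX using hX
  obtain ⟨z0, hz0⟩ : K.Nonempty := by rw [← card_pos]; omega
  obtain ⟨hx0, hzx0⟩ := hX z0 hz0
  -- the ball of radius two around `X z0`
  obtain ⟨I0, hI1, hI2, hI3⟩ := exists_alpha (G := G) (ball G (W \ K) (X z0) 2)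
  have hI4 : 2 ≤ I0.card := by
    by_contra hcon
    push Not at hcon
    have hcl : IsClq G (ball G (W \ K) (X z0) 2) :=
      alpha_one (hI3.mono (Subset.refl _) (by omega))
    set Q := ball G (W \ K) (X z0) 1 with hQ
    have hxQ : X z0 ∈ Q := self_mem_ball 1
    have hQ2 : Q ⊆ ball G (W \ K) (X z0) 2 := ball_mono (by omega)
    have hQcl : IsClq G Q := hcl.mono hQ2
    have hQO : Q ⊆ W \ K := ball_subset hx0 1
    have hQW : Q ⊆ W := hQO.trans sdiff_subset
    have hclosed : ∀ q ∈ Q, ∀ v ∈ W \ K, G.Adj q v → v ∈ Q := by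
      intro q hq v hv hqv
      have hv2 : v ∈ ball G (W \ K) (X z0) 2 := mem_ball_succ hv ⟨q, hq, hqv.symm⟩
      by_cases hvx : v = X z0
      · rw [hvx]; exact hxQ
      · exact mem_ball_succ hv ⟨X z0, self_mem_ball 0, hcl v hv2 _ (hQ2 hxQ) hvx⟩
    have hQc : m ≤ Q.card + 1 := ball_one_card E (y := z0) hx0 (fun z hz hne =>
      hone z0 hz0 z hz hne _ hx0 hzx0)
    have hQlt := clq_lt E.hno (by omega) hQcl hQW
    have hz0Q : z0 ∉ Q := fun h => (mem_sdiff.1 (hQO h)).2 hz0
    have hadj : ∀ q ∈ Q, G.Adj z0 q := by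
      intro q hq
      by_cases hqx : q = X z0
      · rw [hqx]; exact hzx0
      by_contra hnadj
      have := bc_deg ha (by omega) E.hW E.hcard E.hmin (hQW hq) (S := Q) hq (by
        intro v hv hqv
        by_contra hvQ
        have hvK : v ∈ K := by
          by_contra hvK
          exact hvQ (hclosed q hq v (mem_sdiff.2 ⟨hv, hvK⟩) hqv)
        have hvz : z0 ≠ v := by
          rintro rfl
          exact hnadj hqv.symm
        refine hbr z0 hz0 v hvK hvz [X z0, q] ⟨by simp, ?_, ?_, ?_, ?_⟩ ?_ (by simp)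
        · simp [hQcl _ hxQ _ hq (Ne.symm hqx)]
        · intro w hw
          rw [List.mem_cons, List.mem_singleton] at hw
          rcases hw with rfl | rfl
          · exact hx0
          · exact hQO hq
        · intro w hw
          simp only [List.head?_cons, Option.mem_def, Option.some.injEq] at hw
          rw [← hw]; exact hzx0
        · intro w hw
          simp only [List.getLast?_cons_cons, List.getLast?_singleton, Option.mem_def,
            Option.some.injEq] at hw
          rw [← hw]; exact hqv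
        · rw [List.nodup_cons, List.mem_singleton]
          exact ⟨Ne.symm hqx, by simp⟩)
      omega
    have h1 := clq_lt E.hno (by omega) (clq_insert hQcl hadj) (insert_subset (hKW hz0) hQW)
    rw [card_insert_of_notMem hz0Q] at h1
    omega
  -- the other vertices
  obtain ⟨J, hJ1, hJ2, hJ3, hJ4⟩ := far_sum (G := G) (U := W) (c := 1) (K.erase z0).toList
    (fun y => ball G (W \ K) (X y) 0) (fun y => {X y}) (by
      refine List.Pairwise.imp_of_mem ?_ (nodup_toList _)
      intro y z hy hz hne
      rw [mem_toList, mem_erase] at hy hz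
      exact terr_far (hX y hy.2).1 (hX z hz.2).1 (hX y hy.2).2 (hX z hz.2).2
        (fun q h1 h2 h3 => hbr y hy.2 z hz.2 hne q h1 h2 (by omega))) (by
      intro y hy
      rw [mem_toList, mem_erase] at hy
      refine ⟨Subset.refl _, (ball_subset (hX y hy.2).1 0).trans sdiff_subset, ind_singleton _,
        by rw [card_singleton]⟩)
  have hfar : ∀ x ∈ I0, ∀ y ∈ J, x ≠ y ∧ ¬ G.Adj x y := by
    intro x hx y hy
    obtain ⟨z, hz, hyz⟩ := hJ4 y hy
    rw [mem_toList, mem_erase] at hz
    exact terr_far (r := 2) (r' := 0) hx0 (hX z hz.2).1 hzx0 (hX z hz.2).2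
      (fun q h1 h2 h3 => hbr z0 hz0 z hz.2 (Ne.symm hz.1) q h1 h2 (by omega)) x (hI1 hx) y hyz
  have h1 := E.hW (I0 ∪ J) (union_subset (hI1.trans ((ball_subset hx0 2).trans sdiff_subset))
    hJ1) (by
      intro x hx y hy
      rw [mem_union] at hx hy
      rcases hx with hx | hx
      · rcases hy with hy | hy
        · exact hI2 x hx y hy
        · exact (hfar x hx y hy).2
      · rcases hy with hy | hy
        · exact fun h' => (hfar y hy x hx).2 h'.symm
        · exact hJ2 x hx y hy)
  rw [card_union_of_disjoint (by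
    rw [disjoint_left]
    intro x hx hx'
    exact (hfar x hx x hx').1 rfl)] at h1
  rw [length_toList, card_erase_of_mem hz0] at hJ3
  omega

end Vale.Agent.P048.L
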