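import Vale.Agent.P048.Rich

namespace Vale.Agent.P048.L

open Finset

variable {V : Type*} [DecidableEq V] {G : SimpleGraph V} {O : Finset V}

/-- a rooted tree with levels `Lev 0, ..., Lev h` inside `O` -/
structure Tree (G : SimpleGraph V) (O : Finset V) (h : ℕ) (Lev : ℕ → Finset V) (par : V → V) :
    Prop where
  root : ∀ x ∈ Lev 0, ∀ y ∈ Lev 0, x = y
  sub : ∀ i, i ≤ h → Lev i ⊆ O
  par : ∀ i, i < h → ∀ w ∈ Lev (i + 1), par w ∈ Lev i ∧ G.Adj w (par w)
  disj : ∀ i j, i ≤ h → j ≤ h → ∀ w ∈ Lev i, w ∈ Lev j → i = j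

variable {h : ℕ} {Lev : ℕ → Finset V} {par : V → V}

theorem Tree.up (T : Tree G O h Lev par) {w : V} (hw : w ∈ Lev h) : ∀ s, s ≤ h →
    par^[s] w ∈ Lev (h - s)
  | 0, _ => hw
  | s + 1, hs => by
    have ih := T.up hw s (by omega)
    rw [Function.iterate_succ_apply']
    have e : h - s = (h - (s + 1)) + 1 := by omega
    rw [e] at ih
    exact (T.par _ (by omega) _ ih).1

theorem Tree.up_adj (T : Tree G O h Lev par) {w : V} (hw : w ∈ Lev h) {s : ℕ} (hs : s + 1 ≤ h) :
    G.Adj (par^[s] w) (par^[s + 1] w) := by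
  have ih := T.up hw s (by omega)
  rw [Function.iterate_succ_apply']
  have e : h - s = (h - (s + 1)) + 1 := by omega
  rw [e] at ih
  exact (T.par _ (by omega) _ ih).2

theorem Tree.climb (T : Tree G O h Lev par) {u v : V} {p : List V} (hp : Pth G p)
    (hpL : ∀ x ∈ p, x ∈ Lev h) (hu : p.head? = some u) (hv : p.getLast? = some v) :
    ∀ i, i ≤ h → (∀ j, 1 ≤ j → j ≤ i → par^[j] u ≠ par^[j] v) →
      ∃ q, Pth G q ∧ q.length = p.length + 2 * i ∧ q.head? = some (par^[i] u) ∧
        q.getLast? = some (par^[i] v) ∧ ∀ x ∈ q, ∃ j, h - i ≤ j ∧ j ≤ h ∧ x ∈ Lev j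
  | 0, _, _ => ⟨p, hp, by omega, hu, hv, fun x hx => ⟨h, by omega, le_rfl, hpL x hx⟩⟩
  | i + 1, hi, hne => by
    have huL : u ∈ Lev h := hpL u (List.mem_of_mem_head? hu)
    have hvL : v ∈ Lev h := hpL v (List.mem_of_getLast? hv)
    obtain ⟨q, q1, q2, q3, q4, q5⟩ := T.climb hp hpL hu hv i (by omega)
      (fun j h1 h2 => hne j h1 (by omega))
    have hu' := T.up huL (i + 1) hi
    have hv' := T.up hvL (i + 1) hi
    have hnot : ∀ w ∈ Lev (h - (i + 1)), w ∉ q := by
      intro w hw hwq
      obtain ⟨j, h1, h2, h3⟩ := q5 w hwq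
      have := T.disj _ _ (by omega) h2 w hw h3
      omega
    refine ⟨par^[i + 1] u :: (q ++ [par^[i + 1] v]), ⟨?_, ?_⟩, ?_, rfl, ?_, ?_⟩
    · rw [List.nodup_cons, List.mem_append, List.mem_singleton, List.nodup_append]
      refine ⟨?_, q1.1, by simp, ?_⟩
      · rintro (h1 | h1)
        · exact hnot _ hu' h1
        · exact hne (i + 1) (by omega) le_rfl h1
      · intro a ha b hb hab
        rw [List.mem_singleton] at hb
        subst hb
        subst hab
        exact hnot _ hv' ha
    · rw [← List.singleton_append, List.isChain_append, List.isChain_append]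
      refine ⟨by simp, ⟨q1.2, by simp, ?_⟩, ?_⟩
      · intro a ha b hb
        rw [q4] at ha
        simp only [Option.mem_def, Option.some.injEq, List.head?_cons] at ha hb
        rw [← ha, ← hb]
        exact T.up_adj hvL hi
      · intro a ha b hb
        rw [List.head?_append, q3] at hb
        simp only [Option.mem_def, Option.some.injEq, List.getLast?_singleton,
          Option.some_or] at ha hb
        rw [← ha, ← hb]
        exact (T.up_adj huL hi).symm
    · simp only [List.length_cons, List.length_append, List.length_nil]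
      omega
    · rw [← List.singleton_append, ← List.append_assoc, getLast?_append_cons' _ (by simp)]
      rfl
    · intro x hx
      rw [List.mem_cons, List.mem_append, List.mem_singleton] at hx
      rcases hx with rfl | hx | rfl
      · exact ⟨_, le_rfl, by omega, hu'⟩
      · obtain ⟨j, h1, h2, h3⟩ := q5 x hx
        exact ⟨j, by omega, h2, h3⟩
      · exact ⟨_, le_rfl, by omega, hv'⟩

/-- Closing lemma. -/
theorem Tree.close (T : Tree G O h Lev par) {u v : V} {p : List V} (hp : Pth G p)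
    (hpL : ∀ x ∈ p, x ∈ Lev h) (hu : p.head? = some u) (hv : p.getLast? = some v) {s m : ℕ}
    (hs : s ≤ h) (heq : par^[s] u = par^[s] v) (hne : par^[s - 1] u ≠ par^[s - 1] v)
    (hm : p.length + 2 * s = m + 1) : HasCyc G O m := by
  have hs1 : 1 ≤ s := by
    rcases Nat.eq_zero_or_pos s with rfl | h
    · exact absurd heq hne
    · exact h
  have huL : u ∈ Lev h := hpL u (List.mem_of_mem_head? hu)
  have hvL : v ∈ Lev h := hpL v (List.mem_of_getLast? hv)
  have hne' : ∀ j, j ≤ s - 1 → par^[j] u ≠ par^[j] v := by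
    intro j hj h1
    apply hne
    obtain ⟨d, hd⟩ := Nat.exists_eq_add_of_le hj
    rw [hd, Nat.add_comm, Function.iterate_add_apply, Function.iterate_add_apply, h1]
  obtain ⟨q, q1, q2, q3, q4, q5⟩ := T.climb hp hpL hu hv (s - 1) (by omega)
    (fun j _ hj => hne' j hj)
  have hu' := T.up huL s hs
  obtain ⟨t, rfl⟩ : ∃ t, s = t + 1 := ⟨s - 1, by omega⟩
  rw [Nat.add_sub_cancel] at q2 q3 q4 q5
  have hqne : q ≠ [] := by
    rintro rfl
    simp at q3
  refine ⟨par^[t + 1] u :: q, ?_, ⟨?_, ?_, ?_⟩, ?_⟩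
  · rw [List.length_cons]; omega
  · rw [List.nodup_cons]
    refine ⟨?_, q1.1⟩
    intro hq
    obtain ⟨j, h1, h2, h3⟩ := q5 _ hq
    have := T.disj _ _ (by omega) h2 _ hu' h3
    omega
  · rw [← List.singleton_append, List.isChain_append]
    refine ⟨by simp, q1.2, ?_⟩
    intro a ha b hb
    rw [q3] at hb
    simp only [Option.mem_def, Option.some.injEq, List.getLast?_singleton] at ha hb
    rw [← ha, ← hb]
    exact (T.up_adj huL hs).symm
  · intro a ha b hb
    rw [← List.singleton_append, getLast?_append_cons' _ hqne, q4] at ha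
    simp only [Option.mem_def, Option.some.injEq, List.head?_cons] at ha hb
    rw [← ha, ← hb, heq]
    exact T.up_adj hvL hs
  · intro x hx
    rw [List.mem_cons] at hx
    rcases hx with rfl | hx
    · exact T.sub _ (by omega) hu'
    · obtain ⟨j, h1, h2, h3⟩ := q5 x hx
      exact T.sub j h2 h3

theorem Tree.root_eq (T : Tree G O h Lev par) {u v : V} (hu : u ∈ Lev h) (hv : v ∈ Lev h) :
    par^[h] u = par^[h] v := by
  have h1 := T.up hu h le_rfl
  have h2 := T.up hv h le_rfl
  rw [Nat.sub_self] at h1 h2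
  exact T.root _ h1 _ h2

/-- if `f` separates two elements of a set of leaves, then the height at which the set joins is
between `1` and `h` -/
theorem Tree.join_height (T : Tree G O h Lev par) {P : V → Prop} (hP : ∀ u, P u → u ∈ Lev h)
    {u0 v0 : V} (hu0 : P u0) (hv0 : P v0) (hne : u0 ≠ v0) :
    ∃ s, 1 ≤ s ∧ s ≤ h ∧ (∀ u v, P u → P v → par^[s] u = par^[s] v) ∧
      ∃ u v, P u ∧ P v ∧ par^[s - 1] u ≠ par^[s - 1] v := by
  classical
  have hex : ∃ s, ∀ u v, P u → P v → par^[s] u = par^[s] v :=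
    ⟨h, fun u v hu hv => T.root_eq (hP u hu) (hP v hv)⟩
  have h1 := Nat.find_spec hex
  have h2 : Nat.find hex ≤ h := Nat.find_min' hex
    (fun u v hu hv => T.root_eq (hP u hu) (hP v hv))
  have h3 : 1 ≤ Nat.find hex := by
    rcases Nat.eq_zero_or_pos (Nat.find hex) with h4 | h4
    · rw [h4] at h1
      exact absurd (h1 u0 v0 hu0 hv0) hne
    · exact h4
  refine ⟨Nat.find hex, h3, h2, h1, ?_⟩
  have h4 := Nat.find_min hex (show Nat.find hex - 1 < Nat.find hex by omega)
  push Not at h4
  obtain ⟨u, v, hu, hv, h5⟩ := h4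
  exact ⟨u, v, hu, hv, h5⟩

end Vale.Agent.P048.L
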