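import Vale.Agent.P048.EStep

namespace Vale.Agent.P048

open Finset

variable {V : Type*} [DecidableEq V]

theorem ham_aux {G : SimpleGraph V} {W D : Finset V} {s t : V} {l : List V}
    (hW : AlphaLe G W 2) (hl : STP G W s t l) (hst : s ≠ t)
    (hmax : ∀ l', STP G W s t l' → l'.length ≤ l.length)
    (hDW : D ⊆ W \ l.toFinset) (hDne : D.Nonempty)
    (hcl : ∀ x ∈ D, ∀ y ∈ W \ l.toFinset, G.Adj x y → y ∈ D) (hconn : Conn G D)
    (hbd : alpha G D = 1 → 2 ≤ (bd G W D).card) :
    bd G W D = {s, t} := by
  classical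
  have hDl : ∀ x ∈ l, x ∉ D := by
    intro x hx hxD
    have := hDW hxD
    rw [mem_sdiff] at this
    exact this.2 (List.mem_toFinset.2 hx)
  have hD : D ⊆ W := hDW.trans sdiff_subset
  have hlW : ∀ x ∈ l, x ∈ W := hl.mem
  have hsl : s ∈ l := List.mem_of_mem_head? (by rw [hl.hd]; rfl)
  have htl : t ∈ l := List.mem_of_getLast? hl.lt
  have key : ∀ (s t : V) (l' : List V), STP G W s t l' → (∀ x, x ∈ l' ↔ x ∈ l) →
      (∀ l'', STP G W s t l'' → l''.length ≤ l'.length) →
      (l'.dropLast.toFinset.filter (Att G D)).card + alpha G D ≤ 2 := by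
    intro s t l' hl' hmem hmax'
    obtain ⟨J, hJ1, hJ2, hJ3⟩ := exists_ind_alpha G D
    rw [← hJ3]
    have hDl' : ∀ x ∈ l', x ∉ D := fun x hx => hDl x ((hmem x).1 hx)
    apply ce_main (N := 3) hW (Subset.refl W) hl' (fun l'' h1 h2 => by
      have := hmax' l'' h1
      omega) hD hDl' (Subset.refl D) _ hJ1 hJ2
    intro u hu u' hu' _ ha ha'
    obtain ⟨q, h1, h2, h3⟩ := bridge_short hW hD (hl'.mem u' hu') (hDl' u' hu')
      (conn_bridge hconn ha ha')
    exact ⟨q, h1, h2, by omega⟩
  have h1 := key s t l hl (fun x => Iff.rfl) hmax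
  have hrev : STP G W t s l.reverse := by
    refine ⟨hl.pth.reverse, ?_, ?_, ?_⟩
    · rw [List.head?_reverse]; exact hl.lt
    · rw [List.getLast?_reverse]; exact hl.hd
    · intro x hx
      exact hl.mem x (List.mem_reverse.1 hx)
  have h2 := key t s l.reverse hrev (fun x => List.mem_reverse) (by
    intro l'' h''
    rw [List.length_reverse]
    have : STP G W s t l''.reverse := by
      refine ⟨h''.pth.reverse, ?_, ?_, ?_⟩
      · rw [List.head?_reverse]; exact h''.lt
      · rw [List.getLast?_reverse]; exact h''.hd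
      · intro x hx
        exact h''.mem x (List.mem_reverse.1 hx)
    have := hmax _ this
    rwa [List.length_reverse] at this)
  have hpos := alpha_pos (G := G) hDne
  have hbdl : ∀ y, y ∈ bd G W D → y ∈ l ∧ Att G D y := by
    intro y hy
    rw [mem_bd] at hy
    obtain ⟨hyW, hyD, x, hx, hxy⟩ := hy
    refine ⟨?_, x, hx, hxy.symm⟩
    by_contra hyl
    exact hyD (hcl x hx y (by
      rw [mem_sdiff]
      exact ⟨hyW, fun h => hyl (List.mem_toFinset.1 h)⟩) hxy)
  have ha1 : bd G W D ⊆ insert t (l.dropLast.toFinset.filter (Att G D)) := by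
    intro y hy
    obtain ⟨h3, h4⟩ := hbdl y hy
    rw [mem_insert, mem_filter, List.mem_toFinset]
    have h5 : l = l.dropLast ++ [t] := (List.dropLast_append_getLast? t hl.lt).symm
    rw [h5, List.mem_append, List.mem_singleton] at h3
    rcases h3 with h3 | h3
    · exact Or.inr ⟨h3, h4⟩
    · exact Or.inl h3
  have ha2 : bd G W D ⊆ insert s (l.reverse.dropLast.toFinset.filter (Att G D)) := by
    intro y hy
    obtain ⟨h3, h4⟩ := hbdl y hy
    rw [mem_insert, mem_filter, List.mem_toFinset]
    have h5 : l.reverse = l.reverse.dropLast ++ [s] :=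
      (List.dropLast_append_getLast? s hrev.lt).symm
    rw [← List.mem_reverse, h5, List.mem_append, List.mem_singleton] at h3
    rcases h3 with h3 | h3
    · exact Or.inr ⟨h3, h4⟩
    · exact Or.inl h3
  rcases Nat.lt_or_ge (alpha G D) 2 with hlt | hge
  · have hone : alpha G D = 1 := by omega
    have h3 := hbd hone
    have hc1 : (l.dropLast.toFinset.filter (Att G D)).card ≤ 1 := by omega
    have hc2 : (l.reverse.dropLast.toFinset.filter (Att G D)).card ≤ 1 := by omega
    have htnot : t ∉ l.dropLast := by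
      intro h
      have h5 : l = l.dropLast ++ [t] := (List.dropLast_append_getLast? t hl.lt).symm
      have h6 := hl.pth.1
      rw [h5, List.nodup_append] at h6
      exact h6.2.2 t h t (by simp) rfl
    have hsnot : s ∉ l.reverse.dropLast := by
      intro h
      have h5 : l.reverse = l.reverse.dropLast ++ [s] :=
        (List.dropLast_append_getLast? s hrev.lt).symm
      have h6 := hrev.pth.1
      rw [h5, List.nodup_append] at h6
      exact h6.2.2 s h s (by simp) rfl
    have htin : t ∈ bd G W D := by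
      by_contra hcon
      have : bd G W D ⊆ l.dropLast.toFinset.filter (Att G D) := by
        intro y hy
        have := ha1 hy
        rw [mem_insert] at this
        rcases this with rfl | this
        · exact absurd hy hcon
        · exact this
      have := card_le_card this
      omega
    have hsin : s ∈ bd G W D := by
      by_contra hcon
      have : bd G W D ⊆ l.reverse.dropLast.toFinset.filter (Att G D) := by
        intro y hy
        have := ha2 hy
        rw [mem_insert] at this
        rcases this with rfl | this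
        · exact absurd hy hcon
        · exact this
      have := card_le_card this
      omega
    symm
    apply eq_of_subset_of_card_le
    · intro y hy
      rw [mem_insert, mem_singleton] at hy
      rcases hy with rfl | rfl
      · exact hsin
      · exact htin
    · rw [card_pair hst]
      have := (card_le_card ha1).trans (card_insert_le _ _)
      omega
  · exfalso
    have hfull : alpha G D = 2 := le_antisymm (alpha_le (hW.mono hD le_rfl)) hge
    have hsD : s ∉ D := hDl s hsl
    have hex : ∃ x ∈ D, G.Adj x s := by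
      by_contra hcon
      push Not at hcon
      have := alpha_insert (Y := W) hD (hlW s hsl) hsD hcon
      have h2 := alpha_le hW
      omega
    obtain ⟨x, hx, hxs⟩ := hex
    have hsbd : s ∈ l.dropLast.toFinset.filter (Att G D) := by
      rw [mem_filter, List.mem_toFinset]
      refine ⟨?_, x, hx, hxs.symm⟩
      obtain ⟨w, B, hlB⟩ := stp_form hl hst
      rw [hlB]
      simp [List.dropLast]
    have := card_pos.2 ⟨s, hsbd⟩
    omega

omit [DecidableEq V] in
theorem cyc_of_stp {G : SimpleGraph V} {W : Finset V} {s t : V} {l : List V}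
    (h : STP G W s t l) (hts : G.Adj t s) : Cyc G l := by
  refine ⟨h.pth.1, h.pth.2, ?_⟩
  intro a ha b hb
  rw [h.lt] at ha
  rw [h.hd] at hb
  simp only [Option.mem_def, Option.some.injEq] at ha hb
  rw [← ha, ← hb]; exact hts

def t2 (t : ℕ) : ℕ → ℕ := fun n => if n = 0 then 1 else if n = 1 then t else 2 * t

theorem t2_mono {t : ℕ} (ht : 1 ≤ t) : Monotone (t2 t) := by
  apply monotone_nat_of_le_succ
  intro n
  rcases n with _ | _ | n
  · simp [t2]; omega
  · simp [t2]; omega
  · simp [t2]

theorem two_ham {G : SimpleGraph V} {W : Finset V} {t : ℕ} (ht : 3 ≤ t) (hW : AlphaLe G W 2)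
    (hc : 2 * t ≤ W.card) (hs : ∀ X, X ⊆ W → AlphaLe G X 1 → X.card < t) :
    ∃ c, Cyc G c ∧ c.length = W.card ∧ ∀ x ∈ c, x ∈ W := by
  classical
  have H : TMin G W (t2 t) 2 := by
    refine ⟨hW, by simpa [t2] using hc, ?_⟩
    intro c hc2 X hX hXc
    have : c = 0 ∨ c = 1 := by omega
    rcases this with rfl | rfl
    · have : X = ∅ := by
        rw [← not_nonempty_iff_eq_empty]
        intro hne
        have h1 := alpha_pos (G := G) hne
        have h2 := alpha_le hXc
        omega
      rw [this]; simp [t2]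
    · simpa [t2] using hs X hX hXc
  have hmono := t2_mono (t := t) (by omega)
  have hWne : W.Nonempty := by rw [← card_pos]; omega
  obtain ⟨x, hx⟩ := hWne
  have hP3 : ∃ c : List V, (Cyc G c ∧ (∀ x ∈ c, x ∈ W)) ∧ c.length = 3 := by
    have h1 := alpha_pos (G := G) (X := {x}) ⟨x, mem_singleton_self x⟩
    have h2 := tmin_nbr H hmono (singleton_subset_iff.2 hx) ⟨x, mem_singleton_self x⟩ h1
    rw [card_singleton] at h2
    have e1 : t2 t 2 = 2 * t := by simp [t2]
    have e2 : t2 t (2 - 1) = t := by simp [t2]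
    rw [e1, e2] at h2
    have hsub : bd G W {x} ⊆ W := fun y hy => (mem_bd.1 hy).1
    obtain ⟨l, hl1, hl2, hl3⟩ := path_of_alpha (b := 2) 1 (bd G W {x})
      (hW.mono hsub le_rfl) (by omega)
    rcases l with _ | ⟨p, _ | ⟨q, _ | ⟨r, l⟩⟩⟩
    · simp at hl1
    · simp at hl1
    · have hp := hl3 p (by simp)
      have hq := hl3 q (by simp)
      rw [mem_bd, mem_singleton] at hp hq
      obtain ⟨hpW, hpx, x', hx', hxp⟩ := hp
      obtain ⟨hqW, hqx, x'', hx'', hxq⟩ := hq
      rw [mem_singleton] at hx' hx''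
      subst hx'
      subst hx''
      have hpq : G.Adj p q := by
        have := hl2.2
        rw [List.isChain_cons_cons] at this
        exact this.1
      refine ⟨[x'', p, q], ⟨⟨?_, ?_, ?_⟩, ?_⟩, rfl⟩
      · simp only [List.nodup_cons, List.mem_cons, List.not_mem_nil, or_false, not_or,
          not_false_iff, List.nodup_nil, and_true]
        exact ⟨⟨fun h => hpx h.symm, fun h => hqx h.symm⟩, G.ne_of_adj hpq⟩
      · simp only [List.isChain_cons_cons, List.isChain_singleton, and_true]
        exact ⟨hxp, hpq⟩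
      · intro a ha b hb
        simp only [List.getLast?_cons_cons, List.getLast?_singleton, Option.mem_def,
          Option.some.injEq, List.head?_cons] at ha hb
        rw [← ha, ← hb]; exact hxq.symm
      · intro y hy
        simp only [List.mem_cons, List.not_mem_nil, or_false] at hy
        rcases hy with rfl | rfl | rfl
        · exact hx
        · exact hpW
        · exact hqW
    · simp at hl1
  have hbound : ∀ c : List V, Cyc G c → (∀ x ∈ c, x ∈ W) → c.length ≤ W.card := by
    intro c h1 h2
    rw [← List.toFinset_card_of_nodup h1.1]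
    apply card_le_card
    intro y hy
    exact h2 y (List.mem_toFinset.1 hy)
  obtain ⟨c, ⟨hcC, hcW⟩, hc3⟩ := Nat.findGreatest_spec (m := 3) (n := W.card)
    (P := fun n => ∃ c : List V, (Cyc G c ∧ (∀ x ∈ c, x ∈ W)) ∧ c.length = n) (by omega) hP3
  have hge3 : 3 ≤ c.length := by
    rw [hc3]
    exact Nat.le_findGreatest (P := fun n => ∃ c : List V, (Cyc G c ∧ (∀ x ∈ c, x ∈ W)) ∧
      c.length = n) (by omega) hP3
  have hmax : ∀ c' : List V, Cyc G c' → (∀ x ∈ c', x ∈ W) → c'.length ≤ c.length := by
    intro c' h1 h2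
    rw [hc3]
    exact Nat.le_findGreatest (P := fun n => ∃ c : List V, (Cyc G c ∧ (∀ x ∈ c, x ∈ W)) ∧
      c.length = n) (hbound c' h1 h2) ⟨c', ⟨h1, h2⟩, rfl⟩
  by_cases hfull : c.length = W.card
  · exact ⟨c, hcC, hfull, hcW⟩
  exfalso
  have hlt : c.length < W.card := lt_of_le_of_ne (hbound c hcC hcW) hfull
  obtain ⟨d, hd, hdc⟩ := exists_mem_notMem_of_card_lt_card
    (show c.toFinset.card < W.card by rw [List.toFinset_card_of_nodup hcC.1]; exact hlt)
  obtain ⟨D, hDY, hdD, hcl, hconn⟩ := exists_comp (G := G) (X := W \ c.toFinset) (d := d)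
    (by rw [mem_sdiff]; exact ⟨hd, hdc⟩)
  have hDW : D ⊆ W := hDY.trans sdiff_subset
  have hbd : alpha G D = 1 → 2 ≤ (bd G W D).card := by
    intro hone
    have h1 := tmin_nbr H hmono hDW ⟨d, hdD⟩ (le_of_eq hone.symm)
    have h2 := hs D hDW ((alphaLe_alpha G D).mono (Subset.refl _) (by omega))
    have e1 : t2 t 2 = 2 * t := by simp [t2]
    have e2 : t2 t (2 - 1) = t := by simp [t2]
    rw [e1, e2] at h1
    omega
  obtain ⟨x0, x1, x2, c', hcc⟩ : ∃ x0 x1 x2 c', c = x0 :: x1 :: x2 :: c' := by
    rcases c with _ | ⟨x0, _ | ⟨x1, _ | ⟨x2, c'⟩⟩⟩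
    · simp at hge3
    · simp at hge3
    · simp at hge3
    · exact ⟨x0, x1, x2, c', rfl⟩
  obtain ⟨xl, hxl⟩ := last_of_ne_nil (l := x2 :: c') (by simp)
  have hlast : c.getLast? = some xl := by
    rw [hcc, List.getLast?_cons_cons, List.getLast?_cons_cons]; exact hxl
  have hhead : c.head? = some x0 := by rw [hcc]; rfl
  have hadj : G.Adj xl x0 := hcC.2.2 xl hlast x0 hhead
  have hstp : STP G W x0 xl c := ⟨⟨hcC.1, hcC.2.1⟩, hhead, hlast, hcW⟩
  have h1 := ham_aux hW hstp (G.ne_of_adj hadj).symm
    (fun l' hl' => hmax l' (cyc_of_stp hl' hadj) hl'.mem) hDY ⟨d, hdD⟩ hcl hconn hbd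
  set r := x1 :: x2 :: c' with hr
  have hrot : Cyc G (r ++ [x0]) := by
    have : Cyc G ([x0] ++ r) := by
      rw [hr]
      simpa [hcc] using hcC
    exact this.rotate
  have hadj1 : G.Adj x0 x1 := by
    have := hcC.2.1
    rw [hcc, List.isChain_cons_cons] at this
    exact this.1
  have hmem : ∀ y, y ∈ r ++ [x0] ↔ y ∈ c := by
    intro y
    rw [hcc, hr]
    simp only [List.mem_append, List.mem_cons, List.not_mem_nil, or_false]
    tauto
  have hstp1 : STP G W x1 x0 (r ++ [x0]) := by
    refine ⟨⟨hrot.1, hrot.2.1⟩, ?_, ?_, ?_⟩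
    · rw [hr]; rfl
    · simp
    · intro y hy
      exact hcW y ((hmem y).1 hy)
  have hfs : (r ++ [x0]).toFinset = c.toFinset := by
    ext y
    rw [List.mem_toFinset, List.mem_toFinset]
    exact hmem y
  have hlen : (r ++ [x0]).length = c.length := by
    rw [hcc, hr]
    simp
  have h2 := ham_aux hW hstp1 (G.ne_of_adj hadj1).symm
    (fun l' hl' => by
      rw [hlen]
      exact hmax l' (cyc_of_stp hl' hadj1) hl'.mem) (by rw [hfs]; exact hDY) ⟨d, hdD⟩
    (by rw [hfs]; exact hcl) hconn hbd
  have hx1 : x1 ∈ ({x0, xl} : Finset V) := by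
    rw [← h1, h2]; simp
  rw [mem_insert, mem_singleton] at hx1
  have hnd := hcC.1
  rw [hcc, List.nodup_cons, List.nodup_cons] at hnd
  rcases hx1 with hx1 | hx1
  · have hx1r : x1 ∈ x1 :: x2 :: c' := List.mem_cons_self
    exact hnd.1 (hx1 ▸ hx1r)
  · have := List.mem_of_getLast? hxl
    rw [← hx1] at this
    exact hnd.2.1 this

end Vale.Agent.P048
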