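import Vale.Agent.P048.Chk

namespace Vale.Agent.P048

open Finset

variable {V : Type*} [DecidableEq V]

theorem upper_T2 {G : SimpleGraph V} {T : ℕ → ℕ} {t A m : ℕ} (ht : 3 ≤ t) (hm1 : t ≤ m)
    (hT : Monotone T) (hT0 : T 0 = 1) (hT1 : T 1 = t)
    (hAt : A < t) (hTa : ∀ a, 1 ≤ a → a ≤ A → T a ≤ (m - 1) * a + 1)
    (hnum : ∀ b, 2 ≤ b → b ≤ A → LevOK T m b) :
    ∀ a, a ≤ A → ∀ W : Finset V, AlphaLe G W a → (m - 1) * a + 1 ≤ W.card → HasCyc G W m := by
  classical
  intro a
  induction a with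
  | zero =>
    intro _ W hW hc
    have := card_zero_of_alphaLe hW
    omega
  | succ a ih =>
    intro haA W hW hc
    by_contra hno
    have hkl : ∀ F, F ⊆ W → F.card + 1 ≤ m → ∃ I, I ⊆ W \ F ∧ Ind G I ∧ I.card = a + 1 := by
      intro F hF hFc
      apply exists_ind_of_not_alphaLe
      intro hcon
      apply hno
      refine (ih (by omega) (W \ F) hcon ?_).mono sdiff_subset
      rw [card_sdiff_of_subset hF]
      have e : (m - 1) * (a + 1) = (m - 1) * a + (m - 1) := by ring
      omega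
    have hkt := kt (m := m) hW hkl
    have hP : ∃ b, 1 ≤ b ∧ ∃ W', W' ⊆ W ∧ AlphaLe G W' b ∧ T b ≤ W'.card :=
      ⟨a + 1, by omega, W, Subset.refl _, hW, (hTa (a + 1) (by omega) haA).trans hc⟩
    obtain ⟨hb1, W', hW'W, hW'a, hW'c⟩ := Nat.find_spec hP
    have hmin := fun c => @Nat.find_min _ _ hP c
    have hble : Nat.find hP ≤ a + 1 := Nat.find_min' hP
      ⟨by omega, W, Subset.refl _, hW, (hTa (a + 1) (by omega) haA).trans hc⟩
    set b := Nat.find hP with hbdef
    have hsmall : ∀ c, c < b → ∀ X, X ⊆ W' → AlphaLe G X c → X.card < T c := by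
      intro c hcb X hX hXc
      rcases Nat.eq_zero_or_pos c with rfl | hcpos
      · have := card_zero_of_alphaLe hXc
        omega
      · by_contra hcon
        exact hmin c hcb ⟨hcpos, X, hX.trans hW'W, hXc, by omega⟩
    rcases Nat.lt_or_ge b 2 with hb2 | hb2
    · have hb : b = 1 := by omega
      rw [hb] at hW'a hW'c
      rw [hT1] at hW'c
      obtain ⟨S, hS1, hS2⟩ := exists_subset_card_eq hW'c
      have hcl := alpha_one (hW'a.mono hS1 le_rfl)
      apply hno
      apply hkt (m - t) S.toList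
      · rw [length_toList, hS2]; omega
      · exact clique_cyc hcl (by omega)
      · intro x hx
        exact hW'W (hS1 (mem_toList.1 hx))
      · rw [toList_toFinset]
        exact notCol_of_clique hcl (by omega)
    · obtain ⟨z, v, x0, g, h, h1, h2, h3⟩ := hnum b hb2 (by omega)
      obtain ⟨c, hc1, hc2, hc3⟩ := engine h3 hT ⟨hW'a, hW'c, hsmall⟩ h1 h2
      exact hno ⟨c, hc2, hc1, fun x hx => hW'W (hc3 x hx)⟩

noncomputable def dg (N w b : ℕ) : ℕ := (N >>> (w * b)) % 2 ^ w

noncomputable def allb (P : ℕ → Bool) (n : ℕ) : Bool := Nat.rec true (fun i ih => P i && ih) n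

theorem allb_spec {P : ℕ → Bool} : ∀ {n : ℕ}, allb P n = true → ∀ i, i < n → P i = true
  | 0, _, i, hi => absurd hi (Nat.not_lt_zero i)
  | n + 1, h, i, hi => by
    have h' : (P n && allb P n) = true := h
    rw [Bool.and_eq_true] at h'
    rcases Nat.lt_or_ge i n with hin | hin
    · exact allb_spec h'.2 i hin
    · have : i = n := by omega
      rw [this]
      exact h'.1

noncomputable def chkT (N H A t1 t2 mlo mhi : ℕ) : Bool :=
  Nat.beq (dg N 20 1) 0 && (allb (fun i => Nat.ble (dg N 20 (i + 1)) (dg N 20 (i + 2)) &&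
    (Nat.beq (i + 2) A || Nat.ble (dg N 20 (i + 2) + dg N 20 (i + 2))
      (dg N 20 (i + 1) + dg N 20 (i + 3)))) (A - 1) &&
  allb (fun i => Nat.ble i 1 || chkB (dg N 20) t1 t2 mlo mhi i (dg H 8 i % 64) (dg H 8 i / 64))
    (A + 1))

theorem tab_of_chkT {N H A t1 t2 mlo mhi : ℕ} (h : chkT N H A t1 t2 mlo mhi = true) :
    Tab (dg N 20) A := by
  unfold chkT at h
  rw [Bool.and_eq_true, Bool.and_eq_true] at h
  obtain ⟨h1, h2, _⟩ := h
  have h2' := allb_spec h2
  refine ⟨Nat.eq_of_beq_eq_true h1, ?_, ?_⟩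
  · intro b hb1 hb2
    have := h2' (b - 1) (by omega)
    rw [Bool.and_eq_true, Nat.ble_eq] at this
    have e1 : b - 1 + 1 = b := by omega
    have e2 : b - 1 + 2 = b + 1 := by omega
    rw [e1, e2] at this
    exact this.1
  · intro b hb1 hb2
    have := h2' (b - 1) (by omega)
    rw [Bool.and_eq_true, Bool.or_eq_true, Nat.ble_eq, Nat.ble_eq] at this
    have e1 : b - 1 + 1 = b := by omega
    have e2 : b - 1 + 2 = b + 1 := by omega
    have e3 : b - 1 + 3 = b + 2 := by omega
    rw [e1, e2, e3] at this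
    rcases this.2 with h3 | h3
    · have := Nat.eq_of_beq_eq_true h3
      omega
    · exact h3

theorem upper_E {G : SimpleGraph V} {E : ℕ → ℕ} {A A' t m : ℕ} (hE : Tab E A)
    (ht : 3 ≤ t) (hm1 : t < m) (hAA : A' ≤ A) (hAt : A' < t) (hA1 : 1 ≤ A')
    (hEA : E A' ≤ (m - 1 - t) * A' + 1)
    (hnum : ∀ T : ℕ → ℕ, (∀ x, 1 ≤ x → x ≤ A → T x = t * x + E x) → T 0 = 1 →
      ∀ b, 2 ≤ b → b ≤ A' → LevOK T m b) :
    ∀ a, a ≤ A' → ∀ W : Finset V, AlphaLe G W a → (m - 1) * a + 1 ≤ W.card → HasCyc G W m := by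
  classical
  have hTv : ∀ x, 1 ≤ x → x ≤ A →
      (fun b => if b = 0 then 1 else t * b + E (min b A)) x = t * x + E x := by
    intro x hx hxA
    have h1 : x ≠ 0 := by omega
    simp only [h1, if_false, min_eq_left hxA]
  apply upper_T2 (T := fun b => if b = 0 then 1 else t * b + E (min b A)) ht hm1.le
  · intro x y hxy
    simp only []
    rcases Nat.eq_zero_or_pos x with rfl | hx
    · rcases Nat.eq_zero_or_pos y with rfl | hy
      · exact le_rfl
      · have h1 : y ≠ 0 := by omega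
        simp only [h1, if_true, if_false]
        have : t * 1 ≤ t * y := Nat.mul_le_mul_left _ hy
        omega
    · have h1 : x ≠ 0 := by omega
      have h2 : y ≠ 0 := by omega
      simp only [h1, h2, if_false]
      have a1 : t * x ≤ t * y := Nat.mul_le_mul_left _ hxy
      have a2 : E (min x A) ≤ E (min y A) := hE.le (by omega) (by omega) (by omega)
      omega
  · rfl
  · have := hTv 1 le_rfl (by omega)
    refine this.trans ?_
    rw [hE.e1]
    omega
  · exact hAt
  · intro a ha1 haA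
    refine (hTv a ha1 (by omega)).le.trans ?_
    have hst := hE.star ha1 haA hAA
    have e : (m - 1) * a = t * a + (m - 1 - t) * a := by
      rw [← Nat.add_mul]; congr 1; omega
    rw [e]
    have key : E a ≤ (m - 1 - t) * a + 1 := by
      by_contra hcon
      push Not at hcon
      have h1 : E A' * a ≤ ((m - 1 - t) * A' + 1) * a := Nat.mul_le_mul_right _ hEA
      have h2 : ((m - 1 - t) * a + 2) * A' ≤ E a * A' := Nat.mul_le_mul_right _ hcon
      have e1 : ((m - 1 - t) * a + 2) * A' = (m - 1 - t) * a * A' + 2 * A' := by ring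
      have e2 : ((m - 1 - t) * A' + 1) * a = (m - 1 - t) * a * A' + a := by ring
      rw [e2] at h1
      rw [e1] at h2
      omega
    omega
  · exact hnum _ hTv rfl

theorem upper_chk {G : SimpleGraph V} {N H A t1 t2 mlo mhi : ℕ}
    (h : chkT N H A t1 t2 mlo mhi = true) {t m : ℕ} (ht : 3 ≤ t) (ht1 : t1 ≤ t) (ht2 : t ≤ t2)
    (hm1 : mlo ≤ m) (hm2 : m ≤ mhi) (hmt : m ≤ 2 * t + 1) (htm : t < m) (hA : t ≤ A + 1)
    (hEA : dg N 20 (t - 1) ≤ (m - 1 - t) * (t - 1) + 1) :
    ∀ a, a < t → ∀ W : Finset V, AlphaLe G W a → (m - 1) * a + 1 ≤ W.card → HasCyc G W m := by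
  have hE := tab_of_chkT h
  intro a ha
  apply upper_E hE ht htm (show t - 1 ≤ A by omega) (by omega) (by omega) hEA
  · intro T hT _ b hb1 hb2
    unfold chkT at h
    rw [Bool.and_eq_true, Bool.and_eq_true] at h
    have h3 := allb_spec h.2.2 b (by omega)
    rw [Bool.or_eq_true, Nat.ble_eq] at h3
    rcases h3 with h3 | h3
    · omega
    · exact lev_of_chkB hE hb1 (by omega) ht1 ht2 (by omega) hm1 hm2 hmt hT h3
  · omega

end Vale.Agent.P048
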