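import Vale.Agent.P048.Final
import Vale.Agent.P048.Small
import Vale.Agent.P048.QAll
import Vale.Agent.P048.Large
import Vale.Agent.P048.BigClique
import Vale.Agent.P048.FinT
import Vale.Agent.P048.Small456
import Vale.Agent.P048.Small7
import Vale.Agent.P048.Small8
import Mathlib.Combinatorics.SimpleGraph.Clique
import Mathlib.Combinatorics.SimpleGraph.Paths

/-! P048: the theorem in terms of Mathlib's walks and independent sets. -/

namespace Vale.Agent.P048

open Finset

theorem walk_of_chain {V : Type*} {G : SimpleGraph V} : ∀ (l : List V) (a : V),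
    (a :: l).IsChain G.Adj → ∃ (b : V) (p : G.Walk a b), p.support = a :: l ∧
      (a :: l).getLast? = some b
  | [], a, _ => ⟨a, SimpleGraph.Walk.nil, rfl, rfl⟩
  | c :: l, a, h => by
    rw [List.isChain_cons_cons] at h
    obtain ⟨b, p, h1, h2⟩ := walk_of_chain l c h.2
    refine ⟨b, SimpleGraph.Walk.cons h.1 p, ?_, ?_⟩
    · rw [SimpleGraph.Walk.support_cons, h1]
    · rw [List.getLast?_cons_cons]
      exact h2

theorem walk_of_hasCyc {V : Type*} [DecidableEq V] {G : SimpleGraph V} {W : Finset V} {m : ℕ}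
    (hm : 3 ≤ m) (h : HasCyc G W m) : ∃ (v : V) (p : G.Walk v v), p.IsCycle ∧ p.length = m := by
  obtain ⟨l, hl, ⟨hn, hc, hlast⟩, _⟩ := h
  obtain ⟨a, t, rfl⟩ : ∃ a t, l = a :: t := by
    rcases l with _ | ⟨a, t⟩
    · rw [List.length_nil] at hl
      omega
    · exact ⟨a, t, rfl⟩
  obtain ⟨b, p, h1, h2⟩ := walk_of_chain t a hc
  have hba : G.Adj b a := hlast b h2 a rfl
  have hpl : p.length + 1 = m := by
    rw [← SimpleGraph.Walk.length_support, h1, hl]
  refine ⟨b, SimpleGraph.Walk.cons hba p, ?_, ?_⟩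
  · rw [SimpleGraph.Walk.isCycle_iff_isPath_tail_and_le_length]
    refine ⟨?_, ?_⟩
    · simp only [SimpleGraph.Walk.getVert_cons_succ, SimpleGraph.Walk.tail_cons,
        SimpleGraph.Walk.isPath_copy]
      rw [SimpleGraph.Walk.isPath_def, h1]
      exact hn
    · rw [SimpleGraph.Walk.length_cons]
      omega
  · rw [SimpleGraph.Walk.length_cons]
    exact hpl

theorem upper_any {V : Type*} [DecidableEq V] {G : SimpleGraph V} {m : ℕ} (hm : 4 ≤ m) :
    ∀ a, a + 1 ≤ m → ∀ W : Finset V, AlphaLe G W a → (m - 1) * a + 1 ≤ W.card →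
      HasCyc G W m := by
  intro a ha W hW hc
  have hm : m = 4 ∨ m = 5 ∨ m = 6 ∨ m = 7 ∨ m = 8 ∨ (9 ≤ m ∧ m < 17) ∨ (17 ≤ m ∧ m < 168) ∨
    (168 ≤ m ∧ m < 1992) ∨ 1992 ≤ m := by omega
  rcases hm with rfl | rfl | rfl | rfl | rfl | ⟨h1, h2⟩ | ⟨h1, h2⟩ | ⟨h1, h2⟩ | h1
  · exact L.upper_4 a ha W hW hc
  · exact L.upper_5 a ha W hW hc
  · exact L.upper_6 a ha W hW hc
  · exact L.upper_7 a ha W hW hc
  · exact L.upper_8 a ha W hW hc
  · exact L.upper_9_16 h1 (by omega) a ha W hW hc
  · exact L.upper_17 h1 (by omega) a ha W hW hc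
  · exact upper_midQ h1 (by omega) a (by omega) W hW hc
  · exact L.upper_large h1
      (fun a W ha ham hW hc hmin K hK hcl hk =>
        big_clique (by omega) ha ham hW hc hmin hK hcl hk) a (by omega) W hW hc

theorem alphaLe_of_free {V : Type*} [DecidableEq V] {G : SimpleGraph V} {W : Finset V} {n : ℕ}
    (hn : 1 ≤ n) (h : G.IndepSetFree n) : AlphaLe G W (n - 1) := by
  intro s _ hs
  by_contra hcon
  push Not at hcon
  obtain ⟨t, ht, htc⟩ := exists_subset_card_eq (show n ≤ s.card by omega)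
  refine h t ⟨?_, htc⟩
  intro x hx y hy _
  exact hs x (ht hx) y (ht hy)

theorem blocks_free {m n N : ℕ} (hn : 2 ≤ n) (hN : N ≤ (m - 1) * (n - 1)) :
    (blocks m N).IndepSetFree n := by
  intro t ht
  have hinj : Set.InjOn (fun u : Fin N => (u : ℕ) / (m - 1)) t := by
    intro a ha b hb hab
    by_contra hne
    exact ht.isIndepSet ha hb hne ⟨hne, hab⟩
  have hsub : t.image (fun u : Fin N => (u : ℕ) / (m - 1)) ⊆ Finset.range (n - 1) := by
    intro x hx
    obtain ⟨u, _, rfl⟩ := mem_image.1 hx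
    rw [Finset.mem_range]
    apply Nat.div_lt_of_lt_mul
    exact lt_of_lt_of_le u.isLt hN
  have := card_le_card hsub
  rw [card_image_of_injOn hinj, card_range, ht.card_eq] at this
  omega

theorem blocks_walk {m N : ℕ} {u v : Fin N} (p : (blocks m N).Walk u v) :
    ∀ w ∈ p.support, (w : ℕ) / (m - 1) = (v : ℕ) / (m - 1) := by
  induction p with
  | nil =>
    intro w hw
    rw [SimpleGraph.Walk.support_nil, List.mem_singleton] at hw
    rw [hw]
  | cons h q ih =>
    intro w hw
    rw [SimpleGraph.Walk.support_cons, List.mem_cons] at hw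
    rcases hw with rfl | hw
    · exact h.2.trans (ih _ q.start_mem_support)
    · exact ih w hw

theorem blocks_no_walk {m N : ℕ} (hm : 3 ≤ m) {v : Fin N} (p : (blocks m N).Walk v v)
    (hp : p.IsCycle) : p.length < m := by
  have h1 : p.support.tail.Nodup := hp.support_nodup
  have h2 : p.support.tail.length = p.length := by
    rw [List.length_tail, SimpleGraph.Walk.length_support, Nat.add_sub_cancel]
  have hsub : p.support.tail.toFinset.image (fun u : Fin N => (u : ℕ)) ⊆
      Finset.Ico ((v : ℕ) / (m - 1) * (m - 1)) ((v : ℕ) / (m - 1) * (m - 1) + (m - 1)) := by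
    intro x hx
    obtain ⟨u, hu, rfl⟩ := mem_image.1 hx
    rw [List.mem_toFinset] at hu
    have h3 := blocks_walk p u (List.mem_of_mem_tail hu)
    rw [Finset.mem_Ico]
    have h4 := Nat.div_add_mod (u : ℕ) (m - 1)
    have h5 := Nat.mod_lt (u : ℕ) (show 0 < m - 1 by omega)
    rw [h3] at h4
    have h6 : (v : ℕ) / (m - 1) * (m - 1) = (m - 1) * ((v : ℕ) / (m - 1)) := mul_comm _ _
    constructor <;> omega
  have h3 := card_le_card hsub
  rw [card_image_of_injective _ Fin.val_injective, List.toFinset_card_of_nodup h1, h2,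
    Nat.card_Ico] at h3
  omega

end Vale.Agent.P048
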